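import Crest.Agent.R183.Defs2

/-!
# rid 183, file `Asym`: elementary asymptotics of `UBe`, `LBe`, `psum`

Prefix helper lemmas with `as_`.  Pure real analysis.
-/

set_option autoImplicit false

open Filter

namespace Crest.Agent.R183

variable {h h' : ℕ → ℝ} {d : ℕ} {E E' : ℝ}

theorem as_lbe_iff : LBe h d E ↔ UBe (fun k => -h k) d (-E) := by
  refine forall₂_congr fun ε _ => eventually_congr (Eventually.of_forall fun k => ?_)
  constructor <;> intro H <;> linarith

theorem as_ube_iff : UBe h d E ↔ LBe (fun k => -h k) d (-E) := by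
  rw [as_lbe_iff]
  simp only [neg_neg]

theorem as_ev {g : ℕ → ℝ} {F G : ℝ} (H : Tendsto (fun k : ℕ => g k / (k : ℝ) ^ d) atTop (nhds F))
    (hG : F < G) : ∀ᶠ k : ℕ in atTop, g k ≤ G * (k : ℝ) ^ d := by
  filter_upwards [H.eventually (ge_mem_nhds hG), eventually_gt_atTop 0] with k h1 h2
  rwa [div_le_iff₀ (by positivity)] at h1

theorem as_lin {φ : ℕ → ℝ} {a K : ℝ} (H : ∀ k : ℕ, |φ k - a * k| ≤ K) :
    Tendsto (fun k : ℕ => φ k / k) atTop (nhds a) := by
  have h1 : Tendsto (fun k : ℕ => (φ k - a * k) / k) atTop (nhds 0) := by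
    refine squeeze_zero_norm (fun k => ?_) (tendsto_const_div_atTop_nhds_zero_nat K)
    rw [Real.norm_eq_abs, abs_div, Nat.abs_cast]
    exact div_le_div_of_nonneg_right (H k) (Nat.cast_nonneg k)
  have h2 := h1.add_const a
  rw [zero_add] at h2
  refine h2.congr' ?_
  filter_upwards [eventually_gt_atTop 0] with k hk
  have : (k : ℝ) ≠ 0 := by positivity
  field_simp
  ring

theorem as_comp (H : UBe h d E) {φ : ℕ → ℕ} {a K : ℝ} (ha : 0 < a)
    (hφ : ∀ k : ℕ, |(φ k : ℝ) - a * k| ≤ K) : UBe (fun k => h (φ k)) d (E * a ^ d) := by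
  intro ε hε
  have h0 : 0 < a ^ d := by positivity
  have h1 : Tendsto φ atTop atTop := by
    rw [← tendsto_natCast_atTop_iff (R := ℝ)]
    refine tendsto_atTop_mono (f := fun k : ℕ => a * k + -K)
      (fun k => by linarith [(abs_le.1 (hφ k)).1]) ?_
    exact tendsto_atTop_add_const_right _ _ (tendsto_natCast_atTop_atTop.const_mul_atTop ha)
  have h2 := h1.eventually (H (ε / 2 / a ^ d) (by positivity))
  have h3 := ((as_lin hφ).pow d).const_mul (E + ε / 2 / a ^ d)
  simp only [div_pow, ← mul_div_assoc] at h3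
  have h4 := as_ev h3 (G := E * a ^ d + ε) (by
    rw [add_mul, div_mul_cancel₀ _ h0.ne']
    linarith)
  filter_upwards [h2, h4] with k a1 a2
  exact a1.trans a2

theorem UBe.of_le (H : UBe h' d E) (hle : ∀ᶠ k in atTop, h k ≤ h' k) : UBe h d E := by
  intro ε hε
  filter_upwards [H ε hε, hle] with k h1 h2
  exact (mul_le_mul_of_nonneg_left h2 (Nat.cast_nonneg _)).trans h1

theorem LBe.of_le (H : LBe h d E) (hle : ∀ᶠ k in atTop, h k ≤ h' k) : LBe h' d E := by
  intro ε hε
  filter_upwards [H ε hε, hle] with k h1 h2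
  exact h1.trans (mul_le_mul_of_nonneg_left h2 (Nat.cast_nonneg _))

theorem UBe.mono (H : UBe h d E) (hE : E ≤ E') : UBe h d E' := by
  intro ε hε
  filter_upwards [H ε hε] with k h1
  exact h1.trans (mul_le_mul_of_nonneg_right (by linarith) (by positivity))

theorem LBe.mono (H : LBe h d E) (hE : E' ≤ E) : LBe h d E' := by
  intro ε hε
  filter_upwards [H ε hε] with k h1
  exact le_trans (mul_le_mul_of_nonneg_right (by linarith) (by positivity)) h1

theorem UBe.of_forall (H : ∀ ε : ℝ, 0 < ε → UBe h d (E + ε)) : UBe h d E := by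
  intro ε hε
  have := H (ε / 2) (half_pos hε) (ε / 2) (half_pos hε)
  rwa [add_assoc, add_halves] at this

theorem LBe.of_forall (H : ∀ ε : ℝ, 0 < ε → LBe h d (E - ε)) : LBe h d E := by
  intro ε hε
  have := H (ε / 2) (half_pos hε) (ε / 2) (half_pos hε)
  rwa [sub_sub, add_halves] at this

theorem UBe.add (H : UBe h d E) (H' : UBe h' d E') : UBe (fun k => h k + h' k) d (E + E') := by
  intro ε hε
  filter_upwards [H (ε / 2) (half_pos hε), H' (ε / 2) (half_pos hε)] with k h1 h2
  linarith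

theorem LBe.sub (H : LBe h d E) (H' : UBe h' d E') : LBe (fun k => h k - h' k) d (E - E') := by
  intro ε hε
  filter_upwards [H (ε / 2) (half_pos hε), H' (ε / 2) (half_pos hε)] with k h1 h2
  linarith

theorem UBe.const_mul (H : UBe h d E) {c : ℝ} (hc : 0 ≤ c) : UBe (fun k => c * h k) d (c * E) := by
  intro ε hε
  filter_upwards [H (ε / (c + 1)) (by positivity)] with k h1
  have h2 := mul_le_mul_of_nonneg_left h1 hc
  have h3 : c * (ε / (c + 1)) ≤ ε := by
    rw [← mul_div_assoc, div_le_iff₀ (by positivity)]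
    linarith
  have h4 := mul_le_mul_of_nonneg_right h3 (show 0 ≤ (k : ℝ) ^ d by positivity)
  linarith

theorem LBe.const_mul (H : LBe h d E) {c : ℝ} (hc : 0 ≤ c) : LBe (fun k => c * h k) d (c * E) := by
  rw [as_lbe_iff] at H ⊢
  simpa only [mul_neg] using H.const_mul hc

theorem LBe.le_of_ube (H : LBe h d E) (H' : UBe h d E') : E ≤ E' := by
  refine le_of_forall_pos_le_add fun ε hε => ?_
  obtain ⟨k, h1, h2, h3⟩ := ((H (ε / 2) (half_pos hε)).and ((H' (ε / 2) (half_pos hε)).and
    (eventually_gt_atTop 0))).exists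
  have h4 := le_of_mul_le_mul_right (h1.trans h2) (by positivity)
  linarith

theorem LBe.leMult (H : LBe h d E) : LeMult h d E := fun _ H' => H.le_of_ube H'

/-- `(k + K)^d / k^d → 1`. -/
theorem UBe.shift (H : UBe h d E) (K : ℕ) : UBe (fun k => h (k + K)) d E := by
  simpa only [one_pow, mul_one] using as_comp H (φ := fun k => k + K) (K := K) one_pos
    fun k => by simp

theorem LBe.shift (H : LBe h d E) (K : ℕ) : LBe (fun k => h (k - K)) d E := by
  rw [as_lbe_iff] at H ⊢
  simpa only [one_pow, mul_one] using as_comp H (φ := fun k => k - K) (K := K) one_pos fun k => by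
    have h1 : ((k - K : ℕ) : ℝ) ≤ k := by exact_mod_cast Nat.sub_le k K
    have h2 : (k : ℝ) ≤ (k - K : ℕ) + K := by exact_mod_cast le_tsub_add
    rw [abs_le]
    constructor <;> linarith [Nat.cast_nonneg (α := ℝ) K]

theorem as_pow (d : ℕ) : UBe (fun k => (k : ℝ) ^ d) d d.factorial := fun ε hε =>
  Eventually.of_forall fun k => mul_le_mul_of_nonneg_right (by linarith) (by positivity)

theorem as_succ (H : UBe h d E) : UBe h (d + 1) 0 := by
  intro ε hε
  filter_upwards [H 1 one_pos, tendsto_natCast_atTop_atTop.eventually_ge_atTop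
    (((d : ℝ) + 1) * (E + 1) / ε)] with k h1 h2
  rw [div_le_iff₀ hε] at h2
  have h3 := mul_le_mul_of_nonneg_left h1 (show (0 : ℝ) ≤ d + 1 by positivity)
  have h4 := mul_le_mul_of_nonneg_right h2 (show (0 : ℝ) ≤ (k : ℝ) ^ d by positivity)
  rw [Nat.factorial_succ, pow_succ]
  push_cast
  linarith

theorem ube_of_le_poly {C : ℝ} (H : ∀ k : ℕ, h k ≤ C * ((k : ℝ) + 1) ^ d) (hC : 0 ≤ C) :
    UBe h d (d.factorial * C) := by
  rw [mul_comm]
  refine (((as_pow d).shift 1).const_mul hC).of_le (Eventually.of_forall fun k => ?_)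
  simpa only [Nat.cast_add, Nat.cast_one] using H k

theorem ube_zero_of_le_poly {C : ℝ} (H : ∀ k : ℕ, h k ≤ C * ((k : ℝ) + 1) ^ d) : UBe h (d + 1) 0 := by
  exact as_succ (ube_of_le_poly (C := |C|) (fun k => (H k).trans
    (mul_le_mul_of_nonneg_right (le_abs_self C) (by positivity))) (abs_nonneg C))

/-- The infimum of the upper bounds. -/
theorem exists_ube_leMult (h0 : ∀ k, 0 ≤ h k) (H : UBe h d E) : ∃ E0, UBe h d E0 ∧ LeMult h d E0 := by
  have h1 : LBe h d 0 := fun ε hε => Eventually.of_forall fun k =>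
    le_trans (mul_nonpos_of_nonpos_of_nonneg (by linarith) (by positivity))
      (mul_nonneg (Nat.cast_nonneg _) (h0 k))
  have hb : BddBelow {F | UBe h d F} := ⟨0, fun F hF => h1.le_of_ube hF⟩
  refine ⟨sInf {F | UBe h d F}, UBe.of_forall fun ε hε => ?_, fun F hF => csInf_le hb hF⟩
  obtain ⟨F, hF, hlt⟩ := exists_lt_of_csInf_lt (s := {F | UBe h d F}) ⟨E, H⟩
    (lt_add_of_pos_right _ hε)
  exact UBe.mono hF hlt.le

theorem as_choose_bd (k d : ℕ) :
    (k : ℝ) ^ d ≤ (d.factorial : ℝ) * ((k + d - 1).choose d : ℕ) ∧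
      (d.factorial : ℝ) * ((k + d - 1).choose d : ℕ) ≤ ((k : ℝ) + d) ^ d := by
  constructor
  · exact_mod_cast (Nat.pow_succ_le_ascFactorial k d).trans_eq
      (Nat.ascFactorial_eq_factorial_mul_choose' k d)
  · have h1 := (Nat.descFactorial_le_pow (k + d - 1) d).trans
      (Nat.pow_le_pow_left (Nat.sub_le (k + d) 1) d)
    rw [Nat.descFactorial_eq_factorial_mul_choose] at h1
    exact_mod_cast h1

theorem as_lin_pow (a : ℝ) (d : ℕ) :
    Tendsto (fun k : ℕ => ((k : ℝ) + a) ^ d / (k : ℝ) ^ d) atTop (nhds 1) := by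
  simpa only [div_pow, one_pow] using
    (as_lin (φ := fun k : ℕ => (k : ℝ) + a) (a := 1) (K := |a|) fun k => by simp).pow d

theorem as_b (d : ℕ) : Tendsto
    (fun k : ℕ => (d.factorial : ℝ) * ((k + d).choose d : ℕ) / (k : ℝ) ^ d) atTop (nhds 1) := by
  refine tendsto_of_tendsto_of_tendsto_of_le_of_le (as_lin_pow 1 d) (as_lin_pow (1 + d) d)
    (fun k => ?_) (fun k => ?_)
  · have := (as_choose_bd (k + 1) d).1
    rw [show k + 1 + d - 1 = k + d by omega, Nat.cast_succ] at this
    exact div_le_div_of_nonneg_right this (by positivity)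
  · have := (as_choose_bd (k + 1) d).2
    rw [show k + 1 + d - 1 = k + d by omega, Nat.cast_succ, add_assoc] at this
    exact div_le_div_of_nonneg_right this (by positivity)

theorem ube_choose (hd : 0 < d) : UBe (fun k => (((k + d - 1).choose d : ℕ) : ℝ)) d 1 := by
  intro ε hε
  filter_upwards [as_ev (as_lin_pow d d) (lt_add_of_pos_right 1 hε)] with k h1
  exact (as_choose_bd k d).2.trans h1

theorem lbe_choose (hd : 0 < d) : LBe (fun k => (((k + d - 1).choose d : ℕ) : ℝ)) d 1 := by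
  intro ε hε
  refine Eventually.of_forall fun k => le_trans ?_ (as_choose_bd k d).1
  exact mul_le_of_le_one_left (by positivity) (by linarith)

/-- `∑_{j ≤ k} j^d ~ k^(d+1) / (d+1)`. -/
theorem UBe.psum (H : UBe h d E) : UBe (psum h) (d + 1) E := by
  intro ε hε
  have hd : (0 : ℝ) < d.factorial := by positivity
  have h1 := ((as_b d).const_mul (-(E + ε / 2)))
  simp only [← mul_div_assoc] at h1
  obtain ⟨K, hK⟩ := eventually_atTop.1 ((H (ε / 4) (by positivity)).and
    (as_ev h1 (G := -(E + ε / 4)) (by linarith)))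
  have h2 : ∀ k, K ≤ k → h k ≤ (E + ε / 2) * ((k + d).choose d : ℕ) := fun k hk =>
    le_of_mul_le_mul_left (by linarith [(hK k hk).1, (hK k hk).2]) hd
  obtain ⟨C, hC⟩ : ∃ C, C = ∑ j ∈ Finset.range K, (h j - (E + ε / 2) * ((j + d).choose d : ℕ)) :=
    ⟨_, rfl⟩
  have h3 : ∀ k, K ≤ k →
      R183.psum h k ≤ C + (E + ε / 2) * ((k + (d + 1)).choose (d + 1) : ℕ) := fun k hk => by
    rw [← add_assoc, ← Nat.sum_range_add_choose, Nat.cast_sum, Finset.mul_sum, R183.psum,
      ← sub_le_iff_le_add, ← Finset.sum_sub_distrib, hC]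
    refine Finset.sum_le_sum_of_subset_of_nonpos' (Finset.range_mono (by omega)) fun j _ hj => ?_
    have := h2 j (by simpa using hj)
    linarith
  have h4 : Tendsto (fun k : ℕ => ((d + 1).factorial * C : ℝ) / (k : ℝ) ^ (d + 1)) atTop (nhds 0) :=
    tendsto_const_nhds.div_atTop
      ((tendsto_pow_atTop d.succ_ne_zero).comp tendsto_natCast_atTop_atTop)
  have h5 := h4.add ((as_b (d + 1)).const_mul (E + ε / 2))
  simp only [← mul_div_assoc, ← add_div] at h5
  filter_upwards [as_ev h5 (G := E + ε) (by linarith), eventually_ge_atTop K] with k a1 a2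
  have := mul_le_mul_of_nonneg_left (h3 k a2) (show (0 : ℝ) ≤ (d + 1).factorial by positivity)
  linarith

theorem LBe.psum (H : LBe h d E) : LBe (psum h) (d + 1) E := by
  rw [as_lbe_iff] at H ⊢
  refine H.psum.of_le (Eventually.of_forall fun k => le_of_eq ?_)
  simp only [R183.psum, Finset.sum_neg_distrib]

theorem psum_iter_mono (hle : ∀ k, h k ≤ h' k) (j k : ℕ) : psum^[j] h k ≤ psum^[j] h' k := by
  induction j generalizing k with
  | zero => exact hle k
  | succ j ih =>
    rw [Function.iterate_succ_apply', Function.iterate_succ_apply']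
    exact Finset.sum_le_sum fun i _ => ih i

theorem UBe.psum_iter (H : UBe h d E) (j : ℕ) : UBe (R183.psum^[j] h) (d + j) E := by
  induction j with
  | zero => exact H
  | succ j ih =>
    rw [Function.iterate_succ_apply']
    exact ih.psum

theorem LBe.psum_iter (H : LBe h d E) (j : ℕ) : LBe (R183.psum^[j] h) (d + j) E := by
  induction j with
  | zero => exact H
  | succ j ih =>
    rw [Function.iterate_succ_apply']
    exact ih.psum

theorem ube_of_tendsto (H : Tendsto (fun N : ℕ => (d.factorial : ℝ) * h N / (N : ℝ) ^ d) atTop (nhds E)) :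
    UBe h d E := by
  exact fun ε hε => as_ev H (lt_add_of_pos_right E hε)

theorem lbe_of_tendsto (H : Tendsto (fun N : ℕ => (d.factorial : ℝ) * h N / (N : ℝ) ^ d) atTop (nhds E)) :
    LBe h d E := by
  rw [as_lbe_iff]
  refine ube_of_tendsto ?_
  simpa only [mul_neg, neg_div] using H.neg

/-- Used with `h k ≤ c * choose (⌈k / t⌉ + …)`-type bounds: if `h (t * (k + a)) ≤ c * (k + d - 1).choose d`
for all `k` and `h` is monotone then `limsup d! h(k) / k^d ≤ c / t^d`. -/
theorem ube_of_dilate (hd : 0 < d) (hm : Monotone h) {t : ℕ} (ht : 0 < t) {c : ℝ} (hc : 0 ≤ c)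
    (H : ∀ k : ℕ, h (t * k) ≤ c * (((k + d - 1).choose d : ℕ) : ℝ)) : UBe h d (c / (t : ℝ) ^ d) := by
  have ht' : (0 : ℝ) < t := by exact_mod_cast ht
  have h1 := as_comp ((ube_choose hd).const_mul hc) (φ := fun k => ⌈(t : ℝ)⁻¹ * k⌉₊)
    (a := (t : ℝ)⁻¹) (K := 1) (by positivity) fun k => by
      have a1 := Nat.le_ceil ((t : ℝ)⁻¹ * k)
      have a2 := Nat.ceil_lt_add_one (show 0 ≤ (t : ℝ)⁻¹ * k by positivity)
      rw [abs_le]
      constructor <;> linarith
  rw [mul_one, inv_pow, ← div_eq_mul_inv] at h1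
  refine h1.of_le (Eventually.of_forall fun k => le_trans (hm ?_) (H _))
  have a1 := mul_le_mul_of_nonneg_left (Nat.le_ceil ((t : ℝ)⁻¹ * k)) ht'.le
  rw [mul_inv_cancel_left₀ ht'.ne'] at a1
  exact_mod_cast a1

end Crest.Agent.R183
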