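import Crest.Agent.R183.PS

/-!
# rid 183, file `Cohen`: coefficient rings of complete local rings

Prefix helper lemmas with `ch_`.  No Noetherian hypothesis in the first three theorems.
-/

set_option autoImplicit false

open Filter IsLocalRing

namespace Crest.Agent.R183

/-- `R` is a `ℚ`-algebra (integers are units); `ResidueField R` is formally smooth over `ℚ`
(`Mathlib/RingTheory/Smooth/Field.lean`, transcendence basis + separable algebraic), and
`Algebra.FormallySmooth.exists_mkₐ_comp_eq_of_isAdicComplete` lifts the identity. -/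
theorem cohen0 (R : Type) [CommRing R] [IsLocalRing R] [IsAdicComplete (maximalIdeal R) R]
    [CharZero (ResidueField R)] : ∃ s : ResidueField R →+* R, ∀ a, residue R (s a) = a := by
  have hu : ∀ n : ℕ, n ≠ 0 → IsUnit (n : R) := fun n hn => by
    rw [← residue_ne_zero_iff_isUnit, map_natCast]
    exact Nat.cast_ne_zero.mpr hn
  let f : ℚ →+* R := IsLocalization.lift (M := nonZeroDivisors ℤ) (g := Int.castRingHom R) (S := ℚ)
    fun y => by
      rw [← residue_ne_zero_iff_isUnit, eq_intCast, map_intCast]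
      exact Int.cast_ne_zero.mpr (nonZeroDivisors.coe_ne_zero y)
  let _ : Algebra ℚ R := f.toAlgebra
  obtain ⟨ι, v, hv⟩ := exists_isTranscendenceBasis' ℚ (ResidueField R)
  have := hv.isAlgebraic_field
  have : Algebra.FormallySmooth ℚ (ResidueField R) :=
    Algebra.FormallySmooth.of_algebraicIndependent_of_isSeparable hv.1
  obtain ⟨g, hg⟩ := Algebra.FormallySmooth.exists_mkₐ_comp_eq_of_isAdicComplete (R := ℚ)
    (A := ResidueField R) (I := maximalIdeal R)
    { toRingHom := RingHom.id (ResidueField R)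
      commutes' := fun r => RingHom.congr_fun (Subsingleton.elim
        ((RingHom.id (ResidueField R)).comp (algebraMap ℚ (ResidueField R)))
        (algebraMap ℚ (R ⧸ maximalIdeal R))) r }
  exact ⟨g, fun a => AlgHom.congr_fun hg a⟩

theorem ch_p_mem (R : Type) [CommRing R] [IsLocalRing R] (p : ℕ) [CharP (ResidueField R) p] :
    (p : R) ∈ maximalIdeal R := by
  rw [← residue_eq_zero_iff, map_natCast, CharP.cast_eq_zero]

theorem ch_theta (R : Type) [CommRing R] [IsLocalRing R] (p : ℕ) [Fact p.Prime]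
    [CharP (ResidueField R) p] [PerfectRing (ResidueField R) p] (n : ℕ) :
    ∃ θ : WittVector p (ResidueField R) →+* R ⧸ maximalIdeal R ^ (n + 1), ∀ y : R,
      θ (WittVector.teichmuller p (residue R (y ^ p ^ n))) = Ideal.Quotient.mk _ (y ^ p ^ n) := by
  have hker : RingHom.ker (WittVector.map (p := p) (residue R)) ≤
      RingHom.ker ((Ideal.Quotient.mk (maximalIdeal R ^ (n + 1))).comp
        (WittVector.ghostComponent (p := p) n)) := by
    intro x hx
    rw [RingHom.mem_ker, WittVector.map_eq_zero_iff] at hx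
    rw [RingHom.mem_ker, RingHom.comp_apply, Ideal.Quotient.eq_zero_iff_mem,
      WittVector.ghostComponent_apply, aeval_wittPolynomial]
    refine Ideal.sum_mem _ fun i hi => ?_
    have hi' : i < n + 1 := Finset.mem_range.mp hi
    have h1 : n - i < p ^ (n - i) := Nat.lt_pow_self (Fact.out : p.Prime).one_lt
    have h2 := Ideal.mul_mem_mul (Ideal.pow_mem_pow (ch_p_mem R p) i)
      (Ideal.pow_mem_pow ((residue_eq_zero_iff _).mp (hx i)) (p ^ (n - i)))
    rw [← pow_add] at h2
    exact Ideal.pow_le_pow_right (by omega) h2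
  let gh := RingHom.liftOfSurjective (WittVector.map (p := p) (residue R))
    (WittVector.map_surjective _ residue_surjective) ⟨_, hker⟩
  have hgh : ∀ x, gh (WittVector.map (residue R) x) =
      Ideal.Quotient.mk _ (WittVector.ghostComponent n x) := fun x =>
    RingHom.liftOfSurjective_comp_apply ..
  refine ⟨gh.comp (WittVector.map
    ((iterateFrobeniusEquiv (ResidueField R) p n).symm : ResidueField R →+* ResidueField R)),
    fun y => ?_⟩
  have e : (iterateFrobeniusEquiv (ResidueField R) p n).symm (residue R (y ^ p ^ n)) =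
      residue R y := by
    rw [RingEquiv.symm_apply_eq, map_pow]
    rfl
  rw [RingHom.comp_apply, WittVector.map_teichmuller, RingHom.coe_coe, e,
    ← WittVector.map_teichmuller, hgh, WittVector.ghostComponent_teichmuller]

/-- For each `n`, the ghost component `w_n : 𝕎 R → R / 𝔪^(n+1)` kills the Witt vectors with all coefficients in
`𝔪` (`p ∈ 𝔪`, `p^i a^(p^(n-i)) ∈ 𝔪^(n+1)`), so it factors through the surjection `𝕎 R → 𝕎 k`; precompose
with the inverse of `frobenius^n` on `𝕎 k`.  These maps are compatible because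
`w_{n+1}(x) ≡ w_n(x_0^p, x_1^p, …) mod p^(n+1)`; take the limit (`IsAdicComplete.liftRingHom`).  Compare
`WittVector.fontaineTheta` in Mathlib, which does this for `I = (p)`. -/
theorem cohenW (R : Type) [CommRing R] [IsLocalRing R] [IsAdicComplete (maximalIdeal R) R] (p : ℕ)
    [Fact p.Prime] [CharP (ResidueField R) p] [PerfectRing (ResidueField R) p] :
    ∃ φ : WittVector p (ResidueField R) →+* R, ∀ w, residue R (φ w) = w.coeff 0 := by
  choose θ hθ using ch_theta R p
  have hroot : ∀ (n : ℕ) (x : ResidueField R), ∃ y : R, x = residue R (y ^ p ^ n) := by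
    intro n x
    obtain ⟨y, hy⟩ := residue_surjective ((iterateFrobeniusEquiv (ResidueField R) p n).symm x)
    refine ⟨y, ?_⟩
    rw [map_pow, hy]
    exact ((iterateFrobeniusEquiv (ResidueField R) p n).apply_symm_apply x).symm
  have hc : ∀ n, (Ideal.Quotient.factorPowSucc (maximalIdeal R) (n + 1)).comp (θ (n + 1)) = θ n := by
    intro n
    refine WittVector.eq_of_apply_teichmuller_eq _ _ ⟨n + 1, ?_⟩ fun x => ?_
    · rw [← map_natCast (Ideal.Quotient.mk (maximalIdeal R ^ (n + 1))), ← map_pow,
        Ideal.Quotient.eq_zero_iff_mem]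
      exact Ideal.pow_mem_pow (ch_p_mem R p) _
    · obtain ⟨y, rfl⟩ := hroot (n + 1) x
      rw [RingHom.comp_apply, hθ, pow_succ' p n, pow_mul, hθ]
      rfl
  let φ : WittVector p (ResidueField R) →+* R :=
    IsAdicComplete.StrictMono.liftRingHom (maximalIdeal R) Order.succ_strictMono θ (hc _)
  have hφ : ∀ x, Ideal.Quotient.mk (maximalIdeal R ^ (0 + 1)) (φ x) = θ 0 x := fun x =>
    IsAdicComplete.StrictMono.mk_liftRingHom (maximalIdeal R) Order.succ_strictMono θ (hc _) x
  have key : (residue R).comp φ = WittVector.constantCoeff := by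
    refine WittVector.eq_of_apply_teichmuller_eq _ _ ⟨1, by simp⟩ fun x => ?_
    obtain ⟨y, rfl⟩ := hroot 0 x
    have := hφ (WittVector.teichmuller p (residue R (y ^ p ^ 0)))
    rw [hθ, Ideal.Quotient.eq, zero_add, pow_one, ← residue_eq_zero_iff, map_sub,
      sub_eq_zero] at this
    exact this
  exact ⟨φ, fun w => RingHom.congr_fun key w⟩

/-- `cohenW` kills `p`, and `𝕎 k / p = k` (`WittVector.mem_span_p_iff_coeff_zero_eq_zero`, `WittVector.constantCoeff`). -/
theorem cohenP (R : Type) [CommRing R] [IsLocalRing R] [IsAdicComplete (maximalIdeal R) R] (p : ℕ)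
    [Fact p.Prime] [CharP R p] [CharP (ResidueField R) p] [PerfectRing (ResidueField R) p] :
    ∃ s : ResidueField R →+* R, ∀ a, residue R (s a) = a := by
  obtain ⟨φ, hφ⟩ := cohenW R p
  have hker : RingHom.ker (WittVector.constantCoeff : WittVector p (ResidueField R) →+* _) ≤
      RingHom.ker φ := by
    rw [WittVector.ker_constantCoeff, Ideal.span_le, Set.singleton_subset_iff, SetLike.mem_coe,
      RingHom.mem_ker, map_natCast, CharP.cast_eq_zero]
  refine ⟨RingHom.liftOfSurjective _ (WittVector.constantCoeff_surjective p) ⟨φ, hker⟩, fun a => ?_⟩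
  obtain ⟨w, rfl⟩ := WittVector.constantCoeff_surjective p a
  rw [RingHom.liftOfSurjective_comp_apply]
  exact hφ w

theorem ch_sameRes_of_section {R : Type} [CommRing R] [IsLocalRing R] {s : ResidueField R →+* R}
    (hs : ∀ a, residue R (s a) = a) : SameRes s := fun b =>
  ⟨residue R b, by rw [← residue_eq_zero_iff, map_sub, hs, sub_self]⟩

theorem ch_sameRes_witt {R : Type} [CommRing R] [IsLocalRing R] {p : ℕ} [Fact p.Prime]
    {φ : WittVector p (ResidueField R) →+* R} (hφ : ∀ w, residue R (φ w) = w.coeff 0) :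
    SameRes φ := fun b =>
  ⟨WittVector.teichmuller p (residue R b), by
    rw [← residue_eq_zero_iff, map_sub, hφ, WittVector.teichmuller_coeff_zero, sub_self]⟩

/-- A complete local ring with finitely generated maximal ideal and perfect residue field is Noetherian. -/
theorem noeth_of_perfect (R : Type) [CommRing R] [IsLocalRing R] [IsAdicComplete (maximalIdeal R) R]
    (hm : (maximalIdeal R).FG) [PerfectField (ResidueField R)] : IsNoetherianRing R := by
  obtain ⟨p, hp⟩ := CharP.exists (ResidueField R)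
  rcases CharP.char_is_prime_or_zero (ResidueField R) p with h | rfl
  · have := Fact.mk h
    obtain ⟨φ, hφ⟩ := cohenW R p
    exact noeth_of_complete hm φ (ch_sameRes_witt hφ)
  · have := CharP.charP_to_charZero (ResidueField R)
    obtain ⟨s, hs⟩ := cohen0 R
    exact noeth_of_complete hm s (ch_sameRes_of_section hs)

theorem ch_idl_cons {A : Type} [CommRing A] {d : ℕ} (a : A) (x : Fin d → A) :
    idl (Fin.cons a x : Fin (d + 1) → A) = Ideal.span {a} ⊔ idl x := by
  rw [idl, Fin.range_cons, Ideal.span_insert, idl]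

theorem ch_sop_of_eq {A : Type} [CommRing A] [IsLocalRing A] {d : ℕ} {x : Fin d → A}
    (h : maximalIdeal A = idl x) : Sop x :=
  ⟨fun i => h ▸ Ideal.subset_span ⟨i, rfl⟩, 1, by rw [pow_one, h]⟩

variable {R : Type} [CommRing R] [IsLocalRing R] [IsNoetherianRing R] [IsAdicComplete (maximalIdeal R) R] {d : ℕ}

theorem ch_base {C : Type} [CommRing C] [IsLocalRing C] [IsNoetherianRing C]
    [IsAdicComplete (maximalIdeal C) C] (φ : C →+* R) (hφ : SameRes φ) {x : Fin d → R}
    (h1 : (maximalIdeal C).map φ ≤ maximalIdeal R) (hx : ∀ i, x i ∈ maximalIdeal R) {c : ℕ}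
    (hc : maximalIdeal R ^ c ≤ (maximalIdeal C).map φ ⊔ idl x) :
    ∃ Φ : MvPowerSeries (Fin d) C →+* R, (∀ c, Φ (MvPowerSeries.C c) = φ c) ∧
      (∀ i, Φ (MvPowerSeries.X i) = x i) ∧ Φ.Finite ∧ IsLocalHom Φ ∧ SameRes Φ := by
  obtain ⟨Φ, hC, hX⟩ := exists_psMap (maximalIdeal R) φ x hx
  have e1 : Φ.comp MvPowerSeries.C = φ := RingHom.ext hC
  have e : (maximalIdeal (MvPowerSeries (Fin d) C)).map Φ = (maximalIdeal C).map φ ⊔ idl x := by
    rw [ps_maximal, Ideal.map_sup, Ideal.map_map, e1, ← rg2_idl_map]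
    simp only [hX]
  have hloc : IsLocalHom Φ := by
    refine ((IsLocalRing.local_hom_TFAE Φ).out 0 2).mpr ?_
    rw [e]
    exact sup_le h1 (Ideal.span_le.mpr (by rintro _ ⟨i, rfl⟩; exact hx i))
  have hres : SameRes Φ := fun b => by
    obtain ⟨a, ha⟩ := hφ b
    exact ⟨MvPowerSeries.C a, by rwa [hC]⟩
  have := ps_complete C d
  exact ⟨Φ, hC, hX, finite_of_complete Φ hres (e ▸ hc), hloc, hres⟩

/-- Equal characteristic: `R` is finite over `k⟦x⟧`. -/
theorem exists_base_eq {k : Type} [Field k] (s : k →+* R) (hs : SameRes s) {x : Fin d → R} (hx : Sop x) :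
    ∃ Φ : MvPowerSeries (Fin d) k →+* R, (∀ c, Φ (MvPowerSeries.C c) = s c) ∧
      (∀ i, Φ (MvPowerSeries.X i) = x i) ∧ Φ.Finite ∧ IsLocalHom Φ ∧ SameRes Φ := by
  have : IsAdicComplete (maximalIdeal k) k := by
    rw [IsLocalRing.maximalIdeal_eq_bot]
    infer_instance
  obtain ⟨hx, c, hc⟩ := hx
  refine ch_base s hs ?_ hx (hc.trans le_sup_right)
  rw [IsLocalRing.maximalIdeal_eq_bot, Ideal.map_bot]
  exact bot_le

/-- Residue characteristic `p`: `R` is finite over `𝕎 k ⟦x⟧` when `p, x` is a system of parameters. -/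
theorem exists_base_mixed {k : Type} [Field k] (p : ℕ) [Fact p.Prime] [CharP k p] [PerfectRing k p]
    (φ : WittVector p k →+* R) (hφ : SameRes φ) {x : Fin d → R}
    (hx : Sop (Fin.cons (p : R) x : Fin (d + 1) → R)) :
    ∃ Φ : MvPowerSeries (Fin d) (WittVector p k) →+* R, (∀ c, Φ (MvPowerSeries.C c) = φ c) ∧
      (∀ i, Φ (MvPowerSeries.X i) = x i) ∧ Φ.Finite ∧ IsLocalHom Φ ∧ SameRes Φ := by
  have hm : maximalIdeal (WittVector p k) = Ideal.span {(p : WittVector p k)} :=
    (WittVector.irreducible p).maximalIdeal_eq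
  have : IsAdicComplete (maximalIdeal (WittVector p k)) (WittVector p k) := by
    rw [hm]
    infer_instance
  have e : (maximalIdeal (WittVector p k)).map φ = Ideal.span {(p : R)} := by
    rw [hm, Ideal.map_span, Set.image_singleton, map_natCast]
  obtain ⟨hx, c, hc⟩ := hx
  refine ch_base φ hφ ?_ (fun i => hx i.succ) (c := c) ?_
  · rw [e, Ideal.span_le, Set.singleton_subset_iff]
    exact hx 0
  · rwa [e, ← ch_idl_cons]

theorem ch_rbase_eq [IsDomain R] (h : ringKrullDim R ≤ (d + 1 : ℕ)) (h' : ¬ ringKrullDim R ≤ d)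
    {k : Type} [Field k] (s : k →+* R) (hs : SameRes s) :
    ∃ (Λ : Type) (_ : CommRing Λ) (X : Fin (d + 1) → Λ) (Φ : Λ →+* R), RBase Λ X ∧ Φ.Finite ∧
      Function.Injective Φ ∧ Sop fun i => Φ (X i) := by
  obtain ⟨x, hx⟩ := exists_sop h
  obtain ⟨Φ, -, hX, hfin, -, -⟩ := exists_base_eq s hs hx
  refine ⟨MvPowerSeries (Fin (d + 1)) k, inferInstance, MvPowerSeries.X, Φ,
    rbase_ps_field k (Nat.succ_pos d), hfin, ?_, by simpa only [hX] using hx⟩
  by_contra hn
  have := (rbase_ps_field k (Nat.succ_pos d)).dom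
  refine h' (dim_le_of_not_injective Φ hfin (dim_le_of_sop (ch_sop_of_eq (x := MvPowerSeries.X) ?_)) hn)
  rw [ps_maximal, IsLocalRing.maximalIdeal_eq_bot, Ideal.map_bot, bot_sup_eq]

/-- Cohen structure for a complete local domain of dimension exactly `d + 1` with perfect residue field: a finite
injective map from a regular base.  (If `R` contains a field use `exists_base_eq` with `exists_sop`; otherwise
`p ≠ 0`, `dim R / p ≤ d`, lift a system of parameters of `R / p`.  Injectivity: `dim_le_of_not_injective`.) -/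
theorem exists_rbase [IsDomain R] [PerfectField (ResidueField R)] (h : ringKrullDim R ≤ (d + 1 : ℕ))
    (h' : ¬ ringKrullDim R ≤ d) :
    ∃ (Λ : Type) (_ : CommRing Λ) (X : Fin (d + 1) → Λ) (Φ : Λ →+* R), RBase Λ X ∧ Φ.Finite ∧
      Function.Injective Φ ∧ Sop fun i => Φ (X i) := by
  obtain ⟨p, hp⟩ := CharP.exists (ResidueField R)
  rcases CharP.char_is_prime_or_zero (ResidueField R) p with hpp | rfl
  swap
  · have := CharP.charP_to_charZero (ResidueField R)
    obtain ⟨s, hs⟩ := cohen0 R
    exact ch_rbase_eq h h' s (ch_sameRes_of_section hs)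
  have := Fact.mk hpp
  by_cases h0 : (p : R) = 0
  · have : CharP R p := (CharP.charP_iff_prime_eq_zero hpp).mpr h0
    obtain ⟨s, hs⟩ := cohenP R p
    exact ch_rbase_eq h h' s (ch_sameRes_of_section hs)
  have hpm : Ideal.span {(p : R)} ≤ maximalIdeal R := by
    rw [Ideal.span_le, Set.singleton_subset_iff]
    exact ch_p_mem R p
  have : Nontrivial (R ⧸ Ideal.span {(p : R)}) :=
    Ideal.Quotient.nontrivial_iff.mpr (ne_top_of_le_ne_top (maximalIdeal.isMaximal R).ne_top hpm)
  have : IsLocalRing (R ⧸ Ideal.span {(p : R)}) :=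
    IsLocalRing.of_surjective' (Ideal.Quotient.mk _) Ideal.Quotient.mk_surjective
  have hloc : IsLocalHom (Ideal.Quotient.mk (Ideal.span {(p : R)})) :=
    IsLocalHom.of_surjective _ Ideal.Quotient.mk_surjective
  obtain ⟨y, hy, c, hc⟩ := exists_sop (dim_quot_le_of_domain h h0)
  choose x hx using fun i => Ideal.Quotient.mk_surjective (y i)
  obtain rfl : y = fun i => Ideal.Quotient.mk (Ideal.span {(p : R)}) (x i) := (funext hx).symm
  have hsop : Sop (Fin.cons (p : R) x : Fin (d + 1) → R) := by
    refine ⟨fun i => ?_, c, fun a ha => ?_⟩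
    · induction i using Fin.cases with
      | zero => exact ch_p_mem R p
      | succ i =>
        have := hy i
        rw [mem_maximalIdeal, mem_nonunits_iff] at this ⊢
        exact fun hu => this (hu.map _)
    · rw [ch_idl_cons, sup_comm, ← Ideal.mem_quotient_iff_mem_sup, ← rg2_idl_map]
      refine hc (Ideal.pow_right_mono (((IsLocalRing.local_hom_TFAE _).out 0 2).mp hloc) c ?_)
      rw [← Ideal.map_pow]
      exact Ideal.mem_map_of_mem _ ha
  obtain ⟨φ, hφ⟩ := cohenW R p
  obtain ⟨Φ, hC, hX, hfin, -, -⟩ := exists_base_mixed p φ (ch_sameRes_witt hφ) hsop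
  refine ⟨MvPowerSeries (Fin d) (WittVector p (ResidueField R)), inferInstance,
    Fin.cons (MvPowerSeries.C (p : WittVector p (ResidueField R))) MvPowerSeries.X, Φ,
    rbase_ps_dvr _ (WittVector.irreducible p) d, hfin, ?_, ?_⟩
  · by_contra hn
    have := (rbase_ps_dvr _ (WittVector.irreducible (k := ResidueField R) p) d).dom
    refine h' (dim_le_of_not_injective Φ hfin (dim_le_of_sop (ch_sop_of_eq
      (x := Fin.cons (MvPowerSeries.C (p : WittVector p (ResidueField R))) MvPowerSeries.X) ?_)) hn)
    rw [ps_maximal, (WittVector.irreducible p).maximalIdeal_eq, Ideal.map_span, Set.image_singleton,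
      ch_idl_cons]
  · convert hsop using 2 with i
    induction i using Fin.cases with
    | zero => rw [Fin.cons_zero, Fin.cons_zero, hC, map_natCast]
    | succ i => rw [Fin.cons_succ, Fin.cons_succ, hX]

end Crest.Agent.R183
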