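import Crest.Agent.R183.PBasis
import Crest.Agent.R183.Cohen

/-!
# rid 183, file `Coef`: small flat unramified subrings of an Artinian local ring

Prefix helper lemmas with `cf_`.
-/

set_option autoImplicit false

open IsLocalRing

namespace Crest.Agent.R183

variable {A : Type} [CommRing A] [IsLocalRing A]

/-- `C` is a small coefficient ring: closed under inverses, `C ⊓ 𝔪 = p C`, finitely generated residue field. -/
structure SmallCoef (C : Subring A) : Prop where
  inv : ∀ c ∈ C, c ∉ maximalIdeal A → ∃ c' ∈ C, c * c' = 1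
  unr : ∀ c ∈ C, c ∈ maximalIdeal A → ∃ c' ∈ C, c = (ringChar (ResidueField A) : A) * c'
  fg : ∃ s : Finset A, (∀ a ∈ s, a ∈ C) ∧ ∀ c ∈ C,
    residue A c ∈ Subfield.closure (residue A '' (s : Set A))

theorem cf_nil [IsArtinianRing A] : ∃ n : ℕ, maximalIdeal A ^ n = ⊥ :=
  (isArtinianRing_iff_isNilpotent_maximalIdeal A).1 ‹_›

/-- inverses modulo the maximal ideal give inverses -/
theorem cf_inv [IsArtinianRing A] {B : Subring A}
    (h : ∀ b ∈ B, b ∉ maximalIdeal A → ∃ b' ∈ B, 1 - b * b' ∈ maximalIdeal A) :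
    ∀ b ∈ B, b ∉ maximalIdeal A → ∃ b' ∈ B, b * b' = 1 := fun b hb hm => by
  obtain ⟨n, hn⟩ := cf_nil (A := A)
  obtain ⟨b', hb', h1⟩ := h b hb hm
  refine ⟨b' * ∑ i ∈ Finset.range n, (1 - b * b') ^ i,
    mul_mem hb' (sum_mem fun i _ => pow_mem (sub_mem B.one_mem (mul_mem hb hb')) i), ?_⟩
  have h2 := mul_neg_geom_sum (1 - b * b') n
  have h3 : (1 - b * b') ^ n = 0 := by
    rw [← Ideal.mem_bot, ← hn]; exact Ideal.pow_mem_pow h1 n
  rw [h3, sub_sub_cancel, sub_zero] at h2
  rw [← mul_assoc, h2]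

/-- reduced monomials span over the `q`-th powers -/
theorem cf_span {R ι : Type} [CommRing R] (p : ℕ) [Fact p.Prime] [CharP R p] (n : ℕ) (b : ι → R)
    (h : Subring.closure (Set.range (fun a : R => a ^ p ^ n) ∪ Set.range b) = ⊤) (x : R) :
    ∃ f : (ι →₀ ℕ) →₀ R, (∀ β ∈ f.support, ∀ i, β i < p ^ n) ∧
      (f.sum fun β c => c ^ p ^ n * β.prod fun i m => b i ^ m) = x := by
  classical
  have hq : 0 < p ^ n := pow_pos (Fact.out : p.Prime).pos n
  have hs : (MvPolynomial.eval₂Hom (iterateFrobenius R p n) b).range = ⊤ := by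
    rw [eq_top_iff, ← h, Subring.closure_le]
    rintro _ (⟨a, rfl⟩ | ⟨i, rfl⟩)
    · exact ⟨MvPolynomial.C a, by simp [iterateFrobenius_def]⟩
    · exact ⟨MvPolynomial.X i, by simp⟩
  obtain ⟨P, rfl⟩ : x ∈ (MvPolynomial.eval₂Hom (iterateFrobenius R p n) b).range := hs ▸ trivial
  induction P using MvPolynomial.induction_on' with
  | monomial β c =>
    refine ⟨Finsupp.single (β.mapRange (· % p ^ n) (Nat.zero_mod _))
      (c * β.prod fun i m => b i ^ (m / p ^ n)), fun γ hγ i => ?_, ?_⟩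
    · rw [Finset.mem_singleton.1 (Finsupp.support_single_subset hγ), Finsupp.mapRange_apply]
      exact Nat.mod_lt _ hq
    · rw [Finsupp.sum_single_index (by rw [zero_pow hq.ne', zero_mul]),
        Finsupp.prod_mapRange_index fun _ => pow_zero _,
        MvPolynomial.eval₂Hom_monomial, iterateFrobenius_def, mul_pow, mul_assoc, Finsupp.prod,
        Finsupp.prod, Finsupp.prod, ← Finset.prod_pow, ← Finset.prod_mul_distrib]
      congr 1
      refine Finset.prod_congr rfl fun i _ => ?_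
      rw [← pow_mul, ← pow_add, Nat.div_add_mod']
  | add P Q hP hQ =>
    obtain ⟨f, hf, hf'⟩ := hP
    obtain ⟨g, hg, hg'⟩ := hQ
    refine ⟨f + g, fun β hβ => (Finset.mem_union.1 (Finsupp.support_add hβ)).elim (hf β) (hg β), ?_⟩
    rw [Finsupp.sum_add_index' (fun _ => by rw [zero_pow hq.ne', zero_mul]) fun _ _ _ => by
      rw [add_pow_char_pow, add_mul], hf', hg', map_add]

/-- the ring generated by `q`-th powers of lifts of `k` and the chosen lifts of `s ∩ k` -/
def cfC (σ : ResidueField A → A) (q : ℕ) (k : Subfield (ResidueField A)) (s : Set (ResidueField A)) :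
    Subring A :=
  Subring.closure ((fun a : A => a ^ q) '' {a | residue A a ∈ k} ∪ σ '' (s ∩ k))

theorem cfC_mono (σ : ResidueField A → A) (q : ℕ) {k k' : Subfield (ResidueField A)} (hk : k ≤ k')
    {s s' : Set (ResidueField A)} (hs : s ∩ k ⊆ s') : cfC σ q k s ≤ cfC σ q k' s' :=
  Subring.closure_mono (Set.union_subset_union (Set.image_mono fun _ h => hk h)
    (Set.image_mono fun _ h => ⟨hs h, hk h.2⟩))

theorem cfC_res {σ : ResidueField A → A} (hσ : ∀ y, residue A (σ y) = y) (q : ℕ)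
    (k : Subfield (ResidueField A)) (s : Set (ResidueField A)) {c : A} (hc : c ∈ cfC σ q k s) :
    residue A c ∈ k := by
  refine (Subring.closure_le (t := k.toSubring.comap (residue A))).2 ?_ hc
  rintro _ (⟨a, ha, rfl⟩ | ⟨y, hy, rfl⟩)
  · change residue A (a ^ q) ∈ k
    rw [map_pow]
    exact pow_mem ha q
  · change residue A (σ y) ∈ k
    rw [hσ]
    exact hy.2

theorem cfC_surj {σ : ResidueField A → A} (hσ : ∀ y, residue A (σ y) = y) {q : ℕ}
    {k : Subfield (ResidueField A)} {t : Set k} (ht : PSpan q t) {y : ResidueField A} (hy : y ∈ k) :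
    ∃ c ∈ cfC σ q k (Subtype.val '' t), residue A c = y := by
  have h : (⟨y, hy⟩ : k) ∈ Subring.closure (Set.range (fun a : k => a ^ q) ∪ t) := by
    rw [ht]; trivial
  refine (Subring.closure_le (t := ((cfC σ q k (Subtype.val '' t)).map (residue A)).comap
    k.subtype)).2 ?_ h
  rintro z (⟨a, rfl⟩ | hz)
  · exact ⟨σ a ^ q, Subring.subset_closure (Or.inl ⟨σ a, by simp [hσ], rfl⟩), by simp [hσ]⟩
  · exact ⟨σ z, Subring.subset_closure (Or.inr ⟨z, ⟨⟨z, hz, rfl⟩, z.2⟩, rfl⟩), hσ z⟩

theorem cfC_unr {σ : ResidueField A → A} (hσ : ∀ y, residue A (σ y) = y) (p : ℕ) [Fact p.Prime]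
    [CharP (ResidueField A) p] {n : ℕ} (hn : maximalIdeal A ^ n = ⊥) {k : Subfield (ResidueField A)}
    {t : Set k} (ht : PInd p t) (ht' : PSpan p t) {c : A} (hc : c ∈ cfC σ (p ^ n) k (Subtype.val '' t))
    (hm : c ∈ maximalIdeal A) : ∃ c' ∈ cfC σ (p ^ n) k (Subtype.val '' t), c = (p : A) * c' := by
  set C := cfC σ (p ^ n) k (Subtype.val '' t) with hC
  have hp : (p : A) ∈ maximalIdeal A := by
    rw [← residue_eq_zero_iff, map_natCast, CharP.cast_eq_zero]
  have hpn : ((p : ℕ) : C) ∈ nonunits C := fun h => by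
    have := h.map C.subtype
    rw [map_natCast] at this
    exact hp this
  have : CharP (C ⧸ Ideal.span {(p : C)}) p := CharP.quotient C p hpn
  let ρ0 : C →+* k := ((residue A).comp C.subtype).codRestrict k fun x => cfC_res hσ _ _ _ x.2
  let ρ : C ⧸ Ideal.span {(p : C)} →+* k := Ideal.Quotient.lift _ ρ0 fun a ha => by
    obtain ⟨x, rfl⟩ := Ideal.mem_span_singleton'.1 ha
    rw [map_mul, map_natCast, CharP.cast_eq_zero, mul_zero]
  have hb : ∀ i : t, σ i.1.1 ∈ C := fun i =>
    Subring.subset_closure (Or.inr ⟨i.1.1, ⟨⟨i.1, i.2, rfl⟩, i.1.2⟩, rfl⟩)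
  let b : t → C ⧸ Ideal.span {(p : C)} := fun i => Ideal.Quotient.mk _ ⟨σ i.1.1, hb i⟩
  have hρb : ∀ i, ρ (b i) = i.1 := fun i => Subtype.ext (hσ _)
  have hgen : Subring.closure (Set.range (fun a : C ⧸ Ideal.span {(p : C)} => a ^ p ^ n) ∪
      Set.range b) = ⊤ := by
    rw [eq_top_iff]
    rintro x -
    obtain ⟨⟨x, hx⟩, rfl⟩ := Ideal.Quotient.mk_surjective x
    induction hx using Subring.closure_induction with
    | mem x hx =>
      rcases hx with ⟨a, ha, rfl⟩ | ⟨_, ⟨⟨y, hy, rfl⟩, -⟩, rfl⟩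
      · obtain ⟨a', ha', h1⟩ := cfC_surj hσ (ht'.pow p n) ha
        refine Subring.subset_closure (Or.inl ⟨Ideal.Quotient.mk _ ⟨a', ha'⟩, ?_⟩)
        have h2 : a' ≡ a [SMOD maximalIdeal A] := by
          rw [SModEq.sub_mem, ← residue_eq_zero_iff, map_sub, h1, sub_self]
        have h3 := SModEq.sub_mem.1 (SModEq.pow_pow_add_one hp h2 n)
        rw [pow_succ, hn, Ideal.bot_mul, Ideal.mem_bot, sub_eq_zero] at h3
        simp only [← map_pow]
        exact congrArg _ (Subtype.ext h3)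
      · exact Subring.subset_closure (Or.inr ⟨⟨y, hy⟩, rfl⟩)
    | zero => exact zero_mem _
    | one => exact one_mem _
    | add x y hx hy ihx ihy => exact add_mem ihx ihy
    | neg x hx ih => exact neg_mem ih
    | mul x y hx hy ihx ihy => exact mul_mem ihx ihy
  obtain ⟨f, hf, hf'⟩ := cf_span p n b hgen (Ideal.Quotient.mk _ ⟨c, hc⟩)
  have hq : p ^ n ≠ 0 := pow_ne_zero n (Fact.out : p.Prime).ne_zero
  have h0 : f.mapRange ρ (map_zero ρ) = 0 := by
    refine ht.pow p n _ (fun β hβ => hf β (Finsupp.support_mapRange hβ)) ?_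
    have h1 := congrArg ρ hf'
    have h2 : ρ (Ideal.Quotient.mk _ ⟨c, hc⟩) = 0 := Subtype.ext ((residue_eq_zero_iff c).2 hm)
    rw [h2, map_finsuppSum] at h1
    rw [Finsupp.sum_mapRange_index fun _ => by rw [zero_pow hq, zero_mul], ← h1]
    refine Finsupp.sum_congr fun β _ => ?_
    rw [map_mul, map_pow, map_finsuppProd]
    simp only [map_pow, hρb]
  have h3 : Ideal.Quotient.mk (Ideal.span {(p : C)}) ⟨c, hc⟩ = 0 := by
    rw [← hf']
    refine Finset.sum_eq_zero fun β _ => ?_
    obtain ⟨u, hu⟩ := Ideal.Quotient.mk_surjective (f β)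
    have h4 : ρ (f β) = 0 := by simpa using DFunLike.congr_fun h0 β
    rw [← hu] at h4
    have h5 : (u : A) ∈ maximalIdeal A := (residue_eq_zero_iff _).1 (congrArg Subtype.val h4)
    have h6 : u ^ p ^ n = 0 := Subtype.ext (by
      have := Ideal.pow_le_pow_right (Nat.lt_pow_self (Fact.out : p.Prime).one_lt).le
        (Ideal.pow_mem_pow h5 (p ^ n))
      rwa [hn, Ideal.mem_bot] at this)
    simp only [← hu, ← map_pow, h6, map_zero, zero_mul]
  obtain ⟨c', hc'⟩ := Ideal.mem_span_singleton'.1 (Ideal.Quotient.eq_zero_iff_mem.1 h3)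
  exact ⟨c', c'.2, by simpa [mul_comm] using (congrArg Subtype.val hc').symm⟩

theorem cfC_small [IsArtinianRing A] {σ : ResidueField A → A} (hσ : ∀ y, residue A (σ y) = y) (p : ℕ)
    [Fact p.Prime] [CharP (ResidueField A) p] {n : ℕ} (hn : maximalIdeal A ^ n = ⊥)
    (T : Finset (ResidueField A)) {t : Set (Subfield.closure (T : Set (ResidueField A)))}
    (ht : PInd p t) (ht' : PSpan p t) :
    SmallCoef (cfC σ (p ^ n) (Subfield.closure (T : Set (ResidueField A))) (Subtype.val '' t)) := by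
  classical
  refine ⟨cf_inv fun c hc hm => ?_, fun c hc hm => ?_, ?_⟩
  · obtain ⟨c', hc', h⟩ := cfC_surj hσ (ht'.pow p n) (inv_mem (cfC_res hσ _ _ _ hc))
    refine ⟨c', hc', ?_⟩
    rw [← residue_eq_zero_iff] at hm ⊢
    rw [map_sub, map_mul, h, mul_inv_cancel₀ hm, map_one, sub_self]
  · rw [ringChar.eq (ResidueField A) p]
    exact cfC_unr hσ p hn ht ht' hc hm
  · choose l hl hl' using fun y : T =>
      cfC_surj hσ (ht'.pow p n) (Subfield.subset_closure (s := (T : Set (ResidueField A))) y.2)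
    refine ⟨Finset.univ.image l, fun a ha => ?_, fun c hc => ?_⟩
    · obtain ⟨y, -, rfl⟩ := Finset.mem_image.1 ha
      exact hl y
    · refine Subfield.closure_mono (fun y hy => ?_) (cfC_res hσ _ _ _ hc)
      exact ⟨l ⟨y, hy⟩, by simp, hl' _⟩

/-- A subring onto the residue field whose finite subsets lie in small coefficient rings.
Characteristic `0`: `C0` is the image of the section `cohen0`, `C` the image of a finitely generated subfield.
Characteristic `p`: let `𝔪^n = 0`, `q = p^n`, `s` a `p`-basis of `K` with lifts `b̃`, and `C0 = ℤ[A^q, b̃]`, onto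
`K` by `PSpan.pow`.  A finite `G ⊆ C0` involves finitely many `a^q` and `b̃ i`; let `k1 ⊆ K` be the subfield
generated by the residues of these `a` and by these `b i`, extend the `b i` to a `p`-basis `t` of `k1`, lift the
new members, let `A1` be the preimage of `k1` and `C = ℤ[A1^q, lifts of t]`.  `C` maps onto `k1`.  For `a ∈ A1`
pick `a' ∈ C` with the same residue; then `a^q = a'^q` (`a ≡ a' mod 𝔪` gives `a^(p^n) ≡ a'^(p^n) mod 𝔪^(n+1)`,
`Ideal.pow_pow_sub_mem`-type induction).  So every element of `C` is `∑_{β < p} u_β^p b̃^β` modulo `p C` with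
`u_β ∈ C`; if it lies in `𝔪` then all `u_β ∈ 𝔪`.  Hence `I = C ⊓ 𝔪` satisfies `I ≤ I^2 + p C`, and `I` is
nilpotent.  Inverses: a unit has an inverse modulo `I`, and `1 + nilpotent` is invertible in `C`.  For `fg`, lift
the generators of `k1` into `C`. -/
theorem exists_coef [IsArtinianRing A] :
    ∃ C0 : Subring A, (∀ a : A, ∃ c ∈ C0, a - c ∈ maximalIdeal A) ∧
      ∀ G : Finset A, (∀ g ∈ G, g ∈ C0) → ∃ C : Subring A, (∀ g ∈ G, g ∈ C) ∧ SmallCoef C := by
  classical
  obtain ⟨p, hp⟩ := CharP.exists (ResidueField A)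
  rcases CharP.char_is_prime_or_zero (ResidueField A) p with hp' | rfl
  · have := Fact.mk hp'
    obtain ⟨n, hn⟩ := cf_nil (A := A)
    obtain ⟨σ, hσ⟩ : ∃ σ : ResidueField A → A, ∀ y, residue A (σ y) = y :=
      ⟨_, Function.surjInv_eq residue_surjective⟩
    have he : PInd p (∅ : Set (⊤ : Subfield (ResidueField A))) := fun f _ hf => by
      refine Finsupp.ext fun β => ?_
      rw [Finsupp.sum_fintype _ _ (by simp [hp'.ne_zero]), Fintype.sum_subsingleton _ β,
        Subsingleton.elim β 0, Finsupp.prod_zero_index, mul_one] at hf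
      rw [Subsingleton.elim β 0]
      exact (pow_eq_zero_iff hp'.ne_zero).1 hf
    obtain ⟨s, -, hs, hs'⟩ := exists_pbasis p he
    refine ⟨cfC σ (p ^ n) ⊤ (Subtype.val '' s), fun a => ?_, fun G hG => ?_⟩
    · obtain ⟨c, hc, h⟩ := cfC_surj hσ (hs'.pow p n) (Subfield.mem_top (residue A a))
      exact ⟨c, hc, by rw [← residue_eq_zero_iff, map_sub, h, sub_self]⟩
    · have hm : ∀ {T T' : Finset (ResidueField A)}, T ⊆ T' →
          cfC σ (p ^ n) (Subfield.closure (T : Set (ResidueField A))) (Subtype.val '' s) ≤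
            cfC σ (p ^ n) (Subfield.closure (T' : Set (ResidueField A))) (Subtype.val '' s) :=
        fun h => cfC_mono _ _ (Subfield.closure_mono h) Set.inter_subset_left
      have h1 : ∀ x ∈ cfC σ (p ^ n) ⊤ (Subtype.val '' s), ∃ T : Finset (ResidueField A),
          x ∈ cfC σ (p ^ n) (Subfield.closure (T : Set (ResidueField A))) (Subtype.val '' s) := by
        intro x hx
        induction hx using Subring.closure_induction with
        | mem x hx =>
          rcases hx with ⟨a, -, rfl⟩ | ⟨y, hy, rfl⟩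
          · exact ⟨{residue A a}, Subring.subset_closure
              (Or.inl ⟨a, Subfield.subset_closure (by simp), rfl⟩)⟩
          · exact ⟨{y}, Subring.subset_closure
              (Or.inr ⟨y, ⟨hy.1, Subfield.subset_closure (by simp)⟩, rfl⟩)⟩
        | zero => exact ⟨∅, zero_mem _⟩
        | one => exact ⟨∅, one_mem _⟩
        | add x y _ _ ihx ihy =>
          exact ihx.elim fun T h => ihy.elim fun T' h' => ⟨T ∪ T',
            add_mem (hm Finset.subset_union_left h) (hm Finset.subset_union_right h')⟩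
        | neg x _ ih => exact ih.imp fun _ h => neg_mem h
        | mul x y _ _ ihx ihy =>
          exact ihx.elim fun T h => ihy.elim fun T' h' => ⟨T ∪ T',
            mul_mem (hm Finset.subset_union_left h) (hm Finset.subset_union_right h')⟩
      choose T hT using fun g : G => h1 g (hG g g.2)
      obtain ⟨t, ht, ht1, ht2⟩ := exists_pbasis p (hs.preimage (Subfield.inclusion
        (le_top (a := Subfield.closure (Finset.univ.biUnion T : Set (ResidueField A))))))
      refine ⟨_, fun g hg => cfC_mono _ _ le_rfl ?_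
        (hm (Finset.subset_biUnion_of_mem T (Finset.mem_univ _)) (hT ⟨g, hg⟩)),
        cfC_small hσ p hn _ ht1 ht2⟩
      rintro _ ⟨⟨y, hy, rfl⟩, hy'⟩
      exact ⟨⟨y, hy'⟩, ht hy, rfl⟩
  · have := CharP.charP_to_charZero (ResidueField A)
    obtain ⟨s, hs⟩ := cohen0 A
    refine ⟨s.range, fun a => ⟨s (residue A a), ⟨_, rfl⟩, ?_⟩, fun G hG => ?_⟩
    · rw [← residue_eq_zero_iff, map_sub, hs, sub_self]
    · have h1 : ∀ g ∈ G, g ∈ (Subfield.closure (residue A '' (G : Set A))).toSubring.map s := by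
        intro g hg
        obtain ⟨y, rfl⟩ := hG g hg
        exact ⟨y, Subfield.subset_closure ⟨_, hg, hs y⟩, rfl⟩
      refine ⟨_, h1, ?_, ?_, G, h1, ?_⟩
      · rintro _ ⟨y, hy, rfl⟩ hm
        rw [← residue_eq_zero_iff, hs] at hm
        exact ⟨s y⁻¹, ⟨_, Subfield.inv_mem _ hy, rfl⟩, by rw [← map_mul, mul_inv_cancel₀ hm, map_one]⟩
      · rintro _ ⟨y, -, rfl⟩ hm
        rw [← residue_eq_zero_iff, hs] at hm
        exact ⟨0, zero_mem _, by rw [hm, map_zero, mul_zero]⟩
      · rintro _ ⟨y, hy, rfl⟩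
        rw [hs]
        exact hy

/-- A good subring: local, unramified, of the same length, with finitely generated residue field. -/
structure Good (B : Subring A) : Prop where
  inv : ∀ b ∈ B, b ∉ maximalIdeal A → ∃ b' ∈ B, b * b' = 1
  unr : ((maximalIdeal A).comap B.subtype).map B.subtype = maximalIdeal A
  len : Module.length B B ≤ Module.length A A
  fg : ∃ s : Finset A, (∀ a ∈ s, a ∈ B) ∧ ∀ b ∈ B,
    residue A b ∈ Subfield.closure (residue A '' (s : Set A))

/-- a composition series with generators of the simple quotients -/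
theorem cf_chain (M : Type) [AddCommGroup M] [Module A M] (h : Module.length A M ≠ ⊤) :
    ∃ (ℓ : ℕ) (J : ℕ → Submodule A M) (μ : ℕ → M), (ℓ : ℕ∞) = Module.length A M ∧ J 0 = ⊥ ∧ J ℓ = ⊤ ∧
      ∀ i < ℓ, μ i ∉ J i ∧ J (i + 1) = J i ⊔ Submodule.span A {μ i} ∧
        ∀ m ∈ maximalIdeal A, m • μ i ∈ J i := by
  obtain ⟨_, _⟩ := isFiniteLength_iff_isNoetherian_isArtinian.1 (Module.length_ne_top_iff.1 h)
  obtain ⟨J, h0, ℓ, hℓ, hJ⟩ := exists_covBy_seq_of_wellFoundedLT_wellFoundedGT (Submodule A M)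
  have h1 : ∀ i, ∃ μ : M, i < ℓ → μ ∈ J (i + 1) ∧ μ ∉ J i := fun i => by
    by_cases hi : i < ℓ
    · exact (SetLike.exists_of_lt (hJ i hi).lt).imp fun _ h _ => h
    · exact ⟨0, fun h => absurd h hi⟩
  choose μ hμ using h1
  have h2 : ∀ i < ℓ, ∀ x ∈ J (i + 1), x ∉ J i → J (i + 1) = J i ⊔ Submodule.span A {x} :=
    fun i hi x hx hx' => ((hJ i hi).eq_or_eq le_sup_left (sup_le (hJ i hi).le
      ((Submodule.span_singleton_le_iff_mem _ _).2 hx))).elim (fun h => absurd
        (h ▸ Submodule.mem_sup_right (Submodule.mem_span_singleton_self x)) hx') Eq.symm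
  refine ⟨ℓ, J, μ, Module.length_compositionSeries ⟨ℓ, fun i => J i, fun i => hJ i i.2⟩ h0.eq_bot
    hℓ.eq_top, h0.eq_bot, hℓ.eq_top, fun i hi => ⟨(hμ i hi).2, h2 i hi _ (hμ i hi).1 (hμ i hi).2,
      fun m hm => ?_⟩⟩
  by_contra hc
  have h3 := (hμ i hi).1
  rw [h2 i hi _ (Submodule.smul_mem _ m h3) hc] at h3
  obtain ⟨y, hy, _, hz, h4⟩ := Submodule.mem_sup.1 h3
  obtain ⟨a, rfl⟩ := Submodule.mem_span_singleton.1 hz
  obtain ⟨u, hu⟩ := isUnit_one_sub_self_of_mem_nonunits _ (Ideal.mul_mem_left _ a hm)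
  refine (hμ i hi).2 ((Submodule.smul_mem_iff_of_isUnit _ u.isUnit).1 ?_)
  rw [hu, sub_smul, one_smul, mul_smul]
  rwa [← eq_sub_of_add_eq h4]

/-- adding a generator killed by the maximal ideal adds at most one to the length -/
theorem cf_step {M : Type} [AddCommGroup M] [Module A M] {N N' : Submodule A M} {μ : M}
    (h1 : N' ≤ N ⊔ Submodule.span A {μ}) (h2 : ∀ m ∈ maximalIdeal A, m • μ ∈ N) :
    Module.length A N' ≤ Module.length A N + 1 := by
  let φ := N.mkQ ∘ₗ N'.subtype
  let ψ : (A ⧸ maximalIdeal A) →ₗ[A] M ⧸ N :=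
    (maximalIdeal A).liftQ (N.mkQ ∘ₗ LinearMap.toSpanSingleton A M μ) fun m hm =>
      (Submodule.Quotient.mk_eq_zero N).2 (h2 m hm)
  have hs : IsSimpleModule A (A ⧸ maximalIdeal A) :=
    isSimpleModule_iff_quot_maximal.2 ⟨_, inferInstance, ⟨.refl _ _⟩⟩
  rw [Module.length_eq_add_of_exact _ _ (LinearMap.ker φ).subtype_injective φ.surjective_rangeRestrict
    (LinearMap.exact_iff.2 (by rw [LinearMap.ker_rangeRestrict, Submodule.range_subtype]))]
  refine add_le_add ?_ ?_
  · refine Module.length_le_of_injective ((N'.subtype ∘ₗ (LinearMap.ker φ).subtype).codRestrict N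
      fun x => (Submodule.Quotient.mk_eq_zero N).1 x.2) fun x y h => ?_
    have h' := congrArg Subtype.val h
    exact Subtype.ext (Subtype.ext h')
  · have h3 : LinearMap.range φ ≤ LinearMap.range ψ := by
      rintro _ ⟨x, rfl⟩
      obtain ⟨y, hy, _, hz, h4⟩ := Submodule.mem_sup.1 (h1 x.2)
      obtain ⟨a, rfl⟩ := Submodule.mem_span_singleton.1 hz
      refine ⟨Submodule.Quotient.mk a, (Submodule.Quotient.eq N).2 ?_⟩
      change a • μ - x ∈ N
      rw [← h4, sub_add_cancel_right]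
      exact neg_mem hy
    rw [← Module.length_eq_one A (A ⧸ maximalIdeal A)]
    exact (Module.length_le_of_injective _ (Submodule.inclusion_injective h3)).trans
      (Module.length_le_of_surjective _ ψ.surjective_rangeRestrict)

theorem cf_le {M : Type} [AddCommGroup M] [Module A M] (N : ℕ → Submodule A M) (μ : ℕ → M) {ℓ : ℕ}
    (h0 : N 0 = ⊥) (h1 : N ℓ = ⊤) (h : ∀ i < ℓ, N (i + 1) ≤ N i ⊔ Submodule.span A {μ i} ∧
      ∀ m ∈ maximalIdeal A, m • μ i ∈ N i) : Module.length A M ≤ ℓ := by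
  have : ∀ i ≤ ℓ, Module.length A (N i) ≤ i := fun i hi => by
    induction i with
    | zero => rw [h0, Module.length_bot]; rfl
    | succ i ih =>
      refine (cf_step (h i hi).1 (h i hi).2).trans ?_
      push_cast
      exact add_le_add (ih (by omega)) le_rfl
  have h2 := this ℓ le_rfl
  rwa [h1, Module.length_top] at h2

theorem cf_unit {B : Subring A} (h : ∀ b ∈ B, b ∉ maximalIdeal A → ∃ b' ∈ B, b * b' = 1) (b : B) :
    IsUnit b ↔ (b : A) ∉ maximalIdeal A :=
  ⟨fun hb hm => hm (hb.map B.subtype), fun hb => (h b b.2 hb).elim fun b' hb' =>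
    IsUnit.of_mul_eq_one ⟨b', hb'.1⟩ (Subtype.ext hb'.2)⟩

theorem cf_local {B : Subring A} (h : ∀ b ∈ B, b ∉ maximalIdeal A → ∃ b' ∈ B, b * b' = 1) :
    IsLocalRing B := by
  refine .of_nonunits_add fun a b ha hb => ?_
  simp only [mem_nonunits_iff, cf_unit h, not_not] at ha hb ⊢
  exact add_mem ha hb

theorem cf_max {B : Subring A} (h : ∀ b ∈ B, b ∉ maximalIdeal A → ∃ b' ∈ B, b * b' = 1)
    [IsLocalRing B] : maximalIdeal B = (maximalIdeal A).comap B.subtype := by
  ext b
  rw [mem_maximalIdeal, mem_nonunits_iff, cf_unit h, not_not]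
  rfl

/-- Take a composition series `A = I 0 > I 1 = 𝔪 > … > I ℓ = 0`, `μ i ∈ I i \ I (i+1)`, `μ 0 = 1`.  Every element
of `I j` is `∑_{i ≥ j} c i μ i` with `c i ∈ C0`.  Let `G` be the coefficients of the elements of `F`, of `p` (with
`j = 1`) and of the products `μ i μ j` (in `I (max i j)`, and in `I (max i j + 1)` when `i, j ≥ 1`).  Take `C` from
`exists_coef` and `B = ∑ C μ i`.  `B ⊓ 𝔪 = ∑_{i ≥ 1} C μ i`, and the `B`-submodules `∑_{i ≥ j} C μ i` have cyclic
quotients killed by `B ⊓ 𝔪`. -/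
theorem exists_good [IsArtinianRing A] (F : Finset A) : ∃ B : Subring A, (∀ a ∈ F, a ∈ B) ∧ Good B := by
  classical
  obtain ⟨C0, hC0, hC⟩ := exists_coef (A := A)
  obtain ⟨ℓ, J, μ, hℓ, hJ0, hJℓ, hJ⟩ := cf_chain (A := A) A Module.length_ne_top
  obtain ⟨l, rfl⟩ : ∃ l, ℓ = l + 1 := Nat.exists_eq_succ_of_ne_zero (by
    rintro rfl
    exact bot_ne_top (hJ0.symm.trans hJℓ))
  have hμJ : ∀ i < l + 1, μ i ∈ J (i + 1) := fun i hi =>
    (hJ i hi).2.1 ▸ Submodule.mem_sup_right (Submodule.mem_span_singleton_self _)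
  have hmono : ∀ i j, i ≤ j → j ≤ l + 1 → J i ≤ J j := fun i j hij hj => by
    induction j, hij using Nat.le_induction with
    | base => exact le_rfl
    | succ j _ ih => exact (ih (by omega)).trans ((hJ j hj).2.1 ▸ le_sup_left)
  have hJm : J l = maximalIdeal A := by
    refine le_antisymm (le_maximalIdeal fun h => (hJ l l.lt_succ_self).1 (h ▸ trivial)) fun m hm => ?_
    have h1 : (1 : A) ∈ J (l + 1) := hJℓ ▸ trivial
    rw [(hJ l l.lt_succ_self).2.1] at h1
    obtain ⟨y, hy, _, hz, h2⟩ := Submodule.mem_sup.1 h1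
    obtain ⟨a, rfl⟩ := Submodule.mem_span_singleton.1 hz
    rw [← mul_one m, ← h2, mul_add, smul_eq_mul, mul_left_comm]
    exact add_mem (Ideal.mul_mem_left _ _ hy)
      (Ideal.mul_mem_left _ _ ((hJ l l.lt_succ_self).2.2 m hm))
  -- coefficients
  have hco : ∀ i, ∀ x : A, ∃ c : ℕ → A, (∀ j, c j ∈ C0) ∧
      (i ≤ l + 1 → x ∈ J i → x = ∑ j ∈ Finset.range i, c j * μ j) := fun i => by
    induction i with
    | zero => exact fun x => ⟨0, fun _ => zero_mem _, fun _ hx => by simpa [hJ0] using hx⟩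
    | succ i ih =>
      intro x
      by_cases h : i + 1 ≤ l + 1 ∧ x ∈ J (i + 1)
      · have hx := h.2
        rw [(hJ i h.1).2.1] at hx
        obtain ⟨y, hy, _, hz, rfl⟩ := Submodule.mem_sup.1 hx
        obtain ⟨a, rfl⟩ := Submodule.mem_span_singleton.1 hz
        obtain ⟨c0, hc0, h1⟩ := hC0 a
        obtain ⟨c, hc, h2⟩ := ih (y + (a - c0) • μ i)
        refine ⟨Function.update c i c0, fun j => ?_, fun _ _ => ?_⟩
        · by_cases hj : j = i
          · rw [hj, Function.update_self]; exact hc0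
          · rw [Function.update_of_ne hj]; exact hc j
        · rw [Finset.sum_range_succ, Function.update_self, Finset.sum_congr rfl fun j hj => by
            rw [Function.update_of_ne (Finset.mem_range.1 hj).ne],
            ← h2 (by omega) (add_mem hy ((hJ i h.1).2.2 _ h1))]
          simp only [smul_eq_mul]
          ring
      · exact ⟨0, fun _ => zero_mem _, fun h1 h2 => absurd ⟨h1, h2⟩ h⟩
  choose co hco0 hco using hco
  set p : A := (ringChar (ResidueField A) : A) with hp
  have hpm : p ∈ maximalIdeal A := by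
    rw [← residue_eq_zero_iff, hp, map_natCast, ringChar.Nat.cast_ringChar]
  set X : Finset A := insert 1 F ∪ (Finset.range (l + 1) ×ˢ Finset.range (l + 1)).image
    (fun z => μ z.1 * μ z.2) ∪ (Finset.range (l + 1)).image fun j => p * μ j with hX
  obtain ⟨C, hCG, hCs⟩ := hC ((Finset.range (l + 2) ×ˢ X ×ˢ Finset.range (l + 2)).image
    fun z => co z.1 z.2.1 z.2.2) fun g hg => by
      obtain ⟨z, -, rfl⟩ := Finset.mem_image.1 hg
      exact hco0 _ _ _
  let W : ℕ → Submodule C A := fun i => Submodule.span C (μ '' Set.Iio i)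
  have hW : ∀ i ≤ l + 1, ∀ x ∈ X, x ∈ J i → x ∈ W i := fun i hi x hx hxJ => by
    rw [hco i x hi hxJ]
    refine Submodule.sum_mem _ fun j hj => ?_
    have hj' := Finset.mem_range.1 hj
    exact (W i).smul_mem ⟨co i x j, hCG _ (Finset.mem_image.2 ⟨(i, x, j), by
      simp only [Finset.mem_product, Finset.mem_range]; exact ⟨by omega, hx, by omega⟩, rfl⟩)⟩
      (Submodule.subset_span ⟨j, hj', rfl⟩)
  have hW' : ∀ x ∈ X, x ∈ W (l + 1) := fun x hx => hW _ le_rfl x hx (hJℓ ▸ trivial)
  have hWJ : ∀ i ≤ l + 1, ∀ x ∈ W i, x ∈ J i := fun i hi => by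
    refine Submodule.span_le.2 (?_ : μ '' Set.Iio i ⊆ (J i).restrictScalars C)
    rintro _ ⟨j, hj, rfl⟩
    exact hmono (j + 1) i hj hi (hμJ j (lt_of_lt_of_le hj hi))
  have hWs : ∀ i, ∀ x ∈ W (i + 1), ∃ c ∈ C, x - c * μ i ∈ W i := fun i x hx => by
    have he : μ '' Set.Iio (i + 1) = insert (μ i) (μ '' Set.Iio i) := by
      rw [← Set.image_insert_eq, Set.Iio_insert]
      exact congrArg _ (Set.ext fun _ => Nat.lt_succ_iff)
    change x ∈ Submodule.span C (μ '' Set.Iio (i + 1)) at hx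
    rw [he] at hx
    obtain ⟨c, hc⟩ := Submodule.mem_span_insert'.1 hx
    exact ⟨-c, (-c).2, by rwa [neg_mul, sub_neg_eq_add]⟩
  have hdown : ∀ i j, i ≤ j → j ≤ l + 1 → ∀ x ∈ W j, x ∈ J i → x ∈ W i := fun i j hij hj => by
    induction j, hij using Nat.le_induction with
    | base => exact fun _ h _ => h
    | succ j hij ih =>
      intro x hx hxJ
      obtain ⟨c, hc, h1⟩ := hWs j x hx
      refine ih (by omega) x ?_ hxJ
      have h2 : c * μ j ∈ J j := by
        simpa using sub_mem (hmono i j hij (by omega) hxJ) (hWJ j (by omega) _ h1)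
      have h3 : c ∈ maximalIdeal A := by
        by_contra h
        exact (hJ j hj).1 ((Ideal.unit_mul_mem_iff_mem _ (notMem_maximalIdeal.1 h)).1 h2)
      obtain ⟨c', hc', rfl⟩ := hCs.unr c hc h3
      have h4 := (W j).smul_mem ⟨c', hc'⟩ (hW j (by omega) (p * μ j) (Finset.mem_union_right _
        (Finset.mem_image_of_mem _ (Finset.mem_range.2 hj))) ((hJ j hj).2.2 p hpm))
      rw [← sub_add_cancel x (p * c' * μ j), mul_comm p, mul_assoc]
      rw [mul_comm p, mul_assoc] at h1
      exact add_mem h1 h4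
  have h1W : (1 : A) ∈ W (l + 1) := hW' 1 (by simp [hX])
  let B : Subring A := ((W (l + 1)).toSubalgebra h1W fun x y hx hy => by
    have h1 := Submodule.mul_mem_mul hx hy
    rw [Submodule.span_mul_span] at h1
    refine Submodule.span_le.2 ?_ h1
    rintro _ ⟨_, ⟨i, hi, rfl⟩, _, ⟨j, hj, rfl⟩, rfl⟩
    exact hW' _ (Finset.mem_union_left _ (Finset.mem_union_right _ (Finset.mem_image.2
      ⟨(i, j), Finset.mem_product.2 ⟨Finset.mem_range.2 hi, Finset.mem_range.2 hj⟩, rfl⟩)))).toSubring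
  have hB : ∀ x, x ∈ B ↔ x ∈ W (l + 1) := fun _ => Iff.rfl
  have hCB : ∀ c ∈ C, c ∈ B := fun c hc => by
    rw [hB, ← mul_one c]
    exact (W (l + 1)).smul_mem ⟨c, hc⟩ h1W
  have hμB : ∀ i < l + 1, μ i ∈ B := fun i hi => Submodule.subset_span ⟨i, hi, rfl⟩
  have hres : ∀ b ∈ B, ∃ c ∈ C, b - c ∈ maximalIdeal A := fun b hb => by
    obtain ⟨c, hc, h1⟩ := hWs l b hb
    obtain ⟨c1, hc1, h2⟩ := hWs l 1 h1W
    have h3 := hJm ▸ hWJ l l.le_succ _ h1
    have h4 := hJm ▸ hWJ l l.le_succ _ h2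
    obtain ⟨c2, hc2, h5⟩ := hCs.inv c1 hc1 fun h => (maximalIdeal.isMaximal A).ne_top
      ((Ideal.eq_top_iff_one _).2 (by simpa using add_mem h4 (Ideal.mul_mem_right (μ l) _ h)))
    refine ⟨c * c2, mul_mem hc hc2, ?_⟩
    convert sub_mem h3 (Ideal.mul_mem_left _ (c * c2) h4) using 1
    linear_combination (-(c * μ l)) * h5
  have hinv : ∀ b ∈ B, b ∉ maximalIdeal A → ∃ b' ∈ B, b * b' = 1 := cf_inv fun b hb hm => by
    obtain ⟨c, hc, h1⟩ := hres b hb
    obtain ⟨c', hc', h2⟩ := hCs.inv c hc fun h => hm (by simpa using add_mem h1 h)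
    refine ⟨c', hCB _ hc', ?_⟩
    rw [← h2, ← sub_mul, ← neg_sub]
    exact Ideal.mul_mem_right _ _ (neg_mem h1)
  refine ⟨B, fun a ha => hW' a (by simp [hX, ha]), hinv, ?_, ?_, ?_⟩
  · refine le_antisymm Ideal.map_comap_le fun m hm => ?_
    rw [hco l m l.le_succ (hJm ▸ hm)]
    refine Submodule.sum_mem _ fun j hj => Ideal.mul_mem_left _ _ ?_
    have hj' := Finset.mem_range.1 hj
    have h1 : μ j ∈ maximalIdeal A := hJm ▸ hmono (j + 1) l hj' l.le_succ (hμJ j (by omega))
    have h2 : (⟨μ j, hμB j (by omega)⟩ : B) ∈ (maximalIdeal A).comap B.subtype := h1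
    exact Ideal.mem_map_of_mem B.subtype h2
  · have := cf_local hinv
    rw [← hℓ]
    refine cf_le (fun i => Ideal.comap B.subtype (J i))
      (fun i => if h : i < l + 1 then ⟨μ i, hμB i h⟩ else 0) ?_ ?_ fun i hi => ⟨fun x hx => ?_, ?_⟩
    · rw [hJ0]
      exact (RingHom.injective_iff_ker_eq_bot _).1 B.subtype_injective
    · rw [hJℓ]
      exact Ideal.comap_top
    · obtain ⟨c, hc, h1⟩ := hWs i x (hdown (i + 1) (l + 1) hi le_rfl _ x.2 hx)
      rw [dif_pos hi, ← sub_add_cancel x ((⟨c, hCB c hc⟩ : B) • ⟨μ i, hμB i hi⟩)]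
      exact Submodule.add_mem_sup (hWJ i hi.le _ h1)
        (Submodule.smul_mem _ _ (Submodule.mem_span_singleton_self _))
    · rw [cf_max hinv, dif_pos hi]
      exact fun m hm => (hJ i hi).2.2 m hm
  · obtain ⟨s, hs, hs'⟩ := hCs.fg
    refine ⟨s, fun a ha => hCB a (hs a ha), fun b hb => ?_⟩
    obtain ⟨c, hc, h1⟩ := hres b hb
    rw [← residue_eq_zero_iff, map_sub, sub_eq_zero] at h1
    exact h1 ▸ hs' c hc

theorem Good.isLocalRing {B : Subring A} (h : Good B) : IsLocalRing B := by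
  exact cf_local h.inv

theorem Good.maximalIdeal_eq {B : Subring A} (h : Good B) [IsLocalRing B] :
    maximalIdeal B = (maximalIdeal A).comap B.subtype := by
  exact cf_max h.inv

/-- Unramified maps do not increase lengths: `ℓ_B (B ⊗ M) ≤ ℓ_A M`, by induction on a composition series and
right exactness. -/
theorem length_baseChange_le {B : Type} [CommRing B] [IsLocalRing B] [Algebra A B]
    (h : Unram (algebraMap A B)) (M : Type) [AddCommGroup M] [Module A M] :
    Module.length B (TensorProduct A B M) ≤ Module.length A M := by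
  by_cases hM : Module.length A M = ⊤
  · rw [hM]; exact le_top
  obtain ⟨ℓ, J, μ, hℓ, hJ0, hJℓ, hJ⟩ := cf_chain (A := A) M hM
  rw [← hℓ]
  refine cf_le (fun i => (J i).baseChange B) (fun i => 1 ⊗ₜ μ i) (by rw [hJ0, Submodule.baseChange_bot])
    (by rw [hJℓ, Submodule.baseChange_top]) fun i hi => ⟨?_, fun m hm => ?_⟩
  · rw [(hJ i hi).2.1, Submodule.baseChange_eq_span, Submodule.span_le]
    rintro _ ⟨x, hx, rfl⟩
    obtain ⟨y, hy, _, hz, rfl⟩ := Submodule.mem_sup.1 hx
    obtain ⟨a, rfl⟩ := Submodule.mem_span_singleton.1 hz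
    rw [map_add, map_smul]
    exact Submodule.add_mem_sup (Submodule.tmul_mem_baseChange_of_mem 1 hy)
      (Submodule.smul_of_tower_mem _ _ (Submodule.mem_span_singleton_self _))
  · rw [← h] at hm
    induction hm using Submodule.span_induction with
    | mem _ hm =>
      obtain ⟨a, ha, rfl⟩ := hm
      rw [algebraMap_smul, ← TensorProduct.tmul_smul]
      exact Submodule.tmul_mem_baseChange_of_mem 1 ((hJ i hi).2.2 a ha)
    | zero => simp
    | add x y _ _ hx hy => rw [add_smul]; exact add_mem hx hy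
    | smul b x _ hx => rw [smul_assoc]; exact Submodule.smul_mem _ _ hx

theorem cf_span_le {B : Type} [CommRing B] [IsLocalRing B] [Algebra A B] (h : Unram (algebraMap A B))
    {M N : Type} [AddCommGroup M] [Module A M] [AddCommGroup N] [Module A N] [Module B N]
    [IsScalarTower A B N] (f : M →ₗ[A] N) :
    Module.length B (Submodule.span B (LinearMap.range f : Set N)) ≤ Module.length A M := by
  rw [← LinearMap.range_liftBaseChange]
  exact (Module.length_le_of_surjective _ (f.liftBaseChange B).surjective_rangeRestrict).trans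
    (length_baseChange_le h M)

/-- In a good subring all colengths are preserved: `ℓ(A / I A) ≤ ℓ(B / I)`, `ℓ(I A) ≤ ℓ(I)` (`I A` is a quotient of
`A ⊗ I`), and the sums are `ℓ(A) ≥ ℓ(B)`. -/
theorem Good.colen [IsArtinianRing A] {B : Subring A} (h : Good B) (I : Ideal B) :
    colen B I = colen A (I.map B.subtype) := by
  have := h.isLocalRing
  have hu : Unram (algebraMap B A) := by
    rw [Unram, h.maximalIdeal_eq]; exact h.unr
  have h1 := cf_span_le hu (Algebra.linearMap B A ∘ₗ I.subtype)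
  rw [LinearMap.range_comp, Submodule.range_subtype] at h1
  have h2 := cf_span_le hu (I.liftQ ((I.map B.subtype).mkQ.restrictScalars B ∘ₗ Algebra.linearMap B A)
    fun x hx => (Submodule.Quotient.mk_eq_zero _).2 (Ideal.mem_map_of_mem B.subtype hx))
  rw [show Submodule.span A _ = ⊤ from eq_top_iff.2 fun x _ => by
    obtain ⟨a, rfl⟩ := Submodule.Quotient.mk_surjective _ x
    rw [← mul_one a, ← smul_eq_mul, Submodule.Quotient.mk_smul]
    exact Submodule.smul_mem _ _ (Submodule.subset_span ⟨Submodule.Quotient.mk 1, rfl⟩),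
    Module.length_top] at h2
  have h3 := Module.length_eq_add_of_exact I.subtype I.mkQ I.subtype_injective I.mkQ_surjective
    (LinearMap.exact_subtype_mkQ I)
  have h4 := Module.length_eq_add_of_exact (I.map B.subtype).subtype (I.map B.subtype).mkQ
    (Submodule.subtype_injective _) (Submodule.mkQ_surjective _) (LinearMap.exact_subtype_mkQ _)
  refine le_antisymm ?_ h2
  have h5 := h.len
  rw [h3, h4] at h5
  have h6 : Module.length A (I.map B.subtype) ≠ ⊤ := Module.length_ne_top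
  exact (ENat.add_le_add_iff_left h6).1 ((add_le_add h1 le_rfl).trans h5)

end Crest.Agent.R183
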