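import Crest.Agent.R183.Defs

/-!
# rid 183, file `Const`: two pieces of elementary algebra

Prefix helper lemmas with `cst_`.
-/

set_option autoImplicit false

namespace Crest.Agent.R183

theorem cst_single_comp {m : ℕ} (k : Fin m) (σ : Equiv.Perm (Fin m)) :
    (Pi.single k 1 : Fin m → ℤ) ∘ σ = Pi.single (σ.symm k) 1 := by
  funext j
  simp only [Function.comp_apply, Pi.single_apply, Equiv.eq_symm_apply]

theorem cst_sum_single {m : ℕ} (g : (Fin m → ℤ) → ℝ) (φ : ℝ)
    (h : ∀ c k, g (c + Pi.single k 1) = g c + φ) (s : Finset (Fin m)) (c : Fin m → ℤ) :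
    g (c + ∑ k ∈ s, Pi.single k 1) = g c + s.card * φ := by
  induction s using Finset.induction_on with
  | empty => simp
  | insert k s hk ih =>
    rw [Finset.sum_insert hk, add_comm (Pi.single k 1), ← add_assoc, h, ih,
      Finset.card_insert_of_notMem hk]
    push_cast; ring

theorem cst_const (m : ℕ) : ∀ g : (Fin m → ℤ) → ℝ,
    (∀ (σ : Equiv.Perm (Fin m)) c, g (c ∘ σ) = g c) →
    (∀ c k, g (c + Pi.single k 1 + Pi.single k 1) - g (c + Pi.single k 1)
      = g (c + Pi.single k 1) - g c) → (∀ c, g (c + 1) = g c) → ∀ c c', g c = g c' := by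
  induction m with
  | zero => intro g _ _ _ c c'; rw [Subsingleton.elim c c']
  | succ m ih =>
    intro g hs h2 hd
    set D : (Fin (m + 1) → ℤ) → ℝ := fun c => g (c + Pi.single 0 1) - g c with hD
    have hper : Function.Periodic D (Pi.single 0 1) := fun c => h2 c 0
    have hcons : ∀ (x : Fin m → ℤ) (k : Fin m), (Fin.cons 0 (x + Pi.single k 1) : Fin (m + 1) → ℤ) =
        Fin.cons 0 x + Pi.single k.succ 1 := by
      intro x k
      funext j
      refine Fin.cases ?_ (fun j => ?_) j
      · simp
      · simp [Pi.single_apply]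
    have h1 := ih (fun x => D (Fin.cons 0 x)) (fun σ x => ?_) (fun x k => ?_) (fun x => ?_)
    · have h3 : ∀ c, D c = D 0 := by
        intro c
        have e : ∀ c : Fin (m + 1) → ℤ, c = Fin.cons 0 (Fin.tail c) + c 0 • Pi.single 0 1 := by
          intro c
          funext j
          refine Fin.cases ?_ (fun j => ?_) j <;> simp [Fin.tail]
        rw [e c, e 0, hper.zsmul, hper.zsmul]
        exact h1 _ _
      have h4 : ∀ c k, g (c + Pi.single k 1) = g c + D 0 := by
        intro c k
        have h5 := h3 (c ∘ Equiv.swap 0 k)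
        have h6 := hs (Equiv.swap 0 k) (c + Pi.single k 1)
        rw [Pi.add_comp, cst_single_comp, Equiv.symm_swap, Equiv.swap_apply_right] at h6
        simp only [hD, h6, hs] at h5 ⊢
        linarith
      have h5 := cst_sum_single g _ h4 Finset.univ 0
      have h6 : ∑ k : Fin (m + 1), (Pi.single k 1 : Fin (m + 1) → ℤ) = 1 :=
        Finset.univ_sum_single (1 : Fin (m + 1) → ℤ)
      rw [h6, hd, Finset.card_univ, Fintype.card_fin] at h5
      have h7 : D 0 = 0 := by
        have h8 : ((m + 1 : ℕ) : ℝ) * D 0 = 0 := by linarith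
        exact (mul_eq_zero.1 h8).resolve_left (by positivity)
      have h8 : ∀ k, Function.Periodic g (Pi.single k 1) := fun k c => by rw [h4, h7, add_zero]
      have h9 : ∀ (c : Fin (m + 1) → ℤ) (s : Finset (Fin (m + 1))),
          g (∑ k ∈ s, c k • Pi.single k 1) = g 0 := by
        intro c s
        induction s using Finset.induction_on with
        | empty => simp
        | insert k s hk ih => rw [Finset.sum_insert hk, add_comm, (h8 k).zsmul, ih]
      have h10 : ∀ c, g c = g 0 := by
        intro c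
        rw [← h9 c Finset.univ]
        congr 1
        funext j
        simp [Finset.sum_apply, Pi.single_apply]
      intro c c'
      rw [h10 c, h10 c']
    · set σ' := Equiv.Perm.decomposeFin.symm (0, σ) with hσ'
      have e1 : (Fin.cons 0 (x ∘ σ) : Fin (m + 1) → ℤ) = Fin.cons 0 x ∘ σ' := by
        funext j
        refine Fin.cases ?_ (fun j => ?_) j <;> simp [hσ']
      have e2 : (Pi.single 0 1 : Fin (m + 1) → ℤ) = Pi.single 0 1 ∘ σ' := by
        funext j
        refine Fin.cases ?_ (fun j => ?_) j <;> simp [hσ']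
      simp only [hD]
      rw [e1, hs]
      conv_lhs => rw [e2, ← Pi.add_comp, hs]
    · simp only [hcons, hD]
      have a1 := h2 (Fin.cons 0 x) k.succ
      have a2 := h2 (Fin.cons 0 x + Pi.single 0 1) k.succ
      simp only [add_right_comm _ (Pi.single 0 1 : Fin (m + 1) → ℤ)] at a2
      linarith
    · have e : (Fin.cons 0 (x + 1) : Fin (m + 1) → ℤ) + Pi.single 0 1 = Fin.cons 0 x + 1 := by
        funext j
        refine Fin.cases ?_ (fun j => ?_) j <;> simp
      rw [← hper, e]
      simp only [hD]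
      rw [add_right_comm, hd, hd]

/-- A function on `ℤ^m` that is affine in each variable and invariant under the diagonal translation has a
constant symmetrisation.  Let `g c = ∑ σ, f (c ∘ σ)`; it is symmetric with the same two properties.  Claim
(induction on `m`): such a `g` is constant.  The difference `c ↦ g (c + e_last) - g c` does not depend on the
last variable and, as a function of the others, is symmetric, affine in each variable and invariant under
the diagonal; so it is a constant `φ`.  By symmetry every difference `g (c + e_k) - g c` equals `φ`; going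
from `c` to `c + 1` in `m` steps gives `m φ = 0`. -/
theorem symm_const (m : ℕ) (f : (Fin m → ℤ) → ℝ)
    (h2 : ∀ c k, f (c + Pi.single k 1 + Pi.single k 1) - f (c + Pi.single k 1)
      = f (c + Pi.single k 1) - f c)
    (hd : ∀ c, f (c + 1) = f c) (c c' : Fin m → ℤ) :
    ∑ σ : Equiv.Perm (Fin m), f (c ∘ σ) = ∑ σ : Equiv.Perm (Fin m), f (c' ∘ σ) := by
  refine cst_const m (fun c => ∑ σ : Equiv.Perm (Fin m), f (c ∘ σ)) (fun τ c => ?_)
    (fun c k => ?_) (fun c => ?_) c c'
  · exact Equiv.sum_comp (Equiv.mulLeft τ) fun σ : Equiv.Perm (Fin m) => f (c ∘ σ)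
  · simp only [← Finset.sum_sub_distrib, Pi.add_comp, cst_single_comp, h2]
  · exact Finset.sum_congr rfl fun σ _ => hd _

/-- The thresholds: `thr m q k` lists `q + 1, …, k q + 1, (k + 2) q, …, (m + 1) q`. -/
def thr (m q : ℕ) (k : Fin (m + 1)) (j : Fin m) : ℤ :=
  if (j : ℕ) < k then ((j : ℕ) + 1) * q + 1 else ((j : ℕ) + 2) * q

theorem cst_tele (x : ℕ → ℝ) (m : ℕ) :
    ∑ k : Fin (m + 1), ∏ j : Fin m, (if (j : ℕ) < k then x j + 1 else x (j + 1)) =
      ∏ r ∈ Finset.range (m + 1), (x r + 1) - ∏ r ∈ Finset.range (m + 1), x r := by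
  induction m with
  | zero => simp
  | succ m ih =>
    rw [Fin.sum_univ_castSucc, Finset.prod_range_succ _ (m + 1), Finset.prod_range_succ _ (m + 1)]
    have h1 : ∀ k : Fin (m + 1), ∏ j : Fin (m + 1),
        (if (j : ℕ) < (k.castSucc : Fin (m + 2)) then x j + 1 else x (j + 1)) =
        (∏ j : Fin m, if (j : ℕ) < k then x j + 1 else x (j + 1)) * x (m + 1) := by
      intro k
      rw [Fin.prod_univ_castSucc]
      have : ¬ m < (k : ℕ) := by omega
      simp [this]
    have h2 : ∏ j : Fin (m + 1), (if (j : ℕ) < (Fin.last (m + 1) : Fin (m + 2)) then x j + 1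
        else x (j + 1)) = ∏ r ∈ Finset.range (m + 1), (x r + 1) := by
      rw [Finset.prod_range]
      exact Finset.prod_congr rfl fun j _ => if_pos j.2
    simp only [h1, h2, ← Finset.sum_mul, ih]
    ring

theorem cst_tele_int (F : ℤ → ℝ) (n : ℕ) :
    ∑ a ∈ Finset.Ico (-(n : ℤ)) 0, (F (a + 1) - F a) = F 0 - F (-n) := by
  induction n with
  | zero => simp
  | succ n ih =>
    have e : Finset.Ico (-((n + 1 : ℕ) : ℤ)) 0 =
        insert (-((n + 1 : ℕ) : ℤ)) (Finset.Ico (-(n : ℤ)) 0) := by
      ext a; simp only [Finset.mem_Ico, Finset.mem_insert]; omega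
    have e2 : -((n + 1 : ℕ) : ℤ) + 1 = -n := by push_cast; ring
    rw [e, Finset.sum_insert (by simp only [Finset.mem_Ico]; omega), ih, e2]
    ring

/-- With `Π a = ∏_{r = 1}^{m+1} (a + r q)` one has `∑_k ∏_j (thr k j + a) = Π (a + 1) - Π a` (telescoping
product); summing over `a` telescopes to `Π 0 - Π (-l q)`, and `Π (-l q) = 0` for `1 ≤ l ≤ m + 1`. -/
theorem thr_sum (m q l : ℕ) (hl : 1 ≤ l) (hl' : l ≤ m + 1) :
    ∑ k : Fin (m + 1), ∑ a ∈ Finset.Ico (-(l * q : ℤ)) 0, ∏ j, ((thr m q k j + a : ℤ) : ℝ)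
      = ((m + 1).factorial : ℝ) * (q : ℝ) ^ (m + 1) := by
  set F : ℤ → ℝ := fun a => ∏ r ∈ Finset.range (m + 1), ((a : ℝ) + (r + 1) * q) with hF
  have h1 : ∀ a : ℤ, ∑ k : Fin (m + 1), ∏ j, ((thr m q k j + a : ℤ) : ℝ) = F (a + 1) - F a := by
    intro a
    have h2 := cst_tele (fun r => (a : ℝ) + (r + 1) * q) m
    simp only [hF]
    convert h2 using 2
    · refine Finset.prod_congr rfl fun j _ => ?_
      unfold thr
      split_ifs <;> push_cast <;> ring
    · refine Finset.prod_congr rfl fun j _ => ?_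
      push_cast; ring
  rw [Finset.sum_comm]
  simp only [h1]
  have h2 := cst_tele_int F (l * q)
  push_cast at h2
  rw [h2]
  have h3 : F (-(l * q : ℤ)) = 0 := by
    refine Finset.prod_eq_zero (i := l - 1) (Finset.mem_range.2 (by omega)) ?_
    push_cast [Nat.cast_sub hl]
    ring
  rw [h3, sub_zero, hF]
  simp only [Int.cast_zero, zero_add, Finset.prod_mul_distrib, Finset.prod_const,
    Finset.card_range]
  rw [← Finset.prod_range_add_one_eq_factorial]
  push_cast
  rfl

theorem thr_card_le (m q : ℕ) (k : Fin (m + 1)) (i : ℕ) {a : ℤ} (ha : -(i * q : ℤ) ≤ a) :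
    (Finset.univ.filter fun j => thr m q k j + a < 0).card ≤ i := by
  refine le_of_le_of_eq (Finset.card_le_card_of_injOn (t := Finset.range i) (fun j => (j : ℕ))
    (fun j hj => ?_) fun _ _ _ _ h => Fin.ext h) (Finset.card_range i)
  have h1 := (Finset.mem_filter.1 (Finset.mem_coe.1 hj)).2
  refine Finset.mem_coe.2 (Finset.mem_range.2 ?_)
  by_contra h2
  have h3 : (i : ℤ) ≤ (j : ℕ) := by exact_mod_cast not_lt.1 h2
  have h4 : (0 : ℤ) ≤ q := Int.natCast_nonneg q
  have h5 := mul_le_mul_of_nonneg_right h3 h4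
  unfold thr at h1
  split_ifs at h1 <;> nlinarith

theorem thr_card_ge (m q : ℕ) (hq : 0 < q) (k : Fin (m + 1)) {i : ℕ} (hi : i ≤ m + 1) {a : ℤ}
    (ha : a < -(i * q : ℤ)) : i ≤ (Finset.univ.filter fun j => thr m q k j + a < 0).card + 1 := by
  have h0 : i - 1 ≤ m := by omega
  have h1 := Finset.card_le_card_of_injOn (s := Finset.univ)
    (t := Finset.univ.filter fun j => thr m q k j + a < 0) (Fin.castLE h0)
    (fun j _ => ?_) fun _ _ _ _ h => Fin.castLE_injective h0 h
  · rw [Finset.card_univ, Fintype.card_fin] at h1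
    omega
  · refine Finset.mem_coe.2 (Finset.mem_filter.2 ⟨Finset.mem_univ _, ?_⟩)
    have h3 : ((j : ℕ) : ℤ) + 2 ≤ i := by have := j.2; omega
    have h4 : (1 : ℤ) ≤ q := by exact_mod_cast hq
    have h5 := mul_le_mul_of_nonneg_right h3 (zero_le_one.trans h4)
    unfold thr
    simp only [Fin.val_castLE]
    split_ifs <;> nlinarith

end Crest.Agent.R183
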