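import Crest.Agent.R183.Defs

/-!
# rid 183, file `CoreLen`: the length functions used to make the core inequality effective

Prefix helper lemmas with `cl_`.
-/

set_option autoImplicit false

open Filter

namespace Crest.Agent.R183

section cl

variable {Λ : Type} [CommRing Λ]

theorem cl_mem_ism {W : Type} [AddCommGroup W] [Module Λ W] (a : Λ) (w : W) :
    w ∈ ism (Ideal.span {a}) W ↔ ∃ v : W, a • v = w := by
  unfold ism
  rw [Submodule.ideal_span_singleton_smul, Submodule.mem_smul_pointwise_iff_exists]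
  simp

theorem cl_ism_eq (a : Λ) (W : Type) [AddCommGroup W] [Module Λ W] :
    LinearMap.range (LinearMap.lsmul Λ W a) = ism (Ideal.span {a}) W := by
  ext w
  rw [cl_mem_ism]
  simp [LinearMap.mem_range]

/-- The restriction of a linear map to `a • M → a • N`. -/
def cl_res {M N : Type} [AddCommGroup M] [Module Λ M] [AddCommGroup N] [Module Λ N] (a : Λ)
    (f : M →ₗ[Λ] N) : ism (Ideal.span {a}) M →ₗ[Λ] ism (Ideal.span {a}) N :=
  f.restrict (p := ism (Ideal.span {a}) M) (q := ism (Ideal.span {a}) N) (by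
    intro x hx
    obtain ⟨v, rfl⟩ := (cl_mem_ism a x).1 hx
    exact (cl_mem_ism a _).2 ⟨f v, by simp⟩)

theorem cl_res_coe {M N : Type} [AddCommGroup M] [Module Λ M] [AddCommGroup N] [Module Λ N] (a : Λ)
    (f : M →ₗ[Λ] N) (x : ism (Ideal.span {a}) M) : (cl_res a f x : N) = f x := rfl

theorem cl_res_inj {M N : Type} [AddCommGroup M] [Module Λ M] [AddCommGroup N] [Module Λ N] (a : Λ)
    (f : M →ₗ[Λ] N) (hf : Function.Injective f) : Function.Injective (cl_res a f) := by
  intro x y h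
  apply Subtype.ext
  apply hf
  rw [← cl_res_coe, ← cl_res_coe, h]

theorem cl_res_surj {M N : Type} [AddCommGroup M] [Module Λ M] [AddCommGroup N] [Module Λ N] (a : Λ)
    (f : M →ₗ[Λ] N) (hf : Function.Surjective f) : Function.Surjective (cl_res a f) := by
  rintro ⟨y, hy⟩
  obtain ⟨v, rfl⟩ := (cl_mem_ism a y).1 hy
  obtain ⟨u, rfl⟩ := hf v
  refine ⟨⟨a • u, (cl_mem_ism a _).2 ⟨u, rfl⟩⟩, Subtype.ext ?_⟩
  rw [cl_res_coe]
  simp

theorem cl_res_exact {M' M N : Type} [AddCommGroup M'] [Module Λ M'] [AddCommGroup M] [Module Λ M]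
    [AddCommGroup N] [Module Λ N] (a : Λ) (ha : a * a = a)
    (f : M' →ₗ[Λ] M) (g : M →ₗ[Λ] N) (h : Function.Exact f g) :
    Function.Exact (cl_res a f) (cl_res a g) := by
  rintro ⟨y, hy⟩
  obtain ⟨v, rfl⟩ := (cl_mem_ism a y).1 hy
  constructor
  · intro h0
    have h1 : g (a • v) = 0 := by
      have := congrArg Subtype.val h0
      rwa [cl_res_coe] at this
    obtain ⟨u, hu⟩ := (h _).1 h1
    refine ⟨⟨a • u, (cl_mem_ism a _).2 ⟨u, rfl⟩⟩, Subtype.ext ?_⟩
    rw [cl_res_coe]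
    show f (a • u) = a • v
    rw [map_smul, hu, smul_smul, ha]
  · rintro ⟨u, hu⟩
    apply Subtype.ext
    rw [cl_res_coe, ← hu, cl_res_coe]
    exact (h _).2 ⟨_, rfl⟩

variable (A : ALen Λ)

theorem cl_equiv {M M' : Type} [AddCommGroup M] [Module Λ M] [AddCommGroup M'] [Module Λ M']
    (e : M ≃ₗ[Λ] M') : A.l M = A.l M' := by
  have h := A.l_add M M' PUnit.{1} e.toLinearMap 0 e.injective
    (fun x => ⟨0, Subsingleton.elim _ _⟩)
    (fun y => ⟨fun _ => e.surjective y, fun _ => rfl⟩)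
  rw [A.l_zero PUnit.{1} inferInstance, add_zero] at h
  exact h.symm

theorem cl_sub {W : Type} [AddCommGroup W] [Module Λ W] (U : Submodule Λ W) :
    A.l W = A.l U + A.l (W ⧸ U) :=
  A.l_add _ _ _ U.subtype U.mkQ U.injective_subtype U.mkQ_surjective
    (LinearMap.exact_subtype_mkQ U)

theorem cl_le_inj {M N : Type} [AddCommGroup M] [Module Λ M] [AddCommGroup N] [Module Λ N]
    (f : M →ₗ[Λ] N) (hf : Function.Injective f) : A.l M ≤ A.l N := by
  rw [A.l_add _ _ _ f (LinearMap.range f).mkQ hf (Submodule.mkQ_surjective _)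
    (LinearMap.exact_map_mkQ_range f)]
  exact le_self_add

theorem cl_le_surj {M N : Type} [AddCommGroup M] [Module Λ M] [AddCommGroup N] [Module Λ N]
    (f : M →ₗ[Λ] N) (hf : Function.Surjective f) : A.l N ≤ A.l M := by
  rw [A.l_add _ _ _ (LinearMap.ker f).subtype f (Submodule.injective_subtype _) hf
    (LinearMap.exact_subtype_ker_map f)]
  exact le_add_self

theorem cl_ker_range {M N : Type} [AddCommGroup M] [Module Λ M] [AddCommGroup N] [Module Λ N]
    (f : M →ₗ[Λ] N) : A.l M = A.l (LinearMap.ker f) + A.l (LinearMap.range f) := by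
  rw [cl_sub A (LinearMap.ker f), cl_equiv A f.quotKerEquivRange]

theorem cl_ker_coker {W : Type} [AddCommGroup W] [Module Λ W] (η : Λ) (h : A.l W ≠ ⊤) :
    A.l (LinearMap.ker (LinearMap.lsmul Λ W η)) = A.l (W ⧸ ism (Ideal.span {η}) W) := by
  have h1 := cl_ker_range A (LinearMap.lsmul Λ W η)
  have h2 := cl_sub A (ism (Ideal.span {η}) W)
  rw [cl_equiv A (LinearEquiv.ofEq _ _ (cl_ism_eq η W))] at h1
  have h3 : A.l (ism (Ideal.span {η}) W) ≠ ⊤ :=
    ne_top_of_le_ne_top h (cl_le_inj A _ (Submodule.injective_subtype _))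
  rw [h1, add_comm] at h2
  exact (ENNReal.add_right_inj h3).1 h2

/-- A module killed by `η` that is a quotient of `W` is at most as long as `W / η W`. -/
theorem cl_le_coker {W N : Type} [AddCommGroup W] [Module Λ W] [AddCommGroup N] [Module Λ N] (η : Λ)
    (g : W →ₗ[Λ] N) (hg : Function.Surjective g) (hη : ∀ w : W, g (η • w) = 0) :
    A.l N ≤ A.l (W ⧸ ism (Ideal.span {η}) W) := by
  refine cl_le_surj A ((ism (Ideal.span {η}) W).liftQ g ?_) ?_
  · intro x hx
    obtain ⟨v, rfl⟩ := (cl_mem_ism η x).1 hx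
    exact hη v
  · intro y
    obtain ⟨w, rfl⟩ := hg y
    exact ⟨Submodule.Quotient.mk w, rfl⟩

/-- A module killed by `η` that embeds in `W` is at most as long as `ker η`. -/
theorem cl_le_ker {W N : Type} [AddCommGroup W] [Module Λ W] [AddCommGroup N] [Module Λ N] (η : Λ)
    (f : N →ₗ[Λ] W) (hf : Function.Injective f) (hη : ∀ w : N, η • f w = 0) :
    A.l N ≤ A.l (LinearMap.ker (LinearMap.lsmul Λ W η)) := by
  refine cl_le_inj A (f.codRestrict _ fun w => ?_) ?_
  · simpa using hη w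
  · intro x y h
    exact hf (congrArg Subtype.val h)

/-- The class of good modules. -/
def cl_G (α α' : Λ) (W : Type) [AddCommGroup W] [Module Λ W] : Prop :=
  A.l W ≠ ⊤ ∧ A.l (W ⧸ ism (Ideal.span {α + α'}) W) = 0 ∧ ∀ w : W, (α * α') • w = 0

theorem cl_G_inj (α α' : Λ) {M' M : Type} [AddCommGroup M'] [Module Λ M'] [AddCommGroup M]
    [Module Λ M] (f : M' →ₗ[Λ] M) (hf : Function.Injective f) (h : cl_G A α α' M) :
    cl_G A α α' M' := by
  obtain ⟨h1, h2, h3⟩ := h
  have h1' : A.l M' ≠ ⊤ := ne_top_of_le_ne_top h1 (cl_le_inj A f hf)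
  refine ⟨h1', ?_, fun w => hf (by rw [map_smul, h3, map_zero])⟩
  rw [← cl_ker_coker A _ h1'] 
  rw [← cl_ker_coker A _ h1] at h2
  refine le_antisymm (le_trans ?_ h2.le) (zero_le)
  refine cl_le_ker A _ (f ∘ₗ Submodule.subtype _) (hf.comp (Submodule.injective_subtype _)) ?_
  rintro ⟨w, hw⟩
  have : (α + α') • w = 0 := hw
  show (α + α') • f w = 0
  rw [← map_smul, this, map_zero]

theorem cl_G_surj (α α' : Λ) {M M'' : Type} [AddCommGroup M] [Module Λ M] [AddCommGroup M'']
    [Module Λ M''] (g : M →ₗ[Λ] M'') (hg : Function.Surjective g) (h : cl_G A α α' M) :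
    cl_G A α α' M'' := by
  obtain ⟨h1, h2, h3⟩ := h
  refine ⟨ne_top_of_le_ne_top h1 (cl_le_surj A g hg), ?_, fun w => ?_⟩
  · refine le_antisymm (le_trans ?_ h2.le) (zero_le)
    refine cl_le_coker A _ (Submodule.mkQ _ ∘ₗ g) ((Submodule.mkQ_surjective _).comp hg) ?_
    intro w
    show Submodule.Quotient.mk (g ((α + α') • w)) = 0
    rw [Submodule.Quotient.mk_eq_zero, map_smul]
    exact (cl_mem_ism _ _).2 ⟨_, rfl⟩
  · obtain ⟨v, rfl⟩ := hg w
    rw [← map_smul, h3, map_zero]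

theorem cl_prod (M M' : Type) [AddCommGroup M] [Module Λ M] [AddCommGroup M'] [Module Λ M'] :
    A.l (M × M') = A.l M + A.l M' :=
  A.l_add _ _ _ (LinearMap.inl Λ M M') (LinearMap.snd Λ M M') LinearMap.inl_injective
    LinearMap.snd_surjective Function.Exact.inl_snd

theorem cl_G_prod (α α' : Λ) {M M' : Type} [AddCommGroup M] [Module Λ M] [AddCommGroup M']
    [Module Λ M'] (h : cl_G A α α' M) (h' : cl_G A α α' M') : cl_G A α α' (M × M') := by
  obtain ⟨h1, h2, h3⟩ := h
  obtain ⟨h1', h2', h3'⟩ := h'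
  have h0 : A.l (M × M') ≠ ⊤ := by
    rw [cl_prod]
    exact ENNReal.add_ne_top.2 ⟨h1, h1'⟩
  refine ⟨h0, ?_, fun w => Prod.ext (h3 w.1) (h3' w.2)⟩
  rw [← cl_ker_coker A _ h0]
  rw [← cl_ker_coker A _ h1] at h2
  rw [← cl_ker_coker A _ h1'] at h2'
  have h4 := cl_prod A (LinearMap.ker (LinearMap.lsmul Λ M (α + α')))
    (LinearMap.ker (LinearMap.lsmul Λ M' (α + α')))
  rw [h2, h2', add_zero] at h4
  refine le_antisymm (le_trans ?_ h4.le) (zero_le)
  refine cl_le_inj A (LinearMap.prod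
    ((LinearMap.fst Λ M M' ∘ₗ Submodule.subtype _).codRestrict _ ?_)
    ((LinearMap.snd Λ M M' ∘ₗ Submodule.subtype _).codRestrict _ ?_)) ?_
  · rintro ⟨w, hw⟩
    have : (α + α') • w = 0 := hw
    exact congrArg Prod.fst this
  · rintro ⟨w, hw⟩
    have : (α + α') • w = 0 := hw
    exact congrArg Prod.snd this
  · intro x y hxy
    apply Subtype.ext
    exact Prod.ext (congrArg (fun z => z.1.1) hxy) (congrArg (fun z => z.2.1) hxy)

theorem cl_res_add (α α' : Λ) {M' M M'' : Type} [AddCommGroup M'] [Module Λ M'] [AddCommGroup M]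
    [Module Λ M] [AddCommGroup M''] [Module Λ M''] (f : M' →ₗ[Λ] M) (g : M →ₗ[Λ] M'')
    (hf : Function.Injective f) (hg : Function.Surjective g) (hfg : Function.Exact f g)
    (h : cl_G A α α' M) :
    A.l (ism (Ideal.span {α}) M) =
      A.l (ism (Ideal.span {α}) M') + A.l (ism (Ideal.span {α}) M'') := by
  have e1 := A.l_add _ _ _ (LinearMap.ker (cl_res α g)).subtype (cl_res α g)
    (Submodule.injective_subtype _) (cl_res_surj α g hg) (LinearMap.exact_subtype_ker_map _)
  let φ : ism (Ideal.span {α}) M' →ₗ[Λ] LinearMap.ker (cl_res α g) :=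
    (cl_res α f).codRestrict _ fun x => by
      rw [LinearMap.mem_ker]
      apply Subtype.ext
      rw [cl_res_coe, cl_res_coe]
      exact (hfg _).2 ⟨_, rfl⟩
  have hφ : Function.Injective φ := fun x y hxy =>
    cl_res_inj α f hf (congrArg Subtype.val hxy)
  have e2 := A.l_add _ _ _ φ (LinearMap.range φ).mkQ hφ (Submodule.mkQ_surjective _)
    (LinearMap.exact_map_mkQ_range φ)
  have hK : cl_G A α α' (LinearMap.ker (cl_res α g)) :=
    cl_G_inj A α α' (Submodule.subtype _ ∘ₗ Submodule.subtype _)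
      ((Submodule.injective_subtype _).comp (Submodule.injective_subtype _)) h
  have e3 : A.l (LinearMap.ker (cl_res α g) ⧸ LinearMap.range φ) = 0 := by
    refine le_antisymm (le_trans ?_ hK.2.1.le) (zero_le)
    refine cl_le_coker A _ (Submodule.mkQ _) (Submodule.mkQ_surjective _) ?_
    rintro ⟨⟨w, hw⟩, hw'⟩
    obtain ⟨v, rfl⟩ := (cl_mem_ism α w).1 hw
    have h1 : g (α • v) = 0 := congrArg Subtype.val (LinearMap.mem_ker.1 hw')
    obtain ⟨u, hu⟩ := (hfg _).1 h1
    rw [Submodule.mkQ_apply, Submodule.Quotient.mk_eq_zero]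
    refine ⟨⟨α • u, (cl_mem_ism α _).2 ⟨u, rfl⟩⟩, Subtype.ext (Subtype.ext ?_)⟩
    show f (α • u) = (α + α') • (α • v)
    rw [map_smul, hu, add_smul, smul_smul α' α v, mul_comm α' α, h.2.2 v, add_zero]
  rw [e1, e2, e3, add_zero]

end cl

section ul

/-- Lengths agree along a bijection that is semilinear over a surjective ring homomorphism. -/
theorem cl_length_semi {R S M N : Type} [CommRing R] [CommRing S] [AddCommGroup M] [Module R M]
    [AddCommGroup N] [Module S N] {σ : R →+* S} [RingHomSurjective σ] (f : M →ₛₗ[σ] N)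
    (hf : Function.Bijective f) : Module.length R M = Module.length S N := by
  apply WithBot.coe_injective
  rw [Module.coe_length, Module.coe_length,
    Order.krullDim_eq_of_orderIso (Submodule.orderIsoMapComapOfBijective f hf)]

variable (Λ : ℕ → Type) [∀ e, CommRing (Λ e)]

/-- The normalised lengths of the components. -/
noncomputable def cl_seq (ν : ℕ → ℝ) (W : Type) [AddCommGroup W] [Module (∀ e, Λ e) W] (e : ℕ) :
    ENNReal :=
  (Module.length (∀ e, Λ e) (ism (Ideal.span {(Pi.single e (1 : Λ e) : ∀ e, Λ e)}) W) : ENNReal) /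
    ENNReal.ofReal (ν e)

theorem cl_single_idem (e : ℕ) :
    (Pi.single e (1 : Λ e) : ∀ e, Λ e) * Pi.single e (1 : Λ e) = Pi.single e (1 : Λ e) := by
  rw [← Pi.single_mul, one_mul]

theorem cl_tendsto (𝒰 : Ultrafilter ℕ) (u : ℕ → ENNReal) :
    Tendsto u 𝒰 (nhds (𝒰.map u).lim) := (𝒰.map u).le_nhds_lim

/-- The ultralimit length. -/
noncomputable def cl_alen (𝒰 : Ultrafilter ℕ) (ν : ℕ → ℝ) : ALen (∀ e, Λ e) where
  l W _ _ := (𝒰.map (cl_seq Λ ν W)).lim
  l_add M' M M'' _ _ _ _ _ _ f g hf hg hfg := by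
    have h : cl_seq Λ ν M = fun e => cl_seq Λ ν M' e + cl_seq Λ ν M'' e := by
      funext e
      unfold cl_seq
      rw [Module.length_eq_add_of_exact _ _ (cl_res_inj _ f hf) (cl_res_surj _ g hg)
        (cl_res_exact _ (cl_single_idem Λ e) f g hfg), ENat.toENNReal_add, ENNReal.add_div]
    have h1 := cl_tendsto 𝒰 (cl_seq Λ ν M)
    have h2 := (cl_tendsto 𝒰 (cl_seq Λ ν M')).add (cl_tendsto 𝒰 (cl_seq Λ ν M''))
    rw [← h] at h2
    exact tendsto_nhds_unique h1 h2
  l_zero M _ _ hM := by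
    have h : cl_seq Λ ν M = fun _ => 0 := by
      funext e
      unfold cl_seq
      rw [Module.length_eq_zero]
      simp
    have h1 := cl_tendsto 𝒰 (cl_seq Λ ν M)
    have h2 : Tendsto (cl_seq Λ ν M) 𝒰 (nhds 0) := by
      rw [h]
      exact tendsto_const_nhds
    exact tendsto_nhds_unique h1 h2

end ul

/-- From an additive length `ℓ` to `W ↦ ℓ (α W)`.  `G W` means `ℓ W ≠ ⊤`, `ℓ (W / η W) = 0` with
`η = α + α'`, and `α α' W = 0`.  Since `ℓ W = ℓ (ker η) + ℓ (η W) = ℓ (η W) + ℓ (W / η W)` is finite,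
`ℓ (ker η) = ℓ (W / η W)`; so `G` passes to submodules (`ker η` shrinks) and quotients.  For an exact sequence,
`ℓ (α W) = ℓ (α W'') + ℓ (α W ⊓ W')`, and `(α W ⊓ W') / α W'` is a subquotient of `W'` killed by `η`
(if `w' = α w` then `η w' = α w'`), hence has length `0`. -/
theorem ALen.exists_glen {Λ : Type} [CommRing Λ] (A : ALen Λ) (α α' : Λ) :
    ∃ L : GLen Λ α,
      (∀ (W : Type) [AddCommGroup W] [Module Λ W], L.G W ↔ A.l W ≠ ⊤ ∧
        A.l (W ⧸ ism (Ideal.span {α + α'}) W) = 0 ∧ ∀ w : W, (α * α') • w = 0) ∧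
      ∀ (W : Type) [AddCommGroup W] [Module Λ W],
        L.l W = (A.l (ism (Ideal.span {α}) W)).toReal := by
  refine ⟨{ G := fun W _ _ => cl_G A α α' W
            l := fun W _ _ => (A.l (ism (Ideal.span {α}) W)).toReal
            G_inj := fun M' M _ _ _ _ f hf h => cl_G_inj A α α' f hf h
            G_surj := fun M M'' _ _ _ _ g hg h => cl_G_surj A α α' g hg h
            G_prod := fun M M' _ _ _ _ h h' => cl_G_prod A α α' h h'
            l_equiv := fun M M' _ _ _ _ e => ?_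
            l_add := fun M' M M'' _ _ _ _ _ _ f g hf hg hfg h => ?_
            l_nonneg := fun M _ _ => ENNReal.toReal_nonneg
            l_kill := fun M _ _ _ h => ?_ }, fun W _ _ => Iff.rfl, fun W _ _ => rfl⟩
  · rw [cl_equiv A (LinearEquiv.ofBijective (cl_res α e.toLinearMap)
      ⟨cl_res_inj α _ e.injective, cl_res_surj α _ e.surjective⟩)]
  · have h1 := cl_res_add A α α' f g hf hg hfg h
    have h2 : A.l (ism (Ideal.span {α}) M) ≠ ⊤ :=
      ne_top_of_le_ne_top h.1 (cl_le_inj A _ (Submodule.injective_subtype _))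
    rw [h1] at h2 ⊢
    exact ENNReal.toReal_add (ENNReal.add_ne_top.1 h2).1 (ENNReal.add_ne_top.1 h2).2
  · rw [A.l_zero]
    · rfl
    · refine ⟨fun x y => Subtype.ext ?_⟩
      obtain ⟨v, hv⟩ := (cl_mem_ism α _).1 x.2
      obtain ⟨u, hu⟩ := (cl_mem_ism α _).1 y.2
      rw [← hv, ← hu, h, h]

/-- The normalised ultralimit of lengths on modules over a product ring.  Put
`ε e = Pi.single e 1` and `l W = lim_𝒰 length (ε e • W) / ν e` in `ℝ≥0∞` (a compact Hausdorff space:
`Ultrafilter.lim`, or `Filter.limsup` along the ultrafilter).  `W ↦ ε e • W = range (ε e • id)` is exact because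
`ε e` is idempotent.  For the evaluation formula: `ε e • W → W e`, `w ↦ π e w`, is a bijection, semilinear over
the surjection `Pi.evalRingHom Λ e`, so it induces an order isomorphism of submodule lattices
(or use `Module.length_eq_of_surjective`). -/
theorem exists_alen_pi (Λ : ℕ → Type) [∀ e, CommRing (Λ e)] (𝒰 : Ultrafilter ℕ) (ν : ℕ → ℝ)
    (hν : ∀ e, 0 < ν e) :
    ∃ A : ALen (∀ e, Λ e), ∀ (W : Type) [AddCommGroup W] [Module (∀ e, Λ e) W]
      (V : ℕ → Type) [∀ e, AddCommGroup (V e)] [∀ e, Module (Λ e) (V e)]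
      (π : ∀ e, W →ₛₗ[Pi.evalRingHom Λ e] V e),
      (∀ e, Function.Surjective (π e)) →
      (∀ e w, π e w = 0 → (Pi.single e (1 : Λ e) : ∀ e, Λ e) • w = 0) →
      Tendsto (fun e => (Module.length (Λ e) (V e) : ENNReal) / ENNReal.ofReal (ν e)) 𝒰
        (nhds (A.l W)) := by
  refine ⟨cl_alen Λ 𝒰 ν, fun W _ _ V _ _ π hπ hker => ?_⟩
  have h : (fun e => (Module.length (Λ e) (V e) : ENNReal) / ENNReal.ofReal (ν e)) =
      cl_seq Λ ν W := by
    funext e
    unfold cl_seq
    rw [cl_length_semi ((π e).domRestrict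
      (ism (Ideal.span {(Pi.single e (1 : Λ e) : ∀ e, Λ e)}) W)) ⟨?_, ?_⟩]
    · rw [injective_iff_map_eq_zero]
      rintro ⟨w, hw⟩ h0
      obtain ⟨v, rfl⟩ := (cl_mem_ism _ w).1 hw
      have h1 := hker e ((Pi.single e (1 : Λ e) : ∀ e, Λ e) • v) h0
      rw [smul_smul, cl_single_idem] at h1
      exact Subtype.ext h1
    · intro y
      obtain ⟨w, rfl⟩ := hπ e y
      refine ⟨⟨(Pi.single e (1 : Λ e) : ∀ e, Λ e) • w, (cl_mem_ism _ _).2 ⟨w, rfl⟩⟩, ?_⟩
      show π e ((Pi.single e (1 : Λ e) : ∀ e, Λ e) • w) = π e w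
      rw [map_smulₛₗ]
      simp
  rw [h]
  exact cl_tendsto 𝒰 _

end Crest.Agent.R183
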