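import Crest.Agent.R183.CoreEv
import Crest.Agent.R183.CoreLen

/-!
# rid 183, file `CoreEff`: the effective core inequality for ordinary lengths

Prefix helper lemmas with `cef_`.
-/

set_option autoImplicit false

open Filter

namespace Crest.Agent.R183

section cef

variable {Λ : ℕ → Type} [∀ e, CommRing (Λ e)] {P : ℕ → Type} [∀ e, AddCommGroup (P e)]
  [∀ e, Module (Λ e) (P e)]

/-- The product of endomorphisms. -/
def cef_piEnd (f : ∀ e, Module.End (Λ e) (P e)) : Module.End (∀ e, Λ e) (∀ e, P e) where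
  toFun w e := f e (w e)
  map_add' w w' := by ext e; simp
  map_smul' c w := by ext e; simp

@[simp] theorem cef_piEnd_apply (f : ∀ e, Module.End (Λ e) (P e)) (w : ∀ e, P e) (e : ℕ) :
    cef_piEnd f w e = f e (w e) := rfl

/-- The product complex. -/
def cef_piCx {d : ℕ} (C : ∀ e, Cx (Λ e) d (P e)) : Cx (∀ e, Λ e) d (∀ e, P e) where
  p i := cef_piEnd fun e => (C e).p i
  D := cef_piEnd fun e => (C e).D
  p_mul i j := by
    ext w e
    have := LinearMap.congr_fun ((C e).p_mul i j) (w e)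
    by_cases h : i = j
    · simpa [h] using this
    · simpa [h] using this
  p_sum := by
    ext w e
    have := LinearMap.congr_fun ((C e).p_sum) (w e)
    simpa [LinearMap.sum_apply, Finset.sum_apply] using this
  D_sq := by
    ext w e
    simpa using LinearMap.congr_fun ((C e).D_sq) (w e)
  D_p i := by
    ext w e
    simpa using LinearMap.congr_fun ((C e).D_p i) (w e)
  D_p0 := by
    ext w e
    simpa using LinearMap.congr_fun ((C e).D_p0) (w e)

theorem cef_mem_ism_idl_mul {R : Type} [CommRing R] {d : ℕ} (y : Fin d → R) (J : Ideal R)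
    {W : Type} [AddCommGroup W] [Module R W] (w : W) :
    w ∈ ism (idl y * J) W ↔ ∃ u : Fin d → W, (∀ i, u i ∈ ism J W) ∧ w = ∑ i, y i • u i := by
  constructor
  · intro hw
    unfold ism at hw
    rw [Submodule.mul_smul] at hw
    refine Submodule.smul_induction_on hw ?_ ?_
    · intro r hr v hv
      obtain ⟨c, rfl⟩ := (Ideal.mem_span_range_iff_exists_fun).1 hr
      refine ⟨fun i => c i • v, fun i => Submodule.smul_mem _ _ hv, ?_⟩
      rw [Finset.sum_smul]
      refine Finset.sum_congr rfl fun i _ => ?_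
      rw [smul_smul, mul_comm]
    · rintro a b ⟨u, hu, rfl⟩ ⟨v, hv, rfl⟩
      refine ⟨fun i => u i + v i, fun i => Submodule.add_mem _ (hu i) (hv i), ?_⟩
      simp [Finset.sum_add_distrib]
  · rintro ⟨u, hu, rfl⟩
    unfold ism
    rw [Submodule.mul_smul]
    exact Submodule.sum_mem _ fun i _ =>
      Submodule.smul_mem_smul (Ideal.subset_span ⟨i, rfl⟩) (hu i)

theorem cef_mem_pow_pi {d : ℕ} (y : ∀ e, Fin d → Λ e) (k : ℕ) (w : ∀ e, P e) :
    w ∈ ism (idl (fun i e => y e i : Fin d → ∀ e, Λ e) ^ k) (∀ e, P e) ↔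
      ∀ e, w e ∈ ism (idl (y e) ^ k) (P e) := by
  induction k generalizing w with
  | zero => simp [ism]
  | succ k ih =>
    rw [pow_succ', cef_mem_ism_idl_mul]
    constructor
    · rintro ⟨u, hu, rfl⟩ e
      rw [pow_succ', cef_mem_ism_idl_mul]
      exact ⟨fun i => u i e, fun i => (ih _).1 (hu i) e, by simp [Finset.sum_apply]⟩
    · intro h
      have h' : ∀ e, ∃ u : Fin d → P e, (∀ i, u i ∈ ism (idl (y e) ^ k) (P e)) ∧
          w e = ∑ i, y e i • u i := fun e => by
        have := h e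
        rwa [pow_succ', cef_mem_ism_idl_mul] at this
      choose u hu hw using h'
      refine ⟨fun i e => u e i, fun i => (ih _).2 fun e => hu e i, ?_⟩
      ext e
      simp [Finset.sum_apply, hw e]

theorem cef_mem_idl_pi {d : ℕ} (y : ∀ e, Fin d → Λ e) (w : ∀ e, P e) :
    w ∈ ism (idl (fun i e => y e i : Fin d → ∀ e, Λ e)) (∀ e, P e) ↔
      ∀ e, w e ∈ ism (idl (y e)) (P e) := by
  simpa using cef_mem_pow_pi y 1 w

theorem cef_mem_ism_span {R : Type} [CommRing R] (a : R) {W : Type} [AddCommGroup W] [Module R W]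
    (w : W) : w ∈ ism (Ideal.span {a}) W ↔ ∃ u, w = a • u := by
  unfold ism
  rw [Submodule.ideal_span_singleton_smul, Submodule.mem_smul_pointwise_iff_exists]
  constructor
  · rintro ⟨u, -, rfl⟩; exact ⟨u, rfl⟩
  · rintro ⟨u, rfl⟩; exact ⟨u, trivial, rfl⟩

/-- `U'` is the product of the `U e`. -/
def cef_IsPi (U' : Submodule (∀ e, Λ e) (∀ e, P e)) (U : ∀ e, Submodule (Λ e) (P e)) : Prop :=
  ∀ w, w ∈ U' ↔ ∀ e, w e ∈ U e

theorem cef_IsPi.sup {U' V' : Submodule (∀ e, Λ e) (∀ e, P e)} {U V : ∀ e, Submodule (Λ e) (P e)}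
    (hU : cef_IsPi U' U) (hV : cef_IsPi V' V) : cef_IsPi (U' ⊔ V') fun e => U e ⊔ V e := by
  intro w
  constructor
  · intro hw e
    obtain ⟨a, ha, b, hb, rfl⟩ := Submodule.mem_sup.1 hw
    exact Submodule.add_mem_sup ((hU a).1 ha e) ((hV b).1 hb e)
  · intro h
    choose a ha b hb hab using fun e => Submodule.mem_sup.1 (h e)
    exact Submodule.mem_sup.2 ⟨a, (hU a).2 ha, b, (hV b).2 hb, funext hab⟩

theorem cef_isPi_ker (f : ∀ e, Module.End (Λ e) (P e)) :
    cef_IsPi (LinearMap.ker (cef_piEnd f)) fun e => LinearMap.ker (f e) := by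
  intro w
  simp [LinearMap.mem_ker, funext_iff]

theorem cef_isPi_range (f : ∀ e, Module.End (Λ e) (P e)) :
    cef_IsPi (LinearMap.range (cef_piEnd f)) fun e => LinearMap.range (f e) := by
  intro w
  constructor
  · rintro ⟨u, rfl⟩ e
    exact ⟨u e, rfl⟩
  · intro h
    choose u hu using h
    exact ⟨u, funext hu⟩

theorem cef_isPi_span (a : ∀ e, Λ e) :
    cef_IsPi (P := P) (ism (Ideal.span {a}) (∀ e, P e)) fun e => ism (Ideal.span {a e}) (P e) := by
  intro w
  simp only [cef_mem_ism_span]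
  constructor
  · rintro ⟨u, rfl⟩ e
    exact ⟨u e, rfl⟩
  · intro h
    choose u hu using h
    exact ⟨u, funext hu⟩

theorem cef_isPi_top {d n : ℕ} (C : ∀ e, Cx (Λ e) d (P e)) (y : ∀ e, Fin n → Λ e) (i : ℕ) :
    cef_IsPi ((cef_piCx C).top (fun i e => y e i : Fin n → ∀ e, Λ e) i) fun e => (C e).top (y e) i :=
  cef_IsPi.sup (cef_mem_idl_pi y) (cef_isPi_ker _)

theorem cef_isPi_b0 {d : ℕ} (C : ∀ e, Cx (Λ e) d (P e)) :
    cef_IsPi (cef_piCx C).b0 fun e => (C e).b0 :=
  cef_IsPi.sup (cef_isPi_range _) (cef_isPi_ker _)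

/-- Evaluation at `e`. -/
def cef_ev (e : ℕ) : (∀ e, P e) →ₛₗ[Pi.evalRingHom Λ e] P e where
  toFun w := w e
  map_add' _ _ := rfl
  map_smul' _ _ := rfl

/-- Evaluation at `e` on quotients. -/
def cef_evQ {U' : Submodule (∀ e, Λ e) (∀ e, P e)} {U : ∀ e, Submodule (Λ e) (P e)}
    (h : cef_IsPi U' U) (e : ℕ) : ((∀ e, P e) ⧸ U') →ₛₗ[Pi.evalRingHom Λ e] (P e ⧸ U e) :=
  Submodule.mapQ U' (U e) (cef_ev e) fun w hw => (h w).1 hw e

theorem cef_evQ_mk {U' : Submodule (∀ e, Λ e) (∀ e, P e)} {U : ∀ e, Submodule (Λ e) (P e)}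
    (h : cef_IsPi U' U) (e : ℕ) (w : ∀ e, P e) :
    cef_evQ h e (Submodule.Quotient.mk w) = Submodule.Quotient.mk (w e) := rfl

theorem cef_evQ_surj {U' : Submodule (∀ e, Λ e) (∀ e, P e)} {U : ∀ e, Submodule (Λ e) (P e)}
    (h : cef_IsPi U' U) (e : ℕ) : Function.Surjective (cef_evQ h e) := by
  intro v
  obtain ⟨v, rfl⟩ := Submodule.Quotient.mk_surjective _ v
  exact ⟨Submodule.Quotient.mk (Pi.single e v), by rw [cef_evQ_mk]; simp⟩

theorem cef_evQ_ker {U' : Submodule (∀ e, Λ e) (∀ e, P e)} {U : ∀ e, Submodule (Λ e) (P e)}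
    (h : cef_IsPi U' U) (e : ℕ) (w : (∀ e, P e) ⧸ U') (hw : cef_evQ h e w = 0) :
    (Pi.single e (1 : Λ e) : ∀ e, Λ e) • w = 0 := by
  obtain ⟨w, rfl⟩ := Submodule.Quotient.mk_surjective _ w
  rw [cef_evQ_mk, Submodule.Quotient.mk_eq_zero] at hw
  rw [← Submodule.Quotient.mk_smul, Submodule.Quotient.mk_eq_zero]
  refine (h _).2 fun e' => ?_
  by_cases he : e' = e
  · subst he; simpa using hw
  · simp [Pi.single_eq_of_ne he]

/-- Evaluation at `e` on `α • (P / U)`. -/
def cef_evA {U' : Submodule (∀ e, Λ e) (∀ e, P e)} {U : ∀ e, Submodule (Λ e) (P e)}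
    (h : cef_IsPi U' U) (a : ∀ e, Λ e) (e : ℕ) :
    ism (Ideal.span {a}) ((∀ e, P e) ⧸ U') →ₛₗ[Pi.evalRingHom Λ e]
      ism (Ideal.span {a e}) (P e ⧸ U e) where
  toFun w := ⟨cef_evQ h e w.1, by
    obtain ⟨u, hu⟩ := (cef_mem_ism_span _ _).1 w.2
    exact (cef_mem_ism_span _ _).2 ⟨cef_evQ h e u, by rw [hu, map_smulₛₗ]; rfl⟩⟩
  map_add' w w' := Subtype.ext (by simp)
  map_smul' c w := Subtype.ext (by simp [map_smulₛₗ])

theorem cef_evA_surj {U' : Submodule (∀ e, Λ e) (∀ e, P e)} {U : ∀ e, Submodule (Λ e) (P e)}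
    (h : cef_IsPi U' U) (a : ∀ e, Λ e) (e : ℕ) : Function.Surjective (cef_evA h a e) := by
  rintro ⟨v, hv⟩
  obtain ⟨u, rfl⟩ := (cef_mem_ism_span _ _).1 hv
  obtain ⟨w, rfl⟩ := cef_evQ_surj h e u
  refine ⟨⟨a • w, (cef_mem_ism_span _ _).2 ⟨w, rfl⟩⟩, Subtype.ext ?_⟩
  change cef_evQ h e (a • w) = _
  rw [map_smulₛₗ]; rfl

theorem cef_evA_ker {U' : Submodule (∀ e, Λ e) (∀ e, P e)} {U : ∀ e, Submodule (Λ e) (P e)}
    (h : cef_IsPi U' U) (a : ∀ e, Λ e) (e : ℕ) (w : ism (Ideal.span {a}) ((∀ e, P e) ⧸ U'))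
    (hw : cef_evA h a e w = 0) : (Pi.single e (1 : Λ e) : ∀ e, Λ e) • w = 0 :=
  Subtype.ext (cef_evQ_ker h e w.1 (congrArg Subtype.val hw))

end cef

theorem cef_div_le {n : ℕ∞} (hn : n ≠ ⊤) {ν c : ℝ} (hν : 0 < ν) (h : (n.toNat : ℝ) ≤ c * ν) :
    (n : ENNReal) / ENNReal.ofReal ν ≤ ENNReal.ofReal c := by
  lift n to ℕ using hn
  simp only [ENat.toNat_natCast] at h
  rw [ENat.toENNReal_coe, ← ENNReal.ofReal_natCast, ← ENNReal.ofReal_div_of_pos hν]
  exact ENNReal.ofReal_le_ofReal ((div_le_iff₀ hν).2 h)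

theorem cef_div_toReal {n : ℕ∞} (hn : n ≠ ⊤) {ν : ℝ} (hν : 0 < ν) :
    ((n : ENNReal) / ENNReal.ofReal ν).toReal = (n.toNat : ℝ) / ν := by
  lift n to ℕ using hn
  simp [ENNReal.toReal_div, ENNReal.toReal_ofReal hν.le]

theorem cef_len_quot_le {R : Type} [CommRing R] {W : Type} [AddCommGroup W] [Module R W]
    (U : Submodule R W) : Module.length R (W ⧸ U) ≤ Module.length R W :=
  Module.length_le_of_surjective U.mkQ U.mkQ_surjective

theorem cef_len_sub_le {R : Type} [CommRing R] {W : Type} [AddCommGroup W] [Module R W]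
    (U : Submodule R W) : Module.length R U ≤ Module.length R W :=
  Module.length_le_of_injective U.subtype U.injective_subtype


/-- By contradiction: take counterexamples for `η = 1 / (e + 1)`, form the products `Λ* = ∏ Λ e`,
`P* = ∏ P e` with the product complex (`KZ`, `Nul` and the depth condition pass to products: choose the
witnesses for each `e`; an element of `(y)^k P` is a sum `∑ y^β • w β` over the finite set of exponents of
degree `k`, so `ism (idl y* ^ k) P*` is the product of the `ism (idl (y e) ^ k) (P e)`).  Use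
`exists_alen_pi` with `hyperfilter ℕ`, then `ALen.exists_glen` and `core_abs`.  For a submodule `U*` of `P*` that
is the product of `U e`, the module `α* • (P* ⧸ U*)` has components `α e • (P e ⧸ U e)`. -/
theorem core_eff (m q N : ℕ) (hq : 0 < q) (Cc ε : ℝ) (hε : 0 < ε) : ∃ η : ℝ, 0 < η ∧
    ∀ (Λ : Type) [CommRing Λ] (α α' : Λ) (y : Fin (m + 1) → Λ) (P : Type) [AddCommGroup P]
      [Module Λ P] (C : Cx Λ (m + 1) P) (ν : ℝ), 0 < ν → IsFiniteLength Λ P → len Λ P ≤ Cc * ν →
      len Λ (P ⧸ ism (Ideal.span {α + α'}) P) ≤ η * ν → (∀ w : P, (α * α') • w = 0) →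
      KZ (cWin m q N) y P → LinearMap.range C.D ≤ ism (idl y ^ q) P →
      (∀ i, C.Nul (α ^ 2 * y i ^ N)) →
      ∑ i ∈ Finset.range (m + 2), (-1 : ℝ) ^ i * alen α (P ⧸ C.top y i) = 0 →
      (q : ℝ) ^ (m + 1) * alen α (P ⧸ C.top y 0) ≤ alen α (P ⧸ C.b0) + ε * ν := by
  by_contra hcon
  push Not at hcon
  have H := fun e : ℕ => hcon (1 / ((e : ℝ) + 1)) Nat.one_div_pos_of_nat
  choose Λ iΛ α α' y P iP mP C ν hν hfin hlen hη hkill hkz hdeep hnul heul hlt using H
  obtain ⟨A, hA⟩ := exists_alen_pi Λ (hyperfilter ℕ) ν hν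
  obtain ⟨L, hG, hL⟩ := A.exists_glen α α'
  have hne : ∀ e, Module.length (Λ e) (P e) ≠ ⊤ := fun e =>
    Module.length_ne_top_iff.2 (hfin e)
  -- limits of `alen`
  have key : ∀ (U' : Submodule (∀ e, Λ e) (∀ e, P e)) (U : ∀ e, Submodule (Λ e) (P e)),
      cef_IsPi U' U → Tendsto (fun e => alen (α e) (P e ⧸ U e) / ν e) (hyperfilter ℕ)
        (nhds (L.l ((∀ e, P e) ⧸ U'))) := by
    intro U' U h
    have ht := hA _ _ (cef_evA h α) (cef_evA_surj h α) (cef_evA_ker h α)
    have hle : ∀ e, Module.length (Λ e) (ism (Ideal.span {α e}) (P e ⧸ U e))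
        ≤ Module.length (Λ e) (P e) := fun e => (cef_len_sub_le _).trans (cef_len_quot_le _)
    have hne' : ∀ e, Module.length (Λ e) (ism (Ideal.span {α e}) (P e ⧸ U e)) ≠ ⊤ := fun e =>
      ne_top_of_le_ne_top (hne e) (hle e)
    have hb : A.l (ism (Ideal.span {α}) ((∀ e, P e) ⧸ U')) ≤ ENNReal.ofReal Cc := by
      refine le_of_tendsto' ht fun e => cef_div_le (hne' e) (hν e) (le_trans ?_ (hlen e))
      unfold len
      exact_mod_cast ENat.toNat_le_toNat (hle e) (hne e)
    have ht' := (ENNReal.tendsto_toReal (ne_top_of_le_ne_top ENNReal.ofReal_ne_top hb)).comp ht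
    rw [hL]
    refine ht'.congr fun e => ?_
    simp only [Function.comp]
    rw [cef_div_toReal (hne' e) (hν e)]
    rfl
  have hyp : CoreHyp L (cef_piCx C) (fun i e => y e i : Fin (m + 1) → ∀ e, Λ e) q N := by
    refine ⟨(hG _).2 ⟨?_, ?_, ?_⟩, ?_, ?_, ?_, ?_⟩
    · have ht := hA (∀ e, P e) P cef_ev
        (fun e v => ⟨Pi.single e v, Pi.single_eq_same e v⟩) (fun e w hw => by
          ext e'
          by_cases he : e' = e
          · subst he
            have hw' : w e' = 0 := hw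
            simpa using hw'
          · simp [Pi.single_eq_of_ne he])
      exact ne_top_of_le_ne_top ENNReal.ofReal_ne_top
        (le_of_tendsto' ht fun e => cef_div_le (hne e) (hν e) (hlen e))
    · have h := cef_isPi_span (P := P) (α + α')
      have ht := hA _ _ (cef_evQ h) (cef_evQ_surj h) (cef_evQ_ker h)
      have h0 : Tendsto (fun e : ℕ => ENNReal.ofReal (1 / ((e : ℝ) + 1))) (hyperfilter ℕ) (nhds 0) := by
        have := ENNReal.tendsto_ofReal (tendsto_one_div_add_atTop_nhds_zero_nat (𝕜 := ℝ))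
        rw [ENNReal.ofReal_zero] at this
        exact this.mono_left (Nat.hyperfilter_le_atTop)
      refine le_antisymm (le_of_tendsto_of_tendsto' ht h0 fun e => ?_) bot_le
      exact cef_div_le (ne_top_of_le_ne_top (hne e) (cef_len_quot_le _)) (hν e) (hη e)
    · intro w
      ext e
      exact hkill e (w e)
    · intro w hw
      have h1 : ∀ e, ∑ i, y e i • w i e = 0 := fun e => by
        simpa [Finset.sum_apply] using congrFun hw e
      choose a ha1 ha2 ha3 using fun e => hkz e (fun i => w i e) (h1 e)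
      refine ⟨fun i j e => a e i j, fun i j => funext fun e => ha1 e i j,
        fun i => funext fun e => ha2 e i, fun i => (cef_mem_pow_pi y _ _).2 fun e => ?_⟩
      simpa [Finset.sum_apply] using ha3 e i
    · rintro _ ⟨w, rfl⟩
      exact (cef_mem_pow_pi y _ _).2 fun e => hdeep e ⟨w e, rfl⟩
    · intro i
      choose h hh using fun e => hnul e i
      refine ⟨cef_piEnd h, ?_⟩
      ext w e
      simpa [cef_piCx] using LinearMap.congr_fun (hh e) (w e)
    · have ht := tendsto_finsetSum (Finset.range (m + 2)) fun i _ =>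
        (key _ _ (cef_isPi_top C y i)).const_mul ((-1 : ℝ) ^ i)
      refine tendsto_nhds_unique ht (tendsto_const_nhds.congr fun e => ?_)
      simp only [← mul_div_assoc]
      rw [← Finset.sum_div, heul e, zero_div]
  have hcore := core_abs hyp hq
  have h1 := (key _ _ (cef_isPi_top C y 0)).const_mul ((q : ℝ) ^ (m + 1))
  have h2 := (key _ _ (cef_isPi_b0 C)).add_const ε
  have h3 := le_of_tendsto_of_tendsto' h2 h1 fun e => by
    have := hlt e
    have hν' := hν e
    rw [← mul_div_assoc, le_div_iff₀ hν', add_mul, div_mul_cancel₀ _ hν'.ne']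
    exact this.le
  linarith

end Crest.Agent.R183
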