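import Crest.Agent.R183.CoreF

/-!
# rid 183, file `CoreEv`: evaluation of `Fval`, and the core inequality

Prefix helper lemmas with `ce_`.
-/

set_option autoImplicit false

open Submodule

namespace Crest.Agent.R183

variable {Λ : Type} [CommRing Λ] {α : Λ} {L : GLen Λ α} {m : ℕ} {P : Type} [AddCommGroup P]
  [Module Λ P] {C : Cx Λ (m + 1) P} {y : Fin (m + 1) → Λ} {q N : ℕ}

theorem ce_ok (m q N : ℕ) (c : Fin m → ℤ) : BoxOK c (gstd m q N c) ∅ (cBot m q N) := by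
  intro j _
  have h1 := le_max_left (c j + 1) (-cBot m q N)
  have h2 := le_max_right (c j + 1) (-cBot m q N)
  unfold gstd
  omega

theorem ce_mem (c g : Fin m → ℤ) (bot : ℤ) (ι ι' : ℕ → ℤ) (i : ℕ) (I : Finset (Fin m)) (u : UU m) :
    u ∈ (box c g ∅ bot).stair ι i I \ (box c g ∅ bot).stair ι' i I ↔
      Live c g ∅ bot u I ∧ ι i ≤ u.1 ∧ u.1 < ι' i := by
  change ((u ∈ boxA1 g ∅ bot I ∧ ι i ≤ u.1) ∨ u ∈ boxA2 c g ∅ bot I) ∧
    ¬((u ∈ boxA1 g ∅ bot I ∧ ι' i ≤ u.1) ∨ u ∈ boxA2 c g ∅ bot I) ↔ _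
  unfold Live
  constructor
  · rintro ⟨h1, h2⟩
    rcases h1 with h1 | h1
    · exact ⟨⟨h1.1, fun h => h2 (Or.inr h)⟩, h1.2, not_le.1 fun h => h2 (Or.inl ⟨h1.1, h⟩)⟩
    · exact (h2 (Or.inr h1)).elim
  · rintro ⟨⟨h1, h2⟩, h3, h4⟩
    exact ⟨Or.inl ⟨h1, h3⟩, fun h => h.elim (fun h => absurd h.2 (not_le.2 h4)) h2⟩

theorem ce_le (s : Shape m) {ι ι' : ℕ → ℤ} (h : ∀ i, ι i ≤ ι' i) (i : ℕ) (I : Finset (Fin m)) :
    s.stair ι' i I ⊆ s.stair ι i I := fun _ hu =>
  hu.elim (fun hu => Or.inl ⟨hu.1, (h i).trans hu.2⟩) Or.inr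

theorem ce_win (c g : Fin m → ℤ) {ι : ℕ → ℤ} (h : ∀ i, ι i ≤ cTop m N) :
    (box c g ∅ (cBot m q N)).Win (cWin m q N) ((box c g ∅ (cBot m q N)).stair ι) := by
  intro i I u hu hb
  refine Or.inl ⟨hu, (h i).trans ?_⟩
  change cBot m q N + _ ≤ _ at hb
  simp only [cBot, cTop, cWin] at hb ⊢
  push_cast at hb ⊢
  omega

theorem ce_elim (h : CoreHyp L C y q N) (c g : Fin m → ℤ) {ι ι' : ℕ → ℤ}
    (hι : ∀ i, ι i ≤ ι (i + 1) + q) (hι' : ∀ i, ι' i ≤ ι' (i + 1) + q) (hle : ∀ i, ι i ≤ ι' i)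
    (ht : ∀ i, ι' i ≤ cTop m N) (j : ℤ)
    (H : ∀ i ≤ m + 1, ∀ a : ℤ, ι i ≤ a → a < ι' i → (∀ k, c k + 1 + a ≠ 0) →
      (i : ℤ) - ((Finset.univ.filter fun k => c k + 1 + a < 0).card : ℕ) ≠ j)
    {z : EE m P} (hz : z ∈ (box c g ∅ (cBot m q N)).U C y ((box c g ∅ (cBot m q N)).stair ι))
    (hj : (monoDG C).π j z = z)
    (hd : (monoDG C).del z ∈ (box c g ∅ (cBot m q N)).U C y ((box c g ∅ (cBot m q N)).stair ι')) :
    z ∈ ((box c g ∅ (cBot m q N)).U C y ((box c g ∅ (cBot m q N)).stair ι)).map (monoDG C).del ⊔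
      (box c g ∅ (cBot m q N)).U C y ((box c g ∅ (cBot m q N)).stair ι') := by
  refine Shape.elim _ C h.kz h.deep (Shape.stair_closed _ hι) (Shape.stair_closed _ hι')
    (ce_le _ hle) (ce_win c g ht) j (fun i hi u => ?_) hz hj hd
  by_cases h0 : ∃ j0, 0 ≤ u.2 j0 ∧ c j0 < u.2 j0 - u.1
  · obtain ⟨j0, h1, h2⟩ := h0
    refine Or.inl ⟨j0, fun I hI => ?_⟩
    rw [ce_mem, ce_mem, live_toggle c g ∅ _ u (Finset.notMem_empty j0) h1 h2 I hI]
  · refine Or.inr fun I hI => ?_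
    rw [ce_mem] at hI
    obtain ⟨e, h1, -⟩ := live_rigid c g _ u (not_exists.1 h0) hI.1
    rw [e]
    exact H i hi u.1 hI.2.1 hI.2.2 h1

/-- Lower bound.  Let `s = box c g ∅ bot`, `ι i = -(i q)` for `i ≤ m + 1` (and `-(m+1) q` beyond, so that
`bot + n0 ≤ ι i`), `U = s.U (stair ι)`.  `cx_diff` with `Fil 0 ≤ U`, `chi_U` and `stair_count` give
`cx U - Fval c = ∑ (-1)^i β_i ∑_{a ∈ [-i q, 0)} ∏ (c j + 1 + a)`, and `cx U ≥ 0` by `cx_eq_deg0`, whose
hypotheses follow from `Shape.elim`, `live_toggle`, `live_rigid` and `h1`, `h2`. -/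
theorem Fval_ge (h : CoreHyp L C y q N) (c : Fin m → ℤ)
    (h1 : ∀ (i : ℕ) (a : ℤ), -(i * q : ℤ) ≤ a →
      (Finset.univ.filter fun j => c j + 1 + a < 0).card ≤ i)
    (h2 : ∀ i ≤ m + 1, ∀ a : ℤ, a < -((i : ℕ) * q : ℤ) →
      i ≤ (Finset.univ.filter fun j => c j + 1 + a < 0).card + 1) :
    -∑ i ∈ Finset.range (m + 2), (-1 : ℝ) ^ i * L.l (P ⧸ C.top y i) *
        ∑ a ∈ Finset.Ico (-(i * q : ℤ)) 0, ∏ j, ((c j + 1 + a : ℤ) : ℝ) ≤ Fval L C y q N c := by
  set g := gstd m q N c with hg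
  have hok : BoxOK c g ∅ (cBot m q N) := ce_ok m q N c
  set s := box c g ∅ (cBot m q N) with hs
  set Φ := h.filt c g ∅ (cBot m q N) le_rfl hok with hΦ
  set ι : ℕ → ℤ := fun i => -((min i (m + 1) * q : ℕ) : ℤ) with hι
  have hι0 : ∀ i, ι i ≤ 0 := fun i => by simp only [hι]; omega
  have hι1 : ∀ i, ι i ≤ ι (i + 1) + q := fun i => by
    have : min (i + 1) (m + 1) * q ≤ (min i (m + 1) + 1) * q := Nat.mul_le_mul_right _ (by omega)
    rw [add_mul, one_mul] at this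
    simp only [hι]
    omega
  have hι2 : ∀ i, cBot m q N + cN0 m N ≤ ι i := fun i => by
    have : min i (m + 1) * q ≤ (m + 1) * q := Nat.mul_le_mul_right _ (min_le_right _ _)
    simp only [hι, cBot]
    omega
  have hι3 : ∀ i ≤ m + 1, ι i = -(i * q : ℤ) := fun i hi => by
    simp only [hι, min_eq_left hi]
    push_cast
    rfl
  have hb0 : cBot m q N ≤ 0 := by simp only [cBot]; omega
  have hl : cLev m N = cN0 m N + 1 := rfl
  have ht : cTop m N = 3 * cN0 m N + 3 := rfl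
  have hU : (monoDG C).Sub (s.U C y (s.stair ι)) := s.U_sub C y h.deep (s.stair_closed hι1)
  have hU1 : s.U C y (s.stair ι) ≤ Φ.F (cBot m q N + cN0 m N) := s.U_mono C y (ce_le s hι2)
  have hle : Φ.F 0 ≤ s.U C y (s.stair ι) := s.U_mono C y (ce_le s hι0)
  have e1 := Φ.cx_diff (t := cLev m N) hU (Φ.sub 0) hle hU1 (Φ.anti (by omega)) (by omega) (by omega)
  have e2 := Φ.cx_eq_deg0 (t := cLev m N) hU hU1 ((Φ.anti (by omega)).trans hle) (by omega) (by omega)
    (fun j hj z hz hπ hd => ce_elim h c g hι1 (ι' := fun _ => cLev m N) (fun _ => by simp)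
      (fun i => (hι0 i).trans (by omega)) (fun _ => by omega) j
      (fun i hi a ha _ _ => by
        have := h1 i a (hι3 i hi ▸ ha)
        omega) hz hπ hd)
    (fun j hj z hz hπ hd => ce_elim h c g (ι := fun _ => cBot m q N) (fun _ => by simp) hι1
      (fun i => le_trans (by omega) (hι2 i)) (fun i => (hι0 i).trans (by omega)) j
      (fun i hi a _ ha _ => by
        have := h2 i hi a (hι3 i hi ▸ ha)
        omega) hz hπ hd)
  have e3 := s.chi_U C h.kz L h.good h.deep (s.stair_closed hι1)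
    (s.stair_closed (ι := fun _ => 0) fun _ => by simp) (ce_le s hι0)
    (ce_win c g fun _ => by omega)
  have e4 : ∑ i ∈ Finset.range (m + 2), ∑ I : Finset (Fin m), (-1 : ℝ) ^ (i + I.card) *
      ((s.stair ι i I \ s.stair (fun _ => 0) i I).ncard : ℝ) * L.l (P ⧸ C.top y i) =
      ∑ i ∈ Finset.range (m + 2), (-1 : ℝ) ^ i * L.l (P ⧸ C.top y i) *
        ∑ a ∈ Finset.Ico (-(i * q : ℤ)) 0, ∏ j, ((c j + 1 + a : ℤ) : ℝ) := by
    refine Finset.sum_congr rfl fun i hi => ?_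
    have := stair_count c g _ hok (ι := ι) (ι' := fun _ => 0) i (le_trans (by omega) (hι2 i)) (hι0 i)
    rw [hι3 i (by have := Finset.mem_range.1 hi; omega)] at this
    rw [← this, Finset.mul_sum]
    refine Finset.sum_congr rfl fun I _ => ?_
    rw [pow_add]
    ring
  have e5 : Fval L C y q N c = Φ.cx (Φ.F 0) (cLev m N) := rfl
  have e6 : (monoDG C).chi L (s.U C y (s.stair ι)) (Φ.F 0) = _ := e3
  have e7 : 0 ≤ Φ.cx (s.U C y (s.stair ι)) (cLev m N) := e2 ▸ L.l2_nonneg _ _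
  rw [e5, ← e4, ← e6]
  linarith

theorem ce_len (hP : L.G P) (ι : Type) [Fintype ι] (B : Submodule Λ P) (K : Submodule Λ (ι → P))
    (hK : ∀ f : ι → P, (∀ i, f i ∈ B) → f ∈ K) :
    L.l ((ι → P) ⧸ K) ≤ Fintype.card ι * L.l (P ⧸ B) := by
  have hB : L.G (P ⧸ B) := L.G_surj _ _ B.mkQ B.mkQ_surjective hP
  rw [← L.l_pi _ hB]
  set φ : (ι → P) →ₗ[Λ] (ι → P ⧸ B) := B.mkQ.compLeft ι with hφ
  have hs : Function.Surjective φ := fun f =>
    ⟨fun i => (B.mkQ_surjective (f i)).choose, funext fun i => (B.mkQ_surjective (f i)).choose_spec⟩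
  have hk : LinearMap.ker φ ≤ K := fun f hf =>
    hK f fun i => (Submodule.Quotient.mk_eq_zero B).1 (congrFun hf i)
  refine L.l_le_of_surj _ _ (factor hk ∘ₗ (φ.quotKerEquivOfSurjective hs).symm.toLinearMap) ?_
    (L.G_pi _ hB ι)
  exact (factor_surjective hk).comp (φ.quotKerEquivOfSurjective hs).symm.surjective

theorem ce_stable_sum {A : Set (UU m)} (hA : Stable A) {u : UU m} (hu : u ∈ A) {κ : Type}
    (t : Finset κ) (l : κ → Finset (Fin m)) : u + ∑ k ∈ t, gam (l k) ∈ A := by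
  classical
  induction t using Finset.induction_on with
  | empty => simpa using hu
  | insert k t hk ih =>
    rw [Finset.sum_insert hk, add_comm (gam (l k)), ← add_assoc]
    exact hA _ ih _

theorem ce_secs_stable (c : Fin m → ℤ) : Stable (secs c) := by
  rintro u ⟨h1, h2⟩ I
  refine ⟨?_, fun j => ?_⟩
  · change 0 ≤ u.1 + 1
    omega
  · have := h2 j
    change 0 ≤ u.2 j + (if j ∈ I then 1 else 0) ∧ u.2 j + (if j ∈ I then 1 else 0) ≤ c j + (u.1 + 1)
    split_ifs <;> omega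

theorem ce_secs_A1 {c g : Fin m → ℤ} {bot : ℤ} (hg : BoxOK c g ∅ bot) (hb : bot ≤ 0)
    (I : Finset (Fin m)) : secs c ⊆ boxA1 g ∅ bot I := by
  rintro u ⟨h1, h2⟩
  refine ⟨Finset.empty_subset _, hb.trans h1, fun j => ?_, fun j _ => (h2 j).1⟩
  have := (hg j (Finset.notMem_empty j)).1
  have := h2 j
  omega

theorem ce_secs_A2 {c g : Fin m → ℤ} {bot : ℤ} (hg : BoxOK c g ∅ bot) (hb : bot ≤ 0)
    {I : Finset (Fin m)} {j : Fin m} (hj : j ∈ I) : secs c ⊆ boxA2 c g ∅ bot I := by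
  intro u hu
  refine ⟨ce_secs_A1 hg hb I hu, j, hj, ?_⟩
  have := hu.2 j
  omega

theorem ce_secs0 {c : Fin m → ℤ} {u : UU m} (hu : u ∈ secs0 c) : u ∈ secs c := by
  obtain ⟨b, hb, rfl⟩ := Finset.mem_image.1 hu
  refine ⟨le_rfl, fun j => ?_⟩
  have := Finset.mem_Icc.1 (Fintype.mem_piFinset.1 hb j)
  simpa using this

theorem ce_pi0 (f : FF m P) :
    (monoDG C).π 0 (Pi.single ∅ f) = Pi.single ∅ (onF m (C.p 0) f) := by
  funext I
  change mπ C 0 (Pi.single ∅ f) I = _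
  rw [mπ, LinearMap.pi_apply, if_pos (by omega)]
  by_cases hI : I = ∅
  · subst hI
    simp
  · simp [hI]

theorem ce_onF (f : Module.End Λ P) (u : UU m) (w : P) :
    onF m f (Finsupp.single u w) = Finsupp.single u (f w) := by
  simp [onF]

theorem ce_onF_supp (f : Module.End Λ P) {A : Set (UU m)} {x : FF m P} (hx : x ∈ supp Λ P A) :
    onF m f x ∈ supp Λ P A := by
  rw [supp, Finsupp.mem_supported] at hx ⊢
  exact (Finset.coe_subset.2 (Finsupp.support_mapRange (hf := map_zero f))).trans hx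

theorem ce_A2_mem (s : Shape m) (a : ℤ) {w : EE m P} (hw : ∀ I, w I ∈ supp Λ P (s.A2 I)) :
    w ∈ s.Fil C y a := by
  refine (s.mem_U C y).2 fun I => ⟨Finsupp.supported_mono (s.sub I) (hw I), fun i => ?_⟩
  exact mem_sup_left (Finsupp.supported_mono Set.subset_union_right (ce_onF_supp _ (hw I)))

theorem ce_del {c g : Fin m → ℤ} {bot : ℤ} (hg : BoxOK c g ∅ bot) (hb : bot ≤ 0) (a : ℤ)
    {u : UU m} (hu : u ∈ secs c) (w : P) :
    (monoDG C).del (Pi.single ∅ (Finsupp.single u w)) -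
      (Pi.single ∅ (Finsupp.single u (C.D w)) : EE m P) ∈ (box c g ∅ bot).Fil C y a := by
  refine ce_A2_mem _ a fun I => ?_
  have e : ((monoDG C).del (Pi.single ∅ (Finsupp.single u w)) -
      (Pi.single ∅ (Finsupp.single u (C.D w)) : EE m P)) I = onF m C.sgn (∑ j ∈ I,
        ((-1 : Λ) ^ (I.filter (· < j)).card) •
          (Pi.single ∅ (Finsupp.single u w) : EE m P) (I.erase j)) := by
    change onF m C.D ((Pi.single ∅ (Finsupp.single u w) : EE m P) I) +
      onF m C.sgn (cech Λ P (Pi.single ∅ (Finsupp.single u w) : EE m P) I) -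
      (Pi.single ∅ (Finsupp.single u (C.D w)) : EE m P) I = _
    have e1 : onF m C.D ((Pi.single ∅ (Finsupp.single u w) : EE m P) I) =
        (Pi.single ∅ (Finsupp.single u (C.D w)) : EE m P) I := by
      by_cases hI : I = ∅
      · subst hI
        simp [ce_onF]
      · simp [hI]
    rw [e1, add_sub_cancel_left, cech, LinearMap.pi_apply, LinearMap.sum_apply]
    rfl
  rw [e]
  refine ce_onF_supp _ (sum_mem fun j hj => smul_mem _ _ ?_)
  by_cases hI : I.erase j = ∅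
  · rw [hI, Pi.single_eq_same]
    exact Finsupp.single_mem_supported Λ w (ce_secs_A2 hg hb hj hu)
  · rw [Pi.single_eq_of_ne hI]
    exact zero_mem _

/-- The sum of the generators indexed by a finite set of monomials. -/
noncomputable def ce_psi (Λ P : Type) [CommRing Λ] [AddCommGroup P] [Module Λ P] (t : Finset (UU m)) :
    (t → P) →ₗ[Λ] EE m P :=
  ∑ μ : t, LinearMap.single Λ (fun _ => FF m P) ∅ ∘ₗ Finsupp.lsingle μ.1 ∘ₗ LinearMap.proj μ

theorem ce_psi_apply (t : Finset (UU m)) (f : t → P) :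
    ce_psi Λ P t f = ∑ μ : t, (Pi.single ∅ (Finsupp.single μ.1 (f μ)) : EE m P) := by
  rw [ce_psi, LinearMap.sum_apply]
  rfl

/-- Upper bound at `c j = σ j`.  `cx_eq_deg0` applies to `U = Fil 0`: for `a ≥ 0` a rigid monomial has
`I = ∅`; for `a < 0` it has `c j + 1 + a ≠ 0` for all `j`, so `a < -m` and `I = univ`.  Let
`S0 i I = stair lev i I ∪ (if I = ∅ then secs c else ∅)`, a closed family (a section is killed at every
vertex `{j}`, hence at every `I ≠ ∅`; use `S0 i I = stair lev i I ∪ secs c` to keep `mono` trivial).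
By `elim`, every degree `0` element `z ∈ U` with `∂ z ∈ Θ` lies in `map ∂ U ⊔ s.U S0`; the degree `0` part of
`s.U S0` lies in `Θ ⊔ range Ψ` by `secs_gen` with `N = range (p 0)`, where
`Ψ f = Pi.single ∅ (∑ μ ∈ secs0 c, single μ (p 0 (f μ)))` on `secs0 c → P`.  `comap Ψ (map ∂ U ⊔ Θ)` contains
every `f` with values in `C.b0` (`single μ (p 0 (D w)) = single μ (D (p 1 w))` is `∂` of a generator up to a term
killed at the vertices `{j}`), so `l2 ≤ card * l (P ⧸ b0)` by `l2_range`, `l_pi`, `l_le_of_surj`. -/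
theorem Fval_le (h : CoreHyp L C y q N) (σ : Equiv.Perm (Fin m)) :
    Fval L C y q N (fun j => ((σ j : ℕ) : ℤ)) ≤ (m.factorial : ℝ) * L.l (P ⧸ C.b0) := by
  set c : Fin m → ℤ := fun j => ((σ j : ℕ) : ℤ) with hc
  set g := gstd m q N c with hg
  have hok : BoxOK c g ∅ (cBot m q N) := ce_ok m q N c
  set s := box c g ∅ (cBot m q N) with hs
  set Φ := h.filt c g ∅ (cBot m q N) le_rfl hok with hΦ
  have hb0 : cBot m q N + cN0 m N ≤ 0 := by simp only [cBot]; omega
  have hb1 : cBot m q N ≤ 0 := by omega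
  have hl : cLev m N = cN0 m N + 1 := rfl
  have ht : cTop m N = 3 * cN0 m N + 3 := rfl
  have hc0 : ∀ j, 0 ≤ c j := fun j => Int.natCast_nonneg _
  have e2 := Φ.cx_eq_deg0 (t := cLev m N) (Φ.sub 0) (Φ.anti hb0) (Φ.anti (by omega)) (by omega)
    (by omega)
    (fun j hj z hz hπ hd => ce_elim h c g (ι := fun _ => 0) (fun _ => by simp)
      (ι' := fun _ => cLev m N) (fun _ => by simp) (fun i => by omega) (fun _ => by omega) j
      (fun i hi a ha _ _ => by
        rw [Finset.filter_false_of_mem fun k _ => by have := hc0 k; omega, Finset.card_empty]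
        omega) hz hπ hd)
    (fun j hj z hz hπ hd => ce_elim h c g (ι := fun _ => cBot m q N) (fun _ => by simp)
      (ι' := fun _ => 0) (fun _ => by simp) (fun i => hb1) (fun i => by omega) j
      (fun i hi a _ ha hk => by
        have h3 : (m : ℤ) + a < 0 := by
          by_contra h4
          have h5 := hk (σ.symm ⟨(-a - 1).toNat, by omega⟩)
          simp only [hc, Equiv.apply_symm_apply] at h5
          omega
        rw [Finset.filter_true_of_mem fun k _ => by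
          have := (σ k).2
          simp only [hc]
          omega, Finset.card_univ, Fintype.card_fin]
        omega) hz hπ hd)
  have e5 : Fval L C y q N c = Φ.cx (Φ.F 0) (cLev m N) := rfl
  set Q := (Φ.F 0).map (monoDG C).del ⊔ Φ.F (cLev m N) with hQ
  set Ψ : (secs0 c → P) →ₗ[Λ] EE m P := (monoDG C).π 0 ∘ₗ ce_psi Λ P (secs0 c) with hΨ
  have hcl : s.Closed q (s.stair fun _ => cLev m N) := s.stair_closed fun _ => by simp
  have hcl0 : s.Closed q (s.stair fun _ => 0) := s.stair_closed fun _ => by simp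
  set S0 : Fam m := fun i I => s.stair (fun _ => cLev m N) i I ∪ secs c with hS0
  have hS0c : s.Closed q S0 :=
    { lo := fun i I => (hcl.lo i I).trans Set.subset_union_left
      hi := fun i I => Set.union_subset (hcl.hi i I) (ce_secs_A1 hok hb1 I)
      st := fun i I u hu J => hu.elim (fun hu => Or.inl (hcl.st i I u hu J))
        fun hu => Or.inr (ce_secs_stable c u hu J)
      mono := fun i I j => Set.union_subset_union_left _ (hcl.mono i I j)
      dcl := fun i I u hu l => hu.elim (fun hu => Or.inl (hcl.dcl i I u hu l))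
        fun hu => Or.inr (ce_stable_sum (ce_secs_stable c) hu _ l) }
  have hΘ : ∀ v ∈ Φ.F (cLev m N), (monoDG C).π 0 v ∈ Φ.F (cLev m N) := fun v hv =>
    (Φ.sub _).1 0 ⟨v, hv, rfl⟩
  have hrel : ∀ I, ∀ f ∈ Rel P y (s.A1 I) (s.A2 I), (Pi.single I f : EE m P) ∈ Φ.F (cLev m N) :=
    ((s.U_le_iff C y hcl.hi).1 le_rfl).1
  have k1 : s.U C y S0 ≤ (LinearMap.range Ψ ⊔ Φ.F (cLev m N)).comap ((monoDG C).π 0) := by
    refine (s.U_le_iff C y hS0c.hi).2 ⟨fun I f hf => mem_sup_right (hΘ _ (hrel I f hf)),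
      fun i I u hu w => ?_⟩
    by_cases h0 : u ∈ s.stair (fun _ => cLev m N) i I
    · exact mem_sup_right (hΘ _ (s.single_mem_U C y hcl.hi h0 w))
    have hu' : u ∈ secs c := hu.resolve_left h0
    obtain rfl : I = ∅ := Finset.eq_empty_of_forall_notMem fun j hj =>
      h0 (Or.inr (ce_secs_A2 hok hb1 hj hu'))
    obtain ⟨f, -, hf⟩ := secs_gen y c σ (fun _ => le_rfl) (A' := s.A2 ∅) (ce_secs_A1 hok hb1 ∅) ⊤ hu'
      (mem_top (x := C.p i w))
    have e : (Pi.single ∅ (Finsupp.single u (C.p i w)) : EE m P) = ce_psi Λ P (secs0 c) (fun μ => f μ) +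
        Pi.single ∅ (Finsupp.single u (C.p i w) - ∑ μ ∈ secs0 c, Finsupp.single μ (f μ)) := by
      rw [ce_psi_apply, Finset.sum_coe_sort (secs0 c)
        (fun μ => (Pi.single ∅ (Finsupp.single μ (f μ)) : EE m P)), Pi.single_sub]
      have := map_sum (LinearMap.single Λ (fun _ : Finset (Fin m) => FF m P) ∅)
        (fun μ => Finsupp.single μ (f μ)) (secs0 c)
      simp only [LinearMap.coe_single] at this
      rw [this, add_sub_cancel]
    rw [mem_comap, e, map_add]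
    exact add_mem_sup ⟨_, rfl⟩ (hΘ _ (hrel _ _ hf))
  have k2 : (((Φ.F 0 ⊓ (Φ.F (cLev m N + cN0 m N)).comap (monoDG C).del) ⊔ Φ.F (cLev m N)).map
      ((monoDG C).π 0)) ≤ LinearMap.range Ψ ⊔ Q := by
    rw [Submodule.map_sup]
    refine sup_le ?_ (((Φ.sub _).1 0).trans (le_sup_right.trans le_sup_right))
    rintro _ ⟨z, ⟨hz, hz'⟩, rfl⟩
    have a1 : (monoDG C).π 0 z ∈ Φ.F 0 := (Φ.sub 0).1 0 ⟨z, hz, rfl⟩
    have a2 : (monoDG C).π 0 z ∈ (Φ.F (cLev m N + cN0 m N)).comap (monoDG C).del :=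
      (Φ.sub _).1.comap_del 0 ⟨z, hz', rfl⟩
    have a3 : (monoDG C).del ((monoDG C).π 0 z) ∈ s.U C y S0 :=
      s.U_mono C y (fun _ _ => Set.subset_union_left) (Φ.anti (by omega) a2)
    have a4 := s.elim C h.kz h.deep hcl0 hS0c
      (fun i I => Set.union_subset (ce_le s (fun _ => by omega) i I)
        fun u hu => Or.inl ⟨ce_secs_A1 hok hb1 I hu, hu.1⟩)
      (fun i I u hu hb => Or.inl (ce_win c g (fun _ => by omega) i I u hu hb)) 0
      (fun i hi u => ?_) a1 (DG.l2_idem 0 z) a3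
    · obtain ⟨v, hv, w, hw, e⟩ := mem_sup.1 a4
      rw [← DG.l2_idem 0 z, ← e, map_add, add_comm]
      obtain ⟨r, hr, θ, hθ, e'⟩ := mem_sup.1 (mem_comap.1 (k1 hw))
      rw [← e', add_assoc]
      exact add_mem_sup hr (add_mem (mem_sup_right hθ)
        (mem_sup_left ((Φ.sub 0).1.map_del 0 ⟨v, hv, rfl⟩)))
    have a5 : ∀ I, u ∈ s.stair (fun _ => 0) i I \ S0 i I ↔
        (Live c g ∅ (cBot m q N) u I ∧ 0 ≤ u.1 ∧ u.1 < cLev m N) ∧ u ∉ secs c := fun I => by
      rw [hS0, ← Set.sdiff_sdiff, Set.mem_sdiff, ce_mem]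
    by_cases h0 : ∃ j0, 0 ≤ u.2 j0 ∧ c j0 < u.2 j0 - u.1
    · obtain ⟨j0, h1, h2⟩ := h0
      refine Or.inl ⟨j0, fun I hI => ?_⟩
      rw [a5, a5, live_toggle c g ∅ _ u (Finset.notMem_empty j0) h1 h2 I hI]
    · refine Or.inr fun I hI => ?_
      rw [a5] at hI
      obtain ⟨e, -, h1⟩ := live_rigid c g _ u (not_exists.1 h0) hI.1.1
      refine (hI.2 ⟨hI.1.2.1, fun j => h1 j fun hj => ?_⟩).elim
      rw [e, Finset.mem_filter] at hj
      have := hc0 j
      have := hI.1.2.1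
      omega
  have k3 : ∀ f : secs0 c → P, (∀ μ, f μ ∈ C.b0) → f ∈ Q.comap Ψ := by
    intro f hf
    rw [mem_comap, hΨ, LinearMap.comp_apply, ce_psi_apply, map_sum]
    refine sum_mem fun μ _ => ?_
    have hμ := ce_secs0 μ.2
    obtain ⟨_, ⟨v, rfl⟩, k, hk, e⟩ := mem_sup.1 (hf μ)
    have e1 : C.p 0 (f μ) = C.D (C.p 1 v) := by
      rw [← e, map_add, LinearMap.mem_ker.1 hk, add_zero]
      exact (LinearMap.congr_fun (C.D_p 0) v).symm
    rw [ce_pi0, ce_onF, e1]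
    have a1 := ce_del (C := C) (y := y) hok hb1 (cLev m N) hμ (C.p 1 v)
    have a2 : (Pi.single ∅ (Finsupp.single μ.1 (C.p 1 v)) : EE m P) ∈ Φ.F 0 :=
      s.single_mem_U C y hcl0.hi (Or.inl ⟨ce_secs_A1 hok hb1 ∅ hμ, hμ.1⟩) v
    have a3 := Q.sub_mem (mem_sup_left ⟨_, a2, rfl⟩) (mem_sup_right a1)
    rwa [sub_sub_cancel] at a3
  have k4 := ce_len h.good (secs0 c) C.b0 _ k3
  rw [Fintype.card_coe, secs0_card] at k4
  rw [e5, e2]
  refine (L.l2_mono_left (L.G2_range (L.G_pi _ h.good _) Ψ Q) k2).trans ?_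
  rwa [L.l2_sup le_rfl, L.l2_range]

/-- The core inequality.  Sum `Fval_ge` over `c = (thr k - 1) ∘ σ`; by `thr_sum` and `euler` the total is
`m! (m+1)! q^(m+1) β_0`; by `Fval_symm` and `Fval_le` it is at most `(m+1) m! m! l(H_0)`. -/
theorem core_abs (h : CoreHyp L C y q N) (hq : 0 < q) :
    (q : ℝ) ^ (m + 1) * L.l (P ⧸ C.top y 0) ≤ L.l (P ⧸ C.b0) := by
  set β : ℕ → ℝ := fun i => L.l (P ⧸ C.top y i) with hβ
  have k1 : ∀ (k : Fin (m + 1)) (σ : Equiv.Perm (Fin m)),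
      -∑ i ∈ Finset.range (m + 2), (-1 : ℝ) ^ i * β i *
        ∑ a ∈ Finset.Ico (-(i * q : ℤ)) 0, ∏ j, ((thr m q k j + a : ℤ) : ℝ) ≤
      Fval L C y q N ((fun j => thr m q k j - 1) ∘ σ) := by
    intro k σ
    have hcard : ∀ a : ℤ, (Finset.univ.filter fun j =>
        ((fun j => thr m q k j - 1) ∘ σ) j + 1 + a < 0).card =
        (Finset.univ.filter fun j => thr m q k j + a < 0).card := fun a =>
      Finset.card_equiv σ fun j => by simp
    have := Fval_ge h ((fun j => thr m q k j - 1) ∘ σ)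
      (fun i a ha => hcard a ▸ thr_card_le m q k i ha)
      (fun i hi a ha => hcard a ▸ thr_card_ge m q hq k hi ha)
    refine le_of_eq_of_le ?_ this
    congr 1
    refine Finset.sum_congr rfl fun i _ => ?_
    congr 1
    refine Finset.sum_congr rfl fun a _ => ?_
    rw [← Equiv.prod_comp σ]
    simp
  have k2 : ∀ k : Fin (m + 1), ∑ σ : Equiv.Perm (Fin m),
      Fval L C y q N ((fun j => thr m q k j - 1) ∘ σ) ≤
        (m.factorial : ℝ) * (m.factorial * L.l (P ⧸ C.b0)) := by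
    intro k
    rw [Fval_symm h _ fun j => ((j : ℕ) : ℤ)]
    refine (Finset.sum_le_card_nsmul _ _ _ fun σ _ => Fval_le h σ).trans_eq ?_
    rw [Finset.card_univ, Fintype.card_perm, Fintype.card_fin, nsmul_eq_mul]
  have k3 : ∑ k : Fin (m + 1), -∑ i ∈ Finset.range (m + 2), (-1 : ℝ) ^ i * β i *
        ∑ a ∈ Finset.Ico (-(i * q : ℤ)) 0, ∏ j, ((thr m q k j + a : ℤ) : ℝ) =
      β 0 * (((m + 1).factorial : ℝ) * (q : ℝ) ^ (m + 1)) := by
    have e := h.euler
    rw [Finset.sum_neg_distrib, Finset.sum_comm]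
    simp only [← Finset.mul_sum]
    rw [Finset.sum_range_succ'] at e ⊢
    rw [Finset.sum_congr rfl fun i hi => by
      rw [thr_sum m q (i + 1) (by omega) (by have := Finset.mem_range.1 hi; omega)],
      ← Finset.sum_mul]
    simp only [Nat.cast_zero, zero_mul, neg_zero, Finset.Ico_self, Finset.sum_empty,
      Finset.sum_const_zero, mul_zero, add_zero, pow_zero, one_mul] at e ⊢
    rw [eq_neg_of_add_eq_zero_left e]
    ring
  have k4 : (m.factorial : ℝ) * (β 0 * (((m + 1).factorial : ℝ) * (q : ℝ) ^ (m + 1))) ≤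
      (m + 1 : ℝ) * ((m.factorial : ℝ) * (m.factorial * L.l (P ⧸ C.b0))) := by
    rw [← k3, Finset.mul_sum]
    refine (Finset.sum_le_card_nsmul _ _ ((m.factorial : ℝ) * (m.factorial * L.l (P ⧸ C.b0)))
      fun k _ => le_trans ?_ (k2 k)).trans_eq ?_
    · refine le_of_eq_of_le ?_ (Finset.card_nsmul_le_sum _ _ _ fun σ _ => k1 k σ)
      rw [Finset.card_univ, Fintype.card_perm, Fintype.card_fin, nsmul_eq_mul]
    · rw [Finset.card_univ, Fintype.card_fin, nsmul_eq_mul]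
      push_cast
      rfl
  rw [Nat.factorial_succ] at k4
  push_cast at k4
  have hpos : (0 : ℝ) < (m + 1) * m.factorial * m.factorial := by positivity
  refine le_of_mul_le_mul_left ?_ hpos
  simp only [hβ] at k4
  linarith

end Crest.Agent.R183
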