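import Crest.Agent.R183.XCalc

/-!
# rid 183, file `XAdd`: additivity of the stable Euler characteristic

Prefix helper lemmas with `xa_`.
-/

set_option autoImplicit false

open Submodule

namespace Crest.Agent.R183

variable {Λ : Type} [CommRing Λ] {α : Λ} {E : Type} [AddCommGroup E] [Module Λ E]
  {L : GLen Λ α} {G : DG Λ E} {bot top : ℤ} {n0 : ℕ}

theorem xa_S1 (Φ : Filt L G bot top n0) {a t : ℤ} (ha : bot + n0 ≤ a) (ht : a + n0 ≤ t)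
    (htop : t + 2 * n0 ≤ top) :
    ALE α (Φ.F a ⊓ (Φ.F (t + n0)).comap G.del ⊔ Φ.F t)
      (Φ.F a ⊓ (Φ.F (t + n0 + n0)).comap G.del ⊔ Φ.F t) :=
  (Φ.ale_bd (Φ.anti ha) (Φ.anti (by omega)) (by omega) (by omega)).trans (ALE.of_le
    (sup_le_sup_right (le_inf inf_le_right (inf_le_left.trans (Filt.xc_bd _ _))) _))

theorem xa_S2 (Φ : Filt L G bot top n0) {a t : ℤ} (ha : bot + n0 ≤ a) (ht : a + n0 ≤ t)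
    (htop : t + 2 * n0 ≤ top) :
    ALE α ((Φ.F (t + n0 + n0)).comap G.del ⊓ ((Φ.F a).map G.del ⊔ Φ.F t))
      ((Φ.F a).map G.del ⊔ Φ.F (t + n0)) := by
  obtain ⟨c, hc⟩ := Φ.hZ (t - n0) (t + n0) (by omega) (by omega) (by omega)
  rw [sub_add_cancel] at hc
  refine ⟨c, fun z hz => ?_⟩
  obtain ⟨b, hb, θ, hθ, rfl⟩ := mem_sup.1 hz.2
  have h1 : (Φ.F (t - n0)).map G.del ⊔ Φ.F (t + n0) ≤ (Φ.F a).map G.del ⊔ Φ.F (t + n0) :=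
    sup_le_sup_right (map_mono (Φ.anti (by omega))) _
  rw [smul_add]
  refine add_mem (smul_mem _ _ (mem_sup_left hb)) (h1 (hc θ ⟨hθ, ?_⟩))
  simpa using sub_mem hz.1 (Filt.xc_bd _ _ hb)

theorem xa_ZC {U V K : Submodule Λ E} (hK : G.Sub K) :
    (U ⊔ K) ⊓ (V ⊔ K).comap G.del = U ⊓ (V ⊔ K).comap G.del ⊔ K := by
  have h : K ≤ (V ⊔ K).comap G.del := fun v hv => mem_sup_right (hK.2 ⟨v, hv, rfl⟩)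
  refine le_antisymm ?_ (sup_le (inf_le_inf_right _ le_sup_left) (le_inf le_sup_right h))
  rintro v ⟨hv, hv'⟩
  obtain ⟨u, hu, κ, hκ, rfl⟩ := mem_sup.1 hv
  exact add_mem_sup ⟨hu, by simpa using sub_mem hv' (h hκ)⟩ hκ

theorem xa_QC {U V K : Submodule Λ E} (hK : G.Sub K) :
    (U ⊔ K).map G.del ⊔ (V ⊔ K) = U.map G.del ⊔ V ⊔ K := by
  rw [Submodule.map_sup, sup_assoc, sup_assoc, sup_left_comm (K.map G.del), sup_eq_right.2 hK.2]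

section abs

variable {U Θ Θ' Θ'' K : Submodule Λ E}

theorem xa_EB (hU : G.Sub U) (hΘ' : G.Sub Θ') (hK : G.Sub K) (l1 : Θ'' ≤ Θ') (l2 : Θ' ≤ Θ)
    (l3 : Θ ≤ U) (S1B : ALE α (U ⊓ Θ'.comap G.del ⊔ Θ) (U ⊓ Θ''.comap G.del ⊔ Θ))
    (S2C : ALE α ((Θ'' ⊔ K).comap G.del ⊓ (U.map G.del ⊔ Θ ⊔ K)) (U.map G.del ⊔ Θ' ⊔ K)) :
    ALE α ((U ⊓ Θ'.comap G.del ⊔ Θ) ⊓ (U.map G.del ⊔ Θ ⊔ K))
      ((U ⊓ K ⊓ (Θ' ⊓ K).comap G.del ⊔ Θ ⊓ K) ⊔ (U.map G.del ⊔ Θ)) := by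
  obtain ⟨c, hc⟩ := S1B
  obtain ⟨c', hc'⟩ := S2C
  refine ⟨c' + c, fun v hv => ?_⟩
  obtain ⟨z, hz, θ, hθ, e⟩ := mem_sup.1 (hc v hv.1)
  have h1 : z ∈ U.map G.del ⊔ Θ ⊔ K := by
    rw [eq_sub_of_add_eq e]
    exact sub_mem (smul_mem _ _ hv.2) (mem_sup_left (mem_sup_right hθ))
  obtain ⟨q, hq, κ, hκ, e'⟩ := mem_sup.1 (hc' z ⟨mem_sup_left hz.2, h1⟩)
  have h2 : U.map G.del ⊔ Θ' ≤ U ⊓ Θ'.comap G.del :=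
    sup_le (le_inf hU.2 (Filt.xc_bd _ _)) (le_inf (l2.trans l3) (map_le_iff_le_comap.1 hΘ'.2))
  have h3 : κ ∈ U ⊓ Θ'.comap G.del := by
    rw [eq_sub_of_add_eq' e']
    exact sub_mem (smul_mem _ _ ⟨hz.1, l1 hz.2⟩) (h2 hq)
  rw [pow_add, mul_smul, ← e, smul_add, ← e', add_comm q, add_assoc]
  exact add_mem_sup (mem_sup_left ⟨⟨h3.1, hκ⟩, h3.2, hK.2 ⟨κ, hκ, rfl⟩⟩)
    (add_mem (sup_le_sup_left l2 _ hq) (smul_mem _ _ (mem_sup_right hθ)))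

theorem xa_EA1 (hU : G.Sub U) (hΘ' : G.Sub Θ') (hK : G.Sub K) (l2 : Θ' ≤ Θ) (l3 : Θ ≤ U) :
    (U ⊓ (Θ' ⊔ K).comap G.del).map G.del ≤
      (U ⊓ K ⊓ (Θ' ⊓ K).comap G.del ⊔ Θ ⊓ K) ⊓ (U.map G.del ⊔ Θ) ⊔ Θ := by
  rintro _ ⟨z, hz, rfl⟩
  obtain ⟨θ, hθ, κ, hκ, e⟩ := mem_sup.1 (mem_comap.1 hz.2)
  have e' := eq_sub_of_add_eq' e
  rw [← e, add_comm]
  refine add_mem_sup ⟨mem_sup_left ⟨⟨?_, hκ⟩, ?_, hK.2 ⟨κ, hκ, rfl⟩⟩, ?_⟩ (l2 hθ)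
  · rw [e']; exact sub_mem (hU.2 ⟨z, hz.1, rfl⟩) (l3 (l2 hθ))
  · rw [e', map_sub, Filt.xc_dd]; exact sub_mem (zero_mem _) (hΘ'.2 ⟨θ, hθ, rfl⟩)
  · rw [e']; exact sub_mem (mem_sup_left ⟨z, hz.1, rfl⟩) (mem_sup_right (l2 hθ))

theorem xa_EA2 (l2 : Θ' ≤ Θ)
    (S1A : ALE α (U ⊓ K ⊓ (Θ' ⊓ K).comap G.del ⊔ Θ ⊓ K) (U ⊓ K ⊓ (Θ'' ⊓ K).comap G.del ⊔ Θ ⊓ K))
    (S2B : ALE α (Θ''.comap G.del ⊓ (U.map G.del ⊔ Θ)) (U.map G.del ⊔ Θ')) :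
    ALE α ((U ⊓ K ⊓ (Θ' ⊓ K).comap G.del ⊔ Θ ⊓ K) ⊓ (U.map G.del ⊔ Θ))
      ((U ⊓ (Θ' ⊔ K).comap G.del).map G.del ⊔ Θ) := by
  obtain ⟨c, hc⟩ := S1A
  obtain ⟨c', hc'⟩ := S2B
  refine ⟨c' + c, fun v hv => ?_⟩
  obtain ⟨κ, hκ, θ, hθ, e⟩ := mem_sup.1 (hc v hv.1)
  have h1 : κ ∈ U.map G.del ⊔ Θ := by
    rw [eq_sub_of_add_eq e]
    exact sub_mem (smul_mem _ _ hv.2) (mem_sup_right hθ.1)
  obtain ⟨_, ⟨u, hu, rfl⟩, θ', hθ', e'⟩ := mem_sup.1 (hc' κ ⟨hκ.2.1, h1⟩)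
  rw [pow_add, mul_smul, ← e, smul_add, ← e', add_assoc]
  refine add_mem_sup ⟨u, ⟨hu, ?_⟩, rfl⟩ (add_mem (l2 hθ') (smul_mem _ _ hθ.1))
  change G.del u ∈ Θ' ⊔ K
  rw [eq_sub_of_add_eq e']
  exact sub_mem (mem_sup_right (smul_mem _ _ hκ.1.2)) (mem_sup_left hθ')

theorem xa_KW (hK : G.Sub K) {v : E} (hv : v ∈ K) (h : v ∈ (U ⊓ K).map G.del ⊔ Θ) :
    v ∈ (U ⊓ K).map G.del ⊔ Θ ⊓ K := by
  obtain ⟨q, hq, θ, hθ, rfl⟩ := mem_sup.1 h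
  exact add_mem_sup hq ⟨hθ, by simpa using sub_mem hv (hK.2 (map_mono inf_le_right hq))⟩

theorem xa_EC1 (hΘ : G.Sub Θ) (l2 : Θ' ≤ Θ) (l3 : Θ ≤ U) :
    U ⊓ (U ⊓ Θ'.comap G.del ⊔ Θ ⊔ K) ≤ ((U ⊓ K).map G.del ⊔ Θ).comap G.del := by
  rintro z ⟨hz, hz'⟩
  obtain ⟨p, hp, κ, hκ, rfl⟩ := mem_sup.1 hz'
  have h : U ⊓ Θ'.comap G.del ⊔ Θ ≤ U ⊓ Θ.comap G.del :=
    sup_le (inf_le_inf_left _ (comap_mono l2)) (le_inf l3 (map_le_iff_le_comap.1 hΘ.2))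
  rw [mem_comap, map_add, add_comm]
  exact add_mem_sup ⟨κ, ⟨by simpa using sub_mem hz (h hp).1, hκ⟩, rfl⟩ (h hp).2

theorem xa_EC2 (hΘ : G.Sub Θ) (hΘ'' : G.Sub Θ'') (hK : G.Sub K) (l1 : Θ'' ≤ Θ')
    (l2 : Θ' ≤ Θ) (l3 : Θ ≤ U)
    (S1C : ALE α (U ⊓ (Θ' ⊔ K).comap G.del) (U ⊓ (Θ'' ⊔ K).comap G.del ⊔ Θ ⊔ K))
    (S2A : ALE α ((Θ'' ⊓ K).comap G.del ⊓ ((U ⊓ K).map G.del ⊔ Θ ⊓ K))
      ((U ⊓ K).map G.del ⊔ Θ' ⊓ K)) :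
    ALE α (U ⊓ (Θ' ⊔ K).comap G.del ⊓ ((U ⊓ K).map G.del ⊔ Θ).comap G.del)
      (U ⊓ Θ'.comap G.del ⊔ Θ ⊔ K) := by
  obtain ⟨c, hc⟩ := S1C
  obtain ⟨c', hc'⟩ := S2A
  refine ⟨c' + c, fun z hz => ?_⟩
  obtain ⟨_, hp, κ1, hκ1, e⟩ := mem_sup.1 (hc z hz.1)
  obtain ⟨z'', hz'', θ1, hθ1, rfl⟩ := mem_sup.1 hp
  obtain ⟨θ'', hθ'', κ2, hκ2, e2⟩ := mem_sup.1 (mem_comap.1 hz''.2)
  have a1 : κ1 ∈ U := by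
    rw [eq_sub_of_add_eq' e]
    exact sub_mem (smul_mem _ _ hz.1.1) (add_mem hz''.1 (l3 hθ1))
  have a2 : z'' ∈ ((U ⊓ K).map G.del ⊔ Θ).comap G.del := by
    rw [eq_sub_of_add_eq (eq_sub_of_add_eq e)]
    exact sub_mem (sub_mem (smul_mem _ _ hz.2) (mem_sup_left ⟨κ1, ⟨a1, hκ1⟩, rfl⟩))
      (mem_sup_right (hΘ.2 ⟨θ1, hθ1, rfl⟩))
  have a3 : κ2 ∈ (U ⊓ K).map G.del ⊔ Θ := by
    rw [eq_sub_of_add_eq' e2]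
    exact sub_mem a2 (mem_sup_right (l2 (l1 hθ'')))
  have a4 : G.del κ2 ∈ Θ'' := by
    rw [eq_sub_of_add_eq' e2, map_sub, Filt.xc_dd]
    exact sub_mem (zero_mem _) (hΘ''.2 ⟨θ'', hθ'', rfl⟩)
  obtain ⟨_, ⟨κ3, hκ3, rfl⟩, θ3, hθ3, e3⟩ :=
    mem_sup.1 (hc' κ2 ⟨⟨a4, hK.2 ⟨κ2, hκ2, rfl⟩⟩, xa_KW hK hκ2 a3⟩)
  rw [pow_add, mul_smul, ← e, show α ^ c' • (z'' + θ1 + κ1) =
    α ^ c' • z'' - κ3 + α ^ c' • θ1 + (κ3 + α ^ c' • κ1) by rw [smul_add, smul_add]; abel]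
  refine add_mem_sup (add_mem_sup ⟨sub_mem (smul_mem _ _ hz''.1) hκ3.1, ?_⟩ (smul_mem _ _ hθ1))
    (add_mem hκ3.2 (smul_mem _ _ hκ1))
  change G.del (α ^ c' • z'' - κ3) ∈ Θ'
  rw [map_sub, map_smul, ← e2, smul_add, ← e3,
    show α ^ c' • θ'' + (G.del κ3 + θ3) - G.del κ3 = α ^ c' • θ'' + θ3 by abel]
  exact add_mem (smul_mem _ _ (l1 hθ'')) hθ3.1

theorem xa_main {T R0 : Submodule Λ E} (hG : L.G2 T R0) (hU : G.Sub U) (hΘ : G.Sub Θ)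
    (hΘ' : G.Sub Θ') (hΘ'' : G.Sub Θ'') (hK : G.Sub K) (l0 : R0 ≤ Θ') (l1 : Θ'' ≤ Θ')
    (l2 : Θ' ≤ Θ) (l3 : Θ ≤ U) (l4 : U ≤ T) (k0 : R0 ≤ K) (k1 : K ≤ T)
    (S1A : ALE α (U ⊓ K ⊓ (Θ' ⊓ K).comap G.del ⊔ Θ ⊓ K) (U ⊓ K ⊓ (Θ'' ⊓ K).comap G.del ⊔ Θ ⊓ K))
    (S1B : ALE α (U ⊓ Θ'.comap G.del ⊔ Θ) (U ⊓ Θ''.comap G.del ⊔ Θ))
    (S1C : ALE α ((U ⊔ K) ⊓ (Θ' ⊔ K).comap G.del ⊔ (Θ ⊔ K))
      ((U ⊔ K) ⊓ (Θ'' ⊔ K).comap G.del ⊔ (Θ ⊔ K)))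
    (S2A : ALE α ((Θ'' ⊓ K).comap G.del ⊓ ((U ⊓ K).map G.del ⊔ Θ ⊓ K))
      ((U ⊓ K).map G.del ⊔ Θ' ⊓ K))
    (S2B : ALE α (Θ''.comap G.del ⊓ (U.map G.del ⊔ Θ)) (U.map G.del ⊔ Θ'))
    (S2C : ALE α ((Θ'' ⊔ K).comap G.del ⊓ ((U ⊔ K).map G.del ⊔ (Θ ⊔ K)))
      ((U ⊔ K).map G.del ⊔ (Θ' ⊔ K))) :
    G.cx L U Θ Θ' = G.cx L (U ⊓ K) (Θ ⊓ K) (Θ' ⊓ K) + G.cx L (U ⊔ K) (Θ ⊔ K) (Θ' ⊔ K) := by
  have eC : ∀ V : Submodule Λ E, (U ⊔ K) ⊓ (V ⊔ K).comap G.del ⊔ (Θ ⊔ K) =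
      U ⊓ (V ⊔ K).comap G.del ⊔ (Θ ⊔ K) := fun V => by
    rw [xa_ZC hK, sup_assoc, sup_left_comm K, sup_idem]
  rw [xa_QC hK, xa_QC hK] at S2C
  rw [eC, eC, ← sup_assoc (U ⊓ (Θ'' ⊔ K).comap G.del)] at S1C
  have EB := xa_EB hU hΘ' hK l1 l2 l3 S1B S2C
  have EA1 := xa_EA1 hU hΘ' hK l2 l3
  have EA2 := xa_EA2 l2 S1A S2B
  have EC1 := xa_EC1 (K := K) hΘ l2 l3
  have EC2 := xa_EC2 hΘ hΘ'' hK l1 l2 l3 ((ALE.of_le le_sup_left).trans S1C) S2A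
  have KW : ∀ v ∈ K, v ∈ (U ⊓ K).map G.del ⊔ Θ → v ∈ (U ⊓ K).map G.del ⊔ Θ ⊓ K :=
    fun v => xa_KW hK
  rw [DG.cx, DG.cx, DG.cx, eC, xa_QC hK]
  have gPB : G.Gr (U ⊓ Θ'.comap G.del ⊔ Θ) := (hU.1.inf hΘ'.1.comap_del).sup hΘ.1
  have gQB : G.Gr (U.map G.del ⊔ Θ) := hU.1.map_del.sup hΘ.1
  have gPA : G.Gr (U ⊓ K ⊓ (Θ' ⊓ K).comap G.del ⊔ Θ ⊓ K) :=
    ((hU.1.inf hK.1).inf (hΘ'.1.inf hK.1).comap_del).sup (hΘ.1.inf hK.1)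
  have gZ : G.Gr (U ⊓ (Θ' ⊔ K).comap G.del) := hU.1.inf (hΘ'.1.sup hK.1).comap_del
  have gW : G.Gr ((U ⊓ K).map G.del ⊔ Θ) := (hU.1.inf hK.1).map_del.sup hΘ.1
  have m1 : U.map G.del ⊔ Θ ≤ U ⊓ Θ'.comap G.del ⊔ Θ :=
    sup_le_sup_right (le_inf hU.2 (Filt.xc_bd _ _)) _
  have m2 : U ⊓ Θ'.comap G.del ⊔ Θ ≤ U := sup_le inf_le_left l3
  have m3 : U ⊓ K ⊓ (Θ' ⊓ K).comap G.del ⊔ Θ ⊓ K ≤ U ⊓ Θ'.comap G.del ⊔ Θ :=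
    sup_le_sup (inf_le_inf inf_le_left (comap_mono inf_le_left)) inf_le_left
  have m4 : U ⊓ K ⊓ (Θ' ⊓ K).comap G.del ⊔ Θ ⊓ K ≤ K :=
    sup_le (inf_le_left.trans inf_le_right) inf_le_right
  have m5 : (U ⊓ K).map G.del ⊔ Θ ⊓ K ≤ U ⊓ K ⊓ (Θ' ⊓ K).comap G.del ⊔ Θ ⊓ K :=
    sup_le_sup_right (le_inf (hU.inf hK).2 (Filt.xc_bd _ _)) _
  have m6 : (U ⊓ K).map G.del ⊔ Θ ≤ U.map G.del ⊔ Θ := sup_le_sup_right (map_mono inf_le_left) _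
  have m7 : (U ⊓ K).map G.del ⊔ Θ ⊓ K ≤ (U ⊓ K).map G.del ⊔ Θ := sup_le_sup_left inf_le_left _
  have m8 : U ⊓ Θ'.comap G.del ⊔ Θ ⊔ K ≤ U ⊓ (Θ' ⊔ K).comap G.del ⊔ (Θ ⊔ K) := by
    rw [sup_assoc]
    exact sup_le_sup_right (inf_le_inf_left _ (comap_mono le_sup_left)) _
  have m9 : Θ' ≤ U ⊓ (Θ' ⊔ K).comap G.del :=
    le_inf (l2.trans l3) ((map_le_iff_le_comap.1 hΘ'.2).trans (comap_mono le_sup_left))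
  have m10 : Θ ≤ ((U ⊓ K).map G.del ⊔ Θ).comap G.del :=
    (map_le_iff_le_comap.1 hΘ.2).trans (comap_mono le_sup_right)
  have m11 : (U ⊓ (Θ' ⊔ K).comap G.del).map G.del ≤ U := (map_mono inf_le_left).trans hU.2
  have r1 : R0 ≤ Θ := l0.trans l2
  have r2 : R0 ≤ (U ⊓ K).map G.del ⊔ Θ ⊓ K := le_sup_of_le_right (le_inf r1 k0)
  have mΘ : Θ ≤ U ⊓ Θ'.comap G.del ⊔ Θ := le_sup_right
  have mΘ' : Θ ≤ U.map G.del ⊔ Θ := le_sup_right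
  have mΘ'' : Θ ≤ (U ⊓ K).map G.del ⊔ Θ := le_sup_right
  have mU : (U ⊓ K).map G.del ≤ (U ⊓ K).map G.del ⊔ Θ ⊓ K := le_sup_left
  have eW : (U ⊓ K).map G.del ⊔ Θ ≤ ((U ⊓ K).map G.del ⊔ Θ ⊓ K) ⊔ Θ := sup_le_sup_right mU _
  have mZ : U ⊓ (Θ' ⊔ K).comap G.del ≤ U := inf_le_left
  generalize U ⊓ Θ'.comap G.del ⊔ Θ = PB at *
  generalize U.map G.del ⊔ Θ = QB at *
  generalize U ⊓ K ⊓ (Θ' ⊓ K).comap G.del ⊔ Θ ⊓ K = PA at *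
  generalize (U ⊓ K).map G.del ⊔ Θ ⊓ K = QA at *
  generalize (U ⊓ K).map G.del ⊔ Θ = W at *
  generalize U ⊓ (Θ' ⊔ K).comap G.del = Z at *
  have tP := m2.trans l4
  have gQC := gQB.sup hK.1
  -- B
  have b1 := DG.chi_chain L hG gPB (gPB.inf gQC) (r1.trans mΘ') (le_inf m1 le_sup_left)
    inf_le_left tP
  have b2 := DG.chi_congr_left L hG (gPB.inf gQC) (gPA.sup gQB) (r1.trans mΘ')
    (le_inf m1 le_sup_left) le_sup_right (inf_le_left.trans tP) ((sup_le m3 m1).trans tP) EB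
    (ALE.of_le (le_inf (sup_le m3 m1) (sup_le (le_sup_of_le_right m4) le_sup_left)))
  rw [DG.chi_inf L gPB, b2, DG.chi_sup L gQB le_rfl] at b1
  -- C
  have c1 := DG.chi_chain L hG (gZ.sup (hΘ.1.sup hK.1)) (gPB.sup hK.1) (le_sup_of_le_right k0)
    (sup_le_sup_right m1 K) m8 (sup_le (mZ.trans l4) (sup_le (l3.trans l4) k1))
  rw [DG.chi_sup L (gPB.sup hK.1) (sup_le_sup_right mΘ K), DG.chi_sup L gQC le_sup_right,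
    ← DG.chi_inf L gZ] at c1
  -- A
  have a1 := DG.chi_chain L hG gPA (gPA.inf gQB) r2 (le_inf m5 (m7.trans m6)) inf_le_left
    (m4.trans k1)
  have a2 : G.chi L (PA ⊓ QB) QA = G.chi L (PA ⊓ QB) W := by
    rw [← DG.chi_inf L (Q := W) (gPA.inf gQB), le_antisymm (a := PA ⊓ QB ⊓ W) (b := QA)
      (fun v hv => KW v (m4 hv.1.1) hv.2) (le_inf (le_inf m5 (m7.trans m6)) m7)]
  have a3 := DG.chi_congr_left L hG ((gPA.inf gQB).sup hΘ.1) (gZ.map_del.sup gW)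
    (r1.trans mΘ'') (eW.trans (sup_le_sup_right (le_inf m5 (m7.trans m6)) _)) le_sup_right
    (sup_le (inf_le_left.trans (m4.trans k1)) (l3.trans l4))
    (sup_le (m11.trans l4) ((m6.trans m1).trans tP))
    ((EA2.trans (ALE.of_le (sup_le_sup_left mΘ'' _))).sup (ALE.of_le (le_sup_of_le_right mΘ'')))
    (ALE.of_le (sup_le EA1 (eW.trans (sup_le_sup_right (le_inf m5 (m7.trans m6)) _))))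
  rw [DG.chi_sup L gW mΘ'', DG.chi_sup L gW le_rfl, DG.chi_map L hG, ← DG.chi_inf L gZ] at a3
  rw [DG.chi_inf L gPA, a2, a3] at a1
  have e := DG.chi_congr_right L hG gZ (gZ.inf gW.comap_del) (gZ.inf (gPB.sup hK.1))
    (le_inf (l0.trans m9) (r1.trans m10)) (le_inf (l0.trans m9) (le_sup_of_le_right k0))
    inf_le_left inf_le_left (mZ.trans l4) ((ALE.of_le inf_le_left).inf EC2)
    (ALE.of_le (le_inf inf_le_left ((inf_le_inf_right _ mZ).trans EC1)))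
  linarith

end abs

/-- Additivity along `0 → K → T → T / K → 0`.

Notation: `U = F a`, `Θ = F t`, `Θ' = F (t + n0)`, `Θ'' = F (t + 2 n0)`; for `X ∈ {A, B, C}` (`B = Φ`) let
`Z'_X = U_X ⊓ comap ∂ Θ'_X`, `Z''_X` likewise, `P_X = Z'_X ⊔ Θ_X`, `Q_X = map ∂ U_X ⊔ Θ_X`,
`Q'_X = map ∂ U_X ⊔ Θ'_X`, so `cx_X = chi P_X Q_X`.  Use the `chi` calculus with `hG := Φ.good`.
Two facts hold for every `Filt` (prove them once):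
* (S1) `Z'` is almost in `Z'' ⊔ Θ` (`ale_bd`; boundaries are cycles);
* (S2) `Z'' ⊓ Q` is almost in `Q'`: `z = ∂ u + θ`, `∂ θ ∈ Θ''`, `hZ (t - n0) (t + n0)` and `F (t - n0) ≤ U`.
Note `Q_C = Q_B ⊔ K`, `Q'_C = Q'_B ⊔ K`, and with `Zt = U ⊓ comap ∂ (Θ' ⊔ K)`: `P_C = Zt ⊔ Θ ⊔ K`.
* (EB) `P_B ⊓ Q_C` is almost equal to `Z'_A ⊔ Q_B`.  (`⊆`: by S1 reduce to `z ∈ Z''_B ⊓ Q_C`; S2 for `C` gives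
  `α^c z = ∂ u + θ' + κ` with `κ ∈ K ⊓ U`, `∂ κ ∈ Θ' ⊓ K`.)  Hence
  `cx_B = chi (P_B ⊔ Q_C) Q_C + chi P_A (P_A ⊓ Q_B)`, while `cx_C = chi P_C (P_B ⊔ Q_C) + chi (P_B ⊔ Q_C) Q_C`
  and `cx_A = chi P_A (P_A ⊓ Q_B) + chi (P_A ⊓ Q_B) Q_A`.  It remains to show
  `chi (P_A ⊓ Q_B) Q_A = - chi P_C (P_B ⊔ Q_C)`.
* `chi (P_A ⊓ Q_B) Q_A = chi ((P_A ⊓ Q_B) ⊔ Θ) (Q_A ⊔ Θ)` because `K ⊓ (Q_A ⊔ Θ) = Q_A`.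
* (EA) `(P_A ⊓ Q_B) ⊔ Θ` is almost equal to `map ∂ Zt ⊔ (Q_A ⊔ Θ)`.  (`⊇`: `∂ z = θ' + κ`, `κ ∈ Z'_A ⊓ Q_B`.
  `⊆`: S1 for `A` reduces to `κ ∈ Z''_A ⊓ Q_B`, S2 for `B` gives `α^c κ = ∂ u + θ'`, so `u ∈ Zt`.)
  By `chi_sup`, `chi_map`, `chi_inf` this is `- chi Zt (Zt ⊓ comap ∂ (Q_A ⊔ Θ))`, and
  `chi P_C (P_B ⊔ Q_C) = chi Zt (Zt ⊓ (P_B ⊔ Q_C))`.
* (EC) `Zt ⊓ comap ∂ (Q_A ⊔ Θ)` is almost equal to `Zt ⊓ (P_B ⊔ Q_C)`.  (`⊇` is exact.  `⊆`: let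
  `∂ z = ∂ κ + θ`; S1 for `C` gives `α^c z = z'' + θ1 + κ1` with `z'' ∈ U`, `∂ z'' = θ'' + κ2`; then
  `κ2 ∈ Z''_A ⊓ Q_A`, S2 for `A` gives `α^c' κ2 = ∂ κ3 + θ'3`, so `α^c' z'' - κ3 ∈ Z'_B`.) -/
theorem Filt.cx_add (Φ ΦA ΦC : Filt L G bot top n0) {K : Submodule Λ E} (hK : G.Sub K)
    (hK1 : Φ.F top ≤ K) (hK2 : K ≤ Φ.F bot)
    (hA : ∀ b, bot ≤ b → b ≤ top → ΦA.F b = Φ.F b ⊓ K)
    (hC : ∀ b, bot ≤ b → b ≤ top → ΦC.F b = Φ.F b ⊔ K)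
    {a t : ℤ} (ha : bot + n0 ≤ a) (ht : a + n0 ≤ t) (htop : t + 2 * n0 ≤ top) :
    Φ.cx (Φ.F a) t = ΦA.cx (ΦA.F a) t + ΦC.cx (ΦC.F a) t := by
  have A1 := xa_S1 ΦA ha ht htop
  have A2 := xa_S2 ΦA ha ht htop
  have C1 := xa_S1 ΦC ha ht htop
  have C2 := xa_S2 ΦC ha ht htop
  unfold Filt.cx
  rw [hA a (by omega) (by omega), hA t (by omega) (by omega),
    hA (t + n0) (by omega) (by omega)] at *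
  rw [hC a (by omega) (by omega), hC t (by omega) (by omega),
    hC (t + n0) (by omega) (by omega)] at *
  rw [hA (t + n0 + n0) (by omega) (by omega)] at A1 A2
  rw [hC (t + n0 + n0) (by omega) (by omega)] at C1 C2
  exact xa_main Φ.good (Φ.sub _) (Φ.sub _) (Φ.sub _) (Φ.sub _) hK (Φ.anti (by omega))
    (Φ.anti (by omega)) (Φ.anti (by omega)) (Φ.anti (by omega)) (Φ.anti (by omega)) hK1 hK2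
    A1 (xa_S1 Φ ha ht htop) C1 A2 (xa_S2 Φ ha ht htop) C2

end Crest.Agent.R183
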