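import Crest.Agent.R183.MonoZ2
import Crest.Agent.R183.XAdd
import Crest.Agent.R183.Const

/-!
# rid 183, file `CoreF`: the invariant `F c` of the line bundle `O(c)` and its difference equations

Prefix helper lemmas with `cf_`.
-/

set_option autoImplicit false

open Submodule

namespace Crest.Agent.R183

/-- Numerical constants: `n0`, bottom, level, top, window length. -/
def cN0 (m N : ℕ) : ℕ := (m + 1) * N
def cBot (m q N : ℕ) : ℤ := -(((m + 1) * q + cN0 m N : ℕ) : ℤ)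
def cLev (m N : ℕ) : ℤ := cN0 m N + 1
def cTop (m N : ℕ) : ℤ := 3 * cN0 m N + 3
def cWin (m q N : ℕ) : ℕ := (m + 1) * q + 4 * cN0 m N + 3

/-- The standing hypotheses of the core inequality. -/
structure CoreHyp {Λ : Type} [CommRing Λ] {α : Λ} (L : GLen Λ α) {m : ℕ} {P : Type} [AddCommGroup P]
    [Module Λ P] (C : Cx Λ (m + 1) P) (y : Fin (m + 1) → Λ) (q N : ℕ) : Prop where
  good : L.G P
  kz : KZ (cWin m q N) y P
  deep : LinearMap.range C.D ≤ ism (idl y ^ q) P
  nul : ∀ i, C.Nul (α ^ 2 * y i ^ N)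
  euler : ∑ i ∈ Finset.range (m + 2), (-1 : ℝ) ^ i * L.l (P ⧸ C.top y i) = 0

variable {Λ : Type} [CommRing Λ] {α : Λ} {L : GLen Λ α} {m : ℕ} {P : Type} [AddCommGroup P]
  [Module Λ P] {C : Cx Λ (m + 1) P} {y : Fin (m + 1) → Λ} {q N : ℕ}

/-- The filtration of a box shape with bottom `bot ≥ cBot`. -/
noncomputable def CoreHyp.filt (h : CoreHyp L C y q N) (c g : Fin m → ℤ) (Pt : Finset (Fin m)) (bot : ℤ)
    (hb : cBot m q N ≤ bot) (hg : BoxOK c g Pt bot) :
    Filt L (monoDG C) bot (cTop m N) (cN0 m N) where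
  F := (box c g Pt bot).Fil C y
  sub := fun _ => Shape.U_sub _ C y h.deep (Shape.stair_closed _ fun _ => by simp)
  anti := fun _ _ hab => Shape.U_mono _ C y fun _ _ _ hu =>
    hu.elim (fun hu => Or.inl ⟨hu.1, hab.trans hu.2⟩) Or.inr
  good := Shape.Fil_good _ C y L h.good _ _
  hZ := fun a b h1 h2 h3 => box_hZ h.kz C h.deep h.nul hg
    (by simp only [cBot, cTop, cWin] at hb ⊢; push_cast at hb ⊢; omega) a b h1 h2 h3

/-- The invariant of `O(c)` computed with truncation `g`. -/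
noncomputable def fval (L : GLen Λ α) (C : Cx Λ (m + 1) P) (y : Fin (m + 1) → Λ) (q N : ℕ)
    (c g : Fin m → ℤ) (Pt : Finset (Fin m)) : ℝ :=
  (monoDG C).cx L ((box c g Pt (cBot m q N)).Fil C y 0) ((box c g Pt (cBot m q N)).Fil C y (cLev m N))
    ((box c g Pt (cBot m q N)).Fil C y (cLev m N + cN0 m N))

/-- A canonical truncation. -/
def gstd (m q N : ℕ) (c : Fin m → ℤ) : Fin m → ℤ := fun j => max (c j + 1) (-cBot m q N)

/-- The invariant of `O(c)`. -/
noncomputable def Fval (L : GLen Λ α) (C : Cx Λ (m + 1) P) (y : Fin (m + 1) → Λ) (q N : ℕ)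
    (c : Fin m → ℤ) : ℝ := fval L C y q N c (gstd m q N c) ∅

section aux

variable {E : Type} [AddCommGroup E] [Module Λ E] {G : DG Λ E}

/-- Adding a subcomplex `R` meeting the filtration only in its top. -/
noncomputable def cf_ext {bot top : ℤ} {n0 : ℕ} (Ψ : Filt L G bot top n0) (R : Submodule Λ E)
    (hR : G.Sub R) (h1 : Ψ.F bot ⊓ R ≤ Ψ.F top) (hg : L.G2 (Ψ.F bot ⊔ R) (Ψ.F top ⊔ R)) :
    Filt L G bot top n0 where
  F := fun b => Ψ.F b ⊔ R
  sub := fun b => (Ψ.sub b).sup hR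
  anti := fun _ _ hab => sup_le_sup_right (Ψ.anti hab) R
  good := hg
  hZ := fun a b ha hab hb => by
    obtain ⟨c, hc⟩ := Ψ.hZ a b ha hab hb
    refine ⟨c, fun v hv => ?_⟩
    obtain ⟨hv, hv'⟩ := hv
    obtain ⟨u, hu, ρ, hρ, rfl⟩ := mem_sup.1 hv
    obtain ⟨θ, hθ, ρ', hρ', e⟩ := mem_sup.1 (mem_comap.1 hv')
    have a1 : G.del u - θ ∈ Ψ.F bot :=
      (Ψ.F bot).sub_mem (Ψ.anti (by omega : bot ≤ a + n0) ((Ψ.sub _).2 ⟨u, hu, rfl⟩))
        (Ψ.anti (by omega : bot ≤ b + n0) hθ)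
    have a2 : G.del u - θ ∈ R := by
      rw [map_add] at e
      rw [show G.del u - θ = ρ' - G.del ρ by rw [sub_eq_sub_iff_add_eq_add, ← e, add_comm]]
      exact R.sub_mem hρ' (hR.2 ⟨ρ, hρ, rfl⟩)
    have a3 := (Ψ.F (b + n0)).add_mem (Ψ.anti hb (h1 ⟨a1, a2⟩)) hθ
    rw [sub_add_cancel] at a3
    rw [smul_add]
    refine add_mem ?_ (mem_sup_right (mem_sup_right (R.smul_mem _ hρ)))
    exact (sup_le_sup (map_mono le_sup_left) le_sup_left : (Ψ.F a).map G.del ⊔ Ψ.F b ≤ _)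
      (hc u ⟨hu, a3⟩)

/-- Acyclicity in every degree gives acyclicity. -/
theorem cf_acyc {U V : Submodule Λ E} (hU : G.Sub U) (hV : G.Sub V)
    (ha : ∀ j : ℤ, ∀ z ∈ U, G.π j z = z → G.del z ∈ V → z ∈ U.map G.del ⊔ V) :
    U ⊓ V.comap G.del ≤ U.map G.del ⊔ V := by
  intro z hz
  refine DG.mem_of_π (G := G) fun j => ?_
  have h := (hU.1.inf hV.1.comap_del) j ⟨z, hz, rfl⟩
  exact ha j _ h.1 (DG.l2_idem j z) h.2

end aux

theorem cf_stable_sum {A : Set (UU m)} (hA : Stable A) {ι : Type} (s : Finset ι)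
    (l : ι → Finset (Fin m)) {u : UU m} (hu : u ∈ A) : u + ∑ k ∈ s, gam (l k) ∈ A := by
  classical
  induction s using Finset.induction_on with
  | empty => simpa using hu
  | insert k s hk ih =>
    rw [Finset.sum_insert hk, add_comm (gam (l k)), ← add_assoc]
    exact hA _ ih _

theorem cf_stair_sub (s : Shape m) (ι : ℕ → ℤ) (i : ℕ) (I : Finset (Fin m)) :
    s.stair ι i I ⊆ s.A1 I := fun _ hu => hu.elim (fun h => h.1) fun h => s.sub I h

theorem cf_closed (s : Shape m) (a : ℤ) : s.Closed q (s.stair fun _ => a) :=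
  Shape.stair_closed _ fun _ => by simp

theorem cf_win (s : Shape m) {n : ℕ} {a : ℤ} (ha : a ≤ s.bot + n) : s.Win n (s.stair fun _ => a) :=
  fun _ _ _ hu h => Or.inl ⟨hu, ha.trans h⟩

/-- The staircase together with all the monomials of a smaller shape. -/
def cf_fam (s s' : Shape m) (b : ℤ) : Fam m := fun i I => s.stair (fun _ => b) i I ∪ s'.A1 I

theorem cf_fam_closed {s s' : Shape m} (h1 : ∀ I, s'.A1 I ⊆ s.A1 I) (b : ℤ) :
    s.Closed q (cf_fam s s' b) where
  lo := fun _ _ _ hu => Or.inl (Or.inr hu)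
  hi := fun i I _ hu => hu.elim (fun h => cf_stair_sub s _ i I h) fun h => h1 I h
  st := fun i I u hu J => hu.elim (fun h => Or.inl ((cf_closed (q := 0) s b).st i I u h J))
    fun h => Or.inr (s'.st1 I u h J)
  mono := fun i I j _ hu => hu.elim (fun h => Or.inl ((cf_closed (q := 0) s b).mono i I j h))
    fun h => Or.inr (s'.mono1 I j h)
  dcl := fun i I u hu l => hu.elim (fun h => Or.inl ((cf_closed s b).dcl i I u h l))
    fun h => Or.inr (cf_stable_sum (s'.st1 I) _ l h)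

theorem cf_fam_anti (s s' : Shape m) {a b : ℤ} (hab : a ≤ b) (i : ℕ) (I : Finset (Fin m)) :
    cf_fam s s' b i I ⊆ cf_fam s s' a i I := fun _ hu =>
  hu.elim (fun h => Or.inl (h.elim (fun h => Or.inl ⟨h.1, hab.trans h.2⟩) Or.inr)) Or.inr

theorem cf_fil_anti (s : Shape m) {a b : ℤ} (hab : a ≤ b) : s.Fil C y b ≤ s.Fil C y a :=
  Shape.U_mono _ C y fun _ _ _ hu => hu.elim (fun hu => Or.inl ⟨hu.1, hab.trans hu.2⟩) Or.inr

theorem cf_restrict {n : ℕ} (hK : KZ n y P) {s s' : Shape m} (h1 : ∀ I, s'.A1 I ⊆ s.A1 I)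
    (h2 : ∀ I, s'.A2 I ⊆ s.A2 I) (h3 : ∀ I, ∀ u ∈ s.A2 I, u ∈ s'.A1 I → u ∈ s'.A2 I) (a : ℤ) {b : ℤ}
    (hb : b ≤ s.bot + n) : s'.Fil C y a ⊓ s.Fil C y b ≤ s'.Fil C y b := by
  have e := Shape.U_restrict s C hK s' h1 h2 (cf_closed (q := 0) s b) (cf_win s hb)
  have l1 : s'.Fil C y a ≤ s'.U C y (fun _ I => s'.A1 I) :=
    Shape.U_mono _ C y fun i I => cf_stair_sub s' _ i I
  refine (inf_le_inf_right _ l1).trans (e.le.trans (Shape.U_mono _ C y fun i I u hu => ?_))
  exact hu.1.elim (fun h => Or.inl ⟨hu.2, h.2⟩) fun h => Or.inr (h3 I u h hu.2)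

/-- The exact sequence attached to a subshape. -/
theorem cf_seq {n : ℕ} (hK : KZ n y P) {s s' : Shape m} {bot top : ℤ} {n0 : ℕ}
    (hbot : s'.bot = bot) (htop : top ≤ s.bot + n) (h1 : ∀ I, s'.A1 I ⊆ s.A1 I)
    (h2 : ∀ I, s'.A2 I ⊆ s.A2 I) (h3 : ∀ I, ∀ u ∈ s.A2 I, u ∈ s'.A1 I → u ∈ s'.A2 I)
    (Φ Ψ ΦC : Filt L (monoDG C) bot top n0) (hΦ : ∀ b, Φ.F b = s.Fil C y b)
    (hΨ : ∀ b, Ψ.F b = s'.Fil C y b) (hC : ∀ b, ΦC.F b = s.U C y (cf_fam s s' b))
    {a t : ℤ} (ha : bot + n0 ≤ a) (ht : a + n0 ≤ t) (htop' : t + 2 * n0 ≤ top) :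
    Φ.cx (Φ.F a) t = Ψ.cx (Ψ.F a) t + ΦC.cx (ΦC.F a) t := by
  have hbt : bot ≤ top := by omega
  have eb : ∀ i I, s'.stair (fun _ => bot) i I = s'.A1 I := fun i I =>
    Set.Subset.antisymm (cf_stair_sub s' _ i I) fun u hu => Or.inl ⟨hu, hbot ▸ s'.bdd I u hu⟩
  have ex : ∀ b, s'.Fil C y b ⊔ s.Fil C y top =
      s.U C y fun i I => s'.stair (fun _ => b) i I ∪ s.stair (fun _ => top) i I := fun b =>
    Shape.U_extend s C s' h1 h2 (fun i I => cf_stair_sub s' _ i I) fun i I => cf_stair_sub s _ i I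
  have eK : Ψ.F bot ⊔ Φ.F top = s.U C y (cf_fam s s' top) := by
    rw [hΨ, hΦ, ex]
    congr 1
    funext i I
    rw [eb, Set.union_comm]
    rfl
  have hle : Ψ.F bot ⊔ Φ.F top ≤ Φ.F bot := by
    rw [eK, hΦ]
    refine Shape.U_mono _ C y fun i I u hu => ?_
    refine hu.elim (fun h => h.elim (fun h => Or.inl ⟨h.1, hbt.trans h.2⟩) Or.inr) fun h => ?_
    exact Or.inl ⟨h1 I h, hbot ▸ s'.bdd I u h⟩
  have hr : Ψ.F bot ⊓ Φ.F top ≤ Ψ.F top := by
    rw [hΨ, hΨ, hΦ]
    exact cf_restrict hK h1 h2 h3 bot htop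
  have key := Filt.cx_add Φ (cf_ext Ψ (Φ.F top) (Φ.sub top) hr (L.G2_mono Φ.good hle le_sup_right)) ΦC
    (K := Ψ.F bot ⊔ Φ.F top) ((Ψ.sub bot).sup (Φ.sub top)) le_sup_right hle
    (fun b hb hb' => ?_) (fun b hb hb' => ?_) ha ht htop'
  · rw [key]
    congr 1
    exact DG.cx_sub L (Ψ.sub bot) (Φ.sub top) (Ψ.sub a) (Ψ.sub t) (Ψ.sub _)
      (hr.trans (Ψ.anti (by omega))) (Ψ.anti (by omega)) (Ψ.anti (by omega)) (Ψ.anti (by omega))
  · change Ψ.F b ⊔ Φ.F top = _
    rw [eK, hΨ, hΦ, hΦ, ex]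
    refine Eq.trans ?_ (Shape.U_inf s C hK (cf_closed (q := 0) s b) (cf_fam_closed h1 top)
      (cf_win s (hb'.trans htop)) fun i I u hu h => Or.inl (cf_win s htop i I u hu h)).symm
    congr 1
    funext i I
    ext u
    constructor
    · rintro ((h | h) | h)
      · exact ⟨Or.inl ⟨h1 I h.1, h.2⟩, Or.inr h.1⟩
      · exact ⟨Or.inr (h2 I h), Or.inr (s'.sub I h)⟩
      · exact ⟨h.elim (fun h => Or.inl ⟨h.1, hb'.trans h.2⟩) Or.inr, Or.inl h⟩
    · rintro ⟨h | h, h' | h'⟩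
      · exact Or.inr h'
      · exact Or.inl (Or.inl ⟨h', h.2⟩)
      · exact Or.inr h'
      · exact Or.inr (Or.inr h)
  · rw [eK, hC, hΦ]
    refine Eq.trans ?_ (Shape.U_sup s C y _ _ (fun i I => cf_stair_sub s _ i I)
      (cf_fam_closed (q := 0) h1 top).hi).symm
    congr 1
    funext i I
    refine Set.Subset.antisymm (fun u hu => hu.elim Or.inl fun h => Or.inr (Or.inr h)) ?_
    exact Set.union_subset Set.subset_union_left (cf_fam_anti s s' hb' i I)

theorem cf_top : cTop m N = cBot m q N + cWin m q N := by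
  simp only [cBot, cTop, cWin]
  push_cast
  ring

theorem cf_bot : cBot m q N + cN0 m N ≤ 0 := by
  simp only [cBot]
  push_cast
  have : (0 : ℤ) ≤ ((m : ℤ) + 1) * q := by positivity
  omega

theorem cf_fval (h : CoreHyp L C y q N) {c g : Fin m → ℤ} {Pt : Finset (Fin m)}
    (hg : BoxOK c g Pt (cBot m q N)) : fval L C y q N c g Pt =
      (h.filt c g Pt _ le_rfl hg).cx ((h.filt c g Pt _ le_rfl hg).F 0) (cLev m N) := rfl

/-- The quotient of two truncations is acyclic. -/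
theorem cf_elim (h : CoreHyp L C y q N) (c : Fin m → ℤ) {g g' : Fin m → ℤ}
    (hg : BoxOK c g ∅ (cBot m q N)) (hle : ∀ j, g j ≤ g' j) {a b : ℤ} (hab : a ≤ b)
    (hb : b ≤ cTop m N) (j : ℤ) (z : EE m P)
    (hz : z ∈ (box c g' ∅ (cBot m q N)).U C y
      (cf_fam (box c g' ∅ (cBot m q N)) (box c g ∅ (cBot m q N)) a))
    (hj : (monoDG C).π j z = z)
    (hd : (monoDG C).del z ∈ (box c g' ∅ (cBot m q N)).U C y
      (cf_fam (box c g' ∅ (cBot m q N)) (box c g ∅ (cBot m q N)) b)) :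
    z ∈ ((box c g' ∅ (cBot m q N)).U C y
      (cf_fam (box c g' ∅ (cBot m q N)) (box c g ∅ (cBot m q N)) a)).map (monoDG C).del ⊔
      (box c g' ∅ (cBot m q N)).U C y
      (cf_fam (box c g' ∅ (cBot m q N)) (box c g ∅ (cBot m q N)) b) := by
  have h1 : ∀ I, (box c g ∅ (cBot m q N)).A1 I ⊆ (box c g' ∅ (cBot m q N)).A1 I :=
    fun I u hu => ⟨hu.1, hu.2.1, fun j => (hu.2.2.1 j).trans (hle j), hu.2.2.2⟩
  refine Shape.elim _ C h.kz h.deep (cf_fam_closed h1 a) (cf_fam_closed h1 b)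
    (cf_fam_anti _ _ hab) (fun i I u hu h' => Or.inl (cf_win _ (hb.trans cf_top.le) i I u hu h')) j
    (fun i _ u => ?_) hz hj hd
  by_cases hu : cBot m q N ≤ u.1 ∧ ∃ j0, g j0 < u.2 j0 - u.1
  · obtain ⟨hu, j0, hj0⟩ := hu
    have hk := hg j0 (Finset.notMem_empty _)
    have e : ∀ I, u ∈ cf_fam (box c g' ∅ (cBot m q N)) (box c g ∅ (cBot m q N)) a i I \
        cf_fam (box c g' ∅ (cBot m q N)) (box c g ∅ (cBot m q N)) b i I ↔
        Live c g' ∅ (cBot m q N) u I ∧ a ≤ u.1 ∧ u.1 < b := by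
      intro I
      have hn : u ∉ (box c g ∅ (cBot m q N)).A1 I := fun h => absurd (h.2.2.1 j0) (not_le.2 hj0)
      constructor
      · rintro ⟨(h | h) | h, h'⟩
        · exact ⟨⟨h.1, fun h2 => h' (Or.inl (Or.inr h2))⟩, h.2,
            not_le.1 fun h2 => h' (Or.inl (Or.inl ⟨h.1, h2⟩))⟩
        · exact absurd (Or.inl (Or.inr h)) h'
        · exact absurd h hn
      · rintro ⟨h, h', h''⟩
        refine ⟨Or.inl (Or.inl ⟨h.1, h'⟩), ?_⟩
        rintro ((h3 | h3) | h3)
        · exact absurd h3.2 (not_le.2 h'')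
        · exact h.2 h3
        · exact hn h3
    refine Or.inl ⟨j0, fun I hI => ?_⟩
    rw [e, e, live_toggle c g' ∅ _ u (Finset.notMem_empty j0) (by omega) (by omega) I hI]
  · refine Or.inr fun I hI => absurd ?_ hI.2
    have h2 := (cf_fam_closed (q := 0) h1 a).hi i I hI.1
    refine Or.inr ⟨h2.1, h2.2.1, fun j0 => not_lt.1 fun h3 => hu ⟨h2.2.1, j0, h3⟩, h2.2.2.2⟩

theorem cf_indep (h : CoreHyp L C y q N) (c g g' : Fin m → ℤ) (hg : BoxOK c g ∅ (cBot m q N))
    (hle : ∀ j, g j ≤ g' j) : fval L C y q N c g' ∅ = fval L C y q N c g ∅ := by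
  have hg' : BoxOK c g' ∅ (cBot m q N) := fun j hj =>
    ⟨(hg j hj).1.trans (hle j), (hg j hj).2.trans (by linarith [hle j])⟩
  have h1 : ∀ I, (box c g ∅ (cBot m q N)).A1 I ⊆ (box c g' ∅ (cBot m q N)).A1 I :=
    fun I u hu => ⟨hu.1, hu.2.1, fun j => (hu.2.2.1 j).trans (hle j), hu.2.2.2⟩
  have hsub : ∀ b, (monoDG C).Sub ((box c g' ∅ (cBot m q N)).U C y
      (cf_fam (box c g' ∅ (cBot m q N)) (box c g ∅ (cBot m q N)) b)) := fun b =>
    Shape.U_sub _ C y h.deep (cf_fam_closed h1 b)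
  have hanti : Antitone fun b => (box c g' ∅ (cBot m q N)).U C y
      (cf_fam (box c g' ∅ (cBot m q N)) (box c g ∅ (cBot m q N)) b) := fun a b hab =>
    Shape.U_mono _ C y (cf_fam_anti _ _ hab)
  let ΦC : Filt L (monoDG C) (cBot m q N) (cTop m N) (cN0 m N) :=
    { F := fun b => (box c g' ∅ (cBot m q N)).U C y
        (cf_fam (box c g' ∅ (cBot m q N)) (box c g ∅ (cBot m q N)) b)
      sub := hsub
      anti := hanti
      good := L.G2_mono (h.filt c g' ∅ _ le_rfl hg').good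
        (Shape.U_mono _ C y fun i I u hu =>
          have h2 := (cf_fam_closed (q := 0) h1 _).hi i I hu
          Or.inl ⟨h2, h2.2.1⟩)
        (Shape.U_mono _ C y fun i I u hu => Or.inl hu)
      hZ := fun a b _ hab hb => ALE.of_le
        ((inf_le_inf (hanti (by omega)) (comap_mono (hanti (by omega)))).trans
          (cf_acyc (hsub a) (hsub b) fun j z => cf_elim h c hg hle hab (by omega) j z)) }
  have hb := cf_bot (m := m) (q := q) (N := N)
  have hl : cLev m N = cN0 m N + 1 := rfl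
  have ht : cTop m N = 3 * cN0 m N + 3 := rfl
  have key := cf_seq h.kz (s := box c g' ∅ (cBot m q N)) (s' := box c g ∅ (cBot m q N))
    (bot := cBot m q N) (top := cTop m N) rfl cf_top.le h1
    (fun I u hu => ⟨h1 I hu.1, hu.2⟩) (fun I u hu hu' => ⟨hu', hu.2⟩)
    (h.filt c g' ∅ _ le_rfl hg') (h.filt c g ∅ _ le_rfl hg) ΦC (fun _ => rfl) (fun _ => rfl)
    (fun _ => rfl) (a := 0) (t := cLev m N) hb (by omega) (by omega)
  rw [ΦC.cx_eq_zero (ΦC.sub 0) (ΦC.anti (by omega)) (ΦC.anti (by omega)) (by omega)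
    (fun j z => cf_elim h c hg hle (by omega) (by omega) j z), add_zero] at key
  rw [cf_fval h hg, cf_fval h hg']
  exact key

/-- Translation of a whole shape. -/
theorem cf_shift (s s' : Shape m) (v : UU m) (h1 : ∀ I u, u + v ∈ s'.A1 I ↔ u ∈ s.A1 I)
    (h2 : ∀ I u, u + v ∈ s'.A2 I ↔ u ∈ s.A2 I) (a t t' : ℤ) :
    (monoDG C).cx L (s'.Fil C y (a + v.1)) (s'.Fil C y (t + v.1)) (s'.Fil C y (t' + v.1))
      = (monoDG C).cx L (s.Fil C y a) (s.Fil C y t) (s.Fil C y t') := by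
  have e : ∀ b, s'.Fil C y (b + v.1) =
      (s.Fil C y b).map (Shape.shE Λ P v : EE m P →ₗ[Λ] EE m P) := fun b =>
    (Shape.U_shE s C s' v h1 h2 fun i I u =>
      or_congr (and_congr (h1 I u) (add_le_add_iff_right v.1)) (h2 I u)).symm
  rw [e, e, e]
  exact DG.cx_aut L _ (fun j w => Shape.shE_π C v j w) (fun w => Shape.shE_del C v w) _ _ _

theorem cf_gstd (c : Fin m → ℤ) : BoxOK c (gstd m q N c) ∅ (cBot m q N) := fun j _ =>
  ⟨(le_max_left _ _).trans' (by omega), by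
    have := le_max_right (c j + 1) (-cBot m q N)
    simp only [gstd]
    omega⟩

/-- Independence of the truncation.  Reduce to `g ≤ g'` (compare with `g ⊔ g'`).  Let `s = box c g ∅ bot`,
`s' = box c g' ∅ bot`, `Φ` the filtration of `s'`, `R = Φ.F top`, `K = s.Tot ⊔ R = s'.U (A1 ∪ stair' top)`
(`U_extend`).  `ΦA.F b := Φ.F b ⊓ K = s.Fil b ⊔ R` (`U_inf`, `U_extend`) satisfies (Z) because `s.Fil` does, and
`cx_sub` (with `T = s.Tot`, `T ⊓ R = s.Fil top` by `U_restrict`) identifies its `cx` with `fval c g`.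
`ΦC.F b := Φ.F b ⊔ K = s'.U (stair' b ∪ A1)` has acyclic subquotients by `Shape.elim` and `live_toggle` (a
monomial of `A1' \ A1` has `u.2 j - u.1 > g j` for some `j`), so it satisfies (Z) and `cx = 0`
(`cx_eq_zero`).  Apply `Filt.cx_add`.  (Alternatively argue directly, without `cx_add`.) -/
theorem fval_indep (h : CoreHyp L C y q N) (c g g' : Fin m → ℤ) (hg : BoxOK c g ∅ (cBot m q N))
    (hg' : BoxOK c g' ∅ (cBot m q N)) : fval L C y q N c g ∅ = fval L C y q N c g' ∅ := by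
  rw [← cf_indep h c g (fun j => max (g j) (g' j)) hg fun j => le_max_left _ _,
    ← cf_indep h c g' (fun j => max (g j) (g' j)) hg' fun j => le_max_right _ _]

/-- The exact sequence `0 → point → O(c) → O(c + e_k) → 0` of Čech models.  Let `s = box c g ∅ bot`,
`sC = box (c + e_k) g ∅ bot` (same `A1`, larger `A2`), `sA = box c (update g k (c k + 1)) {k} bot`,
`R = s.Fil top`, `K = sA.Tot ⊔ R`.  Then `s.Fil b ⊔ K = sC.Fil b` (`U_extend`, `U_sup`, `U_congr`: the sets
`stair b ∪ A1(sA)` and `stairC b` agree, since `A1(sA) I ⊆ A2(sC) I ⊆ A2 I ∪ A1(sA) I`), and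
`s.Fil b ⊓ K = sA.Fil b ⊔ R` (`U_inf`).  Conclude with `Filt.cx_add` and `cx_sub`. -/
theorem fval_step (h : CoreHyp L C y q N) (c g : Fin m → ℤ) (k : Fin m)
    (hg : BoxOK c g ∅ (cBot m q N)) (hk : c k + 1 ≤ g k) :
    fval L C y q N c g ∅ = fval L C y q N c (Function.update g k (c k + 1)) {k}
      + fval L C y q N (c + Pi.single k 1) g ∅ := by
  have hup : ∀ j, Function.update g k (c k + 1) j ≤ g j := fun j => by
    rcases eq_or_ne j k with rfl | hj
    · rwa [Function.update_self]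
    · rw [Function.update_of_ne hj]
  have hgA : BoxOK c (Function.update g k (c k + 1)) {k} (cBot m q N) := fun j hj => by
    rw [Function.update_of_ne (Finset.notMem_singleton.1 hj)]
    exact hg j (Finset.notMem_empty j)
  have hc : ∀ j, c j ≤ (c + Pi.single k 1 : Fin m → ℤ) j := fun j => by
    rcases eq_or_ne j k with rfl | hj
    · simp
    · simp [hj]
  have hgC : BoxOK (c + Pi.single k 1) g ∅ (cBot m q N) := fun j hj => by
    refine ⟨?_, (hg j hj).2⟩
    rcases eq_or_ne j k with rfl | hj'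
    · simpa using hk
    · simpa [hj'] using (hg j hj).1
  have h1 : ∀ I, (box c (Function.update g k (c k + 1)) {k} (cBot m q N)).A1 I ⊆
      (box c g ∅ (cBot m q N)).A1 I :=
    fun I u hu => ⟨Finset.empty_subset _, hu.2.1, fun j => (hu.2.2.1 j).trans (hup j), hu.2.2.2⟩
  have hb := cf_bot (m := m) (q := q) (N := N)
  have hl : cLev m N = cN0 m N + 1 := rfl
  have ht : cTop m N = 3 * cN0 m N + 3 := rfl
  rw [cf_fval h hg, cf_fval h hgA, cf_fval h hgC]
  refine cf_seq h.kz (s := box c g ∅ (cBot m q N))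
    (s' := box c (Function.update g k (c k + 1)) {k} (cBot m q N))
    (bot := cBot m q N) (top := cTop m N) rfl cf_top.le
    h1 (fun I u hu => ⟨h1 I hu.1, hu.2⟩) (fun I u hu hu' => ⟨hu', hu.2⟩)
    (h.filt c g ∅ _ le_rfl hg) (h.filt c _ {k} _ le_rfl hgA) (h.filt _ g ∅ _ le_rfl hgC)
    (fun _ => rfl) (fun _ => rfl) (fun b => ?_) (a := 0) (t := cLev m N) hb (by omega) (by omega)
  have e : (box (c + Pi.single k 1) g ∅ (cBot m q N)).stair (fun _ => b) =
      cf_fam (box c g ∅ (cBot m q N)) (box c (Function.update g k (c k + 1)) {k} (cBot m q N)) b := by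
    funext i I
    ext u
    constructor
    · rintro (hu | ⟨hu, j, hj, hj'⟩)
      · exact Or.inl (Or.inl hu)
      · rcases eq_or_ne j k with rfl | hjk
        · refine Or.inr ⟨Finset.singleton_subset_iff.2 hj, hu.2.1, fun j' => ?_, hu.2.2.2⟩
          rcases eq_or_ne j' j with rfl | hj''
          · simpa using hj'
          · rw [Function.update_of_ne hj'']
            exact hu.2.2.1 j'
        · exact Or.inl (Or.inr ⟨hu, j, hj, by simpa [hjk] using hj'⟩)
    · rintro ((hu | ⟨hu, j, hj, hj'⟩) | hu)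
      · exact Or.inl hu
      · exact Or.inr ⟨hu, j, hj, hj'.trans (hc j)⟩
      · exact Or.inr ⟨h1 I hu, k, Finset.singleton_subset_iff.1 hu.1, by simpa using hu.2.2.1 k⟩
  rw [← e]
  refine Shape.U_congr (box c g ∅ (cBot m q N)) C (box (c + Pi.single k 1) g ∅ (cBot m q N))
    (S := (box (c + Pi.single k 1) g ∅ (cBot m q N)).stair fun _ => b)
    (fun _ => rfl) (fun i I u hu => ?_) fun i I u hu => Or.inr hu
  obtain ⟨hu, j, hj, hj'⟩ := hu
  exact Or.inr ⟨hu, j, hj, hj'.trans (hc j)⟩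

/-- Translation of the exponent of `v_k` (`cx_aut` with `shE (0, e_k)`, `U_shE`; on the point shape `k ∈ I`
always, so there is no condition `0 ≤ u.2 k`). -/
theorem fval_point (c g : Fin m → ℤ) (k : Fin m) :
    fval L C y q N (c + Pi.single k 1) (Function.update g k (c k + 2)) {k}
      = fval L C y q N c (Function.update g k (c k + 1)) {k} := by
  have h1 : ∀ I (u : UU m), u + (0, Pi.single k 1) ∈
      boxA1 (Function.update g k (c k + 2)) {k} (cBot m q N) I ↔
      u ∈ boxA1 (Function.update g k (c k + 1)) {k} (cBot m q N) I := by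
    intro I u
    refine and_congr_right fun hI => and_congr (by simp) (and_congr (forall_congr' fun j => ?_)
      (forall_congr' fun j => forall_congr' fun hj => ?_))
    · rcases eq_or_ne j k with rfl | hj
      · simp only [Prod.snd_add, Prod.fst_add, Pi.add_apply, Pi.single_eq_same, Function.update_self]
        omega
      · simp [hj]
    · have hjk : j ≠ k := fun e => hj (e ▸ Finset.singleton_subset_iff.1 hI)
      simp [hjk]
  have key := cf_shift (L := L) (C := C) (y := y)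
    (box c (Function.update g k (c k + 1)) {k} (cBot m q N))
    (box (c + Pi.single k 1) (Function.update g k (c k + 2)) {k} (cBot m q N)) (0, Pi.single k 1) h1
    (fun I u => and_congr (h1 I u) (exists_congr fun j => and_congr_right fun _ => by
      simp only [Prod.snd_add, Prod.fst_add, Pi.add_apply]
      omega)) 0 (cLev m N) (cLev m N + cN0 m N)
  simp only [add_zero] at key
  exact key

/-- Diagonal invariance.  `shE (1, 0)` carries `box (c+1) (g+1) ∅ bot` to `box c g ∅ (bot + 1)` and raises the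
filtration index by one; `cx_sub` passes from bottom `bot + 1` to bottom `bot` (`R = Fil top`); `cx_succ` lowers
the level; `cx_diff` compares `Fil 1` with `Fil 0`, and `chi (Fil 0) (Fil 1) = 0` by `chi_U`, `stair_count` and
`euler`. -/
theorem fval_diag (h : CoreHyp L C y q N) (c g : Fin m → ℤ) (hg : BoxOK c g ∅ (cBot m q N)) :
    fval L C y q N (c + 1) (g + 1) ∅ = fval L C y q N c g ∅ := by
  have hb := cf_bot (m := m) (q := q) (N := N)
  have hl : cLev m N = cN0 m N + 1 := rfl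
  have ht : cTop m N = 3 * cN0 m N + 3 := rfl
  have h1 : ∀ I (u : UU m), u + (1, 0) ∈ boxA1 g ∅ (cBot m q N + 1) I ↔
      u ∈ boxA1 (g + 1) ∅ (cBot m q N) I := by
    intro I u
    refine and_congr_right fun hI => and_congr (by simp) (and_congr (forall_congr' fun j => ?_)
      (forall_congr' fun j => forall_congr' fun hj => by simp))
    simp only [Prod.snd_add, Prod.fst_add, Pi.add_apply, Pi.zero_apply, Pi.one_apply]
    omega
  have k1 := cf_shift (L := L) (C := C) (y := y) (box (c + 1) (g + 1) ∅ (cBot m q N))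
    (box c g ∅ (cBot m q N + 1)) (1, 0) h1
    (fun I u => and_congr (h1 I u) (exists_congr fun j => and_congr_right fun _ => by
      simp only [Prod.snd_add, Prod.fst_add, Pi.add_apply, Pi.zero_apply, Pi.one_apply]
      omega)) 0 (cLev m N) (cLev m N + cN0 m N)
  set s := box c g ∅ (cBot m q N) with hs
  set s' := box c g ∅ (cBot m q N + 1) with hs'
  have a1 : ∀ I, s'.A1 I ⊆ s.A1 I := fun I u hu =>
    ⟨hu.1, (Int.le_add_one le_rfl).trans hu.2.1, hu.2.2⟩
  have a2 : ∀ I, s'.A2 I ⊆ s.A2 I := fun I u hu => ⟨a1 I hu.1, hu.2⟩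
  have hsub : ∀ (s : Shape m) (b : ℤ), (monoDG C).Sub (s.Fil C y b) := fun s b =>
    Shape.U_sub _ C y h.deep (cf_closed s b)
  have ex : ∀ b, cBot m q N + 1 ≤ b → b ≤ cTop m N →
      s'.Fil C y b ⊔ s.Fil C y (cTop m N) = s.Fil C y b := by
    intro b hb1 hb2
    refine (Shape.U_extend s C s' a1 a2 (fun i I => cf_stair_sub s' _ i I)
      fun i I => cf_stair_sub s _ i I).trans ?_
    unfold Shape.Fil
    congr 1
    funext i I
    ext u
    constructor
    · rintro ((hu | hu) | hu | hu)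
      · exact Or.inl ⟨a1 I hu.1, hu.2⟩
      · exact Or.inr (a2 I hu)
      · exact Or.inl ⟨hu.1, hb2.trans hu.2⟩
      · exact Or.inr hu
    · rintro (hu | hu)
      · exact Or.inl (Or.inl ⟨⟨hu.1.1, hb1.trans hu.2, hu.1.2.2⟩, hu.2⟩)
      · exact Or.inr (Or.inr hu)
  have k2 := DG.cx_sub L (hsub s' 1) (hsub s (cTop m N)) (hsub s' 1) (hsub s' (cLev m N + 1))
    (hsub s' (cLev m N + 1 + cN0 m N))
    ((cf_restrict h.kz a1 a2 (fun I u hu hu' => ⟨hu', hu.2⟩) 1 cf_top.le).trans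
      (cf_fil_anti s' (by omega))) (cf_fil_anti s' (by omega)) (cf_fil_anti s' (by omega)) le_rfl
  rw [ex _ (by omega) (by omega), ex _ (by omega) (by omega), ex _ (by omega) (by omega)] at k2
  set Φ := h.filt c g ∅ _ le_rfl hg with hΦ
  have k3 := Φ.cx_succ (U := Φ.F 1) (t := cLev m N) (Φ.sub 1) (Φ.anti (by omega)) (Φ.anti (by omega))
    (by omega) (by omega)
  have k4 := Φ.cx_diff (U := Φ.F 0) (U' := Φ.F 1) (t := cLev m N) (Φ.sub 0) (Φ.sub 1)
    (Φ.anti (by omega)) (Φ.anti (by omega)) (Φ.anti (by omega)) (by omega) (by omega)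
  have k5 : (monoDG C).chi L (Φ.F 0) (Φ.F 1) = 0 := by
    refine (Shape.chi_U s C h.kz L h.good h.deep (cf_closed s 0) (cf_closed s 1)
      (fun i I u hu => hu.elim (fun hu => Or.inl ⟨hu.1, zero_le_one.trans hu.2⟩) Or.inr)
      (cf_win s (le_trans (by omega) cf_top.le))).trans ?_
    rw [← mul_zero (∑ a ∈ Finset.Ico (0 : ℤ) 1, ∏ j, ((c j + 1 + a : ℤ) : ℝ)), ← h.euler,
      Finset.mul_sum]
    refine Finset.sum_congr rfl fun i _ => ?_
    rw [← stair_count c g _ hg (ι := fun _ => 0) (ι' := fun _ => 1) i (by omega) zero_le_one,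
      Finset.sum_mul]
    refine Finset.sum_congr rfl fun I _ => ?_
    rw [pow_add]
    ring
  have k6 : fval L C y q N (c + 1) (g + 1) ∅ = Φ.cx (Φ.F 1) (cLev m N + 1) := by
    refine k1.symm.trans (Eq.trans ?_ k2.symm)
    rw [zero_add, add_right_comm]
  have k7 : fval L C y q N c g ∅ = Φ.cx (Φ.F 0) (cLev m N) := cf_fval h hg
  linarith

/-- `symm_const` applied to `Fval` (take one large `g` for `c`, `c + e_k`, `c + 2 e_k`). -/
theorem Fval_symm (h : CoreHyp L C y q N) (c c' : Fin m → ℤ) :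
    ∑ σ : Equiv.Perm (Fin m), Fval L C y q N (c ∘ σ)
      = ∑ σ : Equiv.Perm (Fin m), Fval L C y q N (c' ∘ σ) := by
  refine symm_const m (Fval L C y q N) (fun c k => ?_) (fun c => ?_) c c'
  · set g : Fin m → ℤ := fun j => max (c j + 2) (-cBot m q N) with hg
    have hδ : ∀ j, (Pi.single k 1 : Fin m → ℤ) j ≤ 1 ∧ 0 ≤ (Pi.single k 1 : Fin m → ℤ) j := fun j => by
      rcases eq_or_ne j k with rfl | hj
      · simp
      · simp [hj]
    have hg1 : ∀ j, c j + 2 ≤ g j := fun j => le_max_left _ _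
    have hg2 : ∀ j, -1 ≤ g j + cBot m q N := fun j => by
      have : -cBot m q N ≤ g j := le_max_right _ _
      omega
    have b0 : BoxOK c g ∅ (cBot m q N) := fun j _ => ⟨by linarith [hg1 j], hg2 j⟩
    have b1 : BoxOK (c + Pi.single k 1) g ∅ (cBot m q N) := fun j _ =>
      ⟨by rw [Pi.add_apply]; linarith [hg1 j, (hδ j).1], hg2 j⟩
    have b2 : BoxOK (c + Pi.single k 1 + Pi.single k 1) g ∅ (cBot m q N) := fun j _ =>
      ⟨by rw [Pi.add_apply, Pi.add_apply]; linarith [hg1 j, (hδ j).1], hg2 j⟩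
    have e : (c + Pi.single k 1 : Fin m → ℤ) k + 1 = c k + 2 := by
      rw [Pi.add_apply, Pi.single_eq_same]; ring
    have s0 := fval_step h c g k b0 (by linarith [hg1 k])
    have s1 := fval_step h (c + Pi.single k 1) g k b1 (by rw [e]; exact hg1 k)
    rw [e, fval_point] at s1
    unfold Fval
    rw [fval_indep h _ _ g (cf_gstd _) b0, fval_indep h _ _ g (cf_gstd _) b1,
      fval_indep h _ _ g (cf_gstd _) b2]
    linarith
  · unfold Fval
    rw [← fval_diag h c _ (cf_gstd c)]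
    refine fval_indep h _ _ _ (cf_gstd _) fun j hj => ?_
    have := cf_gstd (q := q) (N := N) c j hj
    simp only [Pi.add_apply, Pi.one_apply]
    omega

end Crest.Agent.R183
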