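import Crest.Agent.R183.Len
import Crest.Agent.R183.Asym

/-!
# rid 183, file `Grow`: dimension, systems of parameters, growth of Hilbert–Samuel functions

Prefix helper lemmas with `gw_`.  Useful Mathlib: `RingTheory/Ideal/KrullsHeightTheorem`
(`Ideal.exists_finset_card_eq_height_of_isNoetherianRing`, `ringKrullDim_le_spanFinrank_maximalIdeal`-type results,
`Ideal.height_le_card_of_mem_minimalPrimes_span_finset`), `RingTheory/KrullDimension/*`
(`ringKrullDim_quotient_succ_le_of_nonZeroDivisor`, `IsLocalRing.maximalIdeal_height_eq_ringKrullDim`),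
and `Crest.Agent.R169.DimInt` (`ringKrullDim_eq_of_isIntegral`) on origin/main.
-/

set_option autoImplicit false
set_option linter.unusedSectionVars false

open Filter IsLocalRing

namespace Crest.Agent.R183

variable {R : Type} [CommRing R] [IsNoetherianRing R] [IsLocalRing R] {d : ℕ}

theorem gw_ism_self {A : Type} [CommRing A] (J : Ideal A) : ism J A = J := by
  simp [ism]

theorem gw_len_congr {A A' W W' : Type} [CommRing A] [CommRing A'] [AddCommGroup W] [Module A W]
    [AddCommGroup W'] [Module A' W'] (h : Module.length A W = Module.length A' W') :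
    len A W = len A' W' := by
  unfold len
  rw [h]

theorem gw_gen (R : Type) [CommRing R] [IsNoetherianRing R] [IsLocalRing R] :
    ∃ (n : ℕ) (y : Fin n → R), idl y = maximalIdeal R :=
  Submodule.fg_iff_exists_fin_generating_family.1 (IsNoetherian.noetherian (maximalIdeal R))

theorem gw_colen_max (S : Type) [CommRing S] [IsLocalRing S] : colen S (maximalIdeal S) = 1 :=
  Module.length_eq_one_iff.2 (isSimpleModule_iff_isCoatom.2 (maximalIdeal.isMaximal S).out)

theorem gw_colen_pow (c : ℕ) : colen R (maximalIdeal R ^ c) ≠ ⊤ := by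
  obtain ⟨n, y, hy⟩ := gw_gen R
  have h := colen_idl_pow_le (W := R) y c ⊥
  rw [bot_sup_eq, bot_sup_eq, gw_ism_self, gw_ism_self, hy, gw_colen_max, mul_one] at h
  exact ne_top_of_le_ne_top (ENat.natCast_ne_top _) h

theorem gw_ne_top {Q : Type} [AddCommGroup Q] [Module R Q] [Module.Finite R Q]
    {U : Submodule R Q} {c : ℕ} (h : ism (maximalIdeal R ^ c) Q ≤ U) : colen R U ≠ ⊤ := by
  obtain ⟨μ, f, hf⟩ := Module.Finite.exists_fin' R Q
  exact ne_top_of_le_ne_top (WithTop.mul_ne_top (ENat.natCast_ne_top μ) (gw_colen_pow c))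
    ((colen_anti h).trans (colen_ism_le_of_gen f hf _))

theorem isFiniteLength_quot {Q : Type} [AddCommGroup Q] [Module R Q] [Module.Finite R Q]
    {U : Submodule R Q} {c : ℕ} (h : ism (maximalIdeal R ^ c) Q ≤ U) : IsFiniteLength R (Q ⧸ U) :=
  Module.length_ne_top_iff.1 (gw_ne_top h)

omit [IsNoetherianRing R] in
theorem gw_hsM_self (k : ℕ) : hsM R R k = hs R k := by
  unfold hsM
  rw [gw_ism_self]
  rfl

theorem hsM_self (k : ℕ) : hsM R R k = hs R k := gw_hsM_self k

theorem hsM_mono (Q : Type) [AddCommGroup Q] [Module R Q] [Module.Finite R Q] : Monotone (hsM R Q) :=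
  fun _ _ h => ln_cl_anti (gw_ne_top le_rfl) (ln_ism_mono (Ideal.pow_le_pow_right h))

theorem hs_mono : Monotone (hs R) := fun a b h => by
  rw [← hsM_self, ← hsM_self]
  exact hsM_mono R h

theorem hs_zero : hs R 0 = 0 := by
  have h : colen R (maximalIdeal R ^ 0) = 0 := by
    rw [pow_zero, Ideal.one_eq_top]
    exact ln_colen_top
  show ((colen R (maximalIdeal R ^ 0)).toNat : ℝ) = 0
  rw [h]
  simp

/-- Subadditivity: `Q' / 𝔪^k Q' → Q / 𝔪^k Q → Q'' / 𝔪^k Q'' → 0` is exact. -/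
theorem hsM_le_add {Q' Q Q'' : Type} [AddCommGroup Q'] [Module R Q'] [Module.Finite R Q'] [AddCommGroup Q]
    [Module R Q] [Module.Finite R Q] [AddCommGroup Q''] [Module R Q''] (f : Q' →ₗ[R] Q) (g : Q →ₗ[R] Q'')
    (hg : Function.Surjective g) (hfg : Function.Exact f g) (k : ℕ) :
    hsM R Q k ≤ hsM R Q' k + hsM R Q'' k := by
  have : Module.Finite R Q'' := Module.Finite.of_surjective g hg
  unfold hsM
  rw [ln_cl_add f (gw_ne_top le_rfl)]
  refine add_le_add (ln_cl_anti (gw_ne_top le_rfl) (Submodule.map_le_iff_le_comap.1 (ln_map_ism f _))) ?_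
  refine ln_len_le (gw_ne_top le_rfl) ?_
  have e : ism (maximalIdeal R ^ k) Q ⊔ LinearMap.range f = (ism (maximalIdeal R ^ k) Q'').comap g := by
    rw [← ln_map_ism_surj g hg, Submodule.comap_map_eq, LinearMap.exact_iff.1 hfg]
  rw [e]
  exact le_self_add.trans (ln_len_add g _).ge

theorem hsM_quot (I : Ideal R) [IsLocalRing (R ⧸ I)] (k : ℕ) : hsM R (R ⧸ I) k = hs (R ⧸ I) k := by
  rw [← gw_hsM_self]
  refine gw_len_congr ?_
  have h := colen_eq_restrict_of_surj (Λ := R) (Λ' := R ⧸ I) (W := R ⧸ I) Ideal.Quotient.mk_surjective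
    (ism (maximalIdeal (R ⧸ I) ^ k) (R ⧸ I))
  rw [← map_maximalIdeal_of_surjective (algebraMap R (R ⧸ I)) Ideal.Quotient.mk_surjective,
    ← Ideal.map_pow] at h ⊢
  rw [ism_map_restrict] at h
  exact h.symm

/-- A flat unramified local map preserves the Hilbert–Samuel function (`IsLocalRing.length_baseChange`; no
Noetherian hypothesis on the target). -/
theorem hs_eq_of_flat {S : Type} [CommRing S] [IsLocalRing S] (f : R →+* S) (hf : f.Flat) (hu : Unram f)
    (k : ℕ) : hs S k = hs R k := by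
  algebraize [f]
  have hu' : (maximalIdeal R).map (algebraMap R S) = maximalIdeal S := hu
  have : IsLocalHom (algebraMap R S) := ((local_hom_TFAE (algebraMap R S)).out 0 2).2 hu'.le
  refine gw_len_congr ?_
  have h := IsLocalRing.length_baseChange R S (R ⧸ maximalIdeal R ^ k)
  rw [← (Algebra.TensorProduct.quotIdealMapEquivTensorQuot S
    (maximalIdeal R ^ k)).toLinearEquiv.length_eq, Ideal.map_pow, hu'] at h
  rw [h]
  exact (congrArg _ (gw_colen_max S)).trans (mul_one _)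

/-- Pad the generators given by the converse of Krull's height theorem with zeros. -/
theorem exists_sop (h : ringKrullDim R ≤ d) : ∃ x : Fin d → R, Sop x := by
  obtain ⟨s, hs, hc⟩ := (maximalIdeal R).exists_finset_card_eq_height_of_isNoetherianRing
  have hd : s.card ≤ d := by
    rw [← maximalIdeal_height_eq_ringKrullDim, ← hc] at h
    exact_mod_cast h
  have hr : maximalIdeal R ≤ (Ideal.span (s : Set R)).radical := by
    rw [Ideal.radical_eq_sInf]
    refine le_sInf fun P hP => hs.2 ⟨hP.2, hP.1⟩ (le_maximalIdeal hP.2.ne_top)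
  obtain ⟨c, hc⟩ := Ideal.exists_pow_le_of_le_radical_of_fg hr (IsNoetherian.noetherian _)
  refine ⟨fun i => if h : i.val < s.card then (s.equivFin.symm ⟨i, h⟩ : R) else 0, fun i => ?_,
    c, hc.trans (Ideal.span_mono fun a ha => ?_)⟩
  · dsimp only
    split_ifs with h
    · exact hs.1.2 (Ideal.subset_span (s.equivFin.symm ⟨i, h⟩).2)
    · exact zero_mem _
  · refine ⟨⟨s.equivFin ⟨a, ha⟩, (s.equivFin ⟨a, ha⟩).2.trans_le hd⟩, ?_⟩
    simp

theorem dim_le_of_sop {x : Fin d → R} (h : Sop x) : ringKrullDim R ≤ d := by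
  obtain ⟨hx, c, hc⟩ := h
  have hm : maximalIdeal R ∈ (Ideal.span (Set.range x)).minimalPrimes := by
    refine ⟨⟨inferInstance, ln_idl_le hx⟩, fun P hP _ => ?_⟩
    have := hP.1
    exact Ideal.IsPrime.le_of_pow_le (hc.trans hP.2)
  have h1 := Ideal.height_le_card_of_mem_minimalPrimes_span (Set.finite_range x) hm
  have h2 : (Set.range x).ncard ≤ d := by
    rw [← Set.image_univ]
    refine (Set.ncard_image_le Set.finite_univ).trans ?_
    simp
  rw [← maximalIdeal_height_eq_ringKrullDim]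
  exact_mod_cast h1.trans (Nat.cast_le.2 h2)

theorem exists_dim_eq (R : Type) [CommRing R] [IsNoetherianRing R] [IsLocalRing R] :
    ∃ d : ℕ, ringKrullDim R = d := by
  obtain ⟨s, -, hc⟩ := (maximalIdeal R).exists_finset_card_eq_height_of_isNoetherianRing
  exact ⟨s.card, by rw [← maximalIdeal_height_eq_ringKrullDim, ← hc]; rfl⟩

theorem Sop.map {S : Type} [CommRing S] [IsLocalRing S] (f : R →+* S) [IsLocalHom f] {c : ℕ}
    (hc : maximalIdeal S ^ c ≤ (maximalIdeal R).map f) {x : Fin d → R} (h : Sop x) :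
    Sop fun i => f (x i) := by
  obtain ⟨hx, c', hc'⟩ := h
  refine ⟨fun i => map_nonunit f _ (hx i), c * c', ?_⟩
  rw [pow_mul, ← idl_map]
  refine (Ideal.pow_right_mono hc c').trans ?_
  rw [← Ideal.map_pow]
  exact Ideal.map_mono hc'

theorem gw_poly {x : Fin d → R} (hx : ∀ i, x i ∈ maximalIdeal R) {Q : Type} [AddCommGroup Q] [Module R Q]
    [Module.Finite R Q] (U : Submodule R Q) {c : ℕ}
    (hc : ism (maximalIdeal R ^ c) Q ≤ U ⊔ ism (idl x) Q) : ∃ C : ℝ, 0 ≤ C ∧ ∀ k : ℕ,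
      len R (Q ⧸ (U ⊔ ism (maximalIdeal R ^ k) Q)) ≤ C * ((k : ℝ) + 1) ^ d := by
  obtain ⟨n, hn⟩ := ENat.ne_top_iff_exists.1 (gw_ne_top hc)
  refine ⟨((d : ℝ) + 1) ^ d * n, by positivity, fun k => ?_⟩
  have h1 := (colen_anti (sup_le_sup_left (ln_ism_mono (W := Q)
    (Ideal.pow_right_mono (ln_idl_le hx) k)) U)).trans (colen_idl_pow_le x k U)
  rw [← hn, ← Nat.cast_mul] at h1
  refine (len_le_of_le h1).trans ?_
  have h2 : (k + d - 1).choose d ≤ ((d + 1) * (k + 1)) ^ d :=
    (Nat.choose_le_pow _ _).trans (Nat.pow_le_pow_left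
      ((Nat.sub_le _ _).trans (by nlinarith [Nat.zero_le (d * k)])) d)
  have h3 : (((k + d - 1).choose d : ℕ) : ℝ) ≤ (((d : ℝ) + 1) * ((k : ℝ) + 1)) ^ d := by
    exact_mod_cast h2
  rw [mul_pow] at h3
  rw [Nat.cast_mul, mul_right_comm]
  exact mul_le_mul_of_nonneg_right h3 (Nat.cast_nonneg _)

/-- `(x)^k ≤ 𝔪^k`, and `colen_idl_pow_le`. -/
theorem hsM_le_poly (h : ringKrullDim R ≤ d) (Q : Type) [AddCommGroup Q] [Module R Q] [Module.Finite R Q] :
    ∃ C : ℝ, 0 ≤ C ∧ ∀ k : ℕ, hsM R Q k ≤ C * ((k : ℝ) + 1) ^ d := by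
  obtain ⟨x, hx, c, hc⟩ := exists_sop h
  obtain ⟨C, hC, H⟩ := gw_poly hx (⊥ : Submodule R Q) (c := c) (le_sup_of_le_right (ln_ism_mono hc))
  refine ⟨C, hC, fun k => ?_⟩
  have := H k
  rwa [bot_sup_eq] at this

theorem ube_zero_of_dim (h : ringKrullDim R ≤ d) : UBe (hs R) (d + 1) 0 := by
  obtain ⟨C, -, H⟩ := hsM_le_poly h R
  exact ube_zero_of_le_poly (C := C) fun k => by rw [← hsM_self]; exact H k

/-- lifting a system of parameters of a quotient -/
theorem gw_lift_sop {I : Ideal R} (hI : I ≠ ⊤) (h : ringKrullDim (R ⧸ I) ≤ d) :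
    ∃ (x : Fin d → R) (c : ℕ), (∀ i, x i ∈ maximalIdeal R) ∧ maximalIdeal R ^ c ≤ idl x ⊔ I := by
  have : Nontrivial (R ⧸ I) := Ideal.Quotient.nontrivial_iff.2 hI
  have : IsLocalRing (R ⧸ I) := IsLocalRing.of_surjective' _ Ideal.Quotient.mk_surjective
  obtain ⟨x', hx', c, hc⟩ := exists_sop h
  have hm := map_maximalIdeal_of_surjective (Ideal.Quotient.mk I) Ideal.Quotient.mk_surjective
  choose x hx hxx using fun i => Ideal.mem_map_iff_of_surjective (Ideal.Quotient.mk I)
    Ideal.Quotient.mk_surjective |>.1 (hm ▸ hx' i)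
  refine ⟨x, c, hx, ?_⟩
  have e : x' = fun i => Ideal.Quotient.mk I (x i) := funext fun i => (hxx i).symm
  rw [← hm, ← Ideal.map_pow, e, ← idl_map, Ideal.map_le_iff_le_comap,
    Ideal.comap_map_of_surjective _ Ideal.Quotient.mk_surjective, ← RingHom.ker_eq_comap_bot,
    Ideal.mk_ker] at hc
  exact hc

/-- If `dim R / γ ≤ d`, the colength of `𝔪^k + γ^a` on a finite module grows like `k^d`. -/
theorem small_colen {γ : R} (h : ringKrullDim (R ⧸ Ideal.span {γ}) ≤ d) (a : ℕ) (Q : Type) [AddCommGroup Q]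
    [Module R Q] [Module.Finite R Q] : ∃ C : ℝ, 0 ≤ C ∧ ∀ k : ℕ,
      len R (Q ⧸ ism (maximalIdeal R ^ k ⊔ Ideal.span {γ ^ a}) Q) ≤ C * ((k : ℝ) + 1) ^ d := by
  obtain ⟨x, c, hx, hc⟩ : ∃ (x : Fin d → R) (c : ℕ), (∀ i, x i ∈ maximalIdeal R) ∧
      maximalIdeal R ^ c ≤ idl x ⊔ Ideal.span {γ} := by
    by_cases hγ : Ideal.span {γ} = ⊤
    · exact ⟨0, 0, fun _ => zero_mem _, by rw [hγ]; exact le_sup_of_le_right le_top⟩
    · exact gw_lift_sop hγ h
  obtain ⟨C, hC, H⟩ := gw_poly hx (ism (Ideal.span {γ ^ a}) Q) (c := c * (1 + a)) (by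
    rw [← ln_ism_sup]
    refine ln_ism_mono ?_
    rw [pow_mul]
    refine (Ideal.pow_right_mono hc _).trans (Ideal.sup_pow_add_le_pow_sup_pow.trans ?_)
    rw [pow_one, Ideal.span_singleton_pow, sup_comm])
  refine ⟨C, hC, fun k => ?_⟩
  rw [ln_ism_sup, sup_comm]
  exact H k

theorem gw_dim_quot {A : Type} [CommRing A] [IsDomain A] (h : ringKrullDim A ≤ (d + 1 : ℕ)) {γ : A}
    (hγ : γ ≠ 0) : ringKrullDim (A ⧸ Ideal.span {γ}) ≤ d := by
  have h1 := (ringKrullDim_quotient_succ_le_of_nonZeroDivisor (mem_nonZeroDivisors_of_ne_zero hγ)).trans h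
  rw [Nat.cast_succ] at h1
  exact ENat.WithBot.add_le_add_one_right_iff.1 h1

theorem dim_quot_le_of_domain [IsDomain R] (h : ringKrullDim R ≤ (d + 1 : ℕ)) {γ : R} (hγ : γ ≠ 0) :
    ringKrullDim (R ⧸ Ideal.span {γ}) ≤ d := gw_dim_quot h hγ

/-- A finite algebra over a domain of dimension `≤ d + 1` whose structure map has a kernel. -/
theorem dim_le_of_not_injective {A B : Type} [CommRing A] [IsDomain A] [IsNoetherianRing A] [IsLocalRing A]
    [CommRing B] (f : A →+* B) (hf : f.Finite) (h : ringKrullDim A ≤ (d + 1 : ℕ))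
    (hn : ¬ Function.Injective f) : ringKrullDim B ≤ d := by
  rw [injective_iff_map_eq_zero] at hn
  push Not at hn
  obtain ⟨γ, hγ, hγ0⟩ := hn
  refine le_trans ?_ (gw_dim_quot h hγ0)
  let g : A ⧸ Ideal.span {γ} →+* B := Ideal.Quotient.lift _ f fun a ha => by
    obtain ⟨b, rfl⟩ := Ideal.mem_span_singleton'.1 ha
    rw [map_mul, hγ, mul_zero]
  have hg : g.IsIntegral := RingHom.IsIntegral.tower_top (Ideal.Quotient.mk _) g hf.to_isIntegral
  algebraize [g]
  exact Order.krullDim_le_of_strictMono (PrimeSpectrum.comap (algebraMap (A ⧸ Ideal.span {γ}) B))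
    fun P Q h => Ideal.IsIntegral.comap_lt_comap (R := A ⧸ Ideal.span {γ}) (I := P.asIdeal)
      (J := Q.asIdeal) h

/-- An element outside every minimal prime of maximal dimension cuts the dimension. -/
theorem dim_quot_le_of_avoid (h : ringKrullDim R ≤ (d + 1 : ℕ)) {γ : R}
    (hγ : ∀ P ∈ minimalPrimes R, ringKrullDim (R ⧸ P) ≤ d ∨ γ ∉ P) :
    ringKrullDim (R ⧸ Ideal.span {γ}) ≤ d := by
  rw [ringKrullDim_quotient]
  refine iSup_le fun l => ?_
  have := l.head.1.2
  obtain ⟨P, hP, hle⟩ := Ideal.exists_minimalPrimes_le (I := ⊥) (J := l.head.1.asIdeal) bot_le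
  rcases hγ P hP with h1 | h1
  · rw [ringKrullDim_quotient] at h1
    let l' : LTSeries (PrimeSpectrum.zeroLocus (R := R) P) :=
      { length := l.length
        toFun := fun i => ⟨(l i).1, fun a ha => (l.head_le i) (hle ha)⟩
        step := fun i => l.step i }
    exact (Order.LTSeries.length_le_krullDim l').trans h1
  · have hlt : (⟨P, hP.1.1⟩ : PrimeSpectrum R) <
        (l.map Subtype.val (Subtype.strictMono_coe _)).head := by
      refine lt_of_le_of_ne hle fun e => h1 ?_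
      have e' : P = l.head.1.asIdeal := congrArg PrimeSpectrum.asIdeal e
      rw [e']
      exact l.head.2 (Ideal.mem_span_singleton_self γ)
    have h2 := (Order.LTSeries.length_le_krullDim
      ((l.map Subtype.val (Subtype.strictMono_coe _)).cons _ hlt)).trans h
    rw [RelSeries.cons_length, LTSeries.map_length] at h2
    have h3 : l.length + 1 ≤ d + 1 := by exact_mod_cast h2
    exact_mod_cast Nat.le_of_succ_le_succ h3

/-- Prime avoidance in the form of Davis: `a + J` is not contained in the union. -/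
theorem davis {A : Type} [CommRing A] (s : Finset (Ideal A)) (hs : ∀ P ∈ s, P.IsPrime) (a : A) (J : Ideal A)
    (h : ∀ P ∈ s, ¬ (Ideal.span {a} ⊔ J ≤ P)) : ∃ b ∈ J, ∀ P ∈ s, a + b ∉ P := by
  classical
  let t := s.filter fun P => a ∈ P
  let u := s.filter fun P => a ∉ P ∧ ∀ P' ∈ t, ¬ P ≤ P'
  have key : ¬ ((J ⊓ u.inf id : Ideal A) : Set A) ⊆ ⋃ P ∈ (t : Set (Ideal A)), (id P : Ideal A) := by
    rw [Ideal.subset_union_prime (s := t) (f := id) ⊥ ⊥ fun P hP _ _ => hs P (Finset.mem_filter.1 hP).1]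
    rintro ⟨P, hP, hle⟩
    obtain ⟨hPs, haP⟩ := Finset.mem_filter.1 hP
    rcases (hs P hPs).inf_le.1 hle with h1 | h1
    · exact h P hPs (sup_le ((Ideal.span_singleton_le_iff_mem _).2 haP) h1)
    · obtain ⟨P', hP', h2⟩ := (hs P hPs).inf_le'.1 h1
      exact (Finset.mem_filter.1 hP').2.2 P hP h2
  obtain ⟨b, hb, hb'⟩ := Set.not_subset.1 key
  have ht : ∀ P ∈ t, a + b ∉ P := fun P hP hab => hb' (Set.mem_biUnion hP
    ((Ideal.add_mem_iff_right P (Finset.mem_filter.1 hP).2).1 hab))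
  refine ⟨b, hb.1, fun P hP hab => ?_⟩
  by_cases haP : a ∈ P
  · exact ht P (Finset.mem_filter.2 ⟨hP, haP⟩) hab
  by_cases h1 : ∀ P' ∈ t, ¬ P ≤ P'
  · have hbP : b ∈ P := (Finset.inf_le (f := id) (Finset.mem_filter.2 ⟨hP, haP, h1⟩) : u.inf id ≤ P) hb.2
    exact haP ((Ideal.add_mem_iff_left P hbP).1 hab)
  · push Not at h1
    obtain ⟨P', hP', hle⟩ := h1
    exact ht P' hP' (hle hab)

/-- For a prime `P` and `γ0` there is `γ ≡ γ0 mod P` cutting the dimension, provided `γ0 ∉ P` or `dim R / P` is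
small (`davis` for the minimal primes of dimension `d + 1`; distinct minimal primes are incomparable). -/
theorem exists_cut (h : ringKrullDim R ≤ (d + 1 : ℕ)) (P : Ideal R) [P.IsPrime] (γ0 : R)
    (h0 : γ0 ∉ P ∨ ringKrullDim (R ⧸ P) ≤ d) :
    ∃ γ : R, γ - γ0 ∈ P ∧ ringKrullDim (R ⧸ Ideal.span {γ}) ≤ d := by
  classical
  let s := (minimalPrimes.finite_of_isNoetherianRing R).toFinset.filter
    fun Q => ¬ ringKrullDim (R ⧸ Q) ≤ d
  have hs : ∀ Q, Q ∈ s ↔ Q ∈ minimalPrimes R ∧ ¬ ringKrullDim (R ⧸ Q) ≤ d := fun Q => by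
    simp only [s, Finset.mem_filter, Set.Finite.mem_toFinset]
  obtain ⟨b, hb, H⟩ := davis s (fun Q hQ => ((hs Q).1 hQ).1.1.1) γ0 P fun Q hQ hle => by
    obtain ⟨h1, h2⟩ := (hs Q).1 hQ
    have e : P = Q := le_antisymm (le_sup_right.trans hle)
      (h1.2 ⟨‹_›, bot_le⟩ (le_sup_right.trans hle))
    subst e
    exact h0.elim (fun h3 => h3 ((Ideal.span_singleton_le_iff_mem _).1 (le_sup_left.trans hle))) h2
  refine ⟨γ0 + b, by simpa using hb, dim_quot_le_of_avoid h fun Q hQ => ?_⟩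
  by_cases h1 : ringKrullDim (R ⧸ Q) ≤ d
  · exact Or.inl h1
  · exact Or.inr (H Q ((hs Q).2 ⟨hQ, h1⟩))

/-- A regular local base: Noetherian local domain whose maximal ideal is generated by a regular sequence. -/
theorem rbase_of_local [IsDomain R] (hd : 0 < d) {X : Fin d → R} (hX : Reg X R) (hm : idl X = maximalIdeal R) :
    RBase R X := by
  refine ⟨‹_›, ‹_›, hd, hX, hm ▸ maximalIdeal.isMaximal R, fun γ hγ => ?_⟩
  have h1 : ringKrullDim R ≤ (d - 1 + 1 : ℕ) := by
    rw [Nat.sub_add_cancel hd]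
    exact dim_le_of_sop ⟨fun i => hm ▸ ln_mem_idl X i, 1, by rw [pow_one, hm]⟩
  obtain ⟨C, -, H⟩ := small_colen (dim_quot_le_of_domain h1 hγ) 1 R
  refine ⟨C, fun k => ?_⟩
  have := H k
  rw [gw_ism_self, pow_one, ← hm] at this
  exact this

end Crest.Agent.R183
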