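import Crest.Agent.R183.Reg2
import Crest.Agent.R183.Grow

/-!
# rid 183, file `PS`: power series rings and complete local rings

Prefix helper lemmas with `ps_`.  Useful Mathlib: `RingTheory/AdicCompletion/{Basic,RingHom,Completeness,LocalRing,
Noetherian,AsTensorProduct,Exactness}`, `IsAdicComplete.liftRingHom`, `surjective_of_mkQ_comp_surjective`,
`MvPowerSeries.trunc'`, the instances `IsNoetherianRing (MvPowerSeries σ R)` and
`IsAdicComplete (span (range X)) (MvPowerSeries σ R)`.
-/

set_option autoImplicit false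

open Filter IsLocalRing

namespace Crest.Agent.R183

variable {d : ℕ}

/-- Evaluation of power series in an adically complete ring: modulo `I^n`, evaluate the truncation. -/
theorem exists_psMap {C R : Type} [CommRing C] [CommRing R] (I : Ideal R) [IsAdicComplete I R] (φ : C →+* R)
    (x : Fin d → R) (hx : ∀ i, x i ∈ I) :
    ∃ Φ : MvPowerSeries (Fin d) C →+* R, (∀ c, Φ (MvPowerSeries.C c) = φ c) ∧
      ∀ i, Φ (MvPowerSeries.X i) = x i := by
  classical
  let ev : MvPolynomial (Fin d) C →+* R := MvPolynomial.eval₂Hom φ x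
  have hev : ∀ n : ℕ, MvPolynomial.idealOfVars (Fin d) C ^ n ≤ (I ^ n).comap ev := by
    intro n
    rw [← Ideal.map_le_iff_le_comap, Ideal.map_pow]
    refine Ideal.pow_right_mono ?_ n
    rw [MvPolynomial.idealOfVars, Ideal.map_span, Ideal.span_le]
    rintro _ ⟨_, ⟨i, rfl⟩, rfl⟩
    simpa [ev] using hx i
  let f : (n : ℕ) → MvPowerSeries (Fin d) C →+* R ⧸ I ^ n := fun n =>
    (Ideal.quotientMap (I ^ n) ev (hev n)).comp
      (MvPowerSeries.truncTotalAlgHom (Fin d) C n : MvPowerSeries (Fin d) C →+* _)
  have hf0 : ∀ n p, f n p = Ideal.Quotient.mk (I ^ n) (ev (MvPowerSeries.truncTotal n p)) := fun n p => rfl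
  have hf : ∀ {m n : ℕ} (hle : m ≤ n), (Ideal.Quotient.factorPow I hle).comp (f n) = f m := by
    intro m n hle
    ext p
    rw [RingHom.comp_apply, hf0, hf0, Ideal.Quotient.factorPow, Ideal.Quotient.factor_mk,
      Ideal.Quotient.mk_eq_mk_iff_sub_mem, ← map_sub]
    exact hev m (MvPowerSeries.truncTotal_sub_truncTotal_mem_pow_idealOfVars hle le_rfl p)
  have key : ∀ p : MvPolynomial (Fin d) C,
      IsAdicComplete.liftRingHom I f hf (p : MvPowerSeries (Fin d) C) = ev p := by
    intro p
    rw [IsHausdorff.eq_iff_smodEq (I := I)]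
    intro n
    rw [SModEq.sub_mem, smul_eq_mul, Ideal.mul_top, ← Ideal.Quotient.mk_eq_mk_iff_sub_mem,
      IsAdicComplete.mk_liftRingHom, hf0, Ideal.Quotient.mk_eq_mk_iff_sub_mem, ← map_sub]
    refine hev n ((MvPolynomial.mem_pow_idealOfVars_iff' _ _).mpr fun β hβ => ?_)
    rw [MvPolynomial.coeff_sub, MvPowerSeries.coeff_truncTotal _ hβ, MvPolynomial.coeff_coe, sub_self]
  refine ⟨IsAdicComplete.liftRingHom I f hf, fun c => ?_, fun i => ?_⟩
  · rw [← MvPolynomial.coe_C, key]
    simp [ev]
  · rw [← MvPolynomial.coe_X, key]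
    simp [ev]

theorem ps_precomplete_pi {A W : Type} [CommRing A] [AddCommGroup W] [Module A W] (I : Ideal A)
    [IsPrecomplete I W] (ι : Type) [Finite ι] : IsPrecomplete I (ι → W) := by
  refine ⟨fun f hf => ?_⟩
  have h : ∀ i, ∃ L : W, ∀ n, f n i ≡ L [SMOD (I ^ n • ⊤ : Submodule A W)] := by
    intro i
    refine IsPrecomplete.prec ‹_› fun {m n} hmn => ?_
    have h1 := hf hmn
    rw [SModEq.sub_mem] at h1 ⊢
    exact rg2_mem_pi.mp h1 i
  choose L hL using h
  refine ⟨L, fun n => ?_⟩
  rw [SModEq.sub_mem]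
  exact rg2_mem_pi.mpr fun i => SModEq.sub_mem.mp (hL i n)

theorem ps_precomplete_of_surjective {A V W : Type} [CommRing A] [AddCommGroup V] [Module A V]
    [AddCommGroup W] [Module A W] (I : Ideal A) [IsPrecomplete I V] (p : V →ₗ[A] W)
    (hp : Function.Surjective p) : IsPrecomplete I W := by
  rw [← AdicCompletion.of_surjective_iff]
  intro y
  obtain ⟨z, rfl⟩ := AdicCompletion.map_surjective I hp y
  obtain ⟨v, rfl⟩ := AdicCompletion.of_surjective I V z
  exact ⟨p v, (AdicCompletion.map_of I p v).symm⟩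

/-- Complete Nakayama lemma. -/
theorem span_eq_top_of_complete {A W : Type} [CommRing A] [AddCommGroup W] [Module A W] (I : Ideal A)
    [IsPrecomplete I A] [IsHausdorff I W] {n : ℕ} (w : Fin n → W)
    (h : Submodule.span A (Set.range w) ⊔ ism I W = ⊤) : Submodule.span A (Set.range w) = ⊤ := by
  have := ps_precomplete_pi (W := A) I (Fin n)
  have hs : Function.Surjective (Fintype.linearCombination A w) := by
    refine surjective_of_mkQ_comp_surjective (I := I) fun y => ?_
    obtain ⟨y, rfl⟩ := Submodule.mkQ_surjective _ y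
    have hy : y ∈ Submodule.span A (Set.range w) ⊔ ism I W := by
      rw [h]
      exact Submodule.mem_top
    obtain ⟨a, ha, b, hb, rfl⟩ := Submodule.mem_sup.mp hy
    rw [← Fintype.range_linearCombination] at ha
    obtain ⟨c, rfl⟩ := ha
    refine ⟨c, ?_⟩
    rw [LinearMap.comp_apply, map_add, Submodule.mkQ_apply _ b, (Submodule.Quotient.mk_eq_zero _).mpr hb,
      add_zero]
  rw [← Fintype.range_linearCombination]
  exact LinearMap.range_eq_top.mpr hs

theorem ps_mem_idl_pow {C : Type} [CommRing C] (k : ℕ) (g : MvPowerSeries (Fin d) C)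
    (h : ∀ β : Fin d →₀ ℕ, β.degree < k → MvPowerSeries.coeff β g = 0) :
    g ∈ idl (MvPowerSeries.X : Fin d → MvPowerSeries (Fin d) C) ^ k := by
  classical
  induction k generalizing g with
  | zero => simp
  | succ k ih =>
    have h1 : ∀ β : Fin d →₀ ℕ, ∃ e : Fin d → C,
        (∀ i, e i ≠ 0 → β i ≠ 0 ∧ MvPowerSeries.coeff β g ≠ 0) ∧ MvPowerSeries.coeff β g = ∑ i, e i := by
      intro β
      by_cases hβ : MvPowerSeries.coeff β g = 0
      · exact ⟨0, fun i hi => absurd rfl hi, by simpa using hβ⟩
      · have hne : ∃ i, β i ≠ 0 := by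
          by_contra hc
          push Not at hc
          have h0 : β = 0 := Finsupp.ext hc
          exact hβ (h β (by rw [h0]; simp))
        obtain ⟨i, hi⟩ := hne
        refine ⟨Pi.single i (MvPowerSeries.coeff β g), fun j hj => ?_, by simp⟩
        obtain rfl : j = i := by
          by_contra hji
          exact hj (Pi.single_eq_of_ne hji _)
        exact ⟨hi, hβ⟩
    choose e he hf using h1
    let e' : Fin d → MvPowerSeries (Fin d) C := fun i β => e β i
    have he' : ∀ i β, MvPowerSeries.coeff β (e' i) = e β i := fun i β => rfl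
    have hsum : g = ∑ i, e' i := by
      ext β
      simp only [map_sum]
      exact hf β
    rw [hsum]
    refine Ideal.sum_mem _ fun i _ => ?_
    have hd : MvPowerSeries.X i ∣ e' i := by
      refine MvPowerSeries.X_dvd_iff.mpr fun m hm => ?_
      by_contra h0
      exact (he m i h0).1 hm
    obtain ⟨u, hu⟩ := hd
    rw [hu, pow_succ']
    refine Ideal.mul_mem_mul (Ideal.subset_span ⟨i, rfl⟩) (ih u fun β hβ => ?_)
    have h2 : MvPowerSeries.coeff (Finsupp.single i 1 + β) (e' i) = MvPowerSeries.coeff β u := by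
      rw [hu, MvPowerSeries.X, MvPowerSeries.coeff_add_monomial_mul, one_mul]
    rw [← h2, he']
    by_contra h0
    refine (he _ i h0).2 (h _ ?_)
    rw [map_add, Finsupp.degree_single]
    omega

theorem ps_maximal (C : Type) [CommRing C] [IsLocalRing C] (d : ℕ) :
    maximalIdeal (MvPowerSeries (Fin d) C) =
      (maximalIdeal C).map (MvPowerSeries.C : C →+* MvPowerSeries (Fin d) C) ⊔ idl MvPowerSeries.X := by
  apply le_antisymm
  · intro f hf
    have h0 : MvPowerSeries.constantCoeff f ∈ maximalIdeal C := by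
      rw [mem_maximalIdeal, mem_nonunits_iff] at hf ⊢
      exact fun hu => hf (MvPowerSeries.isUnit_iff_constantCoeff.mpr hu)
    have h1 : f - MvPowerSeries.C (MvPowerSeries.constantCoeff f) ∈
        idl (MvPowerSeries.X : Fin d → MvPowerSeries (Fin d) C) := by
      rw [← pow_one (idl _)]
      refine ps_mem_idl_pow 1 _ fun β hβ => ?_
      have hβ0 : β = 0 := by
        rwa [Nat.lt_one_iff, Finsupp.degree_eq_zero_iff] at hβ
      subst hβ0
      simp
    have h2 : f = MvPowerSeries.C (MvPowerSeries.constantCoeff f) +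
        (f - MvPowerSeries.C (MvPowerSeries.constantCoeff f)) := by ring
    rw [h2]
    exact Ideal.add_mem _ (Ideal.mem_sup_left (Ideal.mem_map_of_mem _ h0)) (Ideal.mem_sup_right h1)
  · refine sup_le (Ideal.map_le_iff_le_comap.mpr fun a ha => ?_) (Ideal.span_le.mpr ?_)
    · rw [Ideal.mem_comap]
      rw [mem_maximalIdeal, mem_nonunits_iff] at ha ⊢
      intro hu
      exact ha (by simpa using MvPowerSeries.isUnit_iff_constantCoeff.mp hu)
    · rintro _ ⟨i, rfl⟩
      rw [SetLike.mem_coe, mem_maximalIdeal, mem_nonunits_iff]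
      intro hu
      simpa using MvPowerSeries.isUnit_iff_constantCoeff.mp hu

/-- The ideal of power series whose coefficient at `β` lies in `J ^ (k - |β|)`. -/
def ps_filt {C : Type} [CommRing C] (J : Ideal C) (d k : ℕ) : Ideal (MvPowerSeries (Fin d) C) where
  carrier := {f | ∀ β : Fin d →₀ ℕ, MvPowerSeries.coeff β f ∈ J ^ (k - β.degree)}
  add_mem' := fun {f g} hf hg β => by
    rw [map_add]
    exact Ideal.add_mem _ (hf β) (hg β)
  zero_mem' := fun β => by
    rw [map_zero]
    exact Ideal.zero_mem _
  smul_mem' := fun g f hf β => by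
    classical
    rw [smul_eq_mul, MvPowerSeries.coeff_mul]
    refine Ideal.sum_mem _ fun q hq => Ideal.mul_mem_left _ _ (Ideal.pow_le_pow_right ?_ (hf q.2))
    have h1 := congrArg Finsupp.degree (Finset.HasAntidiagonal.mem_antidiagonal.mp hq)
    rw [map_add] at h1
    omega

theorem ps_filt_mul {C : Type} [CommRing C] (J : Ideal C) (d a b : ℕ) :
    ps_filt J d a * ps_filt J d b ≤ ps_filt J d (a + b) := by
  classical
  refine Ideal.mul_le.mpr fun f hf g hg β => ?_
  rw [MvPowerSeries.coeff_mul]
  refine Ideal.sum_mem _ fun q hq => ?_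
  have h0 := Ideal.mul_mem_mul (hf q.1) (hg q.2)
  rw [← pow_add] at h0
  refine Ideal.pow_le_pow_right ?_ h0
  have h1 := congrArg Finsupp.degree (Finset.HasAntidiagonal.mem_antidiagonal.mp hq)
  rw [map_add] at h1
  omega

theorem ps_monomial_mem {C : Type} [CommRing C] (β : Fin d →₀ ℕ) :
    MvPowerSeries.monomial β (1 : C) ∈
      idl (MvPowerSeries.X : Fin d → MvPowerSeries (Fin d) C) ^ β.degree := by
  classical
  refine ps_mem_idl_pow _ _ fun γ hγ => ?_
  rw [MvPowerSeries.coeff_monomial, if_neg]
  rintro rfl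
  exact lt_irrefl _ hγ

/-- `f ∈ (J, X)^k` iff `coeff β f ∈ J^(k - |β|)` for all `β` (`J` finitely generated). -/
theorem mem_ps_pow {C : Type} [CommRing C] (J : Ideal C) (hJ : J.FG) (k : ℕ) (f : MvPowerSeries (Fin d) C) :
    f ∈ (J.map (MvPowerSeries.C : C →+* MvPowerSeries (Fin d) C) ⊔ idl MvPowerSeries.X) ^ k ↔
      ∀ β : Fin d →₀ ℕ, MvPowerSeries.coeff β f ∈ J ^ (k - β.degree) := by
  classical
  constructor
  · intro h
    have h1 : J.map (MvPowerSeries.C : C →+* MvPowerSeries (Fin d) C) ⊔ idl MvPowerSeries.X ≤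
        ps_filt J d 1 := by
      refine sup_le (Ideal.map_le_iff_le_comap.mpr fun a ha β => ?_) (Ideal.span_le.mpr ?_)
      · rw [MvPowerSeries.coeff_C]
        split_ifs with hβ
        · subst hβ
          simpa using ha
        · exact Ideal.zero_mem _
      · rintro _ ⟨i, rfl⟩ β
        rw [MvPowerSeries.coeff_X]
        split_ifs with hβ
        · subst hβ
          simp
        · exact Ideal.zero_mem _
    have h2 : ∀ n : ℕ, (J.map (MvPowerSeries.C : C →+* MvPowerSeries (Fin d) C) ⊔
        idl MvPowerSeries.X) ^ n ≤ ps_filt J d n := by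
      intro n
      induction n with
      | zero => intro g _ β; simp
      | succ n ih =>
        rw [pow_succ]
        exact (Ideal.mul_mono ih h1).trans (ps_filt_mul J d n 1)
    exact h2 k h
  · intro h
    have hsplit : f = ((MvPowerSeries.truncTotal k f : MvPolynomial (Fin d) C) : MvPowerSeries (Fin d) C) +
        (f - ((MvPowerSeries.truncTotal k f : MvPolynomial (Fin d) C) : MvPowerSeries (Fin d) C)) := by ring
    rw [hsplit]
    refine Ideal.add_mem _ ?_ (Ideal.pow_right_mono le_sup_right k (ps_mem_idl_pow k _ fun β hβ => ?_))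
    · have e1 : ((MvPowerSeries.truncTotal k f : MvPolynomial (Fin d) C) : MvPowerSeries (Fin d) C) =
          ∑ β ∈ (MvPowerSeries.truncTotal k f).support,
            MvPowerSeries.C (MvPolynomial.coeff β (MvPowerSeries.truncTotal k f)) *
              MvPowerSeries.monomial β (1 : C) := by
        conv_lhs => rw [(MvPowerSeries.truncTotal k f).as_sum]
        rw [← MvPolynomial.coeToMvPowerSeries.ringHom_apply, map_sum]
        refine Finset.sum_congr rfl fun β _ => ?_
        rw [MvPolynomial.coeToMvPowerSeries.ringHom_apply, MvPolynomial.coe_monomial,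
          ← MvPowerSeries.monomial_zero_eq_C_apply, MvPowerSeries.monomial_mul_monomial, zero_add, mul_one]
      rw [e1]
      refine Ideal.sum_mem _ fun β _ => ?_
      have c1 : MvPolynomial.coeff β (MvPowerSeries.truncTotal k f) ∈ J ^ (k - β.degree) := by
        rw [MvPowerSeries.coeff_truncTotal_eq_ite]
        split_ifs
        · exact h β
        · exact Ideal.zero_mem _
      have c2 := Ideal.mem_map_of_mem (MvPowerSeries.C : C →+* MvPowerSeries (Fin d) C) c1
      rw [Ideal.map_pow] at c2
      have c3 := Ideal.mul_mem_mul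
        (Ideal.pow_right_mono (le_sup_left : _ ≤ J.map (MvPowerSeries.C : C →+* MvPowerSeries (Fin d) C) ⊔
          idl MvPowerSeries.X) _ c2)
        (Ideal.pow_right_mono (le_sup_right : _ ≤ J.map (MvPowerSeries.C : C →+* MvPowerSeries (Fin d) C) ⊔
          idl MvPowerSeries.X) _ (ps_monomial_mem (C := C) β))
      rw [← pow_add] at c3
      exact Ideal.pow_le_pow_right (by omega) c3
    · rw [map_sub, MvPolynomial.coeff_coe, MvPowerSeries.coeff_truncTotal _ hβ, sub_self]

theorem ps_complete (C : Type) [CommRing C] [IsLocalRing C] [IsNoetherianRing C]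
    [IsAdicComplete (maximalIdeal C) C] (d : ℕ) :
    IsAdicComplete (maximalIdeal (MvPowerSeries (Fin d) C)) (MvPowerSeries (Fin d) C) := by
  refine { toIsHausdorff := inferInstance, prec' := fun f hf => ?_ }
  have hfg : (maximalIdeal C).FG := (maximalIdeal C).fg_of_isNoetherianRing
  have hmem : ∀ (k : ℕ) (g : MvPowerSeries (Fin d) C),
      g ∈ (maximalIdeal (MvPowerSeries (Fin d) C) ^ k • ⊤ :
        Submodule (MvPowerSeries (Fin d) C) (MvPowerSeries (Fin d) C)) ↔
        ∀ β : Fin d →₀ ℕ, MvPowerSeries.coeff β g ∈ maximalIdeal C ^ (k - β.degree) := by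
    intro k g
    rw [smul_eq_mul, Ideal.mul_top, ps_maximal, mem_ps_pow _ hfg]
  have h : ∀ β : Fin d →₀ ℕ, ∃ L : C, ∀ n, MvPowerSeries.coeff β (f (n + β.degree)) ≡ L
      [SMOD (maximalIdeal C ^ n • ⊤ : Submodule C C)] := by
    intro β
    refine IsPrecomplete.prec (I := maximalIdeal C) inferInstance fun {m n} hmn => ?_
    have h1 := hf (Nat.add_le_add_right hmn β.degree)
    rw [SModEq.sub_mem, hmem] at h1
    have h2 := h1 β
    rw [map_sub, Nat.add_sub_cancel] at h2
    rwa [SModEq.sub_mem, smul_eq_mul, Ideal.mul_top]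
  choose L hL using h
  obtain ⟨L', hL'⟩ : ∃ L' : MvPowerSeries (Fin d) C, ∀ β, MvPowerSeries.coeff β L' = L β :=
    ⟨fun β => L β, fun _ => rfl⟩
  refine ⟨L', fun n => ?_⟩
  rw [SModEq.sub_mem, hmem]
  intro β
  by_cases hn : β.degree ≤ n
  · have h1 := hL β (n - β.degree)
    rw [Nat.sub_add_cancel hn, SModEq.sub_mem, smul_eq_mul, Ideal.mul_top] at h1
    rw [map_sub, hL']
    exact h1
  · rw [Nat.sub_eq_zero_of_le (not_le.mp hn).le]
    simp

/-- `R / 𝔪_A R` has finite length over `A` (same residue field), `R` is `𝔪_A`-adically separated. -/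
theorem finite_of_complete {A R : Type} [CommRing A] [IsLocalRing A] [IsAdicComplete (maximalIdeal A) A]
    [CommRing R] [IsLocalRing R] [IsNoetherianRing R] (f : A →+* R) [IsLocalHom f] (hr : SameRes f) {c : ℕ}
    (hc : maximalIdeal R ^ c ≤ (maximalIdeal A).map f) : f.Finite := by
  classical
  let _ : Algebra A R := f.toAlgebra
  have hf : algebraMap A R = f := rfl
  have hstep : ∀ j : ℕ, ∃ N : Submodule A R, N.FG ∧ ∀ r : R, ∃ n ∈ N, r - n ∈ maximalIdeal R ^ j := by
    intro j
    induction j with
    | zero => exact ⟨⊥, Submodule.fg_bot, fun r => ⟨0, Submodule.zero_mem _, by simp⟩⟩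
    | succ j ih =>
      obtain ⟨N, hN, hN'⟩ := ih
      obtain ⟨t, ht⟩ := (maximalIdeal R ^ j).fg_of_isNoetherianRing
      refine ⟨N ⊔ Submodule.span A (t : Set R), hN.sup (Submodule.fg_span t.finite_toSet), fun r => ?_⟩
      obtain ⟨n, hn, hrn⟩ := hN' r
      rw [← ht] at hrn
      obtain ⟨g, -, hg⟩ := Submodule.mem_span_finset.mp hrn
      choose a ha using hr
      refine ⟨n + ∑ i ∈ t, a (g i) • i, Submodule.add_mem_sup hn (Submodule.sum_mem _ fun i hi =>
        Submodule.smul_mem _ _ (Submodule.subset_span hi)), ?_⟩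
      have e : r - (n + ∑ i ∈ t, a (g i) • i) = ∑ i ∈ t, (g i - f (a (g i))) * i := by
        rw [← sub_sub, ← hg, ← Finset.sum_sub_distrib]
        refine Finset.sum_congr rfl fun i _ => ?_
        rw [smul_eq_mul, Algebra.smul_def, hf]
        ring
      rw [e, pow_succ']
      refine Ideal.sum_mem _ fun i hi => Ideal.mul_mem_mul (ha _) ?_
      rw [← ht]
      exact Ideal.subset_span hi
  obtain ⟨N, hN, hN'⟩ := hstep c
  obtain ⟨n, w, rfl⟩ := Submodule.fg_iff_exists_fin_generating_family.mp hN
  have : IsHausdorff (maximalIdeal A) R := by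
    refine IsHausdorff.of_map (S := R) (J := maximalIdeal R) ?_
    rw [hf]
    exact ((IsLocalRing.local_hom_TFAE f).out 0 2).mp ‹_›
  have htop : Submodule.span A (Set.range w) = ⊤ := by
    refine span_eq_top_of_complete (maximalIdeal A) w (eq_top_iff.mpr fun r _ => ?_)
    obtain ⟨m, hm, hrm⟩ := hN' r
    have e : r = m + (r - m) := by ring
    rw [e]
    refine Submodule.add_mem_sup hm ?_
    rw [ism, Ideal.smul_top_eq_map]
    exact hc hrm
  exact ⟨⟨(Set.finite_range w).toFinset, by rw [Set.Finite.coe_toFinset, htop]⟩⟩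

/-- `C⟦X⟧ → R` is onto (complete Nakayama for the ideal `(X)`), and `C⟦X⟧` is Noetherian. -/
theorem noeth_of_complete {C R : Type} [CommRing C] [IsNoetherianRing C] [CommRing R] [IsLocalRing R]
    [IsAdicComplete (maximalIdeal R) R] (hm : (maximalIdeal R).FG) (φ : C →+* R) (hφ : SameRes φ) :
    IsNoetherianRing R := by
  obtain ⟨n, x, hx⟩ := Submodule.fg_iff_exists_fin_generating_family.mp hm
  obtain ⟨Φ, hC, hX⟩ := exists_psMap (maximalIdeal R) φ x fun i => by
    rw [← hx]
    exact Submodule.subset_span ⟨i, rfl⟩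
  have hmap : (Ideal.span (Set.range (MvPowerSeries.X : Fin n → MvPowerSeries (Fin n) C))).map Φ =
      maximalIdeal R := by
    rw [Ideal.map_span, ← Set.range_comp, ← hx]
    exact congrArg (fun y : Fin n → R => Ideal.span (Set.range y)) (funext hX)
  have : IsHausdorff
      ((Ideal.span (Set.range (MvPowerSeries.X : Fin n → MvPowerSeries (Fin n) C))).map Φ) R := by
    rw [hmap]
    infer_instance
  have hs : Function.Surjective Φ := by
    refine surjective_of_mk_map_comp_surjective
      (I := Ideal.span (Set.range (MvPowerSeries.X : Fin n → MvPowerSeries (Fin n) C))) Φ fun y => ?_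
    obtain ⟨y, rfl⟩ := Ideal.Quotient.mk_surjective y
    obtain ⟨a, ha⟩ := hφ y
    refine ⟨MvPowerSeries.C a, ?_⟩
    rw [RingHom.comp_apply, hC, eq_comm, Ideal.Quotient.mk_eq_mk_iff_sub_mem, hmap]
    exact ha
  exact isNoetherianRing_of_surjective _ _ Φ hs

theorem ps_complete_of_finite {A W : Type} [CommRing A] [IsNoetherianRing A] (I : Ideal A)
    [IsAdicComplete I A] [AddCommGroup W] [Module A W] [Module.Finite A W] : IsAdicComplete I W := by
  obtain ⟨n, p, hp⟩ := Module.Finite.exists_fin' A W
  have := ps_precomplete_pi (W := A) I (Fin n)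
  exact { toIsHausdorff := IsHausdorff.of_le_jacobson I W (IsAdicComplete.le_jacobson_bot I)
          toIsPrecomplete := ps_precomplete_of_surjective I p hp }

theorem complete_quot {R : Type} [CommRing R] [IsLocalRing R] [IsNoetherianRing R]
    [IsAdicComplete (maximalIdeal R) R] (I : Ideal R) [IsLocalRing (R ⧸ I)] :
    IsAdicComplete (maximalIdeal (R ⧸ I)) (R ⧸ I) := by
  rw [← IsLocalRing.map_maximalIdeal_of_surjective (Ideal.Quotient.mk I) Ideal.Quotient.mk_surjective,
    ← Ideal.Quotient.algebraMap_eq, IsAdicComplete.map_algebraMap_iff]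
  exact ps_complete_of_finite _

/-- A finite module over a complete Noetherian ring is complete. -/
theorem complete_of_finite {A W : Type} [CommRing A] [IsNoetherianRing A] (I : Ideal A) [IsAdicComplete I A]
    [AddCommGroup W] [Module A W] [Module.Finite A W] : IsAdicComplete I W := by
  exact ps_complete_of_finite I

theorem rbase_ps_field (k : Type) [Field k] (hd : 0 < d) :
    RBase (MvPowerSeries (Fin d) k) (MvPowerSeries.X : Fin d → MvPowerSeries (Fin d) k) := by
  have : IsDomain (MvPowerSeries (Fin d) k) := NoZeroDivisors.to_isDomain _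
  refine rbase_of_local hd (reg_X_ps d k) ?_
  rw [ps_maximal, IsLocalRing.maximalIdeal_eq_bot, Ideal.map_bot, bot_sup_eq]

theorem rbase_ps_dvr (V : Type) [CommRing V] [IsDomain V] [IsDiscreteValuationRing V] {π : V}
    (hπ : Irreducible π) (d : ℕ) :
    RBase (MvPowerSeries (Fin d) V)
      (Fin.cons (MvPowerSeries.C π) MvPowerSeries.X : Fin (d + 1) → MvPowerSeries (Fin d) V) := by
  have : IsDomain (MvPowerSeries (Fin d) V) := NoZeroDivisors.to_isDomain _
  have : (Ideal.span {π}).IsPrime := by
    rw [← hπ.maximalIdeal_eq]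
    infer_instance
  refine rbase_of_local (Nat.succ_pos d) (reg_cons_X_ps d hπ.ne_zero) ?_
  rw [ps_maximal, hπ.maximalIdeal_eq, Ideal.map_span, Set.image_singleton, idl, idl, Fin.range_cons,
    Ideal.span_insert]

section completion

variable (S : Type) [CommRing S] [IsNoetherianRing S] [IsLocalRing S]

/-- `noeth_of_complete` with `C = S`. -/
theorem completion_noeth : IsNoetherianRing (AdicCompletion (maximalIdeal S) S) := by
  refine noeth_of_complete (C := S) ?_ (algebraMap S (AdicCompletion (maximalIdeal S) S)) fun b => ?_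
  · rw [AdicCompletion.maximalIdeal_eq_map]
    exact (maximalIdeal S).fg_of_isNoetherianRing.map _
  · obtain ⟨y, hy⟩ := (AdicCompletion.residueField_map_bijective S).2 (residue _ b)
    obtain ⟨a, rfl⟩ := residue_surjective y
    refine ⟨a, ?_⟩
    rw [IsLocalRing.ResidueField.map_residue] at hy
    exact (Ideal.Quotient.mk_eq_mk_iff_sub_mem _ _).mp hy.symm

theorem completion_unram : Unram (algebraMap S (AdicCompletion (maximalIdeal S) S)) := by
  exact AdicCompletion.maximalIdeal_eq_map.symm

theorem completion_hs (k : ℕ) : hs (AdicCompletion (maximalIdeal S) S) k = hs S k := by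
  exact hs_eq_of_flat _ (RingHom.flat_algebraMap_iff.mpr inferInstance) (completion_unram S) k

/-- `Ideal.height_eq_height_add_of_liesOver_of_hasGoingDown`, or `exists_sop` / `dim_le_of_sop` and going down. -/
theorem completion_dim : ringKrullDim (AdicCompletion (maximalIdeal S) S) = ringKrullDim S := by
  have := completion_noeth S
  have h := Ideal.height_eq_height_add_of_liesOver_of_hasGoingDown (maximalIdeal S)
    (maximalIdeal (AdicCompletion (maximalIdeal S) S))
  have h0 : (maximalIdeal (AdicCompletion (maximalIdeal S) S)).map (Ideal.Quotient.mk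
      ((maximalIdeal S).map (algebraMap S (AdicCompletion (maximalIdeal S) S)))) = ⊥ := by
    rw [← AdicCompletion.maximalIdeal_eq_map]
    exact Ideal.map_quotient_self _
  have : Nontrivial (AdicCompletion (maximalIdeal S) S ⧸
      (maximalIdeal S).map (algebraMap S (AdicCompletion (maximalIdeal S) S))) := by
    rw [← AdicCompletion.maximalIdeal_eq_map]
    infer_instance
  rw [h0, Ideal.height_bot, add_zero] at h
  rw [← IsLocalRing.maximalIdeal_height_eq_ringKrullDim, ← IsLocalRing.maximalIdeal_height_eq_ringKrullDim, h]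

end completion

end Crest.Agent.R183
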