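import Crest.Agent.R183.Grow

/-!
# rid 183, file `Red`: minimal reductions of the maximal ideal

Prefix helper lemmas with `rd_`.
-/

set_option autoImplicit false
set_option linter.unusedSectionVars false

open Filter IsLocalRing

namespace Crest.Agent.R183

variable {R : Type} [CommRing R] [IsNoetherianRing R] [IsLocalRing R] {d : ℕ}

theorem IsRed.pow {x : Fin d → R} {K : ℕ} (h : IsRed x K) (k : ℕ) :
    maximalIdeal R ^ (K + k) = idl x ^ k * maximalIdeal R ^ K := by
  induction k with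
  | zero => simp
  | succ k ih => rw [← add_assoc, pow_succ, ih, mul_assoc, ← pow_succ, h.2, ← mul_assoc, ← pow_succ]

theorem IsRed.sop {x : Fin d → R} {K : ℕ} (h : IsRed x K) : Sop x :=
  ⟨h.1, K + 1, h.2 ▸ Ideal.mul_le_left⟩

/-- There is a form with a unit coefficient whose value drops in the filtration. -/
theorem rd_exists_form {n : ℕ} (h : ringKrullDim R ≤ n) {y : Fin (n + 1) → R}
    (hy : ∀ i, y i ∈ maximalIdeal R) :
    ∃ (k : ℕ) (a : Finset.Nat.antidiagonalTuple (n + 1) k → R), (∃ β, a β ∉ maximalIdeal R) ∧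
      ∑ β, a β * ∏ i, y i ^ β.1 i ∈ maximalIdeal R ^ (k + 1) := by
  by_contra hcon
  push Not at hcon
  have step : ∀ k : ℕ, hs R k + ((k + n).choose n : ℕ) ≤ hs R (k + 1) := by
    intro k
    let f : (Finset.Nat.antidiagonalTuple (n + 1) k → R) →ₗ[R] R :=
      Fintype.linearCombination R fun β => ∏ i, y i ^ β.1 i
    have hf : ∀ a, f a = ∑ β, a β * ∏ i, y i ^ β.1 i := fun a => by
      simp [f, Fintype.linearCombination_apply]
    have h1 : Submodule.comap f (maximalIdeal R ^ (k + 1) : Ideal R) ≤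
        Submodule.pi Set.univ fun _ => maximalIdeal R := by
      intro a ha β _
      by_contra hβ
      exact hcon k a ⟨β, hβ⟩ (hf a ▸ ha)
    have h2 : (maximalIdeal R ^ (k + 1) : Submodule R R) ⊔ LinearMap.range f ≤
        (maximalIdeal R ^ k : Ideal R) := by
      refine sup_le (Ideal.pow_le_pow_right (Nat.le_succ k)) ?_
      rintro _ ⟨a, rfl⟩
      rw [hf]
      refine Ideal.sum_mem _ fun β _ => Ideal.mul_mem_left _ _ ?_
      have := ln_mono_mem y β.1
      rw [Finset.Nat.mem_antidiagonalTuple.1 β.2] at this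
      exact Ideal.pow_right_mono (ln_idl_le hy) k this
    have h3 := (add_le_add (colen_anti h1) (colen_anti h2)).trans (ln_len_add f _).ge
    rw [ln_colen_pi, gw_colen_max, mul_one, Fintype.card_coe, ln_card_tuple, Nat.multichoose_eq,
      show n + 1 + k - 1 = k + n by omega, Nat.choose_symm_add] at h3
    obtain ⟨a, ha⟩ := ENat.ne_top_iff_exists.1 (gw_colen_pow (R := R) k)
    obtain ⟨b, hb⟩ := ENat.ne_top_iff_exists.1 (gw_colen_pow (R := R) (k + 1))
    show ((colen R (maximalIdeal R ^ k)).toNat : ℝ) + _ ≤ ((colen R (maximalIdeal R ^ (k + 1))).toNat : ℝ)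
    rw [← ha, ← hb] at h3 ⊢
    rw [add_comm] at h3
    exact_mod_cast h3
  have low : ∀ k : ℕ, (((k + (n + 1) - 1).choose (n + 1) : ℕ) : ℝ) ≤ hs R k := by
    intro k
    rw [show k + (n + 1) - 1 = k + n by omega]
    induction k with
    | zero => simp [hs_zero]
    | succ k ih =>
      rw [show k + 1 + n = k + n + 1 by omega, Nat.choose_succ_succ', Nat.cast_add]
      linarith [step k]
  have := ((lbe_choose (Nat.succ_pos n)).of_le (.of_forall low)).le_of_ube (ube_zero_of_dim h)
  linarith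

/-- A form with a unit coefficient has a unit value at a point `(1, c)`. -/
theorem rd_exists_point [Infinite (ResidueField R)] {n k : ℕ}
    (a : Finset.Nat.antidiagonalTuple (n + 1) k → R) (ha : ∃ β, a β ∉ maximalIdeal R) :
    ∃ c : Fin n → R, IsUnit (∑ β, a β * ∏ i, (Fin.cons 1 c : Fin (n + 1) → R) i ^ β.1 i) := by
  classical
  obtain ⟨β₀, hβ₀⟩ := ha
  let t : Finset.Nat.antidiagonalTuple (n + 1) k → Fin n →₀ ℕ :=
    fun β => Finsupp.equivFunOnFinite.symm fun i => β.1 i.succ
  have ht : ∀ β i, t β i = β.1 i.succ := fun β i => rfl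
  have hinj : Function.Injective t := by
    intro β β' e
    have e1 : ∀ i : Fin n, β.1 i.succ = β'.1 i.succ := fun i => by rw [← ht, ← ht, e]
    have s1 := Finset.Nat.mem_antidiagonalTuple.1 β.2
    have s2 := Finset.Nat.mem_antidiagonalTuple.1 β'.2
    rw [Fin.sum_univ_succ] at s1 s2
    simp only [e1] at s1
    refine Subtype.ext (funext fun i => Fin.cases (by omega) e1 i)
  let p : MvPolynomial (Fin n) (ResidueField R) := ∑ β, MvPolynomial.monomial (t β) (residue R (a β))
  have hp : p ≠ 0 := by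
    intro h0
    have := congrArg (MvPolynomial.coeff (t β₀)) h0
    simp only [p, MvPolynomial.coeff_sum, MvPolynomial.coeff_monomial, hinj.eq_iff,
      Finset.sum_ite_eq', Finset.mem_univ, if_true, MvPolynomial.coeff_zero, residue_eq_zero_iff] at this
    exact hβ₀ this
  obtain ⟨x, hx⟩ : ∃ x, MvPolynomial.eval x p ≠ 0 := by
    by_contra hc
    push Not at hc
    exact hp (MvPolynomial.funext fun x => by rw [hc, map_zero])
  choose c hc using fun i => residue_surjective (x i)
  refine ⟨c, (residue_ne_zero_iff_isUnit _).1 ?_⟩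
  convert hx using 1
  simp only [p, map_sum, map_mul, map_prod, map_pow, MvPolynomial.eval_monomial]
  refine Finset.sum_congr rfl fun β _ => ?_
  rw [Finsupp.prod_fintype _ _ (by simp), Fin.prod_univ_succ]
  simp [hc, ht]

/-- congruence modulo `J 𝔪^(k-1)`, in shifted form -/
def rdRel (J : Ideal R) (k : ℕ) (a b : R) : Prop :=
  a ∈ maximalIdeal R ^ k ∧ b ∈ maximalIdeal R ^ k ∧
    ∀ t ∈ maximalIdeal R, (a - b) * t ∈ J * maximalIdeal R ^ k

theorem rdRel.one (J : Ideal R) : rdRel J 0 (1 : R) 1 := ⟨by simp, by simp, by simp⟩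

theorem rdRel.mul {J : Ideal R} {k l : ℕ} {a b a' b' : R} (h : rdRel J k a b) (h' : rdRel J l a' b') :
    rdRel J (k + l) (a * a') (b * b') := by
  rw [rdRel, pow_add]
  refine ⟨Ideal.mul_mem_mul h.1 h'.1, Ideal.mul_mem_mul h.2.1 h'.2.1, fun t ht => ?_⟩
  have e : (a * a' - b * b') * t = (a - b) * t * a' + b * ((a' - b') * t) := by ring
  rw [e]
  refine add_mem ?_ ?_
  · rw [← mul_assoc]
    exact Ideal.mul_mem_mul (h.2.2 t ht) h'.1
  · rw [mul_left_comm]
    exact Ideal.mul_mem_mul h.2.1 (h'.2.2 t ht)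

theorem rdRel.pow {J : Ideal R} {a b : R} (h : rdRel J 1 a b) (k : ℕ) : rdRel J k (a ^ k) (b ^ k) := by
  induction k with
  | zero => simpa using rdRel.one J
  | succ k ih => rw [pow_succ, pow_succ]; exact ih.mul h

theorem rdRel.prod {J : Ideal R} {ι : Type} {a b : ι → R} (h : ∀ i, rdRel J 1 (a i) (b i)) (β : ι → ℕ)
    (s : Finset ι) : rdRel J (∑ i ∈ s, β i) (∏ i ∈ s, a i ^ β i) (∏ i ∈ s, b i ^ β i) := by
  classical
  induction s using Finset.induction_on with
  | empty => simpa using rdRel.one J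
  | insert i s hi ih =>
    rw [Finset.sum_insert hi, Finset.prod_insert hi, Finset.prod_insert hi]
    exact ((h i).pow _).mul ih

/-- The sharp form of `red_step`. -/
theorem rd_step [Infinite (ResidueField R)] {n : ℕ} (h : ringKrullDim R ≤ n)
    {y : Fin (n + 1) → R} {K : ℕ} (hy : IsRed y K) :
    ∃ (c : Fin n → R) (K' : ℕ), IsRed (fun i => y i.succ - c i * y 0) K' := by
  obtain ⟨k, a, ha, hG⟩ := rd_exists_form h hy.1
  obtain ⟨c, hu⟩ := rd_exists_point a ha
  set c' : Fin (n + 1) → R := Fin.cons 1 c with hc'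
  set J := idl fun i : Fin n => y i.succ - c i * y 0 with hJ
  have hmem : ∀ i : Fin n, y i.succ - c i * y 0 ∈ maximalIdeal R := fun i =>
    sub_mem (hy.1 _) (Ideal.mul_mem_left _ _ (hy.1 0))
  have h1 : ∀ i, rdRel J 1 (y i) (c' i * y 0) := by
    intro i
    rw [rdRel, pow_one]
    refine ⟨hy.1 i, Ideal.mul_mem_left _ _ (hy.1 0), fun t ht => Ideal.mul_mem_mul ?_ ht⟩
    refine Fin.cases ?_ (fun i => ?_) i
    · simp [hc']
    · exact ln_mem_idl (fun i : Fin n => y i.succ - c i * y 0) i
  have h2 : ∀ β : Fin (n + 1) → ℕ, ∑ i, β i = k → ∀ t ∈ maximalIdeal R,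
      (∏ i, y i ^ β i - (∏ i, c' i ^ β i) * y 0 ^ k) * t ∈ J * maximalIdeal R ^ k := by
    intro β hβ
    have := (rdRel.prod h1 β Finset.univ).2.2
    simp only [mul_pow, Finset.prod_mul_distrib, Finset.prod_pow_eq_pow_sum, hβ] at this
    exact this
  set T := J * maximalIdeal R ^ k ⊔ maximalIdeal R ^ (k + 1) * maximalIdeal R with hT
  have h3 : ∀ t ∈ maximalIdeal R, y 0 ^ k * t ∈ T := by
    intro t ht
    rw [← Ideal.unit_mul_mem_iff_mem _ hu]
    have e : (∑ β, a β * ∏ i, c' i ^ β.1 i) * (y 0 ^ k * t) = (∑ β, a β * ∏ i, y i ^ β.1 i) * t -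
        ∑ β, a β * ((∏ i, y i ^ β.1 i - (∏ i, c' i ^ β.1 i) * y 0 ^ k) * t) := by
      rw [Finset.sum_mul, Finset.sum_mul, ← Finset.sum_sub_distrib]
      exact Finset.sum_congr rfl fun β _ => by ring
    rw [e]
    exact sub_mem (Ideal.mem_sup_right (Ideal.mul_mem_mul hG ht)) (Ideal.mem_sup_left
      (Ideal.sum_mem _ fun β _ => Ideal.mul_mem_left _ _
        (h2 β.1 (Finset.Nat.mem_antidiagonalTuple.1 β.2) t ht)))
  have h4 : idl y ^ k * maximalIdeal R ≤ T := by
    rw [ln_idl_pow_eq, ← Ideal.smul_eq_mul]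
    refine Submodule.smul_le.2 fun r hr t ht => ?_
    refine Submodule.span_induction (p := fun r _ => r • t ∈ T) ?_ (by simp) ?_ ?_ hr
    · rintro _ ⟨β, hβ, rfl⟩
      have e : (∏ i, y i ^ β i) • t = (∏ i, y i ^ β i - (∏ i, c' i ^ β i) * y 0 ^ k) * t +
          (∏ i, c' i ^ β i) * (y 0 ^ k * t) := by rw [smul_eq_mul]; ring
      rw [e]
      exact add_mem (Ideal.mem_sup_left (h2 β hβ t ht)) (Ideal.mul_mem_left _ _ (h3 t ht))
    · intro r r' _ _ h h'
      rw [add_smul]; exact add_mem h h'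
    · intro r r' _ h
      rw [smul_assoc]; exact Submodule.smul_mem _ _ h
  refine ⟨c, K + k, hmem, le_antisymm ?_ ?_⟩
  · refine Submodule.le_of_le_smul_of_le_jacobson_bot (IsNoetherian.noetherian _)
      (maximalIdeal_le_jacobson ⊥) ?_
    calc maximalIdeal R ^ (K + k + 1) = idl y ^ k * maximalIdeal R * maximalIdeal R ^ K := by
          rw [pow_succ, hy.pow]; ring
      _ ≤ T * maximalIdeal R ^ K := Ideal.mul_mono_left h4
      _ = _ := by rw [hT, Ideal.sup_mul, Ideal.smul_eq_mul]; congr 1 <;> ring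
  · rw [pow_succ']
    exact Ideal.mul_mono_left (ln_idl_le hmem)

/-- One step of Noether normalisation.  Let `y : Fin (n+1) → R` be a reduction with `n ≥ d`.  The forms of degree
`k` in `y` span `((y)^k + 𝔪^(k+1)) / 𝔪^(k+1)`.  If the monomials of degree `k` in `y` were independent there for
every `k`, then `hs R (k+1) - hs R k ≥ (k + n).choose n`, so `hs R k ≥ (k + n).choose (n+1)`, against
`hsM_le_poly`.  So there is a form `G` of degree `k` with a unit coefficient and `G(y) ∈ 𝔪^(k+1)`.  The residue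
field is infinite, so there are `c i` with `G(c_0, …, c_{n-1}, 1)` a unit (dehomogenise; `MvPolynomial.funext`).
Put `y' i = y i - c i * y last`.  Then `y last ^ k ∈ (y') 𝔪^(k-1) + 𝔪^(k+1)`, so
`𝔪^(K+k) = (y)^k 𝔪^K ≤ (y') 𝔪^(K+k-1) + 𝔪^(K+k+1)`; Nakayama. -/
theorem red_step [Infinite (ResidueField R)] (h : ringKrullDim R ≤ d) {n : ℕ} (hn : d ≤ n)
    {y : Fin (n + 1) → R} {K : ℕ} (hy : IsRed y K) : ∃ (y' : Fin n → R) (K' : ℕ), IsRed y' K' := by
  obtain ⟨c, K', H⟩ := rd_step (h.trans (by exact_mod_cast hn)) hy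
  exact ⟨_, K', H⟩

/-- Start from generators of the maximal ideal (padded with zeros) and iterate `red_step`. -/
theorem exists_red [Infinite (ResidueField R)] (h : ringKrullDim R ≤ d) :
    ∃ (x : Fin d → R) (K : ℕ), IsRed x K := by
  have key : ∀ e : ℕ, (∃ (x : Fin (d + e) → R) (K : ℕ), IsRed x K) →
      ∃ (x : Fin d → R) (K : ℕ), IsRed x K := by
    intro e
    induction e with
    | zero => exact id
    | succ e ih => exact fun ⟨x, K, hx⟩ => ih (red_step h (Nat.le_add_right d e) hx)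
  obtain ⟨n, y, hy⟩ := gw_gen R
  have hm : ∀ i : Fin (d + n), (Fin.addCases (fun _ => 0) y i : R) ∈ maximalIdeal R := fun i => by
    refine Fin.addCases (fun i => ?_) (fun i => ?_) i
    · simp
    · rw [Fin.addCases_right, ← hy]; exact ln_mem_idl y i
  refine key n ⟨fun i => Fin.addCases (fun _ => 0) y i, 0, hm, ?_⟩
  rw [zero_add, pow_one, pow_zero, mul_one]
  refine le_antisymm (hy ▸ ln_idl_le fun i => ?_) (ln_idl_le hm)
  have := ln_mem_idl (fun i : Fin (d + n) => (Fin.addCases (fun _ => 0) y i : R)) (Fin.natAdd d i)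
  rwa [Fin.addCases_right] at this

/-- Change of generators of `(x)` so that `π` and the tail of `x` form a system of parameters.  Let
`R' = R / π`, of dimension `≤ d`, and `V` the span of the `x i`.  Apply the proof of `red_step` (or a direct
prime avoidance argument) in `R'`: there are `c i ∈ R` and an index `j` such that the `d` elements
`x i - c i * x j`, `i ≠ j`, generate a reduction of the maximal ideal of `R'`; put `x' 0 = x j` and let the tail be
these elements.  (It is best to prove `red_step` in the sharper form `y' i = y i.castSucc - c i * y last`, which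
the proof above gives, and to use it here for the images of `x` in `R'`.) -/
theorem exists_red_sop [Infinite (ResidueField R)] (h : ringKrullDim R ≤ (d + 1 : ℕ)) {π : R}
    (hπ : π ∈ maximalIdeal R) (hq : ringKrullDim (R ⧸ Ideal.span {π}) ≤ d) :
    ∃ (x : Fin (d + 1) → R) (K : ℕ), IsRed x K ∧ Sop (Fin.cons π (Fin.tail x) : Fin (d + 1) → R) := by
  obtain ⟨x, K, hx⟩ := exists_red h
  have hI : Ideal.span {π} ≠ ⊤ := fun e =>
    (mem_maximalIdeal π).1 hπ (Ideal.span_singleton_eq_top.1 e)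
  have : Nontrivial (R ⧸ Ideal.span {π}) := Ideal.Quotient.nontrivial_iff.2 hI
  have : IsLocalRing (R ⧸ Ideal.span {π}) := IsLocalRing.of_surjective' _ Ideal.Quotient.mk_surjective
  set q := Ideal.Quotient.mk (Ideal.span {π}) with hq'
  have hs : Function.Surjective q := Ideal.Quotient.mk_surjective
  have : IsLocalHom q := IsLocalHom.of_surjective q hs
  have : Infinite (ResidueField (R ⧸ Ideal.span {π})) :=
    Infinite.of_injective _ (ResidueField.map q).injective
  have hm := map_maximalIdeal_of_surjective q hs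
  have hx' : IsRed (fun i => q (x i)) K :=
    ⟨fun i => hm ▸ Ideal.mem_map_of_mem q (hx.1 i), by
      rw [← hm, ← Ideal.map_pow, ← Ideal.map_pow, hx.2, Ideal.map_mul, idl_map]⟩
  obtain ⟨c', K', H⟩ := rd_step hq hx'
  choose c hc using fun i => hs (c' i)
  let z : Fin d → R := fun i => x i.succ - c i * x 0
  have hz : ∀ i, z i ∈ maximalIdeal R := fun i => sub_mem (hx.1 _) (Ideal.mul_mem_left _ _ (hx.1 0))
  have e : idl (Fin.cons (x 0) z : Fin (d + 1) → R) = idl x := by
    refine le_antisymm (ln_idl_le fun i => Fin.cases (ln_mem_idl x 0) (fun i => ?_) i)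
      (ln_idl_le fun i => Fin.cases (ln_mem_idl (Fin.cons (x 0) z : Fin (d + 1) → R) 0) (fun i => ?_) i)
    · exact sub_mem (ln_mem_idl x _) (Ideal.mul_mem_left _ _ (ln_mem_idl x 0))
    · have := add_mem (ln_mem_idl (Fin.cons (x 0) z : Fin (d + 1) → R) i.succ)
        (Ideal.mul_mem_left _ (c i) (ln_mem_idl (Fin.cons (x 0) z : Fin (d + 1) → R) 0))
      simpa [z] using this
  refine ⟨Fin.cons (x 0) z, K, ⟨fun i => Fin.cases (hx.1 0) hz i, by rw [e, hx.2]⟩,
    fun i => Fin.cases hπ hz i, K' + 1, ?_⟩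
  have h1 : maximalIdeal (R ⧸ Ideal.span {π}) ^ (K' + 1) ≤ (idl z).map q := by
    rw [H.2, idl_map]
    refine Ideal.mul_le_left.trans (le_of_eq ?_)
    simp only [z, map_sub, map_mul, hc]
  rw [← hm, ← Ideal.map_pow, Ideal.map_le_iff_le_comap, Ideal.comap_map_of_surjective _ hs,
    ← RingHom.ker_eq_comap_bot, hq', Ideal.mk_ker, sup_comm] at h1
  rw [ln_idl_succ]
  exact h1

/-- Elements of `𝔪` are integral over a reduction, in determinantal form: `b 𝔪^K ≤ (x) 𝔪^K`. -/
theorem IsRed.mul_le {x : Fin d → R} {K : ℕ} (h : IsRed x K) {b : R} (hb : b ∈ maximalIdeal R) :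
    Ideal.span {b} * maximalIdeal R ^ K ≤ idl x * maximalIdeal R ^ K := by
  rw [← h.2, pow_succ']
  exact Ideal.mul_mono_left ((Ideal.span_singleton_le_iff_mem _).2 hb)

/-- The Hilbert–Samuel function is squeezed by the colengths of `(x)^k`. -/
theorem IsRed.hs_le {x : Fin d → R} {K : ℕ} (h : IsRed x K) (k : ℕ) :
    len R (R ⧸ idl x ^ (k - K)) ≤ hs R k ∧ hs R k ≤ len R (R ⧸ idl x ^ k) := by
  have h1 : ∀ j, maximalIdeal R ^ (K + j) ≤ idl x ^ j := fun j => h.pow j ▸ Ideal.mul_le_left
  constructor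
  · refine ln_cl_anti (gw_colen_pow k) ?_
    rcases le_total K k with hk | hk
    · have := h1 (k - K)
      rwa [Nat.add_sub_cancel' hk] at this
    · rw [Nat.sub_eq_zero_of_le hk, pow_zero, Ideal.one_eq_top]
      exact le_top
  · exact ln_cl_anti (ln_fin_anti (gw_colen_pow (K + k)) (h1 k))
      (Ideal.pow_right_mono (ln_idl_le h.1) k)

end Crest.Agent.R183
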