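import Crest.Agent.R183.Ord
import Crest.Agent.R183.Red

/-!
# rid 183, file `Sand`: finite modules over a regular base, rank asymptotics

Prefix helper lemmas with `sd_`.
-/

set_option autoImplicit false

open Filter IsLocalRing

namespace Crest.Agent.R183

variable {Λ : Type} [CommRing Λ] {d : ℕ} {W : Type} [AddCommGroup W] [Module Λ W]

/-- Take a maximal linearly independent family `ι` (its size is `finrank Λ W`); the cokernel is torsion and finite,
killed by `γ0 ≠ 0`; `β0 w` is defined by `ι (β0 w) = γ0 • w`. -/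
theorem exists_sand [IsDomain Λ] [Module.Finite Λ W] : ∃ γ : Λ, γ ≠ 0 ∧ Sand γ W (Module.finrank Λ W) := by
  obtain ⟨f, hf⟩ := exists_linearIndependent_of_le_finrank (R := Λ) (M := W) le_rfl
  let ι : (Fin (Module.finrank Λ W) → Λ) →ₗ[Λ] W := Fintype.linearCombination Λ f
  have hι : Function.Injective ι := hf.fintypeLinearCombination_injective
  have h1 := Submodule.finrank_quotient_add_finrank (LinearMap.range ι)
  rw [LinearMap.finrank_range_of_inj hι, Module.finrank_fin_fun, add_eq_right,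
    Module.finrank_eq_zero_iff_isTorsion] at h1
  obtain ⟨γ, h2, h3⟩ := Submodule.annihilator_top_inter_nonZeroDivisors h1
  have h4 : ∀ w : W, (γ • LinearMap.id : W →ₗ[Λ] W) w ∈ LinearMap.range ι := fun w => by
    have := Submodule.mem_annihilator.mp h2 (Submodule.Quotient.mk w) Submodule.mem_top
    rwa [← Submodule.Quotient.mk_smul, Submodule.Quotient.mk_eq_zero] at this
  let β : W →ₗ[Λ] (Fin (Module.finrank Λ W) → Λ) :=
    (LinearEquiv.ofInjective ι hι).symm.toLinearMap ∘ₗ LinearMap.codRestrict _ _ h4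
  have h5 : ∀ w, ι (β w) = γ • w := fun w =>
    congrArg Subtype.val ((LinearEquiv.ofInjective ι hι).apply_symm_apply ⟨_, h4 w⟩)
  exact ⟨γ, nonZeroDivisors.ne_zero h3, β, ι, h5, fun v => hι (by rw [h5, map_smul])⟩

theorem Sand.mul {γ : Λ} {ρ : ℕ} (h : Sand γ W ρ) (c : Λ) : Sand (c * γ) W ρ := by
  obtain ⟨β, ι, h1, h2⟩ := h
  refine ⟨c • β, ι, fun w => ?_, fun v => ?_⟩
  · rw [LinearMap.smul_apply, map_smul, h1, mul_smul]
  · rw [LinearMap.smul_apply, h2, mul_smul]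

theorem Sand.finrank_eq [IsDomain Λ] [Module.Finite Λ W] {γ : Λ} (hγ : γ ≠ 0) {ρ : ℕ} (h : Sand γ W ρ) :
    Module.finrank Λ W = ρ := by
  obtain ⟨β, ι, h1, h2⟩ := h
  apply le_antisymm
  · have h3 := Submodule.finrank_quotient_add_finrank (LinearMap.ker β)
    have h4 : Module.rank Λ (LinearMap.ker β) = 0 := rank_eq_zero_iff.mpr fun x =>
      ⟨γ, hγ, Subtype.ext (by
        have := h1 x.1
        rw [LinearMap.mem_ker.mp x.2, map_zero] at this
        exact this.symm)⟩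
    have h5 : Module.finrank Λ (LinearMap.ker β) = 0 := by rw [Module.finrank, h4, map_zero]
    rw [h5, add_zero, β.quotKerEquivRange.finrank_eq] at h3
    rw [← h3]
    exact (Submodule.finrank_le _).trans (Module.finrank_fin_fun Λ).le
  · have hι : Function.Injective ι := by
      rw [injective_iff_map_eq_zero]
      intro v hv
      have := h2 v
      rw [hv, map_zero] at this
      exact (smul_eq_zero.mp this.symm).resolve_left hγ
    exact (Module.finrank_fin_fun Λ).ge.trans (LinearMap.finrank_le_finrank_of_injective hι)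

theorem sd_two {V : Type} [AddCommGroup V] [Module Λ V] {γ : Λ} (β : W →ₗ[Λ] V) (ι : V →ₗ[Λ] W)
    (h : ∀ w, ι (β w) = γ • w) (J : Ideal Λ) :
    colen Λ (ism J W) ≤ colen Λ (ism J V) + colen Λ (ism (J ⊔ Ideal.span {γ}) W) := by
  refine (colen_le_comap_add ι _).trans (add_le_add (colen_anti fun v hv => ln_mem_ism ι hv)
    (colen_anti ?_))
  rw [ln_ism_sup]
  refine sup_le_sup_left (fun w hw => ?_) _
  obtain ⟨v, rfl⟩ := (ln_mem_ism_span _ _).mp hw
  exact ⟨β v, h v⟩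

theorem sd_ism_self (J : Ideal Λ) : ism J Λ = J := by rw [ism, smul_eq_mul, Ideal.mul_top]

theorem sd_colen_fin (ρ : ℕ) (J : Ideal Λ) : colen Λ (ism J (Fin ρ → Λ)) = ρ * colen Λ J := by
  rw [colen_ism_pi, Fintype.card_fin, sd_ism_self]

/-- `colen_le_comap_add` along `ι`: `J Λ^ρ ≤ ι⁻¹ (J W)` and `γ W ≤ range ι`. -/
theorem Sand.colen_le {γ : Λ} {ρ : ℕ} (h : Sand γ W ρ) (J : Ideal Λ) :
    colen Λ (ism J W) ≤ ρ * colen Λ J + colen Λ (ism (J ⊔ Ideal.span {γ}) W) := by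
  obtain ⟨β, ι, h1, -⟩ := h
  rw [← sd_colen_fin]
  exact sd_two β ι h1 J

/-- The same along `β`. -/
theorem Sand.le_colen {γ : Λ} {ρ : ℕ} (h : Sand γ W ρ) (J : Ideal Λ) :
    ρ * colen Λ J ≤ colen Λ (ism J W) + ρ * colen Λ (J ⊔ Ideal.span {γ}) := by
  obtain ⟨β, ι, -, h2⟩ := h
  rw [← sd_colen_fin, ← sd_colen_fin]
  exact sd_two ι β h2 J

theorem Sand.areg {γ : Λ} {ρ : ℕ} (h : Sand γ W ρ) {X : Fin d → Λ} (hX : Reg X Λ) (L : ℕ) : AReg γ X L W := by
  obtain ⟨β, ι, h1, -⟩ := h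
  exact AReg.of_sandwich ((hX.pi (Fin ρ)).areg L) β ((ism (idl X ^ L) W).mkQ ∘ₗ ι) fun w => by
    rw [LinearMap.comp_apply, h1, Submodule.mkQ_apply]

theorem sd_mul_ne_top (ρ : ℕ) {a : ℕ∞} (ha : a ≠ ⊤) : (ρ : ℕ∞) * a ≠ ⊤ :=
  WithTop.mul_ne_top (ENat.natCast_ne_top _) ha

theorem sd_real_le {a b c : ℕ∞} {ρ : ℕ} (hb : b ≠ ⊤) (hc : c ≠ ⊤) (h : a ≤ ρ * b + c) :
    (a.toNat : ℝ) ≤ ρ * b.toNat + c.toNat := by
  have h1 := sd_mul_ne_top ρ hb
  have := ENat.toNat_le_toNat h (WithTop.add_ne_top.mpr ⟨h1, hc⟩)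
  rw [ENat.toNat_add h1 hc, ENat.toNat_mul, ENat.toNat_natCast] at this
  exact_mod_cast this

theorem sd_real_le' {a b c : ℕ∞} {ρ : ℕ} (ha : a ≠ ⊤) (hc : c ≠ ⊤) (h : ρ * b ≤ a + ρ * c) :
    (ρ : ℝ) * b.toNat ≤ a.toNat + ρ * c.toNat := by
  have h1 := sd_mul_ne_top ρ hc
  have := ENat.toNat_le_toNat h (WithTop.add_ne_top.mpr ⟨ha, h1⟩)
  rw [ENat.toNat_add ha h1, ENat.toNat_mul, ENat.toNat_mul, ENat.toNat_natCast] at this
  exact_mod_cast this

theorem sd_real_mul {a b : ℕ∞} {ρ : ℕ} (hb : b ≠ ⊤) (h : a ≤ ρ * b) : (a.toNat : ℝ) ≤ ρ * b.toNat := by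
  have := ENat.toNat_le_toNat h (sd_mul_ne_top ρ hb)
  rw [ENat.toNat_mul, ENat.toNat_natCast] at this
  exact_mod_cast this

theorem Sand.sd_len_le {γ : Λ} {ρ : ℕ} (h : Sand γ W ρ) {J : Ideal Λ} (hJ : colen Λ J ≠ ⊤)
    (hW : colen Λ (ism J W) ≠ ⊤) :
    len Λ (W ⧸ ism J W) ≤ ρ * len Λ (Λ ⧸ J) + len Λ (W ⧸ ism (J ⊔ Ideal.span {γ}) W) :=
  sd_real_le hJ (ln_fin_anti hW (ln_ism_mono le_sup_left)) (h.colen_le J)

theorem Sand.sd_le_len {γ : Λ} {ρ : ℕ} (h : Sand γ W ρ) {J : Ideal Λ} (hJ : colen Λ J ≠ ⊤)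
    (hW : colen Λ (ism J W) ≠ ⊤) :
    ρ * len Λ (Λ ⧸ J) ≤ len Λ (W ⧸ ism J W) + ρ * len Λ (Λ ⧸ (J ⊔ Ideal.span {γ})) :=
  sd_real_le' hW (ln_fin_anti hJ le_sup_left) (h.le_colen J)

theorem RBase.colen_one {X : Fin d → Λ} (h : RBase Λ X) : colen Λ (idl X) = 1 :=
  Module.length_eq_one_iff.mpr (isSimpleModule_iff_isCoatom.mpr (Ideal.isMaximal_def.mp h.max))

theorem RBase.sd_colen_pow {X : Fin d → Λ} (h : RBase Λ X) (k : ℕ) :
    colen Λ (idl X ^ k) = ((k + d - 1).choose d : ℕ) := by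
  have := h.reg.colen_idl_pow h.pos k
  rwa [sd_ism_self, sd_ism_self, h.colen_one, mul_one] at this

theorem RBase.sd_colen_br {X : Fin d → Λ} (h : RBase Λ X) (t : ℕ) :
    colen Λ (br X t) = (t ^ d : ℕ) := by
  have := h.reg.colen_br t
  rwa [sd_ism_self, sd_ism_self, h.colen_one, mul_one] at this

theorem sd_fin_of_fin [Module.Finite Λ W] {J : Ideal Λ} (hJ : colen Λ J ≠ ⊤) :
    colen Λ (ism J W) ≠ ⊤ := by
  obtain ⟨μ, f, hf⟩ := Module.Finite.exists_fin' Λ W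
  exact ne_top_of_le_ne_top (sd_mul_ne_top μ hJ) (colen_ism_le_of_gen f hf J)

theorem RBase.sd_fin {X : Fin d → Λ} (h : RBase Λ X) (k : ℕ) : colen Λ (idl X ^ k) ≠ ⊤ := by
  rw [h.sd_colen_pow]
  exact ENat.natCast_ne_top _

theorem RBase.sd_fin_br {X : Fin d → Λ} (h : RBase Λ X) (t : ℕ) : colen Λ (br X t) ≠ ⊤ := by
  rw [h.sd_colen_br]
  exact ENat.natCast_ne_top _

theorem RBase.isFiniteLength {X : Fin d → Λ} (h : RBase Λ X) [Module.Finite Λ W] {U : Submodule Λ W} {k : ℕ}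
    (hU : ism (idl X ^ k) W ≤ U) : IsFiniteLength Λ (W ⧸ U) :=
  Module.length_ne_top_iff.mp (ln_fin_anti (sd_fin_of_fin (h.sd_fin k)) hU)

theorem RBase.small_mod {X : Fin d → Λ} (h : RBase Λ X) [Module.Finite Λ W] {γ : Λ} (hγ : γ ≠ 0) :
    ∃ C : ℝ, 0 ≤ C ∧ ∀ k : ℕ,
      len Λ (W ⧸ ism (idl X ^ k ⊔ Ideal.span {γ}) W) ≤ C * ((k : ℝ) + 1) ^ (d - 1) := by
  obtain ⟨μ, f, hf⟩ := Module.Finite.exists_fin' Λ W
  obtain ⟨C, hC⟩ := h.small γ hγ
  refine ⟨μ * Max.max C 0, by positivity, fun k => ?_⟩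
  have h1 : len Λ (W ⧸ ism (idl X ^ k ⊔ Ideal.span {γ}) W) ≤
      μ * len Λ (Λ ⧸ (idl X ^ k ⊔ Ideal.span {γ})) :=
    sd_real_mul (ln_fin_anti (h.sd_fin k) le_sup_left) (colen_ism_le_of_gen f hf _)
  refine h1.trans ?_
  rw [mul_assoc]
  refine mul_le_mul_of_nonneg_left ((hC k).trans ?_) (Nat.cast_nonneg _)
  exact mul_le_mul_of_nonneg_right (le_max_left _ _) (by positivity)

/-- `(X)^(d t) ≤ br X t`. -/
theorem RBase.small_br {X : Fin d → Λ} (h : RBase Λ X) [Module.Finite Λ W] {γ : Λ} (hγ : γ ≠ 0) :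
    ∃ C : ℝ, 0 ≤ C ∧ ∀ t : ℕ, 0 < t →
      len Λ (W ⧸ ism (br X t ⊔ Ideal.span {γ}) W) ≤ C * (t : ℝ) ^ (d - 1) := by
  obtain ⟨C, hC0, hC⟩ := h.small_mod (W := W) hγ
  refine ⟨C * ((d : ℝ) + 1) ^ (d - 1), by positivity, fun t ht => ?_⟩
  have h1 : len Λ (W ⧸ ism (br X t ⊔ Ideal.span {γ}) W) ≤
      len Λ (W ⧸ ism (idl X ^ (d * t) ⊔ Ideal.span {γ}) W) :=
    ln_cl_anti (sd_fin_of_fin (ln_fin_anti (h.sd_fin (d * t)) le_sup_left))
      (ln_ism_mono (sup_le_sup_right (idl_pow_le_br h.pos X t) _))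
  refine h1.trans ((hC _).trans ?_)
  rw [mul_assoc, ← mul_pow]
  have : (1 : ℝ) ≤ t := by exact_mod_cast ht
  gcongr
  push_cast
  linarith

theorem RBase.br_approx {X : Fin d → Λ} (h : RBase Λ X) [Module.Finite Λ W] :
    ∃ C : ℝ, 0 ≤ C ∧ ∀ t : ℕ, 0 < t →
      |len Λ (W ⧸ ism (br X t) W) - Module.finrank Λ W * (t : ℝ) ^ d| ≤ C * (t : ℝ) ^ (d - 1) := by
  have := h.dom
  obtain ⟨γ, hγ, hs⟩ := exists_sand (Λ := Λ) (W := W)
  obtain ⟨C1, h1, H1⟩ := h.small_br (W := W) hγ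
  obtain ⟨C2, h2, H2⟩ := h.small_br (W := Λ) hγ
  refine ⟨C1 + Module.finrank Λ W * C2, by positivity, fun t ht => ?_⟩
  have e : len Λ (Λ ⧸ br X t) = (t : ℝ) ^ d := by
    have := h.sd_colen_br t
    rw [colen] at this
    rw [len, this, ENat.toNat_natCast, Nat.cast_pow]
  have h3 := hs.sd_len_le (h.sd_fin_br t) (sd_fin_of_fin (h.sd_fin_br t))
  have h4 := hs.sd_le_len (h.sd_fin_br t) (sd_fin_of_fin (h.sd_fin_br t))
  have h5 := H1 t ht
  have h6 := H2 t ht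
  rw [sd_ism_self] at h6
  rw [e] at h3 h4
  have h7 := mul_le_mul_of_nonneg_left h6 (Nat.cast_nonneg (α := ℝ) (Module.finrank Λ W))
  have h8 : 0 ≤ C1 * (t : ℝ) ^ (d - 1) := by positivity
  have h9 : 0 ≤ Module.finrank Λ W * (C2 * (t : ℝ) ^ (d - 1)) := by positivity
  rw [abs_le]
  constructor <;> nlinarith

theorem RBase.sd_len_pow {X : Fin d → Λ} (h : RBase Λ X) (k : ℕ) :
    len Λ (Λ ⧸ idl X ^ k) = ((k + d - 1).choose d : ℕ) := by
  have := h.sd_colen_pow k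
  rw [colen] at this
  rw [len, this, ENat.toNat_natCast]

theorem RBase.ube {X : Fin d → Λ} (h : RBase Λ X) [Module.Finite Λ W] :
    UBe (fun k => len Λ (W ⧸ ism (idl X ^ k) W)) d (Module.finrank Λ W) := by
  have := h.dom
  obtain ⟨γ, hγ, hs⟩ := exists_sand (Λ := Λ) (W := W)
  obtain ⟨C, -, H⟩ := h.small_mod (W := W) hγ
  obtain ⟨e, rfl⟩ := Nat.exists_eq_succ_of_ne_zero h.pos.ne'
  have h1 := ((ube_choose h.pos).const_mul (Nat.cast_nonneg (Module.finrank Λ W))).add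
    (ube_zero_of_le_poly H)
  rw [mul_one, add_zero] at h1
  refine h1.of_le (Eventually.of_forall fun k => ?_)
  rw [← h.sd_len_pow]
  exact hs.sd_len_le (h.sd_fin k) (sd_fin_of_fin (h.sd_fin k))

theorem RBase.lbe {X : Fin d → Λ} (h : RBase Λ X) [Module.Finite Λ W] :
    LBe (fun k => len Λ (W ⧸ ism (idl X ^ k) W)) d (Module.finrank Λ W) := by
  have := h.dom
  obtain ⟨γ, hγ, hs⟩ := exists_sand (Λ := Λ) (W := W)
  obtain ⟨C, H⟩ := h.small γ hγ
  obtain ⟨e, rfl⟩ := Nat.exists_eq_succ_of_ne_zero h.pos.ne'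
  have h1 := ((lbe_choose h.pos).const_mul (Nat.cast_nonneg (Module.finrank Λ W))).sub
    ((ube_zero_of_le_poly H).const_mul (Nat.cast_nonneg (Module.finrank Λ W)))
  rw [mul_one, mul_zero, sub_zero] at h1
  refine h1.of_le (Eventually.of_forall fun k => ?_)
  rw [← h.sd_len_pow, sub_le_iff_le_add]
  exact hs.sd_le_len (h.sd_fin k) (sd_fin_of_fin (h.sd_fin k))

theorem sd_idl_X (K : Type) [Field K] :
    idl (MvPolynomial.X : Fin d → MvPolynomial (Fin d) K) =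
      RingHom.ker (MvPolynomial.constantCoeff : MvPolynomial (Fin d) K →+* K) := by
  ext f
  rw [idl, ← Set.image_univ, MvPolynomial.mem_ideal_span_X_image, RingHom.mem_ker,
    MvPolynomial.constantCoeff_eq]
  constructor
  · intro h
    by_contra h0
    obtain ⟨i, -, hi⟩ := h 0 (MvPolynomial.mem_support_iff.mpr h0)
    exact hi rfl
  · intro h m hm
    by_contra h0
    push Not at h0
    obtain rfl : m = 0 := Finsupp.ext fun i => h0 i (Set.mem_univ i)
    exact MvPolynomial.mem_support_iff.mp hm h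

/-- The polynomial ring: `colen_pow_sup_le` (a nonzero polynomial is outside some power of `(X)`). -/
theorem rbase_poly (K : Type) [Field K] (hd : 0 < d) :
    RBase (MvPolynomial (Fin d) K) (MvPolynomial.X : Fin d → MvPolynomial (Fin d) K) := by
  have hm : (idl (MvPolynomial.X : Fin d → MvPolynomial (Fin d) K)).IsMaximal := by
    rw [sd_idl_X]
    exact RingHom.ker_isMaximal_of_surjective _ fun a => ⟨MvPolynomial.C a, by simp⟩
  refine ⟨inferInstance, inferInstance, hd, reg_X_poly d K, hm, fun γ hγ => ?_⟩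
  have h1 := Ideal.iInf_pow_eq_bot_of_isDomain _ hm.ne_top
  obtain ⟨o, ho⟩ : ∃ o, γ ∉ idl (MvPolynomial.X : Fin d → MvPolynomial (Fin d) K) ^ o := by
    by_contra h0
    push Not at h0
    exact hγ (Ideal.mem_bot.mp (h1 ▸ Ideal.mem_iInf.mpr h0))
  refine ⟨o, fun k => ?_⟩
  have := len_le_of_le (colen_pow_sup_le (reg_X_poly d K) hm hd
    (fun h => ho (Ideal.pow_le_pow_right (Nat.le_succ o) h)) k)
  exact_mod_cast this

section loc

variable {R : Type} [CommRing R] [IsNoetherianRing R] [IsLocalRing R]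

theorem sd_fin_max (Q : Type) [AddCommGroup Q] [Module R Q] [Module.Finite R Q] (k : ℕ) :
    colen R (ism (maximalIdeal R ^ k) Q) ≠ ⊤ :=
  Module.length_ne_top_iff.mpr (isFiniteLength_quot le_rfl)

/-- Multiplicity against rank.  `R` is a domain, `Q` a finite module of rank `ρ`, `x` in `𝔪`.  With a sandwich
`γ`: `ρ * hs R (t k) ≤ len (Q / 𝔪^(t k) Q) + ρ len (R / (𝔪^(t k), γ))`, the last term is `O(k^d)`, and
`len (Q / 𝔪^(t k) Q) ≤ len (Q / (x^[t])^k Q) ≤ choose * len (Q / x^[t] Q)`.  Use `ube_of_dilate` for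
`hsM R Q`. -/
theorem low_mult [IsDomain R] (h : ringKrullDim R ≤ (d + 1 : ℕ)) {x : Fin (d + 1) → R} (hx : Sop x)
    (Q : Type) [AddCommGroup Q] [Module R Q] [Module.Finite R Q] {E : ℝ} (hE : LeMult (hs R) (d + 1) E)
    {t : ℕ} (ht : 0 < t) :
    Module.finrank R Q * E * (t : ℝ) ^ (d + 1) ≤ len R (Q ⧸ ism (br x t) Q) := by
  rcases Nat.eq_zero_or_pos (Module.finrank R Q) with h0 | hρ
  · rw [h0, Nat.cast_zero, zero_mul, zero_mul]
    exact len_nonneg
  obtain ⟨γ, hγ, hs'⟩ := exists_sand (Λ := R) (W := Q)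
  obtain ⟨C, -, H⟩ := small_colen (dim_quot_le_of_domain h hγ) 1 R
  obtain ⟨hx1, c, hx2⟩ := hx
  have hb : colen R (ism (br x t) Q) ≠ ⊤ := by
    refine ln_fin_anti (sd_fin_max Q (c * ((d + 1) * t))) (ln_ism_mono ?_)
    rw [pow_mul]
    exact (Ideal.pow_right_mono hx2 _).trans (idl_pow_le_br (Nat.succ_pos d) x t)
  have h1 : UBe (hsM R Q) (d + 1) (len R (Q ⧸ ism (br x t) Q) / (t : ℝ) ^ (d + 1)) := by
    refine ube_of_dilate (Nat.succ_pos d) (hsM_mono Q) ht len_nonneg fun k => ?_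
    have h2 := colen_idl_pow_le (fun i => x i ^ t) k (⊥ : Submodule R Q)
    rw [bot_sup_eq, bot_sup_eq] at h2
    have h3 : ism (br x t ^ k) Q ≤ ism (maximalIdeal R ^ (t * k)) Q := by
      refine ln_ism_mono ?_
      rw [pow_mul]
      exact Ideal.pow_right_mono
        ((br_le_idl_pow x t).trans (Ideal.pow_right_mono (ln_idl_le hx1) t)) k
    exact (sd_real_mul hb ((colen_anti h3).trans h2)).trans (mul_comm _ _).le
  have hρ' : (0 : ℝ) < Module.finrank R Q := by exact_mod_cast hρ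
  have h4 := (h1.const_mul (inv_pos.mpr hρ').le).add (ube_zero_of_le_poly H)
  have h5 := hE _ (h4.of_le (Eventually.of_forall fun k => ?_))
  · have ht' : (0 : ℝ) < (t : ℝ) ^ (d + 1) := by positivity
    rw [add_zero, ← div_eq_inv_mul, le_div_iff₀ hρ', le_div_iff₀ ht'] at h5
    linarith
  · have h6 := sd_fin_max (R := R) R k
    rw [sd_ism_self] at h6
    have h7 := hs'.sd_le_len h6 (sd_fin_max Q k)
    rw [pow_one, sd_ism_self]
    refine le_of_mul_le_mul_left ?_ hρ'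
    rw [mul_add, mul_inv_cancel_left₀ hρ'.ne']
    exact h7

/-- If `R` is finite over a regular base with the same residue field and the parameters lie in `𝔪`, the
multiplicity is at most the rank. -/
theorem leMult_le_finrank {X : Fin d → Λ} (h : RBase Λ X) [Algebra Λ R] [Module.Finite Λ R]
    (hX : ∀ i, algebraMap Λ R (X i) ∈ maximalIdeal R) {E : ℝ} (hE : LeMult (hs R) d E) :
    E ≤ Module.finrank Λ R := by
  refine hE _ ((h.ube (W := R)).of_le (Eventually.of_forall fun k => ?_))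
  have h1 : ism ((idl X ^ k).map (algebraMap Λ R)) R ≤ maximalIdeal R ^ k := by
    rw [sd_ism_self, Ideal.map_pow, idl_map]
    exact Ideal.pow_right_mono (ln_idl_le hX) k
  have h2 := colen_le_restrict (Λ := Λ) (ism ((idl X ^ k).map (algebraMap Λ R)) R)
  rw [ism_map_restrict] at h2
  exact Nat.cast_le.mpr (ENat.toNat_le_toNat ((colen_anti h1).trans h2) (sd_fin_of_fin (h.sd_fin k)))

end loc

end Crest.Agent.R183
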