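import Crest.Agent.R183.Dat
import Crest.Agent.R183.Sand
import Crest.Agent.R183.PS

/-!
# rid 183, file `Ex0`: the data attached to a complete local domain of equal characteristic zero

Prefix helper lemmas with `ex_`.
-/

set_option autoImplicit false

open IsLocalRing

namespace Crest.Agent.R183

theorem ex_top_smul {F E : Type} [Field F] [Field E] [Algebra F E] {α : E}
    (h : IntermediateField.adjoin F {α} = ⊤) {c : F} (hc : c ≠ 0) :
    IntermediateField.adjoin F {c • α} = ⊤ := by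
  rw [eq_top_iff, ← h, IntermediateField.adjoin_simple_le_iff]
  have := (IntermediateField.adjoin F {c • α}).smul_mem (IntermediateField.mem_adjoin_simple_self F (c • α))
    (x := c⁻¹)
  rwa [smul_smul, inv_mul_cancel₀ hc, one_smul] at this

/-- A primitive element with a monic minimal polynomial over the base.  Let `L0`, `L` be the fraction fields, `θ'` a
primitive element (`Field.exists_primitive_element`), scaled into `R` and multiplied by the image of `c0`; if `c` is a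
common denominator of the coefficients of `μ = minpoly L0 θ`, then `μ.scaleRoots c` lifts to a monic polynomial over
`Λ` (`Polynomial.lifts_and_natDegree_eq_and_monic`).  Division by `f` describes the kernel.  `δ` is a common
denominator for finitely many module generators. -/
theorem exists_primitive {Λ R : Type} [CommRing Λ] [IsDomain Λ] [CharZero Λ] [CommRing R] [IsDomain R]
    [Algebra Λ R] [Module.Finite Λ R] (hinj : Function.Injective (algebraMap Λ R)) {c0 : Λ} (hc0 : c0 ≠ 0) :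
    ∃ (θ : R) (f : Polynomial Λ) (δ : Λ), θ ∈ Ideal.span {algebraMap Λ R c0} ∧ f.Monic ∧
      Irreducible (f.map (algebraMap Λ (FractionRing Λ))) ∧ f.natDegree = Module.finrank Λ R ∧
      (∀ h : Polynomial Λ, Polynomial.aeval θ h = 0 ↔ h ∈ Ideal.span {f}) ∧ δ ≠ 0 ∧
      ∀ b : R, ∃ h : Polynomial Λ, Polynomial.aeval θ h = algebraMap Λ R δ * b := by
  classical
  have : FaithfulSMul Λ R := (faithfulSMul_iff_algebraMap_injective Λ R).2 hinj
  let L0 := FractionRing Λ
  let L := FractionRing R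
  let _ : Algebra L0 L := FractionRing.liftAlgebra Λ L
  have : IsScalarTower Λ L0 L := FractionRing.isScalarTower_liftAlgebra Λ L
  have : FiniteDimensional L0 L := .of_isLocalization Λ R (nonZeroDivisors Λ)
  have hrk : Module.finrank L0 L = Module.finrank Λ R := IsFractionRing.finrank_eq Λ L0 R L
  have : CharZero L0 := charZero_of_injective_algebraMap (IsFractionRing.injective Λ L0)
  have i0 : Function.Injective (algebraMap Λ L0) := IsFractionRing.injective Λ L0
  have i1 : Function.Injective (algebraMap R L) := IsFractionRing.injective R L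
  have hne : ∀ {c : Λ}, c ≠ 0 → algebraMap Λ L0 c ≠ 0 := fun hc h => hc (i0 (by rw [h, map_zero]))
  have hsm : ∀ (c : Λ) (r : R), algebraMap R L (algebraMap Λ R c * r) = algebraMap Λ L0 c • algebraMap R L r :=
    fun c r => by rw [map_mul, ← IsScalarTower.algebraMap_apply, algebraMap_smul, Algebra.smul_def]
  have hav : ∀ (r : R) (h : Polynomial Λ), Polynomial.aeval (algebraMap R L r) (h.map (algebraMap Λ L0)) =
      algebraMap R L (Polynomial.aeval r h) := fun r h => by
    rw [Polynomial.aeval_map_algebraMap, Polynomial.aeval_algebraMap_apply]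
  obtain ⟨θ', hθ'⟩ := Field.exists_primitive_element L0 L
  obtain ⟨a, b, hb, rfl⟩ := IsFractionRing.div_surjective (A := R) θ'
  have hb0 : b ≠ 0 := nonZeroDivisors.ne_zero hb
  obtain ⟨θ1, d, hd, h1⟩ := Algebra.IsAlgebraic.exists_smul_eq_mul Λ a hb0
  have e1 : algebraMap R L θ1 = algebraMap Λ L0 d • (algebraMap R L a / algebraMap R L b) := by
    have hb' : algebraMap R L b ≠ 0 := fun h => hb0 (i1 (by rw [h, map_zero]))
    rw [← smul_div_assoc, ← hsm, ← Algebra.smul_def, h1, map_mul, mul_div_cancel_left₀ _ hb']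
  have t1 : IntermediateField.adjoin L0 {algebraMap R L θ1} = ⊤ := e1 ▸ ex_top_smul hθ' (hne hd)
  have t2 : IntermediateField.adjoin L0 {algebraMap R L (algebraMap Λ R c0 * θ1)} = ⊤ :=
    hsm c0 θ1 ▸ ex_top_smul t1 (hne hc0)
  set θ2 := algebraMap Λ R c0 * θ1 with hθ2
  have hint : ∀ z : L, IsIntegral L0 z := fun z => Algebra.IsIntegral.isIntegral z
  obtain ⟨e, he, hp⟩ := IsLocalization.integerNormalization_spec (nonZeroDivisors Λ)
    (minpoly L0 (algebraMap R L θ2))
  set p := IsLocalization.integerNormalization (nonZeroDivisors Λ) (minpoly L0 (algebraMap R L θ2))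
  have he0 : e ≠ 0 := nonZeroDivisors.ne_zero he
  rw [← algebraMap_smul L0] at hp
  have hp0 : p ≠ 0 := fun h => by
    rw [h, Polynomial.map_zero] at hp
    exact smul_ne_zero (hne he0) (minpoly.ne_zero (hint _)) hp.symm
  have hpd : p.natDegree = Module.finrank Λ R := by
    rw [← Polynomial.natDegree_map_eq_of_injective i0, hp, Polynomial.natDegree_smul _ (hne he0),
      (Field.primitive_element_iff_minpoly_natDegree_eq L0 _).1 t2, hrk]
  have hpa : Polynomial.aeval θ2 p = 0 := i1 (by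
    rw [← hav, hp, map_smul, minpoly.aeval, smul_zero, map_zero])
  set θ := algebraMap Λ R p.leadingCoeff * θ2 with hθ
  have t3 : IntermediateField.adjoin L0 {algebraMap R L θ} = ⊤ :=
    hsm p.leadingCoeff θ2 ▸ ex_top_smul t2 (hne (Polynomial.leadingCoeff_ne_zero.2 hp0))
  have hfa : Polynomial.aeval θ p.integralNormalization = 0 :=
    Polynomial.integralNormalization_aeval_eq_zero hpa fun x hx => hinj (by rw [hx, map_zero])
  have hfm := Polynomial.monic_integralNormalization hp0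
  have hfd : p.integralNormalization.natDegree = Module.finrank Λ R := by
    rw [Polynomial.natDegree_integralNormalization, hpd]
  set f := p.integralNormalization
  have hmin : f.map (algebraMap Λ L0) = minpoly L0 (algebraMap R L θ) :=
    Polynomial.eq_of_monic_of_dvd_of_natDegree_le (minpoly.monic (hint _)) (hfm.map _)
      (minpoly.dvd _ _ (by rw [hav, hfa, map_zero])) (by
        rw [(Field.primitive_element_iff_minpoly_natDegree_eq L0 _).1 t3, hrk, hfm.natDegree_map, hfd])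
  have hden : ∀ b : R, ∃ c : Λ, c ≠ 0 ∧ ∃ h : Polynomial Λ, Polynomial.aeval θ h = algebraMap Λ R c * b := by
    intro b
    have hb : algebraMap R L b ∈ (IntermediateField.adjoin L0 {algebraMap R L θ}).toSubalgebra := by
      rw [t3]; trivial
    rw [IntermediateField.adjoin_simple_toSubalgebra_of_isAlgebraic (hint _).isAlgebraic,
      Algebra.adjoin_singleton_eq_range_aeval] at hb
    obtain ⟨q, hq⟩ := hb
    obtain ⟨c, hc, hq'⟩ := IsLocalization.integerNormalization_spec (nonZeroDivisors Λ) q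
    refine ⟨c, nonZeroDivisors.ne_zero hc, IsLocalization.integerNormalization (nonZeroDivisors Λ) q, i1 ?_⟩
    rw [← hav, hq', ← algebraMap_smul L0, map_smul, hsm c b]
    exact congrArg _ hq
  choose c hc h hh using hden
  obtain ⟨S, hS⟩ := Module.Finite.fg_top (R := Λ) (M := R)
  refine ⟨θ, f, ∏ b ∈ S, c b, ?_, hfm, hmin ▸ minpoly.irreducible (hint _), hfd, fun g => ⟨fun hg => ?_, fun hg => ?_⟩,
    Finset.prod_ne_zero_iff.2 fun b _ => hc b, fun b => ?_⟩
  · exact Ideal.mul_mem_left _ _ (Ideal.mul_mem_right _ _ (Ideal.mem_span_singleton_self _))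
  · rw [Ideal.mem_span_singleton, ← Polynomial.map_dvd_map _ i0 hfm, hmin]
    exact minpoly.dvd _ _ (by rw [hav, hg, map_zero])
  · obtain ⟨q, rfl⟩ := Ideal.mem_span_singleton.1 hg
    rw [map_mul, hfa, zero_mul]
  · have hb : b ∈ Submodule.span Λ (S : Set R) := by rw [hS]; trivial
    induction hb using Submodule.span_induction with
    | mem b hb =>
      refine ⟨Polynomial.C (∏ b' ∈ S.erase b, c b') * h b, ?_⟩
      rw [map_mul, hh, Polynomial.aeval_C, ← Finset.prod_erase_mul S c hb, map_mul, mul_assoc]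
    | zero => exact ⟨0, by simp⟩
    | add x y _ _ hx hy =>
      obtain ⟨u, hu⟩ := hx
      obtain ⟨v, hv⟩ := hy
      exact ⟨u + v, by rw [map_add, hu, hv, mul_add]⟩
    | smul r x _ hx =>
      obtain ⟨u, hu⟩ := hx
      exact ⟨r • u, by rw [map_smul, hu, mul_smul_comm]⟩

/-- Clearing denominators, monomial by monomial. -/
theorem exists_clear {T σ : Type} [CommRing T] (δ : T) (ν : σ → T) (Q : MvPolynomial σ T) {D : ℕ}
    (hD : Q.totalDegree ≤ D) : ∃ h : T, MvPolynomial.C δ ^ D * Q - MvPolynomial.C h ∈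
      Ideal.span (Set.range fun i => MvPolynomial.C δ * MvPolynomial.X i - MvPolynomial.C (ν i)) := by
  classical
  set I : Ideal (MvPolynomial σ T) :=
    Ideal.span (Set.range fun i => MvPolynomial.C δ * MvPolynomial.X i - MvPolynomial.C (ν i))
  have key : ∀ i, Ideal.Quotient.mk I (MvPolynomial.C (ν i)) =
      Ideal.Quotient.mk I (MvPolynomial.C δ) * Ideal.Quotient.mk I (MvPolynomial.X i) := fun i => by
    rw [← map_mul, eq_comm, Ideal.Quotient.eq]
    exact Ideal.subset_span ⟨i, rfl⟩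
  refine ⟨∑ m ∈ Q.support, δ ^ (D - m.sum fun _ e => e) * Q.coeff m * ∏ i ∈ m.support, ν i ^ m i, ?_⟩
  rw [← Ideal.Quotient.eq]
  conv_lhs => rw [Q.as_sum]
  simp only [Finset.mul_sum, map_sum]
  refine Finset.sum_congr rfl fun m hm => ?_
  have hle : (m.sum fun _ e => e) ≤ D := (MvPolynomial.le_totalDegree hm).trans hD
  rw [MvPolynomial.monomial_eq]
  simp only [map_mul, map_pow, map_prod, Finsupp.prod, key, mul_pow, Finset.prod_mul_distrib,
    Finset.prod_pow_eq_pow_sum]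
  obtain ⟨e, rfl⟩ := Nat.exists_eq_add_of_le' hle
  rw [Nat.add_sub_cancel, pow_add, Finsupp.sum]
  ring

theorem RBase.exists_ord {Λ : Type} [CommRing Λ] {n : ℕ} {X : Fin n → Λ} (h : RBase Λ X) {γ : Λ} (hγ : γ ≠ 0) :
    ∃ o : ℕ, γ ∈ idl X ^ o ∧ γ ∉ idl X ^ (o + 1) := by
  have := h.dom
  have := h.noeth
  have h1 := Ideal.iInf_pow_eq_bot_of_isDomain (idl X) h.max.ne_top
  have h2 : ∃ i, γ ∉ idl X ^ (i + 1) := by
    by_contra hc
    push Not at hc
    refine hγ ((Submodule.mem_bot Λ).1 ?_)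
    rw [← h1, Submodule.mem_iInf]
    exact fun i => Ideal.pow_le_pow_right (Nat.le_succ i) (hc i)
  obtain ⟨i, hi⟩ := h2
  obtain ⟨o, -, ho⟩ := od_order (idl X) hi
  exact ⟨o, ho⟩

theorem ex_approx {A R : Type} [CommRing A] [CommRing R] [IsLocalRing R] {ψ : A →+* R} (hs : SameRes ψ) {s : ℕ}
    {g : Fin s → R} (hg : idl g = maximalIdeal R) (k : ℕ) (b : R) :
    ∃ Q : MvPolynomial (Fin s) A, b - MvPolynomial.eval₂Hom ψ g Q ∈ maximalIdeal R ^ k := by
  induction k generalizing b with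
  | zero => exact ⟨0, by simp⟩
  | succ k ih =>
    obtain ⟨a, ha⟩ := hs b
    rw [← hg, idl, Ideal.mem_span_range_iff_exists_fun] at ha
    obtain ⟨r, hr⟩ := ha
    choose Q hQ using ih
    refine ⟨MvPolynomial.C a + ∑ i, Q (r i) * MvPolynomial.X i, ?_⟩
    have : b - MvPolynomial.eval₂Hom ψ g (MvPolynomial.C a + ∑ i, Q (r i) * MvPolynomial.X i) =
        ∑ i, (r i - MvPolynomial.eval₂Hom ψ g (Q (r i))) * g i := by
      simp only [map_add, map_sum, map_mul, MvPolynomial.eval₂Hom_C, MvPolynomial.eval₂Hom_X', sub_mul,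
        Finset.sum_sub_distrib, hr]
      ring
    rw [this, pow_succ]
    exact Ideal.sum_mem _ fun i _ => Ideal.mul_mem_mul (hQ _) (hg ▸ Ideal.subset_span ⟨i, rfl⟩)

theorem ex_deg_map {A B σ : Type} [CommRing A] [CommRing B] (φ : A →+* B) (Q : MvPolynomial σ A) :
    (MvPolynomial.map φ Q).totalDegree ≤ Q.totalDegree :=
  Finset.sup_mono (MvPolynomial.support_map_subset _ _)

theorem ex_X_ne {Λ : Type} [CommRing Λ] {n : ℕ} {X : Fin n → Λ} (hX : RBase Λ X) : X ⟨0, hX.pos⟩ ≠ 0 := by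
  have := hX.dom
  intro h0
  have h1 := rg2_reg_self.1 hX.reg ⟨0, hX.pos⟩ 1 (by rw [h0, zero_mul]; exact Ideal.zero_mem _)
  have h2 : {i : Fin n | i < ⟨0, hX.pos⟩} = ∅ := by
    ext i
    simp [Fin.lt_def]
  rw [idlLt, h2, Set.image_empty, Ideal.span_empty] at h1
  exact one_ne_zero ((Submodule.mem_bot Λ).1 h1)

theorem ex_weq {Λ R : Type} [CommRing Λ] {n : ℕ} {X : Fin n → Λ} (hX : RBase Λ X) [CommRing R] [IsDomain R]
    [IsNoetherianRing R] [IsLocalRing R] [Algebra Λ R] [Module.Finite Λ R]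
    (hinj : Function.Injective (algebraMap Λ R)) {K0 : ℕ} (hx : IsRed (fun i => algebraMap Λ R (X i)) K0) {b : R}
    (hb : b ∈ maximalIdeal R) : ∃ a0 : ℕ, ∀ a, a0 ≤ a → ∃ c : ℕ → Λ, (∀ j, c j ∈ idl X ^ j) ∧
      b ^ a + ∑ j ∈ Finset.Icc 1 a, algebraMap Λ R (c j) * b ^ (a - j) = 0 := by
  have : Module.Finite Λ (maximalIdeal R ^ K0 : Ideal R) := Module.Finite.trans R _
  have h0 : algebraMap Λ R (X ⟨0, hX.pos⟩) ≠ 0 := fun h => ex_X_ne hX (hinj (by rw [h, map_zero]))
  obtain ⟨a0, c, ha, hc, he⟩ := exists_weighted_eq (Λ := Λ) (B := R) (W := (maximalIdeal R ^ K0 : Ideal R))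
    (fun b hb => by
      have := congrArg Subtype.val (hb ⟨_ ^ K0, Ideal.pow_mem_pow (hx.1 ⟨0, hX.pos⟩) K0⟩)
      exact (mul_eq_zero.1 this).resolve_right (pow_ne_zero _ h0)) (idl X) b fun w => by
      rw [← rg2_mem_map (Λ' := R), Submodule.mem_smul_top_iff, ← rg2_idl_map]
      exact hx.mul_le hb (Ideal.mul_mem_mul (Ideal.mem_span_singleton_self _) w.2)
  refine ⟨a0, fun a hle => ⟨fun j => if j ≤ a0 then c j else 0, fun j => ?_, ?_⟩⟩
  · dsimp only
    split_ifs
    · exact hc j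
    · exact Ideal.zero_mem _
  · have h1 : ∑ j ∈ Finset.Icc 1 a, algebraMap Λ R (if j ≤ a0 then c j else 0) * b ^ (a - j) =
        ∑ j ∈ Finset.Icc 1 a0, b ^ (a - a0) * (algebraMap Λ R (c j) * b ^ (a0 - j)) := by
      symm
      refine Finset.sum_subset_zero_on_sdiff (Finset.Icc_subset_Icc_right hle) (fun j hj => ?_) fun j hj => ?_
      · simp only [Finset.mem_sdiff, Finset.mem_Icc] at hj
        rw [if_neg (by omega), map_zero, zero_mul]
      · simp only [Finset.mem_Icc] at hj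
        rw [if_pos hj.2, mul_left_comm, ← pow_add, show a - a0 + (a0 - j) = a - j by omega]
    rw [h1, ← Finset.mul_sum]
    conv_lhs => rw [← Nat.sub_add_cancel hle, pow_add, Nat.sub_add_cancel hle]
    rw [← mul_add, he, mul_zero]

/-- The exact data.  `g 0 = θ`, the other `g i` generate `𝔪`.  `Λ[G] → R` is onto by Nakayama over `Λ` (the image `C`
satisfies `R = C + 𝔪^k` for all `k`, and `𝔪^c ≤ (X) R`).  Weighted equations: `exists_weighted_eq` on `W = 𝔪^K0`
(`IsRed.mul_le`), padded to a common degree `a`.  `K` generates the kernel (Noetherian), `D` bounds the degrees. -/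
theorem exists_dat_exact {Λ R : Type} [CommRing Λ] [IsLocalRing Λ] [CharZero Λ] {n : ℕ} {X : Fin n → Λ}
    (hX : RBase Λ X) (hm : idl X = maximalIdeal Λ) [CommRing R] [IsDomain R] [IsNoetherianRing R]
    [IsLocalRing R] [Algebra Λ R] [Module.Finite Λ R] (hinj : Function.Injective (algebraMap Λ R))
    (hres : SameRes (algebraMap Λ R)) {K0 : ℕ} (hx : IsRed (fun i => algebraMap Λ R (X i)) K0) :
    ∃ (s a D v o oΔ : ℕ) (ha : 0 < a) (g : Fin (s + 1) → R) (K : Fin v → MvPolynomial (Fin (s + 1)) Λ),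
      idl g = maximalIdeal R ∧ Function.Surjective (MvPolynomial.aeval g : MvPolynomial (Fin (s + 1)) Λ →ₐ[Λ] R) ∧
      RingHom.ker (MvPolynomial.aeval g : MvPolynomial (Fin (s + 1)) Λ →ₐ[Λ] R) ≤ idl K ∧
      ∀ M' : ℕ, ∃ dt : Dat ⟨n, s, Module.finrank Λ R, a, D, v, o, oΔ, ha⟩ Λ X M', dt.K = K := by
  have := hX.dom
  have := hX.noeth
  obtain ⟨θ, f, δ, hθ, hfm, hirr, hfd, hker, hδ, hδb⟩ := exists_primitive hinj (ex_X_ne hX)
  have hθm : θ ∈ maximalIdeal R :=
    (Ideal.span_singleton_le_iff_mem _).2 (hx.1 ⟨0, hX.pos⟩) hθ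
  obtain ⟨s, t, ht⟩ := Submodule.fg_iff_exists_fin_generating_family.1
    (IsNoetherian.noetherian (maximalIdeal R))
  set g : Fin (s + 1) → R := Fin.cons θ t with hg
  have hgm : ∀ i, g i ∈ maximalIdeal R := fun i => by
    induction i using Fin.cases with
    | zero => exact hθm
    | succ i => exact ht ▸ Submodule.subset_span ⟨i, rfl⟩
  have hidl : idl g = maximalIdeal R := by
    refine le_antisymm (Ideal.span_le.2 (Set.range_subset_iff.2 hgm)) ?_
    rw [← ht]
    exact Ideal.span_mono (Set.range_subset_iff.2 fun i => ⟨i.succ, rfl⟩)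
  have hsurj : Function.Surjective (MvPolynomial.aeval g : MvPolynomial (Fin (s + 1)) Λ →ₐ[Λ] R) := by
    obtain ⟨c, hc⟩ := hx.sop.2
    have := Submodule.le_of_le_smul_of_le_jacobson_bot (I := idl X)
      (N := LinearMap.range (MvPolynomial.aeval g : MvPolynomial (Fin (s + 1)) Λ →ₐ[Λ] R).toLinearMap) (N' := ⊤)
      Module.Finite.fg_top (hm ▸ maximalIdeal_le_jacobson _) fun b _ => by
        obtain ⟨Q, hQ⟩ := ex_approx hres hidl c b
        rw [show b = MvPolynomial.eval₂Hom (algebraMap Λ R) g Q + (b - MvPolynomial.eval₂Hom (algebraMap Λ R) g Q)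
          by ring]
        refine Submodule.add_mem_sup ⟨Q, rfl⟩ ?_
        rw [Ideal.smul_top_eq_map, ← rg2_idl_map]
        exact hc hQ
    exact fun b => this (Submodule.mem_top (x := b))
  choose a0 ha0 using fun i => ex_weq hX hinj hx (hgm i)
  set a := Finset.univ.sup a0 + 1 with ha
  choose c hc hce using fun i => ha0 i a ((Finset.le_sup (Finset.mem_univ i)).trans (Nat.le_succ _))
  obtain ⟨v, K, hK⟩ := Submodule.fg_iff_exists_fin_generating_family.1 (IsNoetherian.noetherian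
    (RingHom.ker (MvPolynomial.aeval g : MvPolynomial (Fin (s + 1)) Λ →ₐ[Λ] R)))
  obtain ⟨ν, hν0, hν⟩ : ∃ ν : Fin (s + 1) → Polynomial Λ, ν 0 = Polynomial.C δ * Polynomial.X ∧
      ∀ i, Polynomial.aeval θ (ν i) = algebraMap Λ R δ * g i := by
    choose h hh using hδb
    refine ⟨Fin.cons (Polynomial.C δ * Polynomial.X) fun i => h (t i), rfl, fun i => ?_⟩
    induction i using Fin.cases with
    | zero => simp [hg]
    | succ i => exact hh _
  obtain ⟨o, ho1, ho2⟩ := hX.exists_ord hδ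
  obtain ⟨oΔ, -, hΔ⟩ := hX.exists_ord (dsc_ne_zero hfm hirr)
  rw [hfd] at hΔ
  refine ⟨s, a, Finset.univ.sup fun j => (K j).totalDegree, v, o, oΔ, Nat.succ_pos _, g, K, hidl, hsurj,
    hK.ge, fun M' => ⟨⟨f, hfm, hfd, δ, ho1, ho2, hΔ, ν, hν0, c, fun i j _ => hc i j, fun i => ?_, K, fun j => ?_⟩,
      rfl⟩⟩
  · refine Ideal.mem_sup_left ((hker _).1 ?_)
    have h1 : ∀ j ∈ Finset.Icc 1 a, Polynomial.aeval θ (Polynomial.C (c i j * δ ^ j) * ν i ^ (a - j)) =
        algebraMap Λ R δ ^ a * (algebraMap Λ R (c i j) * g i ^ (a - j)) := fun j hj => by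
      obtain ⟨e, he⟩ := Nat.exists_eq_add_of_le (Finset.mem_Icc.1 hj).2
      rw [map_mul, map_pow, hν, Polynomial.aeval_C, map_mul, map_pow, he, Nat.add_sub_cancel_left]
      ring
    dsimp only
    rw [map_add, map_sum, Finset.sum_congr rfl h1, map_pow, hν, mul_pow, ← Finset.mul_sum, ← mul_add, hce,
      mul_zero]
  · refine Ideal.mem_sup_left ?_
    obtain ⟨h, hh⟩ := exists_clear (Polynomial.C δ) ν (MvPolynomial.map Polynomial.C (K j))
      (D := Finset.univ.sup fun j => (K j).totalDegree)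
      ((ex_deg_map _ _).trans (Finset.le_sup (f := fun j => (K j).totalDegree) (Finset.mem_univ j)))
    let Ψ : MvPolynomial (Fin (s + 1)) (Polynomial Λ) →+* R :=
      MvPolynomial.eval₂Hom (Polynomial.aeval θ : Polynomial Λ →ₐ[Λ] R).toRingHom g
    have h1 : Ψ (MvPolynomial.map Polynomial.C (K j)) = 0 := by
      have h2 : K j ∈ RingHom.ker (MvPolynomial.aeval g : MvPolynomial (Fin (s + 1)) Λ →ₐ[Λ] R) :=
        hK ▸ Submodule.subset_span ⟨j, rfl⟩
      have h3 : (Polynomial.aeval θ : Polynomial Λ →ₐ[Λ] R).toRingHom.comp Polynomial.C = algebraMap Λ R :=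
        RingHom.ext fun r => Polynomial.aeval_C θ r
      rw [MvPolynomial.coe_eval₂Hom, MvPolynomial.eval₂_map, h3]
      exact h2
    have h4 : Ideal.span (Set.range fun i => MvPolynomial.C (Polynomial.C δ) * MvPolynomial.X i -
        MvPolynomial.C (ν i)) ≤ RingHom.ker Ψ := Ideal.span_le.2 (Set.range_subset_iff.2 fun i => by
      simp [Ψ, hν])
    have h5 := h4 hh
    rw [RingHom.mem_ker, map_sub, map_mul, h1, mul_zero, zero_sub, neg_eq_zero] at h5
    have h6 : Polynomial.aeval θ h = 0 := by simpa [Ψ] using h5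
    obtain ⟨q, rfl⟩ := Ideal.mem_span_singleton.1 ((hker _).1 h6)
    have h7 := Ideal.span_mono (Set.subset_insert (MvPolynomial.C f) _) hh
    rw [← sub_add_cancel (_ * _) (MvPolynomial.C (f * q))]
    refine Ideal.add_mem _ h7 ?_
    rw [map_mul]
    exact Ideal.mul_mem_right _ _ (Ideal.subset_span (Set.mem_insert _ _))

/-- Polynomials are dense in power series (`mem_ps_pow` with `J = ⊥`, `MvPowerSeries.trunc'`). -/
theorem poly_to_ps (k : Type) [Field k] (n M' : ℕ) :
    Function.Surjective ((Ideal.Quotient.mk (idl (MvPowerSeries.X : Fin n → MvPowerSeries (Fin n) k) ^ M')).comp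
      (MvPolynomial.coeToMvPowerSeries.ringHom : MvPolynomial (Fin n) k →+* MvPowerSeries (Fin n) k)) ∧
    RingHom.ker ((Ideal.Quotient.mk (idl (MvPowerSeries.X : Fin n → MvPowerSeries (Fin n) k) ^ M')).comp
      (MvPolynomial.coeToMvPowerSeries.ringHom : MvPolynomial (Fin n) k →+* MvPowerSeries (Fin n) k)) =
      idl MvPolynomial.X ^ M' := by
  classical
  refine ⟨fun y => ?_, ?_⟩
  · obtain ⟨φ, rfl⟩ := Ideal.Quotient.mk_surjective y
    refine ⟨MvPowerSeries.trunc' k (Finsupp.equivFunOnFinite.symm fun _ => M') φ, ?_⟩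
    rw [RingHom.comp_apply, Ideal.Quotient.eq]
    refine ps_mem_idl_pow _ _ fun β hβ => ?_
    rw [map_sub, MvPolynomial.coeToMvPowerSeries.ringHom_apply, MvPolynomial.coeff_coe,
      MvPowerSeries.coeff_trunc', if_pos, sub_self]
    exact fun i => (Finsupp.le_degree i β).trans hβ.le
  · ext p
    have h1 := mem_ps_pow (⊥ : Ideal k) Submodule.fg_bot M' (p : MvPowerSeries (Fin n) k)
    rw [Ideal.map_bot, bot_sup_eq] at h1
    rw [RingHom.mem_ker, RingHom.comp_apply, Ideal.Quotient.eq_zero_iff_mem,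
      MvPolynomial.coeToMvPowerSeries.ringHom_apply, h1]
    refine Iff.trans ?_ (MvPolynomial.mem_pow_idealOfVars_iff' M' p).symm
    refine forall_congr' fun β => ?_
    rw [MvPolynomial.coeff_coe]
    by_cases hβ : β.degree < M'
    · rw [Ideal.bot_pow (by omega), Ideal.mem_bot]
      exact ⟨fun h _ => h, fun h => h hβ⟩
    · rw [show M' - β.degree = 0 by omega, pow_zero, Ideal.one_eq_top]
      exact ⟨fun _ h => absurd h hβ, fun _ => trivial⟩

/-- The evaluation `k[X][G] → R / 𝔪^M`. -/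
noncomputable def ev0 {k R : Type} [Field k] [CommRing R] [IsLocalRing R] (s0 : k →+* R) {n s : ℕ}
    (x : Fin n → R) (g : Fin s → R) (M : ℕ) :
    MvPolynomial (Fin s) (MvPolynomial (Fin n) k) →+* R ⧸ maximalIdeal R ^ M :=
  (Ideal.Quotient.mk _).comp (MvPolynomial.eval₂Hom (MvPolynomial.eval₂Hom s0 x) g)

theorem ex_sameRes {k R : Type} [Field k] [CommRing R] [IsLocalRing R] {s0 : k →+* R} (hs : SameRes s0) {n : ℕ}
    (x : Fin n → R) : SameRes (MvPolynomial.eval₂Hom s0 x) := fun b => by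
  obtain ⟨a, ha⟩ := hs b
  exact ⟨MvPolynomial.C a, by rwa [MvPolynomial.eval₂Hom_C]⟩

theorem ev0_surj {k R : Type} [Field k] [CommRing R] [IsLocalRing R] {s0 : k →+* R} (hs : SameRes s0) {n s : ℕ}
    (x : Fin n → R) {g : Fin s → R} (hg : idl g = maximalIdeal R) (M : ℕ) : Function.Surjective (ev0 s0 x g M) := by
  intro y
  obtain ⟨b, rfl⟩ := Ideal.Quotient.mk_surjective y
  obtain ⟨Q, hQ⟩ := ex_approx (ex_sameRes hs x) hg M b
  exact ⟨Q, (Ideal.Quotient.eq.2 hQ).symm⟩

/-- Elements of `𝔪` have representatives in `(X, G)`. -/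
theorem ev0_surj_xg {k R : Type} [Field k] [CommRing R] [IsLocalRing R] {s0 : k →+* R} (hs : SameRes s0)
    {n s : ℕ} (x : Fin n → R) {g : Fin s → R} (hg : idl g = maximalIdeal R) (M : ℕ) {a : R}
    (ha : a ∈ maximalIdeal R) :
    ∃ Q ∈ xg (MvPolynomial.X : Fin n → MvPolynomial (Fin n) k) (Fin s),
      ev0 s0 x g M Q = Ideal.Quotient.mk _ a := by
  rw [← hg, idl, Ideal.mem_span_range_iff_exists_fun] at ha
  obtain ⟨r, rfl⟩ := ha
  choose Q hQ using ev0_surj hs x hg M
  refine ⟨∑ i, Q (Ideal.Quotient.mk _ (r i)) * MvPolynomial.X i, Ideal.mem_sup_right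
    (Ideal.sum_mem _ fun i _ => Ideal.mul_mem_left _ _ (Ideal.subset_span ⟨i, rfl⟩)), ?_⟩
  simp only [map_sum, map_mul, hQ]
  simp [ev0]

theorem ex_push {Λ R : Type} [CommRing Λ] [CommRing R] [IsLocalRing R] [Algebra Λ R] {n s v : ℕ} (X : Fin n → Λ)
    {g : Fin s → R} (hg : idl g = maximalIdeal R)
    (hsurj : Function.Surjective (MvPolynomial.aeval g : MvPolynomial (Fin s) Λ →ₐ[Λ] R))
    {K : Fin v → MvPolynomial (Fin s) Λ}
    (hK : RingHom.ker (MvPolynomial.aeval g : MvPolynomial (Fin s) Λ →ₐ[Λ] R) ≤ idl K) {M M' : ℕ} (hM : M' ≤ M)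
    {Q : MvPolynomial (Fin s) Λ} (h1 : MvPolynomial.aeval g Q ∈ maximalIdeal R ^ M) :
    Q ∈ xg X (Fin s) ^ M' ⊔ idl K := by
  set A := (MvPolynomial.aeval g : MvPolynomial (Fin s) Λ →ₐ[Λ] R) with hA
  have h2 : maximalIdeal R ≤ (xg X (Fin s)).map A := by
    rw [← hg]
    refine Ideal.span_le.2 (Set.range_subset_iff.2 fun i => ?_)
    have := Ideal.mem_map_of_mem A (I := xg X (Fin s)) (Ideal.mem_sup_right (Ideal.subset_span ⟨i, rfl⟩))
    rwa [hA, MvPolynomial.aeval_X] at this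
  have h3 := Ideal.pow_right_mono h2 M' (Ideal.pow_le_pow_right hM h1)
  rw [← Ideal.map_pow, Ideal.mem_map_iff_of_surjective A hsurj] at h3
  obtain ⟨Q1, hQ1, h4⟩ := h3
  rw [show Q = Q1 + (Q - Q1) by ring]
  refine Submodule.add_mem_sup hQ1 (hK ?_)
  rw [RingHom.mem_ker, map_sub, h4, sub_self]

theorem ex_trunc {P : Par} {Λ0 Λ : Type} [CommRing Λ0] [CommRing Λ] {M' : ℕ} {X0 : Fin P.n → Λ0}
    {X : Fin P.n → Λ} (dt : Dat P Λ X M') (ι : Λ0 →+* Λ) (hX : ∀ i, ι (X0 i) = X i)
    (hs : Function.Surjective ((Ideal.Quotient.mk (idl X ^ M')).comp ι))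
    (hk : RingHom.ker ((Ideal.Quotient.mk (idl X ^ M')).comp ι) ≤ idl X0 ^ M') (ho : P.o + 1 ≤ M')
    (hΔ : P.oΔ + 1 ≤ M') : ∃ dp : Dat P Λ0 X0 M', ∀ j, MvPolynomial.map (Ideal.Quotient.mk (idl X ^ M')) (dt.K j) =
      MvPolynomial.map ((Ideal.Quotient.mk (idl X ^ M')).comp ι) (dp.K j) := by
  set π := Ideal.Quotient.mk (idl X ^ M') with hπ
  have e : (fun i => π (X i)) = fun i => (π.comp ι) (X0 i) := funext fun i => by rw [RingHom.comp_apply, hX]
  obtain ⟨dt', h'⟩ : ∃ dt' : Dat P _ (fun i => (π.comp ι) (X0 i)) M',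
      ∀ j, dt'.K j = MvPolynomial.map π (dt.K j) := by
    rw [← e]
    exact dt.exists_map π Ideal.Quotient.mk_surjective Ideal.mk_ker.le ho hΔ
  obtain ⟨dp, hp⟩ := Dat.exists_lift (π.comp ι) hs hk dt'
  exact ⟨dp, fun j => (h' j).symm.trans (hp j)⟩

theorem ex_pull {Λ0 Λ Λb σ : Type} [CommRing Λ0] [CommRing Λ] [CommRing Λb] (ι : Λ0 →+* Λ) (π : Λ →+* Λb)
    {n v M' : ℕ} {X0 : Fin n → Λ0} {X : Fin n → Λ} (hX : ∀ i, ι (X0 i) = X i)
    (hs : Function.Surjective (π.comp ι)) (hk : RingHom.ker (π.comp ι) ≤ idl X0 ^ M')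
    {K : Fin v → MvPolynomial σ Λ} {K0 : Fin v → MvPolynomial σ Λ0}
    (hK : ∀ j, MvPolynomial.map π (K j) = MvPolynomial.map (π.comp ι) (K0 j)) {Q : MvPolynomial σ Λ0}
    (h5 : MvPolynomial.map ι Q ∈ xg X σ ^ M' ⊔ idl K) : Q ∈ xg X0 σ ^ M' ⊔ idl K0 := by
  have h6 : (xg X σ).map (MvPolynomial.map π) = (xg X0 σ).map (MvPolynomial.map (π.comp ι)) := by
    simp only [xg, idl, Ideal.map_sup, Ideal.map_span, ← Set.range_comp, Function.comp_def, MvPolynomial.map_C,
      MvPolynomial.map_X, RingHom.comp_apply, hX]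
  have h7 : (idl K).map (MvPolynomial.map π) = (idl K0).map (MvPolynomial.map (π.comp ι)) := by
    rw [← rg2_idl_map, ← rg2_idl_map]
    exact congrArg idl (funext hK)
  have h8 := Ideal.mem_map_of_mem (MvPolynomial.map π) h5
  rw [Ideal.map_sup, Ideal.map_pow, h6, h7, ← Ideal.map_pow, ← Ideal.map_sup, MvPolynomial.map_map,
    Ideal.mem_map_iff_of_surjective _ (MvPolynomial.map_surjective _ hs)] at h8
  obtain ⟨Q2, hQ2, h9⟩ := h8
  have h10 : Q - Q2 ∈ RingHom.ker (MvPolynomial.map (σ := σ) (π.comp ι)) := by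
    rw [RingHom.mem_ker, map_sub, h9, sub_self]
  rw [MvPolynomial.ker_map] at h10
  have h11 := Ideal.map_mono hk h10
  rw [Ideal.map_pow] at h11
  rw [show Q = Q2 + (Q - Q2) by ring]
  exact Ideal.add_mem _ hQ2 (Ideal.mem_sup_left (Ideal.pow_right_mono le_sup_left M' h11))

/-- Truncation: `Dat.exists_map` to `k⟦X⟧ / (X)^M'`, `Dat.exists_lift` to `k[X]`.  If `Q` is killed in `R / 𝔪^M`,
its image in `k⟦X⟧[G]` lies in `(X, G)^M' + (K)`; pass to `(k⟦X⟧ / (X)^M')[G]` and pull back along the surjection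
from `k[X][G]`, whose kernel lies in `(X)^M'`. -/
theorem exists_dat_poly {k R : Type} [Field k] [CharZero k] [CommRing R] [IsDomain R] [IsNoetherianRing R]
    [IsLocalRing R] {n : ℕ} (hn : 0 < n) (Φ : MvPowerSeries (Fin n) k →+* R) (hfin : Φ.Finite)
    (hinj : Function.Injective Φ) (hres : SameRes (Φ.comp MvPowerSeries.C)) {K0 : ℕ}
    (hx : IsRed (fun i => Φ (MvPowerSeries.X i)) K0) {E : ℝ} (hE : LeMult (hs R) n E) :
    ∃ (s ρ a D v o oΔ : ℕ) (ha : 0 < a) (g : Fin (s + 1) → R) (M1 : ℕ), idl g = maximalIdeal R ∧ E ≤ ρ ∧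
      ∀ M' ≥ M1, ∃ dt : Dat ⟨n, s, ρ, a, D, v, o, oΔ, ha⟩ (MvPolynomial (Fin n) k) MvPolynomial.X M',
        ∀ M ≥ M', RingHom.ker (ev0 (Φ.comp MvPowerSeries.C) (fun i => Φ (MvPowerSeries.X i)) g M) ≤
          xg MvPolynomial.X (Fin (s + 1)) ^ M' ⊔ idl dt.K := by
  let _ := Φ.toAlgebra
  have : Module.Finite (MvPowerSeries (Fin n) k) R := hfin
  have : CharZero (MvPowerSeries (Fin n) k) := algebraRat.charZero _
  have hX := rbase_ps_field k hn
  have hm : idl (MvPowerSeries.X : Fin n → MvPowerSeries (Fin n) k) = maximalIdeal _ := by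
    rw [ps_maximal, IsLocalRing.maximalIdeal_eq_bot, Ideal.map_bot, bot_sup_eq]
  have hx' : IsRed (fun i => algebraMap (MvPowerSeries (Fin n) k) R (MvPowerSeries.X i)) K0 := hx
  have hres' : SameRes (algebraMap (MvPowerSeries (Fin n) k) R) := fun b => (hres b).elim fun a ha => ⟨_, ha⟩
  obtain ⟨s, a, D, v, o, oΔ, ha, g, K, hg, hsurj, hK, hdt⟩ := exists_dat_exact hX hm (R := R) hinj hres' hx'
  have hρ := leMult_le_finrank hX hx'.1 hE
  generalize Module.finrank (MvPowerSeries (Fin n) k) R = ρ at hρ hdt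
  refine ⟨s, ρ, a, D, v, o, oΔ, ha, g, o + oΔ + 1, hg, hρ, fun M' hM' => ?_⟩
  obtain ⟨dt, hdtK⟩ := hdt M'
  obtain ⟨hγs, hγk⟩ := poly_to_ps k n M'
  have hιX : ∀ i, (MvPolynomial.coeToMvPowerSeries.ringHom : MvPolynomial (Fin n) k →+* MvPowerSeries (Fin n) k)
      (MvPolynomial.X i) = MvPowerSeries.X i := fun i => MvPolynomial.coe_X i
  obtain ⟨dp, hp⟩ := ex_trunc (P := ⟨n, s, ρ, a, D, v, o, oΔ, ha⟩) dt _ hιX hγs hγk.le
    (by dsimp only; omega) (by dsimp only; omega)
  refine ⟨dp, fun M hM Q hQ => ?_⟩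
  have e1 : MvPolynomial.eval₂Hom (Φ.comp MvPowerSeries.C) (fun i => Φ (MvPowerSeries.X i)) =
      Φ.comp MvPolynomial.coeToMvPowerSeries.ringHom :=
    MvPolynomial.ringHom_ext (fun r => by simp) fun i => by simp
  rw [RingHom.mem_ker, ev0, RingHom.comp_apply, Ideal.Quotient.eq_zero_iff_mem, e1,
    MvPolynomial.coe_eval₂Hom, ← MvPolynomial.eval₂_map] at hQ
  subst hdtK
  exact ex_pull _ _ hιX hγs hγk.le hp (ex_push _ hg hsurj hK hM hQ)

end Crest.Agent.R183
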