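import Crest.Agent.R183.Defs2

/-!
# rid 183, file `PH`: partial ring homomorphisms
-/

set_option autoImplicit false

namespace Crest.Agent.R183

variable {R B : Type} [CommRing R] [CommRing B] (φ : PHom R B)

theorem PHom.map_zero : φ.toFun 0 = 0 := by
  have h := φ.map_add 0 φ.dom.zero_mem 0 φ.dom.zero_mem
  rw [add_zero] at h
  exact left_eq_add.mp h

/-- The ring homomorphism on the domain. -/
def PHom.hom : φ.dom →+* B where
  toFun a := φ.toFun a
  map_one' := φ.map_one
  map_zero' := φ.map_zero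
  map_add' a b := φ.map_add a a.2 b b.2
  map_mul' a b := φ.map_mul a a.2 b b.2

theorem PHom.hom_apply (a : φ.dom) : φ.hom a = φ.toFun a := rfl

theorem PHom.map_sum {ι : Type} (s : Finset ι) (f : ι → R) (hf : ∀ i ∈ s, f i ∈ φ.dom) :
    φ.toFun (∑ i ∈ s, f i) = ∑ i ∈ s, φ.toFun (f i) := by
  classical
  induction s using Finset.induction_on with
  | empty => simpa using φ.map_zero
  | insert a s ha ih =>
    rw [Finset.sum_insert ha, Finset.sum_insert ha, φ.map_add _ (hf a (Finset.mem_insert_self _ _)) _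
      (φ.dom.sum_mem fun i hi => hf i (Finset.mem_insert_of_mem hi)),
      ih fun i hi => hf i (Finset.mem_insert_of_mem hi)]

theorem PHom.map_pow {a : R} (ha : a ∈ φ.dom) (n : ℕ) : φ.toFun (a ^ n) = φ.toFun a ^ n :=
  _root_.map_pow φ.hom ⟨a, ha⟩ n

theorem PHom.map_neg {a : R} (ha : a ∈ φ.dom) : φ.toFun (-a) = -φ.toFun a :=
  _root_.map_neg φ.hom ⟨a, ha⟩

theorem PHom.map_sub {a b : R} (ha : a ∈ φ.dom) (hb : b ∈ φ.dom) :
    φ.toFun (a - b) = φ.toFun a - φ.toFun b :=
  _root_.map_sub φ.hom ⟨a, ha⟩ ⟨b, hb⟩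

/-- All entries lie in the domain. -/
def PHom.MDom {ι κ : Type} (A : Matrix ι κ R) : Prop := ∀ i j, A i j ∈ φ.dom

variable {φ} {ι κ μ : Type}

theorem PHom.MDom.mul [Fintype κ] {A : Matrix ι κ R} {A' : Matrix κ μ R} (h : φ.MDom A) (h' : φ.MDom A') :
    φ.MDom (A * A') := fun i j => φ.dom.sum_mem fun l _ => φ.dom.mul_mem (h i l) (h' l j)

theorem PHom.MDom.add {A A' : Matrix ι κ R} (h : φ.MDom A) (h' : φ.MDom A') : φ.MDom (A + A') :=
  fun i j => φ.dom.add_mem (h i j) (h' i j)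

theorem PHom.mdom_one [DecidableEq ι] : φ.MDom (1 : Matrix ι ι R) := fun i j => by
  rw [Matrix.one_apply]; split_ifs
  · exact φ.dom.one_mem
  · exact φ.dom.zero_mem

theorem PHom.MDom.pow [Fintype ι] [DecidableEq ι] {A : Matrix ι ι R} (h : φ.MDom A) (n : ℕ) :
    φ.MDom (A ^ n) := by
  induction n with
  | zero => simpa using PHom.mdom_one
  | succ n ih => rw [pow_succ]; exact ih.mul h

theorem PHom.mat_mul [Fintype κ] {A : Matrix ι κ R} {A' : Matrix κ μ R} (h : φ.MDom A) (h' : φ.MDom A') :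
    (A * A').map φ.toFun = A.map φ.toFun * A'.map φ.toFun := by
  ext i j
  simp only [Matrix.map_apply, Matrix.mul_apply]
  rw [φ.map_sum _ _ fun l _ => φ.dom.mul_mem (h i l) (h' l j)]
  exact Finset.sum_congr rfl fun l _ => φ.map_mul _ (h i l) _ (h' l j)

theorem PHom.mat_add {A A' : Matrix ι κ R} (h : φ.MDom A) (h' : φ.MDom A') :
    (A + A').map φ.toFun = A.map φ.toFun + A'.map φ.toFun := by
  ext i j
  exact φ.map_add _ (h i j) _ (h' i j)

theorem PHom.mat_zero : (0 : Matrix ι κ R).map φ.toFun = 0 := by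
  ext i j
  exact φ.map_zero

theorem PHom.mat_one [DecidableEq ι] : (1 : Matrix ι ι R).map φ.toFun = 1 :=
  Matrix.map_one _ φ.map_zero φ.map_one

theorem PHom.mat_smul {A : Matrix ι κ R} (h : φ.MDom A) {c : R} (hc : c ∈ φ.dom) :
    (c • A).map φ.toFun = φ.toFun c • A.map φ.toFun := by
  ext i j
  exact φ.map_mul _ hc _ (h i j)

theorem PHom.mat_pow [Fintype ι] [DecidableEq ι] {A : Matrix ι ι R} (h : φ.MDom A) (n : ℕ) :
    (A ^ n).map φ.toFun = A.map φ.toFun ^ n := by
  induction n with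
  | zero => simpa using PHom.mat_one
  | succ n ih => rw [pow_succ, pow_succ, PHom.mat_mul (h.pow n) h, ih]

theorem PHom.mat_sum {σ : Type} (s : Finset σ) (A : σ → Matrix ι κ R) (h : ∀ l ∈ s, φ.MDom (A l)) :
    (∑ l ∈ s, A l).map φ.toFun = ∑ l ∈ s, (A l).map φ.toFun := by
  ext i j
  simp only [Matrix.map_apply, Matrix.sum_apply]
  exact φ.map_sum _ _ fun l hl => h l hl i j

/-- A ring homomorphism as a partial homomorphism. -/
def PHom.ofHom (f : R →+* B) : PHom R B where
  dom := ⊤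
  toFun := f
  map_one := f.map_one
  map_add a _ b _ := f.map_add a b
  map_mul a _ b _ := f.map_mul a b

end Crest.Agent.R183
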