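import Crest.Agent.R183.Dat
import Crest.Agent.R183.PH

/-!
# rid 183, file `Gen0`: specialising finitely many coefficients to a field of large characteristic

Prefix helper lemmas with `gn_`.
-/

set_option autoImplicit false

namespace Crest.Agent.R183

section lift

variable {A B : Type} [CommRing A] [CommRing B]

theorem gn_poly_coeff (φ : PHom A B) (P : Polynomial A) (i : ℕ) :
    (P.sum fun i a => Polynomial.monomial i (φ.toFun a)).coeff i = φ.toFun (P.coeff i) := by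
  rw [Polynomial.coeff_sum, Polynomial.sum_def, Finset.sum_eq_single i]
  · simp
  · intro j _ hj
    rw [Polynomial.coeff_monomial, if_neg hj]
  · intro hi
    rw [Polynomial.notMem_support_iff.1 hi, φ.map_zero, map_zero, Polynomial.coeff_zero]

theorem gn_poly_map (φ : PHom A B) (P : Polynomial φ.dom) :
    ((Polynomial.mapRingHom φ.dom.subtype P).sum fun i a => Polynomial.monomial i (φ.toFun a)) =
      P.map φ.hom := by
  ext i
  rw [gn_poly_coeff, Polynomial.coe_mapRingHom, Polynomial.coeff_map, Polynomial.coeff_map]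
  rfl

theorem gn_mv_coeff (φ : PHom A B) (σ : Type) (P : MvPolynomial σ A) (β : σ →₀ ℕ) :
    MvPolynomial.coeff β (∑ β ∈ P.support, MvPolynomial.monomial β (φ.toFun (MvPolynomial.coeff β P))) =
      φ.toFun (MvPolynomial.coeff β P) := by
  classical
  rw [MvPolynomial.coeff_sum, Finset.sum_eq_single β]
  · simp
  · intro j _ hj
    rw [MvPolynomial.coeff_monomial, if_neg hj]
  · intro hi
    rw [MvPolynomial.notMem_support_iff.1 hi, φ.map_zero, map_zero, MvPolynomial.coeff_zero]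

theorem gn_mv_map (φ : PHom A B) (σ : Type) (P : MvPolynomial σ φ.dom) :
    ∑ β ∈ (MvPolynomial.map φ.dom.subtype P).support, MvPolynomial.monomial β
      (φ.toFun (MvPolynomial.coeff β (MvPolynomial.map φ.dom.subtype P))) = MvPolynomial.map φ.hom P := by
  ext β
  rw [gn_mv_coeff, MvPolynomial.coeff_map, MvPolynomial.coeff_map]
  rfl

/-- Coefficientwise extension to polynomials. -/
noncomputable def PHom.poly (φ : PHom A B) : PHom (Polynomial A) (Polynomial B) where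
  dom := (Polynomial.mapRingHom φ.dom.subtype).range
  toFun P := P.sum fun i a => Polynomial.monomial i (φ.toFun a)
  map_one := by
    rw [← _root_.map_one (Polynomial.mapRingHom φ.dom.subtype), gn_poly_map, Polynomial.map_one]
  map_add := by
    rintro _ ⟨a, rfl⟩ _ ⟨b, rfl⟩
    rw [← _root_.map_add, gn_poly_map, gn_poly_map, gn_poly_map, Polynomial.map_add]
  map_mul := by
    rintro _ ⟨a, rfl⟩ _ ⟨b, rfl⟩
    rw [← _root_.map_mul, gn_poly_map, gn_poly_map, gn_poly_map, Polynomial.map_mul]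

theorem PHom.poly_coeff (φ : PHom A B) (P : Polynomial A) (i : ℕ) :
    (φ.poly.toFun P).coeff i = φ.toFun (P.coeff i) :=
  gn_poly_coeff φ P i

theorem PHom.mem_poly_dom (φ : PHom A B) (P : Polynomial A) : P ∈ φ.poly.dom ↔ ∀ i, P.coeff i ∈ φ.dom := by
  refine ⟨?_, fun h => ?_⟩
  · rintro ⟨Q, rfl⟩ i
    rw [Polynomial.coe_mapRingHom, Polynomial.coeff_map]
    exact (Q.coeff i).2
  · rw [P.as_sum_support]
    exact Subring.sum_mem _ fun i _ => ⟨Polynomial.monomial i ⟨_, h i⟩, by simp⟩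

/-- Coefficientwise extension to multivariate polynomials. -/
noncomputable def PHom.mv (φ : PHom A B) (σ : Type) : PHom (MvPolynomial σ A) (MvPolynomial σ B) where
  dom := (MvPolynomial.map φ.dom.subtype : MvPolynomial σ φ.dom →+* MvPolynomial σ A).range
  toFun P := ∑ β ∈ P.support, MvPolynomial.monomial β (φ.toFun (MvPolynomial.coeff β P))
  map_one := by
    rw [← _root_.map_one (MvPolynomial.map φ.dom.subtype : MvPolynomial σ φ.dom →+* MvPolynomial σ A),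
      gn_mv_map, _root_.map_one]
  map_add := by
    rintro _ ⟨a, rfl⟩ _ ⟨b, rfl⟩
    rw [← _root_.map_add, gn_mv_map, gn_mv_map, gn_mv_map, _root_.map_add]
  map_mul := by
    rintro _ ⟨a, rfl⟩ _ ⟨b, rfl⟩
    rw [← _root_.map_mul, gn_mv_map, gn_mv_map, gn_mv_map, _root_.map_mul]

theorem PHom.mv_coeff (φ : PHom A B) (σ : Type) (P : MvPolynomial σ A) (β : σ →₀ ℕ) :
    MvPolynomial.coeff β ((φ.mv σ).toFun P) = φ.toFun (MvPolynomial.coeff β P) :=
  gn_mv_coeff φ σ P β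

theorem PHom.mem_mv_dom (φ : PHom A B) (σ : Type) (P : MvPolynomial σ A) :
    P ∈ (φ.mv σ).dom ↔ ∀ β, MvPolynomial.coeff β P ∈ φ.dom := by
  refine ⟨?_, fun h => ?_⟩
  · rintro ⟨Q, rfl⟩ β
    rw [MvPolynomial.coeff_map]
    exact (Q.coeff β).2
  · rw [P.as_sum]
    exact Subring.sum_mem _ fun β _ => ⟨MvPolynomial.monomial β ⟨_, h β⟩, by simp⟩

theorem PHom.mv_X (φ : PHom A B) (σ : Type) (i : σ) :
    MvPolynomial.X i ∈ (φ.mv σ).dom ∧ (φ.mv σ).toFun (MvPolynomial.X i) = MvPolynomial.X i := by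
  refine ⟨⟨MvPolynomial.X i, MvPolynomial.map_X _ _⟩, ?_⟩
  have := gn_mv_map φ σ (MvPolynomial.X i)
  rw [MvPolynomial.map_X, MvPolynomial.map_X] at this
  exact this

theorem gn_mv_C (φ : PHom A B) (σ : Type) (a : A) :
    (φ.mv σ).toFun (MvPolynomial.C a) = MvPolynomial.C (φ.toFun a) := by
  classical
  ext β
  rw [φ.mv_coeff, MvPolynomial.coeff_C, MvPolynomial.coeff_C, apply_ite φ.toFun, φ.map_zero]

theorem gn_poly_C (φ : PHom A B) (a : A) : φ.poly.toFun (Polynomial.C a) = Polynomial.C (φ.toFun a) := by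
  ext i
  rw [φ.poly_coeff, Polynomial.coeff_C, Polynomial.coeff_C, apply_ite φ.toFun, φ.map_zero]

theorem gn_poly_C_mem (φ : PHom A B) {a : A} (ha : a ∈ φ.dom) : Polynomial.C a ∈ φ.poly.dom :=
  ⟨Polynomial.C ⟨a, ha⟩, by simp⟩

theorem gn_poly_X (φ : PHom A B) :
    Polynomial.X ∈ φ.poly.dom ∧ φ.poly.toFun Polynomial.X = Polynomial.X := by
  refine ⟨⟨Polynomial.X, by simp⟩, ?_⟩
  have := gn_poly_map φ Polynomial.X
  rw [Polynomial.coe_mapRingHom, Polynomial.map_X, Polynomial.map_X] at this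
  exact this

theorem gn_mv_pow (φ : PHom A B) {n j : ℕ} {b : MvPolynomial (Fin n) A} (hb : b ∈ idl MvPolynomial.X ^ j) :
    (φ.mv (Fin n)).toFun b ∈ idl MvPolynomial.X ^ j := by
  refine (MvPolynomial.mem_pow_idealOfVars_iff' j _).2 fun x hx => ?_
  rw [φ.mv_coeff, (MvPolynomial.mem_pow_idealOfVars_iff' j _).1 hb x hx, φ.map_zero]

open Pointwise in
theorem gn_set_pow (φ : PHom A B) {g : Set A} {J : Ideal B} (h : ∀ a ∈ g, a ∈ φ.dom ∧ φ.toFun a ∈ J) (n : ℕ) :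
    ∀ a ∈ g ^ n, a ∈ φ.dom ∧ φ.toFun a ∈ J ^ n := by
  induction n with
  | zero =>
    intro a ha
    rw [pow_zero, Set.mem_one] at ha
    simp [ha, φ.dom.one_mem, φ.map_one]
  | succ n ih =>
    intro a ha
    rw [pow_succ] at ha
    obtain ⟨b, hb, c, hc, rfl⟩ := Set.mem_mul.1 ha
    refine ⟨φ.dom.mul_mem (ih b hb).1 (h c hc).1, ?_⟩
    rw [φ.map_mul _ (ih b hb).1 _ (h c hc).1, pow_succ]
    exact Ideal.mul_mem_mul (ih b hb).2 (h c hc).2

theorem PHom.mv_C (φ : PHom A B) (σ : Type) {a : A} (ha : a ∈ φ.dom) :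
    MvPolynomial.C a ∈ (φ.mv σ).dom ∧ (φ.mv σ).toFun (MvPolynomial.C a) = MvPolynomial.C (φ.toFun a) :=
  ⟨⟨MvPolynomial.C ⟨a, ha⟩, MvPolynomial.map_C _ _⟩, gn_mv_C φ σ a⟩

/-- A partial homomorphism from a pair of maps out of a ring. -/
theorem PHom.exists_of_ker {T : Type} [CommRing T] (e : T →+* A) (Ψ : T →+* B)
    (h : RingHom.ker e ≤ RingHom.ker Ψ) : ∃ φ : PHom A B, ∀ t, e t ∈ φ.dom ∧ φ.toFun (e t) = Ψ t := by
  classical
  obtain ⟨F, hF⟩ : ∃ F : A → B, ∀ t, F (e t) = Ψ t := by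
    refine ⟨fun a => if h : ∃ t, e t = a then Ψ h.choose else 0, fun t => ?_⟩
    have h1 : ∃ t', e t' = e t := ⟨t, rfl⟩
    beta_reduce
    rw [dif_pos h1]
    exact (RingHom.sub_mem_ker_iff Ψ).1 (h ((RingHom.sub_mem_ker_iff e).2 h1.choose_spec))
  refine ⟨⟨e.range, F, by rw [← _root_.map_one e, hF, _root_.map_one], ?_, ?_⟩, fun t => ⟨⟨t, rfl⟩, hF t⟩⟩
  · rintro _ ⟨a, rfl⟩ _ ⟨b, rfl⟩
    rw [← _root_.map_add, hF, hF, hF, _root_.map_add]
  · rintro _ ⟨a, rfl⟩ _ ⟨b, rfl⟩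
    rw [← _root_.map_mul, hF, hF, hF, _root_.map_mul]

end lift

/-- `Pr` holds for every specialisation that is defined and nonvanishing on a suitable finite set. -/
def Gen (k : Type) [Field k] (Pr : ∀ (κ : Type) [Field κ], PHom k κ → Prop) : Prop :=
  ∃ 𝒮 : Finset k, ∀ (κ : Type) [Field κ] (σ : PHom k κ),
    (∀ a ∈ 𝒮, a ∈ σ.dom ∧ (a ≠ 0 → σ.toFun a ≠ 0)) → Pr κ σ

variable {k : Type} [Field k]

theorem Gen.mono {Pr Pr' : ∀ (κ : Type) [Field κ], PHom k κ → Prop} (h : Gen k Pr)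
    (hh : ∀ (κ : Type) [Field κ] (σ : PHom k κ), Pr κ σ → Pr' κ σ) : Gen k Pr' := by
  obtain ⟨𝒮, H⟩ := h
  exact ⟨𝒮, fun κ _ σ hσ => hh κ σ (H κ σ hσ)⟩

theorem Gen.and {Pr Pr' : ∀ (κ : Type) [Field κ], PHom k κ → Prop} (h : Gen k Pr) (h' : Gen k Pr') :
    Gen k fun κ _ σ => Pr κ σ ∧ Pr' κ σ := by
  classical
  obtain ⟨𝒮, H⟩ := h
  obtain ⟨𝒮', H'⟩ := h'
  exact ⟨𝒮 ∪ 𝒮', fun κ _ σ hσ => ⟨H κ σ fun a ha => hσ a (Finset.mem_union_left _ ha),
    H' κ σ fun a ha => hσ a (Finset.mem_union_right _ ha)⟩⟩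

theorem Gen.forall {ι : Type} [Finite ι] {Pr : ι → ∀ (κ : Type) [Field κ], PHom k κ → Prop}
    (h : ∀ i, Gen k (Pr i)) : Gen k fun κ _ σ => ∀ i, Pr i κ σ := by
  classical
  have := Fintype.ofFinite ι
  choose 𝒮 H using h
  exact ⟨Finset.univ.biUnion 𝒮, fun κ _ σ hσ i =>
    H i κ σ fun a ha => hσ a (Finset.mem_biUnion.2 ⟨i, Finset.mem_univ _, ha⟩)⟩

theorem gn_finset {ι : Type} (s : Finset ι) {Pr : ι → ∀ (κ : Type) [Field κ], PHom k κ → Prop}
    (h : ∀ i ∈ s, Gen k (Pr i)) : Gen k fun κ _ σ => ∀ i ∈ s, Pr i κ σ :=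
  (Gen.forall (ι := s) (Pr := fun i => Pr i) fun i => h i i.2).mono fun _ _ _ H i hi => H ⟨i, hi⟩

/-- The subring generated by `𝒮`, the inverses of its nonzero elements and `1 / q0!` is a finitely generated
`ℤ`-algebra; its quotient by a maximal ideal is a finite field (`finite_of_finite_type_of_isJacobsonRing`). -/
theorem Gen.exists [CharZero k] {Pr : ∀ (κ : Type) [Field κ], PHom k κ → Prop} (h : Gen k Pr) (q0 : ℕ) :
    ∃ (κ : Type) (_ : Field κ) (p : ℕ) (_ : Fact p.Prime) (_ : CharP κ p) (σ : PHom k κ), q0 < p ∧ Pr κ σ := by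
  classical
  have : IsJacobsonRing ℤ := by
    refine isJacobsonRing_iff_prime_eq.2 fun P hP => ?_
    by_cases h : P = ⊥
    · subst h
      refine le_antisymm (fun x hx => ?_) Ideal.le_jacobson
      have h1 := Ideal.mem_jacobson_bot.1 hx x
      rw [Ideal.mem_bot]
      rcases Int.isUnit_iff.1 h1 with h2 | h2 <;> nlinarith [mul_self_nonneg x]
    · have := hP.isMaximal h
      exact Ideal.jacobson_eq_self_of_isMaximal
  obtain ⟨𝒮, H⟩ := h
  obtain ⟨C, hC, h1, h2⟩ : ∃ C : Subalgebra ℤ k, Algebra.FiniteType ℤ C ∧ (∀ a ∈ 𝒮, a ∈ C ∧ a⁻¹ ∈ C) ∧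
      ((q0.factorial : k))⁻¹ ∈ C := by
    refine ⟨Algebra.adjoin ℤ ((insert ((q0.factorial : k))⁻¹ (𝒮 ∪ 𝒮.image fun a => a⁻¹) : Finset k) : Set k),
      Algebra.FiniteType.adjoin_of_finite (Finset.finite_toSet _), fun a ha => ⟨?_, ?_⟩, ?_⟩ <;>
      refine Algebra.subset_adjoin ?_
    · simp [ha]
    · simp [ha]
    · simp
  obtain ⟨𝔪, h𝔪⟩ := Ideal.exists_maximal C
  let _ := Ideal.Quotient.field 𝔪
  have hunit : ∀ a : C, (a : k) ≠ 0 → (a : k)⁻¹ ∈ C → Ideal.Quotient.mk 𝔪 a ≠ 0 := fun a h0 h1 =>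
    left_ne_zero_of_mul_eq_one (b := Ideal.Quotient.mk 𝔪 ⟨_, h1⟩) (by
      rw [← map_mul, ← map_one (Ideal.Quotient.mk 𝔪)]
      congr 1
      exact Subtype.ext (mul_inv_cancel₀ h0))
  have hfin : Module.Finite ℤ (C ⧸ 𝔪) := finite_of_finite_type_of_isJacobsonRing _ _
  obtain ⟨p, hp⟩ := CharP.exists (C ⧸ 𝔪)
  rcases CharP.char_is_prime_or_zero (C ⧸ 𝔪) p with hpp | rfl
  swap
  · have := CharP.charP_to_charZero (C ⧸ 𝔪)
    exact absurd (isField_of_isIntegral_of_isField (R := ℤ) (S := C ⧸ 𝔪) (RingHom.injective_int _)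
      (Field.toIsField _)) Int.not_isField
  obtain ⟨σ, hσ⟩ := PHom.exists_of_ker C.val.toRingHom (Ideal.Quotient.mk 𝔪) (by
    rw [(RingHom.injective_iff_ker_eq_bot _).1 Subtype.val_injective]
    exact bot_le)
  refine ⟨C ⧸ 𝔪, inferInstance, p, ⟨hpp⟩, hp, σ, ?_, H _ σ fun a ha => ⟨(hσ ⟨a, (h1 a ha).1⟩).1, fun h0 => ?_⟩⟩
  · by_contra hle
    refine hunit q0.factorial (by simpa using q0.factorial_ne_zero) (by simpa using h2) ?_
    rw [map_natCast, CharP.cast_eq_zero_iff _ p]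
    exact Nat.dvd_factorial hpp.pos (not_lt.1 hle)
  · exact (hσ ⟨a, (h1 a ha).1⟩).2.trans_ne (hunit _ h0 (h1 a ha).2)

theorem gen_mem (a : k) : Gen k fun _ _ σ => a ∈ σ.dom :=
  ⟨{a}, fun _ _ _ h => (h a (Finset.mem_singleton_self a)).1⟩

theorem gn_ne {a : k} (ha : a ≠ 0) : Gen k fun _ _ σ => σ.toFun a ≠ 0 :=
  ⟨{a}, fun _ _ _ h => (h a (Finset.mem_singleton_self a)).2 ha⟩

theorem gn_mv_exh {A : Type} [CommRing A] {A' : ∀ (κ : Type) [Field κ], Type}
    [inst : ∀ (κ : Type) [Field κ], CommRing (A' κ)] (T : ∀ (κ : Type) [Field κ], PHom k κ → PHom A (A' κ))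
    (hT : ∀ a : A, Gen k fun κ _ σ => a ∈ (T κ σ).dom) (τ : Type) (a : MvPolynomial τ A) :
    Gen k fun κ _ σ => a ∈ ((T κ σ).mv τ).dom :=
  (gn_finset a.support fun β _ => hT (a.coeff β)).mono fun κ _ σ H => (PHom.mem_mv_dom _ _ _).2 fun β => by
    by_cases h : β ∈ a.support
    · exact H β h
    · rw [MvPolynomial.notMem_support_iff.1 h]; exact Subring.zero_mem _

theorem gn_poly_exh {A : Type} [CommRing A] {A' : ∀ (κ : Type) [Field κ], Type}
    [inst : ∀ (κ : Type) [Field κ], CommRing (A' κ)] (T : ∀ (κ : Type) [Field κ], PHom k κ → PHom A (A' κ))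
    (hT : ∀ a : A, Gen k fun κ _ σ => a ∈ (T κ σ).dom) (a : Polynomial A) :
    Gen k fun κ _ σ => a ∈ (T κ σ).poly.dom :=
  (gn_finset a.support fun β _ => hT (a.coeff β)).mono fun κ _ σ H => (PHom.mem_poly_dom _ _).2 fun β => by
    by_cases h : β ∈ a.support
    · exact H β h
    · rw [Polynomial.notMem_support_iff.1 h]; exact Subring.zero_mem _

theorem gen_mem_mv (n : ℕ) (a : MvPolynomial (Fin n) k) : Gen k fun _ _ σ => a ∈ (σ.mv (Fin n)).dom :=
  gn_mv_exh (A' := fun κ _ => κ) (inst := fun _ i => i.toCommRing) (fun _ _ σ => σ) gen_mem _ a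

theorem gen_mem_mv2 (n s : ℕ) (a : MvPolynomial (Fin s) (MvPolynomial (Fin n) k)) :
    Gen k fun _ _ σ => a ∈ ((σ.mv (Fin n)).mv (Fin s)).dom :=
  gn_mv_exh (A' := fun κ _ => MvPolynomial (Fin n) κ) (fun _ _ σ => σ.mv (Fin n)) (gen_mem_mv n) _ a

theorem gn_mem_poly (n : ℕ) (a : Polynomial (MvPolynomial (Fin n) k)) :
    Gen k fun _ _ σ => a ∈ (σ.mv (Fin n)).poly.dom :=
  gn_poly_exh (A' := fun κ _ => MvPolynomial (Fin n) κ) (fun _ _ σ => σ.mv (Fin n)) (gen_mem_mv n) a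

theorem gn_mem_mv3 (n s : ℕ) (a : MvPolynomial (Fin s) (Polynomial (MvPolynomial (Fin n) k))) :
    Gen k fun _ _ σ => a ∈ ((σ.mv (Fin n)).poly.mv (Fin s)).dom :=
  gn_mv_exh (A' := fun κ _ => Polynomial (MvPolynomial (Fin n) κ)) (fun _ _ σ => (σ.mv (Fin n)).poly)
    (gn_mem_poly n) _ a

theorem gn_not_pow {n j : ℕ} {b : MvPolynomial (Fin n) k} (hb : b ∉ idl MvPolynomial.X ^ j) :
    Gen k fun _ _ σ => (σ.mv (Fin n)).toFun b ∉ idl MvPolynomial.X ^ j := by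
  have h := mt (MvPolynomial.mem_pow_idealOfVars_iff' j b).2 hb
  push Not at h
  obtain ⟨x, hx, h0⟩ := h
  refine (gn_ne h0).mono fun κ _ σ H hm => H ?_
  rw [← σ.mv_coeff]
  exact (MvPolynomial.mem_pow_idealOfVars_iff' j _).1 hm x hx

/-- Ideal membership transfers, abstractly: `T` assigns to each specialisation a partial homomorphism whose domains
exhaust the ring.  Use the finitely many witnesses of the membership. -/
theorem gen_span {A : Type} [CommRing A] {A' : ∀ (κ : Type) [Field κ], Type}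
    [inst : ∀ (κ : Type) [Field κ], CommRing (A' κ)] (T : ∀ (κ : Type) [Field κ], PHom k κ → PHom A (A' κ))
    (hT : ∀ a : A, Gen k fun κ _ σ => a ∈ (T κ σ).dom) {s : Set A} {a : A} (ha : a ∈ Ideal.span s) :
    Gen k fun κ _ σ => (T κ σ).toFun a ∈ Ideal.span ((T κ σ).toFun '' (s ∩ (T κ σ).dom)) := by
  induction ha using Submodule.span_induction with
  | mem a ha => exact (hT a).mono fun κ _ σ H => Ideal.subset_span ⟨a, ⟨ha, H⟩, rfl⟩
  | zero => exact ⟨∅, fun κ _ σ _ => by beta_reduce; rw [PHom.map_zero]; exact Ideal.zero_mem _⟩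
  | add a b _ _ iha ihb =>
    refine (((hT a).and (hT b)).and (iha.and ihb)).mono fun κ _ σ H => ?_
    rw [PHom.map_add _ _ H.1.1 _ H.1.2]
    exact Ideal.add_mem _ H.2.1 H.2.2
  | smul r a _ ih =>
    refine (((hT r).and (hT a)).and ih).mono fun κ _ σ H => ?_
    rw [smul_eq_mul, PHom.map_mul _ _ H.1.1 _ H.1.2]
    exact Ideal.mul_mem_left _ _ H.2

/-- Membership in `(X)^j` is the vanishing of the coefficients of degree `< j`; non-membership is witnessed by a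
nonzero coefficient.  `dsc` commutes with `σ` (`dsc_map` along `dom → k` and `σ.hom`).  `E1`, `E2` by `gen_span`
(`(X)^M'` is spanned by the monomials of degree `M'`).  Put `c' i j = σ (c i j)`. -/
theorem gen_dat {P : Par} {M' : ℕ} (dt : Dat P (MvPolynomial (Fin P.n) k) MvPolynomial.X M') :
    Gen k fun κ _ σ => ∃ dt' : Dat P (MvPolynomial (Fin P.n) κ) MvPolynomial.X M',
      ∀ j, dt'.K j = ((σ.mv (Fin P.n)).mv (Fin (P.s + 1))).toFun (dt.K j) := by
  have h1 := (gn_mem_poly P.n dt.f).and ((gen_mem_mv P.n dt.δ).and ((gn_not_pow dt.δ_not).and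
    (gn_not_pow dt.dsc_not)))
  have h2 := (Gen.forall fun i => gn_mem_poly P.n (dt.ν i)).and
    (Gen.forall fun i => gn_finset (Finset.Icc 1 P.a) fun j _ => gen_mem_mv P.n (dt.c i j))
  have h3 := Gen.forall fun i => gen_span (A' := fun κ _ => Polynomial (MvPolynomial (Fin P.n) κ))
    (fun _ _ σ => (σ.mv (Fin P.n)).poly) (gn_mem_poly P.n) ((Ideal.span_union _ _).ge (dt.E1 i))
  have h4 := Gen.forall fun j => (gn_mem_mv3 P.n (P.s + 1) (MvPolynomial.map Polynomial.C (dt.K j))).and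
    (gen_span (A' := fun κ _ => MvPolynomial (Fin (P.s + 1)) (Polynomial (MvPolynomial (Fin P.n) κ)))
      (fun _ _ σ => (σ.mv (Fin P.n)).poly.mv (Fin (P.s + 1))) (gn_mem_mv3 P.n (P.s + 1))
      ((Ideal.span_union _ _).ge (dt.E2 j)))
  refine ((h1.and h2).and (h3.and h4)).mono fun κ _ σ ⟨⟨⟨hf, hδ, hδ', hd⟩, hν, hc⟩, e1, e2⟩ => ?_
  obtain ⟨τ, hτ⟩ : ∃ τ, τ = σ.mv (Fin P.n) := ⟨_, rfl⟩
  have hpow : ∀ {j : ℕ} {b : MvPolynomial (Fin P.n) k}, b ∈ idl MvPolynomial.X ^ j →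
    τ.toFun b ∈ idl MvPolynomial.X ^ j := fun hb => hτ ▸ gn_mv_pow σ hb
  rw [← hτ] at hf hδ hδ' hd hν hc e1 e2 ⊢
  obtain ⟨f0, hf0⟩ := hf
  have hf1 : τ.poly.toFun dt.f = f0.map τ.hom := by
    rw [← hf0]; exact gn_poly_map τ f0
  rw [Polynomial.coe_mapRingHom] at hf0
  have hm : f0.Monic := Polynomial.monic_of_injective τ.dom.subtype_injective (hf0 ▸ dt.monic)
  have hCδ := gn_poly_C_mem τ hδ
  refine ⟨⟨τ.poly.toFun dt.f, hf1 ▸ hm.map _, ?_, τ.toFun dt.δ, hpow dt.δ_mem, hδ', ?_,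
    fun i => τ.poly.toFun (dt.ν i), ?_, fun i j => τ.toFun (dt.c i j), fun i j hj => hpow (dt.c_mem i j hj),
    fun i => ?_, fun j => (τ.mv _).toFun (dt.K j), fun j => ?_⟩, fun j => rfl⟩
  · rw [hf1, hm.natDegree_map, ← dt.deg, ← hf0, hm.natDegree_map]
  · rw [← hf0, dsc_map _ hm] at hd
    rw [hf1, dsc_map _ hm]
    exact hd
  · rw [dt.ν0, τ.poly.map_mul _ hCδ _ (gn_poly_X τ).1, gn_poly_C, (gn_poly_X τ).2]
  · have hm : ∀ j ∈ Finset.Icc 1 P.a, Polynomial.C (dt.c i j * dt.δ ^ j) ∈ τ.poly.dom := fun j hj =>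
      gn_poly_C_mem τ (τ.dom.mul_mem (hc i j hj) (τ.dom.pow_mem hδ j))
    have h := e1 i
    rw [τ.poly.map_add _ (Subring.pow_mem _ (hν i) _) _ (Subring.sum_mem _ fun j hj =>
      Subring.mul_mem _ (hm j hj) (Subring.pow_mem _ (hν i) _)), τ.poly.map_pow (hν i),
      τ.poly.map_sum _ _ fun j hj => Subring.mul_mem _ (hm j hj) (Subring.pow_mem _ (hν i) _),
      Finset.sum_congr rfl fun j hj => by
        rw [τ.poly.map_mul _ (hm j hj) _ (Subring.pow_mem _ (hν i) _), τ.poly.map_pow (hν i), gn_poly_C,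
          τ.map_mul _ (hc i j hj) _ (τ.dom.pow_mem hδ j), τ.map_pow hδ]] at h
    refine Ideal.span_le.2 ?_ h
    rintro _ ⟨a, ⟨rfl | ⟨b, hb, rfl⟩, -⟩, rfl⟩
    · exact Ideal.mem_sup_left (Ideal.mem_span_singleton_self _)
    · rw [gn_poly_C]
      exact Ideal.mem_sup_right (Ideal.mem_map_of_mem _ (hpow hb))
  · obtain ⟨h0, h⟩ := e2 j
    have hC := (τ.poly.mv_C (Fin (P.s + 1)) hCδ).1
    have e : (τ.poly.mv (Fin (P.s + 1))).toFun (MvPolynomial.map Polynomial.C (dt.K j)) =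
        MvPolynomial.map Polynomial.C ((τ.mv _).toFun (dt.K j)) := by
      refine MvPolynomial.ext _ _ fun β => ?_
      rw [PHom.mv_coeff, MvPolynomial.coeff_map, MvPolynomial.coeff_map, gn_poly_C, PHom.mv_coeff]
    rw [PHom.map_mul _ _ (Subring.pow_mem _ hC _) _ h0, PHom.map_pow _ hC, gn_mv_C, gn_poly_C, e] at h
    refine Ideal.span_le.2 ?_ h
    rintro _ ⟨a, ⟨(rfl | ⟨i, rfl⟩) | ⟨b, hb, rfl⟩, -⟩, rfl⟩
    · rw [gn_mv_C]
      exact Ideal.mem_sup_left (Ideal.subset_span (Or.inl rfl))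
    · rw [PHom.map_sub _ (Subring.mul_mem _ hC (τ.poly.mv_X _ i).1) (τ.poly.mv_C _ (hν i)).1,
        PHom.map_mul _ _ hC _ (τ.poly.mv_X _ i).1, (τ.poly.mv_X _ i).2, gn_mv_C, gn_mv_C, gn_poly_C]
      exact Ideal.mem_sup_left (Ideal.subset_span (Or.inr ⟨i, rfl⟩))
    · rw [RingHom.comp_apply, gn_mv_C, gn_poly_C]
      exact Ideal.mem_sup_right (Ideal.mem_map_of_mem _ (hpow hb))

theorem gn_xg {Λ : Type} [CommRing Λ] {n : ℕ} (X : Fin n → Λ) (σ : Type) : xg X σ =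
    Ideal.span ((Set.range fun i => MvPolynomial.C (X i)) ∪ Set.range MvPolynomial.X) := by
  rw [xg, idl_map, Ideal.span_union]
  rfl

/-- Let `C0` be the subring generated by the coefficients of the members of `𝓕`; it is Noetherian
(`isNoetherian_subring_closure`), so the kernel of `C0[X][G] → R̄` is finitely generated; transfer the membership of
the generators (`gen_span`), then use `PHom.exists_of_ker`. -/
theorem gen_phom {n s v M' : ℕ} {Rb : Type} [CommRing Rb]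
    (ev : MvPolynomial (Fin s) (MvPolynomial (Fin n) k) →+* Rb)
    (K : Fin v → MvPolynomial (Fin s) (MvPolynomial (Fin n) k))
    (hker : RingHom.ker ev ≤ xg MvPolynomial.X (Fin s) ^ M' ⊔ idl K)
    (𝓕 : Finset (MvPolynomial (Fin s) (MvPolynomial (Fin n) k))) :
    Gen k fun κ _ σ => ∀ (B : Type) [CommRing B] (Ψ : MvPolynomial (Fin s) (MvPolynomial (Fin n) κ) →+* B),
      (∀ Q ∈ xg MvPolynomial.X (Fin s) ^ M', Ψ Q = 0) →
      (∀ j, Ψ (((σ.mv (Fin n)).mv (Fin s)).toFun (K j)) = 0) →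
      ∃ φ : PHom Rb B, ∀ Q ∈ 𝓕, ev Q ∈ φ.dom ∧ φ.toFun (ev Q) = Ψ (((σ.mv (Fin n)).mv (Fin s)).toFun Q) := by
  have := is_noetherian_subring_closure _ 𝓕.finite_toSet
  obtain ⟨W, hW⟩ := IsNoetherian.noetherian (RingHom.ker (ev.comp (Subring.closure
    (𝓕 : Set (MvPolynomial (Fin s) (MvPolynomial (Fin n) k)))).subtype))
  rw [gn_xg, Ideal.span, Submodule.span_pow, idl, Ideal.span, ← Submodule.span_union] at hker
  have hW' : ∀ w ∈ W, w.1 ∈ RingHom.ker ev := fun w hw => (hW.le (Submodule.subset_span hw) :)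
  have h1 := gn_finset 𝓕 fun Q _ => gen_mem_mv2 n s Q
  have h2 := gn_finset W fun w hw =>
    gen_span (A' := fun κ _ => MvPolynomial (Fin s) (MvPolynomial (Fin n) κ))
      (fun _ _ σ => (σ.mv (Fin n)).mv (Fin s)) (gen_mem_mv2 n s) (a := w.1)
      (hker (hW' w hw))
  refine (h1.and h2).mono fun κ _ σ ⟨H1, H2⟩ B _ Ψ hΨ hK => ?_
  have hle : Subring.closure (𝓕 : Set (MvPolynomial (Fin s) (MvPolynomial (Fin n) k))) ≤
    ((σ.mv (Fin n)).mv (Fin s)).dom := Subring.closure_le.2 H1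
  obtain ⟨φ, hφ⟩ := PHom.exists_of_ker (ev.comp (Subring.subtype _))
    (Ψ.comp (((σ.mv (Fin n)).mv (Fin s)).hom.comp (Subring.inclusion hle))) (by
    rw [← hW]
    refine Submodule.span_le.2 fun w hw => ?_
    refine (Ideal.span_le.2 ?_ : _ ≤ RingHom.ker Ψ) (H2 w hw)
    rintro _ ⟨a, ⟨ha | ⟨j, rfl⟩, -⟩, rfl⟩
    · refine hΨ _ (gn_set_pow _ ?_ M' a ha).2
      rw [gn_xg]
      rintro _ (⟨i, rfl⟩ | ⟨i, rfl⟩)
      · refine ⟨(PHom.mv_C _ _ (σ.mv_X _ i).1).1, ?_⟩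
        rw [gn_mv_C, (σ.mv_X _ i).2]
        exact Ideal.subset_span (Or.inl ⟨i, rfl⟩)
      · refine ⟨(PHom.mv_X _ _ i).1, ?_⟩
        rw [(PHom.mv_X _ _ i).2]
        exact Ideal.subset_span (Or.inr ⟨i, rfl⟩)
    · exact hK j)
  exact ⟨φ, fun Q hQ => hφ ⟨Q, Subring.subset_closure hQ⟩⟩

theorem gn_mem_xg {Λ : Type} [CommRing Λ] {n : ℕ} (X : Fin n → Λ) (σ : Type) (Q : MvPolynomial σ Λ) :
    Q ∈ xg X σ ↔ MvPolynomial.coeff 0 Q ∈ idl X := by
  classical
  refine ⟨fun h => ?_, fun h => ?_⟩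
  · have : xg X σ ≤ (idl X).comap MvPolynomial.constantCoeff := by
      rw [gn_xg, Ideal.span_le]
      rintro _ (⟨i, rfl⟩ | ⟨i, rfl⟩)
      · simpa using ln_mem_idl X i
      · simp
    exact this h
  · rw [show Q = MvPolynomial.C (MvPolynomial.coeff 0 Q) + (Q - MvPolynomial.C (MvPolynomial.coeff 0 Q)) by ring]
    refine Submodule.add_mem_sup (Ideal.mem_map_of_mem _ h) ?_
    have := (MvPolynomial.mem_pow_idealOfVars_iff' 1 (Q - MvPolynomial.C (MvPolynomial.coeff 0 Q))).2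
      fun x hx => by
        obtain rfl : x = 0 := by simpa [Finsupp.degree_eq_zero_iff] using hx
        simp
    rwa [pow_one] at this

theorem PHom.mv2_mem_xg {κ : Type} [Field κ] (σ : PHom k κ) {n s : ℕ}
    {Q : MvPolynomial (Fin s) (MvPolynomial (Fin n) k)} (hQ : Q ∈ xg MvPolynomial.X (Fin s)) :
    ((σ.mv (Fin n)).mv (Fin s)).toFun Q ∈ xg MvPolynomial.X (Fin s) := by
  rw [gn_mem_xg] at hQ ⊢
  rw [PHom.mv_coeff, ← pow_one (idl _)]
  exact gn_mv_pow σ (by rwa [pow_one])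

end Crest.Agent.R183
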