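import Crest.Agent.R183.SysL
import Crest.Agent.R183.Sand

/-!
# rid 183, file `Wit`: finite witnesses for the length of `S / z^[t]`

Prefix helper lemmas with `wt_`.
-/

set_option autoImplicit false

open IsLocalRing

namespace Crest.Agent.R183

/-- The `κ`-span of `w` plus `zsub`. -/
def wsub (κ : Type) [Field κ] {B : Type} [CommRing B] [Algebra κ B] {d r ℓ : ℕ}
    (Z : Fin d → Matrix (Fin r) (Fin r) B) (t : ℕ) (w : Fin ℓ → Fin r → B) : Submodule κ (Fin r → B) :=
  Submodule.span κ (Set.range w) ⊔ zsub κ Z t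

theorem wt_mem_zsub (Λ : Type) [CommRing Λ] {B : Type} [CommRing B] [Algebra Λ B] {d r : ℕ}
    (Z : Fin d → Matrix (Fin r) (Fin r) B) (t : ℕ) (u : Fin d → Fin r → B) :
    ∑ j, (Z j ^ t).mulVec (u j) ∈ zsub Λ Z t :=
  Submodule.sum_mem _ fun j _ => Submodule.mem_iSup_of_mem j ⟨u j, rfl⟩

theorem wt_stab {κ B σ : Type} [Field κ] [CommRing B] [Algebra κ B] {d r : ℕ}
    {Z : Fin d → Matrix (Fin r) (Fin r) B} {t : ℕ} {w : σ → Fin r → B} {W : Submodule κ (Fin r → B)}
    (hW : zsub κ Z t ≤ W) {b : B} (hb : ∀ s, b • w s ∈ W) {u : Fin r → B}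
    (hu : u ∈ Submodule.span κ (Set.range w) ⊔ zsub κ Z t) : b • u ∈ W := by
  refine (sup_le (Submodule.span_le.2 ?_) fun v hv => hW ?_ :
    _ ≤ W.comap ((LinearMap.lsmul B (Fin r → B) b).restrictScalars κ)) hu
  · rintro _ ⟨s, rfl⟩
    exact hb s
  · rw [zsub_restrict] at hv ⊢
    exact Submodule.smul_mem (zsub B Z t) b hv

/-- Let `R̄ = R / 𝔪^M`.  The quotient `R̄^r / zsub` has `k`-dimension `ℓ = zl R t` (`Sys.sub_eq_zsub`, `zl` of `R` and
of `R̄` agree, `colen_eq_restrict_of_local` for `k → R`).  Choose `w0 i ∈ R̄^r` spanning it.  Write each `e a`, each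
`y j • w0 i` as `∑ s0 λ • w0 i' + ∑ Z j ^ t *ᵥ u j`, and each `x i ^ N • e a` as `∑ Z j ^ t *ᵥ u j`
(`Sys.pow_le_sub`).  `F` collects the entries of `Z`, `w0`, the `u`, and `y`, `x`, `s0 λ`; apply `φ`. -/
theorem sys_witness {k R : Type} [Field k] [CommRing R] [IsNoetherianRing R] [IsLocalRing R] (s0 : k →+* R)
    (hs : SameRes s0) {M d N0 r : ℕ} (S : Sys R (maximalIdeal R) M d N0 r) (t : ℕ) {ι : Type} [Finite ι]
    (y : ι → R) (x : Fin d → R) (hx : ∀ i, x i ∈ maximalIdeal R) :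
    ∃ (ℓ : ℕ) (F : Finset (R ⧸ maximalIdeal R ^ M)) (𝒮 : Finset k), (ℓ : ℝ) = S.zl R t ∧
      ∀ (κ B : Type) [Field κ] [CommRing B] [Algebra κ B] (φ : PHom (R ⧸ maximalIdeal R ^ M) B),
        (∀ a ∈ F, a ∈ φ.dom) →
        (∀ c ∈ 𝒮, φ.toFun (Ideal.Quotient.mk _ (s0 c)) ∈ Set.range (algebraMap κ B)) →
        ∃ w : Fin ℓ → Fin r → B, (∀ a, Pi.single a 1 ∈ wsub κ (S.Zφ φ) t w) ∧
          (∀ j i, φ.toFun (Ideal.Quotient.mk _ (y j)) • w i ∈ wsub κ (S.Zφ φ) t w) ∧
          ∀ i a, φ.toFun (Ideal.Quotient.mk _ (x i)) ^ (N0 * (d * t + 1)) • Pi.single a 1 ∈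
            zsub B (S.Zφ φ) t := by
  classical
  let _ : Algebra k R := s0.toAlgebra
  have h1 := colen_eq_restrict_of_local (Λ := k) hs (S.sub R t)
  have h2 : Module.Finite k ((Fin r → R) ⧸ (S.sub R t).restrictScalars k) := by
    have := isFiniteLength_iff_isNoetherian_isArtinian.1
      (Module.length_ne_top_iff.1 (h1 ▸ sl_fin S t))
    exact Module.finite_def.2 (this.1.noetherian _)
  let b := Module.finBasis k ((Fin r → R) ⧸ (S.sub R t).restrictScalars k)
  choose w0 hw0 using fun i => Submodule.mkQ_surjective _ (b i)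
  let mk := Ideal.Quotient.mk (maximalIdeal R ^ M)
  have h3 : ∀ v : Fin r → R, ∃ (c : _ → k) (u : Fin d → Fin r → R), (v ∈ S.sub R t → c = 0) ∧
      ∀ a, mk (v a) = ∑ i, mk (s0 (c i)) * mk (w0 i a) +
        ∑ j, ∑ a', ((S.Z j).map mk ^ t) a a' * mk (u j a') := fun v => by
    have h4 : v - ∑ i, s0 (b.repr (Submodule.mkQ _ v) i) • w0 i ∈ S.sub R t := by
      refine (Submodule.Quotient.eq ((S.sub R t).restrictScalars k)).1 ?_
      change Submodule.mkQ _ v = Submodule.mkQ _ (∑ i, b.repr (Submodule.mkQ _ v) i • w0 i)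
      simp only [map_sum, map_smul, hw0, b.sum_repr]
    obtain ⟨u, hu⟩ := (sl_mem_sub S t _).1 h4
    refine ⟨fun i => b.repr (Submodule.mkQ ((S.sub R t).restrictScalars k) v) i, u, fun hv => ?_,
      fun a => ?_⟩
    · rw [show Submodule.mkQ ((S.sub R t).restrictScalars k) v = 0 from
        (Submodule.Quotient.mk_eq_zero _).2 hv, map_zero]
      rfl
    · rw [ln_ism_pi] at hu
      have h5 := hu a trivial
      rw [sd_ism_self, sub_sub] at h5
      refine (Ideal.Quotient.eq.2 h5).trans ?_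
      simp only [← Matrix.map_pow]
      simp [sl_apply, mk, Finset.sum_apply]
  let v : Fin r ⊕ (ι × Fin _) ⊕ (Fin d × Fin r) → Fin r → R := Sum.elim (fun a => Pi.single a 1)
    (Sum.elim (fun p => y p.1 • w0 p.2) fun p => x p.1 ^ (N0 * (d * t + 1)) • Pi.single p.2 1)
  choose c u hc hu using fun s => h3 (v s)
  have hF := ((((Set.finite_range fun p : _ × _ × _ => mk (S.Z p.1 p.2.1 p.2.2)).union
    (Set.finite_range fun p : _ × _ => mk (w0 p.1 p.2))).union
    (Set.finite_range fun p : _ × _ × _ => mk (u p.1 p.2.1 p.2.2))).union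
    (Set.finite_range fun p : _ × _ => mk (s0 (c p.1 p.2)))).union
    ((Set.finite_range fun j => mk (y j)).union (Set.finite_range fun j => mk (x j)))
  refine ⟨_, hF.toFinset, (Set.finite_range fun p : _ × _ => c p.1 p.2).toFinset, ?_,
    fun κ B _ _ _ φ hφ hκ => ⟨fun i a => φ.toFun (mk (w0 i a)), ?_⟩⟩
  · rw [Sys.zl, len, show Module.length R _ = _ from h1, colen, Module.length_eq_finrank]
    rfl
  simp only [Set.Finite.mem_toFinset, Set.mem_union, or_imp, forall_and, Set.forall_mem_range,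
    Prod.forall] at hφ hκ
  obtain ⟨⟨⟨⟨f1, f2⟩, f3⟩, f4⟩, f5, f6⟩ := hφ
  have f0 : ∀ j, φ.MDom ((S.Z j).map mk) := f1
  have h4 : ∀ s, (fun a => φ.toFun (mk (v s a))) =
      ∑ i, φ.toFun (mk (s0 (c s i))) • (fun a => φ.toFun (mk (w0 i a))) +
        ∑ j, (S.Zφ φ j ^ t).mulVec fun a => φ.toFun (mk (u s j a)) := fun s => funext fun a => by
    have g1 := fun i => φ.dom.mul_mem (f4 s i) (f2 i a)
    have g2 := fun j a' => φ.dom.mul_mem ((f0 j).pow t a a') (f3 s j a')
    rw [hu, φ.map_add _ (φ.dom.sum_mem fun i _ => g1 i) _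
      (φ.dom.sum_mem fun j _ => φ.dom.sum_mem fun a' _ => g2 j a'), φ.map_sum _ _ fun i _ => g1 i,
      φ.map_sum _ _ fun j _ => φ.dom.sum_mem fun a' _ => g2 j a', Pi.add_apply, Finset.sum_apply,
      Finset.sum_apply]
    refine congrArg₂ _ (Finset.sum_congr rfl fun i _ => φ.map_mul _ (f4 s i) _ (f2 i a))
      (Finset.sum_congr rfl fun j _ => ?_)
    rw [φ.map_sum _ _ fun a' _ => g2 j a']
    refine Finset.sum_congr rfl fun a' _ => (φ.map_mul _ ((f0 j).pow t a a') _ (f3 s j a')).trans ?_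
    exact congrArg (fun A : Matrix _ _ B => A a a' * _) (PHom.mat_pow (f0 j) t)
  have h5 : ∀ s, (fun a => φ.toFun (mk (v s a))) ∈
      wsub κ (S.Zφ φ) t fun i a => φ.toFun (mk (w0 i a)) := fun s => by
    rw [h4]
    refine Submodule.add_mem_sup (Submodule.sum_mem _ fun i _ => ?_) (wt_mem_zsub _ _ _ _)
    obtain ⟨e, he⟩ := hκ s i
    rw [← he, algebraMap_smul]
    exact Submodule.smul_mem _ _ (Submodule.subset_span ⟨i, rfl⟩)
  refine ⟨fun a => ?_, fun j i => ?_, fun i a => ?_⟩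
  · convert h5 (.inl a) using 2 with a'
    by_cases h : a' = a <;> simp [v, h, φ.map_one, φ.map_zero]
  · convert h5 (.inr (.inl (j, i))) using 2 with a'
    exact (φ.map_mul _ (f5 j) _ (f2 i a')).symm
  · have h6 := h4 (.inr (.inr (i, a)))
    rw [hc _ (S.pow_le_sub t (Submodule.smul_mem_smul (Ideal.pow_mem_pow (hx i) _)
      Submodule.mem_top))] at h6
    simp only [Pi.zero_apply, map_zero, φ.map_zero, zero_smul, Finset.sum_const_zero, zero_add] at h6
    convert h6 ▸ wt_mem_zsub B _ _ _ using 2 with a'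
    by_cases h : a' = a <;> simp [v, h, φ.map_zero, φ.map_pow (f6 i), mk]

/-- `U = ∑_{β < q} X^β • wsub` is a `κ[X]`-submodule containing `zsub`, with `U / zsub` of `κ`-dimension
`≤ q^n ℓ`; it is stable under `η`, and contains the `e a`, so it contains `C^r`.  Hence
`colen zsub ≤ q^n ℓ + colen (U)`, and `U ≥ C^r + J B^r`. -/
theorem colen_zsub_le {κ B : Type} [Field κ] {n : ℕ} [CommRing B] [Algebra κ B]
    [Algebra (MvPolynomial (Fin n) κ) B] [IsScalarTower κ (MvPolynomial (Fin n) κ) B] {d r ℓ : ℕ}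
    (Z : Fin d → Matrix (Fin r) (Fin r) B) (t : ℕ) (w : Fin ℓ → Fin r → B) {q : ℕ} (hq : 0 < q) (η : B)
    (h1 : ∀ a, Pi.single a 1 ∈ wsub κ Z t w)
    (h2 : ∀ j i, algebraMap (MvPolynomial (Fin n) κ) B (MvPolynomial.X j ^ q) • w i ∈ wsub κ Z t w)
    (h3 : ∀ i, η • w i ∈ wsub κ Z t w) (J : Ideal (MvPolynomial (Fin n) κ))
    (hJ : ism J (Fin r → B) ≤ zsub (MvPolynomial (Fin n) κ) Z t) (C : Submodule (MvPolynomial (Fin n) κ) B)
    (hC : C ≤ Submodule.span (MvPolynomial (Fin n) κ) (Set.range fun i : ℕ => η ^ i)) :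
    colen (MvPolynomial (Fin n) κ) (zsub (MvPolynomial (Fin n) κ) Z t) ≤
      (q ^ n * ℓ : ℕ) + r * colen (MvPolynomial (Fin n) κ) (C ⊔ ism J B) := by
  classical
  let A := algebraMap (MvPolynomial (Fin n) κ) B
  let St : Submonoid B :=
    { carrier := {b | ∀ u ∈ wsub κ Z t w, b • u ∈ wsub κ Z t w}
      one_mem' := fun u hu => by rwa [one_smul]
      mul_mem' := fun ha hb u hu => by rw [mul_smul]; exact ha _ (hb u hu) }
  have hSt : ∀ b : B, (∀ i, b • w i ∈ wsub κ Z t w) → b ∈ St :=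
    fun b hb u hu => wt_stab le_sup_right hb hu
  have hw : ∀ i, w i ∈ wsub κ Z t w :=
    fun i => Submodule.mem_sup_left (Submodule.subset_span ⟨i, rfl⟩)
  let f := Fintype.linearCombination (MvPolynomial (Fin n) κ) w
  let m : (Fin n → Fin q) × Fin ℓ → Fin ℓ → MvPolynomial (Fin n) κ :=
    fun p => Pi.single p.2 (∏ j, MvPolynomial.X j ^ (p.1 j : ℕ))
  have hW : ∀ (p : MvPolynomial (Fin n) κ) i,
      p • w i ∈ Submodule.span κ (Set.range fun s => f (m s)) ⊔ zsub κ Z t := fun p i => by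
    induction p using MvPolynomial.induction_on' with
    | add p p' h h' => rw [add_smul]; exact add_mem h h'
    | monomial α a =>
      have h4 : MvPolynomial.monomial α a = a • ((∏ j, MvPolynomial.X j ^ (α j % q)) *
          ∏ j, (MvPolynomial.X j ^ q) ^ (α j / q) : MvPolynomial (Fin n) κ) := by
        rw [MvPolynomial.monomial_eq, Finsupp.prod_fintype _ _ (by simp), MvPolynomial.smul_eq_C_mul,
          ← Finset.prod_mul_distrib]
        simp only [← pow_mul, ← pow_add, Nat.mod_add_div]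
      rw [h4, smul_assoc, mul_smul, ← algebraMap_smul B (∏ j, _) (w i),
        ← algebraMap_smul B (∏ j, MvPolynomial.X j ^ (α j % q) : MvPolynomial (Fin n) κ)]
      refine Submodule.smul_mem _ _ (wt_stab le_sup_right (fun i' => Submodule.mem_sup_left
        (Submodule.subset_span ?_)) (?_ : _ ∈ wsub κ Z t w))
      · refine ⟨(fun j => ⟨α j % q, Nat.mod_lt _ hq⟩, i'), ?_⟩
        simp only [f, m, Fintype.linearCombination_apply_single, algebraMap_smul]
      · refine (?_ : _ ∈ St) _ (hw i)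
        rw [map_prod]
        exact prod_mem fun j _ => by rw [map_pow]; exact pow_mem (hSt _ (h2 j)) _
  rw [ln_len_add f]
  refine add_le_add ((colen_le_restrict (Λ := κ) _).trans ((Module.length_le_of_surjective
    (Submodule.mkQ _ ∘ₗ Fintype.linearCombination κ m) fun v => ?_).trans_eq ?_)) ?_
  · obtain ⟨v, rfl⟩ := Submodule.mkQ_surjective _ v
    obtain ⟨v₁, h4, v₂, h5, h6⟩ := Submodule.mem_sup.1
      (Submodule.sum_mem _ fun i (_ : i ∈ Finset.univ) => hW (v i) i)
    obtain ⟨c, rfl⟩ := (Submodule.mem_span_range_iff_exists_fun κ).1 h4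
    refine ⟨c, (Submodule.Quotient.eq _).2 ?_⟩
    change f (_ - v) ∈ zsub _ Z t
    rw [zsub_restrict] at h5 ⊢
    have h7 : f (Fintype.linearCombination κ m c - v) = -v₂ := by
      rw [map_sub, Fintype.linearCombination_apply κ, map_sum, show f v = _ from h6.symm]
      simp only [LinearMap.map_smul_of_tower, sub_add_cancel_left]
    rw [h7]
    exact neg_mem h5
  · rw [Module.length_eq_finrank]
    simp
  have h4 : wsub κ Z t w ≤ (zsub (MvPolynomial (Fin n) κ) Z t ⊔ LinearMap.range f).restrictScalars κ := by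
    refine sup_le (Submodule.span_le.2 ?_) fun v hv => Submodule.mem_sup_left ?_
    · rintro _ ⟨i, rfl⟩
      exact Submodule.mem_sup_right ⟨Pi.single i 1, by simp [f]⟩
    · rw [zsub_restrict] at hv ⊢
      exact hv
  refine (colen_anti (U := Submodule.pi Set.univ fun _ => C ⊔ ism J B) fun v hv => ?_).trans_eq
    (by rw [ln_colen_pi, Fintype.card_fin])
  rw [← Finset.univ_sum_single v]
  refine Submodule.sum_mem _ fun a _ => (sup_le (hC.trans (Submodule.span_le.2 ?_)) fun c hc =>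
    Submodule.mem_comap.2 (Submodule.mem_sup_left (hJ (ln_mem_ism _ hc))) : _ ≤ Submodule.comap
      (LinearMap.single (MvPolynomial (Fin n) κ) (fun _ => B) a)
      (zsub (MvPolynomial (Fin n) κ) Z t ⊔ LinearMap.range f)) (hv a trivial)
  rintro _ ⟨i, rfl⟩
  have h5 := h4 (pow_mem (hSt η h3) i _ (h1 a))
  rwa [← Pi.single_smul, smul_eq_mul, mul_one] at h5

end Crest.Agent.R183
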