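import Crest.Agent.R183.Plus
import Crest.Agent.R183.Gen0
import Crest.Agent.R183.Ex0
import Crest.Agent.R183.Wit
import Crest.Agent.R183.Cohen

/-!
# rid 183, file `Cov0`: the cover property in equal characteristic zero

Prefix helper lemmas with `c0_`.
-/

set_option autoImplicit false

open IsLocalRing

namespace Crest.Agent.R183

section plus

variable {P : Par} {κ : Type} [Field κ] (p : ℕ) [Fact p.Prime] [CharP κ p] {M' : ℕ}
  {dt : Dat P (MvPolynomial (Fin P.n) κ) MvPolynomial.X M'} {o' n0 m : ℕ} {Bp : Type} [CommRing Bp]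
  [Algebra (MvPolynomial (Fin P.n) κ) Bp] {ιN : AdjoinRoot dt.f →ₐ[MvPolynomial (Fin P.n) κ] Bp}
  {g : Fin (P.s + 1) → Bp} {𝔍 : Ideal Bp}

/-- `Q ↦ Q(X, g)^p` is a ring homomorphism (`add_pow_char` needs `p = 0` in `Bp`; if `Bp` is trivial the statement
is trivial, otherwise `CharP Bp p`).  It kills `(X, G)^M'` (`Plus.xg_pow`, `deep`) and the `K j` (`Plus.K_mem`). -/
theorem plus_frob (h : Plus dt o' (n0 * p) m Bp ιN g 𝔍) (h1 : P.a + P.a * o' ≤ M')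
    (h2 : n0 + P.K * P.o + P.K ≤ M') (h3 : n0 + P.K * P.o + P.D * o' ≤ M') :
    ∃ Ψ : MvPolynomial (Fin (P.s + 1)) (MvPolynomial (Fin P.n) κ) →+* Bp ⧸ 𝔍,
      (∀ Q, Ψ Q = Ideal.Quotient.mk 𝔍 (MvPolynomial.aeval g Q ^ p)) ∧
      (∀ Q ∈ xg MvPolynomial.X (Fin (P.s + 1)) ^ M', Ψ Q = 0) ∧ (∀ j, Ψ (dt.K j) = 0) ∧
      ∀ Q ∈ xg MvPolynomial.X (Fin (P.s + 1)),
        Ψ Q ∈ ism (idl (MvPolynomial.X : Fin P.n → MvPolynomial (Fin P.n) κ) ^ (p - P.K)) (Bp ⧸ 𝔍) := by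
  have hp : 0 < p := (Fact.out : p.Prime).pos
  have key : ∀ (b : Bp) (j : ℕ), n0 + P.K * P.o ≤ j →
      b ∈ (idl (MvPolynomial.X : Fin P.n → MvPolynomial (Fin P.n) κ) ^ j).map
        (algebraMap (MvPolynomial (Fin P.n) κ) Bp) → Ideal.Quotient.mk 𝔍 (b ^ p) = 0 := by
    intro b j hj hb
    rw [Ideal.Quotient.eq_zero_iff_mem]
    refine h.deep ?_
    have h4 := Ideal.pow_mem_pow hb p
    rw [← Ideal.map_pow, ← pow_mul] at h4
    refine Ideal.map_mono (Ideal.pow_le_pow_right ?_) h4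
    calc n0 * p + P.K * P.o ≤ n0 * p + P.K * P.o * p := by
          have := Nat.le_mul_of_pos_right (P.K * P.o) hp
          omega
      _ = (n0 + P.K * P.o) * p := by ring
      _ ≤ j * p := Nat.mul_le_mul_right p hj
  have hΨ : ∀ Q : MvPolynomial (Fin (P.s + 1)) (MvPolynomial (Fin P.n) κ),
      (Ideal.Quotient.mk 𝔍).comp ((MvPolynomial.aeval g : _ →ₐ[MvPolynomial (Fin P.n) κ] Bp).toRingHom.comp
        (frobenius _ p)) Q = Ideal.Quotient.mk 𝔍 (MvPolynomial.aeval g Q ^ p) := by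
    intro Q
    simp [frobenius_def]
  refine ⟨_, hΨ, fun Q hQ => ?_, fun j => ?_, fun Q hQ => ?_⟩
  · rw [hΨ]
    exact key _ (M' - P.K) (by omega) (h.xg_pow h1 M' hQ)
  · rw [hΨ]
    exact key _ _ le_rfl (h.K_mem h3 j)
  · rw [hΨ, ← map_pow]
    have h4 := h.xg_pow h1 p (Ideal.pow_mem_pow hQ p)
    refine ln_mem_ism (Ideal.Quotient.mkₐ (MvPolynomial (Fin P.n) κ) 𝔍).toLinearMap ?_
    rw [ism, Ideal.smul_top_eq_map]
    exact h4

/-- `colen_zsub_le` with `η = g 0 ^ p`, `C` the image of `dsc^p N` (`dsc_pow_smul_mem`, `Plus.g0`),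
`J = br X (p N)`; then `colen_le_comap_add` along `N → B` and `Dat.colen_br_le` for `γ = dsc`. -/
theorem plus_upper (hn : 0 < P.n) (h : Plus dt o' (n0 * p) m Bp ιN g 𝔍) [Algebra κ (Bp ⧸ 𝔍)]
    [IsScalarTower κ (MvPolynomial (Fin P.n) κ) (Bp ⧸ 𝔍)] {r ℓ t N : ℕ}
    (Z : Fin P.n → Matrix (Fin r) (Fin r) (Bp ⧸ 𝔍)) (w : Fin ℓ → Fin r → Bp ⧸ 𝔍)
    (h1 : ∀ a, Pi.single a 1 ∈ wsub κ Z t w)
    (h2 : ∀ j i, algebraMap (MvPolynomial (Fin P.n) κ) (Bp ⧸ 𝔍) (MvPolynomial.X j ^ p) • w i ∈ wsub κ Z t w)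
    (h3 : ∀ i, Ideal.Quotient.mk 𝔍 (g 0 ^ p) • w i ∈ wsub κ Z t w)
    (h4 : ∀ j a, algebraMap (MvPolynomial (Fin P.n) κ) (Bp ⧸ 𝔍) (MvPolynomial.X j ^ p) ^ N • Pi.single a 1 ∈
      zsub (Bp ⧸ 𝔍) Z t) :
    len (MvPolynomial (Fin P.n) κ) ((Fin r → Bp ⧸ 𝔍) ⧸ zsub (MvPolynomial (Fin P.n) κ) Z t) ≤
      (p : ℝ) ^ P.n * ℓ + r * (len (MvPolynomial (Fin P.n) κ) ((Bp ⧸ 𝔍) ⧸
        LinearMap.range ((Ideal.Quotient.mkₐ (MvPolynomial (Fin P.n) κ) 𝔍).comp ιN).toLinearMap) +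
        (P.ρ * (p * P.oΔ) * (P.n * (p * N) + 1) ^ (P.n - 1) : ℕ)) := by
  have hp : 0 < p := (Fact.out : p.Prime).pos
  set f := ((Ideal.Quotient.mkₐ (MvPolynomial (Fin P.n) κ) 𝔍).comp ιN).toLinearMap with hf
  set J := br (MvPolynomial.X : Fin P.n → MvPolynomial (Fin P.n) κ) (p * N) with hJdef
  set C := (ism (Ideal.span {dsc dt.f P.ρ ^ p}) (AdjoinRoot dt.f)).map f with hCdef
  have hJ : ism J (Fin r → Bp ⧸ 𝔍) ≤ zsub (MvPolynomial (Fin P.n) κ) Z t := by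
    rw [zsub_restrict, Submodule.smul_le]
    intro c hc u _
    revert u
    refine Submodule.span_induction (p := fun c _ => ∀ u : Fin r → Bp ⧸ 𝔍, u ∈ ⊤ →
      c • u ∈ (zsub (Bp ⧸ 𝔍) Z t).restrictScalars (MvPolynomial (Fin P.n) κ)) ?_ ?_ ?_ ?_ hc
    · rintro _ ⟨j, rfl⟩ u _
      rw [Submodule.restrictScalars_mem, ← Finset.univ_sum_single u, Finset.smul_sum]
      refine Submodule.sum_mem _ fun a _ => ?_
      have h5 := (zsub (Bp ⧸ 𝔍) Z t).smul_mem (u a) (h4 j a)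
      have e : (Pi.single a (u a) : Fin r → Bp ⧸ 𝔍) = u a • Pi.single a 1 := by
        rw [← Pi.single_smul', smul_eq_mul, mul_one]
      rw [smul_comm (u a), ← map_pow, ← pow_mul, algebraMap_smul, ← e] at h5
      exact h5
    · intro u _
      rw [zero_smul]; exact Submodule.zero_mem _
    · intro c c' _ _ h5 h6 u hu
      rw [add_smul]; exact Submodule.add_mem _ (h5 u hu) (h6 u hu)
    · intro a c _ h5 u hu
      rw [smul_assoc]; exact Submodule.smul_mem _ a (h5 u hu)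
  have hC : C ≤ Submodule.span (MvPolynomial (Fin P.n) κ)
      (Set.range fun i : ℕ => Ideal.Quotient.mk 𝔍 (g 0 ^ p) ^ i) := by
    rintro _ ⟨u, hu, rfl⟩
    obtain ⟨u, rfl⟩ := (ln_mem_ism_span _ _).1 hu
    have h5 := Submodule.mem_map_of_mem (f := f) (dsc_pow_smul_mem p dt.monic dt.deg u)
    rw [Submodule.map_span] at h5
    refine Submodule.span_mono ?_ h5
    rintro _ ⟨_, ⟨i, rfl⟩, rfl⟩
    exact ⟨i, by simp [hf, h.g0]⟩
  have h5 := colen_zsub_le Z t w hp _ h1 h2 h3 J hJ C hC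
  have h6 := colen_le_comap_add f (C ⊔ ism J (Bp ⧸ 𝔍))
  have h7 : colen (MvPolynomial (Fin P.n) κ) ((C ⊔ ism J (Bp ⧸ 𝔍)).comap f) ≤ _ :=
    (colen_anti ?_).trans (dt.colen_br_le (rbase_poly κ hn) dt.dsc_not p (p * N))
  · have h8 : colen (MvPolynomial (Fin P.n) κ) (C ⊔ ism J (Bp ⧸ 𝔍) ⊔ LinearMap.range f) ≤
        colen (MvPolynomial (Fin P.n) κ) (LinearMap.range f) := colen_anti le_sup_right
    obtain ⟨c, hc1, hc2⟩ := length_eq_len (Module.length_ne_top_iff.1 (ln_quot_ne_top h.fin (LinearMap.range f)))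
    rw [hc2]
    have h9 := h6.trans (add_le_add h7 (h8.trans hc1.le))
    have h10 := h5.trans (add_le_add le_rfl (mul_le_mul_right h9 (r : ℕ∞)))
    have h11 := len_le_of_le (n := p ^ P.n * ℓ +
      r * (P.ρ * (p * P.oΔ) * (P.n * (p * N) + 1) ^ (P.n - 1) + c)) (h10.trans (by push_cast; rfl))
    refine h11.trans (le_of_eq ?_)
    push_cast
    ring
  · rw [ln_ism_sup, ← Submodule.map_le_iff_le_comap, Submodule.map_sup, sup_comm]
    exact sup_le_sup le_rfl (ln_map_ism f J)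

end plus

theorem c0_num {n N0 T p : ℕ} (hT : 0 < T) (hp : 0 < p) :
    n * (p * (N0 * (n * T + 1))) + 1 ≤ p * T * (n * N0 * (n + 1) + 1) := by
  have h1 : n * T + 1 ≤ (n + 1) * T := by nlinarith
  have h2 : 1 ≤ p * T := Nat.mul_pos hp hT
  calc n * (p * (N0 * (n * T + 1))) + 1 ≤ n * (p * (N0 * ((n + 1) * T))) + p * T := by gcongr
    _ = _ := by ring

theorem c0_main {k D : Type} [Field k] [CharZero k] [CommRing D] [IsNoetherianRing D] [IsLocalRing D]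
    {s0 : k →+* D} (hs : SameRes s0) (P : Par) (hn : 0 < P.n) {x : Fin P.n → D}
    (hx : ∀ i, x i ∈ maximalIdeal D) {g : Fin (P.s + 1) → D} (hg : idl g = maximalIdeal D) {E : ℝ}
    (hE : E ≤ P.ρ) {M1 : ℕ}
    (hdat : ∀ M' ≥ M1, ∃ dt : Dat P (MvPolynomial (Fin P.n) k) MvPolynomial.X M',
      ∀ M ≥ M', RingHom.ker (ev0 s0 x g M) ≤ xg MvPolynomial.X (Fin (P.s + 1)) ^ M' ⊔ idl dt.K) :
    CP D P.n x E := by
  classical
  intro N0
  refine ⟨P.K, P.ρ + P.ρ * P.oΔ * (P.n * N0 * (P.n + 1) + 1) ^ (P.n - 1), by positivity,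
    fun nf t0 q0 ε hε => ⟨t0 + 1, fun T hT => ⟨T, by omega, ?_⟩⟩⟩
  have hT0 : 0 < T := by omega
  set n0 := nf T
  obtain ⟨η, hη, hest⟩ := plusCov_est P n0 hε
  obtain ⟨o', q1, ho, hm⟩ := exists_o'_m P n0 hη
  set M' := M1 + (P.a + P.a * o') + (n0 + P.K * P.o + P.K) + (n0 + P.K * P.o + P.D * o') with hM'
  obtain ⟨dt, hker⟩ := hdat M' (by omega)
  refine ⟨M', fun M hM r S F => ?_⟩
  obtain ⟨ℓ, F', 𝒮, hℓ, hw⟩ := sys_witness s0 hs S T (fun j : Option (Fin P.n) => j.elim (g 0) x) x hx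
  have hrep : ∀ a : D ⧸ maximalIdeal D ^ M, ∃ Q, ev0 s0 x g M Q = a ∧
      ∀ b ∈ maximalIdeal D, Ideal.Quotient.mk _ b = a →
        Q ∈ xg (MvPolynomial.X : Fin P.n → MvPolynomial (Fin P.n) k) (Fin (P.s + 1)) := by
    intro a
    by_cases ha : ∃ b ∈ maximalIdeal D, Ideal.Quotient.mk _ b = a
    · obtain ⟨b, hb, rfl⟩ := ha
      obtain ⟨Q, hQ, hQ'⟩ := ev0_surj_xg hs x hg M hb
      exact ⟨Q, hQ', fun _ _ _ => hQ⟩
    · obtain ⟨Q, hQ⟩ := ev0_surj hs x hg M a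
      exact ⟨Q, hQ, fun b hb hab => absurd ⟨b, hb, hab⟩ ha⟩
  choose rp hrp hrp' using hrep
  set 𝓕 : Finset (MvPolynomial (Fin (P.s + 1)) (MvPolynomial (Fin P.n) k)) :=
    (F ∪ F').image rp ∪ Finset.univ.image (fun i => MvPolynomial.C (MvPolynomial.X i)) ∪
      {MvPolynomial.X 0} ∪ 𝒮.image (fun c => MvPolynomial.C (MvPolynomial.C c)) with h𝓕
  obtain ⟨κ, _, p, _, _, σ, hq, ⟨dt', hK⟩, hφ, hσ⟩ := ((gen_dat dt).and
    ((gen_phom (ev0 s0 x g M) dt.K (hker M hM) 𝓕).and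
      (Gen.forall fun c : 𝒮 => gen_mem (c : k)))).exists (q0 + q1)
  have hp : 0 < p := by omega
  obtain ⟨m, hm1, hm2, hm3⟩ := hm p (by omega)
  have hX := rbase_poly κ hn
  obtain ⟨Bp, _, _, ιN, g', 𝔍, hP⟩ := exists_plus hX dt' (n' := n0 * p) ho (by omega) hm1 hm2
  obtain ⟨Ψ, hΨ, hΨ1, hΨ2, hΨ3⟩ := plus_frob p hP (by omega) (by omega) (by omega)
  obtain ⟨φ, hφ⟩ := hφ (Bp ⧸ 𝔍) Ψ hΨ1 fun j => hK j ▸ hΨ2 j
  obtain ⟨hco, hest⟩ := hest hX hp hP hm3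
  have hF : ∀ a ∈ F ∪ F', a ∈ φ.dom ∧
      φ.toFun a = Ψ (((σ.mv (Fin P.n)).mv (Fin (P.s + 1))).toFun (rp a)) := by
    intro a ha
    have := hφ (rp a) (by
      simp only [h𝓕, Finset.mem_union]
      exact Or.inl (Or.inl (Or.inl (Finset.mem_image_of_mem _ ha))))
    rwa [hrp] at this
  have hxv : ∀ i, Ideal.Quotient.mk (maximalIdeal D ^ M) (x i) ∈ φ.dom ∧
      φ.toFun (Ideal.Quotient.mk (maximalIdeal D ^ M) (x i)) =
        algebraMap (MvPolynomial (Fin P.n) κ) (Bp ⧸ 𝔍) (MvPolynomial.X i ^ p) := by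
    intro i
    have := hφ (MvPolynomial.C (MvPolynomial.X i)) (by
      simp only [h𝓕, Finset.mem_union]
      exact Or.inl (Or.inl (Or.inr (Finset.mem_image_of_mem _ (Finset.mem_univ i)))))
    rw [((σ.mv (Fin P.n)).mv_C _ (σ.mv_X _ i).1).2, (σ.mv_X _ i).2, hΨ, MvPolynomial.aeval_C,
      ← map_pow] at this
    simpa [ev0] using this
  have hg0 : φ.toFun (Ideal.Quotient.mk (maximalIdeal D ^ M) (g 0)) = Ideal.Quotient.mk 𝔍 (g' 0 ^ p) := by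
    have := (hφ (MvPolynomial.X 0) (by simp [h𝓕])).2
    rw [((σ.mv (Fin P.n)).mv_X _ 0).2, hΨ, MvPolynomial.aeval_X] at this
    simpa [ev0] using this
  let _ : Algebra κ (Bp ⧸ 𝔍) :=
    ((algebraMap (MvPolynomial (Fin P.n) κ) (Bp ⧸ 𝔍)).comp MvPolynomial.C).toAlgebra
  have : IsScalarTower κ (MvPolynomial (Fin P.n) κ) (Bp ⧸ 𝔍) :=
    IsScalarTower.of_algebraMap_eq fun _ => rfl
  obtain ⟨w, hw1, hw2, hw3⟩ := hw κ (Bp ⧸ 𝔍) φ
    (fun a ha => (hF a (Finset.mem_union_right _ ha)).1) (fun c hc => by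
      have h1 := (hφ (MvPolynomial.C (MvPolynomial.C c)) (by
        simp only [h𝓕, Finset.mem_union]
        exact Or.inr (Finset.mem_image_of_mem _ hc))).2
      have h2 := σ.mv_C (Fin P.n) (hσ ⟨c, hc⟩)
      rw [((σ.mv (Fin P.n)).mv_C _ h2.1).2, h2.2, hΨ, MvPolynomial.aeval_C, ← map_pow, ← map_pow] at h1
      refine ⟨σ.toFun c ^ p, ?_⟩
      have h3 : ev0 s0 x g M (MvPolynomial.C (MvPolynomial.C c)) = Ideal.Quotient.mk _ (s0 c) := by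
        simp [ev0]
      rw [← h3, h1]
      rfl)
  have hup := plus_upper p hn hP (S.Zφ φ) w hw1 (fun j i => (hxv j).2 ▸ hw2 (some j) i)
    (fun i => hg0 ▸ hw2 none i) (fun j a => (hxv j).2 ▸ hw3 j a)
  refine ⟨plusCov dt' Bp 𝔍 m p, φ, plusCov_basic hX hp hP, (by omega : q0 ≤ p),
    hest E _ T hE (le_add_of_nonneg_right (by positivity)) hT0,
    ⟨fun a ha => (hF a (Finset.mem_union_left _ ha)).1, fun i => (hxv i).1, fun i => (hxv i).2,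
      fun a ha haF => ?_⟩, ?_⟩
  · have h1 := (hF _ (Finset.mem_union_left _ haF)).2
    have h2 := hΨ3 _ (σ.mv2_mem_xg (hrp' _ a ha rfl))
    rw [← h1] at h2
    exact h2
  · change len (MvPolynomial (Fin P.n) κ) ((Fin r → Bp ⧸ 𝔍) ⧸ zsub (MvPolynomial (Fin P.n) κ) (S.Zφ φ) T) *
      (T : ℝ) ^ P.n ≤ ((p : ℝ) ^ P.n * S.zl D T + r * (_ / T + ε) * (p : ℝ) ^ P.n * (T : ℝ) ^ P.n) *
        (T : ℝ) ^ P.n
    refine mul_le_mul_of_nonneg_right (hup.trans ?_) (by positivity)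
    rw [hℓ, mul_assoc _ ((p : ℝ) ^ P.n), mul_assoc (r : ℝ)]
    refine add_le_add le_rfl (mul_le_mul_of_nonneg_left ?_ (Nat.cast_nonneg r))
    have hT1 : (1 : ℝ) ≤ T := by exact_mod_cast hT0
    have h1 : ε * (p : ℝ) ^ P.n ≤ ε * ((p : ℝ) ^ P.n * (T : ℝ) ^ P.n) :=
      mul_le_mul_of_nonneg_left (le_mul_of_one_le_right (by positivity) (one_le_pow₀ hT1)) hε.le
    have h2 : P.ρ * (p * P.oΔ) * (P.n * (p * (N0 * (P.n * T + 1))) + 1) ^ (P.n - 1) ≤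
        P.ρ * (p * P.oΔ) * (p * T * (P.n * N0 * (P.n + 1) + 1)) ^ (P.n - 1) :=
      Nat.mul_le_mul_left _ (Nat.pow_le_pow_left (c0_num hT0 hp) _)
    have h3 : ((P.ρ * (p * P.oΔ) * (p * T * (P.n * N0 * (P.n + 1) + 1)) ^ (P.n - 1) : ℕ) : ℝ) =
        (P.ρ * P.oΔ * (P.n * N0 * (P.n + 1) + 1) ^ (P.n - 1)) / T * ((p : ℝ) ^ P.n * (T : ℝ) ^ P.n) := by
      have e : ∀ y : ℝ, y ^ P.n = y ^ (P.n - 1) * y := fun y => by
        rw [← pow_succ, Nat.sub_add_cancel hn]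
      rw [e p, e T]
      push_cast
      rw [mul_pow, mul_pow]
      field_simp
    have h4 : (0 : ℝ) ≤ P.ρ / T * ((p : ℝ) ^ P.n * (T : ℝ) ^ P.n) := by positivity
    have h5 := (Nat.cast_le (α := ℝ)).2 h2
    rw [h3] at h5
    rw [add_mul, add_div, add_mul]
    linarith

/-- Take `x` (`exists_red`), `s0` (`cohen0`), `Φ` (`exists_base_eq`), the data of `exists_dat_poly`.  `K = P.K`,
`Cc = ρ + ρ oΔ (n N0 (n + 1) + 1)^d`, `T = t ≥ 1`, `n0 = nf t`, `η` from `plusCov_est`, `o'`, `q1` from `exists_o'_m`,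
`M0 = M'` large.  Given `S` and `F`, take `F'`, `𝒮` from `sys_witness` (with `y = x` and `g 0`), and let `𝓕` consist of
representatives of the members of `F ∪ F'` (in `(X, G)` for those in `𝔪`), of `C (X i)`, `X 0` and the constants
`C (C c)`, `c ∈ 𝒮`.  Specialise (`gen_dat`, `gen_phom`, `gen_mem`, `Gen.exists`), build `B⁺` (`exists_plus`,
`rbase_poly`), `Ψ` (`plus_frob`), and `φ`. -/
theorem cp_char0 (D : Type) [CommRing D] [IsDomain D] [IsNoetherianRing D] [IsLocalRing D]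
    [IsAdicComplete (maximalIdeal D) D] [CharZero (ResidueField D)] {d : ℕ} (h : ringKrullDim D ≤ (d + 1 : ℕ))
    (h' : ¬ ringKrullDim D ≤ d) {E : ℝ} (hE : LeMult (hs D) (d + 1) E) :
    ∃ x : Fin (d + 1) → D, (∀ i, x i ∈ maximalIdeal D) ∧ CP D (d + 1) x E := by
  have : Infinite (ResidueField D) := Infinite.of_injective _ Nat.cast_injective
  obtain ⟨x, K, hx⟩ := exists_red h
  obtain ⟨s0, hs⟩ := cohen0 D
  have hs' := ch_sameRes_of_section hs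
  obtain ⟨Φ, hC, hX, hfin, hloc, hres⟩ := exists_base_eq s0 hs' hx.sop
  have hinj : Function.Injective Φ := by
    have hdom := (rbase_ps_field (ResidueField D) (Nat.succ_pos d)).dom
    by_contra hn
    refine h' (dim_le_of_not_injective Φ hfin
      (dim_le_of_sop (ch_sop_of_eq (x := MvPowerSeries.X) ?_)) hn)
    rw [ps_maximal, IsLocalRing.maximalIdeal_eq_bot, Ideal.map_bot, bot_sup_eq]
  have e1 : Φ.comp MvPowerSeries.C = s0 := RingHom.ext hC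
  have e2 : (fun i => Φ (MvPowerSeries.X i)) = x := funext hX
  obtain ⟨s, ρ, a, D', v, o, oΔ, ha, g, M1, hg, hEρ, hdat⟩ :=
    exists_dat_poly (Nat.succ_pos d) Φ hfin hinj (e1 ▸ hs') (e2 ▸ hx) hE
  rw [e1, e2] at hdat
  exact ⟨x, hx.1, c0_main hs' ⟨d + 1, s, ρ, a, D', v, o, oΔ, ha⟩ (Nat.succ_pos d) hx.1 hg hEρ hdat⟩

end Crest.Agent.R183
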