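import Crest.Agent.R183.SysL
import Crest.Agent.R183.Sand
import Crest.Agent.R183.PS

/-!
# rid 183, file `Tot`: covers given by honest ring homomorphisms; Frobenius

Prefix helper lemmas with `tt_`.
-/

set_option autoImplicit false

open IsLocalRing

namespace Crest.Agent.R183

/-- The quotient `B^r / zsub` is a `B'`-module, and its lengths over `Λ`, `B'`, `R` agree
(`colen_eq_restrict_of_local`); it is a quotient of `B'^r / S.sub B' t`. -/
theorem Sys.len_zsub_le {R Λ B B' : Type} [CommRing R] [IsNoetherianRing R] [IsLocalRing R] {M d N0 r : ℕ}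
    (S : Sys R (maximalIdeal R) M d N0 r) [CommRing Λ] [IsLocalRing Λ] [CommRing B'] [IsLocalRing B']
    [Algebra Λ B'] [IsLocalHom (algebraMap Λ B')] (hΛ : SameRes (algebraMap Λ B')) [Algebra R B']
    [Module.Finite R B'] [IsLocalHom (algebraMap R B')] (hR : SameRes (algebraMap R B')) [CommRing B]
    [Algebra Λ B] (g : B' →+* B) (hg : Function.Surjective g)
    (hgΛ : ∀ a, g (algebraMap Λ B' a) = algebraMap Λ B a) (φ : R ⧸ maximalIdeal R ^ M →+* B)
    (hφ : ∀ a, φ (Ideal.Quotient.mk _ a) = g (algebraMap R B' a)) (t : ℕ) :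
    len Λ ((Fin r → B) ⧸ zsub Λ (S.Zφ (PHom.ofHom φ)) t) ≤ S.zl B' t := by
  let : Algebra B' B := g.toAlgebra
  have : IsScalarTower Λ B' B := IsScalarTower.of_algebraMap_eq fun a => (hgΛ a).symm
  let : Algebra R B := (g.comp (algebraMap R B')).toAlgebra
  have : IsScalarTower R B' B := IsScalarTower.of_algebraMap_eq fun _ => rfl
  have hZ : S.Zφ (PHom.ofHom φ) = fun j => (S.Z j).map (algebraMap R B) := by
    funext j
    ext i i'
    exact hφ _
  have hB : ism (maximalIdeal R ^ M) B = ⊥ := by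
    rw [eq_bot_iff]
    refine Submodule.smul_le.2 fun a ha b _ => ?_
    have : algebraMap R B a = 0 := by
      rw [show algebraMap R B a = φ (Ideal.Quotient.mk _ a) from (hφ a).symm,
        Ideal.Quotient.eq_zero_iff_mem.2 ha, map_zero]
    rw [Algebra.smul_def, this, zero_mul]
    exact Submodule.zero_mem _
  refine le_trans (le_of_eq ?_) (S.zl_le_of_surj (IsScalarTower.toAlgHom R B' B).toLinearMap hg t)
  rw [Sys.zl, S.sub_eq_zsub hB, hZ]
  generalize (fun j => (S.Z j).map (algebraMap R B)) = Z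
  have e1 : zsub Λ Z t = ((zsub B Z t).restrictScalars B').restrictScalars Λ := by
    rw [zsub_restrict]; rfl
  have e2 : zsub R Z t = ((zsub B Z t).restrictScalars B').restrictScalars R := by
    rw [zsub_restrict]; rfl
  rw [e1, e2]
  generalize (zsub B Z t).restrictScalars B' = U
  exact gw_len_congr ((colen_eq_restrict_of_local hΛ U).symm.trans (colen_eq_restrict_of_local hR U))

theorem tt_gen {A W : Type} [CommRing A] [AddCommGroup W] [Module A W] (μ : ℕ) :
    ∀ U : Submodule A W, colen A U ≤ μ →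
      ∃ w : Fin μ → W, Submodule.span A (Set.range w) ⊔ U = ⊤ := by
  induction μ with
  | zero =>
    intro U h
    refine ⟨0, ?_⟩
    have h1 : Subsingleton (W ⧸ U) := Module.length_eq_zero_iff.1 (by simpa using h)
    rw [Submodule.Quotient.subsingleton_iff.1 h1, sup_top_eq]
  | succ μ ih =>
    intro U h
    by_cases hU : U = ⊤
    · exact ⟨0, by rw [hU, sup_top_eq]⟩
    obtain ⟨w₀, hw₀⟩ : ∃ w₀, w₀ ∉ U := by
      by_contra h'
      exact hU (eq_top_iff.2 fun w _ => not_not.1 fun hw => h' ⟨w, hw⟩)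
    have h1 : U < Submodule.span A {w₀} ⊔ U :=
      lt_of_le_of_ne le_sup_right fun e => hw₀
        (e ▸ Submodule.mem_sup_left (Submodule.mem_span_singleton_self w₀))
    have h2 := Order.coheight_add_one_le h1
    rw [← Module.length_quotient, ← Module.length_quotient] at h2
    obtain ⟨w, hw⟩ := ih (Submodule.span A {w₀} ⊔ U)
      ((ENat.add_le_add_iff_right ENat.one_ne_top).1 (by simpa using h2.trans h))
    refine ⟨Fin.cons w₀ w, ?_⟩
    rw [Fin.range_cons, Submodule.span_insert, sup_comm (Submodule.span A {w₀}), sup_assoc, hw]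

/-- Nakayama: a finite module over a local ring is generated by `colen 𝔪 W` elements. -/
theorem exists_gen_of_colen {A W : Type} [CommRing A] [IsLocalRing A] [AddCommGroup W] [Module A W]
    [Module.Finite A W] {μ : ℕ} (h : colen A (ism (maximalIdeal A) W) ≤ μ) :
    ∃ f : (Fin μ → A) →ₗ[A] W, Function.Surjective f := by
  obtain ⟨w, hw⟩ := tt_gen μ _ h
  refine ⟨Fintype.linearCombination A w, LinearMap.range_eq_top.1 ?_⟩
  rw [Fintype.range_linearCombination, eq_top_iff]
  exact Submodule.le_of_le_smul_of_le_jacobson_bot Module.Finite.fg_top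
    (maximalIdeal_le_jacobson _) hw.ge

theorem finrank_le_of_colen {A W : Type} [CommRing A] [IsLocalRing A] [AddCommGroup W] [Module A W]
    [Module.Finite A W] {μ : ℕ} (h : colen A (ism (maximalIdeal A) W) ≤ μ) : Module.finrank A W ≤ μ := by
  obtain ⟨f, hf⟩ := exists_gen_of_colen h
  simpa using LinearMap.finrank_le_finrank_of_surjective hf

/-- Compose sandwiches: `exists_sand`, `Sand.finrank_eq`; a nonzero `γ ∈ D` divides a nonzero element of `Λ`. -/
theorem finrank_tower {Λ D W : Type} [CommRing Λ] [IsDomain Λ] [CommRing D] [IsDomain D] [Algebra Λ D]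
    [Module.Finite Λ D] (hinj : Function.Injective (algebraMap Λ D)) [AddCommGroup W] [Module Λ W] [Module D W]
    [IsScalarTower Λ D W] [Module.Finite D W] :
    Module.finrank Λ W = Module.finrank Λ D * Module.finrank D W := by
  have _ := hinj
  have : Module.Finite Λ W := Module.Finite.trans D W
  obtain ⟨γ, hγ, h1⟩ := exists_sand (Λ := D) (W := W)
  obtain ⟨γ', hγ', β', ι', h3, h4⟩ := exists_sand (Λ := Λ) (W := D)
  obtain ⟨a, ha, c, hc⟩ := (Algebra.IsIntegral.isIntegral (R := Λ) γ).isAlgebraic.exists_nonzero_dvd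
    (mem_nonZeroDivisors_of_ne_zero hγ)
  obtain ⟨β, ι, h1, h2⟩ := h1.mul c
  rw [mul_comm, ← hc] at h1 h2
  simp only [algebraMap_smul] at h1 h2
  let e : (Fin (Module.finrank D W) → Fin (Module.finrank Λ D) → Λ) ≃ₗ[Λ]
      (Fin (Module.finrank Λ D * Module.finrank D W) → Λ) :=
    LinearEquiv.ofFinrankEq _ _ (by simp [Module.finrank_pi_fintype, mul_comm])
  refine Sand.finrank_eq (mul_ne_zero hγ' ha) ⟨e.toLinearMap ∘ₗ β'.compLeft _ ∘ₗ β.restrictScalars Λ,
    ι.restrictScalars Λ ∘ₗ ι'.compLeft _ ∘ₗ e.symm.toLinearMap, fun w => ?_, fun v => ?_⟩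
  · have : ι'.compLeft _ (β'.compLeft _ (β w)) = γ' • β w := funext fun i => h3 _
    simp only [LinearMap.comp_apply, LinearEquiv.coe_coe, LinearEquiv.symm_apply_apply,
      LinearMap.restrictScalars_apply, this, LinearMap.map_smul_of_tower, h1, mul_smul]
  · have : β'.compLeft _ (ι'.compLeft _ (e.symm v)) = γ' • e.symm v := funext fun i => h4 _
    simp only [LinearMap.comp_apply, LinearEquiv.coe_coe, LinearMap.restrictScalars_apply, h2,
      map_smul, this, LinearEquiv.apply_symm_apply, smul_smul, mul_comm]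

/-- `D` as an algebra over itself through the `e`-th iterate of Frobenius. -/
def FrobT (D : Type) (_p _e : ℕ) : Type := D

instance (D : Type) [CommRing D] (p e : ℕ) : CommRing (FrobT D p e) := inferInstanceAs (CommRing D)

instance (D : Type) [CommRing D] [IsLocalRing D] (p e : ℕ) : IsLocalRing (FrobT D p e) :=
  inferInstanceAs (IsLocalRing D)

instance (D : Type) [CommRing D] [IsDomain D] (p e : ℕ) : IsDomain (FrobT D p e) :=
  inferInstanceAs (IsDomain D)

/-- The identity map. -/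
def FrobT.mk (D : Type) [CommRing D] (p e : ℕ) : D ≃+* FrobT D p e := RingEquiv.refl D

noncomputable instance (D : Type) [CommRing D] (p e : ℕ) [Fact p.Prime] [CharP D p] :
    Algebra D (FrobT D p e) :=
  RingHom.toAlgebra (S := FrobT D p e) (iterateFrobenius D p e)

theorem FrobT.algebraMap_eq (D : Type) [CommRing D] (p e : ℕ) [Fact p.Prime] [CharP D p] (a : D) :
    algebraMap D (FrobT D p e) a = FrobT.mk D p e (a ^ p ^ e) := rfl

section frob

variable (D : Type) [CommRing D] [IsNoetherianRing D] [IsLocalRing D] [IsAdicComplete (maximalIdeal D) D]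
  (p : ℕ) [Fact p.Prime] [CharP D p] [PerfectField (ResidueField D)]

theorem frob_local (e : ℕ) : IsLocalHom (algebraMap D (FrobT D p e)) := by
  exact ⟨fun a ha => (isUnit_pow_iff (pow_ne_zero e (Fact.out : p.Prime).ne_zero)).1 ha⟩

theorem frob_sameRes (e : ℕ) : SameRes (algebraMap D (FrobT D p e)) := by
  have : CharP (ResidueField D) p := (CharP.charP_iff_prime_eq_zero Fact.out).2 (by
    rw [← map_natCast (residue D), CharP.cast_eq_zero, map_zero])
  intro b
  obtain ⟨y, hy⟩ := (bijective_iterateFrobenius (ResidueField D) p e).2 (residue D b)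
  obtain ⟨a, rfl⟩ := residue_surjective y
  refine ⟨a, (residue_eq_zero_iff (R := D) _).1 ?_⟩
  rw [iterateFrobenius_def, ← map_pow] at hy
  exact (map_sub (residue D) b (a ^ p ^ e)).trans (sub_eq_zero.2 hy.symm)

/-- `finite_of_complete`. -/
theorem frob_finite (e : ℕ) : Module.Finite D (FrobT D p e) := by
  have : IsNoetherianRing (FrobT D p e) := inferInstanceAs (IsNoetherianRing D)
  have := frob_local D p e
  obtain ⟨c, hc⟩ := Ideal.exists_pow_le_of_le_radical_of_fg
    (I := maximalIdeal (FrobT D p e)) (J := (maximalIdeal D).map (algebraMap D (FrobT D p e)))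
    (fun a ha => ⟨p ^ e, Ideal.mem_map_of_mem (algebraMap D (FrobT D p e)) (x := a) ha⟩)
    (IsNoetherian.noetherian _)
  exact RingHom.finite_algebraMap.1 (finite_of_complete _ (frob_sameRes D p e) hc)

omit [IsAdicComplete (maximalIdeal D) D] [PerfectField (ResidueField D)] in
theorem tt_gen_pos : ∃ (n : ℕ) (y : Fin n → D), 0 < n ∧ idl y = maximalIdeal D := by
  obtain ⟨n, y, hy⟩ := gw_gen D
  refine ⟨n + 1, Fin.cons 0 y, n.succ_pos, ?_⟩
  rw [ln_idl_succ, ← hy]
  simp

variable {D}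

theorem tt_ps_rank {k : Type} [Field k] [CharP k p] [PerfectField k] {n : ℕ} (hn : 0 < n)
    [CharP (MvPowerSeries (Fin n) k) p] :
    Module.Finite (MvPowerSeries (Fin n) k) (FrobT (MvPowerSeries (Fin n) k) p 1) ∧
    Module.finrank (MvPowerSeries (Fin n) k) (FrobT (MvPowerSeries (Fin n) k) p 1) ≤ p ^ n := by
  have hb := rbase_ps_field k hn
  have := hb.noeth
  have : IsAdicComplete (maximalIdeal k) k := by
    rw [maximalIdeal_eq_bot]
    infer_instance
  have := ps_complete k n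
  have hm : idl (MvPowerSeries.X : Fin n → MvPowerSeries (Fin n) k) = maximalIdeal _ :=
    eq_maximalIdeal hb.max
  have : CharP (ResidueField (MvPowerSeries (Fin n) k)) p :=
    (CharP.charP_iff_prime_eq_zero Fact.out).2 (by
      rw [← map_natCast (residue _), CharP.cast_eq_zero, map_zero])
  have : PerfectRing (ResidueField (MvPowerSeries (Fin n) k)) p := by
    refine PerfectRing.ofSurjective _ p fun x => ?_
    obtain ⟨f, rfl⟩ := residue_surjective x
    obtain ⟨a, ha⟩ := surjective_frobenius k p (MvPowerSeries.constantCoeff f)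
    refine ⟨residue _ (MvPowerSeries.C a), ?_⟩
    rw [frobenius_def] at ha
    rw [frobenius_def, ← map_pow, ← map_pow, ha, ← sub_eq_zero, ← map_sub, residue_eq_zero_iff,
      mem_maximalIdeal, mem_nonunits_iff, MvPowerSeries.isUnit_iff_constantCoeff]
    simp
  have := PerfectRing.toPerfectField (ResidueField (MvPowerSeries (Fin n) k)) p
  have hfin := frob_finite (MvPowerSeries (Fin n) k) p 1
  have := frob_local (MvPowerSeries (Fin n) k) p 1
  refine ⟨hfin, finrank_le_of_colen (le_of_eq ?_)⟩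
  rw [← ism_map_restrict (Λ' := FrobT (MvPowerSeries (Fin n) k) p 1),
    ← colen_eq_restrict_of_local (frob_sameRes _ p 1), gw_ism_self, ← hm, idl_map]
  have h1 := hb.sd_colen_br (p ^ 1)
  rw [show (p ^ 1) ^ n = p ^ n by rw [pow_one]] at h1
  exact h1

theorem tt_rank_le [IsDomain D] {k : Type} [Field k] [CharP k p] [PerfectField k] {n : ℕ} (hn : 0 < n)
    (Φ : MvPowerSeries (Fin n) k →+* D) (hfin : Φ.Finite) (hinj : Function.Injective Φ) :
    Module.finrank D (FrobT D p 1) ≤ p ^ n := by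
  have hp : p.Prime := Fact.out
  have : CharP (MvPowerSeries (Fin n) k) p := (Φ.charP_iff hinj p).2 inferInstance
  obtain ⟨h0, h1⟩ := tt_ps_rank p (k := k) hn
  have := (rbase_ps_field k hn).dom
  have := frob_finite D p 1
  let : Algebra (MvPowerSeries (Fin n) k) D := Φ.toAlgebra
  have : Module.Finite (MvPowerSeries (Fin n) k) D := hfin
  let : Algebra (FrobT (MvPowerSeries (Fin n) k) p 1) (FrobT D p 1) :=
    RingHom.toAlgebra (R := FrobT (MvPowerSeries (Fin n) k) p 1) (S := FrobT D p 1) Φ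
  have : Module.Finite (FrobT (MvPowerSeries (Fin n) k) p 1) (FrobT D p 1) := hfin
  let : Algebra (MvPowerSeries (Fin n) k) (FrobT D p 1) :=
    ((algebraMap D (FrobT D p 1)).comp Φ).toAlgebra
  have : IsScalarTower (MvPowerSeries (Fin n) k) D (FrobT D p 1) :=
    IsScalarTower.of_algebraMap_eq fun _ => rfl
  have : IsScalarTower (MvPowerSeries (Fin n) k) (FrobT (MvPowerSeries (Fin n) k) p 1)
      (FrobT D p 1) := IsScalarTower.of_algebraMap_eq fun a => (map_pow Φ a (p ^ 1)).symm
  have h2 := finrank_tower (W := FrobT D p 1) hinj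
  have h3 := finrank_tower (Λ := MvPowerSeries (Fin n) k) (D := FrobT (MvPowerSeries (Fin n) k) p 1)
    (W := FrobT D p 1) (iterateFrobenius_inj (MvPowerSeries (Fin n) k) p 1)
  have h4 : Module.finrank (FrobT (MvPowerSeries (Fin n) k) p 1) (FrobT D p 1) =
      Module.finrank (MvPowerSeries (Fin n) k) D := rfl
  have h5 : 1 ≤ Module.finrank (MvPowerSeries (Fin n) k) D := by
    simpa using LinearMap.finrank_le_finrank_of_injective
      (f := Algebra.linearMap (MvPowerSeries (Fin n) k) D) hinj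
  rw [h2, h4, mul_comm] at h3
  exact (Nat.eq_of_mul_eq_mul_right h5 h3).trans_le h1

omit [IsNoetherianRing D] [IsLocalRing D] [IsAdicComplete (maximalIdeal D) D]
  [PerfectField (ResidueField D)] in
theorem tt_iter {ρ n : ℕ} (hρ : ρ ≤ p ^ n) {δ : D} {b : Fin ρ → D}
    (h : ∀ a : D, ∃ c : Fin ρ → D, δ ^ p * a = ∑ j, c j ^ p * b j) (e : ℕ) :
    ∃ (s : ℕ) (σ : Type) (_ : Fintype σ) (b : σ → D), Fintype.card σ ≤ (p ^ e) ^ n ∧
      s + 2 ≤ 2 * p ^ e ∧ ∀ a : D, ∃ c : σ → D, δ ^ s * a = ∑ j, c j ^ p ^ e * b j := by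
  have hp : p.Prime := Fact.out
  induction e with
  | zero => exact ⟨0, Unit, inferInstance, fun _ => 1, by simp, by simp, fun a => ⟨fun _ => a, by simp⟩⟩
  | succ e ih =>
    obtain ⟨s, σ, _, b', h1, h2, h3⟩ := ih
    refine ⟨s * p + p, Fin ρ × σ, inferInstance, fun j => b' j.2 ^ p * b j.1, ?_, ?_, fun a => ?_⟩
    · rw [Fintype.card_prod, Fintype.card_fin, pow_succ' p e, mul_pow]
      exact Nat.mul_le_mul hρ h1
    · have := hp.two_le
      rw [pow_succ]
      nlinarith
    · obtain ⟨c, hc⟩ := h a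
      choose c' hc' using fun j => h3 (c j)
      refine ⟨fun j => c' j.1 j.2, ?_⟩
      rw [pow_add, mul_assoc, hc, Finset.mul_sum, Fintype.sum_prod_type]
      refine Finset.sum_congr rfl fun j _ => ?_
      rw [← mul_assoc, pow_mul, ← mul_pow, hc', sum_pow_char, Finset.sum_mul]
      refine Finset.sum_congr rfl fun l _ => ?_
      rw [mul_pow, ← pow_mul, ← pow_succ, mul_assoc]

/-- Let `Λ = k⟦X⟧ → D` be finite and injective.  `finrank Λ (FrobT Λ) ≤ len (Λ / X^[p]) = p^n`
(`finrank_le_of_colen`), and `finrank_tower` for `Λ → FrobT Λ → FrobT D` and `Λ → D → FrobT D` gives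
`finrank D (FrobT D p 1) ≤ p^n`.  A sandwich gives `δ ≠ 0` and `p^n` elements `b j` with `δ^p D ≤ ∑ D^p b j`
(pad with zeros).  Iterate: `δ^(p + … + p^e) D ≤ ∑ D^(p^e) · (products)`, and `p + … + p^e ≤ 2 p^e`. -/
theorem frob_gen [IsDomain D] {k : Type} [Field k] [CharP k p] [PerfectField k] {n : ℕ} (hn : 0 < n)
    (Φ : MvPowerSeries (Fin n) k →+* D) (hfin : Φ.Finite) (hinj : Function.Injective Φ) :
    ∃ δ : D, δ ≠ 0 ∧ ∀ e : ℕ, ∃ ι : (Fin ((p ^ e) ^ n) → D) →ₗ[D] FrobT D p e,
      ∀ a : D, FrobT.mk D p e (δ ^ (2 * p ^ e) * a) ∈ LinearMap.range ι := by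
  have hp : p.Prime := Fact.out
  have hρ := tt_rank_le p hn Φ hfin hinj
  have := frob_finite D p 1
  obtain ⟨δ, hδ, hS⟩ := exists_sand (Λ := D) (W := FrobT D p 1)
  generalize Module.finrank D (FrobT D p 1) = ρ at hρ hS
  obtain ⟨β, ι, h1, -⟩ := hS
  have h2 : ∀ a : D, ∃ c : Fin ρ → D,
      δ ^ p * a = ∑ j, c j ^ p * (FrobT.mk D p 1).symm (ι (Pi.single j 1)) := by
    intro a
    refine ⟨β (FrobT.mk D p 1 a), (FrobT.mk D p 1).injective ?_⟩
    have h3 := h1 (FrobT.mk D p 1 a)
    rw [LinearMap.pi_apply_eq_sum_univ] at h3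
    simp only [Algebra.smul_def, FrobT.algebraMap_eq, pow_one] at h3
    simp only [map_sum, map_mul, RingEquiv.apply_symm_apply]
    rw [← h3]
    refine Finset.sum_congr rfl fun j _ => ?_
    congr 2
    funext i
    simp [Pi.single_apply, eq_comm]
  refine ⟨δ, hδ, fun e => ?_⟩
  obtain ⟨s, σ, _, b, h3, h4, h5⟩ := tt_iter p hρ h2 e
  obtain ⟨j⟩ := Function.Embedding.nonempty_of_card_le (h3.trans (Fintype.card_fin _).ge)
  refine ⟨Fintype.linearCombination D (fun i => FrobT.mk D p e (b i)) ∘ₗ LinearMap.funLeft D D j,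
    fun a => ?_⟩
  rw [LinearMap.range_comp_of_range_eq_top _
    (LinearMap.range_eq_top.2 (LinearMap.funLeft_surjective_of_injective D D j j.injective))]
  obtain ⟨c, hc⟩ := h5 (δ ^ (2 * p ^ e - s) * a)
  refine ⟨c, ?_⟩
  rw [← mul_assoc, ← pow_add, Nat.add_sub_cancel' (by omega)] at hc
  rw [hc, Fintype.linearCombination_apply]
  simp only [Algebra.smul_def, FrobT.algebraMap_eq, map_sum, map_mul]

omit [IsNoetherianRing D] [IsAdicComplete (maximalIdeal D) D] [PerfectField (ResidueField D)] in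
theorem tt_pow_le {n : ℕ} {y : Fin n → D} (hn : 0 < n) (hy : idl y = maximalIdeal D) (e N : ℕ) :
    maximalIdeal (FrobT D p e) ^ (p ^ e * (N + n)) ≤
      (maximalIdeal D ^ N).map (algebraMap D (FrobT D p e)) := by
  have h1 : (maximalIdeal D).map (algebraMap D (FrobT D p e)) =
      br (fun i => FrobT.mk D p e (y i)) (p ^ e) := by
    rw [← hy, idl_map]
    simp only [br, FrobT.algebraMap_eq, map_pow]
  have h3 := idl_pow_le_br_pow hn (fun i => FrobT.mk D p e (y i)) (p ^ e) N
  have h4 : idl (fun i => FrobT.mk D p e (y i)) = maximalIdeal (FrobT D p e) := hy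
  rwa [h4, ← h1, ← Ideal.map_pow] at h3

/-- The upper bound for Frobenius.  `Sys.zl_le_of_range`; the error term is at most the colength of
`(δ^(2q), x^[q N])` in `D` with `N = N0 (n t + 1)`, which is `≤ 2 q C (c n q N + 1)^(n-1)` by `colen_span_pow_le`,
`small_colen` (`𝔪^(c n s) ≤ br x s`). -/
theorem frob_zl_le [IsDomain D] {k : Type} [Field k] [CharP k p] [PerfectField k] {d : ℕ}
    (hdim : ringKrullDim D ≤ (d + 1 : ℕ)) (Φ : MvPowerSeries (Fin (d + 1)) k →+* D) (hfin : Φ.Finite)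
    (hinj : Function.Injective Φ) (N0 : ℕ) :
    ∃ C : ℝ, 0 ≤ C ∧ ∀ (e t M r : ℕ) (S : Sys D (maximalIdeal D) M (d + 1) N0 r), 0 < t →
      S.zl (FrobT D p e) t ≤ ((p : ℝ) ^ e) ^ (d + 1) * S.zl D t +
        r * (C / t) * ((p : ℝ) ^ e) ^ (d + 1) * (t : ℝ) ^ (d + 1) := by
  have hp : p.Prime := Fact.out
  obtain ⟨δ, hδ, hι⟩ := frob_gen p d.succ_pos Φ hfin hinj
  obtain ⟨C, hC, h1⟩ := small_colen (dim_quot_le_of_domain hdim hδ) 1 D
  obtain ⟨n, y, hn, hy⟩ := tt_gen_pos D
  refine ⟨2 * C * ((N0 * (d + 2) + n + 1 : ℕ) : ℝ) ^ d, by positivity, fun e t M r S ht => ?_⟩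
  obtain ⟨ι, hι⟩ := hι e
  have := frob_finite D p e
  have := frob_local D p e
  refine (S.zl_le_of_range ι t).trans ?_
  rw [Nat.cast_pow, Nat.cast_pow, mul_assoc (r : ℝ), mul_assoc (r : ℝ)]
  gcongr
  set N := N0 * ((d + 1) * t + 1) with hN
  have h2 : (ism (maximalIdeal (FrobT D p e) ^ (p ^ e * (N + n))) (FrobT D p e) ⊔
      ism (Ideal.span {FrobT.mk D p e δ ^ (2 * p ^ e)}) (FrobT D p e)).restrictScalars D ≤
      ism (maximalIdeal D ^ N) (FrobT D p e) ⊔ LinearMap.range ι := by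
    rw [Submodule.restrictScalars_sup]
    refine sup_le_sup ?_ fun w hw => ?_
    · rw [← ism_map_restrict (Λ' := FrobT D p e) (maximalIdeal D ^ N)]
      exact fun w hw => ln_ism_mono (W := FrobT D p e) (tt_pow_le p hn hy e N) hw
    · obtain ⟨v, rfl⟩ := (ln_mem_ism_span (FrobT.mk D p e δ ^ (2 * p ^ e)) w).1 hw
      have h3 := hι ((FrobT.mk D p e).symm v)
      rwa [map_mul, map_pow, RingEquiv.apply_symm_apply, ← smul_eq_mul] at h3
  have h3 := ((colen_anti h2).trans
    (colen_eq_restrict_of_local (frob_sameRes D p e) _).ge).trans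
    (colen_span_pow_le (FrobT.mk D p e δ) _ (2 * p ^ e))
  have h4 : colen (FrobT D p e) (ism (maximalIdeal (FrobT D p e) ^ (p ^ e * (N + n))) (FrobT D p e) ⊔
      ism (Ideal.span {FrobT.mk D p e δ}) (FrobT D p e)) =
      colen D (ism (maximalIdeal D ^ (p ^ e * (N + n)) ⊔ Ideal.span {δ ^ 1}) D) := by
    rw [pow_one, ln_ism_sup]
    rfl
  rw [h4] at h3
  refine (sd_real_mul (gw_ne_top (ln_ism_mono le_sup_left)) h3).trans ?_
  refine (mul_le_mul_of_nonneg_left (h1 _) (Nat.cast_nonneg _)).trans ?_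
  have h5 : p ^ e * (N + n) + 1 ≤ p ^ e * t * (N0 * (d + 2) + n + 1) := by
    have h6 : 1 ≤ p ^ e := Nat.one_le_pow _ _ hp.pos
    have h7 : N + n + 1 ≤ t * (N0 * (d + 2) + n + 1) := by
      obtain ⟨t, rfl⟩ : ∃ t', t = t' + 1 := ⟨t - 1, by omega⟩
      rw [hN]
      nlinarith [Nat.zero_le (t * N0), Nat.zero_le (t * n)]
    calc p ^ e * (N + n) + 1 ≤ p ^ e * (N + n + 1) := by nlinarith
      _ ≤ p ^ e * (t * (N0 * (d + 2) + n + 1)) := Nat.mul_le_mul_left _ h7
      _ = _ := by ring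
  have h6 : (((p ^ e * (N + n) : ℕ) : ℝ) + 1) ^ d ≤
      ((p : ℝ) ^ e * t * ((N0 * (d + 2) + n + 1 : ℕ) : ℝ)) ^ d :=
    pow_le_pow_left₀ (by positivity) (by exact_mod_cast h5) d
  have ht' : (t : ℝ) ≠ 0 := by positivity
  calc ((2 * p ^ e : ℕ) : ℝ) * (C * (((p ^ e * (N + n) : ℕ) : ℝ) + 1) ^ d)
      ≤ ((2 * p ^ e : ℕ) : ℝ) * (C * ((p : ℝ) ^ e * t * ((N0 * (d + 2) + n + 1 : ℕ) : ℝ)) ^ d) := by
        gcongr
    _ = _ := by
        generalize ((N0 * (d + 2) + n + 1 : ℕ) : ℝ) = A
        push_cast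
        field_simp
        ring

end frob

end Crest.Agent.R183
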