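import Crest.Agent.R183.MxI
import Crest.Agent.R183.Tot

/-!
# rid 183, file `CovM1`: rank and length estimates on a level of the mixed characteristic tower

Prefix helper lemmas with `cm1_`.
-/

set_option autoImplicit false

open IsLocalRing

namespace Crest.Agent.R183

/-- For a Cohen–Macaulay module the rank is the colength of the parameters: compare `Reg.colen_br` with
`RBase.br_approx` as `t → ∞`. -/
theorem RBase.finrank_eq_of_reg {Λ W : Type} [CommRing Λ] {d : ℕ} {X : Fin d → Λ} (h : RBase Λ X) [AddCommGroup W]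
    [Module Λ W] [Module.Finite Λ W] (hW : Reg X W) : colen Λ (ism (idl X) W) = Module.finrank Λ W := by
  obtain ⟨C, hC, h1⟩ := h.br_approx (W := W)
  have hfin : colen Λ (ism (idl X) W) ≠ ⊤ := sd_fin_of_fin (by rw [h.colen_one]; exact ENat.one_ne_top)
  obtain ⟨n, hn⟩ := ENat.ne_top_iff_exists.1 hfin
  rw [← hn]
  congr 1
  obtain ⟨d, rfl⟩ := Nat.exists_eq_add_one_of_ne_zero h.pos.ne'
  by_contra hne
  have h2 : (1 : ℝ) ≤ |(n : ℝ) - Module.finrank Λ W| := by
    have : (1 : ℤ) ≤ |(n : ℤ) - Module.finrank Λ W| :=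
      Int.one_le_abs (sub_ne_zero.2 (by exact_mod_cast hne))
    exact_mod_cast this
  obtain ⟨t, ht⟩ := exists_nat_gt C
  have ht0 : (0 : ℝ) < t := hC.trans_lt ht
  have h3 := h1 t (by exact_mod_cast ht0)
  have h4 : len Λ (W ⧸ ism (br X t) W) = n * (t : ℝ) ^ (d + 1) := by
    have := hW.colen_br t
    rw [← hn, ← Nat.cast_mul, colen] at this
    rw [len, this, ENat.toNat_natCast]
    push_cast; ring
  rw [h4, ← sub_mul, abs_mul, Nat.add_sub_cancel, abs_of_pos (pow_pos ht0 _), pow_succ] at h3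
  have h5 : (0 : ℝ) < (t : ℝ) ^ d := pow_pos ht0 _
  nlinarith [mul_le_mul_of_nonneg_right h2 (mul_pos h5 ht0).le, mul_lt_mul_of_pos_right ht h5]

/-- `D / 𝔭 D`. -/
abbrev TQ {N R : Type} [CommRing N] [CommRing R] (θ : N →+* R) (D : Type) [CommRing D] [Algebra N D] : Type :=
  D ⧸ (RingHom.ker θ).map (algebraMap N D)

theorem exists_tq_hom {N R : Type} [CommRing N] [CommRing R] (θ : N →+* R) (hθ : Function.Surjective θ)
    (D : Type) [CommRing D] [Algebra N D] :
    ∃ φ : R →+* TQ θ D, ∀ b, φ (θ b) = Ideal.Quotient.mk _ (algebraMap N D b) := by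
  refine ⟨θ.liftOfSurjective hθ ⟨(Ideal.Quotient.mk _).comp (algebraMap N D), fun b hb => ?_⟩,
    fun b => RingHom.liftOfSurjective_comp_apply θ hθ _ b⟩
  exact Ideal.Quotient.eq_zero_iff_mem.2 (Ideal.mem_map_of_mem _ hb)

variable {p d : ℕ} {A N R : Type} [CommRing A] [IsLocalRing A] [CommRing N] [IsLocalRing N] [CommRing R]
  [Algebra A N] {X' : Fin d → A} {x : Fin (d + 1) → N} {θ : N →+* R} {a a' : N} {w : Fin d → N}

theorem cm1_primary (N D : Type) [CommRing N] [IsLocalRing N] [CommRing D] [IsLocalRing D] [IsNoetherianRing D]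
    [Algebra N D] [Module.Finite N D] :
    ∃ c : ℕ, maximalIdeal D ^ c ≤ (maximalIdeal N).map (algebraMap N D) := by
  refine Ideal.exists_pow_le_of_le_radical_of_fg ?_ (IsNoetherian.noetherian _)
  rw [Ideal.radical_eq_sInf]
  refine le_sInf fun P hP => ?_
  have := hP.2
  have h1 : (P.comap (algebraMap N D)).IsMaximal := by
    have h2 : maximalIdeal N ≤ P.comap (algebraMap N D) := Ideal.map_le_iff_le_comap.1 hP.1
    rw [← (maximalIdeal.isMaximal N).eq_of_le (Ideal.comap_ne_top _ hP.2.ne_top) h2]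
    exact maximalIdeal.isMaximal N
  exact (eq_maximalIdeal (Ideal.isMaximal_of_isIntegral_of_isMaximal_comap P h1)).ge

theorem cm1_mem_max {N D : Type} [CommRing N] [IsLocalRing N] [CommRing D] [IsLocalRing D] (f : N →+* D)
    [IsLocalHom f] {b : N} (hb : b ∈ maximalIdeal N) : f b ∈ maximalIdeal D :=
  fun h => hb (IsLocalHom.map_nonunit b h)

/-- comparison of ranks -/
theorem cm1_rank_le {A V W : Type} [CommRing A] [IsDomain A] [AddCommGroup V] [Module A V] [Module.Finite A V]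
    [AddCommGroup W] [Module A W] {γ : A} (hγ : γ ≠ 0) {ρ : ℕ} (f : (Fin ρ → V) →ₗ[A] W) (U : Submodule A W)
    (hU : ∀ w ∈ U, γ • w ∈ LinearMap.range f) : Module.finrank A U ≤ ρ * Module.finrank A V := by
  obtain ⟨γ', hγ', β, ι, h1, -⟩ := exists_sand (Λ := A) (W := V)
  let g := f ∘ₗ ι.compLeft (Fin ρ)
  have hg : ∀ w : U, ((γ' * γ) • U.subtype) w ∈ LinearMap.range g := fun w => by
    obtain ⟨v, hv⟩ := hU w.1 w.2
    refine ⟨fun i => β (v i), ?_⟩
    have : ι.compLeft (Fin ρ) (fun i => β (v i)) = γ' • v := funext fun i => h1 _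
    simp only [g, LinearMap.comp_apply, this, map_smul, hv, LinearMap.smul_apply, Submodule.subtype_apply,
      mul_smul]
  let m := LinearMap.codRestrict _ _ hg
  have h2 : LinearMap.ker m ≤ Submodule.torsion A U := fun w hw => by
    refine ⟨⟨γ' * γ, mem_nonZeroDivisors_of_ne_zero (mul_ne_zero hγ' hγ)⟩, Subtype.ext ?_⟩
    exact congrArg (Subtype.val : LinearMap.range g → W) (LinearMap.mem_ker.1 hw)
  rw [← finrank_quotient_eq_of_le_torsion h2]
  refine (LinearMap.finrank_le_finrank_of_injective (f := (LinearMap.ker m).liftQ m le_rfl)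
    (LinearMap.ker_eq_bot.1 (Submodule.ker_liftQ_eq_bot _ _ _ le_rfl))).trans
    ((LinearMap.finrank_range_le g).trans (le_of_eq ?_))
  simp [Module.finrank_pi_fintype]

theorem cm1_rank_surj {A V W : Type} [CommRing A] [IsDomain A] [AddCommGroup V] [Module A V] [Module.Finite A V]
    [AddCommGroup W] [Module A W] (f : V →ₗ[A] W) (hf : Function.Surjective f) :
    Module.finrank A W + Module.finrank A (LinearMap.ker f) = Module.finrank A V := by
  rw [← (f.quotKerEquivOfSurjective hf).finrank_eq]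
  exact Submodule.finrank_quotient_add_finrank _

theorem cm1_head_ne {A : Type} [CommRing A] {d : ℕ} {z : Fin (d + 1) → A} (h : RBase A z) : z 0 ≠ 0 := by
  intro h0
  have := h.dom
  have h1 := rg2_reg_self.1 h.reg 0 1 (by rw [h0, zero_mul]; exact zero_mem _)
  have h2 : idlLt z 0 = ⊥ := by
    rw [idlLt, Ideal.span_eq_bot]
    rintro _ ⟨i, hi, rfl⟩
    exact absurd hi (Fin.not_lt_zero i)
  rw [h2, Ideal.mem_bot] at h1
  exact one_ne_zero h1

theorem TLevel.primary {𝔭 : Ideal N} {K s Nn q ρ : ℕ} {D : Type} [CommRing D] [IsLocalRing D] [Algebra N D]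
    {X : Fin (d + 1) → D} {α α' : D} (T : TLevel p x 𝔭 a a' K s Nn q ρ D X α α') :
    ∃ c : ℕ, maximalIdeal D ^ c ≤ (maximalIdeal N).map (algebraMap N D) := by
  have := T.noeth
  have := T.fin
  have := T.loc
  exact cm1_primary N D

/-- Every system of parameters of `D` is regular (`Reg.of_sop`). -/
theorem TLevel.reg_of_sop (hx : ∀ i, x i ∈ maximalIdeal N) {𝔭 : Ideal N} {K s Nn q ρ : ℕ} {D : Type} [CommRing D]
    [IsLocalRing D] [Algebra N D] {X : Fin (d + 1) → D} {α α' : D} (T : TLevel p x 𝔭 a a' K s Nn q ρ D X α α')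
    (hq : 0 < q) {z : Fin (d + 1) → D} (hz : Sop z) : Reg z D := by
  have := T.noeth
  have := T.loc
  obtain ⟨c, hc⟩ := hz.2
  refine T.reg.of_sop hz.1 fun i => ⟨c, hc (Ideal.pow_mem_pow ?_ c)⟩
  refine (maximalIdeal.isMaximal D).isPrime.mem_of_pow_mem q ?_
  rw [T.root]
  exact cm1_mem_max _ (hx i)

theorem cm1_z (P : MixPres p A N R X' x θ a a' w) (i : Fin (d + 1)) :
    algebraMap A N ((Fin.cons (p : A) X' : Fin (d + 1) → A) i) =
      (Fin.cons (p : N) (Fin.tail x) : Fin (d + 1) → N) i := by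
  refine Fin.cases ?_ (fun i => ?_) i
  · simp
  · simp [P.tail]

theorem cm1_idl_z (P : MixPres p A N R X' x θ a a' w) :
    idl (Fin.cons (p : N) (Fin.tail x) : Fin (d + 1) → N) = (maximalIdeal A).map (algebraMap A N) := by
  rw [← P.max, idl_map]
  exact congrArg idl (funext fun i => (cm1_z P i).symm)

theorem cm1_sop_z (P : MixPres p A N R X' x θ a a' w) :
    Sop (Fin.cons (p : N) (Fin.tail x) : Fin (d + 1) → N) := by
  have := P.noeth
  have := P.fin
  have := P.loc
  refine ⟨fun i => ?_, ?_⟩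
  · rw [← cm1_z P]
    exact cm1_mem_max _ (P.max ▸ ln_mem_idl _ i)
  · rw [cm1_idl_z P]
    exact cm1_primary A N

theorem TLevel.cm1_sop {𝔭 : Ideal N} {K s Nn q ρ : ℕ} {D : Type} [CommRing D] [IsLocalRing D] [Algebra N D]
    {X : Fin (d + 1) → D} {α α' : D} (T : TLevel p x 𝔭 a a' K s Nn q ρ D X α α') {e : ℕ} {z : Fin e → N}
    (hz : Sop z) : Sop fun i => algebraMap N D (z i) := by
  have := T.loc
  obtain ⟨c, hc⟩ := T.primary
  obtain ⟨c', hc'⟩ := hz.2
  refine ⟨fun i => cm1_mem_max _ (hz.1 i), c * c', ?_⟩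
  rw [pow_mul, ← idl_map]
  refine (Ideal.pow_right_mono hc c').trans ?_
  rw [← Ideal.map_pow]
  exact Ideal.map_mono hc'

theorem cm1_colen_res {A D : Type} [CommRing A] [IsLocalRing A] [CommRing D] [IsLocalRing D] [Algebra A D]
    [IsLocalHom (algebraMap A D)] (h : SameRes (algebraMap A D)) (J : Ideal A) :
    colen D (J.map (algebraMap A D)) = colen A (ism J D) := by
  rw [colen_eq_restrict_of_local h, ← ism_map_restrict (Λ' := D), gw_ism_self]

theorem cm1_rank_base (P : MixPres p A N R X' x θ a a' w) {K s Nn q ρ : ℕ} {D : Type} [CommRing D]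
    [IsLocalRing D] [Algebra N D] {X : Fin (d + 1) → D} {α α' : D}
    (T : TLevel p x (RingHom.ker θ) a a' K s Nn q ρ D X α α') (hq : 0 < q) [Algebra A D] [IsScalarTower A N D] :
    colen D ((idl (Fin.cons (p : N) (Fin.tail x) : Fin (d + 1) → N)).map (algebraMap N D)) =
      Module.finrank A D := by
  have := P.fin
  have := T.fin
  have := P.loc
  have := T.loc
  have : Module.Finite A D := Module.Finite.trans N D
  have : IsLocalHom (algebraMap A D) := by
    rw [IsScalarTower.algebraMap_eq A N D]; infer_instance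
  have hres : SameRes (algebraMap A D) := fun b => by
    obtain ⟨b', hb'⟩ := T.res b
    obtain ⟨b'', hb''⟩ := P.res b'
    refine ⟨b'', ?_⟩
    have := add_mem hb' (cm1_mem_max (algebraMap N D) hb'')
    rwa [map_sub, sub_add_sub_cancel, ← IsScalarTower.algebraMap_apply] at this
  have hreg : Reg (Fin.cons (p : A) X' : Fin (d + 1) → A) D := by
    rw [← reg_algebraMap_iff (Λ' := D)]
    have := T.reg_of_sop P.sop.1 hq (T.cm1_sop (cm1_sop_z P))
    convert this using 2 with i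
    rw [← cm1_z P, ← IsScalarTower.algebraMap_apply]
  rw [cm1_idl_z P, Ideal.map_map, ← IsScalarTower.algebraMap_eq, cm1_colen_res hres, ← P.max]
  exact P.rb.finrank_eq_of_reg hreg

/-- View `D` as an `A`-algebra through `N`.  `len (D / 𝔪_A D) = finrank A D` (`finrank_eq_of_reg`), and
`finrank A D ≤ ρ finrank A N` because `p^c D` lies in the image of `N^ρ`. -/
theorem TLevel.len_base (P : MixPres p A N R X' x θ a a' w) {K s Nn q ρ : ℕ} {D : Type} [CommRing D]
    [IsLocalRing D] [Algebra N D] {X : Fin (d + 1) → D} {α α' : D}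
    (T : TLevel p x (RingHom.ker θ) a a' K s Nn q ρ D X α α') (hq : 0 < q) :
    colen D ((idl (Fin.cons (p : N) (Fin.tail x) : Fin (d + 1) → N)).map (algebraMap N D)) ≤
      (ρ * Module.finrank A N : ℕ) := by
  let : Algebra A D := ((algebraMap N D).comp (algebraMap A N)).toAlgebra
  have : IsScalarTower A N D := IsScalarTower.of_algebraMap_eq fun _ => rfl
  have := P.rb.dom
  have := P.fin
  rw [cm1_rank_base P T hq, Nat.cast_le, ← finrank_top]
  obtain ⟨c, ι, hι⟩ := T.gen
  refine cm1_rank_le (pow_ne_zero c (cm1_head_ne P.rb)) (ι.restrictScalars A) ⊤ fun b _ => ?_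
  obtain ⟨v, hv⟩ := hι b
  refine ⟨v, hv.trans ?_⟩
  rw [← algebraMap_smul N ((Fin.cons (p : A) X' : Fin (d + 1) → A) 0 ^ c)]
  simp

/-- `finrank A D ≥ ρ finrank A N` (`low`, `finrank_le_of_colen`), `finrank A (𝔭 D) ≤ ρ finrank A 𝔭`, so
`finrank A (D / 𝔭 D) ≥ ρ finrank A R`; conclude with `finrank_tower`. -/
theorem TLevel.rank_tq [IsDomain R] (P : MixPres p A N R X' x θ a a' w) {K s Nn q ρ : ℕ} {D : Type} [CommRing D]
    [IsLocalRing D] [Algebra N D] {X : Fin (d + 1) → D} {α α' : D}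
    (T : TLevel p x (RingHom.ker θ) a a' K s Nn q ρ D X α α') (hq : 0 < q) [Algebra R (TQ θ D)]
    (hR : ∀ b, algebraMap R (TQ θ D) (θ b) = Ideal.Quotient.mk _ (algebraMap N D b)) :
    ρ ≤ Module.finrank R (TQ θ D) := by
  let : Algebra A D := ((algebraMap N D).comp (algebraMap A N)).toAlgebra
  have : IsScalarTower A N D := IsScalarTower.of_algebraMap_eq fun _ => rfl
  let : Algebra A R := (θ.comp (algebraMap A N)).toAlgebra
  have : IsScalarTower A R (TQ θ D) := IsScalarTower.of_algebraMap_eq fun b => (hR _).symm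
  have := P.rb.dom
  have := P.rb.noeth
  have := P.fin
  have := T.fin
  have := P.loc
  have := P.noeth
  have : Module.Finite A D := Module.Finite.trans N D
  let θ' : N →ₗ[A] R := (⟨θ, fun _ => rfl⟩ : N →ₐ[A] R).toLinearMap
  have : Module.Finite A R := Module.Finite.of_surjective θ' P.surj
  have : Module.Finite R (TQ θ D) := Module.Finite.of_restrictScalars_finite A R _
  have h1 : ρ * Module.finrank A N ≤ Module.finrank A D := by
    have h2 := T.low
    rw [cm1_rank_base P T hq, cm1_idl_z P, cm1_colen_res P.res] at h2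
    have hfin : colen A (ism (maximalIdeal A) N) ≠ ⊤ :=
      sd_fin_of_fin (by rw [gw_colen_max]; exact ENat.one_ne_top)
    obtain ⟨n, hn⟩ := ENat.ne_top_iff_exists.1 hfin
    have h3 := finrank_le_of_colen hn.ge
    rw [← hn, ← Nat.cast_mul, Nat.cast_le] at h2
    exact (Nat.mul_le_mul_left ρ h3).trans h2
  let π : D →ₗ[A] TQ θ D := (Ideal.Quotient.mkₐ A _).toLinearMap
  have h2 : Module.finrank A (LinearMap.ker π) ≤ ρ * Module.finrank A (LinearMap.ker θ') := by
    obtain ⟨c, ι, hι⟩ := T.gen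
    refine cm1_rank_le (pow_ne_zero c (cm1_head_ne P.rb))
      (ι.restrictScalars A ∘ₗ (LinearMap.ker θ').subtype.compLeft (Fin ρ)) _ fun b hb => ?_
    have hb' : b ∈ (RingHom.ker θ).map (algebraMap N D) := Ideal.Quotient.eq_zero_iff_mem.1 hb
    clear hb
    rw [← Submodule.restrictScalars_mem N, ← Ideal.smul_top_eq_map] at hb'
    induction hb' using Submodule.smul_induction_on' with
    | smul r hr y _ =>
      obtain ⟨v, hv⟩ := hι y
      refine ⟨fun i => ⟨r * v i, Ideal.mul_mem_right (v i) (RingHom.ker θ) hr⟩, ?_⟩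
      change ι (r • v) = _
      rw [map_smul, hv, smul_comm, ← algebraMap_smul N ((Fin.cons (p : A) X' : Fin (d + 1) → A) 0 ^ c)]
      simp
    | add y _ y' _ h h' =>
      rw [smul_add]
      exact add_mem h h'
  have h3 := cm1_rank_surj π (Ideal.Quotient.mkₐ_surjective A _)
  have h4 := cm1_rank_surj θ' P.surj
  have h5 := finrank_tower (Λ := A) (D := R) (W := TQ θ D) P.inj
  have h6 : 0 < Module.finrank A R := by
    have : FaithfulSMul A R := (faithfulSMul_iff_algebraMap_injective A R).2 P.inj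
    exact Module.finrank_pos
  refine Nat.le_of_mul_le_mul_left ?_ h6
  rw [← h5]
  rw [← h4, mul_add] at h1
  rw [mul_comm]
  omega

theorem cm1_binom {D : Type} [CommRing D] (α α' : D) (s : ℕ) :
    ∃ e, (α + α') ^ (s + 1) = α ^ (s + 1) + α' ^ (s + 1) + α * α' * e := by
  induction s with
  | zero => exact ⟨0, by ring⟩
  | succ s ih =>
    obtain ⟨e, he⟩ := ih
    refine ⟨α ^ s + α' ^ s + e * (α + α'), ?_⟩
    rw [pow_succ, he]
    ring

/-- (i) `𝔪^k ≥ (p, x')^[k]`, `colen_br_le`, `len_base`.  (ii) `(g, w^[k]) ≤ (g, 𝔪^k)`, `colen_idl_exp_le`.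
(iii) with `η = α + α'`: `η^s - g ∈ (α α') ≤ p^Nn D ≤ 𝔪_D (g, w) D`, so `(η^s, w) D = (g, w) D` by Nakayama;
`η, w` is regular, `colen (η^s, w) = s colen (η, w)` (`Reg.colen_exp`), and `(η, w^[c]) ≤ (x, η)`. -/
theorem MixPres.bounds (P : MixPres p A N R X' x θ a a' w) :
    ∃ (C : ℝ) (N1 : ℕ), 0 ≤ C ∧ ∀ {K s Nn q ρ : ℕ} {D : Type} [CommRing D] [IsLocalRing D] [Algebra N D]
      {X : Fin (d + 1) → D} {α α' : D}, TLevel p x (RingHom.ker θ) a a' K s Nn q ρ D X α α' → 0 < q →
      (∀ k : ℕ, len D (D ⧸ (maximalIdeal N ^ k).map (algebraMap N D)) ≤ C * ρ * ((k : ℝ) + 1) ^ (d + 1)) ∧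
      (∀ k : ℕ, len D (D ⧸ (maximalIdeal N ^ k ⊔ Ideal.span {a + a'}).map (algebraMap N D)) ≤
        C * ρ * ((k : ℝ) + 1) ^ d) ∧
      (N1 ≤ Nn → 0 < s → len D (D ⧸ (br X q ⊔ Ideal.span {α + α'})) ≤ C * ρ / s) := by
  obtain ⟨c, hc⟩ := P.sopg.2
  obtain ⟨c2, hc2⟩ := P.sop.2
  have hz := cm1_sop_z P
  set r0 := Module.finrank A N
  refine ⟨((r0 + c ^ (d + 1) * r0 + c2 ^ d * (c ^ (d + 1) * r0) : ℕ) : ℝ), c + 1, Nat.cast_nonneg _, ?_⟩
  intro K s Nn q ρ D _ _ _ X α α' T hq
  have := T.noeth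
  have := T.loc
  have h1 : ∀ k : ℕ, colen D ((maximalIdeal N ^ k).map (algebraMap N D)) ≤ (k ^ (d + 1) * (ρ * r0) : ℕ) := by
    intro k
    have h2 := colen_br_le (W := D)
      (fun i => algebraMap N D ((Fin.cons (p : N) (Fin.tail x) : Fin (d + 1) → N) i)) k ⊥
    rw [bot_sup_eq, bot_sup_eq, gw_ism_self, gw_ism_self, ← idl_map] at h2
    refine (colen_anti (ln_idl_le fun i => ?_)).trans (h2.trans ?_)
    · rw [← map_pow]
      exact Ideal.mem_map_of_mem _ (Ideal.pow_mem_pow (hz.1 i) k)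
    · rw [Nat.cast_mul (k ^ (d + 1))]
      gcongr
      exact T.len_base P hq
  set y : Fin (d + 1) → D := fun i => algebraMap N D ((Fin.cons (a + a') w : Fin (d + 1) → N) i) with hy
  have h2 : colen D (idl y) ≤ (c ^ (d + 1) * (ρ * r0) : ℕ) := by
    refine (colen_anti ?_).trans (h1 c)
    rw [hy, ← idl_map]
    exact Ideal.map_mono hc
  refine ⟨fun k => (len_le_of_le (h1 k)).trans ?_, fun k => ?_, fun hN hs => ?_⟩
  · push_cast
    have : (k : ℝ) ^ (d + 1) ≤ ((k : ℝ) + 1) ^ (d + 1) := by gcongr; linarith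
    calc (k : ℝ) ^ (d + 1) * (ρ * r0) = r0 * ρ * (k : ℝ) ^ (d + 1) := by ring
      _ ≤ _ := by gcongr; rw [add_assoc]; exact le_add_of_nonneg_right (by positivity)
  · have h3 := colen_idl_exp_le (W := D) y (Fin.cons 1 fun _ => k) ⊥
    rw [bot_sup_eq, bot_sup_eq, gw_ism_self, gw_ism_self, Fin.prod_univ_succ] at h3
    simp only [Fin.cons_zero, Fin.cons_succ, Finset.prod_const, Finset.card_univ, Fintype.card_fin,
      one_mul] at h3
    have h4 : colen D ((maximalIdeal N ^ k ⊔ Ideal.span {a + a'}).map (algebraMap N D)) ≤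
        (k ^ d * (c ^ (d + 1) * (ρ * r0)) : ℕ) := by
      refine (colen_anti (ln_idl_le fun i => ?_)).trans (h3.trans ?_)
      · rw [hy, ← map_pow]
        refine Ideal.mem_map_of_mem _ ?_
        refine Fin.cases ?_ (fun i => ?_) i
        · simp only [Fin.cons_zero, pow_one]
          exact Ideal.mem_sup_right (Ideal.mem_span_singleton_self _)
        · simp only [Fin.cons_succ]
          exact Ideal.mem_sup_left (Ideal.pow_mem_pow (P.sopg.1 i.succ) k)
      · rw [Nat.cast_mul (k ^ d)]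
        gcongr
    refine (len_le_of_le h4).trans ?_
    push_cast
    have : (k : ℝ) ^ d ≤ ((k : ℝ) + 1) ^ d := by gcongr; linarith
    calc (k : ℝ) ^ d * (c ^ (d + 1) * (ρ * r0)) = (c ^ (d + 1) * r0) * ρ * (k : ℝ) ^ d := by ring
      _ ≤ _ := by
        gcongr
        have h5 : (0 : ℝ) ≤ c2 ^ d * (c ^ (d + 1) * r0) := by positivity
        have h6 : (0 : ℝ) ≤ r0 := Nat.cast_nonneg _
        linarith
  · set y' : Fin (d + 1) → D := Fin.cons (α + α') fun i => algebraMap N D (w i) with hy'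
    have hp : (p : D) ^ Nn ∈ maximalIdeal D * idl y := by
      have h3 : (p : N) ^ Nn ∈ maximalIdeal N * idl (Fin.cons (a + a') w : Fin (d + 1) → N) := by
        refine Ideal.mul_mono_right hc ?_
        rw [← pow_succ']
        exact Ideal.pow_le_pow_right hN (Ideal.pow_mem_pow (hz.1 0) Nn)
      have h4 := Ideal.mem_map_of_mem (algebraMap N D) h3
      rw [Ideal.map_mul, idl_map, map_pow, map_natCast] at h4
      refine Ideal.mul_mono_left (Ideal.map_le_iff_le_comap.2 fun b hb => ?_) h4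
      exact cm1_mem_max _ hb
    have hJ : idl y ≤ idl fun i => y' i ^ (Fin.cons s fun _ => 1 : Fin (d + 1) → ℕ) i := by
      refine Submodule.le_of_le_smul_of_le_jacobson_bot (IsNoetherian.noetherian _)
        (maximalIdeal_le_jacobson _) (ln_idl_le fun i => ?_)
      refine Fin.cases ?_ (fun i => ?_) i
      · obtain ⟨s, rfl⟩ := Nat.exists_eq_add_one_of_ne_zero hs.ne'
        obtain ⟨e, he⟩ := cm1_binom α α' s
        have h3 : y 0 = (α + α') ^ (s + 1) - α * α' * e := by
          rw [he, T.rootα, T.rootα', ← map_add, add_sub_cancel_right]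
          rfl
        rw [h3]
        refine sub_mem (Ideal.mem_sup_left (ln_mem_idl _ 0)) (Ideal.mem_sup_right ?_)
        exact Ideal.mul_mem_right _ _ ((Ideal.span_singleton_le_iff_mem _).2 hp T.kill')
      · refine Ideal.mem_sup_left ?_
        have := ln_mem_idl (fun i => y' i ^ (Fin.cons s fun _ => 1 : Fin (d + 1) → ℕ) i) i.succ
        simpa [hy', hy] using this
    have hmax := (maximalIdeal.isMaximal D).isPrime
    have hsop : Sop y' := by
      obtain ⟨c', hc'⟩ := (T.cm1_sop P.sopg).2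
      refine ⟨fun i => ?_, c', hc'.trans (hJ.trans (ln_idl_le fun i => ?_))⟩
      · refine Fin.cases ?_ (fun i => ?_) i
        · refine add_mem (hmax.mem_of_pow_mem s ?_) (hmax.mem_of_pow_mem s ?_)
          · rw [T.rootα]; exact cm1_mem_max _ P.amem
          · rw [T.rootα']
            refine cm1_mem_max _ ?_
            have := sub_mem (P.sopg.1 0) P.amem
            simpa using this
        · exact cm1_mem_max _ (P.sopg.1 i.succ)
      · refine Ideal.pow_mem_of_mem _ (ln_mem_idl _ i) _ ?_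
        refine Fin.cases ?_ (fun i => ?_) i
        · exact hs
        · exact Nat.one_pos
    have h3 := (T.reg_of_sop P.sop.1 hq hsop).colen_exp (Fin.cons s fun _ => 1)
    rw [gw_ism_self, gw_ism_self, Fin.prod_univ_succ] at h3
    simp only [Fin.cons_zero, Fin.cons_succ, Finset.prod_const_one, mul_one] at h3
    have h4 : (s : ℕ∞) * colen D (idl y') ≤ (c ^ (d + 1) * (ρ * r0) : ℕ) :=
      h3 ▸ (colen_anti hJ).trans h2
    have h5 := colen_idl_exp_le (W := D) y' (Fin.cons 1 fun _ => c2) ⊥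
    rw [bot_sup_eq, bot_sup_eq, gw_ism_self, gw_ism_self, Fin.prod_univ_succ] at h5
    simp only [Fin.cons_zero, Fin.cons_succ, Finset.prod_const, Finset.card_univ, Fintype.card_fin,
      one_mul] at h5
    have h6 : colen D (br X q ⊔ Ideal.span {α + α'}) ≤ (c2 ^ d : ℕ) * colen D (idl y') := by
      refine (colen_anti (ln_idl_le fun i => ?_)).trans h5
      refine Fin.cases ?_ (fun i => ?_) i
      · simp only [Fin.cons_zero, pow_one, hy']
        exact Ideal.mem_sup_right (Ideal.mem_span_singleton_self _)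
      · simp only [Fin.cons_succ, hy']
        refine Ideal.mem_sup_left ?_
        have e : br X q = (idl x).map (algebraMap N D) := by
          rw [idl_map]; exact congrArg idl (funext T.root)
        rw [e, ← map_pow]
        exact Ideal.mem_map_of_mem _ (hc2 (Ideal.pow_mem_pow (P.sopg.1 i.succ) c2))
    have hfin : colen D (idl y') ≠ ⊤ := by
      intro h
      rw [h, ENat.mul_top (by exact_mod_cast hs.ne')] at h4
      exact ENat.natCast_ne_top _ (top_le_iff.1 h4)
    obtain ⟨n, hn⟩ := ENat.ne_top_iff_exists.1 hfin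
    rw [← hn, ← Nat.cast_mul] at h4 h6
    have h7 : ((s * n : ℕ) : ℝ) ≤ (c ^ (d + 1) * (ρ * r0) : ℕ) := by exact_mod_cast h4
    have hs' : (0 : ℝ) < s := by exact_mod_cast hs
    refine (len_le_of_le h6).trans ?_
    rw [le_div_iff₀ hs']
    push_cast at h7 ⊢
    calc (c2 : ℝ) ^ d * n * s = c2 ^ d * (s * n) := by ring
      _ ≤ c2 ^ d * (c ^ (d + 1) * (ρ * r0)) := by gcongr
      _ = (c2 ^ d * (c ^ (d + 1) * r0)) * ρ := by ring
      _ ≤ _ := by gcongr; exact le_add_of_nonneg_left (by positivity)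

theorem cm1_zl {R : Type} [CommRing R] [IsNoetherianRing R] [IsLocalRing R] {d : ℕ} {Q : Type}
    [AddCommGroup Q] [Module R Q] [Module.Finite R Q] {γ : R} {x : Fin d → R} (hx : ∀ i, x i ∈ maximalIdeal R)
    {N0 t k M r L : ℕ} (S : Sys R (maximalIdeal R) M d N0 r) (hQ : ism (maximalIdeal R ^ M) Q = ⊥)
    (hk : 0 < k) (hγ : AReg γ x L Q) (hL : 2 * (d * (N0 * (d * (t * k)))) ≤ L) :
    (k : ℝ) ^ d * S.zl Q t ≤ S.zl Q (t * k) + d * (k : ℝ) ^ d * r *
        len R (Q ⧸ ism (maximalIdeal R ^ (N0 * (d * t + 1)) ⊔ Ideal.span {γ ^ d}) Q) := by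
  have hs : ∀ T, esub (fun j => act (S.Z j) Q) (fun _ => T) = S.sub Q T := fun T => by
    have : ism (maximalIdeal R ^ M) (Fin r → Q) = ⊥ := by
      rw [ln_ism_pi, hQ]
      ext v
      simp [Submodule.mem_pi, funext_iff]
    rw [Sys.sub, this, sup_bot_eq]
    simp only [act_pow]
    rfl
  have h1 := e1_all (𝒞 := (fun A => act A Q) '' S.C) (z := fun j => act (S.Z j) Q) (by
    rintro _ ⟨A, hA, rfl⟩ _ ⟨B, hB, rfl⟩
    exact S.commute hQ hA hB) (fun j => ⟨_, S.Z_mem j, rfl⟩) (hγ.pi (Fin r))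
    (fun i => S.inIdl hQ (Ideal.pow_mem_pow (hx i) N0)) hk hL
  rw [hs, hs] at h1
  have h2 := S.colen_sup_le (Q := Q) (Ideal.span {γ ^ d}) t
  obtain ⟨n1, e1⟩ := ENat.ne_top_iff_exists.1 (sl_fin S (Q := Q) t)
  obtain ⟨n2, e2⟩ := ENat.ne_top_iff_exists.1 (sl_fin S (Q := Q) (t * k))
  obtain ⟨n3, e3⟩ := ENat.ne_top_iff_exists.1
    (ln_fin_anti (sl_fin S (Q := Q) t) (le_sup_left (b := ism (Ideal.span {γ ^ d}) (Fin r → Q))))
  rw [← e1, ← e2, ← e3] at h1
  have h3 : ((k ^ d * n1 : ℕ) : ℝ) ≤ (n2 + d * k ^ d * n3 : ℕ) := by exact_mod_cast h1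
  rw [len, show Module.length R _ = _ from e3.symm, ENat.toNat_natCast] at h2
  rw [Sys.zl, Sys.zl, len, len, show Module.length R _ = _ from e1.symm,
    show Module.length R _ = _ from e2.symm, ENat.toNat_natCast, ENat.toNat_natCast]
  push_cast at h3
  refine h3.trans ?_
  rw [mul_assoc (d * (k : ℝ) ^ d)]
  gcongr

/-- `e1_all` on `(Q / 𝔪^M Q)^r` (`Sys.commute`, `Sys.inIdl`, `AReg.pi`), `Sys.colen_sup_le`. -/
theorem zl_mul_le {R : Type} [CommRing R] [IsNoetherianRing R] [IsLocalRing R] {d : ℕ} {Q : Type}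
    [AddCommGroup Q] [Module R Q] [Module.Finite R Q] {γ : R} {x : Fin d → R} (hx : Sop x) (N0 t k : ℕ)
    (hk : 0 < k) (hγ : ∀ L : ℕ, AReg γ x L Q) :
    ∃ M0 : ℕ, ∀ M ≥ M0, ∀ (r : ℕ) (S : Sys R (maximalIdeal R) M d N0 r),
      (k : ℝ) ^ d * S.zl Q t ≤ S.zl Q (t * k) + d * (k : ℝ) ^ d * r *
        len R (Q ⧸ ism (maximalIdeal R ^ (N0 * (d * t + 1)) ⊔ Ideal.span {γ ^ d}) Q) := by
  obtain ⟨c, hc⟩ := hx.2
  refine ⟨c * (2 * (d * (N0 * (d * (t * k))))), fun M hM r S => ?_⟩
  set L := 2 * (d * (N0 * (d * (t * k)))) with hL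
  have hU : ism (maximalIdeal R ^ M) Q ≤ ism (idl x ^ L) Q := by
    refine ln_ism_mono ((Ideal.pow_le_pow_right hM).trans ?_)
    rw [pow_mul]
    exact Ideal.pow_right_mono hc L
  have hQ : ism (maximalIdeal R ^ M) (Q ⧸ ism (maximalIdeal R ^ M) Q) = ⊥ := by
    rw [← ln_map_ism_surj _ (Submodule.mkQ_surjective _), Submodule.mkQ_map_self]
  have hzl : ∀ T, S.zl Q T = S.zl (Q ⧸ ism (maximalIdeal R ^ M) Q) T := fun T => by
    refine gw_len_congr ?_
    have h1 := sl_comap (U := S.sub (Q ⧸ ism (maximalIdeal R ^ M) Q) T)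
      ((ism (maximalIdeal R ^ M) Q).mkQ.compLeft (Fin r)) (Submodule.mkQ_surjective _).comp_left
    rw [sl_quot, ← ln_ism_pi, sup_eq_left.2 (show _ ≤ S.sub Q T from le_sup_right)] at h1
    exact h1
  have hlen : len R ((Q ⧸ ism (maximalIdeal R ^ M) Q) ⧸
      ism (maximalIdeal R ^ (N0 * (d * t + 1)) ⊔ Ideal.span {γ ^ d}) (Q ⧸ ism (maximalIdeal R ^ M) Q)) ≤
      len R (Q ⧸ ism (maximalIdeal R ^ (N0 * (d * t + 1)) ⊔ Ideal.span {γ ^ d}) Q) :=
    ln_len_le (gw_ne_top (ln_ism_mono le_sup_left))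
      (colen_le_of_surj _ (Submodule.mkQ_surjective _) (ln_map_ism _ _))
  rw [hzl, hzl]
  refine (cm1_zl hx.1 S hQ hk ((hγ L).quot hU) le_rfl).trans ?_
  gcongr

/-- Multiply by `a` to go from `D / 𝔭 D` to `D`, where `x i = X i ^ q` is regular. -/
theorem TLevel.areg_tq (P : MixPres p A N R X' x θ a a' w) {K s Nn q ρ : ℕ} {D : Type} [CommRing D]
    [IsLocalRing D] [Algebra N D] {X : Fin (d + 1) → D} {α α' : D}
    (T : TLevel p x (RingHom.ker θ) a a' K s Nn q ρ D X α α') (hq : 0 < q) [Algebra R (TQ θ D)]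
    (hR : ∀ b, algebraMap R (TQ θ D) (θ b) = Ideal.Quotient.mk _ (algebraMap N D b)) (L : ℕ) :
    AReg (θ a) (fun i => θ (x i)) L (TQ θ D) := by
  let : Algebra N R := θ.toAlgebra
  have : IsScalarTower N R (TQ θ D) := IsScalarTower.of_algebraMap_eq fun b => (hR b).symm
  refine (areg_algebraMap_iff (Λ' := R) a x L).2 ?_
  have h1 : Reg x D := by
    rw [← reg_algebraMap_iff (Λ' := D)]
    have := T.reg.pow (a := fun _ => q) fun _ => hq
    simpa only [T.root] using this
  have hk : ((RingHom.ker θ).map (algebraMap N D)).restrictScalars N ≤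
      LinearMap.ker (a • (LinearMap.id : D →ₗ[N] D)) := by
    rw [← Ideal.smul_top_eq_map]
    refine Submodule.smul_le.2 fun b hb y _ => ?_
    change a • b • y = 0
    rw [smul_smul, P.kill b hb, zero_smul]
  refine AReg.of_sandwich (h1.areg L)
    (Submodule.liftQ _ _ hk ∘ₗ (Submodule.Quotient.restrictScalarsEquiv N _).symm.toLinearMap)
    (Submodule.mkQ _ ∘ₗ (Ideal.Quotient.mkₐ N _).toLinearMap) fun v => ?_
  obtain ⟨v, rfl⟩ := Ideal.Quotient.mk_surjective v
  rfl

end Crest.Agent.R183
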