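import Crest.Agent.R183.Reg2

/-!
# rid 183, file `Ord`: the order valuation of a regular sequence generating a prime ideal

Prefix helper lemmas with `od_`.
-/

set_option autoImplicit false

namespace Crest.Agent.R183

variable {Λ : Type} [CommRing Λ] {d : ℕ} {X : Fin d → Λ}

theorem od_deg {F : MvPolynomial (Fin d) Λ} {k : ℕ} (hF : F.IsHomogeneous k) {m : Fin d →₀ ℕ}
    (hm : MvPolynomial.coeff m F ≠ 0) : ∑ i, m i = k := by
  by_contra h
  exact hm (hF.coeff_eq_zero (by rwa [Finsupp.degree_eq_sum]))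

/-- quasi-regularity in terms of homogeneous polynomials -/
theorem od_quasi (hX : Reg X Λ) {F : MvPolynomial (Fin d) Λ} {k : ℕ} (hF : F.IsHomogeneous k) :
    MvPolynomial.eval X F ∈ idl X ^ (k + 1) ↔
      MvPolynomial.map (Ideal.Quotient.mk (idl X)) F = 0 := by
  constructor
  · intro h
    have e : MvPolynomial.eval X F = ∑ β ∈ Finset.Nat.antidiagonalTuple d k,
        (∏ i, X i ^ β i) • MvPolynomial.coeff (Finsupp.equivFunOnFinite.symm β) F := by
      rw [MvPolynomial.eval_eq']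
      refine Finset.sum_of_injOn (fun m : Fin d →₀ ℕ => (m : Fin d → ℕ))
        (fun _ _ _ _ h => DFunLike.coe_injective h)
        (fun m hm => Finset.mem_coe.mpr (Finset.Nat.mem_antidiagonalTuple.mpr
          (od_deg hF (MvPolynomial.mem_support_iff.mp hm)))) (fun β _ hβ => ?_) fun m _ => ?_
      · have : MvPolynomial.coeff (Finsupp.equivFunOnFinite.symm β) F = 0 := by
          by_contra h0
          exact hβ ⟨_, MvPolynomial.mem_support_iff.mpr h0, rfl⟩
        rw [this, smul_zero]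
      · rw [Finsupp.equivFunOnFinite_symm_coe, smul_eq_mul, mul_comm]
    rw [e, ← rg2_mem_self] at h
    ext m
    rw [MvPolynomial.coeff_map, MvPolynomial.coeff_zero, Ideal.Quotient.eq_zero_iff_mem]
    by_cases h0 : MvPolynomial.coeff m F = 0
    · rw [h0]
      exact Ideal.zero_mem _
    · have := hX.quasi k _ h m (Finset.Nat.mem_antidiagonalTuple.mpr (od_deg hF h0))
      rwa [Finsupp.equivFunOnFinite_symm_coe, rg2_mem_self] at this
  · intro h
    rw [MvPolynomial.eval_eq']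
    refine Ideal.sum_mem _ fun m hm => ?_
    rw [pow_succ']
    refine Ideal.mul_mem_mul ?_
      (rg_mon_mem_pow X m (od_deg hF (MvPolynomial.mem_support_iff.mp hm)).ge)
    have := congrArg (MvPolynomial.coeff m) h
    rwa [MvPolynomial.coeff_map, MvPolynomial.coeff_zero, Ideal.Quotient.eq_zero_iff_mem] at this

theorem od_order (I : Ideal Λ) {a : Λ} {i : ℕ} (ha : a ∉ I ^ (i + 1)) :
    ∃ i' ≤ i, a ∈ I ^ i' ∧ a ∉ I ^ (i' + 1) := by
  induction i with
  | zero => exact ⟨0, le_rfl, by simp, ha⟩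
  | succ i ih =>
    by_cases h : a ∈ I ^ (i + 1)
    · exact ⟨i + 1, le_rfl, h, ha⟩
    · obtain ⟨i', h1, h2⟩ := ih h
      exact ⟨i', h1.trans (Nat.le_succ i), h2⟩

/-- The associated graded ring is a polynomial ring over the domain `Λ / (X)`.  Take `i' ≤ i` maximal with
`a ∈ (X)^i'`, write `a = F(X)` with `F : MvPolynomial (Fin d) Λ` homogeneous of degree `i'`; its image modulo
`(X)` is nonzero.  Same for `b = G(X)`.  The product `F G` has nonzero image, so `a b ∉ (X)^(i'+j'+1)` by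
`Reg.quasi`. -/
theorem ord_mul (hX : Reg X Λ) (hp : (idl X).IsPrime) {a b : Λ} {i j : ℕ} (ha : a ∉ idl X ^ (i + 1))
    (hb : b ∉ idl X ^ (j + 1)) : a * b ∉ idl X ^ (i + j + 1) := by
  obtain ⟨i', hi, ha1, ha2⟩ := od_order _ ha
  obtain ⟨j', hj, hb1, hb2⟩ := od_order _ hb
  obtain ⟨F, hF, rfl⟩ := (Ideal.mem_span_pow_iff_exists_isHomogeneous X a).mp ha1
  obtain ⟨G, hG, rfl⟩ := (Ideal.mem_span_pow_iff_exists_isHomogeneous X b).mp hb1
  intro h
  have h1 : MvPolynomial.eval X (F * G) ∈ idl X ^ (i' + j' + 1) := by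
    rw [map_mul]
    exact Ideal.pow_le_pow_right (by omega) h
  rw [od_quasi hX (hF.mul hG), map_mul, mul_eq_zero] at h1
  rw [od_quasi hX hF] at ha2
  rw [od_quasi hX hG] at hb2
  exact h1.elim ha2 hb2

theorem ord_pow (hX : Reg X Λ) (hp : (idl X).IsPrime) {a : Λ} {i : ℕ} (ha : a ∉ idl X ^ (i + 1)) (n : ℕ) :
    a ^ n ∉ idl X ^ (n * i + 1) := by
  induction n with
  | zero =>
    rw [pow_zero, zero_mul, zero_add, pow_one]
    exact (Ideal.ne_top_iff_one _).mp hp.ne_top
  | succ n ih =>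
    rw [pow_succ a, Nat.succ_mul]
    exact ord_mul hX hp ih ha

theorem mem_pow_of_mul_mem (hX : Reg X Λ) (hp : (idl X).IsPrime) {γ b : Λ} {o k : ℕ}
    (hγ : γ ∉ idl X ^ (o + 1)) (h : γ * b ∈ idl X ^ k) : b ∈ idl X ^ (k - o) := by
  by_contra hb
  rcases Nat.eq_zero_or_pos (k - o) with h0 | h0
  · rw [h0] at hb
    simp at hb
  · obtain ⟨j, hj⟩ : ∃ j, k - o = j + 1 := ⟨k - o - 1, by omega⟩
    rw [hj] at hb
    exact ord_mul hX hp hγ hb (by rwa [show o + j + 1 = k by omega])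

/-- The powers of `(X)` are integrally closed.  If `b` has order `i < k`, the term `b^a` has order exactly `a i`
while the others have larger order. -/
theorem mem_pow_of_integral (hX : Reg X Λ) (hp : (idl X).IsPrime) {b : Λ} {a k : ℕ} (c : ℕ → Λ)
    (hc : ∀ j, 1 ≤ j → j ≤ a → c j ∈ idl X ^ (j * k))
    (h : b ^ a + ∑ j ∈ Finset.Icc 1 a, c j * b ^ (a - j) = 0) (ha : 0 < a) : b ∈ idl X ^ k := by
  by_contra hb
  rcases k with _ | k
  · simp at hb
  obtain ⟨i, hi, h1, h2⟩ := od_order _ hb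
  refine ord_pow hX hp h2 a ?_
  rw [eq_neg_of_add_eq_zero_left h]
  refine neg_mem (Ideal.sum_mem _ fun j hj => ?_)
  obtain ⟨hj1, hj2⟩ := Finset.mem_Icc.mp hj
  have h3 := Ideal.mul_mem_mul (hc j hj1 hj2) (Ideal.pow_mem_pow h1 (a - j))
  rw [← pow_mul, ← pow_add] at h3
  refine Ideal.pow_le_pow_right ?_ h3
  obtain ⟨m, rfl⟩ := Nat.exists_eq_add_of_le hj2
  rw [Nat.add_sub_cancel_left]
  nlinarith

theorem od_choose (e k o : ℕ) :
    (k + e).choose (e + 1) ≤ (k - o + e).choose (e + 1) + o * (k + 1) ^ e := by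
  induction o with
  | zero => simp
  | succ o ih =>
    refine ih.trans ?_
    rcases Nat.eq_zero_or_pos (k - o) with h0 | h0
    · rw [h0, show k - (o + 1) = 0 by omega]
      exact Nat.add_le_add_left (Nat.mul_le_mul_right _ (Nat.le_succ o)) _
    · have h1 : k - o + e = (k - (o + 1) + e) + 1 := by omega
      have h2 : (k - (o + 1) + e).choose e ≤ (k + 1) ^ e :=
        (Nat.choose_add_le_add_one_pow _ _).trans (Nat.pow_le_pow_left (by omega) _)
      rw [h1, Nat.choose_succ_succ', Nat.succ_mul]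
      omega

theorem od_colen_pow (hX : Reg X Λ) (hm : (idl X).IsMaximal) (hd : 0 < d) (k : ℕ) :
    colen Λ (idl X ^ k) = ((k + d - 1).choose d : ℕ) := by
  have e : ∀ J : Ideal Λ, ism J Λ = J := fun J => by rw [ism, smul_eq_mul, Ideal.mul_top]
  have h1 : colen Λ (idl X) = 1 :=
    Module.length_eq_one_iff.mpr (isSimpleModule_iff_isCoatom.mpr (Ideal.isMaximal_def.mp hm))
  have := hX.colen_idl_pow hd k
  rwa [e, e, h1, mul_one] at this

/-- `colen ((X)^k, γ) + colen ((X)^k : γ) = colen (X)^k`, `((X)^k : γ) ≤ (X)^(k-o)`, `Reg.colen_idl_pow`, and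
`(j + d - 1).choose (d - 1) ≤ (j + 1)^(d-1)`. -/
theorem colen_pow_sup_le (hX : Reg X Λ) (hm : (idl X).IsMaximal) (hd : 0 < d) {γ : Λ} {o : ℕ}
    (hγ : γ ∉ idl X ^ (o + 1)) (k : ℕ) :
    colen Λ (idl X ^ k ⊔ Ideal.span {γ}) ≤ (o * (k + 1) ^ (d - 1) : ℕ) := by
  have h1 := ln_len_add (algebraMap Λ (Module.End Λ Λ) γ) (idl X ^ k)
  rw [← ln_ism_span, ism, smul_eq_mul, Ideal.mul_top] at h1
  have h2 : Submodule.comap (algebraMap Λ (Module.End Λ Λ) γ) (idl X ^ k) ≤ idl X ^ (k - o) :=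
    fun b hb => mem_pow_of_mul_mem hX hm.isPrime hγ hb
  have h3 := (add_le_add_left (colen_anti h2) _).trans h1.ge
  rw [od_colen_pow hX hm hd, od_colen_pow hX hm hd] at h3
  obtain ⟨e, rfl⟩ := Nat.exists_eq_succ_of_ne_zero hd.ne'
  have h4 : (((k + e.succ - 1).choose e.succ : ℕ) : ℕ∞) ≤
      ((k - o + e.succ - 1).choose e.succ : ℕ) + (o * (k + 1) ^ (e.succ - 1) : ℕ) := by
    rw [← Nat.cast_add, Nat.cast_le]
    exact od_choose e k o
  exact (ENat.addLECancellable_natCast _) (h3.trans h4)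

/-- `(X)^(d t) ≤ br X t`. -/
theorem colen_br_sup_le (hX : Reg X Λ) (hm : (idl X).IsMaximal) (hd : 0 < d) {γ : Λ} {o : ℕ}
    (hγ : γ ∉ idl X ^ (o + 1)) (t : ℕ) :
    colen Λ (br X t ⊔ Ideal.span {γ}) ≤ (o * (d * t + 1) ^ (d - 1) : ℕ) :=
  (colen_anti (sup_le_sup_right (idl_pow_le_br hd X t) _)).trans
    (colen_pow_sup_le hX hm hd hγ (d * t))

/-- Cayley–Hamilton with weights.  `B` is a finite `Λ`-algebra, `W` a faithful finite `B`-module generated by `μ`
elements over `Λ`, and `b W ≤ J W`.  Then `b` satisfies a monic equation of degree `μ` with `c j ∈ J^j`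
(`LinearMap.exists_monic_and_coeff_mem_pow_and_aeval_eq_zero_of_range_le_smul`; redo it to control the degree
or pad with powers of `b`). -/
theorem exists_weighted_eq {B W : Type} [CommRing B] [Algebra Λ B] [AddCommGroup W] [Module Λ W] [Module B W]
    [IsScalarTower Λ B W] [Module.Finite Λ W] (hf : ∀ b : B, (∀ w : W, b • w = 0) → b = 0) (J : Ideal Λ)
    (b : B) (hb : ∀ w : W, b • w ∈ ism J W) :
    ∃ (a : ℕ) (c : ℕ → Λ), 0 < a ∧ (∀ j, c j ∈ J ^ j) ∧
      b ^ a + ∑ j ∈ Finset.Icc 1 a, algebraMap Λ B (c j) * b ^ (a - j) = 0 := by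
  obtain ⟨p, hp, -, hc, h0⟩ :=
    LinearMap.exists_monic_and_natDegree_eq_and_coeff_mem_pow_and_aeval_eq_zero Λ
      (Algebra.lsmul Λ Λ W b) J (by rintro _ ⟨w, rfl⟩; exact hb w)
  rw [Polynomial.aeval_algHom_apply] at h0
  have h1 : Polynomial.aeval b p = 0 := hf _ fun w => LinearMap.congr_fun h0 w
  rw [Polynomial.aeval_eq_sum_range, ← Finset.sum_range_reflect] at h1
  set n := p.natDegree with hn
  refine ⟨n + 1, fun j => if j ≤ n then p.coeff (n - j) else 0, Nat.succ_pos n, fun j => ?_, ?_⟩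
  · beta_reduce
    split_ifs with h
    · have := hc (n - j)
      rwa [Nat.sub_sub_self h] at this
    · exact Ideal.zero_mem _
  · beta_reduce
    rw [Finset.sum_Icc_succ_top (by omega), if_neg (Nat.not_succ_le_self n), map_zero, zero_mul, add_zero]
    rw [Finset.range_eq_Ico, Finset.sum_eq_sum_Ico_succ_bot (Nat.add_one_pos n),
      Finset.Ico_add_one_right_eq_Icc, zero_add] at h1
    have h2 := congrArg (b * ·) h1
    simp only [mul_add, mul_zero, Finset.mul_sum] at h2
    rw [← h2]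
    congr 1
    · rw [Nat.add_sub_cancel, Nat.sub_zero, hn, hp.coeff_natDegree, one_smul, pow_succ']
    · refine Finset.sum_congr rfl fun j hj => ?_
      have hj' := (Finset.mem_Icc.mp hj).2
      rw [if_pos hj', Nat.add_sub_cancel, Algebra.smul_def, show n + 1 - j = n - j + 1 by omega]
      ring

/-- A weighted equation pushes powers of `b` into powers of the ideal.  Induct on `k`. -/
theorem pow_mem_of_weighted {B : Type} [CommRing B] (J : Ideal B) {b : B} {a : ℕ} (ha : 0 < a) (c : ℕ → B)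
    (hc : ∀ j, 1 ≤ j → j ≤ a → c j ∈ J ^ j) (h : b ^ a + ∑ j ∈ Finset.Icc 1 a, c j * b ^ (a - j) ∈ J ^ a)
    (k : ℕ) : b ^ k ∈ J ^ (k + 1 - a) := by
  induction k using Nat.strong_induction_on with
  | _ k ih =>
    rcases lt_or_ge k a with hk | hk
    · rw [show k + 1 - a = 0 by omega]
      simp
    obtain ⟨m, rfl⟩ := Nat.exists_eq_add_of_le hk
    have e : b ^ (a + m) = (b ^ a + ∑ j ∈ Finset.Icc 1 a, c j * b ^ (a - j)) * b ^ m -
        ∑ j ∈ Finset.Icc 1 a, c j * b ^ (a - j + m) := by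
      rw [add_mul, Finset.sum_mul, pow_add]
      simp only [pow_add, mul_assoc, add_sub_cancel_right]
    rw [e]
    refine Ideal.sub_mem _ ?_ (Ideal.sum_mem _ fun j hj => ?_)
    · have := Ideal.mul_mem_mul h (ih m (by omega))
      rw [← pow_add] at this
      exact Ideal.pow_le_pow_right (by omega) this
    · obtain ⟨hj1, hj2⟩ := Finset.mem_Icc.mp hj
      have := Ideal.mul_mem_mul (hc j hj1 hj2) (ih (a - j + m) (by omega))
      rw [← pow_add] at this
      exact Ideal.pow_le_pow_right (by omega) this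

end Crest.Agent.R183
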