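import Crest.Agent.R183.MxI
import Crest.Agent.R183.Cohen
import Crest.Agent.R183.Ord
import Crest.Agent.R183.Red

/-!
# rid 183, file `MxP`: the presentation of a complete local domain of mixed characteristic

Prefix helper lemmas with `mxp_`.
-/

set_option autoImplicit false

open IsLocalRing MvPolynomial

namespace Crest.Agent.R183

/-- finitely many denominators -/
theorem mxp_unif {P R : Type} [CommRing P] [IsNoetherianRing P] [CommRing R] [IsDomain R] (ψ : P →+* R)
    (J : Ideal P) (h : ∀ F, ψ F = 0 → ∃ c, ψ c ≠ 0 ∧ c * F ∈ J) :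
    ∃ c, ψ c ≠ 0 ∧ ∀ F, ψ F = 0 → c * F ∈ J := by
  classical
  obtain ⟨s, hs⟩ := IsNoetherian.noetherian (RingHom.ker ψ)
  have h' : ∀ F, ∃ c, ψ c ≠ 0 ∧ (ψ F = 0 → c * F ∈ J) := fun F => by
    by_cases hF : ψ F = 0
    · obtain ⟨c, h1, h2⟩ := h F hF
      exact ⟨c, h1, fun _ => h2⟩
    · exact ⟨1, by simp, fun h => absurd h hF⟩
  choose c hc hc' using h'
  refine ⟨∏ F ∈ s, c F, ?_, fun F hF => ?_⟩
  · rw [map_prod]
    exact Finset.prod_ne_zero_iff.2 fun F _ => hc F
  · have hF' : F ∈ Submodule.span P (s : Set P) := by rw [hs]; exact hF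
    induction hF' using Submodule.span_induction with
    | mem G hG =>
      rw [← Finset.mul_prod_erase s c hG, mul_comm (c G), mul_assoc]
      exact J.mul_mem_left _ (hc' G hF)
    | zero => simp
    | add G G' hG hG' ih ih' =>
      rw [hs] at hG hG'
      rw [mul_add]
      exact J.add_mem (ih hG) (ih' hG')
    | smul a G hG ih =>
      rw [hs] at hG
      rw [smul_eq_mul, mul_left_comm]
      exact J.mul_mem_left _ (ih hG)

theorem mxp_eval {S R : Type} [CommRing S] [CommRing R] (φ : Polynomial S →+* R) (q : Polynomial S) :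
    φ q = q.eval₂ (φ.comp Polynomial.C) (φ Polynomial.X) := by
  rw [← Polynomial.hom_eval₂, Polynomial.eval₂_C_X]

/-- One variable.  Among the polynomials killed by `ψ` and having a coefficient outside `𝔮 = ker (ψ ∘ C)` (there is
one, `ψ X` being algebraic) take `G` of least degree; its leading coefficient is outside `𝔮`.  Pseudo-division by `G`
leaves a remainder with all coefficients in `𝔮`. -/
theorem tri_one {B R : Type} [CommRing B] [CommRing R] [IsDomain R] (ψ : Polynomial B →+* R)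
    (halg : ∃ H : Polynomial B, H.Monic ∧ ψ H = 0) :
    ∃ G : Polynomial B, ψ G = 0 ∧ ∀ F : Polynomial B, ψ F = 0 → ∃ c : B, ψ (Polynomial.C c) ≠ 0 ∧
      Polynomial.C c * F ∈ Ideal.span {G} ⊔ (RingHom.ker (ψ.comp Polynomial.C)).map Polynomial.C := by
  classical
  obtain ⟨𝔮, h𝔮⟩ : ∃ 𝔮, 𝔮 = RingHom.ker (ψ.comp Polynomial.C) := ⟨_, rfl⟩
  have hq : ∀ a, a ∈ 𝔮 ↔ ψ (Polynomial.C a) = 0 := fun a => by rw [h𝔮]; rfl
  rw [← h𝔮]
  have hex : ∃ n, ∃ G : Polynomial B, ψ G = 0 ∧ G ∉ 𝔮.map Polynomial.C ∧ G.natDegree = n := by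
    obtain ⟨H, hH, h0⟩ := halg
    refine ⟨_, H, h0, fun hm => ?_, rfl⟩
    have := (hq _).1 (Ideal.mem_map_C_iff.1 hm H.natDegree)
    rw [hH.coeff_natDegree] at this
    simp at this
  obtain ⟨G, hG0, hG1, hG2⟩ := Nat.find_spec hex
  have hmin : ∀ F : Polynomial B, ψ F = 0 → F.natDegree < G.natDegree → F ∈ 𝔮.map Polynomial.C :=
    fun F h0 hd => by
      by_contra hF
      exact Nat.find_min hex (hG2 ▸ hd) ⟨F, h0, hF, rfl⟩
  have hlc : ψ (Polynomial.C G.leadingCoeff) ≠ 0 := fun h0 => by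
    have e := G.eraseLead_add_C_mul_X_pow
    have h1 : Polynomial.C G.leadingCoeff * Polynomial.X ^ G.natDegree ∈ 𝔮.map Polynomial.C :=
      Ideal.mul_mem_right _ _ (Ideal.mem_map_of_mem _ ((hq _).2 h0))
    refine hG1 ?_
    rw [← e]
    refine Ideal.add_mem _ ?_ h1
    rcases G.eraseLead_natDegree_lt_or_eraseLead_eq_zero with h | h
    · refine hmin _ ?_ h
      have := congrArg ψ e
      rwa [map_add, map_mul, h0, zero_mul, add_zero, hG0] at this
    · rw [h]; exact Ideal.zero_mem _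
  refine ⟨G, hG0, fun F => ?_⟩
  induction hn : F.natDegree using Nat.strong_induction_on generalizing F with
  | _ n ih =>
    intro hF
    by_cases h1 : F.natDegree < G.natDegree
    · exact ⟨1, by simp, by simpa using Ideal.mem_sup_right (hmin F hF h1)⟩
    by_cases h2 : F.natDegree = 0
    · refine ⟨1, by simp, ?_⟩
      rw [Polynomial.eq_C_of_natDegree_eq_zero h2] at hF ⊢
      simpa using Ideal.mem_sup_right (Ideal.mem_map_of_mem _ ((hq _).2 hF))
    have h3 := Polynomial.natDegree_cancelLeads_lt_of_natDegree_le_natDegree (not_lt.1 h1)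
      (Nat.pos_of_ne_zero h2)
    obtain ⟨c, hc, hc'⟩ := ih _ (hn ▸ h3) (G.cancelLeads F) rfl (by
      simp [Polynomial.cancelLeads, hF, hG0])
    refine ⟨c * G.leadingCoeff, by rw [map_mul, map_mul]; exact mul_ne_zero hc hlc, ?_⟩
    rw [Polynomial.cancelLeads, Nat.sub_eq_zero_of_le (not_lt.1 h1), pow_zero, mul_one, mul_sub,
      ← mul_assoc, ← map_mul] at hc'
    have h4 : Polynomial.C c * (Polynomial.C F.leadingCoeff * Polynomial.X ^ (F.natDegree - G.natDegree) * G) ∈
        Ideal.span {G} ⊔ 𝔮.map Polynomial.C :=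
      Ideal.mem_sup_left (Ideal.mul_mem_left _ _ (Ideal.mul_mem_left _ _ (Ideal.mem_span_singleton_self G)))
    simpa using Ideal.add_mem _ hc' h4

/-- Triangular generators of a kernel, generically.  Induct on `s` with `MvPolynomial.finSuccEquiv` and `tri_one`;
multiply the finitely many denominators (Noetherian). -/
theorem tri_many {B R : Type} [CommRing B] [IsNoetherianRing B] [CommRing R] [IsDomain R] (s : ℕ)
    (ψ : MvPolynomial (Fin s) B →+* R) (hint : (ψ.comp C).IsIntegral) :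
    ∃ (g : Fin s → MvPolynomial (Fin s) B) (c : MvPolynomial (Fin s) B), (∀ i, ψ (g i) = 0) ∧ ψ c ≠ 0 ∧
      ∀ F, ψ F = 0 → c * F ∈ idl g ⊔ (RingHom.ker (ψ.comp C)).map C := by
  induction s with
  | zero =>
    refine ⟨Fin.elim0, 1, fun i => i.elim0, by simp, fun F hF => ?_⟩
    obtain ⟨a, rfl⟩ := MvPolynomial.C_surjective (Fin 0) F
    rw [one_mul]
    exact Ideal.mem_sup_right (Ideal.mem_map_of_mem _ hF)
  | succ s ih =>
    obtain ⟨e, he⟩ : ∃ e : Polynomial (MvPolynomial (Fin s) B) ≃+* MvPolynomial (Fin (s + 1)) B,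
        ∀ a, e (Polynomial.C (C a)) = C a :=
      ⟨(finSuccEquiv B s).symm.toRingEquiv, fun a => (finSuccEquiv B s).symm.commutes a⟩
    have hc : ((ψ.comp e.toRingHom).comp Polynomial.C).comp C = ψ.comp C := by
      ext a
      simp [he]
    obtain ⟨G, hG0, hG⟩ := tri_one (ψ.comp e.toRingHom) (by
      obtain ⟨H, hH, h0⟩ := hint (ψ (e Polynomial.X))
      refine ⟨H.map C, hH.map _, ?_⟩
      rw [← h0, ← hc, ← Polynomial.eval₂_map]
      exact mxp_eval (ψ.comp e.toRingHom) _)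
    obtain ⟨g, c, hg, hc0, hc1⟩ := ih ((ψ.comp e.toRingHom).comp Polynomial.C) (by rwa [hc])
    rw [hc] at hc1
    refine ⟨Fin.cons (e G) fun i => e (Polynomial.C (g i)), ?_⟩
    obtain ⟨c', h1, h2⟩ := mxp_unif ψ (idl (Fin.cons (e G) fun i => e (Polynomial.C (g i)) :
        Fin (s + 1) → _) ⊔ (RingHom.ker (ψ.comp C)).map C) fun F hF => by
      obtain ⟨c1, h1, h2⟩ := hG (e.symm F) (by simpa using hF)
      refine ⟨e (Polynomial.C c * Polynomial.C c1), ?_, ?_⟩
      · rw [map_mul, map_mul]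
        exact mul_ne_zero hc0 h1
      have h3 : ∀ y ∈ Ideal.span {G} ⊔ (RingHom.ker ((ψ.comp e.toRingHom).comp Polynomial.C)).map Polynomial.C,
          e (Polynomial.C c * y) ∈ idl (Fin.cons (e G) fun i => e (Polynomial.C (g i)) : Fin (s + 1) → _) ⊔
            (RingHom.ker (ψ.comp C)).map C := by
        have h4 : idl g ⊔ (RingHom.ker (ψ.comp C)).map C ≤
            (idl (Fin.cons (e G) fun i => e (Polynomial.C (g i)) : Fin (s + 1) → _) ⊔
              (RingHom.ker (ψ.comp C)).map C).comap (e.toRingHom.comp Polynomial.C) := by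
          refine sup_le (ln_idl_le fun i => Ideal.mem_sup_left (ln_mem_idl _ i.succ)) ?_
          refine Ideal.map_le_iff_le_comap.2 fun a ha => Ideal.mem_sup_right ?_
          have : (e.toRingHom.comp Polynomial.C) (C a) = C a := he a
          rw [this]
          exact Ideal.mem_map_of_mem _ ha
        have h5 : Ideal.span {G} ⊔ (RingHom.ker ((ψ.comp e.toRingHom).comp Polynomial.C)).map Polynomial.C ≤
            ((idl (Fin.cons (e G) fun i => e (Polynomial.C (g i)) : Fin (s + 1) → _) ⊔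
              (RingHom.ker (ψ.comp C)).map C).comap e.toRingHom).colon {Polynomial.C c} := by
          refine sup_le ((Ideal.span_singleton_le_iff_mem _).2 ?_) (Ideal.map_le_iff_le_comap.2 fun a ha => ?_)
          · rw [Submodule.mem_colon_singleton]
            exact Ideal.mul_mem_right _ _ (Ideal.mem_sup_left (ln_mem_idl _ 0))
          · rw [Ideal.mem_comap, Submodule.mem_colon_singleton, smul_eq_mul, ← map_mul, mul_comm]
            exact h4 (hc1 a ha)
        intro y hy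
        have := h5 hy
        rwa [Submodule.mem_colon_singleton, smul_eq_mul, mul_comm] at this
      have := h3 _ h2
      rwa [← mul_assoc, map_mul, e.apply_symm_apply] at this
    refine ⟨c', fun i => ?_, h1, h2⟩
    induction i using Fin.cases with
    | zero => exact hG0
    | succ i => exact hg i

/-- If `𝔓` is generically generated by `J` modulo `𝔓^2`, it is generically generated by `J` (Nakayama in the form
`Submodule.exists_sub_one_mem_and_smul_eq_zero_of_fg_of_le_smul`, or determinant trick, on `𝔓 / J`). -/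
theorem generic_nakayama {P : Type} [CommRing P] [IsNoetherianRing P] (𝔓 J : Ideal P) [𝔓.IsPrime] {c : P}
    (hc : c ∉ 𝔓) (h : Ideal.span {c} * 𝔓 ≤ J ⊔ 𝔓 ^ 2) : ∃ c', c' ∉ 𝔓 ∧ Ideal.span {c'} * 𝔓 ≤ J := by
  have h1 : maximalIdeal (Localization.AtPrime 𝔓) ≤ J.map (algebraMap P (Localization.AtPrime 𝔓)) := by
    refine Submodule.le_of_le_smul_of_le_jacobson_bot (IsNoetherian.noetherian _)
      (maximalIdeal_le_jacobson _) ?_
    have h2 := Ideal.map_mono (f := algebraMap P (Localization.AtPrime 𝔓)) h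
    rw [Ideal.map_mul, Ideal.map_sup, Ideal.map_pow, Localization.AtPrime.map_eq_maximalIdeal, Ideal.map_span,
      Set.image_singleton, Ideal.span_singleton_eq_top.2
        (IsLocalization.map_units (Localization.AtPrime 𝔓) (⟨c, hc⟩ : 𝔓.primeCompl)), Ideal.top_mul, sq] at h2
    exact h2
  obtain ⟨c', h2, h3⟩ := mxp_unif (Ideal.Quotient.mk 𝔓) J fun F hF => by
    rw [Ideal.Quotient.eq_zero_iff_mem] at hF
    have h2 := h1 (Localization.AtPrime.map_eq_maximalIdeal (I := 𝔓) ▸ Ideal.mem_map_of_mem _ hF)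
    obtain ⟨m, hm, hm'⟩ := (IsLocalization.algebraMap_mem_map_algebraMap_iff 𝔓.primeCompl _ J F).1 h2
    exact ⟨m, fun h0 => hm (Ideal.Quotient.eq_zero_iff_mem.1 h0), hm'⟩
  refine ⟨c', fun h0 => h2 (Ideal.Quotient.eq_zero_iff_mem.2 h0), ?_⟩
  rw [Ideal.span_singleton_mul_le_iff]
  exact fun z hz => h3 z (Ideal.Quotient.eq_zero_iff_mem.2 hz)

theorem mxp_dim_quot {N : Type} [CommRing N] [IsNoetherianRing N] [IsLocalRing N] {d : ℕ} {x : Fin (d + 1) → N}
    (hx : Sop x) (P : Ideal N) (hP : P ≠ ⊤) (h0 : x 0 ∈ P) : ringKrullDim (N ⧸ P) ≤ d := by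
  have : Nontrivial (N ⧸ P) := Ideal.Quotient.nontrivial_iff.2 hP
  have : IsLocalRing (N ⧸ P) := IsLocalRing.of_surjective' _ Ideal.Quotient.mk_surjective
  have hm := map_maximalIdeal_of_surjective (Ideal.Quotient.mk P) Ideal.Quotient.mk_surjective
  obtain ⟨h1, c, hc⟩ := hx
  refine dim_le_of_sop (x := fun i : Fin d => Ideal.Quotient.mk P (x i.succ))
    ⟨fun i => hm ▸ Ideal.mem_map_of_mem _ (h1 _), c, ?_⟩
  rw [← hm, ← Ideal.map_pow]
  refine (Ideal.map_mono hc).trans ?_
  rw [idl_map]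
  refine ln_idl_le fun i => ?_
  induction i using Fin.cases with
  | zero => rw [Ideal.Quotient.eq_zero_iff_mem.2 h0]; exact Ideal.zero_mem _
  | succ i => exact ln_mem_idl (fun i : Fin d => Ideal.Quotient.mk P (x i.succ)) i

/-- `davis` for the minimal primes not containing `x1`. -/
theorem exists_aa' {N : Type} [CommRing N] [IsNoetherianRing N] [IsLocalRing N] {d : ℕ} {x : Fin (d + 1) → N}
    (hx : Sop x) (𝔭 : Ideal N) [𝔭.IsPrime] {a0 : N} (ha : a0 ∉ 𝔭) (hx0 : x 0 ∉ 𝔭) :
    ∃ a1 ∈ 𝔭, ∃ w : Fin d → N, Sop (Fin.cons (x 0 * a0 + x 0 * a1) w : Fin (d + 1) → N) := by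
  have hd := dim_le_of_sop hx
  obtain ⟨γ, h1, h2⟩ := exists_cut hd 𝔭 a0 (Or.inl ha)
  have h3 : ringKrullDim (N ⧸ Ideal.span {x 0 * γ}) ≤ d := dim_quot_le_of_avoid hd fun P hP => by
    have hp : P.IsPrime := hP.1.1
    by_cases h : x 0 * γ ∈ P
    · refine Or.inl ((hp.mem_or_mem h).elim (mxp_dim_quot hx P hp.ne_top) fun h => ?_)
      exact (ringKrullDim_le_of_surjective (Ideal.Quotient.factor ((Ideal.span_singleton_le_iff_mem _).2 h))
        (Ideal.Quotient.factor_surjective _)).trans h2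
    · exact Or.inr h
  have h4 : x 0 * γ ∈ maximalIdeal N := Ideal.mul_mem_right _ _ (hx.1 0)
  obtain ⟨w, c, hw, hc⟩ := gw_lift_sop (ne_top_of_le_ne_top (maximalIdeal.isMaximal N).ne_top
    ((Ideal.span_singleton_le_iff_mem _).2 h4)) h3
  refine ⟨γ - a0, h1, w, ?_⟩
  rw [show x 0 * a0 + x 0 * (γ - a0) = x 0 * γ by ring]
  refine ⟨fun i => ?_, c, ?_⟩
  · induction i using Fin.cases with
    | zero => exact h4
    | succ i => exact hw i
  · rwa [ch_idl_cons, sup_comm]

theorem mxp_surj {P R : Type} [CommRing P] [CommRing R] [IsLocalRing R] (ψ : P →+* R) (hfin : ψ.Finite)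
    (hres : SameRes ψ) (hm : maximalIdeal R ≤ ((maximalIdeal R).comap ψ).map ψ) : Function.Surjective ψ := by
  let _ := ψ.toAlgebra
  have : Module.Finite P R := hfin
  obtain ⟨r, hr, h⟩ := Submodule.exists_sub_one_mem_and_smul_le_of_fg_of_le_sup
    (I := (maximalIdeal R).comap ψ) (N := LinearMap.range (Algebra.linearMap P R)) (N' := ⊤) (P := ⊤)
    Module.Finite.fg_top le_rfl fun b _ => by
      obtain ⟨a, ha⟩ := hres b
      rw [show b = ψ a + (b - ψ a) by ring]
      refine Submodule.add_mem_sup ⟨a, rfl⟩ ?_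
      rw [Ideal.smul_top_eq_map]
      exact hm ha
  have hu : IsUnit (ψ r) := by
    by_contra hn
    have h1 : ψ r ∈ maximalIdeal R := hn
    have h2 : ψ (r - 1) ∈ maximalIdeal R := hr
    rw [map_sub, map_one] at h2
    exact (maximalIdeal.isMaximal R).ne_top ((Ideal.eq_top_iff_one _).2 (by simpa using Ideal.sub_mem _ h1 h2))
  intro y
  obtain ⟨z, rfl⟩ := hu.dvd (a := y)
  exact h (Submodule.smul_mem_pointwise_smul _ r ⊤ trivial)

/-- weighted equations of elements of the maximal ideal -/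
theorem mxp_weq {P R : Type} [CommRing P] [CommRing R] [IsDomain R] [IsNoetherianRing R] [IsLocalRing R]
    (ψ : P →+* R) (hs : Function.Surjective ψ) {d K : ℕ} {x : Fin (d + 1) → R} (hx : IsRed x K) (h0 : x 0 ≠ 0)
    (J 𝔫 : Ideal P) (hJ : J.map ψ = idl x) (hle : J ≤ 𝔫) (T : P) (hT : T ∈ 𝔫) (hT' : ψ T ∈ maximalIdeal R) :
    ∃ a : ℕ, ∀ n, a < n → ∃ E : P, ψ E = 0 ∧ E ∈ Ideal.span {T} ∧ E - T ^ n ∈ J * 𝔫 ^ (n - 1) := by
  let _ := ψ.toAlgebra
  have : Module.Finite P R := Module.Finite.of_surjective (Algebra.linearMap P R) hs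
  have : Module.Finite P (maximalIdeal R ^ K : Ideal R) := Module.Finite.trans R _
  obtain ⟨a, c, ha, hc, he⟩ := exists_weighted_eq (Λ := P) (B := R) (W := (maximalIdeal R ^ K : Ideal R))
    (fun b hb => by
      have := congrArg Subtype.val (hb ⟨x 0 ^ K, Ideal.pow_mem_pow (hx.1 0) K⟩)
      exact (mul_eq_zero.1 this).resolve_right (pow_ne_zero _ h0)) J (ψ T) fun w => by
      have h1 : ψ T • w ∈ ism (J.map (algebraMap P R)) (maximalIdeal R ^ K : Ideal R) := by
        rw [Submodule.mem_smul_top_iff, show J.map (algebraMap P R) = idl x from hJ]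
        exact hx.mul_le hT' (Ideal.mul_mem_mul (Ideal.mem_span_singleton_self _) w.2)
      rw [← ism_map_restrict (Λ' := R)]
      exact h1
  refine ⟨a, fun n hn => ⟨T ^ (n - a) * (T ^ a + ∑ j ∈ Finset.Icc 1 a, c j * T ^ (a - j)), ?_, ?_, ?_⟩⟩
  · rw [map_mul, map_add, map_sum]
    simp only [map_mul, map_pow]
    exact mul_eq_zero_of_right _ he
  · exact Ideal.mul_mem_right _ _ (Ideal.pow_mem_of_mem _ (Ideal.mem_span_singleton_self T) _ (by omega))
  · rw [mul_add, ← pow_add, Nat.sub_add_cancel hn.le, add_sub_cancel_left, Finset.mul_sum]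
    refine Ideal.sum_mem _ fun j hj => ?_
    obtain ⟨h1, h2⟩ := Finset.mem_Icc.1 hj
    rw [mul_left_comm, ← pow_add]
    have h3 : J ^ j * 𝔫 ^ (n - a + (a - j)) ≤ J * 𝔫 ^ (n - 1) := by
      obtain ⟨j, rfl⟩ := Nat.exists_eq_add_of_le' h1
      rw [pow_succ', mul_assoc, show n - 1 = j + (n - a + (a - (j + 1))) by omega, pow_add 𝔫 j]
      exact Ideal.mul_mono_right (Ideal.mul_mono_left (Ideal.pow_right_mono hle j))
    exact h3 (Ideal.mul_mem_mul (hc j) (Ideal.pow_mem_pow hT _))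

theorem mxp_prep {A : Type} [CommRing A] [IsLocalRing A] {G : Polynomial A} (hG : G.Monic) :
    ∃ (c : ℕ) (s : Polynomial A), s.coeff 0 ∉ maximalIdeal A ∧
      G - Polynomial.X ^ c * s ∈ (maximalIdeal A).map Polynomial.C := by
  obtain ⟨q, h1, h2⟩ := Polynomial.exists_eq_pow_rootMultiplicity_mul_and_not_dvd (G.map (residue A))
    (hG.map _).ne_zero 0
  obtain ⟨s, rfl⟩ := Polynomial.map_surjective (residue A) residue_surjective q
  rw [map_zero, sub_zero] at h1 h2
  refine ⟨(G.map (residue A)).rootMultiplicity 0, s, fun h => h2 ?_, ?_⟩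
  · rw [Polynomial.X_dvd_iff, Polynomial.coeff_map]
    exact (residue_eq_zero_iff _).2 h
  · rw [← ker_residue, ← Polynomial.ker_mapRingHom, RingHom.mem_ker, Polynomial.coe_mapRingHom,
      Polynomial.map_sub, Polynomial.map_mul, Polynomial.map_pow, Polynomial.map_X, sub_eq_zero]
    exact h1

theorem mxp_x0 {R : Type} [CommRing R] [IsNoetherianRing R] [IsLocalRing R] {d : ℕ} {x : Fin (d + 1) → R}
    (hx : Sop x) (hdim : ¬ ringKrullDim R ≤ d) : x 0 ≠ 0 := fun h0 => hdim <| by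
  have := mxp_dim_quot hx ⊥ bot_ne_top (by simpa using h0)
  rwa [ringKrullDim_eq_of_ringEquiv (RingEquiv.quotientBot R)] at this

theorem mxp_loc {A σ R : Type} [CommRing A] [IsLocalRing A] [CommRing R] [IsLocalRing R]
    (ψ : MvPolynomial σ A →+* R) (hC : ∀ a ∈ maximalIdeal A, ψ (C a) ∈ maximalIdeal R)
    (hX : ∀ s, ψ (X s) ∈ maximalIdeal R) : ∀ a ∈ mxM A σ, ψ a ∈ maximalIdeal R := by
  have key : ∀ a : MvPolynomial σ A, ψ a - ψ (C (constantCoeff a)) ∈ maximalIdeal R := fun a => by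
    induction a using MvPolynomial.induction_on with
    | C a => simp
    | add a b ha hb =>
      have := Ideal.add_mem _ ha hb
      simp only [map_add]
      convert this using 1
      ring
    | mul_X a s _ =>
      simp only [map_mul, constantCoeff_X, map_zero, mul_zero, sub_zero]
      exact Ideal.mul_mem_left _ _ (hX s)
  intro a ha
  simpa using Ideal.add_mem _ (key a) (hC _ ha)

variable {p : ℕ} [Fact p.Prime] {A : Type} [CommRing A] [IsLocalRing A] {d : ℕ} {X' : Fin d → A} {Δ : DeltaS A p}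
  {R : Type} [CommRing R] [IsDomain R] [IsNoetherianRing R] [IsLocalRing R] [Algebra A R]

/-- The first data.  `L = Option (Fin s)`, `l0 = none`, `L0 = univ`; `ψ` sends `X_1 ↦ x 0`, `u ↦ p`, `T_i ↦ t i`,
generators of `𝔪`; it is onto (Nakayama over `A`).  Let `B = A[X_1]` (`Polynomial A`), `J = (X_1, X') B`.  For `b = p`,
`t i`, `exists_weighted_eq` on `W = 𝔪^K` (`IsRed.mul_le`; nonzero, so faithful) gives monic weighted equations
`e l` with coefficients in `J^j`; pad them to a common degree `n0`, put `n = 2 n0`.  `tri_one` for `A[X_1] → R` gives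
`g0` (the kernel of `A → R` is zero), `tri_many` over `B` gives `g i`; `H` is a monic equation of `x 0` over `A`.
Put `f (T_i) = e_i^2 + X_1^n g_i` and `f u = e_u^2 + X_1^n (g0 + X_1^b H^2)` with `b` so large that, modulo
`(𝔪_A, u)`, this is a nonzero (monic) polynomial in `X_1`, hence `X_1^c` times a polynomial with unit constant term.
`c X_1^n 𝔓 ≤ (p - u, f) + 𝔓^2`; finish with `generic_nakayama`.  `x 0 ≠ 0` since otherwise `dim R ≤ d`. -/
theorem exists_mixData (h : MBase p A X' Δ) [Module.Finite A R] [IsLocalHom (algebraMap A R)]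
    (hres : SameRes (algebraMap A R)) (hinj : Function.Injective (algebraMap A R)) {x : Fin (d + 1) → R} {K : ℕ}
    (hx : IsRed x K) (htail : ∀ i, algebraMap A R (X' i) = Fin.tail x i) (hdim : ¬ ringKrullDim R ≤ d) :
    ∃ (m : MixData p A X') (ψ : MvPolynomial (Option m.L) A →+* R) (c : MvPolynomial (Option m.L) A),
      Function.Surjective ψ ∧ (∀ a, ψ (C a) = algebraMap A R a) ∧ ψ (X none) = x 0 ∧
      (∀ l, ψ (X (some l)) ∈ maximalIdeal R) ∧ ψ (X (some m.l0)) = p ∧ (∀ l, ψ (m.f l) = 0) ∧ ψ c ≠ 0 ∧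
      ∀ F, ψ F = 0 → c * F ∈ Ideal.span (insert ((p : MvPolynomial (Option m.L) A) - X (some m.l0)) (Set.range m.f)) := by
  have := h.rb.noeth
  have hx0 := mxp_x0 hx.sop hdim
  have hpA : (p : A) ∈ maximalIdeal A := h.max ▸ ln_mem_idl (Fin.cons (p : A) X' : Fin (d + 1) → A) 0
  have hCm : ∀ a ∈ maximalIdeal A, algebraMap A R a ∈ maximalIdeal R := fun a ha => map_nonunit _ a ha
  have hpR : (p : R) ∈ maximalIdeal R := by simpa using hCm _ hpA
  obtain ⟨s, t, ht⟩ := gw_gen R
  obtain ⟨ψ, hC, hX0, hXu, hXt⟩ : ∃ ψ : MvPolynomial (Option (Option (Fin s))) A →+* R,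
      (∀ a, ψ (C a) = algebraMap A R a) ∧ ψ (X none) = x 0 ∧ ψ (X (some none)) = p ∧
        ∀ i, ψ (X (some (some i))) = t i :=
    ⟨eval₂Hom (algebraMap A R) fun v => v.elim (x 0) fun l => l.elim p t, by simp, by simp, by simp, by simp⟩
  have hXm : ∀ l, ψ (X (some l)) ∈ maximalIdeal R := fun l => by
    cases l with
    | none => rwa [hXu]
    | some i => rw [hXt, ← ht]; exact ln_mem_idl t i
  have hCc : ψ.comp C = algebraMap A R := RingHom.ext hC
  have hfinA : (algebraMap A R).Finite := RingHom.finite_algebraMap.2 inferInstance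
  have hsurj : Function.Surjective ψ := by
    refine mxp_surj ψ (RingHom.Finite.of_comp_finite (f := C) (hCc ▸ hfinA)) (fun b => ?_) ?_
    · obtain ⟨a, ha⟩ := hres b
      exact ⟨C a, by rwa [hC]⟩
    · conv_lhs => rw [← ht]
      refine ln_idl_le fun i => ?_
      rw [← hXt]
      exact Ideal.mem_map_of_mem _ (hXm _)
  -- weighted equations
  obtain ⟨𝔫, h𝔫⟩ : ∃ 𝔫 : Ideal (MvPolynomial (Option (Option (Fin s))) A), 𝔫 = mxX X' ⊔ Ideal.span
    ((fun l => (X (some l) : MvPolynomial (Option (Option (Fin s))) A)) ''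
      ((Finset.univ : Finset (Option (Fin s))) : Set (Option (Fin s)))) := ⟨_, rfl⟩
  have hle : mxX X' ≤ 𝔫 := h𝔫 ▸ le_sup_left
  have hXn : ∀ l, X (some l) ∈ 𝔫 := fun l =>
    h𝔫 ▸ Ideal.mem_sup_right (Ideal.subset_span ⟨l, by simp, rfl⟩)
  have hX1 : (X none : MvPolynomial (Option (Option (Fin s))) A) ∈ mxX X' :=
    ln_mem_idl (Fin.cons (X none) fun i => C (X' i) : Fin (d + 1) → _) 0
  have hJ : (mxX X').map ψ = idl x := by
    rw [mxX, idl_map]
    congr 1
    funext i
    induction i using Fin.cases with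
    | zero => exact hX0
    | succ i => exact (hC _).trans (htail i)
  choose a ha using fun l => mxp_weq ψ hsurj hx hx0 (mxX X') 𝔫 hJ hle (X (some l)) (hXn l) (hXm l)
  obtain ⟨n, hn⟩ : ∃ n, ∀ l, a l < n + 1 :=
    ⟨Finset.univ.sup a, fun l => Nat.lt_succ_of_le (Finset.le_sup (Finset.mem_univ l))⟩
  choose e he0 he1 he2 using fun l => ha l _ (hn l)
  -- triangular equations
  obtain ⟨ι, hιC, hιX⟩ : ∃ ι : Polynomial A →+* MvPolynomial (Option (Option (Fin s))) A,
      (∀ a, ι (Polynomial.C a) = C a) ∧ ι Polynomial.X = X none :=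
    ⟨Polynomial.eval₂RingHom C (X none), by simp, by simp⟩
  obtain ⟨τ, hτC, hτX⟩ : ∃ τ : MvPolynomial (Fin s) (Polynomial A) →+* MvPolynomial (Option (Option (Fin s))) A,
      (∀ a, τ (C a) = ι a) ∧ ∀ i, τ (X i) = X (some (some i)) :=
    ⟨eval₂Hom ι fun i => X (some (some i)), by simp, by simp⟩
  have hτ : ∀ F, ∃ F', F - τ F' ∈
      Ideal.span {(p : MvPolynomial (Option (Option (Fin s))) A) - X (some none)} := fun F => by
    induction F using MvPolynomial.induction_on with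
    | C a => exact ⟨C (Polynomial.C a), by simp [hτC, hιC]⟩
    | add F G hF hG =>
      obtain ⟨F', hF⟩ := hF
      obtain ⟨G', hG⟩ := hG
      exact ⟨F' + G', by rw [map_add, add_sub_add_comm]; exact Ideal.add_mem _ hF hG⟩
    | mul_X F v hF =>
      obtain ⟨F', hF⟩ := hF
      obtain ⟨G', hG⟩ : ∃ G', X v - τ G' ∈
          Ideal.span {(p : MvPolynomial (Option (Option (Fin s))) A) - X (some none)} := by
        rcases v with _ | _ | i
        · exact ⟨C Polynomial.X, by simp [hτC, hιX]⟩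
        · exact ⟨p, by
            rw [map_natCast]
            exact Ideal.mem_span_singleton'.2 ⟨-1, by ring⟩⟩
        · exact ⟨X i, by simp [hτX]⟩
      refine ⟨F' * G', ?_⟩
      rw [map_mul, show F * X v - τ F' * τ G' = (F - τ F') * X v + τ F' * (X v - τ G') by ring]
      exact Ideal.add_mem _ (Ideal.mul_mem_right _ _ hF) (Ideal.mul_mem_left _ _ hG)
  have hιc : (ψ.comp ι).comp (Polynomial.C : A →+* _) = algebraMap A R := RingHom.ext fun a => by simp [hιC, hC]
  have hτc : (ψ.comp τ).comp (C : Polynomial A →+* _) = ψ.comp ι := RingHom.ext fun a => by simp [hτC]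
  obtain ⟨H, hH, hH0⟩ : ∃ H : Polynomial A, H.Monic ∧ (ψ.comp ι) H = 0 := by
    obtain ⟨H, hH, h0⟩ := hfinA.to_isIntegral ((ψ.comp ι) Polynomial.X)
    exact ⟨H, hH, by rw [mxp_eval, hιc, h0]⟩
  obtain ⟨g0, hg0, hg0'⟩ := tri_one (ψ.comp ι) ⟨H, hH, hH0⟩
  obtain ⟨c2, hc2, hc2'⟩ := mxp_unif (ψ.comp ι) (Ideal.span {g0}) fun F hF => by
    obtain ⟨c, h1, h2⟩ := hg0' F hF
    rw [hιc, (RingHom.injective_iff_ker_eq_bot _).1 hinj, Ideal.map_bot, sup_bot_eq] at h2
    exact ⟨_, h1, h2⟩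
  obtain ⟨g, c1, hg, hc1, hc1'⟩ := tri_many s (ψ.comp τ) (by
    rw [hτc]
    exact (RingHom.Finite.of_comp_finite (f := Polynomial.C) (hιc ▸ hfinA)).to_isIntegral)
  rw [hτc] at hc1'
  have hG0 : (g0 + Polynomial.X ^ (g0.natDegree + 1) * H ^ 2).Monic := by
    have h1 : (Polynomial.X ^ (g0.natDegree + 1) * H ^ 2).Monic := (Polynomial.monic_X_pow _).mul (hH.pow 2)
    refine h1.add_of_right (Polynomial.degree_lt_degree ?_)
    rw [(Polynomial.monic_X_pow _).natDegree_mul (hH.pow 2), Polynomial.natDegree_X_pow]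
    omega
  obtain ⟨b, s0, hs0, hs1⟩ := mxp_prep hG0
  obtain ⟨gg, hgu, hgt⟩ : ∃ gg : Option (Fin s) → MvPolynomial (Option (Option (Fin s))) A,
      gg none = ι (g0 + Polynomial.X ^ (g0.natDegree + 1) * H ^ 2) ∧ ∀ i, gg (some i) = τ (g i) :=
    ⟨fun l => l.elim _ fun i => τ (g i), rfl, fun _ => rfl⟩
  obtain ⟨f, hf⟩ : ∃ f : Option (Fin s) → MvPolynomial (Option (Option (Fin s))) A,
    ∀ l, f l = e l ^ 2 + X none ^ (2 * n + 2) * gg l := ⟨_, fun _ => rfl⟩
  have f0 : ∀ l, f l - X (some l) ^ (2 * n + 2) ∈ mxX X' * 𝔫 ^ (2 * n + 2 - 1) := fun l => by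
    have h1 : e l - X (some l) ^ (n + 1) ∈ mxX X' * 𝔫 ^ n := he2 l
    have h2 : e l - X (some l) ^ (n + 1) + 2 * X (some l) ^ (n + 1) ∈ 𝔫 ^ (n + 1) := by
      refine Ideal.add_mem _ ?_ (Ideal.mul_mem_left _ _ (Ideal.pow_mem_pow (hXn l) _))
      rw [pow_succ' 𝔫]
      exact Ideal.mul_mono_left hle h1
    have h3 := Ideal.mul_mem_mul h1 h2
    rw [mul_assoc, ← pow_add] at h3
    have h4 := Ideal.mul_mem_mul hX1 (Ideal.mul_mem_right (gg l) _ (Ideal.pow_mem_pow (hle hX1) (n + (n + 1))))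
    rw [show 2 * n + 2 - 1 = n + (n + 1) by omega]
    convert Ideal.add_mem _ h3 h4 using 1
    rw [hf]
    ring
  have fu : ι s0 * X none ^ (2 * n + 2 + b) ∈ Ideal.span
      ({(p : MvPolynomial (Option (Option (Fin s))) A), X (some none)} ∪ Set.range (fun i => C (X' i)) ∪
        Set.range f) := by
    generalize hI : Ideal.span ({(p : MvPolynomial (Option (Option (Fin s))) A), X (some none)} ∪
      Set.range (fun i => C (X' i)) ∪ Set.range f) = I
    have h1 : f none ∈ I := hI ▸ Ideal.subset_span (Or.inr ⟨_, rfl⟩)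
    have h2 : e none ∈ I := (Ideal.span_singleton_le_iff_mem _).2
      (hI ▸ Ideal.subset_span (Or.inl (Or.inl (Or.inr rfl)))) (he1 none)
    have h3 : (maximalIdeal A).map Polynomial.C ≤ I.comap ι := by
      rw [Ideal.map_le_iff_le_comap, ← h.max]
      refine ln_idl_le fun i => ?_
      rw [Ideal.mem_comap, Ideal.mem_comap, hιC]
      induction i using Fin.cases with
      | zero => exact hI ▸ Ideal.subset_span (Or.inl (Or.inl (Or.inl (map_natCast C p))))
      | succ i => exact hI ▸ Ideal.subset_span (Or.inl (Or.inr ⟨i, rfl⟩))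
    have h4 := h3 hs1
    rw [Ideal.mem_comap, map_sub, ← hgu, map_mul, map_pow, hιX] at h4
    convert Ideal.sub_mem _ (Ideal.sub_mem _ h1 (Ideal.mul_mem_left _ (e none) h2))
      (Ideal.mul_mem_left _ (X none ^ (2 * n + 2)) h4) using 1
    rw [hf]
    ring
  have hs2 : ι s0 ∉ mxM A (Option (Option (Fin s))) := fun h0 => hs0 <| by
    have e1 : (constantCoeff : MvPolynomial (Option (Option (Fin s))) A →+* A).comp ι =
        Polynomial.constantCoeff := by
      ext a <;> simp [hιC, hιX]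
    have h1 : ((constantCoeff : MvPolynomial (Option (Option (Fin s))) A →+* A).comp ι) s0 ∈ maximalIdeal A := h0
    rwa [e1] at h1
  have hgg : ∀ l, ψ (gg l) = 0 := fun l => by
    cases l with
    | none =>
      rw [hgu]
      have : (ψ.comp ι) (g0 + Polynomial.X ^ (g0.natDegree + 1) * H ^ 2) = 0 := by
        rw [map_add, map_mul, map_pow _ H, hg0, hH0]; simp
      exact this
    | some i => rw [hgt]; exact hg i
  -- generic generation
  have := RingHom.ker_isPrime ψ
  obtain ⟨𝔍, h𝔍⟩ : ∃ 𝔍, 𝔍 = Ideal.span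
    (insert ((p : MvPolynomial (Option (Option (Fin s))) A) - X (some none)) (Set.range f)) := ⟨_, rfl⟩
  obtain ⟨c, hc, hc'⟩ := generic_nakayama (RingHom.ker ψ) 𝔍 (c := X none ^ (2 * n + 2) * (ι c2 * τ c1))
    (by
      rw [RingHom.mem_ker, map_mul, map_mul, map_pow, hX0]
      exact mul_ne_zero (pow_ne_zero _ hx0) (mul_ne_zero hc2 hc1)) (by
    have hsq : ∀ y, ψ y = 0 → y ^ 2 ∈ 𝔍 ⊔ RingHom.ker ψ ^ 2 := fun y hy =>
      Ideal.mem_sup_right (Ideal.pow_mem_pow hy 2)
    have h1 : ∀ l, X none ^ (2 * n + 2) * gg l ∈ 𝔍 ⊔ RingHom.ker ψ ^ 2 := fun l => by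
      rw [show X none ^ (2 * n + 2) * gg l = f l - e l ^ 2 by rw [hf]; ring]
      exact Ideal.sub_mem _ (Ideal.mem_sup_left (h𝔍 ▸ Ideal.subset_span (Or.inr ⟨l, rfl⟩))) (hsq _ (he0 l))
    have h2 : X none ^ (2 * n + 2) * ι g0 ∈ 𝔍 ⊔ RingHom.ker ψ ^ 2 := by
      have h3 := Ideal.sub_mem _ (h1 none)
        (Ideal.mul_mem_left _ (X none ^ (2 * n + 2) * ι Polynomial.X ^ (g0.natDegree + 1)) (hsq _ hH0))
      rw [hgu, map_add, map_mul, map_pow, map_pow] at h3
      convert h3 using 1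
      ring
    have h3 : idl g ⊔ (RingHom.ker (ψ.comp ι)).map C ≤
        ((𝔍 ⊔ RingHom.ker ψ ^ 2).colon {X none ^ (2 * n + 2) * ι c2}).comap τ := by
      refine sup_le (ln_idl_le fun i => ?_) (Ideal.map_le_iff_le_comap.2 fun y hy => ?_)
      · rw [Ideal.mem_comap, Submodule.mem_colon_singleton, smul_eq_mul, ← hgt]
        convert Ideal.mul_mem_left _ (ι c2) (h1 (some i)) using 1
        ring
      · rw [Ideal.mem_comap, Ideal.mem_comap, Submodule.mem_colon_singleton, smul_eq_mul, hτC]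
        obtain ⟨z, hz⟩ := Ideal.mem_span_singleton'.1 (hc2' y hy)
        have h4 := Ideal.mul_mem_left _ (ι z) h2
        rw [mul_left_comm, ← map_mul, hz, map_mul] at h4
        convert h4 using 1
        ring
    rw [Ideal.span_singleton_mul_le_iff]
    intro F hF
    obtain ⟨F', hF'⟩ := hτ F
    have h4 : F - τ F' ∈ 𝔍 :=
      (Ideal.span_singleton_le_iff_mem _).2 (h𝔍 ▸ Ideal.subset_span (Or.inl rfl)) hF'
    have h5 : (ψ.comp τ) F' = 0 := by
      have h6 : F - τ F' ∈ RingHom.ker ψ := (Ideal.span_singleton_le_iff_mem _).2 (by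
        rw [RingHom.mem_ker, map_sub, hXu, map_natCast, sub_self]) hF'
      simpa using Ideal.sub_mem _ hF h6
    have h6 := h3 (hc1' F' h5)
    rw [Ideal.mem_comap, Submodule.mem_colon_singleton, smul_eq_mul, map_mul] at h6
    convert Ideal.add_mem _ h6 (Ideal.mul_mem_left _ (X none ^ (2 * n + 2) * (ι c2 * τ c1))
      (Ideal.mem_sup_left h4)) using 1
    ring)
  refine ⟨⟨Option (Fin s), Finset.univ, none, Finset.mem_univ _, 2 * n + 2, by omega, f,
    fun l _ => h𝔫 ▸ f0 l, fun l hl => absurd (Finset.mem_univ l) hl, _, _, hs2, fu⟩, ψ, c, hsurj, hC, hX0, hXm,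
    hXu, fun l => ?_, hc, fun F hF => ?_⟩
  · show ψ (f l) = 0
    rw [hf, map_add, map_pow, map_mul, he0, hgg]
    simp
  · rw [Ideal.span_singleton_mul_le_iff, h𝔍] at hc'
    exact hc' F hF

theorem mxp_ext (h : MBase p A X' Δ) (m : MixData p A X') (g : Bool → MvPolynomial (Option m.L) A) :
    ∃ (m' : MixData p A X') (j : m.L → m'.L) (t : Bool → m'.L), m'.l0 = j m.l0 ∧
      (∀ l', (∃ l, l' = j l ∧ m'.f l' = rename (Option.map j) (m.f l)) ∨
        ∃ b, l' = t b ∧ m'.f l' = X (some (t b)) - X none * rename (Option.map j) (g b)) ∧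
      (∀ (R : Type) (u : m.L → R) (v : Bool → R), ∃ w : m'.L → R, (∀ l, w (j l) = u l) ∧ ∀ b, w (t b) = v b) ∧
      ∃ κ : m.D Δ 0 →+* m'.D Δ 0, Function.Surjective κ ∧
        (∀ a, κ (m.π Δ 0 (C a)) = m'.π Δ 0 (C a)) ∧
        (∀ v : Option m.L, κ (m.π Δ 0 (X (.inl v))) = m'.π Δ 0 (X (.inl (v.map j)))) ∧
        ∀ b : Bool, m'.π Δ 0 (X (.inl (some (t b)))) = κ (m.π Δ 0 (X (.inl none) * rename Sum.inl (g b))) :=
  ⟨m.ext g, Sum.inl, Sum.inr, rfl, fun l' => by
    rcases l' with l | b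
    · exact Or.inl ⟨l, rfl, rfl⟩
    · exact Or.inr ⟨b, rfl, rfl⟩, fun _ u v => ⟨Sum.elim u v, fun _ => rfl, fun _ => rfl⟩, m.exists_ext_hom h g⟩

/-- `N° = D 0` for `exists_mixData`, `θ°` from `exists_lift0`, `a0 = π c`, `a1`, `w` from `exists_aa'`, lifted by
`π0_surj`; `N = D 0` for `m.ext`, `κ` from `exists_ext_hom`, `θ` from `exists_lift0`; `θ ∘ κ = θ°` and `κ` is onto, so
`ker θ = κ (ker θ°)`.  The `A`-algebra structure is `π 0 ∘ C`. -/
theorem exists_mixPres (h : MBase p A X' Δ) [Module.Finite A R] [IsLocalHom (algebraMap A R)]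
    (hres : SameRes (algebraMap A R)) (hinj : Function.Injective (algebraMap A R)) {x : Fin (d + 1) → R} {K : ℕ}
    (hx : IsRed x K) (htail : ∀ i, algebraMap A R (X' i) = Fin.tail x i) (hdim : ¬ ringKrullDim R ≤ d) :
    ∃ (N : Type) (_ : CommRing N) (_ : IsLocalRing N) (_ : Algebra A N) (xN : Fin (d + 1) → N) (θ : N →+* R)
      (a a' : N) (w : Fin d → N), MixPres p A N R X' xN θ a a' w ∧ ∀ i, θ (xN i) = x i := by
  obtain ⟨m, ψ, c, hsurj, hC, hX0, hXm, hXu, hf, hc, hc'⟩ := exists_mixData h hres hinj hx htail hdim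
  have hx0 := mxp_x0 hx.sop hdim
  have hCm : ∀ a ∈ maximalIdeal A, algebraMap A R a ∈ maximalIdeal R := fun a ha => map_nonunit _ a ha
  have := m.isLocalRing h 0
  have := m.isNoetherianRing h 0
  obtain ⟨θ0, hθ0⟩ := m.exists_lift0 h ψ (mxp_loc ψ (fun a ha => hC a ▸ hCm a ha) fun v => by
    cases v with
    | none => rw [hX0]; exact hx.1 0
    | some l => exact hXm l) hXu hf
  have hθX : θ0 (m.π Δ 0 (X (.inl none))) = x 0 := by rw [← hX0, ← hθ0, rename_X]
  have := RingHom.ker_isPrime θ0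
  obtain ⟨a1, ha1, w, hw⟩ := exists_aa' (m.sop_zX h 0) (RingHom.ker θ0) (a0 := m.π Δ 0 (rename Sum.inl c))
    (by rwa [RingHom.mem_ker, hθ0]) (by
      rw [RingHom.mem_ker]
      exact hθX ▸ hx0)
  obtain ⟨c1, rfl⟩ := m.π0_surj h a1
  obtain ⟨g, hgt, hgf⟩ : ∃ g : Bool → MvPolynomial (Option m.L) A, g true = c ∧ g false = c1 :=
    ⟨fun b => cond b c c1, rfl, rfl⟩
  obtain ⟨m', j, t, hl0, hf', hel, κ, hκ, hκC, hκX, hκb⟩ := mxp_ext h m g
  obtain ⟨ψ', hC', hX0', hXl', hXr'⟩ : ∃ ψ' : MvPolynomial (Option m'.L) A →+* R,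
      (∀ a, ψ' (C a) = algebraMap A R a) ∧ ψ' (X none) = x 0 ∧ (∀ l, ψ' (X (some (j l))) = ψ (X (some l))) ∧
        ∀ b, ψ' (X (some (t b))) = x 0 * ψ (g b) := by
    obtain ⟨u, h1, h2⟩ := hel R (fun l => ψ (X (some l))) fun b => x 0 * ψ (g b)
    exact ⟨eval₂Hom (algebraMap A R) fun v => v.elim (x 0) u, by simp, by simp, by simp [h1], fun b => by simp [h2]⟩
  have hren : ∀ a, ψ' (rename (Option.map j) a) = ψ a := fun a => by
    induction a using MvPolynomial.induction_on with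
    | C a => rw [rename_C, hC, hC']
    | add a b ha hb => rw [map_add, map_add, map_add, ha, hb]
    | mul_X a v ha =>
      rw [map_mul, map_mul, map_mul, ha, rename_X]
      cases v with
      | none => exact congrArg _ (hX0'.trans hX0.symm)
      | some l => exact congrArg _ (hXl' l)
  have := m'.isLocalRing h 0
  obtain ⟨θ, hθ⟩ := m'.exists_lift0 h ψ'
    (mxp_loc ψ' (fun a ha => hC' a ▸ hCm a ha) fun v => by
      rcases v with _ | l
      · rw [hX0']; exact hx.1 0
      rcases hf' l with ⟨l, rfl, -⟩ | ⟨b, rfl, -⟩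
      · rw [hXl']; exact hXm l
      · rw [hXr']; exact Ideal.mul_mem_right _ _ (hx.1 0)) (by rw [hl0, hXl', hXu]) fun l => by
      rcases hf' l with ⟨l, -, e⟩ | ⟨b, -, e⟩
      · rw [e, hren, hf]
      · rw [e, map_sub, map_mul, hren, hXr', hX0', sub_self]
  have hκπ : ∀ a, κ (m.π Δ 0 (rename Sum.inl a)) =
      m'.π Δ 0 (rename Sum.inl (rename (Option.map j) a)) := fun a => by
    induction a using MvPolynomial.induction_on with
    | C a => rw [rename_C, rename_C, rename_C, hκC]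
    | add a b ha hb => simp only [map_add, ha, hb]
    | mul_X a v ha => simp only [map_mul, ha, rename_X, hκX]
  have hθκ : ∀ b, θ (κ b) = θ0 b := fun b => by
    obtain ⟨a, rfl⟩ := m.π0_surj h b
    rw [hκπ, hθ, hren, hθ0]
  have hθC : ∀ a, θ (m'.π Δ 0 (C a)) = algebraMap A R a := fun a => by
    rw [← hC', ← hθ, rename_C]
  have hkill : ∀ b ∈ RingHom.ker θ, m'.π Δ 0 (X (.inl (some (t true)))) * b = 0 := fun b hb => by
    obtain ⟨b, rfl⟩ := hκ b
    obtain ⟨F, rfl⟩ := m.π0_surj h b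
    rw [RingHom.mem_ker, hθκ, hθ0] at hb
    have h1 : Ideal.span (insert ((p : MvPolynomial (Option m.L) A) - X (some m.l0)) (Set.range m.f)) ≤
        RingHom.ker ((m.π Δ 0).comp (rename Sum.inl).toRingHom) := by
      refine Ideal.span_le.2 ?_
      rintro _ (rfl | ⟨l, rfl⟩)
      · have := m.π_ξ Δ 0
        rw [MixData.ξ, pow_zero, pow_one] at this
        simpa [RingHom.mem_ker, MixData.u] using this
      · exact m.π0_f l
    have h2 : m.π Δ 0 (rename Sum.inl (c * F)) = 0 := h1 (hc' F hb)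
    rw [hκb, ← map_mul, ← map_mul, hgt, mul_assoc, ← map_mul (rename _), map_mul (m.π Δ 0), h2, mul_zero,
      map_zero]
  have hmem : m'.π Δ 0 (X (.inl (some (t false)))) ∈ RingHom.ker θ := by
    rw [RingHom.mem_ker, hκb, hθκ, map_mul, map_mul, hgf, (RingHom.mem_ker.1 ha1), mul_zero]
  let _ := ((m'.π Δ 0).comp C).toAlgebra
  refine ⟨m'.D Δ 0, inferInstance, inferInstance, inferInstance, m'.zX Δ 0, θ, _, _,
    fun i => κ (w i), ⟨h.rb, h.max, m'.isNoetherianRing h 0, m'.finite_C h 0, ⟨fun a ha => ?_⟩,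
      m'.sameRes_C h 0, fun i => rfl, fun r => ?_, ?_, m'.sop_zX h 0, ?_, ?_, hkill, hmem,
      m'.tower h _ _ _ hkill hmem⟩, fun i => ?_⟩
  · by_contra hn
    have h1 : (C a : m'.𝒜) ∈ mxM A _ := by
      rw [mxM, Ideal.mem_comap, constantCoeff_C]
      exact hn
    exact (m'.π_mem_iff h 0 _).2 h1 ha
  · obtain ⟨a, rfl⟩ := hsurj r
    exact ⟨_, (hθκ _).trans (hθ0 a)⟩
  · intro a b hab
    exact hinj ((hθC a).symm.trans (hab.trans (hθC b)))
  · have := IsLocalHom.of_surjective κ hκ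
    have h1 := hw.map κ (c := 1) (by rw [pow_one, map_maximalIdeal_of_surjective κ hκ])
    convert h1 using 2 with i
    induction i using Fin.cases with
    | zero =>
      rw [Fin.cons_zero, Fin.cons_zero, hκb, hκb, map_add, map_mul (m.π Δ 0), map_mul (m.π Δ 0), hgt, hgf]
      rfl
    | succ i => rfl
  · rw [m'.π_mem_iff h 0, mxM, Ideal.mem_comap, constantCoeff_X]
    exact Ideal.zero_mem _
  · induction i using Fin.cases with
    | zero => exact ((congrArg θ (hκX none)).symm.trans (hθκ _)).trans hθX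
    | succ i => exact (hθC _).trans (htail i)

/-- `exists_red_sop` with `π = p`, `cohenW`, `exists_base_mixed`, `mbase_witt`, `dim_le_of_not_injective`. -/
theorem mixPres_of_complete (R : Type) [CommRing R] [IsDomain R] [IsNoetherianRing R] [IsLocalRing R]
    [IsAdicComplete (maximalIdeal R) R] [PerfectField (ResidueField R)] [Infinite (ResidueField R)] (p : ℕ)
    [Fact p.Prime] [CharP (ResidueField R) p] (hp : (p : R) ≠ 0) {d : ℕ} (h : ringKrullDim R ≤ (d + 1 : ℕ))
    (h' : ¬ ringKrullDim R ≤ d) :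
    ∃ (A N : Type) (_ : CommRing A) (_ : IsLocalRing A) (_ : CommRing N) (_ : IsLocalRing N) (_ : Algebra A N)
      (X' : Fin d → A) (xN : Fin (d + 1) → N) (θ : N →+* R) (a a' : N) (w : Fin d → N),
      MixPres p A N R X' xN θ a a' w := by
  obtain ⟨x, K, hx, hs⟩ := exists_red_sop h (ch_p_mem R p) (dim_quot_le_of_domain h hp)
  obtain ⟨φ, hφ⟩ := cohenW R p
  obtain ⟨Φ, -, hX, hfin, hloc, hres⟩ := exists_base_mixed p φ (ch_sameRes_witt hφ) hs
  obtain ⟨Δ, hb⟩ := mbase_witt p (ResidueField R) d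
  let _ := Φ.toAlgebra
  have : Module.Finite (MvPowerSeries (Fin d) (WittVector p (ResidueField R))) R := hfin
  have : IsLocalHom (algebraMap (MvPowerSeries (Fin d) (WittVector p (ResidueField R))) R) := hloc
  have hinj : Function.Injective Φ := by
    by_contra hn
    have := hb.rb.dom
    have := hb.rb.noeth
    exact h' (dim_le_of_not_injective Φ hfin (dim_le_of_sop (ch_sop_of_eq hb.max.symm)) hn)
  obtain ⟨N, _, _, _, xN, θ, a, a', w, H, -⟩ := exists_mixPres hb hres hinj hx hX h'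
  exact ⟨_, N, _, _, _, _, _, _, xN, θ, a, a', w, H⟩

end Crest.Agent.R183
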