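import Crest.Agent.R183.CovM1
import Crest.Agent.R183.MxP

/-!
# rid 183, file `CovM2`: the cover property in mixed characteristic

Prefix helper lemmas with `cm2_`.
-/

set_option autoImplicit false
set_option linter.unusedSectionVars false

open IsLocalRing

namespace Crest.Agent.R183

/-- The cover attached to a level: `Λ = N = D`, `B = D / (𝔭, α', (X)^(n0 q))`. -/
noncomputable def tlCov {N : Type} [CommRing N] {d : ℕ} (𝔭 : Ideal N) (D : Type) [CommRing D] [Algebra N D]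
    (X : Fin d → D) (α α' : D) (n0 q ρ : ℕ) : Cov d where
  Λ := D
  B := D ⧸ (𝔭.map (algebraMap N D) ⊔ Ideal.span {α'} ⊔ idl X ^ (n0 * q))
  N := D
  X := X
  q := q
  α := α
  α' := α'
  ρ := ρ

section aux

variable {p d : ℕ} {A N R : Type} [CommRing A] [IsLocalRing A] [CommRing N] [IsLocalRing N] [CommRing R]
  [Algebra A N] {X' : Fin d → A} {x : Fin (d + 1) → N} {θ : N →+* R} {a a' : N} {w : Fin d → N}

theorem cm2_p_mem (P : MixPres p A N R X' x θ a a' w) : (p : N) ∈ maximalIdeal N := by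
  have := P.loc
  have h1 : (p : A) ∈ maximalIdeal A := by
    rw [← P.max]
    exact ln_mem_idl (Fin.cons (p : A) X' : Fin (d + 1) → A) 0
  have h2 := map_nonunit (algebraMap A N) _ h1
  rwa [map_natCast] at h2

theorem cm2_p_ne (P : MixPres p A N R X' x θ a a' w) : (p : R) ≠ 0 := by
  intro h
  have h1 : (p : A) = 0 := P.inj (by rw [map_natCast, map_zero, h])
  have h2 := P.rb.reg 0 1 (by
    change (p : A) • (1 : A) ∈ _
    rw [h1, zero_smul]
    exact Submodule.zero_mem _)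
  have h3 : idlLt (Fin.cons (p : A) X' : Fin (d + 1) → A) 0 = ⊥ := by
    rw [idlLt, show {i : Fin (d + 1) | i < 0} = ∅ from Set.eq_empty_of_forall_notMem fun i hi =>
      Fin.not_lt_zero i hi, Set.image_empty, Ideal.span_empty]
  rw [h3, rg2_mem_self, Ideal.mem_bot] at h2
  exact one_ne_zero h2

theorem cm2_max [IsLocalRing R] (P : MixPres p A N R X' x θ a a' w) :
    (maximalIdeal N).map θ = maximalIdeal R := map_maximalIdeal_of_surjective θ P.surj

theorem cm2_sop [IsLocalRing R] (P : MixPres p A N R X' x θ a a' w) : Sop fun i => θ (x i) := by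
  obtain ⟨h1, c, hc⟩ := P.sop
  refine ⟨fun i => ?_, c, ?_⟩
  · rw [← cm2_max P]
    exact Ideal.mem_map_of_mem θ (h1 i)
  · rw [← cm2_max P, ← Ideal.map_pow, ← idl_map]
    exact Ideal.map_mono hc

variable {𝔭 : Ideal N} {K s Nn q ρ : ℕ} {D : Type} [CommRing D] [IsLocalRing D] [Algebra N D]
  {X : Fin (d + 1) → D} {α α' : D}

theorem cm2_fin (T : TLevel p x 𝔭 a a' K s Nn q ρ D X α α') {k : ℕ} {V : Ideal D}
    (h : (maximalIdeal N ^ k).map (algebraMap N D) ≤ V) : colen D V ≠ ⊤ := by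
  have := T.noeth
  obtain ⟨c, hc⟩ := T.primary
  refine gw_ne_top (c := c * k) ?_
  rw [gw_ism_self, pow_mul]
  refine le_trans ?_ h
  rw [Ideal.map_pow]
  exact Ideal.pow_right_mono hc k

theorem cm2_contr (T : TLevel p x 𝔭 a a' K s Nn q ρ D X α α') (hK : 2 * K ≤ q) {n0 M : ℕ}
    (hn : 2 * n0 ≤ M) : (maximalIdeal N ^ M).map (algebraMap N D) ≤ idl X ^ (n0 * q) := by
  rw [Ideal.map_pow]
  refine (Ideal.pow_right_mono T.contr M).trans ?_
  rw [← pow_mul]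
  refine Ideal.pow_le_pow_right ?_
  obtain ⟨u, rfl⟩ := Nat.exists_eq_add_of_le hK
  have h1 : 2 * K + u - K = K + u := by omega
  rw [h1]
  nlinarith [Nat.mul_le_mul_left (K + u) hn]

theorem cm2_br (T : TLevel p x 𝔭 a a' K s Nn q ρ D X α α') (t : ℕ) :
    (br x t).map (algebraMap N D) = br X (q * t) := by
  rw [br, idl_map, br]
  congr 1
  funext i
  rw [map_pow, ← T.root, pow_mul]

theorem cm2_br1 (T : TLevel p x 𝔭 a a' K s Nn q ρ D X α α') :
    (idl x).map (algebraMap N D) = br X q := by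
  rw [idl_map, br]
  congr 1
  funext i
  rw [← T.root]

end aux

section tq

variable {N R : Type} [CommRing N] [CommRing R] {θ : N →+* R} {D : Type} [CommRing D] [Algebra N D]
  [Algebra R (TQ θ D)]

theorem cm2_mem (hR : ∀ b, algebraMap R (TQ θ D) (θ b) = Ideal.Quotient.mk _ (algebraMap N D b))
    {J : Ideal N} {J' : Ideal R} (h : J.map θ ≤ J') {b : D} (hb : b ∈ J.map (algebraMap N D)) :
    (Ideal.Quotient.mk _ b : TQ θ D) ∈ ism J' (TQ θ D) := by
  rw [ism, Ideal.smul_top_eq_map, Submodule.restrictScalars_mem, ← Ideal.mem_comap]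
  refine (Ideal.map_le_iff_le_comap.2 fun n hn => ?_ : J.map (algebraMap N D) ≤ _) hb
  rw [Ideal.mem_comap, Ideal.mem_comap, ← hR]
  exact Ideal.mem_map_of_mem _ (h (Ideal.mem_map_of_mem θ hn))

theorem cm2_colen [IsLocalRing N] [IsLocalRing D] [IsLocalHom (algebraMap N D)]
    (hres : SameRes (algebraMap N D)) (hθ : Function.Surjective θ)
    (hR : ∀ b, algebraMap R (TQ θ D) (θ b) = Ideal.Quotient.mk _ (algebraMap N D b))
    {U : Submodule R (TQ θ D)} {V : Ideal D} (h : ∀ b ∈ V, (Ideal.Quotient.mk _ b : TQ θ D) ∈ U) :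
    colen R U ≤ colen D V := by
  let : Algebra N R := θ.toAlgebra
  have : IsScalarTower N R (TQ θ D) := IsScalarTower.of_algebraMap_eq fun b => (hR b).symm
  rw [colen_eq_restrict_of_surj (Λ := N) hθ U, colen_eq_restrict_of_local (Λ := N) hres V]
  refine colen_le_of_surj (Ideal.Quotient.mkₐ N _).toLinearMap (Ideal.Quotient.mkₐ_surjective N _) ?_
  rintro _ ⟨b, hb, rfl⟩
  exact h b hb

theorem cm2_len [IsLocalRing N] [IsLocalRing D] [IsLocalHom (algebraMap N D)]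
    (hres : SameRes (algebraMap N D)) (hθ : Function.Surjective θ)
    (hR : ∀ b, algebraMap R (TQ θ D) (θ b) = Ideal.Quotient.mk _ (algebraMap N D b))
    {U : Submodule R (TQ θ D)} {V : Ideal D} (hV : colen D V ≠ ⊤)
    (h : ∀ b ∈ V, (Ideal.Quotient.mk _ b : TQ θ D) ∈ U) :
    len R (TQ θ D ⧸ U) ≤ len D (D ⧸ V) := by
  have h1 := ENat.toNat_le_toNat (cm2_colen hres hθ hR h) hV
  rw [len, len]
  exact_mod_cast h1

theorem cm2_finite [Module.Finite N D]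
    (hR : ∀ b, algebraMap R (TQ θ D) (θ b) = Ideal.Quotient.mk _ (algebraMap N D b)) :
    Module.Finite R (TQ θ D) := by
  let : Algebra N R := θ.toAlgebra
  have : IsScalarTower N R (TQ θ D) := IsScalarTower.of_algebraMap_eq fun b => (hR b).symm
  have : Module.Finite N (TQ θ D) :=
    Module.Finite.of_surjective (Ideal.Quotient.mkₐ N _).toLinearMap (Ideal.Quotient.mkₐ_surjective N _)
  exact Module.Finite.of_restrictScalars_finite N R (TQ θ D)

theorem cm2_range (hR : ∀ b, algebraMap R (TQ θ D) (θ b) = Ideal.Quotient.mk _ (algebraMap N D b)) {ρ : ℕ}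
    (ι : (Fin ρ → N) →ₗ[N] D) {g : N} (h : ∀ b : D, g • b ∈ LinearMap.range ι) :
    ∃ ι' : (Fin ρ → R) →ₗ[R] TQ θ D, ism (Ideal.span {θ g}) (TQ θ D) ≤ LinearMap.range ι' := by
  let : Algebra N R := θ.toAlgebra
  have : IsScalarTower N R (TQ θ D) := IsScalarTower.of_algebraMap_eq fun b => (hR b).symm
  let v : Fin ρ → TQ θ D := fun i => Ideal.Quotient.mk _ (ι (Pi.single i 1))
  refine ⟨Fintype.linearCombination R v, fun z hz => ?_⟩
  obtain ⟨u, rfl⟩ := (ln_mem_ism_span _ _).1 hz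
  obtain ⟨b, rfl⟩ := Ideal.Quotient.mk_surjective u
  obtain ⟨c, hc⟩ := h b
  refine ⟨fun i => θ (c i), ?_⟩
  have h1 : ι c = ∑ i, c i • ι (Pi.single i 1) := by
    conv_lhs => rw [pi_eq_sum_univ' c]
    rw [map_sum]
    exact Finset.sum_congr rfl fun i _ => map_smul _ _ _
  have h2 : ∀ (n : N) (e : D), θ n • (Ideal.Quotient.mk _ e : TQ θ D) = Ideal.Quotient.mk _ (n • e) :=
    fun n e => by rw [Algebra.smul_def, Algebra.smul_def, map_mul, hR]
  rw [Fintype.linearCombination_apply, h2, ← hc, h1, map_sum]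
  exact Finset.sum_congr rfl fun i _ => h2 _ _

end tq

theorem cm2_pow_sub {a b : ℝ} (hb : 0 ≤ b) (h : b ≤ a) (n : ℕ) :
    a ^ (n + 1) ≤ b ^ (n + 1) + (n + 1) * (a - b) * a ^ n := by
  induction n with
  | zero => simp
  | succ n ih =>
    have ha : 0 ≤ a := hb.trans h
    have h1 : b ^ (n + 1) ≤ a ^ (n + 1) := pow_le_pow_left₀ hb h _
    have h2 := mul_le_mul_of_nonneg_left ih ha
    have h3 := mul_le_mul_of_nonneg_left h1 (sub_nonneg.2 h)
    push_cast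
    calc a ^ (n + 1 + 1) = a * a ^ (n + 1) := by ring
      _ ≤ a * (b ^ (n + 1) + (n + 1) * (a - b) * a ^ n) := h2
      _ = b ^ (n + 1 + 1) + (a - b) * b ^ (n + 1) + (n + 1) * (a - b) * a ^ (n + 1) := by ring
      _ ≤ b ^ (n + 1 + 1) + (a - b) * a ^ (n + 1) + (n + 1) * (a - b) * a ^ (n + 1) := by linarith
      _ = _ := by ring

theorem cm2_lin (c e t n : ℕ) (ht : 0 < t) :
    (((c * (e * t + 1) : ℕ) : ℝ) + 1) ^ n ≤ ((c : ℝ) * (e + 1) + 1) ^ n * (t : ℝ) ^ n := by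
  rw [← mul_pow]
  refine pow_le_pow_left₀ (by positivity) ?_ n
  have h1 : (1 : ℝ) ≤ t := by exact_mod_cast ht
  have h2 : (0 : ℝ) ≤ c := Nat.cast_nonneg c
  push_cast
  nlinarith [mul_le_mul_of_nonneg_left h1 h2]

theorem cm2_num {z zk Z W k t T r ρ C1 C2 L ε : ℝ} {d : ℕ} (ht : 1 ≤ t) (hk : 0 ≤ k) (hT : t * k ≤ T)
    (hT' : T - t * k ≤ t) (hr : 0 ≤ r) (hρ : 1 ≤ ρ) (hC1 : 0 ≤ C1) (hε : 0 ≤ ε) (hz : 0 ≤ z) (hL : 0 ≤ L)
    (h1 : k ^ (d + 1) * z ≤ zk + k ^ (d + 1) * r * (C1 * ρ * t ^ d)) (h2 : zk ≤ Z)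
    (h3 : Z ≤ W + r * (C2 * T ^ d)) (h4 : z ≤ r * L) (h5 : C2 + (d + 1) * L ≤ ε * T) :
    z * T ^ (d + 1) ≤ (W + r * (C1 / t + ε) * ρ * T ^ (d + 1)) * t ^ (d + 1) := by
  have ht0 : 0 < t := by linarith
  have htk : 0 ≤ t * k := by positivity
  have hT0 : 0 ≤ T := htk.trans hT
  have htd : 1 ≤ t ^ d := one_le_pow₀ ht
  have e1 := cm2_pow_sub htk hT d
  have e2 : (t * k) ^ (d + 1) ≤ T ^ (d + 1) := pow_le_pow_left₀ htk hT _
  have e3 : z * (t * k) ^ (d + 1) ≤ (W + r * (C2 * T ^ d)) * t ^ (d + 1) +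
      T ^ (d + 1) * (r * (C1 * ρ * t ^ d)) := by
    calc z * (t * k) ^ (d + 1) = (k ^ (d + 1) * z) * t ^ (d + 1) := by ring
      _ ≤ (W + r * (C2 * T ^ d) + k ^ (d + 1) * r * (C1 * ρ * t ^ d)) * t ^ (d + 1) := by
        gcongr
        linarith
      _ = (W + r * (C2 * T ^ d)) * t ^ (d + 1) + (t * k) ^ (d + 1) * (r * (C1 * ρ * t ^ d)) := by ring
      _ ≤ _ := by gcongr
  have e4 : z * ((d + 1) * (T - t * k) * T ^ d) ≤ r * L * ((d + 1) * t ^ (d + 1) * T ^ d) := by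
    have : T - t * k ≤ t ^ (d + 1) := by
      rw [pow_succ]
      nlinarith
    have : 0 ≤ T - t * k := by linarith
    gcongr
  have e5 : r * (C2 + (d + 1) * L) * T ^ d * t ^ (d + 1) ≤ r * (ε * T * ρ) * T ^ d * t ^ (d + 1) := by
    gcongr
    exact h5.trans (le_mul_of_one_le_right (by positivity) hρ)
  have e6 : r * (C1 / t) * ρ * T ^ (d + 1) * t ^ (d + 1) = T ^ (d + 1) * (r * (C1 * ρ * t ^ d)) := by
    field_simp
    ring
  calc z * T ^ (d + 1) ≤ z * ((t * k) ^ (d + 1) + (d + 1) * (T - t * k) * T ^ d) := by gcongr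
    _ = z * (t * k) ^ (d + 1) + z * ((d + 1) * (T - t * k) * T ^ d) := by ring
    _ ≤ ((W + r * (C2 * T ^ d)) * t ^ (d + 1) + T ^ (d + 1) * (r * (C1 * ρ * t ^ d))) +
        r * L * ((d + 1) * t ^ (d + 1) * T ^ d) := add_le_add e3 e4
    _ = W * t ^ (d + 1) + T ^ (d + 1) * (r * (C1 * ρ * t ^ d)) +
        r * (C2 + (d + 1) * L) * T ^ d * t ^ (d + 1) := by ring
    _ ≤ W * t ^ (d + 1) + r * (C1 / t) * ρ * T ^ (d + 1) * t ^ (d + 1) +
        r * (ε * T * ρ) * T ^ d * t ^ (d + 1) := by rw [e6]; linarith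
    _ = _ := by ring

variable {p d : ℕ} {A N R : Type} [CommRing A] [IsLocalRing A] [CommRing N] [IsLocalRing N] [CommRing R]
  [IsDomain R] [IsNoetherianRing R] [IsLocalRing R] [Algebra A N] {X' : Fin d → A} {x : Fin (d + 1) → N}
  {θ : N →+* R} {a a' : N} {w : Fin d → N}

/-- `β` is multiplication by `α`, `ι` the quotient map; `p^Nn ∈ (X)^(Nn (q - K)) ≤ (X)^(n0 q)`. -/
theorem tlCov_basic (P : MixPres p A N R X' x θ a a' w) {K s Nn q ρ : ℕ} {D : Type} [CommRing D]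
    [IsLocalRing D] [Algebra N D] {X : Fin (d + 1) → D} {α α' : D}
    (T : TLevel p x (RingHom.ker θ) a a' K s Nn q ρ D X α α') (hq : 0 < q) (hK : 2 * K ≤ q) {n0 : ℕ}
    (hn : 2 * n0 ≤ Nn) : (tlCov (RingHom.ker θ) D X α α' n0 q ρ).Basic n0 := by
  have hfin : ∀ k : ℕ, colen D (idl X ^ k : Ideal D) ≠ ⊤ := fun k =>
    cm2_fin T (k := 2 * k) ((cm2_contr T hK le_rfl).trans
      (Ideal.pow_le_pow_right (Nat.le_mul_of_pos_right k hq)))
  have hp : Ideal.span {(p : D) ^ Nn} ≤ idl X ^ (n0 * q) := by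
    rw [Ideal.span_singleton_le_iff_mem]
    refine cm2_contr T hK hn ?_
    have := Ideal.mem_map_of_mem (algebraMap N D) (Ideal.pow_mem_pow (cm2_p_mem P) Nn)
    rwa [map_pow, map_natCast] at this
  set I : Ideal D := (RingHom.ker θ).map (algebraMap N D) ⊔ Ideal.span {α'} ⊔ idl X ^ (n0 * q) with hI
  have h1 : I ≤ (ism (idl X ^ (n0 * q)) D).comap (ln_mul D α) := by
    rw [gw_ism_self]
    refine sup_le (sup_le ?_ ?_) fun b hb => Ideal.mul_mem_left _ α hb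
    · have : (RingHom.ker θ).map (algebraMap N D) ≤ (idl X ^ (n0 * q)).colon {α} := by
        refine Ideal.map_le_iff_le_comap.2 fun b hb => ?_
        rw [Ideal.mem_comap, Submodule.mem_colon_singleton, smul_eq_mul, mul_comm _ α]
        exact hp (T.kill b hb)
      intro b hb
      have h2 := this hb
      rw [Submodule.mem_colon_singleton, smul_eq_mul, mul_comm _ α] at h2
      exact h2
    · rw [Ideal.span_singleton_le_iff_mem]
      exact hp T.kill'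
  have h2 : ism (idl X ^ (n0 * q)) D ≤ Submodule.comap (LinearMap.id (R := D) (M := D)) I := by
    rw [gw_ism_self]
    exact fun b hb => Ideal.mem_sup_right hb
  refine ⟨T.reg, ?_, ?_, ⟨Submodule.mapQ I _ (ln_mul D α) h1, Submodule.mapQ _ I LinearMap.id h2,
    fun b => ?_, fun v => ?_⟩, fun v => ?_, ?_⟩
  · refine Module.length_ne_top_iff.1 ?_
    change colen D (ism (idl X) D) ≠ ⊤
    rw [gw_ism_self, ← pow_one (idl X)]
    exact hfin 1
  · exact Module.length_ne_top_iff.1 (ln_fin_anti (V := I) (hfin (n0 * q)) le_sup_right)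
  · obtain ⟨b, rfl⟩ := Submodule.Quotient.mk_surjective I b
    rfl
  · obtain ⟨v, rfl⟩ := Submodule.Quotient.mk_surjective _ v
    rfl
  · exact Submodule.smul_mem_smul (hp T.kill') trivial
  · change (0 : ℝ) < (ρ : ℝ)
    exact_mod_cast T.pos

/-- `lenN`, `smallN`, `smallB` from `MixPres.bounds`.  `low`: if `E < 0` trivial.  Let `Q_t = D / (𝔭, x^[t])`.  It maps
onto `α (D / x^[t])` (as `α 𝔭 ≤ p^Nn D ≤ x^[t] D`), the kernel is killed by `α`, so its length is at most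
`len (Q_t / α) ≤ len (D / (a + a', x^[t]))` (`length_ker_eq`).  And `ρ E t^(d+1) ≤ len Q_t` by `rank_tq`,
`low_mult`. -/
theorem tlCov_est (P : MixPres p A N R X' x θ a a' w) {E : ℝ} (hE : LeMult (hs R) (d + 1) E) :
    ∃ C : ℝ, 0 ≤ C ∧ ∀ Cc ≥ C, ∀ (ε : ℝ) (t : ℕ), 0 < ε → 0 < t → ∃ s0 N1 : ℕ, ∀ {K s Nn q ρ : ℕ} {D : Type}
      [CommRing D] [IsLocalRing D] [Algebra N D] {X : Fin (d + 1) → D} {α α' : D},
      TLevel p x (RingHom.ker θ) a a' K s Nn q ρ D X α α' → 0 < q → s0 ≤ s → N1 ≤ Nn → ∀ n0 : ℕ,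
        (tlCov (RingHom.ker θ) D X α α' n0 q ρ).Est E Cc ε t := by
  obtain ⟨C0, N1, hC0, hb⟩ := P.bounds
  obtain ⟨c, hc⟩ := P.sop.2
  refine ⟨C0 * ((c : ℝ) + 1) ^ (d + 1) + C0 * ((c : ℝ) * ((d + 1 : ℕ) + 1) + 1) ^ d, by positivity,
    fun Cc hCc ε t hε ht => ⟨⌈C0 / ε⌉₊ + 1, N1, ?_⟩⟩
  intro K s Nn q ρ D _ _ _ X α α' T hq hs hN n0
  obtain ⟨b1, b2, b3⟩ := hb T hq
  have hs0 : 0 < s := by omega
  have hρ : (0 : ℝ) ≤ ρ := Nat.cast_nonneg ρ
  have hA : 0 ≤ C0 * ((c : ℝ) + 1) ^ (d + 1) := by positivity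
  have hB : 0 ≤ C0 * ((c : ℝ) * ((d + 1 : ℕ) + 1) + 1) ^ d := by positivity
  have h1 : (maximalIdeal N ^ c).map (algebraMap N D) ≤ br X q := by
    rw [← cm2_br1 T]
    exact Ideal.map_mono hc
  have hsm : len D (D ⧸ (br X q ⊔ Ideal.span {α + α'})) ≤ ε * ρ := by
    refine (b3 hN hs0).trans ?_
    have h2 : C0 / ε ≤ s := (Nat.le_ceil _).trans (by exact_mod_cast (by omega))
    rw [div_le_iff₀ hε] at h2
    rw [div_le_iff₀ (by exact_mod_cast hs0)]
    nlinarith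
  refine ⟨?_, ?_, ?_, ?_⟩
  · change len D (D ⧸ ism (br X q) D) ≤ Cc * ρ
    rw [gw_ism_self]
    refine (ln_cl_anti (cm2_fin T le_rfl) h1).trans ((b1 c).trans ?_)
    nlinarith
  · change len D (D ⧸ ism (br X q ⊔ Ideal.span {α + α'}) D) ≤ ε * ρ
    rwa [gw_ism_self]
  · set I : Ideal D := (RingHom.ker θ).map (algebraMap N D) ⊔ Ideal.span {α'} ⊔ idl X ^ (n0 * q) with hI
    change len D ((D ⧸ I) ⧸ ism (br X q ⊔ Ideal.span {α}) (D ⧸ I)) ≤ ε * ρ
    refine le_trans (ln_len_le (cm2_fin T (h1.trans le_sup_left))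
      (colen_le_of_surj I.mkQ I.mkQ_surjective ?_)) hsm
    rw [← ln_map_ism_surj I.mkQ I.mkQ_surjective, gw_ism_self, Submodule.map_le_iff_le_comap,
      Submodule.comap_map_mkQ]
    refine sup_le (le_sup_left.trans le_sup_right) ?_
    rw [Ideal.span_singleton_le_iff_mem, add_comm α]
    exact Submodule.add_mem_sup (Ideal.mem_sup_left (Ideal.mem_sup_right (Ideal.mem_span_singleton_self _)))
      (Ideal.mem_sup_right (Ideal.mem_span_singleton_self _))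
  · change (ρ : ℝ) * E * (t : ℝ) ^ (d + 1) ≤ alen α (D ⧸ ism (br X (q * t)) D) +
      (Cc / t + ε) * ρ * (t : ℝ) ^ (d + 1)
    have ht' : (0 : ℝ) < t := by exact_mod_cast ht
    have hCc0 : 0 ≤ Cc := by linarith
    rcases le_total E 0 with hE0 | hE0
    · refine le_trans (mul_nonpos_of_nonpos_of_nonneg (mul_nonpos_of_nonneg_of_nonpos hρ hE0)
        (by positivity)) (add_nonneg len_nonneg (by positivity))
    obtain ⟨φ, hφ⟩ := exists_tq_hom θ P.surj D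
    let : Algebra R (TQ θ D) := φ.toAlgebra
    have hR : ∀ b, algebraMap R (TQ θ D) (θ b) = Ideal.Quotient.mk _ (algebraMap N D b) := hφ
    have := T.fin
    have := T.loc
    have := cm2_finite hR
    have h2 := low_mult (dim_le_of_sop (cm2_sop P)) (cm2_sop P) (TQ θ D) hE ht
    have h3 : (ρ : ℝ) ≤ Module.finrank R (TQ θ D) := by exact_mod_cast T.rank_tq P hq hR
    have h4 : maximalIdeal N ^ (c * ((d + 1) * t + 1)) ≤ br x t := by
      rw [pow_mul]
      exact (Ideal.pow_right_mono hc _).trans ((Ideal.pow_le_pow_right (Nat.le_succ _)).trans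
        (idl_pow_le_br (Nat.succ_pos d) x t))
    have h5 : (maximalIdeal N ^ (c * ((d + 1) * t + 1))).map (algebraMap N D) ≤ br X (q * t) := by
      rw [← cm2_br T]
      exact Ideal.map_mono h4
    have hU : colen D (br X (q * t)) ≠ ⊤ := cm2_fin T h5
    set V : Ideal D := br X (q * t) ⊔ (RingHom.ker θ).map (algebraMap N D) with hV
    have h6 : len R (TQ θ D ⧸ ism (br (fun i => θ (x i)) t) (TQ θ D)) ≤ len D (D ⧸ V) := by
      refine cm2_len T.res P.surj hR (ln_fin_anti hU le_sup_left) fun b hb => ?_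
      rw [hV, ← cm2_br T, ← Ideal.map_sup] at hb
      refine cm2_mem hR ?_ hb
      rw [Ideal.map_sup, (Ideal.map_eq_bot_iff_le_ker θ).2 le_rfl, sup_bot_eq, br, idl_map, br]
      simp only [map_pow, le_refl]
    have h7 := ln_al_anti α hU (le_sup_left : br X (q * t) ≤ V)
    have h8 : len D (D ⧸ (V ⊔ ism (Ideal.span {α}) D)) ≤
        C0 * ρ * (((c * ((d + 1) * t + 1) : ℕ) : ℝ) + 1) ^ d := by
      refine le_trans (ln_cl_anti (cm2_fin T (Ideal.map_mono le_sup_left)) ?_) (b2 _)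
      rw [Ideal.map_sup, Ideal.map_span, Set.image_singleton, gw_ism_self]
      refine sup_le (h5.trans (le_sup_left.trans le_sup_left)) ?_
      rw [Ideal.span_singleton_le_iff_mem, map_add, add_comm (algebraMap N D a), ← T.rootα]
      exact Submodule.add_mem_sup (Ideal.mem_sup_right (Ideal.mem_map_of_mem _ P.mem))
        (Ideal.pow_mem_of_mem _ (Ideal.mem_span_singleton_self _) _ hs0)
    have h9 := cm2_lin c (d + 1) t d ht
    have h10 : C0 * ρ * (((c * ((d + 1) * t + 1) : ℕ) : ℝ) + 1) ^ d ≤ Cc / t * ρ * (t : ℝ) ^ (d + 1) := by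
      calc _ ≤ C0 * ρ * (((c : ℝ) * ((d + 1 : ℕ) + 1) + 1) ^ d * (t : ℝ) ^ d) := by gcongr
        _ = C0 * ((c : ℝ) * ((d + 1 : ℕ) + 1) + 1) ^ d * (ρ * (t : ℝ) ^ d) := by ring
        _ ≤ Cc * (ρ * (t : ℝ) ^ d) := by
          gcongr
          linarith
        _ = _ := by
          field_simp
          ring
    rw [gw_ism_self, ln_alen_quot α hU]
    rw [ln_al] at h7
    have h11 : (ρ : ℝ) * E * (t : ℝ) ^ (d + 1) ≤ Module.finrank R (TQ θ D) * E * (t : ℝ) ^ (d + 1) := by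
      gcongr
    have h12 : 0 ≤ ε * ρ * (t : ℝ) ^ (d + 1) := by positivity
    rw [add_mul, add_mul]
    linarith

/-- The upper bound for `Q = D / 𝔭 D`.  With `k = T / t`: `k^(d+1) zl Q t ≤ zl Q T + O(r ρ k^(d+1) t^d)`
(`zl_mul_le`, `zl_mono`, `areg_tq`, `bounds` (ii)); `zl Q T ≤ ρ zl R T + r C_D (T+1)^d` (`zl_le_of_range`, `gen`,
`small_colen` for `p`); `zl Q T ≤ C r ρ T^(d+1)` (`colen_sup_le`, `bounds` (i)); `T ≤ t (k + 1)`. -/
theorem tq_zl_le (P : MixPres p A N R X' x θ a a' w) (N0 : ℕ) :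
    ∃ C : ℝ, 0 ≤ C ∧ ∀ {K s Nn q ρ : ℕ} {D : Type} [CommRing D] [IsLocalRing D] [Algebra N D]
      {X : Fin (d + 1) → D} {α α' : D}, TLevel p x (RingHom.ker θ) a a' K s Nn q ρ D X α α' → 0 < q →
      ∀ [Algebra R (TQ θ D)], (∀ b, algebraMap R (TQ θ D) (θ b) = Ideal.Quotient.mk _ (algebraMap N D b)) →
      ∀ (ε : ℝ) (t : ℕ), 0 < ε → 0 < t → ∃ T0 : ℕ, ∀ T ≥ T0, ∃ M0 : ℕ, ∀ M ≥ M0,
        ∀ (r : ℕ) (S : Sys R (maximalIdeal R) M (d + 1) N0 r),
          S.zl (TQ θ D) t * (T : ℝ) ^ (d + 1) ≤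
            (ρ * S.zl R T + r * (C / t + ε) * ρ * (T : ℝ) ^ (d + 1)) * (t : ℝ) ^ (d + 1) := by
  obtain ⟨C0, N1, hC0, hb⟩ := P.bounds
  refine ⟨((d + 1 : ℕ) : ℝ) * (((d + 1 : ℕ) : ℝ) * (C0 * ((N0 : ℝ) * ((d + 1 : ℕ) + 1) + 1) ^ d)),
    by positivity, ?_⟩
  intro K s Nn q ρ D _ _ _ X α α' T hq _ hR ε t hε ht
  obtain ⟨-, b2, -⟩ := hb T hq
  have := T.fin
  have := T.loc
  have := cm2_finite hR
  obtain ⟨c, ι, hι⟩ := T.gen
  obtain ⟨ι', hι'⟩ := cm2_range hR ι hι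
  rw [map_pow, map_natCast] at hι'
  obtain ⟨C2, hC2, h2⟩ := small_colen (dim_quot_le_of_domain (dim_le_of_sop (cm2_sop P)) (cm2_p_ne P)) c
    (TQ θ D)
  set L : ℝ := len R (TQ θ D ⧸ ism (maximalIdeal R ^ (N0 * ((d + 1) * t + 1))) (TQ θ D)) with hL
  set C3 : ℝ := C2 * ((N0 : ℝ) * ((d + 1 : ℕ) + 1) + 1) ^ d with hC3
  refine ⟨t + ⌈(C3 + (d + 1) * L) / ε⌉₊, fun T' hT' => ?_⟩
  have hk : 0 < T' / t := Nat.div_pos (by omega) ht
  obtain ⟨M0, hM0⟩ := zl_mul_le (cm2_sop P) N0 t (T' / t) hk (T.areg_tq P hq hR)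
  refine ⟨M0, fun M hM r S => ?_⟩
  have hr : (0 : ℝ) ≤ r := Nat.cast_nonneg r
  have hρ : (1 : ℝ) ≤ ρ := by exact_mod_cast T.pos
  have hfm := sd_fin_max (R := R) (TQ θ D)
  have e1 : len R (TQ θ D ⧸ ism (maximalIdeal R ^ (N0 * ((d + 1) * t + 1)) ⊔ Ideal.span {θ a}) (TQ θ D)) ≤
      C0 * ρ * (((N0 * ((d + 1) * t + 1) : ℕ) : ℝ) + 1) ^ d := by
    refine le_trans (cm2_len T.res P.surj hR (cm2_fin T (Ideal.map_mono le_sup_left)) fun b hb => ?_) (b2 _)
    refine cm2_mem hR ?_ hb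
    rw [Ideal.map_sup, Ideal.map_pow, cm2_max P, Ideal.map_span, Set.image_singleton, map_add,
      (RingHom.mem_ker).1 P.mem, add_zero]
  have e2 : len R (TQ θ D ⧸ ism (maximalIdeal R ^ (N0 * ((d + 1) * t + 1)) ⊔ Ideal.span {θ a ^ (d + 1)})
      (TQ θ D)) ≤ ((d + 1 : ℕ) : ℝ) *
      len R (TQ θ D ⧸ ism (maximalIdeal R ^ (N0 * ((d + 1) * t + 1)) ⊔ Ideal.span {θ a}) (TQ θ D)) := by
    rw [ln_ism_sup, ln_ism_sup]
    exact sd_real_mul (ln_fin_anti (hfm _) le_sup_left) (colen_span_pow_le _ _ _)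
  have e3 := cm2_lin N0 (d + 1) t d ht
  have hT0 : 0 < T' := by omega
  have e4 := cm2_lin N0 (d + 1) T' d hT0
  refine cm2_num (k := ((T' / t : ℕ) : ℝ)) (zk := S.zl (TQ θ D) (t * (T' / t))) (Z := S.zl (TQ θ D) T')
    (C2 := C3) (L := L) (by exact_mod_cast ht) (Nat.cast_nonneg _)
    (by exact_mod_cast Nat.mul_div_le T' t) ?_ hr hρ (by positivity) hε.le (S.zl_nonneg _) len_nonneg
    ((hM0 M hM r S).trans ?_) (S.zl_mono (Nat.mul_div_le T' t)) ((S.zl_le_of_range ι' T').trans ?_) ?_ ?_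
  · have h3 : T' ≤ t + t * (T' / t) := by
      have := Nat.div_add_mod T' t
      have := Nat.mod_lt T' ht
      omega
    have h4 : (T' : ℝ) ≤ t + t * ((T' / t : ℕ) : ℝ) := by exact_mod_cast h3
    linarith
  · refine add_le_add le_rfl ?_
    calc _ ≤ ((d + 1 : ℕ) : ℝ) * ((T' / t : ℕ) : ℝ) ^ (d + 1) * r * (((d + 1 : ℕ) : ℝ) *
          (C0 * ρ * (((N0 : ℝ) * ((d + 1 : ℕ) + 1) + 1) ^ d * (t : ℝ) ^ d))) := by
          gcongr
          refine e2.trans ?_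
          gcongr
          refine e1.trans ?_
          gcongr
      _ = _ := by ring
  · refine add_le_add le_rfl (mul_le_mul_of_nonneg_left ?_ hr)
    refine le_trans (ln_cl_anti (ln_fin_anti (hfm _) (ln_ism_mono le_sup_left)) ?_) ((h2 (N0 * ((d + 1) * T' + 1))).trans ?_)
    · rw [ln_ism_sup]
      exact sup_le_sup_left hι' _
    · rw [hC3, mul_assoc]
      gcongr
  · have h3 := S.colen_sup_le (Q := TQ θ D) ⊥ t
    rw [sup_bot_eq, show ism (⊥ : Ideal R) (Fin r → TQ θ D) = ⊥ from Submodule.bot_smul _, sup_bot_eq] at h3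
    exact h3
  · have h3 : (C3 + (d + 1) * L) / ε ≤ T' :=
      (Nat.le_ceil _).trans (Nat.cast_le.2 (le_trans (Nat.le_add_left _ t) hT'))
    rw [div_le_iff₀ hε] at h3
    linarith

/-- `t = max t0 1`, a level with `s ≥ s0`, `Nn = max N1 (2 nf t)`, `q ≥ max q0 (2 K + 1)`, `M ≥ 2 nf t`;
`φ` is induced by `N → D → B`; `Sys.len_zsub_le` with `B' = TQ θ D`. -/
theorem cp_of_mixPres (P : MixPres p A N R X' x θ a a' w) {E : ℝ} (hE : LeMult (hs R) (d + 1) E) :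
    CP R (d + 1) (fun i => θ (x i)) E := by
  intro N0
  obtain ⟨K, hK⟩ := P.tower
  obtain ⟨C1, hC1, h1⟩ := tlCov_est P hE
  obtain ⟨C2, hC2, h2⟩ := tq_zl_le P N0
  refine ⟨K, C1 + C2, by positivity, fun nf t0 q0 ε hε => ?_⟩
  obtain ⟨s0, N1, h3⟩ := h1 (C1 + C2) (le_add_of_nonneg_right hC2) ε (t0 + 1) hε (Nat.succ_pos _)
  obtain ⟨s, q, ρ, D, _, _, _, X, α, α', hs, hq, T⟩ := hK s0 (N1 + 2 * nf (t0 + 1)) (q0 + (2 * K + 1))
  have hq0 : 0 < q := by omega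
  have hKq : 2 * K ≤ q := by omega
  obtain ⟨φ, hφ⟩ := exists_tq_hom θ P.surj D
  let : Algebra R (TQ θ D) := φ.toAlgebra
  have hR : ∀ b, algebraMap R (TQ θ D) (θ b) = Ideal.Quotient.mk _ (algebraMap N D b) := hφ
  obtain ⟨T0, hT0⟩ := h2 T hq0 hR ε (t0 + 1) hε (Nat.succ_pos _)
  refine ⟨T0, fun T' hT' => ?_⟩
  obtain ⟨M0, hM0⟩ := hT0 T' hT'
  refine ⟨t0 + 1, Nat.le_succ _, M0 + 2 * nf (t0 + 1), fun M hM r S F => ?_⟩
  set I : Ideal D := (RingHom.ker θ).map (algebraMap N D) ⊔ Ideal.span {α'} ⊔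
    idl X ^ (nf (t0 + 1) * q) with hI
  let g : TQ θ D →+* D ⧸ I := Ideal.Quotient.factor (le_sup_left.trans le_sup_left)
  have hg : ∀ b, g (algebraMap R (TQ θ D) (θ b)) = Ideal.Quotient.mk I (algebraMap N D b) := fun b => by
    rw [hR]; rfl
  have hker : ∀ e ∈ maximalIdeal R ^ M, g.comp (algebraMap R (TQ θ D)) e = 0 := fun e he => by
    rw [← cm2_max P, ← Ideal.map_pow] at he
    obtain ⟨b, hb, rfl⟩ := (Ideal.mem_map_iff_of_surjective θ P.surj).1 he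
    rw [RingHom.comp_apply, hg, Ideal.Quotient.eq_zero_iff_mem]
    exact Ideal.mem_sup_right (cm2_contr T hKq (by omega) (Ideal.mem_map_of_mem _ hb))
  let ψ : R ⧸ maximalIdeal R ^ M →+* D ⧸ I := Ideal.Quotient.lift _ _ hker
  refine ⟨tlCov (RingHom.ker θ) D X α α' (nf (t0 + 1)) q ρ, PHom.ofHom ψ,
    tlCov_basic P T hq0 hKq (by omega), (by change q0 ≤ q; omega), h3 T hq0 hs (by omega) _,
    ⟨fun _ _ => trivial, fun _ => trivial, fun i => ?_, fun e he _ => ?_⟩, ?_⟩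
  · change g (algebraMap R (TQ θ D) (θ (x i))) = Ideal.Quotient.mk I (X i ^ q)
    rw [hg, T.root]
  · rw [← cm2_max P] at he
    obtain ⟨b, hb, rfl⟩ := (Ideal.mem_map_iff_of_surjective θ P.surj).1 he
    change g (algebraMap R (TQ θ D) (θ b)) ∈ ism (idl X ^ (q - K)) (D ⧸ I)
    rw [hg]
    exact ln_mem_ism I.mkQ (rg2_mem_self.2 (T.contr (Ideal.mem_map_of_mem _ hb)))
  · have := T.fin
    have := T.loc
    have := cm2_finite hR
    have hne : (RingHom.ker θ).map (algebraMap N D) ≤ maximalIdeal D :=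
      Ideal.map_le_iff_le_comap.2 fun b hb =>
        map_nonunit (algebraMap N D) b (le_maximalIdeal (RingHom.ker_ne_top θ) hb)
    have : Nontrivial (TQ θ D) := Ideal.Quotient.nontrivial_iff.2 fun h =>
      (maximalIdeal.isMaximal D).ne_top (top_le_iff.1 (h ▸ hne))
    have : IsLocalRing (TQ θ D) := IsLocalRing.of_surjective' (Ideal.Quotient.mk _) Ideal.Quotient.mk_surjective
    have hl : IsLocalHom (algebraMap D (TQ θ D)) :=
      IsLocalHom.of_surjective (Ideal.Quotient.mk _) Ideal.Quotient.mk_surjective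
    have : IsLocalHom (algebraMap R (TQ θ D)) := ⟨fun e he => by
      obtain ⟨b, rfl⟩ := P.surj e
      rw [hR] at he
      exact ((isUnit_of_map_unit (algebraMap N D) b (hl.map_nonunit _ he))).map θ⟩
    have hres : SameRes (algebraMap D (TQ θ D)) := fun b => by
      obtain ⟨b, rfl⟩ := Ideal.Quotient.mk_surjective b
      exact ⟨b, by rw [Ideal.Quotient.algebraMap_eq, sub_self]; exact Ideal.zero_mem _⟩
    have hres' : SameRes (algebraMap R (TQ θ D)) := fun b => by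
      obtain ⟨b, rfl⟩ := Ideal.Quotient.mk_surjective b
      obtain ⟨n, hn⟩ := T.res b
      refine ⟨θ n, ?_⟩
      rw [hR, ← map_sub]
      exact map_nonunit (algebraMap D (TQ θ D)) _ hn
    have h4 := S.len_zsub_le (Λ := D) (B' := TQ θ D) hres hres' g
      (Ideal.Quotient.factor_surjective _) (fun _ => rfl) ψ (fun _ => rfl) (t0 + 1)
    have h5 := hM0 M (by omega) r S
    have h6 : C2 / ((t0 + 1 : ℕ) : ℝ) ≤ (C1 + C2) / ((t0 + 1 : ℕ) : ℝ) := by
      gcongr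
      linarith
    change len D ((Fin r → D ⧸ I) ⧸ zsub D (S.Zφ (PHom.ofHom ψ)) (t0 + 1)) * (T' : ℝ) ^ (d + 1) ≤
      ((ρ : ℝ) * S.zl R T' + r * ((C1 + C2) / ((t0 + 1 : ℕ) : ℝ) + ε) * (ρ : ℝ) * (T' : ℝ) ^ (d + 1)) *
        ((t0 + 1 : ℕ) : ℝ) ^ (d + 1)
    refine (mul_le_mul_of_nonneg_right h4 (by positivity)).trans (h5.trans ?_)
    gcongr

theorem cp_mixed (D : Type) [CommRing D] [IsDomain D] [IsNoetherianRing D] [IsLocalRing D]
    [IsAdicComplete (maximalIdeal D) D] [PerfectField (ResidueField D)] [Infinite (ResidueField D)] (p : ℕ)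
    [Fact p.Prime] [CharP (ResidueField D) p] (hp : (p : D) ≠ 0) {d : ℕ} (h : ringKrullDim D ≤ (d + 1 : ℕ))
    (h' : ¬ ringKrullDim D ≤ d) {E : ℝ} (hE : LeMult (hs D) (d + 1) E) :
    ∃ x : Fin (d + 1) → D, (∀ i, x i ∈ maximalIdeal D) ∧ CP D (d + 1) x E := by
  obtain ⟨A, N, _, _, _, _, _, X', xN, θ, a, a', w, P⟩ := mixPres_of_complete D p hp h h'
  exact ⟨fun i => θ (xN i), (cm2_sop P).1, cp_of_mixPres P hE⟩

end Crest.Agent.R183
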