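import Crest.Agent.R183.Tot
import Crest.Agent.R183.Cohen

/-!
# rid 183, file `CovP`: the cover property in characteristic `p`

Prefix helper lemmas with `cvp_`.
-/

set_option autoImplicit false

open IsLocalRing

namespace Crest.Agent.R183

/-- The cover attached to a finite algebra `D` over a regular base: `N = Λ^ρ0`, `B = D / (X)^(n0 q) D`, `α = γ`,
`α' = 0`, `ρ = q^d`. -/
noncomputable def sandCov {Λ : Type} [CommRing Λ] {d : ℕ} (X : Fin d → Λ) (D : Type) [CommRing D] [Algebra Λ D]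
    (γ : Λ) (ρ0 n0 q : ℕ) : Cov d where
  Λ := Λ
  B := D ⧸ (idl X ^ (n0 * q)).map (algebraMap Λ D)
  N := Fin ρ0 → Λ
  X := X
  q := q
  α := γ
  α' := 0
  ρ := (q : ℝ) ^ d

/-- The quotient by an extended ideal as a quotient of modules. -/
noncomputable def cvp_e {Λ : Type} [CommRing Λ] (D : Type) [CommRing D] [Algebra Λ D] (J : Ideal Λ) :
    (D ⧸ ism J D) ≃ₗ[Λ] D ⧸ J.map (algebraMap Λ D) :=
  (Submodule.quotEquivOfEq _ _ (Ideal.smul_top_eq_map J)).trans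
    (Submodule.Quotient.restrictScalarsEquiv Λ (J.map (algebraMap Λ D)))

theorem cvp_sand {Λ : Type} [CommRing Λ] {D : Type} [CommRing D] [Algebra Λ D] {γ : Λ} {ρ0 : ℕ}
    (h : Sand γ D ρ0) (J : Ideal Λ) :
    ∃ (β : (D ⧸ J.map (algebraMap Λ D)) →ₗ[Λ] (Fin ρ0 → Λ) ⧸ ism J (Fin ρ0 → Λ))
      (ι : ((Fin ρ0 → Λ) ⧸ ism J (Fin ρ0 → Λ)) →ₗ[Λ] D ⧸ J.map (algebraMap Λ D)),
      (∀ b, ι (β b) = γ • b) ∧ ∀ v, β (ι v) = γ • v := by
  obtain ⟨β, ι, h1, h2⟩ := h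
  refine ⟨(Submodule.mapQ _ _ β fun w hw => ln_mem_ism β hw) ∘ₗ (cvp_e D J).symm.toLinearMap,
    (cvp_e D J).toLinearMap ∘ₗ Submodule.mapQ _ _ ι fun w hw => ln_mem_ism ι hw, fun b => ?_,
    fun v => ?_⟩
  · obtain ⟨b, rfl⟩ := (cvp_e D J).surjective b
    obtain ⟨b, rfl⟩ := Submodule.Quotient.mk_surjective _ b
    simp only [LinearMap.comp_apply, LinearEquiv.coe_coe, LinearEquiv.symm_apply_apply,
      Submodule.mapQ_apply, h1, Submodule.Quotient.mk_smul, map_smul]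
  · obtain ⟨v, rfl⟩ := Submodule.Quotient.mk_surjective _ v
    simp only [LinearMap.comp_apply, LinearEquiv.coe_coe, LinearEquiv.symm_apply_apply,
      Submodule.mapQ_apply, h2, Submodule.Quotient.mk_smul]

theorem sandCov_basic {Λ : Type} [CommRing Λ] {d : ℕ} {X : Fin d → Λ} (hX : RBase Λ X) {D : Type} [CommRing D]
    [Algebra Λ D] [Module.Finite Λ D] {γ : Λ} {ρ0 : ℕ} (h : Sand γ D ρ0) (n0 : ℕ) {q : ℕ} (hq : 0 < q) :
    (sandCov X D γ ρ0 n0 q).Basic n0 := by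
  refine ⟨hX.reg.pi (Fin ρ0), hX.isFiniteLength (W := Fin ρ0 → Λ) (k := 1) (by rw [pow_one]; exact le_rfl),
    (cvp_e D (idl X ^ (n0 * q))).isFiniteLength (hX.isFiniteLength le_rfl), cvp_sand h _, fun v => ?_, ?_⟩
  · have : ∀ w : Fin ρ0 → Λ, (γ * 0) • w ∈ ism (idl X ^ (n0 * q)) (Fin ρ0 → Λ) := fun w => by
      rw [mul_zero, zero_smul]
      exact Submodule.zero_mem _
    exact this v
  · change (0 : ℝ) < (q : ℝ) ^ d
    positivity

theorem cvp_len_br {Λ : Type} [CommRing Λ] {d : ℕ} {X : Fin d → Λ} (hX : RBase Λ X) (ρ t : ℕ) :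
    len Λ ((Fin ρ → Λ) ⧸ ism (br X t) (Fin ρ → Λ)) = ρ * (t : ℝ) ^ d := by
  have := sd_colen_fin ρ (br X t)
  rw [hX.sd_colen_br, ← Nat.cast_mul, colen] at this
  rw [len, this, ENat.toNat_natCast]
  push_cast; rfl

theorem cvp_small {C ε : ℝ} (hε : 0 < ε) {d q : ℕ} (hd : 0 < d) (h : ⌈C / ε⌉₊ ≤ q) :
    C * (q : ℝ) ^ (d - 1) ≤ ε * (q : ℝ) ^ d := by
  obtain ⟨d, rfl⟩ := Nat.exists_eq_add_one_of_ne_zero hd.ne'
  have h1 : C ≤ q * ε := (div_le_iff₀ hε).1 (Nat.ceil_le.1 h)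
  rw [Nat.add_sub_cancel, pow_succ]
  calc C * (q : ℝ) ^ d ≤ q * ε * (q : ℝ) ^ d := by gcongr
    _ = _ := by ring

/-- `Reg.colen_br`, `RBase.small_br`, `alen_add`. -/
theorem sandCov_est {Λ : Type} [CommRing Λ] {d : ℕ} {X : Fin d → Λ} (hX : RBase Λ X) {D : Type} [CommRing D]
    [Algebra Λ D] [Module.Finite Λ D] {γ : Λ} (hγ : γ ≠ 0) {ρ0 : ℕ} {E Cc : ℝ} (hE : E ≤ ρ0) (hC : (ρ0 : ℝ) ≤ Cc)
    {ε : ℝ} (hε : 0 < ε) : ∃ q1 : ℕ, ∀ q ≥ q1, ∀ n0 t : ℕ, 0 < t → (sandCov X D γ ρ0 n0 q).Est E Cc ε t := by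
  obtain ⟨C1, -, h1⟩ := hX.small_br (W := Fin ρ0 → Λ) hγ
  obtain ⟨C2, -, h2⟩ := hX.small_br (W := D) hγ
  refine ⟨⌈C1 / ε⌉₊ + ⌈C2 / ε⌉₊ + 1, fun q hq n0 t ht => ⟨?_, ?_, ?_, ?_⟩⟩
  · change len Λ ((Fin ρ0 → Λ) ⧸ ism (br X q) (Fin ρ0 → Λ)) ≤ Cc * (q : ℝ) ^ d
    rw [cvp_len_br hX]
    gcongr
  · change len Λ ((Fin ρ0 → Λ) ⧸ ism (br X q ⊔ Ideal.span {γ + 0}) (Fin ρ0 → Λ)) ≤ ε * (q : ℝ) ^ d
    rw [add_zero]
    exact (h1 q (by omega)).trans (cvp_small hε hX.pos (by omega))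
  · change len Λ ((D ⧸ (idl X ^ (n0 * q)).map (algebraMap Λ D)) ⧸ ism (br X q ⊔ Ideal.span {γ})
      (D ⧸ (idl X ^ (n0 * q)).map (algebraMap Λ D))) ≤ ε * (q : ℝ) ^ d
    refine le_trans ?_ ((h2 q (by omega)).trans (cvp_small hε hX.pos (by omega)))
    exact ln_len_le (sd_fin_of_fin (ln_fin_anti (hX.sd_fin_br q) le_sup_left))
      (colen_le_of_surj (Ideal.Quotient.mkₐ Λ _).toLinearMap (Ideal.Quotient.mkₐ_surjective Λ _)
        (ln_map_ism _ _))
  · change (q : ℝ) ^ d * E * (t : ℝ) ^ d ≤ alen γ ((Fin ρ0 → Λ) ⧸ ism (br X (q * t)) (Fin ρ0 → Λ)) +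
      (Cc / t + ε) * (q : ℝ) ^ d * (t : ℝ) ^ d
    have hqt : q ≤ q * t := Nat.le_mul_of_pos_right q ht
    have h3 := (h1 (q * t) (by omega)).trans (cvp_small hε hX.pos (by omega))
    rw [ln_alen_quot γ (sd_fin_of_fin (hX.sd_fin_br _)), ln_al, cvp_len_br hX, ← ln_ism_sup]
    push_cast at h3 ⊢
    rw [mul_pow] at h3 ⊢
    have h4 : 0 ≤ (q : ℝ) ^ d * (t : ℝ) ^ d := by positivity
    have h5 : 0 ≤ Cc / t := div_nonneg ((Nat.cast_nonneg _).trans hC) (Nat.cast_nonneg _)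
    nlinarith [mul_le_mul_of_nonneg_right hE h4, mul_nonneg h5 h4]

/-- Take a reduction `x` (`exists_red`), a coefficient field (`cohenP`), `Φ` (`exists_base_eq`, injective by
`dim_le_of_not_injective`), a sandwich `γ`, `E ≤ ρ0` (`leMult_le_finrank`), `T = t`, `q = p^e` large,
`M0 = K + n0`, `φ a = a^q`.  The upper bound is `Sys.len_zsub_le` with `B' = FrobT D p e` (give it the `Λ`-algebra
structure `(FrobT.mk D p e) ∘ Φ` locally) and `frob_zl_le`. -/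
theorem cp_charP (D : Type) [CommRing D] [IsDomain D] [IsNoetherianRing D] [IsLocalRing D]
    [IsAdicComplete (maximalIdeal D) D] [PerfectField (ResidueField D)] [Infinite (ResidueField D)] (p : ℕ)
    [Fact p.Prime] [CharP D p] {d : ℕ} (h : ringKrullDim D ≤ (d + 1 : ℕ)) (h' : ¬ ringKrullDim D ≤ d) {E : ℝ}
    (hE : LeMult (hs D) (d + 1) E) :
    ∃ x : Fin (d + 1) → D, (∀ i, x i ∈ maximalIdeal D) ∧ CP D (d + 1) x E := by
  have hp : p.Prime := Fact.out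
  have : CharP (ResidueField D) p := (CharP.charP_iff_prime_eq_zero hp).2 (by
    rw [← map_natCast (residue D), CharP.cast_eq_zero, map_zero])
  have : PerfectRing (ResidueField D) p := PerfectField.toPerfectRing p
  obtain ⟨x, K, hx⟩ := exists_red h
  obtain ⟨s, hs⟩ := cohenP D p
  obtain ⟨Φ, -, hX, hfin, hloc, hres⟩ := exists_base_eq s (ch_sameRes_of_section hs) hx.sop
  have hb := rbase_ps_field (ResidueField D) (Nat.succ_pos d)
  have hdom := hb.dom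
  have hinj : Function.Injective Φ := by
    by_contra hn
    refine h' (dim_le_of_not_injective Φ hfin
      (dim_le_of_sop (ch_sop_of_eq (x := MvPowerSeries.X) ?_)) hn)
    rw [ps_maximal, IsLocalRing.maximalIdeal_eq_bot, Ideal.map_bot, bot_sup_eq]
  have hfz := frob_zl_le p h Φ hfin hinj
  generalize (MvPowerSeries.X : Fin (d + 1) → MvPowerSeries (Fin (d + 1)) (ResidueField D)) = X at hX hb
  let := Φ.toAlgebra
  have : Module.Finite (MvPowerSeries (Fin (d + 1)) (ResidueField D)) D := hfin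
  obtain ⟨γ, hγ, hsand⟩ := exists_sand (Λ := MvPowerSeries (Fin (d + 1)) (ResidueField D)) (W := D)
  have hEρ := leMult_le_finrank hb (fun i => by
    change Φ (X i) ∈ _
    rw [hX]; exact hx.1 i) hE
  generalize Module.finrank (MvPowerSeries (Fin (d + 1)) (ResidueField D)) D = ρ0 at hsand hEρ
  have hidl : ∀ n, (idl X ^ n).map (algebraMap _ D) = idl x ^ n := fun n => by
    rw [Ideal.map_pow, idl_map]
    exact congrArg (fun y => idl y ^ n) (funext hX)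
  have hred : ∀ n, maximalIdeal D ^ n ≤ idl x ^ (n - K) := fun n => by
    rcases le_total n K with hn | hn
    · rw [Nat.sub_eq_zero_of_le hn, pow_zero, Ideal.one_eq_top]; exact le_top
    · obtain ⟨n, rfl⟩ := Nat.exists_eq_add_of_le hn
      rw [hx.pow, Nat.add_sub_cancel_left]
      exact Ideal.mul_le_left
  refine ⟨x, hx.1, fun N0 => ?_⟩
  obtain ⟨C, hC0, hC⟩ := hfz N0
  refine ⟨K, ρ0 + C, by positivity, fun nf t0 q0 ε hε => ?_⟩
  obtain ⟨q1, hq1⟩ := sandCov_est hb (D := D) hγ hEρ (le_add_of_nonneg_right hC0) hε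
  refine ⟨t0 + 1, fun t ht => ⟨t, by omega, K + nf t, fun M hM r S F => ?_⟩⟩
  have ht0 : 0 < t := by omega
  obtain ⟨e, he0, he1⟩ : ∃ e, q0 ≤ p ^ e ∧ q1 ≤ p ^ e := by
    have hlt : q0 + q1 < p ^ (q0 + q1) := Nat.lt_pow_self hp.one_lt
    exact ⟨q0 + q1, by omega, by omega⟩
  have hq : 0 < p ^ e := pow_pos hp.pos e
  let I : Ideal D := (idl X ^ (nf t * p ^ e)).map (algebraMap _ D)
  let g : FrobT D p e →+* D ⧸ I := (Ideal.Quotient.mk I).comp (FrobT.mk D p e).symm.toRingHom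
  have hker : ∀ a ∈ maximalIdeal D ^ M, g.comp (algebraMap D (FrobT D p e)) a = 0 := fun a ha => by
    change Ideal.Quotient.mk I (a ^ p ^ e) = 0
    rw [Ideal.Quotient.eq_zero_iff_mem]
    change _ ∈ (idl X ^ (nf t * p ^ e)).map (algebraMap _ D)
    rw [hidl, pow_mul]
    exact Ideal.pow_mem_pow (Ideal.pow_le_pow_right (by omega) (hred M ha)) _
  let φ : D ⧸ maximalIdeal D ^ M →+* D ⧸ I := Ideal.Quotient.lift _ _ hker
  refine ⟨sandCov X D γ ρ0 (nf t) (p ^ e), PHom.ofHom φ, sandCov_basic hb hsand _ hq, he0,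
    hq1 _ he1 _ _ ht0, ⟨fun _ _ => trivial, fun _ => trivial, fun i => ?_, fun a ha _ => ?_⟩, ?_⟩
  · change Ideal.Quotient.mk I (x i ^ p ^ e) = Ideal.Quotient.mk I (Φ (X i ^ p ^ e))
    rw [map_pow Φ, hX]
  · have h1 : a ^ p ^ e ∈ ism (idl X ^ (p ^ e - K)) D := by
      rw [ism, Ideal.smul_top_eq_map, Submodule.restrictScalars_mem, hidl]
      exact hred _ (Ideal.pow_mem_pow ha _)
    exact ln_mem_ism (Ideal.Quotient.mkₐ (MvPowerSeries (Fin (d + 1)) (ResidueField D)) I).toLinearMap h1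
  · let : Algebra (MvPowerSeries (Fin (d + 1)) (ResidueField D)) (FrobT D p e) :=
      ((FrobT.mk D p e).toRingHom.comp Φ).toAlgebra
    have : IsLocalHom (algebraMap (MvPowerSeries (Fin (d + 1)) (ResidueField D)) (FrobT D p e)) :=
      ⟨fun a ha => hloc.map_nonunit a ha⟩
    have := frob_local D p e
    have := frob_finite D p e
    have h1 := S.len_zsub_le (Λ := MvPowerSeries (Fin (d + 1)) (ResidueField D)) (B' := FrobT D p e)
      hres (frob_sameRes D p e) g (Ideal.Quotient.mk_surjective (I := I)) (fun _ => rfl) φ (fun _ => rfl) t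
    have h2 := h1.trans (hC e t M r S ht0)
    have h3 : C / t ≤ (ρ0 + C) / t + ε := by
      rw [add_div]
      have : (0 : ℝ) ≤ ρ0 / t := by positivity
      linarith
    change len (MvPowerSeries (Fin (d + 1)) (ResidueField D)) ((Fin r → D ⧸ I) ⧸
      zsub (MvPowerSeries (Fin (d + 1)) (ResidueField D)) (S.Zφ (PHom.ofHom φ)) t) * (t : ℝ) ^ (d + 1) ≤
      (((p ^ e : ℕ) : ℝ) ^ (d + 1) * S.zl D t +
        r * ((ρ0 + C) / t + ε) * ((p ^ e : ℕ) : ℝ) ^ (d + 1) * (t : ℝ) ^ (d + 1)) * (t : ℝ) ^ (d + 1)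
    refine mul_le_mul_of_nonneg_right (h2.trans ?_) (by positivity)
    push_cast
    gcongr

end Crest.Agent.R183
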