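import Crest.Agent.R183.E1
import Crest.Agent.R183.Grow
import Crest.Agent.R183.PH

/-!
# rid 183, file `SysL`: lengths attached to a truncated system

Prefix helper lemmas with `sl_`.
-/

set_option autoImplicit false
set_option linter.unusedSectionVars false

open IsLocalRing

namespace Crest.Agent.R183

section act

variable {R : Type} [CommRing R] {r : ℕ} (Q : Type) [AddCommGroup Q] [Module R Q]

theorem sl_apply (A : Matrix (Fin r) (Fin r) R) (w : Fin r → Q) (i : Fin r) :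
    act A Q w i = ∑ j, A i j • w j := rfl

theorem act_mul (A B : Matrix (Fin r) (Fin r) R) : act (A * B) Q = act A Q * act B Q := by
  refine LinearMap.ext fun w => funext fun i => ?_
  simp only [Module.End.mul_apply, sl_apply, Matrix.mul_apply, Finset.sum_smul, Finset.smul_sum,
    mul_smul]
  exact Finset.sum_comm

theorem sl_one : act (1 : Matrix (Fin r) (Fin r) R) Q = 1 :=
  LinearMap.ext fun w => funext fun i => by simp [sl_apply, Matrix.one_apply]

theorem act_pow (A : Matrix (Fin r) (Fin r) R) (n : ℕ) : act (A ^ n) Q = act A Q ^ n := by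
  induction n with
  | zero => rw [pow_zero, pow_zero, sl_one]
  | succ n ih => rw [pow_succ, pow_succ, act_mul, ih]

theorem act_smul_one (c : R) : act (c • (1 : Matrix (Fin r) (Fin r) R)) Q = c • (1 : Module.End R (Fin r → Q)) := by
  exact LinearMap.ext fun w => funext fun i => by simp [sl_apply, Matrix.one_apply]

theorem act_sum {σ : Type} (s : Finset σ) (A : σ → Matrix (Fin r) (Fin r) R) :
    act (∑ l ∈ s, A l) Q = ∑ l ∈ s, act (A l) Q := by
  refine LinearMap.ext fun w => funext fun i => ?_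
  simp only [sl_apply, LinearMap.sum_apply, Finset.sum_apply, Matrix.sum_apply, Finset.sum_smul]
  exact Finset.sum_comm

theorem act_congr {J : Ideal R} (hJ : ism J Q = ⊥) {A B : Matrix (Fin r) (Fin r) R} (h : ∀ i j, (A - B) i j ∈ J) :
    act A Q = act B Q := by
  refine LinearMap.ext fun w => funext fun i => ?_
  rw [sl_apply, sl_apply]
  refine Finset.sum_congr rfl fun j _ => ?_
  have h1 : (A - B) i j • w j ∈ ism J Q := Submodule.smul_mem_smul (h i j) trivial
  rwa [hJ, Submodule.mem_bot, Matrix.sub_apply, sub_smul, sub_eq_zero] at h1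

variable {Q} {Q' : Type} [AddCommGroup Q'] [Module R Q']

theorem sl_comm (A : Matrix (Fin r) (Fin r) R) (f : Q →ₗ[R] Q') :
    f.compLeft (Fin r) ∘ₗ act A Q = act A Q' ∘ₗ f.compLeft (Fin r) :=
  LinearMap.ext fun w => funext fun i => by simp [sl_apply]

theorem sl_comap {U : Submodule R Q'} (f : Q →ₗ[R] Q') (hf : Function.Surjective f) :
    colen R (U.comap f) = colen R U := by
  rw [ln_len_add f U, LinearMap.range_eq_top.2 hf, sup_top_eq, ln_colen_top, add_zero]

theorem sl_ker (V : Submodule R Q) :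
    LinearMap.ker (V.mkQ.compLeft (Fin r)) = Submodule.pi Set.univ fun _ => V := by
  ext w
  simp [funext_iff, Submodule.mem_pi]

theorem sl_len_pi (V : Submodule R Q) (r : ℕ) :
    len R ((Fin r → Q) ⧸ Submodule.pi Set.univ fun _ : Fin r => V) = r * len R (Q ⧸ V) := by
  refine (congrArg (fun x : ℕ∞ => (x.toNat : ℝ)) (ln_colen_pi V (Fin r))).trans ?_
  simp [len]

end act

section general

variable {R : Type} [CommRing R] {𝔪 : Ideal R} {M d N0 r : ℕ} (S : Sys R 𝔪 M d N0 r)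
  {Q : Type} [AddCommGroup Q] [Module R Q]

theorem Sys.commute (hQ : ism (𝔪 ^ M) Q = ⊥) {A B : Matrix (Fin r) (Fin r) R} (hA : A ∈ S.C) (hB : B ∈ S.C) :
    Commute (act A Q) (act B Q) := by
  rw [Commute, SemiconjBy, ← act_mul, ← act_mul]
  exact act_congr Q hQ (S.comm A hA B hB)

theorem Sys.inIdl (hQ : ism (𝔪 ^ M) Q = ⊥) {μ : R} (hμ : μ ∈ 𝔪 ^ N0) :
    InIdl ((fun A => act A Q) '' S.C) (fun j => act (S.Z j) Q) μ := by
  obtain ⟨H, h1, h2⟩ := S.gen μ hμ
  refine ⟨fun j => act (H j) Q, fun j => ⟨H j, h1 j, rfl⟩, ?_⟩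
  rw [← act_smul_one, act_congr Q hQ h2, act_sum]
  simp only [act_mul]

theorem sl_map_eq {Q' : Type} [AddCommGroup Q'] [Module R Q'] (f : Q →ₗ[R] Q')
    (hf : Function.Surjective f) (T : ℕ) : (S.sub Q T).map (f.compLeft (Fin r)) = S.sub Q' T := by
  have hf' : Function.Surjective (f.compLeft (Fin r)) := hf.comp_left
  rw [Sys.sub, Sys.sub, Submodule.map_sup, Submodule.map_iSup, ln_map_ism_surj _ hf']
  congr 2
  funext j
  rw [← LinearMap.range_comp, sl_comm, LinearMap.range_comp_of_range_eq_top _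
    (LinearMap.range_eq_top.2 hf')]

theorem sl_quot (V : Submodule R Q) (T : ℕ) : (S.sub (Q ⧸ V) T).comap (V.mkQ.compLeft (Fin r)) =
    S.sub Q T ⊔ Submodule.pi Set.univ fun _ => V := by
  rw [← sl_map_eq S V.mkQ V.mkQ_surjective, Submodule.comap_map_eq, sl_ker]

theorem sl_pow_le (hQ : ism (𝔪 ^ M) Q = ⊥) (T : ℕ) :
    ism (𝔪 ^ (N0 * (d * T + 1))) (Fin r → Q) ≤ S.sub Q T := by
  refine Submodule.smul_le.2 fun c hc w _ => Submodule.mem_sup_left ?_
  simp only [act_pow]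
  rcases Nat.eq_zero_or_pos d with rfl | hd
  · obtain ⟨h, -, h1⟩ := S.inIdl hQ (μ := c) (by simpa using hc)
    have h2 := LinearMap.congr_fun h1 w
    simp only [LinearMap.smul_apply, Module.End.one_apply, Finset.univ_eq_empty, Finset.sum_empty,
      LinearMap.zero_apply] at h2
    rw [h2]
    exact zero_mem _
  · have h1 : c ∈ (𝔪 ^ N0) ^ (d * T) := by
      rw [pow_mul] at hc
      exact Ideal.pow_le_pow_right (Nat.le_succ _) hc
    rw [Submodule.pow_eq_span_pow_set] at h1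
    clear hc
    induction h1 using Submodule.span_induction with
    | mem x hx =>
      obtain ⟨g, rfl⟩ := Set.mem_pow.1 hx
      rw [List.prod_ofFn]
      refine (InIdl.prod (𝒞 := (fun A => act A Q) '' S.C) ?_ (fun j => ⟨_, S.Z_mem j, rfl⟩) hd _
        (fun i => S.inIdl hQ (g i).2) (a := fun _ => T) fun _ => le_rfl).smul_mem w
      rintro _ ⟨A, hA, rfl⟩ _ ⟨B, hB, rfl⟩
      exact S.commute hQ hA hB
    | zero => rw [zero_smul]; exact zero_mem _
    | add x y _ _ hx hy => rw [add_smul]; exact add_mem hx hy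
    | smul a x _ hx => rw [smul_assoc]; exact Submodule.smul_mem _ a hx

/-- Reduce modulo `𝔪^M` and use `InIdl.prod` (for `d = 0`, `gen` says `𝔪^N0 Q^r ≤ 𝔪^M Q^r`). -/
theorem Sys.pow_le_sub (T : ℕ) : ism (𝔪 ^ (N0 * (d * T + 1))) (Fin r → Q) ≤ S.sub Q T := by
  have h1 := sl_pow_le S (Q := Q ⧸ ism (𝔪 ^ M) Q) (by
    rw [← ln_map_ism_surj _ (Submodule.mkQ_surjective _), Submodule.mkQ_map_self]) T
  have h2 := sl_quot S (ism (𝔪 ^ M) Q) T
  rw [← ln_ism_pi, sup_eq_left.2 (show ism (𝔪 ^ M) (Fin r → Q) ≤ S.sub Q T from le_sup_right)] at h2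
  rw [← h2]
  exact Submodule.map_le_iff_le_comap.1 ((ln_map_ism _ _).trans h1)

theorem Sys.sub_map_le {Q' : Type} [AddCommGroup Q'] [Module R Q'] (f : Q →ₗ[R] Q') (T : ℕ) :
    (S.sub Q T).map (f.compLeft (Fin r)) ≤ S.sub Q' T := by
  rw [Sys.sub, Sys.sub, Submodule.map_sup, Submodule.map_iSup]
  refine sup_le_sup (iSup_mono fun j => ?_) (ln_map_ism _ _)
  rw [← LinearMap.range_comp, sl_comm]
  exact LinearMap.range_comp_le_range _ _

theorem Sys.sub_map_eq {Q' : Type} [AddCommGroup Q'] [Module R Q'] (f : Q →ₗ[R] Q') (hf : Function.Surjective f)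
    (T : ℕ) : (S.sub Q T).map (f.compLeft (Fin r)) = S.sub Q' T := by
  exact sl_map_eq S f hf T

theorem Sys.zl_nonneg (T : ℕ) : 0 ≤ S.zl Q T := len_nonneg

theorem Sys.b0_nonneg : 0 ≤ S.b0 := len_nonneg

theorem Sys.zl_equiv {Q' : Type} [AddCommGroup Q'] [Module R Q'] (e : Q ≃ₗ[R] Q') (T : ℕ) :
    S.zl Q T = S.zl Q' T := by
  exact ln_len_congr (Submodule.Quotient.equiv _ _ (LinearEquiv.piCongrRight fun _ => e)
    (sl_map_eq S e.toLinearMap e.surjective T)).length_eq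

/-- Push a system along a surjection. -/
def Sys.map {R' : Type} [CommRing R'] (g : R →+* R') (hg : Function.Surjective g) {𝔪' : Ideal R'}
    (h : 𝔪.map g = 𝔪') : Sys R' 𝔪' M d N0 r where
  Z j := (S.Z j).map g
  C := (fun A => A.map g) '' S.C
  Z_mem j := ⟨_, S.Z_mem j, rfl⟩
  comm := by
    rintro _ ⟨A, hA, rfl⟩ _ ⟨B, hB, rfl⟩ i j
    rw [← h, ← Ideal.map_pow, ← Matrix.map_mul, ← Matrix.map_mul, ← Matrix.map_sub _ (map_sub g)]
    exact Ideal.mem_map_of_mem g (S.comm A hA B hB i j)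
  gen := by
    intro μ hμ
    rw [← h, ← Ideal.map_pow, Ideal.mem_map_iff_of_surjective g hg] at hμ
    obtain ⟨μ, hμ, rfl⟩ := hμ
    obtain ⟨H, h1, h2⟩ := S.gen μ hμ
    refine ⟨fun j => (H j).map g, fun j => ⟨_, h1 j, rfl⟩, fun i j => ?_⟩
    rw [← h, ← Ideal.map_pow]
    convert Ideal.mem_map_of_mem g (h2 i j) using 1
    simp [Matrix.sum_apply, Matrix.mul_apply, Matrix.one_apply, apply_ite g]

theorem sl_mem_sub (T : ℕ) (w : Fin r → Q) : w ∈ S.sub Q T ↔
    ∃ u : Fin d → Fin r → Q, w - ∑ j, act (S.Z j ^ T) Q (u j) ∈ ism (𝔪 ^ M) (Fin r → Q) := by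
  rw [Sys.sub, Submodule.mem_sup]
  constructor
  · rintro ⟨y, hy, z, hz, rfl⟩
    obtain ⟨u, rfl⟩ := (e1_mem_iSup _ y).1 hy
    exact ⟨u, by rwa [add_sub_cancel_left]⟩
  · rintro ⟨u, hu⟩
    exact ⟨_, (e1_mem_iSup _ _).2 ⟨u, rfl⟩, _, hu, add_sub_cancel _ _⟩

theorem Sys.zl_map {R' : Type} [CommRing R'] [Algebra R R'] (hg : Function.Surjective (algebraMap R R'))
    {𝔪' : Ideal R'} (h : 𝔪.map (algebraMap R R') = 𝔪') (Q : Type) [AddCommGroup Q] [Module R Q] [Module R' Q]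
    [IsScalarTower R R' Q] (T : ℕ) : (S.map (algebraMap R R') hg h).zl Q T = S.zl Q T := by
  have h1 : ((S.map (algebraMap R R') hg h).sub Q T).restrictScalars R = S.sub Q T := by
    ext w
    rw [Submodule.restrictScalars_mem, sl_mem_sub, sl_mem_sub,
      ← ism_map_restrict (Λ' := R') (𝔪 ^ M), Ideal.map_pow, h]
    refine exists_congr fun u => Iff.of_eq ?_
    rw [Submodule.restrictScalars_mem]
    congr 3
    funext j i
    simp only [Sys.map, sl_apply, ← Matrix.map_pow, Matrix.map_apply, algebraMap_smul]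
  rw [Sys.zl, Sys.zl, ← h1, len, len]
  exact congrArg (fun x : ℕ∞ => (x.toNat : ℝ)) (colen_eq_restrict_of_surj hg _)

theorem Sys.b0_map {R' : Type} [CommRing R'] [Algebra R R'] (hg : Function.Surjective (algebraMap R R'))
    {𝔪' : Ideal R'} (h : 𝔪.map (algebraMap R R') = 𝔪') (hk : RingHom.ker (algebraMap R R') ≤ 𝔪) :
    (S.map (algebraMap R R') hg h).b0 = S.b0 := by
  rw [Sys.b0, S.zl_map hg h, Sys.b0]
  have h1 : 𝔪 = LinearMap.ker (Algebra.linearMap R (R' ⧸ 𝔪')) := by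
    ext x
    rw [LinearMap.mem_ker, Algebra.linearMap_apply, IsScalarTower.algebraMap_apply R R',
      Ideal.Quotient.algebraMap_eq, Ideal.Quotient.eq_zero_iff_mem, ← h, ← Ideal.mem_comap,
      Ideal.comap_map_of_surjective _ hg, ← RingHom.ker_eq_comap_bot, sup_eq_left.2 hk]
  exact (S.zl_equiv ((Submodule.quotEquivOfEq _ _ h1).trans (LinearMap.quotKerEquivOfSurjective _
    (Ideal.Quotient.mk_surjective.comp hg))) 1).symm

/-- For an algebra killed by `𝔪^M`, `S.sub` is the column space of the powers of the image matrices. -/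
theorem Sys.sub_eq_zsub {B : Type} [CommRing B] [Algebra R B] (hB : ism (𝔪 ^ M) B = ⊥) (T : ℕ) :
    S.sub B T = zsub R (fun j => (S.Z j).map (algebraMap R B)) T := by
  rw [Sys.sub, ln_ism_pi, hB, Submodule.pi_univ_bot, sup_bot_eq, zsub]
  congr 1
  funext j
  congr 1
  refine LinearMap.ext fun w => funext fun i => ?_
  rw [← Matrix.map_pow]
  simp [sl_apply, Matrix.mulVec, dotProduct, Algebra.smul_def]

theorem zsub_restrict {Λ B : Type} [CommRing Λ] [CommRing B] [Algebra Λ B]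
    (Z : Fin d → Matrix (Fin r) (Fin r) B) (T : ℕ) : zsub Λ Z T = (zsub B Z T).restrictScalars Λ := by
  ext w
  rw [Submodule.restrictScalars_mem, zsub, zsub, e1_mem_iSup, e1_mem_iSup]
  rfl

theorem zsub_eq_esub {Λ B : Type} [CommRing Λ] [CommRing B] [Algebra Λ B]
    (Z : Fin d → Matrix (Fin r) (Fin r) B) (T : ℕ) :
    zsub Λ Z T = esub (fun j => (Z j).mulVecLin.restrictScalars Λ) fun _ => T := by
  rw [zsub, esub]
  congr 1
  funext j
  congr 1
  induction T with
  | zero => rw [pow_zero, pow_zero, Matrix.mulVecLin_one]; rfl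
  | succ T ih => rw [pow_succ, pow_succ, ← ih, Matrix.mulVecLin_mul]; rfl

end general

section loc

variable {R : Type} [CommRing R] [IsNoetherianRing R] [IsLocalRing R] {M d N0 r : ℕ}
  (S : Sys R (maximalIdeal R) M d N0 r) {Q : Type} [AddCommGroup Q] [Module R Q] [Module.Finite R Q]

theorem Sys.isFiniteLength (T : ℕ) : IsFiniteLength R ((Fin r → Q) ⧸ S.sub Q T) := by
  exact isFiniteLength_quot (S.pow_le_sub T)

theorem sl_fin (T : ℕ) : colen R (S.sub Q T) ≠ ⊤ := Module.length_ne_top_iff.2 (S.isFiniteLength T)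

theorem sl_le {c : ℕ} {V : Submodule R Q} (hV : ism (maximalIdeal R ^ c) Q ≤ V)
    {U : Submodule R (Fin r → Q)} (h : (Submodule.pi Set.univ fun _ => V) ≤ U) :
    len R ((Fin r → Q) ⧸ U) ≤ r * len R (Q ⧸ V) := by
  rw [← sl_len_pi]
  refine ln_cl_anti (Module.length_ne_top_iff.2 (isFiniteLength_quot (c := c) ?_)) h
  rw [ln_ism_pi]
  exact Submodule.pi_mono fun _ _ => hV

theorem Sys.zl_mono : Monotone (S.zl Q) := by
  intro T T' h
  refine ln_cl_anti (sl_fin S T') (sup_le_sup_right (iSup_mono fun j => ?_) _)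
  obtain ⟨k, rfl⟩ := Nat.exists_eq_add_of_le h
  rw [pow_add, act_mul]
  exact LinearMap.range_comp_le_range _ _

theorem Sys.zl_le_of_surj {Q' : Type} [AddCommGroup Q'] [Module R Q'] (f : Q →ₗ[R] Q')
    (hf : Function.Surjective f) (T : ℕ) : S.zl Q' T ≤ S.zl Q T := by
  exact ln_len_le (sl_fin S T) (colen_le_of_surj _ hf.comp_left (S.sub_map_le f T))

theorem Sys.zl_pi (ρ T : ℕ) : S.zl (Fin ρ → Q) T = ρ * S.zl Q T := by
  let e : (Fin r → Fin ρ → Q) →ₗ[R] (Fin ρ → Fin r → Q) :=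
    LinearMap.pi fun a => (LinearMap.proj a).compLeft (Fin r)
  have h1 : (Submodule.pi Set.univ fun _ => S.sub Q T).comap e = S.sub (Fin ρ → Q) T := by
    ext w
    refine ⟨fun h => ?_, fun h a _ => S.sub_map_le (LinearMap.proj a) T ⟨w, h, rfl⟩⟩
    have h2 : w = ∑ a, (LinearMap.single R (fun _ => Q) a).compLeft (Fin r) (e w a) := by
      funext i
      simp [e, Finset.univ_sum_single]
    rw [h2]
    exact sum_mem fun a _ => S.sub_map_le _ T ⟨_, h a trivial, rfl⟩
  rw [Sys.zl, Sys.zl, ← sl_len_pi, ← h1]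
  exact ln_len_congr (sl_comap e fun w => ⟨fun i a => w a i, rfl⟩)

theorem Sys.colen_sup_le (J : Ideal R) (T : ℕ) :
    len R ((Fin r → Q) ⧸ (S.sub Q T ⊔ ism J (Fin r → Q))) ≤
      r * len R (Q ⧸ ism (maximalIdeal R ^ (N0 * (d * T + 1)) ⊔ J) Q) := by
  refine sl_le (ln_ism_mono le_sup_left) ?_
  rw [← ln_ism_pi, ln_ism_sup]
  exact sup_le_sup_right (S.pow_le_sub T) _

/-- `colen_le_comap_add` along `ι^r`. -/
theorem Sys.zl_le_of_range {ρ : ℕ} (ι : (Fin ρ → R) →ₗ[R] Q) (T : ℕ) :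
    S.zl Q T ≤ ρ * S.zl R T +
      r * len R (Q ⧸ (ism (maximalIdeal R ^ (N0 * (d * T + 1))) Q ⊔ LinearMap.range ι)) := by
  rw [Sys.zl, ln_cl_add (ι.compLeft (Fin r)) (sl_fin S T), ← S.zl_pi]
  refine add_le_add (ln_cl_anti (sl_fin S T) (Submodule.map_le_iff_le_comap.1 (S.sub_map_le ι T)))
    (sl_le le_sup_left fun w hw => ?_)
  choose a ha _ hb hab using fun i => Submodule.mem_sup.1 (hw i trivial)
  choose b hb using hb
  refine Submodule.mem_sup.2 ⟨a, S.pow_le_sub T ?_, _, ⟨b, rfl⟩, funext fun i => ?_⟩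
  · rw [ln_ism_pi]
    exact fun i _ => ha i
  · rw [← hab i, ← hb i]
    rfl

/-- `b0` in terms of the reduced matrices over `R / 𝔪^M`. -/
theorem Sys.b0_eq [IsLocalRing (R ⧸ maximalIdeal R ^ M)] :
    S.b0 = len (R ⧸ maximalIdeal R ^ M) ((Fin r → R ⧸ maximalIdeal R ^ M) ⧸
      (zsub (R ⧸ maximalIdeal R ^ M) (fun j => (S.Z j).map (Ideal.Quotient.mk (maximalIdeal R ^ M))) 1 ⊔
        ism (maximalIdeal (R ⧸ maximalIdeal R ^ M)) (Fin r → R ⧸ maximalIdeal R ^ M))) := by
  have hg : Function.Surjective (algebraMap R (R ⧸ maximalIdeal R ^ M)) :=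
    Ideal.Quotient.mk_surjective
  have h := map_maximalIdeal_of_surjective _ hg
  have hk : RingHom.ker (algebraMap R (R ⧸ maximalIdeal R ^ M)) ≤ maximalIdeal R :=
    le_maximalIdeal (RingHom.ker_ne_top _)
  have h0 : ism (maximalIdeal (R ⧸ maximalIdeal R ^ M) ^ M) (R ⧸ maximalIdeal R ^ M) = ⊥ := by
    rw [← h, ← Ideal.map_pow, Ideal.Quotient.algebraMap_eq, Ideal.map_quotient_self]
    exact Submodule.bot_smul _
  rw [← S.b0_map hg h hk, Sys.b0, Sys.zl]
  refine ln_len_congr ((sl_comap ((Submodule.mkQ _).compLeft (Fin r))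
    (Submodule.mkQ_surjective _).comp_left).symm.trans ?_)
  rw [sl_quot, Sys.sub_eq_zsub _ h0, ln_ism_pi, ism, smul_eq_mul, Ideal.mul_top]
  rfl

end loc

end Crest.Agent.R183
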