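import Crest.Agent.R183.MinD
import Crest.Agent.R183.SysL
import Crest.Agent.R183.CoreEff

/-!
# rid 183, file `DT1`: the core inequality on a cover

Prefix helper lemmas with `dt1_`.
-/

set_option autoImplicit false

namespace Crest.Agent.R183

section dt1

variable {Λ B V W : Type} [CommRing Λ] [CommRing B] [Algebra Λ B] [AddCommGroup V] [Module Λ V]
  [AddCommGroup W] [Module Λ W]

theorem dt1_ker {J J' : Ideal Λ} (h : ism J V ≤ ism J' V) :
    LinearMap.ker (Submodule.factor h) = ism J' (V ⧸ ism J V) := by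
  rw [Submodule.factor, Submodule.ker_mapQ, Submodule.comap_id, ln_map_ism_surj _ (Submodule.mkQ_surjective _)]

theorem dt1_desc (f : V →ₗ[Λ] W) (hf : Function.Surjective f) {J : Ideal Λ}
    (hk : LinearMap.ker f = ism J V) (g : V →ₗ[Λ] V) : ∃ g' : W →ₗ[Λ] W, ∀ v, g' (f v) = f (g v) := by
  have h : LinearMap.ker f ≤ LinearMap.ker (f ∘ₗ g) := fun v hv => by
    rw [LinearMap.mem_ker, LinearMap.comp_apply, ← LinearMap.mem_ker, hk]
    exact ln_mem_ism g (hk ▸ hv)
  refine ⟨((LinearMap.ker f).liftQ (f ∘ₗ g) h) ∘ₗ (f.quotKerEquivOfSurjective hf).symm.toLinearMap,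
    fun v => ?_⟩
  simp

/-- a matrix of endomorphisms -/
def dt1_mat (ψ : B → W →ₗ[Λ] W) {ι κ : Type} [Fintype κ] (A : Matrix ι κ B) :
    (κ → W) →ₗ[Λ] (ι → W) :=
  LinearMap.pi fun a => ∑ b, ψ (A a b) ∘ₗ LinearMap.proj b

omit [CommRing B] [Algebra Λ B] in
theorem dt1_mat_apply (ψ : B → W →ₗ[Λ] W) {ι κ : Type} [Fintype κ] (A : Matrix ι κ B) (u : κ → W)
    (a : ι) : dt1_mat ψ A u a = ∑ b, ψ (A a b) (u b) := by
  simp [dt1_mat, LinearMap.sum_apply]

/-- projection to the coordinates of degree `i` -/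
def dt1_p (Λ W : Type) [CommRing Λ] [AddCommGroup W] [Module Λ W] {ι : Type} (deg : ι → ℕ) (i : ℕ) :
    Module.End Λ (ι → W) :=
  LinearMap.pi fun a => if deg a = i then LinearMap.proj a else 0

theorem dt1_p_apply {ι : Type} (deg : ι → ℕ) (i : ℕ) (u : ι → W) (a : ι) :
    dt1_p Λ W deg i u a = if deg a = i then u a else 0 := by
  rw [dt1_p, LinearMap.pi_apply]
  split_ifs <;> rfl

theorem dt1_top {ι : Type} [Fintype ι] (deg : ι → ℕ) (i : ℕ) (f : V →ₗ[Λ] W)
    (hf : Function.Surjective f) {J : Ideal Λ} (hk : LinearMap.ker f = ism J V) :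
    Nonempty (((ι → V) ⧸ (ism J (ι → V) ⊔ LinearMap.ker (dt1_p Λ V deg i))) ≃ₗ[Λ]
      ({a : ι // deg a = i} → W)) := by
  let T : (ι → V) →ₗ[Λ] ({a : ι // deg a = i} → W) :=
    LinearMap.pi fun a => f ∘ₗ LinearMap.proj a.1
  have hT : ∀ u a, T u a = f (u a.1) := fun _ _ => rfl
  have h1 : Function.Surjective T := fun w => by
    choose g hg using hf
    refine ⟨fun a => if h : deg a = i then g (w ⟨a, h⟩) else 0, funext fun a => ?_⟩
    rw [hT, dif_pos a.2, hg]
  have h2 : ism J (ι → V) ⊔ LinearMap.ker (dt1_p Λ V deg i) = LinearMap.ker T := by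
    refine le_antisymm (sup_le (fun u hu => ?_) fun u hu => ?_) fun u hu => ?_
    · rw [ln_ism_pi] at hu
      refine funext fun a => ?_
      rw [hT, Pi.zero_apply, ← LinearMap.mem_ker, hk]
      exact hu a.1 trivial
    · refine funext fun a => ?_
      have := congrFun (LinearMap.mem_ker.1 hu) a.1
      rw [dt1_p_apply, if_pos a.2, Pi.zero_apply] at this
      rw [hT, this, map_zero, Pi.zero_apply]
    · refine Submodule.mem_sup.2 ⟨dt1_p Λ V deg i u, ?_, u - dt1_p Λ V deg i u, ?_, by abel⟩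
      · rw [ln_ism_pi]
        intro a _
        rw [dt1_p_apply]
        split_ifs with h
        · rw [← hk]
          exact congrFun (LinearMap.mem_ker.1 hu) ⟨a, h⟩
        · exact zero_mem _
      · refine funext fun a => ?_
        rw [dt1_p_apply, Pi.sub_apply, dt1_p_apply]
        split_ifs <;> simp
  exact ⟨(Submodule.quotEquivOfEq _ _ h2).trans (T.quotKerEquivOfSurjective h1)⟩

theorem dt1_len_le (g : V →ₗ[Λ] W) {U : Submodule Λ V} {U' : Submodule Λ W}
    (h : U ≤ LinearMap.ker g) (h' : U' ≤ LinearMap.range g) : Module.length Λ U' ≤ colen Λ U := by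
  have h1 : LinearMap.range (U.liftQ g h) = LinearMap.range g := Submodule.range_liftQ _ _ _
  calc Module.length Λ U' ≤ Module.length Λ (LinearMap.range (U.liftQ g h)) :=
        Module.length_le_of_injective (Submodule.inclusion (h1 ▸ h')) (Submodule.inclusion_injective _)
    _ ≤ _ := Module.length_le_of_surjective _ (U.liftQ g h).surjective_rangeRestrict

theorem dt1_nul {d : ℕ} {K : Cx Λ d W} {c : Λ} (h : K.Nul c) (e : Λ) : K.Nul (c * e) := by
  obtain ⟨h, hh⟩ := h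
  exact ⟨e • h, by rw [mul_smul_comm, smul_mul_assoc, ← smul_add, hh, smul_smul, mul_comm]⟩

theorem dt1_cx {d r : ℕ} (c : Fin d → Λ) (α : Λ) (β : B →ₗ[Λ] V) (ι : V →ₗ[Λ] B)
    (h1 : ∀ b, ι (β b) = α • b) (h2 : ∀ v, β (ι v) = α • v) (f : V →ₗ[Λ] W)
    (hf : Function.Surjective f) {J J' : Ideal Λ} (hk : LinearMap.ker f = ism J V)
    {Z : Fin d → Matrix (Fin r) (Fin r) B} (C : CxData B Z fun i => algebraMap Λ B (c i))
    (hD : ∀ a b, C.D a b ∈ ism J' B) :
    ∃ K : Cx Λ d (C.ι → W), K.p = dt1_p Λ W C.deg ∧ LinearMap.range K.D ≤ ism J' (C.ι → W) ∧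
      (∀ i, K.Nul (α ^ 2 * c i)) ∧
      Module.length Λ (ism (Ideal.span {α ^ 2}) ((C.ι → W) ⧸ K.b0)) ≤ colen Λ (zsub Λ Z 1) := by
  choose ψ hψ using fun b : B => dt1_desc f hf hk (β ∘ₗ LinearMap.mulLeft Λ b ∘ₗ ι)
  replace hψ : ∀ b v, ψ b (f v) = f (β (b * ι v)) := hψ
  have hψβ : ∀ b b', ψ b (f (β b')) = α • f (β (b * b')) := fun b b' => by
    rw [hψ, h1, mul_smul_comm, map_smul, map_smul]
  have hsurj : ∀ {κ : Type} (u : κ → W), ∃ v : κ → V, u = fun a => f (v a) := fun u => by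
    choose g hg using hf
    exact ⟨fun a => g (u a), funext fun a => (hg _).symm⟩
  have hm1 : ∀ {κ κ' : Type} [Fintype κ'] (A : Matrix κ κ' B) (v : κ' → V),
      dt1_mat ψ A (fun a => f (v a)) = fun a => f (β (A.mulVec (fun b => ι (v b)) a)) := by
    intro κ κ' _ A v
    funext a
    simp only [dt1_mat_apply, hψ, Matrix.mulVec, dotProduct, map_sum]
  have hm2 : ∀ {κ κ' : Type} [Fintype κ'] (A : Matrix κ κ' B) (w : κ' → B),
      dt1_mat ψ A (fun a => f (β (w a))) = fun a => α • f (β (A.mulVec w a)) := by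
    intro κ κ' _ A w
    funext a
    simp only [dt1_mat_apply, hψβ, Matrix.mulVec, dotProduct, map_sum, Finset.smul_sum]
  have hψ0 : ∀ w, ψ 0 w = 0 := fun w => by
    obtain ⟨v, rfl⟩ := hf w
    rw [hψ, zero_mul, map_zero, map_zero]
  let K : Cx Λ d (C.ι → W) :=
    { p := dt1_p Λ W C.deg
      D := dt1_mat ψ C.D
      p_mul := fun i j => by
        refine LinearMap.ext fun u => funext fun a => ?_
        by_cases h : i = j
        · subst h
          simp only [Module.End.mul_apply, dt1_p_apply, if_true]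
          split_ifs <;> rfl
        · simp only [Module.End.mul_apply, dt1_p_apply, if_neg h, LinearMap.zero_apply,
            Pi.zero_apply]
          split_ifs with h3 h4
          · exact absurd (h3.symm.trans h4) h
          · rfl
          · rfl
      p_sum := by
        refine LinearMap.ext fun u => funext fun a => ?_
        rw [LinearMap.sum_apply, Finset.sum_apply]
        simp only [dt1_p_apply]
        rw [Finset.sum_ite_eq, if_pos (Finset.mem_range.2 (Nat.lt_succ_of_le (C.deg_le a)))]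
        rfl
      D_sq := by
        refine LinearMap.ext fun u => ?_
        obtain ⟨v, rfl⟩ := hsurj u
        rw [Module.End.mul_apply, hm1, hm2, Matrix.mulVec_mulVec, C.D_sq]
        funext a
        simp
      D_p := fun i => by
        refine LinearMap.ext fun u => funext fun a => ?_
        simp only [Module.End.mul_apply, dt1_p_apply, dt1_mat_apply]
        split_ifs with h
        · refine Finset.sum_congr rfl fun b _ => ?_
          split_ifs with h'
          · rfl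
          · rw [C.D_deg a b (by rwa [h]), hψ0, hψ0]
        · refine Finset.sum_eq_zero fun b _ => ?_
          split_ifs with h'
          · rw [C.D_deg a b (by omega), hψ0]
          · exact map_zero _
      D_p0 := by
        refine LinearMap.ext fun u => funext fun a => ?_
        simp only [Module.End.mul_apply, dt1_p_apply, dt1_mat_apply]
        refine Finset.sum_eq_zero fun b _ => ?_
        split_ifs with h'
        · rw [C.D_deg a b (by omega), hψ0]
        · exact map_zero _ }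
  refine ⟨K, rfl, ?_, fun i => ⟨dt1_mat ψ (C.H i), ?_⟩, ?_⟩
  · rintro _ ⟨u, rfl⟩
    obtain ⟨v, rfl⟩ := hsurj u
    rw [ln_ism_pi]
    intro a _
    change dt1_mat ψ C.D _ a ∈ _
    rw [dt1_mat_apply]
    refine Submodule.sum_mem _ fun b _ => ?_
    rw [hψ]
    exact ln_mem_ism (f ∘ₗ β ∘ₗ LinearMap.mulRight Λ (ι (v b))) (hD a b)
  · refine LinearMap.ext fun u => ?_
    obtain ⟨v, rfl⟩ := hsurj u
    change dt1_mat ψ C.D (dt1_mat ψ (C.H i) _) + dt1_mat ψ (C.H i) (dt1_mat ψ C.D _) = _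
    rw [hm1 (C.H i) v, hm1 C.D v, hm2, hm2, Matrix.mulVec_mulVec, Matrix.mulVec_mulVec]
    funext a
    rw [Pi.add_apply, ← smul_add, ← map_add, ← map_add, ← Pi.add_apply (Matrix.mulVec _ _),
      ← Matrix.add_mulVec, C.H_spec, Matrix.smul_mulVec, Matrix.one_mulVec, Pi.smul_apply,
      algebraMap_smul, map_smul, h2, map_smul, map_smul]
    simp only [smul_smul, LinearMap.smul_apply, Module.End.one_apply, Pi.smul_apply]
    congr 1
    ring
  · let g : (Fin r → B) →ₗ[Λ] (C.ι → W) ⧸ K.b0 := α • K.b0.mkQ ∘ₗ (f ∘ₗ β).compLeft C.ι ∘ₗ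
      (C.π0.mulVecLin.restrictScalars Λ)
    have hg : ∀ w, g w = K.b0.mkQ fun a => α • f (β (C.π0.mulVec w a)) := fun w => by
      change α • K.b0.mkQ _ = _
      rw [← map_smul]
      rfl
    refine dt1_len_le g (iSup_le fun j => ?_) fun x hx => ?_
    · rintro _ ⟨w, rfl⟩
      rw [LinearMap.mem_ker, hg, Submodule.mkQ_apply, Submodule.Quotient.mk_eq_zero]
      refine Submodule.mem_sup_left ⟨fun a => f (β ((C.π1 j).mulVec w a)), ?_⟩
      change dt1_mat ψ C.D _ = fun a => α • f (β (C.π0.mulVec ((Z j ^ 1).mulVec w) a))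
      rw [hm2, Matrix.mulVec_mulVec, Matrix.mulVec_mulVec, pow_one, C.πZ]
    · obtain ⟨x, rfl⟩ := (ln_mem_ism_span _ _).1 hx
      obtain ⟨u, rfl⟩ := K.b0.mkQ_surjective x
      obtain ⟨v, rfl⟩ := hsurj u
      refine ⟨C.σ0.mulVec fun a => ι (v a), ?_⟩
      rw [hg, ← map_smul, Submodule.mkQ_apply, Submodule.mkQ_apply, Submodule.Quotient.eq]
      refine Submodule.mem_sup_right (funext fun a => ?_)
      change dt1_p Λ W C.deg 0 _ a = 0
      rw [dt1_p_apply]
      split_ifs with h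
      · rw [Matrix.mulVec_mulVec, C.πσ, Pi.sub_apply, Matrix.mulVec_diagonal, if_pos h, one_mul, h2,
          map_smul, smul_smul, Pi.smul_apply, sq, sub_self]
      · rfl

end dt1

/-- Let `V = N / J0 N`.  On `ι → V` put `D' = β ∘ D ∘ ι`, `h' = β ∘ H ∘ ι` (componentwise `β`, `ι`; `D`, `H` act on
`ι → B` by `mulVec`).  Then `D'² = α β D² ι = 0` and `D' h' + h' D' = α² c`.  These `Λ`-linear maps descend to
`P = ι → N / (y)^n N`.  `p i` is the projection to the coordinates of degree `i`.  For the last claim, the map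
`g = α β π0 : B^r → P ⧸ b0` kills `Z j w` (`α β D π1 w = D' (β π1 w)`), and its image contains `α² (P ⧸ b0)`
(`α² v = α β π0 σ0 ι v` for `v` of degree `0`). -/
theorem dt_cx {Λ B N : Type} [CommRing Λ] [CommRing B] [Algebra Λ B] [AddCommGroup N] [Module Λ N] {d r : ℕ}
    (y c : Fin d → Λ) (α : Λ) (J0 : Ideal Λ) (β : B →ₗ[Λ] N ⧸ ism J0 N) (ι : (N ⧸ ism J0 N) →ₗ[Λ] B)
    (h1 : ∀ b, ι (β b) = α • b) (h2 : ∀ v, β (ι v) = α • v) {n q' : ℕ} (hn : 0 < n) (hJ : J0 ≤ idl y ^ n)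
    {Z : Fin d → Matrix (Fin r) (Fin r) B} (C : CxData B Z fun i => algebraMap Λ B (c i))
    (hD : ∀ a b, C.D a b ∈ ism (idl y ^ q') B) :
    ∃ K : Cx Λ d (C.ι → N ⧸ ism (idl y ^ n) N),
      LinearMap.range K.D ≤ ism (idl y ^ q') (C.ι → N ⧸ ism (idl y ^ n) N) ∧ (∀ i, K.Nul (α ^ 2 * c i)) ∧
      (∀ i, Nonempty (((C.ι → N ⧸ ism (idl y ^ n) N) ⧸ K.top y i) ≃ₗ[Λ]
        ({a : C.ι // C.deg a = i} → N ⧸ ism (idl y) N))) ∧
      Module.length Λ (ism (Ideal.span {α ^ 2}) ((C.ι → N ⧸ ism (idl y ^ n) N) ⧸ K.b0)) ≤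
        colen Λ (zsub Λ Z 1) := by
  have hle : ism J0 N ≤ ism (idl y ^ n) N := ln_ism_mono hJ
  have hle' : ism (idl y ^ n) N ≤ ism (idl y) N := ln_ism_mono (Ideal.pow_le_self hn.ne')
  obtain ⟨K, k1, k2, k3, k4⟩ := dt1_cx c α β ι h1 h2 _ (Submodule.factor_surjective hle)
    (dt1_ker hle) C hD
  refine ⟨K, k2, k3, fun i => ?_, k4⟩
  rw [Cx.top, k1]
  exact dt1_top C.deg i _ (Submodule.factor_surjective hle') (dt1_ker hle')

/-- `core_eff` for `y i = X i ^ s`, `N = N0 (q' + m + 2)`, `n = cWin m q' N`, `n1 = n + m + 2`, `ν = r ρ` (the case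
`r = 0` is trivial), on the complex of `dt_cx` (if `n = 0` use `max n 1`, or check that `cWin` is positive).
`KZ` by `Reg.pow`, `Reg.kz`, `KZ.pi`; lengths by `colen_idl_pow_le`, `colen_ism_pi`, `br_anti`;
`idl_pow_le_br_pow` for the two inclusions of ideals; `alen_pi`, `alen_equiv` and `euler` for the alternating sum;
finally `alen_le_sq`. -/
theorem dt_core (m q' N0 : ℕ) (hq' : 0 < q') (Cc ε : ℝ) (hε : 0 < ε) :
    ∃ (η : ℝ) (n1 : ℕ), 0 < η ∧ ∀ (c : Cov (m + 1)) (n0 s r : ℕ), c.Basic n0 → n1 ≤ n0 → 0 < s → s ≤ c.q →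
      c.q ≤ s * (q' + m + 2) → ∀ (Z : Fin (m + 1) → Matrix (Fin r) (Fin r) c.B)
        (C : CxData c.B Z fun i => algebraMap c.Λ c.B (c.X i ^ (c.q * N0))),
        Fintype.card C.ι ≤ 2 ^ (m + 1) * r → (∀ a b, C.D a b ∈ ism (idl c.X ^ (s * (q' + m + 1))) c.B) →
        len c.Λ (c.N ⧸ ism (br c.X c.q) c.N) ≤ Cc * c.ρ →
        len c.Λ (c.N ⧸ ism (br c.X c.q ⊔ Ideal.span {c.α + c.α'}) c.N) ≤ η * c.ρ →
        ((Finset.univ.filter fun a => C.deg a = 0).card : ℝ) * (q' : ℝ) ^ (m + 1) *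
            alen c.α (c.N ⧸ ism (br c.X s) c.N) ≤
          len c.Λ ((Fin r → c.B) ⧸ zsub c.Λ Z 1) + ε * (r * c.ρ) := by
  obtain ⟨n, hn⟩ : ∃ n, n = cWin m q' (N0 * (q' + m + 2)) := ⟨_, rfl⟩
  have hn0 : 0 < n := by rw [hn, cWin]; omega
  obtain ⟨A, hA⟩ : ∃ A : ℕ, A = (n + (m + 1) - 1).choose (m + 1) := ⟨_, rfl⟩
  obtain ⟨η, hη, hcore⟩ := core_eff m q' (N0 * (q' + m + 2)) hq' (2 ^ (m + 1) * A * Cc) (ε / 2)
    (half_pos hε)
  have hη' : 0 < min η (ε / 2) := lt_min hη (half_pos hε)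
  refine ⟨min η (ε / 2) / (2 ^ (m + 1) * (A + 1)), n + (m + 1), by positivity,
    fun c n0 s r hc hn1 hs hsq hqs Z C hcard hD hl1 hl2 => ?_⟩
  have hρ := hc.pos
  rcases Nat.eq_zero_or_pos r with rfl | hr
  · have : IsEmpty C.ι := Fintype.card_eq_zero_iff.1 (by simpa using hcard)
    simpa using len_nonneg
  have hν : (0 : ℝ) < r * c.ρ := by positivity
  obtain ⟨β, ι, h1, h2⟩ := hc.sand
  have hJ : idl c.X ^ (n0 * c.q) ≤ idl (fun i => c.X i ^ s) ^ n := by
    refine le_trans (Ideal.pow_le_pow_right ?_) (idl_pow_le_br_pow (Nat.succ_pos m) c.X s n)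
    rw [mul_comm]
    exact Nat.mul_le_mul hn1 hsq
  obtain ⟨K, k1, k2, k3, k4⟩ := dt_cx (fun i => c.X i ^ s) _ c.α _ β ι h1 h2 hn0 hJ C (q' := q')
    fun a b => ln_ism_mono (idl_pow_le_br_pow (Nat.succ_pos m) c.X s q') (hD a b)
  have hcard' : (Fintype.card C.ι : ℝ) ≤ 2 ^ (m + 1) * r := by exact_mod_cast hcard
  -- lengths
  have f1 : colen c.Λ (ism (br c.X c.q) c.N) ≠ ⊤ := by
    have := colen_br_le c.X c.q (⊥ : Submodule c.Λ c.N)
    rw [bot_sup_eq, bot_sup_eq] at this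
    exact ne_top_of_le_ne_top (WithTop.mul_ne_top (ENat.natCast_ne_top _)
      (Module.length_ne_top_iff.2 hc.finN)) this
  have hbr : ism (br c.X c.q) c.N ≤ ism (idl fun i => c.X i ^ s) c.N := ln_ism_mono (br_anti c.X hsq)
  have gen : ∀ J : Ideal c.Λ, colen c.Λ (ism J (C.ι → c.N ⧸ ism (idl (fun i => c.X i ^ s) ^ n) c.N)) ≤
      (Fintype.card C.ι * A : ℕ) * colen c.Λ (ism (br c.X c.q ⊔ J) c.N) := fun J => by
    rw [colen_ism_pi, Nat.cast_mul, mul_assoc]
    refine mul_le_mul_right ?_ _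
    have a1 := colen_le_of_surj (ism (idl (fun i => c.X i ^ s) ^ n) c.N).mkQ
      (Submodule.mkQ_surjective _) (U' := ism J c.N ⊔ ism (idl (fun i => c.X i ^ s) ^ n) c.N)
      (U := ism J _) (by
        rw [Submodule.map_sup, Submodule.mkQ_map_self, sup_bot_eq]
        exact ln_map_ism _ J)
    refine a1.trans ((colen_idl_pow_le _ n _).trans ?_)
    rw [← hA]
    refine mul_le_mul_right (colen_anti ?_) _
    rw [ln_ism_sup, sup_comm]
    exact sup_le_sup_left hbr _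
  have f2 : ∀ J : Ideal c.Λ, colen c.Λ (ism (br c.X c.q ⊔ J) c.N) ≠ ⊤ := fun J =>
    ln_fin_anti f1 (ln_ism_mono le_sup_left)
  have gen' : ∀ (J : Ideal c.Λ) (x : ℝ), len c.Λ (c.N ⧸ ism (br c.X c.q ⊔ J) c.N) ≤ x * c.ρ →
      len c.Λ (_ ⧸ ism J (C.ι → c.N ⧸ ism (idl (fun i => c.X i ^ s) ^ n) c.N)) ≤
        2 ^ (m + 1) * A * x * (r * c.ρ) := fun J x hx => by
    have a1 := ENat.toNat_le_toNat (gen J) (WithTop.mul_ne_top (ENat.natCast_ne_top _) (f2 J))
    rw [ENat.toNat_mul, ENat.toNat_natCast] at a1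
    have a2 : len c.Λ (_ ⧸ ism J (C.ι → c.N ⧸ ism (idl (fun i => c.X i ^ s) ^ n) c.N)) ≤
        Fintype.card C.ι * A * len c.Λ (c.N ⧸ ism (br c.X c.q ⊔ J) c.N) := by
      unfold len
      exact_mod_cast a1
    have a3 : 0 ≤ len c.Λ (c.N ⧸ ism (br c.X c.q ⊔ J) c.N) := len_nonneg
    calc _ ≤ _ := a2
      _ ≤ 2 ^ (m + 1) * r * A * (x * c.ρ) := by gcongr
      _ = _ := by ring
  have e0 : colen c.Λ (ism ⊥ (C.ι → c.N ⧸ ism (idl (fun i => c.X i ^ s) ^ n) c.N)) =
      Module.length c.Λ (C.ι → c.N ⧸ ism (idl (fun i => c.X i ^ s) ^ n) c.N) := by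
    rw [← ln_colen_bot]
    congr 2
    exact Submodule.bot_smul _
  have f3 : Module.length c.Λ (C.ι → c.N ⧸ ism (idl (fun i => c.X i ^ s) ^ n) c.N) ≠ ⊤ :=
    e0 ▸ ne_top_of_le_ne_top (WithTop.mul_ne_top (ENat.natCast_ne_top _) (f2 ⊥)) (gen ⊥)
  have f4 := Module.length_ne_top_iff.1 f3
  have g1 := gen' ⊥ Cc (by rwa [sup_bot_eq])
  rw [ln_len_congr e0] at g1
  have g2 := (gen' _ _ hl2).trans (mul_le_mul_of_nonneg_right (c := min η (ε / 2)) (by
    rw [← mul_div_assoc, div_le_iff₀ (by positivity)]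
    have : (0 : ℝ) < 2 ^ (m + 1) := by positivity
    nlinarith) hν.le)
  have hkill : ∀ w : C.ι → c.N ⧸ ism (idl (fun i => c.X i ^ s) ^ n) c.N, (c.α * c.α') • w = 0 := by
    intro w
    funext a
    obtain ⟨v, hv⟩ := Submodule.Quotient.mk_surjective _ (w a)
    rw [Pi.smul_apply, ← hv, ← Submodule.Quotient.mk_smul, Pi.zero_apply,
      Submodule.Quotient.mk_eq_zero]
    exact ln_ism_mono hJ (hc.kill v)
  have f5 : IsFiniteLength c.Λ (c.N ⧸ ism (idl fun i => c.X i ^ s) c.N) :=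
    Module.length_ne_top_iff.1 (ln_fin_anti f1 hbr)
  have htop : ∀ i, alen c.α (_ ⧸ K.top (fun i => c.X i ^ s) i) =
      ((Finset.univ.filter fun a => C.deg a = i).card : ℝ) * alen c.α (c.N ⧸ ism (br c.X s) c.N) := by
    intro i
    obtain ⟨e⟩ := k3 i
    rw [alen_equiv e, alen_pi f5, Fintype.card_subtype]
    rfl
  have key := hcore c.Λ c.α c.α' (fun i => c.X i ^ s) _ K (r * c.ρ) hν f4 g1
    (g2.trans (mul_le_mul_of_nonneg_right (min_le_left _ _) hν.le)) hkill
    (hn ▸ ((hc.reg.pow fun _ => hs).kz n).pi C.ι) k1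
    (fun i => by
      have := dt1_nul (k2 i) (c.X i ^ (s * (N0 * (q' + m + 2)) - c.q * N0))
      rwa [mul_assoc, ← pow_add, Nat.add_sub_cancel' (by
        rw [mul_comm N0, ← mul_assoc]; exact Nat.mul_le_mul_right _ hqs), pow_mul] at this)
    (by
      simp only [htop, ← mul_assoc]
      rw [← Finset.sum_mul]
      refine mul_eq_zero_of_left ?_ _
      have a1 : ∑ a, (-1 : ℝ) ^ C.deg a = 0 := by exact_mod_cast C.euler
      rw [← a1, ← Finset.sum_fiberwise_of_maps_to (s := Finset.univ) (t := Finset.range (m + 2))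
        (g := C.deg) fun a _ => Finset.mem_range.2 (Nat.lt_succ_of_le (C.deg_le a))]
      refine Finset.sum_congr rfl fun i _ => ?_
      rw [Finset.sum_congr rfl (g := fun _ => (-1 : ℝ) ^ i)
        fun a ha => by rw [(Finset.mem_filter.1 ha).2], Finset.sum_const, nsmul_eq_mul, mul_comm])
  rw [htop] at key
  have g3 := alen_le_sq (Module.length_ne_top_iff.1 (ln_quot_ne_top f4 K.b0)) (α := c.α) (α' := c.α')
    fun w => by
      obtain ⟨v, rfl⟩ := K.b0.mkQ_surjective w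
      rw [← map_smul, hkill, map_zero]
  have g4 : alen (c.α ^ 2) (_ ⧸ K.b0) ≤ len c.Λ ((Fin r → c.B) ⧸ zsub c.Λ Z 1) := by
    refine ln_len_le (ln_quot_ne_top (Module.length_ne_top_iff.1 ?_) _) k4
    rw [Module.length_pi_of_fintype]
    exact WithTop.sum_ne_top.2 fun _ _ => Module.length_ne_top_iff.2 hc.finB
  have g5 := (ln_len_le (ln_quot_ne_top f4 _) (colen_le_of_surj K.b0.mkQ K.b0.mkQ_surjective
    (ln_map_ism _ (Ideal.span {c.α + c.α'})))).trans
    (g2.trans (mul_le_mul_of_nonneg_right (min_le_right _ _) hν.le))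
  linarith

end Crest.Agent.R183
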