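import Crest.Agent.R183.DT1

/-!
# rid 183, file `DT2`: the cover property gives the lower bound

Prefix helper lemmas with `dt2_`.
-/

set_option autoImplicit false

open IsLocalRing

namespace Crest.Agent.R183

theorem dt2_fin_pi {Λ B : Type} [CommRing Λ] [AddCommGroup B] [Module Λ B] (h : IsFiniteLength Λ B)
    (r : ℕ) : IsFiniteLength Λ (Fin r → B) := by
  rw [isFiniteLength_iff_isNoetherian_isArtinian] at h ⊢
  obtain ⟨h1, h2⟩ := h
  exact ⟨inferInstance, inferInstance⟩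

theorem dt2_fin_quot {Λ W : Type} [CommRing Λ] [AddCommGroup W] [Module Λ W] (h : IsFiniteLength Λ W)
    (U : Submodule Λ W) : IsFiniteLength Λ (W ⧸ U) :=
  isFiniteLength_of_colen_le (ln_quot_ne_top h U) le_rfl

theorem dt2_br_ne_top {Λ W : Type} [CommRing Λ] [AddCommGroup W] [Module Λ W] {d : ℕ} {X : Fin d → Λ}
    (h : IsFiniteLength Λ (W ⧸ ism (idl X) W)) (k : ℕ) : colen Λ (ism (br X k) W) ≠ ⊤ := by
  have h1 := colen_br_le (W := W) X k ⊥
  rw [bot_sup_eq, bot_sup_eq] at h1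
  exact ne_top_of_le_ne_top (WithTop.mul_ne_top (ENat.natCast_ne_top _) (Module.length_ne_top_iff.2 h)) h1

/-- matrices over `B` as `Λ`-linear maps -/
def dt2_end (Λ : Type) [CommRing Λ] {B : Type} [CommRing B] [Algebra Λ B] {r : ℕ}
    (A : Matrix (Fin r) (Fin r) B) : Module.End Λ (Fin r → B) := A.mulVecLin.restrictScalars Λ

theorem dt2_end_mul (Λ : Type) [CommRing Λ] {B : Type} [CommRing B] [Algebra Λ B] {r : ℕ}
    (A A' : Matrix (Fin r) (Fin r) B) : dt2_end Λ (A * A') = dt2_end Λ A * dt2_end Λ A' :=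
  LinearMap.ext fun w => (Matrix.mulVec_mulVec w A A').symm

theorem dt2_end_sum (Λ : Type) [CommRing Λ] {B : Type} [CommRing B] [Algebra Λ B] {r d : ℕ}
    (A : Fin d → Matrix (Fin r) (Fin r) B) : dt2_end Λ (∑ l, A l) = ∑ l, dt2_end Λ (A l) :=
  LinearMap.ext fun w => by
    rw [LinearMap.sum_apply]
    exact Matrix.sum_mulVec Finset.univ A w

theorem dt2_end_smul (Λ : Type) [CommRing Λ] {B : Type} [CommRing B] [Algebra Λ B] {r : ℕ} (a : Λ) :
    dt2_end Λ (algebraMap Λ B a • (1 : Matrix (Fin r) (Fin r) B)) = a • 1 :=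
  LinearMap.ext fun w => by
    show (algebraMap Λ B a • (1 : Matrix (Fin r) (Fin r) B)).mulVec w = a • w
    rw [Matrix.smul_mulVec, Matrix.one_mulVec, algebraMap_smul]

/-- `e1_all` on `W = Fin r → B` with `x i = X i ^ q`, `γ = α`, `t := 1`, `k := t`,
`L = 2 d N0 d t`, `n2 = L + d`.  `AReg`: `Reg.pow`, `Reg.areg`, `AReg.quot` (`idl_pow_le_br_pow`),
`AReg.of_sandwich`, `AReg.pi`.  The error: `esub z 1 ≥ br X (q N0) W` (`InIdl.smul_mem`), then `colen_ism_pi`,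
`colen_br_le`, `colen_span_pow_le`. -/
theorem dt_e1 {d : ℕ} (hd : 0 < d) (N0 t : ℕ) (ht : 0 < t) :
    ∃ n2 : ℕ, ∀ (c : Cov d) (n0 r : ℕ), c.Basic n0 → n2 ≤ n0 → 0 < c.q →
      ∀ (Z : Fin d → Matrix (Fin r) (Fin r) c.B) (H : Fin d → Fin d → Matrix (Fin r) (Fin r) c.B),
        (∀ i j, Z i * Z j = Z j * Z i) → (∀ i j l, Z i * H j l = H j l * Z i) →
        (∀ i j k l, H i j * H k l = H k l * H i j) →
        (∀ i, algebraMap c.Λ c.B (c.X i ^ (c.q * N0)) • (1 : Matrix (Fin r) (Fin r) c.B) = ∑ l, Z l * H i l) →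
        (t : ℝ) ^ d * len c.Λ ((Fin r → c.B) ⧸ zsub c.Λ Z 1) ≤ len c.Λ ((Fin r → c.B) ⧸ zsub c.Λ Z t) +
          (d : ℝ) ^ 2 * (N0 : ℝ) ^ d * (t : ℝ) ^ d * r *
            len c.Λ (c.B ⧸ ism (br c.X c.q ⊔ Ideal.span {c.α}) c.B) := by
  refine ⟨2 * (d * (N0 * (d * (1 * t)))) + d, fun c n0 r h hn hq Z H hZZ hZH hHH hgen => ?_⟩
  obtain ⟨β, ι, h1, -⟩ := h.sand
  have hR0 : AReg 1 (fun i => c.X i ^ c.q) (2 * (d * (N0 * (d * (1 * t)))))
      (c.N ⧸ ism (idl c.X ^ (n0 * c.q)) c.N) := by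
    refine ((h.reg.pow (a := fun _ => c.q) fun _ => hq).areg _).quot (ln_ism_mono ?_)
    refine le_trans (Ideal.pow_le_pow_right ?_) (idl_pow_le_br_pow hd c.X c.q _)
    rw [mul_comm n0]
    exact Nat.mul_le_mul_left _ hn
  have hR : AReg c.α (fun i => c.X i ^ c.q) (2 * (d * (N0 * (d * (1 * t))))) (Fin r → c.B) :=
    (hR0.of_sandwich β ((Submodule.mkQ _).comp ι) fun w => by
      rw [LinearMap.comp_apply, h1]; rfl).pi (Fin r)
  let 𝒞 : Set (Module.End c.Λ (Fin r → c.B)) :=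
    dt2_end c.Λ '' (Set.range Z ∪ Set.range fun p : Fin d × Fin d => H p.1 p.2)
  have hC : ∀ a ∈ 𝒞, ∀ b ∈ 𝒞, Commute a b := by
    rintro _ ⟨A, hA, rfl⟩ _ ⟨A', hA', rfl⟩
    have : A * A' = A' * A := by
      rcases hA with ⟨i, rfl⟩ | ⟨p, rfl⟩ <;> rcases hA' with ⟨j, rfl⟩ | ⟨p', rfl⟩
      exacts [hZZ _ _, hZH _ _ _, (hZH _ _ _).symm, hHH _ _ _ _]
    show _ * _ = _ * _
    rw [← dt2_end_mul, this, dt2_end_mul]
  have hz : ∀ j, dt2_end c.Λ (Z j) ∈ 𝒞 := fun j => ⟨_, Or.inl ⟨j, rfl⟩, rfl⟩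
  have hx : ∀ i, InIdl 𝒞 (fun j => dt2_end c.Λ (Z j)) ((c.X i ^ c.q) ^ N0) := fun i =>
    ⟨fun l => dt2_end c.Λ (H i l), fun l => ⟨_, Or.inr ⟨(i, l), rfl⟩, rfl⟩, by
      rw [← pow_mul, ← dt2_end_smul, hgen, dt2_end_sum]
      simp only [dt2_end_mul]⟩
  have h2 := e1_all hC hz hR hx ht le_rfl
  have h3 : ism (br (fun i => c.X i ^ c.q) N0) (Fin r → c.B) ≤
      esub (fun j => dt2_end c.Λ (Z j)) fun _ => 1 := by
    refine Submodule.smul_le.2 fun a ha w _ => ?_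
    refine Submodule.span_induction (p := fun a _ => a • w ∈
      esub (fun j => dt2_end c.Λ (Z j)) fun _ => 1) ?_ (by simp) (fun a b _ _ ha hb => ?_)
      (fun a b _ hb => ?_) ha
    · rintro _ ⟨i, rfl⟩
      exact InIdl.smul_mem (𝒞 := 𝒞) (by simpa only [pow_one] using hx i) w
    · rw [add_smul]
      exact add_mem ha hb
    · rw [smul_eq_mul, mul_smul]
      exact Submodule.smul_mem _ _ hb
  have h4 : colen c.Λ (esub (fun j => dt2_end c.Λ (Z j)) (fun _ => 1) ⊔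
      ism (Ideal.span {c.α ^ d}) (Fin r → c.B)) ≤
      d * ((N0 ^ d : ℕ) * (r * colen c.Λ (ism (br c.X c.q ⊔ Ideal.span {c.α}) c.B))) := by
    refine (colen_anti (sup_le_sup_right h3 _)).trans ((colen_span_pow_le _ _ _).trans ?_)
    refine mul_le_mul_right ?_ _
    rw [sup_comm]
    refine (colen_br_le _ _ _).trans (mul_le_mul_right (le_of_eq ?_) _)
    rw [← ln_ism_sup, colen_ism_pi, Fintype.card_fin, sup_comm]
    rfl
  have h5 := h2.trans (add_le_add le_rfl (mul_le_mul_right h4 _))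
  have e1 : esub (fun j => dt2_end c.Λ (Z j)) (fun _ => 1) = zsub c.Λ Z 1 := (zsub_eq_esub Z 1).symm
  have e2 : esub (fun j => dt2_end c.Λ (Z j)) (fun _ => 1 * t) = zsub c.Λ Z t := by
    rw [one_mul]
    exact (zsub_eq_esub Z t).symm
  rw [e1, e2] at h5
  obtain ⟨a1, p1, q1⟩ := length_eq_len (dt2_fin_quot (dt2_fin_pi h.finB r) (zsub c.Λ Z 1))
  obtain ⟨a2, p2, q2⟩ := length_eq_len (dt2_fin_quot (dt2_fin_pi h.finB r) (zsub c.Λ Z t))
  obtain ⟨a3, p3, q3⟩ := length_eq_len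
    (dt2_fin_quot h.finB (ism (br c.X c.q ⊔ Ideal.span {c.α}) c.B))
  unfold colen at h5
  rw [p1, p2, p3] at h5
  rw [q1, q2, q3]
  have h6 : t ^ d * a1 ≤ a2 + d * t ^ d * (d * (N0 ^ d * (r * a3))) := by exact_mod_cast h5
  have h7 : (t : ℝ) ^ d * a1 ≤ a2 + d * t ^ d * (d * (N0 ^ d * (r * a3))) := by exact_mod_cast h6
  refine h7.trans (le_of_eq ?_)
  ring

/-- `alen_le_of_surj` and `alen_br_le` for `y i = X i ^ s`, `j = t j0`. -/
theorem dt_alen {d : ℕ} (hd : 0 < d) (c : Cov d) {n0 s j0 t : ℕ} (h : c.Basic n0) (hs : 0 < s) (hsq : s ≤ c.q)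
    (hq : c.q ≤ s * j0) (hn : d * (t * j0) ≤ n0) :
    alen c.α (c.N ⧸ ism (br c.X (c.q * t)) c.N) ≤ ((t * j0 : ℕ) : ℝ) ^ d *
      (alen c.α (c.N ⧸ ism (br c.X s) c.N) +
        len c.Λ (c.N ⧸ ism (br c.X c.q ⊔ Ideal.span {c.α + c.α'}) c.N)) := by
  have h1 : ism (br c.X (s * (t * j0))) c.N ≤ ism (br c.X (c.q * t)) c.N := by
    refine ln_ism_mono (br_anti _ ?_)
    calc c.q * t ≤ s * j0 * t := Nat.mul_le_mul_right _ hq
      _ = s * (t * j0) := by ring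
  have h2 := alen_le_of_surj (isFiniteLength_of_colen_le (dt2_br_ne_top h.finN _) le_rfl)
    (Submodule.factor h1) (Submodule.factor_surjective h1) c.α
  have h3 := alen_br_le (W := c.N) (fun i => c.X i ^ s) (t * j0) (α := c.α) (α' := c.α')
    (isFiniteLength_of_colen_le (dt2_br_ne_top h.finN s) le_rfl) fun w => by
      rw [br_br]
      refine ln_ism_mono (le_trans (Ideal.pow_le_pow_right ?_) (idl_pow_le_br hd c.X _)) (h.kill w)
      calc d * (s * (t * j0)) = d * (t * j0) * s := by ring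
        _ ≤ n0 * c.q := Nat.mul_le_mul hn hsq
  rw [br_br] at h3
  refine h2.trans (h3.trans (mul_le_mul_of_nonneg_left (add_le_add le_rfl ?_) (by positivity)))
  exact ln_cl_anti (ln_fin_anti (dt2_br_ne_top h.finN c.q) (ln_ism_mono le_sup_left))
    (ln_ism_mono (sup_le_sup_right (br_anti _ hsq) _))

theorem dt2_exists_s {Q K q : ℕ} (hq : (Q + 2) * (K + Q + 2) ≤ q) :
    ∃ s, 0 < s ∧ s ≤ q ∧ q ≤ s * (Q + 2) ∧ s * (Q + 1) ≤ q - K := by
  have h1 := Nat.div_add_mod (q + (Q + 1)) (Q + 2)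
  have h2 := Nat.mod_lt (q + (Q + 1)) (show 0 < Q + 2 by omega)
  have h3 : K + Q + 2 ≤ (q + (Q + 1)) / (Q + 2) := by
    rw [Nat.le_div_iff_mul_le (by omega), mul_comm]
    omega
  generalize (q + (Q + 1)) / (Q + 2) = s at *
  have h4 : (Q + 2) * s = s * Q + 2 * s := by ring
  have h5 : s * (Q + 2) = s * Q + 2 * s := by ring
  have h6 : s * (Q + 1) = s * Q + s := by ring
  exact ⟨s, by omega, by omega, by omega, by omega⟩

theorem dt2_num {b n κ a A L1 Lt u v ε ε' r ρ T x y η : ℝ} (hb : 0 ≤ b) (hbn : b ≤ n) (hκ : 0 ≤ κ)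
    (hA : 0 ≤ A) (hT : 0 ≤ T) (hρ : 0 ≤ ρ) (hr : 0 ≤ r) (hu : 0 ≤ u) (hκv : κ * v = u * T)
    (hv : 0 ≤ v) (hw : 0 ≤ y) (h1 : a ≤ v * (A + x)) (hx : x ≤ η * ρ) (hη : u * η ≤ ε)
    (h2 : n * u * A ≤ L1 + ε' * (r * ρ)) {z : ℝ} (h3 : T * L1 ≤ Lt + y * T * r * z) (hz : z ≤ η * ρ)
    (hε : y * η + ε' ≤ ε) : b * (κ * a - ε * ρ * T) ≤ Lt + ε * (r * ρ) * T := by
  have a1 : κ * a ≤ u * T * (A + η * ρ) := by
    rw [← hκv, mul_assoc]
    exact mul_le_mul_of_nonneg_left (h1.trans (mul_le_mul_of_nonneg_left (by linarith) hv)) hκ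
  have a2 : u * η * (ρ * T) ≤ ε * (ρ * T) := mul_le_mul_of_nonneg_right hη (by positivity)
  have a3 : b * (κ * a - ε * ρ * T) ≤ b * (u * T * A) := mul_le_mul_of_nonneg_left (by linarith) hb
  have a4 : b * (u * T * A) ≤ n * (u * T * A) := mul_le_mul_of_nonneg_right hbn (by positivity)
  have a5 := mul_le_mul_of_nonneg_left h2 hT
  have a6 : y * T * r * z ≤ y * T * r * (η * ρ) := mul_le_mul_of_nonneg_left hz (by positivity)
  have a7 : (y * η + ε') * (r * ρ * T) ≤ ε * (r * ρ * T) :=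
    mul_le_mul_of_nonneg_right hε (by positivity)
  linarith

/-- The algebraic part.  Over `R̄ = R / 𝔪^M` (local, `M > 0`) the reduced matrices commute; `gen` gives `H i l` for
`μ = x i ^ N0`; take a minimal complex (`exists_minData_kos`, `MinData.exists_min`), `b0 ≤ #degree 0`
(`Sys.b0_eq`, `MinData.colen_le`).  `F` consists of the set of `CxData.exists_finset` and the entries of `D`, `Z`,
`H`.  Combine `dt_core`, `dt_e1`, `dt_alen`. -/
theorem dt_alg (m q' N0 K : ℕ) (hq' : 0 < q') (Cc ε : ℝ) (hε : 0 < ε) :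
    ∃ (η : ℝ) (nf : ℕ → ℕ) (q0 : ℕ), 0 < η ∧ ∀ (R : Type) [CommRing R] [IsNoetherianRing R] [IsLocalRing R]
      (x : Fin (m + 1) → R), (∀ i, x i ∈ maximalIdeal R) → ∀ (M r : ℕ), 0 < M →
      ∀ S : Sys R (maximalIdeal R) M (m + 1) N0 r, ∃ F : Finset (R ⧸ maximalIdeal R ^ M),
        ∀ (c : Cov (m + 1)) (φ : PHom (R ⧸ maximalIdeal R ^ M) c.B) (t : ℕ), 0 < t → c.Basic (nf t) →
          q0 ≤ c.q → c.Hom x K M F φ → len c.Λ (c.N ⧸ ism (br c.X c.q) c.N) ≤ Cc * c.ρ →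
          len c.Λ (c.N ⧸ ism (br c.X c.q ⊔ Ideal.span {c.α + c.α'}) c.N) ≤ η * c.ρ →
          len c.Λ (c.B ⧸ ism (br c.X c.q ⊔ Ideal.span {c.α}) c.B) ≤ η * c.ρ →
          S.b0 * (((q' : ℝ) / (q' + m + 2)) ^ (m + 1) * alen c.α (c.N ⧸ ism (br c.X (c.q * t)) c.N) -
              ε * c.ρ * (t : ℝ) ^ (m + 1)) ≤
            len c.Λ ((Fin r → c.B) ⧸ zsub c.Λ (S.Zφ φ) t) + ε * (r * c.ρ) * (t : ℝ) ^ (m + 1) := by
  classical
  obtain ⟨η0, n1, hη0, hcore⟩ := dt_core m q' N0 hq' Cc (ε / 2) (half_pos hε)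
  choose n2 he1 using fun (t : ℕ) (ht : 0 < t) => dt_e1 (d := m + 1) (Nat.succ_pos m) N0 t ht
  obtain ⟨y, hy⟩ : ∃ y : ℝ, y = ((m + 1 : ℕ) : ℝ) ^ 2 * (N0 : ℝ) ^ (m + 1) := ⟨_, rfl⟩
  have hy0 : 0 ≤ y := by rw [hy]; positivity
  have hu0 : (0 : ℝ) < (q' : ℝ) ^ (m + 1) := by positivity
  refine ⟨min η0 (min (ε / (q' : ℝ) ^ (m + 1)) (ε / 2 / (y + 1))),
    fun t => n1 + (if ht : 0 < t then n2 t ht else 0) + (m + 1) * (t * (q' + m + 2)),
    (q' + m + 2) * (K + (q' + m) + 2), by positivity, fun R _ _ _ x hx M r hM S => ?_⟩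
  have : Nontrivial (R ⧸ maximalIdeal R ^ M) := Ideal.Quotient.nontrivial_iff.2
    (ne_top_of_le_ne_top (maximalIdeal.isMaximal R).ne_top (Ideal.pow_le_self hM.ne'))
  have : IsLocalRing (R ⧸ maximalIdeal R ^ M) :=
    IsLocalRing.of_surjective' (Ideal.Quotient.mk _) Ideal.Quotient.mk_surjective
  choose H hHC hH using fun i => S.gen (x i ^ N0) (Ideal.pow_mem_pow (hx i) N0)
  set π := Ideal.Quotient.mk (maximalIdeal R ^ M) with hπ
  have hcomm : ∀ A ∈ S.C, ∀ A' ∈ S.C, A.map π * A'.map π = A'.map π * A.map π := by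
    intro A hA A' hA'
    rw [← Matrix.map_mul, ← Matrix.map_mul]
    ext i j
    exact Ideal.Quotient.eq.2 (S.comm A hA A' hA' i j)
  have hgen : ∀ i, π (x i) ^ N0 • (1 : Matrix (Fin r) (Fin r) (R ⧸ maximalIdeal R ^ M)) =
      ∑ l, (S.Z l).map π * (H i l).map π := by
    intro i
    ext a b
    have h1 : π ((x i ^ N0 • (1 : Matrix (Fin r) (Fin r) R)) a b) = π ((∑ l, S.Z l * H i l) a b) :=
      Ideal.Quotient.eq.2 (hH i a b)
    simp only [Matrix.smul_apply, Matrix.sum_apply, Matrix.mul_apply, Matrix.map_apply, smul_eq_mul,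
      map_mul, map_pow, map_sum, Matrix.one_apply, apply_ite π, map_one, map_zero] at h1 ⊢
    exact h1
  obtain ⟨m0, hm0⟩ := exists_minData_kos (Z := fun j => (S.Z j).map π) (c := fun i => π (x i) ^ N0)
    (Nat.succ_pos m) (fun i j => hcomm _ (S.Z_mem i) _ (S.Z_mem j)) (fun i l => (H i l).map π)
    (fun i j l => hcomm _ (S.Z_mem i) _ (hHC j l)) hgen
  obtain ⟨m1, hm1, hD⟩ := m0.exists_min
  have hb0 : S.b0 ≤ ((Finset.univ.filter fun a => m1.deg a = 0).card : ℕ) := by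
    rw [S.b0_eq]
    exact len_le_of_le m1.colen_le
  obtain ⟨F0, hF0⟩ := m1.toCxData.exists_finset
  refine ⟨F0 ∪ (Finset.univ.image fun p : m1.ι × m1.ι => m1.D p.1 p.2) ∪
    (Finset.univ.image fun p : Fin (m + 1) × Fin r × Fin r => π (S.Z p.1 p.2.1 p.2.2)) ∪
    (Finset.univ.image fun p : (Fin (m + 1) × Fin (m + 1)) × Fin r × Fin r =>
      π (H p.1.1 p.1.2 p.2.1 p.2.2)), fun c φ t ht hB hq hom hN hsN hsB => ?_⟩
  simp only [dif_pos ht] at hB
  have hZd : ∀ j, φ.MDom ((S.Z j).map π) := fun j a b => hom.dom _ (Finset.mem_union_left _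
    (Finset.mem_union_right _ (Finset.mem_image.2 ⟨(j, a, b), Finset.mem_univ _, rfl⟩)))
  have hHd : ∀ i l, φ.MDom ((H i l).map π) := fun i l a b => hom.dom _ (Finset.mem_union_right _
    (Finset.mem_image.2 ⟨((i, l), a, b), Finset.mem_univ _, rfl⟩))
  have hcv : ∀ i, φ.toFun (π (x i) ^ N0) = algebraMap c.Λ c.B (c.X i ^ (c.q * N0)) := fun i => by
    rw [φ.map_pow (hom.xdom i), hom.xval, ← map_pow, ← pow_mul]
  have hex := hF0 c.B φ fun a ha => hom.dom a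
    (Finset.mem_union_left _ (Finset.mem_union_left _ (Finset.mem_union_left _ ha)))
  rw [funext hcv] at hex
  obtain ⟨C', e, he, hD'⟩ := hex
  obtain ⟨s, hs0, hsq, hqs, hsK⟩ := dt2_exists_s hq
  have hρ := hB.pos
  have hη1 : min η0 (min (ε / (q' : ℝ) ^ (m + 1)) (ε / 2 / (y + 1))) * c.ρ ≤ η0 * c.ρ :=
    mul_le_mul_of_nonneg_right (min_le_left _ _) hρ.le
  have h1 := hcore c _ s r hB (by omega) hs0 hsq hqs _ C'
    (by rw [Fintype.card_congr e, ← hm0]; exact hm1) (fun a b => by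
      obtain ⟨a0, ha0⟩ := Ideal.Quotient.mk_surjective (m1.D (e a) (e b))
      have h2 : a0 ∈ maximalIdeal R := by
        by_contra h2
        have h3 := hD (e a) (e b)
        rw [← ha0] at h3
        exact h3 ((IsLocalRing.notMem_maximalIdeal.1 h2).map _)
      rw [hD', ← ha0]
      refine ln_ism_mono (Ideal.pow_le_pow_right hsK) (hom.contr a0 h2 ?_)
      rw [ha0]
      exact Finset.mem_union_left _ (Finset.mem_union_left _ (Finset.mem_union_right _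
        (Finset.mem_image.2 ⟨(e a, e b), Finset.mem_univ _, rfl⟩)))) hN (hsN.trans hη1)
  have hcard : (Finset.univ.filter fun a => C'.deg a = 0).card =
      (Finset.univ.filter fun a => m1.deg a = 0).card :=
    Finset.card_equiv e fun a => by simp [he]
  rw [hcard] at h1
  have hmm : ∀ A ∈ S.C, ∀ A' ∈ S.C, φ.MDom (A.map π) → φ.MDom (A'.map π) →
      (A.map π).map φ.toFun * (A'.map π).map φ.toFun =
        (A'.map π).map φ.toFun * (A.map π).map φ.toFun := fun A hA A' hA' h h' => by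
    rw [← PHom.mat_mul h h', ← PHom.mat_mul h' h, hcomm A hA A' hA']
  have h2 := he1 t ht c _ r hB (by omega) (by omega)
    (fun j => ((S.Z j).map π).map φ.toFun) (fun i l => ((H i l).map π).map φ.toFun)
    (fun i j => hmm _ (S.Z_mem i) _ (S.Z_mem j) (hZd i) (hZd j))
    (fun i j l => hmm _ (S.Z_mem i) _ (hHC j l) (hZd i) (hHd j l))
    (fun i j k l => hmm _ (hHC i j) _ (hHC k l) (hHd i j) (hHd k l)) fun i => by
      rw [← hcv, ← PHom.mat_one (φ := φ), ← PHom.mat_smul PHom.mdom_one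
        (φ.dom.pow_mem (hom.xdom i) N0), hgen, PHom.mat_sum _ _ fun l _ => (hZd l).mul (hHd i l)]
      exact Finset.sum_congr rfl fun l _ => PHom.mat_mul (hZd l) (hHd i l)
  have h3 := dt_alen (d := m + 1) (Nat.succ_pos m) c (t := t) hB hs0 hsq hqs (Nat.le_add_left _ _)
  rw [← hy] at h2
  refine dt2_num S.b0_nonneg hb0 (by positivity) len_nonneg (by positivity) hρ.le (by positivity)
    hu0.le ?_ (by positivity) hy0 h3 hsN ?_ h1 h2 hsB ?_
  · rw [← mul_pow, ← mul_pow]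
    congr 1
    push_cast
    field_simp
  · rw [mul_comm, ← le_div_iff₀ hu0]
    exact (min_le_right _ _).trans (min_le_left _ _)
  · have h4 : min η0 (min (ε / (q' : ℝ) ^ (m + 1)) (ε / 2 / (y + 1))) * (y + 1) ≤ ε / 2 := by
      rw [← le_div_iff₀ (by positivity)]
      exact (min_le_right _ _).trans (min_le_right _ _)
    have h5 : 0 < min η0 (min (ε / (q' : ℝ) ^ (m + 1)) (ε / 2 / (y + 1))) := by positivity
    linarith

theorem dt2_exists_q (m : ℕ) {E ε : ℝ} (hE : 0 < E) (hε : 0 < ε) : ∃ q' : ℕ, 0 < q' ∧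
    E - ε ≤ ((q' : ℝ) / (q' + m + 2)) ^ (m + 1) * E ∧ ((q' : ℝ) / (q' + m + 2)) ^ (m + 1) ≤ 1 := by
  obtain ⟨q', hq'⟩ := exists_nat_gt ((m + 1) * (m + 2) * E / ε)
  have h0 : (0 : ℝ) < q' := lt_trans (by positivity) hq'
  have h1 : (0 : ℝ) < q' + m + 2 := by positivity
  have h2 : ((m : ℝ) + 2) / (q' + m + 2) ≤ 1 := by
    rw [div_le_one h1]
    linarith
  refine ⟨q', by exact_mod_cast h0, ?_, pow_le_one₀ (by positivity) ?_⟩
  · have h3 := one_add_mul_le_pow (a := -(((m : ℝ) + 2) / (q' + m + 2))) (by linarith) (m + 1)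
    have h4 : 1 + -(((m : ℝ) + 2) / (q' + m + 2)) = q' / (q' + m + 2) := by
      field_simp
      ring
    rw [h4] at h3
    have h5 : (m + 1) * (((m : ℝ) + 2) / (q' + m + 2)) * E ≤ ε := by
      rw [div_lt_iff₀ hε] at hq'
      rw [← mul_div_assoc, div_mul_eq_mul_div, div_le_iff₀ h1]
      have : 0 ≤ ε * (m + 2) := by positivity
      linarith
    have h6 := mul_le_mul_of_nonneg_right h3 hE.le
    push_cast at h6
    linarith
  · rw [div_le_one h1]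
    linarith [(Nat.cast_nonneg m : (0 : ℝ) ≤ m)]

theorem dt2_num2 {b κ a E ε ρ t T L z r u C : ℝ} (hb : 0 ≤ b) (hκ0 : 0 ≤ κ) (hκ1 : κ ≤ 1)
    (hκ : E - ε ≤ κ * E) (hε : 0 ≤ ε) (hρ : 0 < ρ) (ht : 0 < t) (hT : 0 ≤ T) (hr : 0 ≤ r)
    (hu : u ≤ 2 * ε) (hrC : r ≤ C * b) (h1 : b * (κ * a - ε * ρ * t) ≤ L + ε * (r * ρ) * t)
    (h2 : ρ * E * t ≤ a + u * ρ * t) (h3 : L * T ≤ (ρ * z + r * u * ρ * T) * t) :
    b * (E - (4 + 3 * C) * ε) * T ≤ z := by
  have hρt : 0 < ρ * t := by positivity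
  have a1 : u * (ρ * t) ≤ 2 * ε * (ρ * t) := mul_le_mul_of_nonneg_right hu hρt.le
  have a2 : κ * ((E - 2 * ε) * (ρ * t)) ≤ κ * a := mul_le_mul_of_nonneg_left (by linarith) hκ0
  have a3 : (E - 3 * ε) * (ρ * t) ≤ κ * (E - 2 * ε) * (ρ * t) :=
    mul_le_mul_of_nonneg_right (by nlinarith) hρt.le
  have a4 : b * ((E - 4 * ε) * (ρ * t)) ≤ b * (κ * a - ε * ρ * t) :=
    mul_le_mul_of_nonneg_left (by linarith) hb
  have a5 := mul_le_mul_of_nonneg_right (a4.trans h1) hT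
  have a6 : u * (ρ * t) * (r * T) ≤ 2 * ε * (ρ * t) * (r * T) :=
    mul_le_mul_of_nonneg_right a1 (by positivity)
  have a7 : r * (ε * T * (ρ * t)) ≤ C * b * (ε * T * (ρ * t)) :=
    mul_le_mul_of_nonneg_right hrC (by positivity)
  refine le_of_mul_le_mul_right ?_ hρt
  linarith

/-- Numerics.  If `E ≤ 0` the claim is trivial.  Otherwise choose `q'` with `(q' / (q' + m + 2))^(m+1) E ≥ E - ε1`,
`t0` with `(1 + |C0|) Cc / t0 ≤ ε1`, apply `dt_alg` and the cover property with `min η ε1`, divide by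
`ρ t^(m+1)`, and use `r ≤ C0 b0`. -/
theorem lowB_of_cp {R : Type} [CommRing R] [IsNoetherianRing R] [IsLocalRing R] {m : ℕ} {x : Fin (m + 1) → R}
    (hx : ∀ i, x i ∈ maximalIdeal R) {E : ℝ} (h : CP R (m + 1) x E) : LowB R (m + 1) E := by
  intro N0 C0 ε hε
  rcases le_or_gt E 0 with hE | hE
  · refine ⟨0, fun T _ => ⟨0, fun M _ r S _ => le_trans ?_ (S.zl_nonneg T)⟩⟩
    exact mul_nonpos_of_nonpos_of_nonneg (mul_nonpos_of_nonneg_of_nonpos S.b0_nonneg (by linarith))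
      (by positivity)
  obtain ⟨K, Cc, hCc, h⟩ := h N0
  obtain ⟨ε1, hε1, hε1'⟩ : ∃ ε1 : ℝ, 0 < ε1 ∧ (4 + 3 * |C0|) * ε1 = ε :=
    ⟨ε / (4 + 3 * |C0|), by positivity, mul_div_cancel₀ _ (by positivity)⟩
  obtain ⟨q', hq', hκ, hκ1⟩ := dt2_exists_q m hE hε1
  obtain ⟨t0, ht0⟩ := exists_nat_gt (Cc / ε1)
  have ht0' : (0 : ℝ) < t0 := lt_of_le_of_lt (by positivity) ht0
  obtain ⟨η, nf, q0, hη, halg⟩ := dt_alg m q' N0 K hq' Cc ε1 hε1
  obtain ⟨T0, h⟩ := h nf t0 q0 (min η ε1) (lt_min hη hε1)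
  refine ⟨T0, fun T hT => ?_⟩
  obtain ⟨t, ht, M0, h⟩ := h T hT
  refine ⟨max M0 1, fun M hM r S hr => ?_⟩
  obtain ⟨F, hF⟩ := halg R x hx M r (lt_of_lt_of_le one_pos ((le_max_right _ _).trans hM)) S
  obtain ⟨c, φ, hB, hq, hEst, hom, hup⟩ := h M ((le_max_left _ _).trans hM) r S F
  have htt : (t0 : ℝ) ≤ t := by exact_mod_cast ht
  have ht' : (0 : ℝ) < t := ht0'.trans_le htt
  have hη1 : min η ε1 * c.ρ ≤ η * c.ρ := mul_le_mul_of_nonneg_right (min_le_left _ _) hB.pos.le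
  have h1 := hF c φ t (by exact_mod_cast ht') hB hq hom hEst.lenN (hEst.smallN.trans hη1)
    (hEst.smallB.trans hη1)
  have h2 : Cc / t ≤ ε1 := by
    rw [div_lt_iff₀ hε1] at ht0
    rw [div_le_iff₀ ht']
    nlinarith
  rw [← hε1']
  exact dt2_num2 S.b0_nonneg (by positivity) hκ1 hκ hε1.le hB.pos (by positivity) (by positivity)
    (by positivity) (by linarith [min_le_right η ε1])
    (hr.trans (mul_le_mul_of_nonneg_right (le_abs_self _) S.b0_nonneg)) h1 hEst.low hup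

end Crest.Agent.R183
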