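import Crest.Agent.R183.Dsc
import Crest.Agent.R183.Ord

/-!
# rid 183, file `Dat`: approximate presentations of a finite extension `R` of a regular base

`N = Λ[Y] / f`, `δ R ≤ N`, the generators are `g i = ν i / δ`.  Prefix helper lemmas with `da_`.
-/

set_option autoImplicit false

namespace Crest.Agent.R183

/-- The numerical parameters. -/
structure Par where
  n : ℕ
  s : ℕ
  ρ : ℕ
  a : ℕ
  D : ℕ
  v : ℕ
  o : ℕ
  oΔ : ℕ
  a_pos : 0 < a

/-- The data, with relations modulo `(X)^M'`. -/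
structure Dat (P : Par) (Λ : Type) [CommRing Λ] (X : Fin P.n → Λ) (M' : ℕ) where
  f : Polynomial Λ
  monic : f.Monic
  deg : f.natDegree = P.ρ
  δ : Λ
  δ_mem : δ ∈ idl X ^ P.o
  δ_not : δ ∉ idl X ^ (P.o + 1)
  dsc_not : dsc f P.ρ ∉ idl X ^ (P.oΔ + 1)
  ν : Fin (P.s + 1) → Polynomial Λ
  ν0 : ν 0 = Polynomial.C δ * Polynomial.X
  c : Fin (P.s + 1) → ℕ → Λ
  c_mem : ∀ i, ∀ j ∈ Finset.Icc 1 P.a, c i j ∈ idl X ^ j
  E1 : ∀ i, ν i ^ P.a + ∑ j ∈ Finset.Icc 1 P.a, Polynomial.C (c i j * δ ^ j) * ν i ^ (P.a - j) ∈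
    Ideal.span {f} ⊔ (idl X ^ M').map (Polynomial.C : Λ →+* Polynomial Λ)
  K : Fin P.v → MvPolynomial (Fin (P.s + 1)) Λ
  E2 : ∀ j, MvPolynomial.C (Polynomial.C δ) ^ P.D * MvPolynomial.map Polynomial.C (K j) ∈
    Ideal.span (insert (MvPolynomial.C f) (Set.range fun i =>
      MvPolynomial.C (Polynomial.C δ) * MvPolynomial.X i - MvPolynomial.C (ν i))) ⊔
    (idl X ^ M').map ((MvPolynomial.C : Polynomial Λ →+* MvPolynomial (Fin (P.s + 1)) (Polynomial Λ)).comp
      Polynomial.C)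

/-- The ideal `(X, G)` of `Λ[G]`. -/
noncomputable def xg {Λ : Type} [CommRing Λ] {n : ℕ} (X : Fin n → Λ) (σ : Type) : Ideal (MvPolynomial σ Λ) :=
  (idl X).map MvPolynomial.C ⊔ Ideal.span (Set.range MvPolynomial.X)

variable {P : Par} {Λ Λ' : Type} [CommRing Λ] [CommRing Λ'] {M' : ℕ}

theorem da_idl_map {n : ℕ} (X : Fin n → Λ) (g : Λ →+* Λ') : idl (fun i => g (X i)) = (idl X).map g := by
  rw [idl, idl, Ideal.map_span, ← Set.range_comp]
  rfl

theorem da_pull {A B : Type} [CommRing A] [CommRing B] (φ : A →+* B) (hφ : Function.Surjective φ) {J : Ideal A}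
    (hk : RingHom.ker φ ≤ J) {x : A} (h : φ x ∈ J.map φ) : x ∈ J := by
  have h1 : x ∈ (J.map φ).comap φ := h
  rw [Ideal.comap_map_of_surjective φ hφ] at h1
  exact (sup_le le_rfl hk : J ⊔ _ ≤ J) h1

theorem da_E1_ideal {n : ℕ} (X : Fin n → Λ) (g : Λ →+* Λ') (f : Polynomial Λ) (M : ℕ) :
    (Ideal.span {f} ⊔ (idl X ^ M).map (Polynomial.C : Λ →+* Polynomial Λ)).map (Polynomial.mapRingHom g) =
      Ideal.span {f.map g} ⊔ (idl (fun i => g (X i)) ^ M).map (Polynomial.C : Λ' →+* Polynomial Λ') := by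
  rw [Ideal.map_sup, Ideal.map_span, Set.image_singleton, da_idl_map, ← Ideal.map_pow, Ideal.map_map,
    Ideal.map_map, Polynomial.mapRingHom_comp_C]
  rfl

theorem da_E1_elt (g : Λ →+* Λ') (ν : Polynomial Λ) (c : ℕ → Λ) (δ : Λ) (a : ℕ) :
    Polynomial.mapRingHom g (ν ^ a + ∑ j ∈ Finset.Icc 1 a, Polynomial.C (c j * δ ^ j) * ν ^ (a - j)) =
      ν.map g ^ a + ∑ j ∈ Finset.Icc 1 a, Polynomial.C (g (c j) * g δ ^ j) * ν.map g ^ (a - j) := by
  simp only [map_add, map_sum, map_mul, map_pow, Polynomial.coe_mapRingHom, Polynomial.map_C]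

theorem da_E2_ideal {n : ℕ} {σ : Type} (X : Fin n → Λ) (g : Λ →+* Λ') (f : Polynomial Λ) (δ : Λ)
    (ν : σ → Polynomial Λ) (M : ℕ) :
    (Ideal.span (insert (MvPolynomial.C f) (Set.range fun i =>
      MvPolynomial.C (Polynomial.C δ) * MvPolynomial.X i - MvPolynomial.C (ν i))) ⊔
    (idl X ^ M).map ((MvPolynomial.C : Polynomial Λ →+* MvPolynomial σ (Polynomial Λ)).comp
      Polynomial.C)).map (MvPolynomial.map (Polynomial.mapRingHom g)) =
    Ideal.span (insert (MvPolynomial.C (f.map g)) (Set.range fun i =>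
      MvPolynomial.C (Polynomial.C (g δ)) * MvPolynomial.X i - MvPolynomial.C ((ν i).map g))) ⊔
    (idl (fun i => g (X i)) ^ M).map ((MvPolynomial.C : Polynomial Λ' →+* MvPolynomial σ (Polynomial Λ')).comp
      Polynomial.C) := by
  rw [Ideal.map_sup, Ideal.map_span, Set.image_insert_eq, ← Set.range_comp, da_idl_map, ← Ideal.map_pow,
    Ideal.map_map, Ideal.map_map]
  congr 2
  · congr 1
    · simp
    · congr 1
      funext i
      simp
  · ext a : 1
    simp

theorem da_E2_elt {σ : Type} (g : Λ →+* Λ') (δ : Λ) (D : ℕ) (K : MvPolynomial σ Λ) :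
    MvPolynomial.map (Polynomial.mapRingHom g)
      (MvPolynomial.C (Polynomial.C δ) ^ D * MvPolynomial.map Polynomial.C K) =
      MvPolynomial.C (Polynomial.C (g δ)) ^ D * MvPolynomial.map Polynomial.C (MvPolynomial.map g K) := by
  rw [map_mul, map_pow, MvPolynomial.map_C, MvPolynomial.map_map, MvPolynomial.map_map,
    Polynomial.mapRingHom_comp_C]
  simp

/-- Push the data along a surjection with deep kernel. -/
theorem Dat.exists_map {X : Fin P.n → Λ} (dt : Dat P Λ X M') (g : Λ →+* Λ') (hg : Function.Surjective g)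
    (hk : RingHom.ker g ≤ idl X ^ M') (ho : P.o + 1 ≤ M') (hΔ : P.oΔ + 1 ≤ M') :
    ∃ dt' : Dat P Λ' (fun i => g (X i)) M', ∀ j, dt'.K j = MvPolynomial.map g (dt.K j) := by
  have hnot : ∀ {x : Λ} {k : ℕ}, k ≤ M' → x ∉ idl X ^ k → g x ∉ idl (fun i => g (X i)) ^ k := by
    intro x k hkM hx h
    rw [da_idl_map, ← Ideal.map_pow] at h
    exact hx (da_pull g hg (hk.trans (Ideal.pow_le_pow_right hkM)) h)
  have hmem : ∀ {x : Λ} {k : ℕ}, x ∈ idl X ^ k → g x ∈ idl (fun i => g (X i)) ^ k := by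
    intro x k hx
    rw [da_idl_map, ← Ideal.map_pow]
    exact Ideal.mem_map_of_mem g hx
  have hδ := hnot ho dt.δ_not
  have : Nontrivial Λ' := ⟨g dt.δ, 0, fun h => hδ (h ▸ Submodule.zero_mem _)⟩
  refine ⟨{ f := dt.f.map g
            monic := dt.monic.map g
            deg := by rw [dt.monic.natDegree_map, dt.deg]
            δ := g dt.δ
            δ_mem := hmem dt.δ_mem
            δ_not := hδ
            dsc_not := by
              rw [dsc_map g dt.monic]
              exact hnot hΔ dt.dsc_not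
            ν := fun i => (dt.ν i).map g
            ν0 := by simp [dt.ν0]
            c := fun i j => g (dt.c i j)
            c_mem := fun i j hj => hmem (dt.c_mem i j hj)
            E1 := fun i => by
              rw [← da_E1_ideal, ← da_E1_elt]
              exact Ideal.mem_map_of_mem _ (dt.E1 i)
            K := fun j => MvPolynomial.map g (dt.K j)
            E2 := fun j => by
              rw [← da_E2_ideal, ← da_E2_elt]
              exact Ideal.mem_map_of_mem _ (dt.E2 j) }, fun j => rfl⟩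

/-- Lift the data along a surjection with deep kernel (`Polynomial.lifts_and_natDegree_eq_and_monic`; lift `δ` and
`c i j` inside the powers of `(X)`, and put `ν 0 = δ Y`). -/
theorem Dat.exists_lift {X : Fin P.n → Λ} (g : Λ →+* Λ') (hg : Function.Surjective g)
    (hk : RingHom.ker g ≤ idl X ^ M') (dt' : Dat P Λ' (fun i => g (X i)) M') :
    ∃ dt : Dat P Λ X M', ∀ j, dt'.K j = MvPolynomial.map g (dt.K j) := by
  have hmem : ∀ {x : Λ} {k : ℕ}, x ∈ idl X ^ k → g x ∈ idl (fun i => g (X i)) ^ k := by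
    intro x k hx
    rw [da_idl_map, ← Ideal.map_pow]
    exact Ideal.mem_map_of_mem g hx
  have hlift : ∀ {y : Λ'} {k : ℕ}, y ∈ idl (fun i => g (X i)) ^ k → ∃ x ∈ idl X ^ k, g x = y := by
    intro y k hy
    rw [da_idl_map, ← Ideal.map_pow] at hy
    exact (Ideal.mem_map_iff_of_surjective g hg).1 hy
  have hs1 : Function.Surjective (Polynomial.mapRingHom g) := Polynomial.map_surjective g hg
  obtain ⟨f, hf, hd, hm⟩ := Polynomial.lifts_and_natDegree_eq_and_monic
    (f := g) (p := dt'.f) ((Polynomial.mem_lifts _).2 (hs1 _)) dt'.monic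
  obtain ⟨δ, hδ, hδ'⟩ := hlift dt'.δ_mem
  have hν : ∀ i, ∃ ν : Polynomial Λ, ν.map g = dt'.ν i ∧ (i = 0 → ν = Polynomial.C δ * Polynomial.X) := by
    intro i
    by_cases hi : i = 0
    · exact ⟨_, by simp [hi, dt'.ν0, hδ'], fun _ => rfl⟩
    · obtain ⟨ν, hν⟩ := hs1 (dt'.ν i)
      exact ⟨ν, hν, fun h => (hi h).elim⟩
  choose ν hν hν0 using hν
  have hc : ∀ i j, ∃ c : Λ, g c = dt'.c i j ∧ (j ∈ Finset.Icc 1 P.a → c ∈ idl X ^ j) := by
    intro i j
    by_cases hj : j ∈ Finset.Icc 1 P.a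
    · obtain ⟨c, h1, h2⟩ := hlift (dt'.c_mem i j hj)
      exact ⟨c, h2, fun _ => h1⟩
    · obtain ⟨c, h2⟩ := hg (dt'.c i j)
      exact ⟨c, h2, fun h => (hj h).elim⟩
  choose c hc hcm using hc
  choose K hK using fun j => MvPolynomial.map_surjective g hg (dt'.K j)
  have hk1 : RingHom.ker (Polynomial.mapRingHom g) ≤ (idl X ^ M').map (Polynomial.C : Λ →+* Polynomial Λ) := by
    rw [Polynomial.ker_mapRingHom]
    exact Ideal.map_mono hk
  refine ⟨{ f := f
            monic := hm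
            deg := by rw [hd, dt'.deg]
            δ := δ
            δ_mem := hδ
            δ_not := fun h => dt'.δ_not (hδ' ▸ hmem h)
            dsc_not := fun h => dt'.dsc_not (by
              rw [← hf, dsc_map g hm]
              exact hmem h)
            ν := ν
            ν0 := hν0 0 rfl
            c := c
            c_mem := fun i j hj => hcm i j hj
            E1 := fun i => by
              refine da_pull _ hs1 (hk1.trans le_sup_right) ?_
              rw [da_E1_ideal, da_E1_elt]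
              simp only [hf, hν, hc, hδ']
              exact dt'.E1 i
            K := K
            E2 := fun j => by
              refine da_pull _ (MvPolynomial.map_surjective _ hs1) (le_trans ?_ le_sup_right) ?_
              · rw [MvPolynomial.ker_map, ← Ideal.map_map]
                exact Ideal.map_mono hk1
              · rw [da_E2_ideal, da_E2_elt]
                simp only [hf, hν, hK, hδ']
                exact dt'.E2 j }, fun j => (hK j).symm⟩

/-- The bound for the degree in the generators. -/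
def Par.K (P : Par) : ℕ := (P.s + 1) * P.a

/-- The ring `B⁺ = N[(X)^o' / δ, ν i / δ]` with the ideal `𝔍`. -/
structure Plus {X : Fin P.n → Λ} (dt : Dat P Λ X M') (o' n' m : ℕ) (Bp : Type) [CommRing Bp] [Algebra Λ Bp]
    (ιN : AdjoinRoot dt.f →ₐ[Λ] Bp) (g : Fin (P.s + 1) → Bp) (𝔍 : Ideal Bp) : Prop where
  reg : ∀ b : Bp, algebraMap Λ Bp dt.δ * b = 0 → b = 0
  div : (idl X ^ o').map (algebraMap Λ Bp) ≤ Ideal.span {algebraMap Λ Bp dt.δ}
  gν : ∀ i, algebraMap Λ Bp dt.δ * g i = ιN (AdjoinRoot.mk dt.f (dt.ν i))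
  deep : (idl X ^ (n' + P.K * P.o)).map (algebraMap Λ Bp) ≤ 𝔍
  fin : IsFiniteLength Λ (Bp ⧸ 𝔍)
  sand : ∃ (β : (Bp ⧸ 𝔍) →ₗ[Λ] AdjoinRoot dt.f ⧸ ism (idl X ^ n') (AdjoinRoot dt.f))
    (ι : (AdjoinRoot dt.f ⧸ ism (idl X ^ n') (AdjoinRoot dt.f)) →ₗ[Λ] Bp ⧸ 𝔍),
      (∀ b, ι (β b) = dt.δ ^ (m + P.K) • b) ∧ ∀ v, β (ι v) = dt.δ ^ (m + P.K) • v
  coker : colen Λ (LinearMap.range ((Ideal.Quotient.mkₐ Λ 𝔍).comp ιN).toLinearMap) ≤
    colen Λ (ism (idl X ^ (n' + (m + P.K) * P.o) ⊔ Ideal.span {dt.δ ^ m}) (AdjoinRoot dt.f))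

section plus

variable {X : Fin P.n → Λ} {dt : Dat P Λ X M'} {o' n' m : ℕ} {Bp : Type} [CommRing Bp] [Algebra Λ Bp]
  {ιN : AdjoinRoot dt.f →ₐ[Λ] Bp} {g : Fin (P.s + 1) → Bp} {𝔍 : Ideal Bp}

theorem Plus.g0 (h : Plus dt o' n' m Bp ιN g 𝔍) : g 0 = ιN (AdjoinRoot.root dt.f) := by
  have h1 := h.gν 0
  rw [dt.ν0, map_mul, map_mul, AdjoinRoot.mk_X, AdjoinRoot.mk_C, ← AdjoinRoot.algebraMap_eq,
    AlgHom.commutes] at h1
  exact sub_eq_zero.1 (h.reg _ (by rw [mul_sub, h1, sub_self]))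

theorem Plus.cancel (h : Plus dt o' n' m Bp ιN g 𝔍) {b : Bp} {i j : ℕ}
    (hb : algebraMap Λ Bp dt.δ ^ i * b ∈ (idl X ^ (j + i * o')).map (algebraMap Λ Bp)) :
    b ∈ (idl X ^ j).map (algebraMap Λ Bp) := by
  induction i with
  | zero => simpa using hb
  | succ i ih =>
    refine ih ?_
    rw [show j + (i + 1) * o' = (j + i * o') + o' by ring, pow_add (idl X), Ideal.map_mul] at hb
    obtain ⟨y, hy, e⟩ := Ideal.mem_mul_span_singleton.1 (Ideal.mul_mono_right h.div hb)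
    have e1 : algebraMap Λ Bp dt.δ ^ i * b = y :=
      sub_eq_zero.1 (h.reg _ (by rw [mul_sub, mul_comm _ y, e]; ring))
    rwa [e1]

theorem da_sup_pow {B : Type} [CommRing B] {J A A' : Ideal B} {u w : ℕ} (hA : ∀ k, A ^ k ≤ J ^ (k - u))
    (hA' : ∀ k, A' ^ k ≤ J ^ (k - w)) (k : ℕ) : (A ⊔ A') ^ k ≤ J ^ (k - (u + w)) := by
  rw [← Ideal.add_eq_sup, add_pow, Ideal.sum_eq_sup]
  refine Finset.sup_le fun m hm => Ideal.mul_le_left.trans ((Ideal.mul_mono (hA _) (hA' _)).trans ?_)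
  rw [← pow_add]
  exact Ideal.pow_le_pow_right (by rw [Finset.mem_range] at hm; omega)

theorem da_span_pow {B : Type} [CommRing B] {σ : Type} {J : Ideal B} {a : ℕ} (g : σ → B)
    (hg : ∀ i k, g i ^ k ∈ J ^ (k - a)) (t : Finset σ) (k : ℕ) :
    (J ⊔ Ideal.span (g '' t)) ^ k ≤ J ^ (k - t.card * a) := by
  classical
  induction t using Finset.induction_on generalizing k with
  | empty => simp
  | insert i t hi ih =>
    rw [Finset.coe_insert, Set.image_insert_eq, Ideal.span_insert, sup_comm (Ideal.span {g i}), ← sup_assoc,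
      Finset.card_insert_of_notMem hi, Nat.succ_mul]
    refine da_sup_pow ih (fun k => ?_) k
    rw [Ideal.span_singleton_pow, Ideal.span_singleton_le_iff_mem]
    exact hg i k

theorem da_comp_C (ιN : AdjoinRoot dt.f →ₐ[Λ] Bp) :
    ((ιN : AdjoinRoot dt.f →+* Bp).comp (AdjoinRoot.mk dt.f)).comp Polynomial.C = algebraMap Λ Bp := by
  ext a
  simp only [RingHom.comp_apply, AdjoinRoot.mk_C, RingHom.coe_coe]
  exact ιN.commutes a

/-- `E1`, `cancel` and `pow_mem_of_weighted` give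
`g i ^ k ∈ (X)^(k + 1 - a)`; then expand. -/
theorem Plus.xg_pow (h : Plus dt o' n' m Bp ιN g 𝔍) (hM : P.a + P.a * o' ≤ M') (k : ℕ)
    {Q : MvPolynomial (Fin (P.s + 1)) Λ} (hQ : Q ∈ xg X (Fin (P.s + 1)) ^ k) :
    MvPolynomial.aeval g Q ∈ (idl X ^ (k - P.K)).map (algebraMap Λ Bp) := by
  have hg : ∀ i k, g i ^ k ∈ (idl X).map (algebraMap Λ Bp) ^ (k - P.a) := by
    intro i k
    refine Ideal.pow_le_pow_right (by omega)
      (pow_mem_of_weighted _ P.a_pos (fun j => algebraMap Λ Bp (dt.c i j)) (fun j h1 h2 => ?_) ?_ k)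
    · rw [← Ideal.map_pow]
      exact Ideal.mem_map_of_mem _ (dt.c_mem i j (Finset.mem_Icc.2 ⟨h1, h2⟩))
    · rw [← Ideal.map_pow]
      refine h.cancel (i := P.a) (Ideal.map_mono (Ideal.pow_le_pow_right hM) ?_)
      have h1 := Ideal.mem_map_of_mem ((ιN : AdjoinRoot dt.f →+* Bp).comp (AdjoinRoot.mk dt.f)) (dt.E1 i)
      rw [Ideal.map_sup, Ideal.map_map, da_comp_C, Ideal.map_span, Set.image_singleton, RingHom.comp_apply,
        AdjoinRoot.mk_self, map_zero, Ideal.span_singleton_zero, bot_sup_eq] at h1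
      convert h1 using 1
      have e : ((ιN : AdjoinRoot dt.f →+* Bp).comp (AdjoinRoot.mk dt.f)) (dt.ν i) =
          algebraMap Λ Bp dt.δ * g i := (h.gν i).symm
      have e' : ∀ x : Λ, ((ιN : AdjoinRoot dt.f →+* Bp).comp (AdjoinRoot.mk dt.f)) (Polynomial.C x) =
          algebraMap Λ Bp x := fun x => RingHom.congr_fun (da_comp_C ιN) x
      rw [map_add, map_pow, map_sum, e, mul_add, mul_pow, Finset.mul_sum]
      congr 1
      refine Finset.sum_congr rfl fun j hj => ?_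
      obtain ⟨l, hl⟩ := Nat.exists_eq_add_of_le (Finset.mem_Icc.1 hj).2
      rw [map_mul, map_pow, e, e', map_mul, map_pow, hl, Nat.add_sub_cancel_left]
      ring
  have h2 := da_span_pow g hg Finset.univ k
  rw [Finset.card_univ, Fintype.card_fin, Finset.coe_univ, Set.image_univ] at h2
  rw [Ideal.map_pow]
  refine h2 ?_
  have h3 := Ideal.mem_map_of_mem (MvPolynomial.aeval g : MvPolynomial (Fin (P.s + 1)) Λ →ₐ[Λ] Bp).toRingHom hQ
  rw [Ideal.map_pow, xg, Ideal.map_sup, Ideal.map_map, Ideal.map_span, ← Set.range_comp] at h3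
  have e1 : (MvPolynomial.aeval g : MvPolynomial (Fin (P.s + 1)) Λ →ₐ[Λ] Bp).toRingHom.comp MvPolynomial.C =
      algebraMap Λ Bp := by
    ext a
    simp
  have e2 : ⇑(MvPolynomial.aeval g : MvPolynomial (Fin (P.s + 1)) Λ →ₐ[Λ] Bp).toRingHom ∘ MvPolynomial.X = g := by
    funext i
    simp
  rwa [e1, e2] at h3

/-- Evaluate `E2` at `Y ↦ θ`, `G ↦ g` and cancel. -/
theorem Plus.K_mem (h : Plus dt o' n' m Bp ιN g 𝔍) {j : ℕ} (hM : j + P.D * o' ≤ M') (l : Fin P.v) :
    MvPolynomial.aeval g (dt.K l) ∈ (idl X ^ j).map (algebraMap Λ Bp) := by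
  refine h.cancel (i := P.D) (Ideal.map_mono (Ideal.pow_le_pow_right hM) ?_)
  have h1 := Ideal.mem_map_of_mem
    (MvPolynomial.eval₂Hom ((ιN : AdjoinRoot dt.f →+* Bp).comp (AdjoinRoot.mk dt.f)) g) (dt.E2 l)
  have e' : ∀ x : Λ, ((ιN : AdjoinRoot dt.f →+* Bp).comp (AdjoinRoot.mk dt.f)) (Polynomial.C x) =
      algebraMap Λ Bp x := fun x => RingHom.congr_fun (da_comp_C ιN) x
  rw [Ideal.map_sup, Ideal.map_map, ← RingHom.comp_assoc, MvPolynomial.eval₂Hom_comp_C, da_comp_C, map_mul,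
    map_pow, MvPolynomial.eval₂Hom_C, e', MvPolynomial.eval₂Hom_map_hom, da_comp_C] at h1
  refine (sup_le ?_ le_rfl : _ ≤ (idl X ^ M').map (algebraMap Λ Bp)) h1
  rw [Ideal.map_le_iff_le_comap, Ideal.span_le]
  rintro _ (rfl | ⟨i, rfl⟩)
  · simp
  · have e : ((ιN : AdjoinRoot dt.f →+* Bp).comp (AdjoinRoot.mk dt.f)) (dt.ν i) =
        algebraMap Λ Bp dt.δ * g i := (h.gν i).symm
    rw [SetLike.mem_coe, Ideal.mem_comap, map_sub, map_mul, MvPolynomial.eval₂Hom_C, MvPolynomial.eval₂Hom_C,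
      MvPolynomial.eval₂Hom_X', e, e', sub_self]
    exact Submodule.zero_mem _

end plus

end Crest.Agent.R183
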