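import Mathlib

/-!
# rid 183 (Lech's inequality `e(R) ≤ e(S)`), file `Defs`: shared definitions

All rings and modules live in `Type`.  Lengths are `Module.length` (values in `ℕ∞`); `len` is the real
number `toNat` (junk `0` for infinite length, so finiteness is always carried separately).
-/

set_option autoImplicit false

open Filter IsLocalRing

namespace Crest.Agent.R183

section basic

variable {Λ : Type} [CommRing Λ] {d : ℕ}

/-- The ideal generated by a finite family. -/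
def idl (x : Fin d → Λ) : Ideal Λ := Ideal.span (Set.range x)

/-- The bracket power `(x_1^t, …, x_d^t)`. -/
def br (x : Fin d → Λ) (t : ℕ) : Ideal Λ := idl fun i => x i ^ t

/-- The ideal generated by the `x i` with `i < j`. -/
def idlLt (x : Fin d → Λ) (j : Fin d) : Ideal Λ := Ideal.span (x '' {i | i < j})

/-- `J • W`. -/
abbrev ism (J : Ideal Λ) (W : Type) [AddCommGroup W] [Module Λ W] : Submodule Λ W := J • ⊤

/-- Length of `W ⧸ U`. -/
noncomputable abbrev colen (Λ : Type) [CommRing Λ] {W : Type} [AddCommGroup W] [Module Λ W]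
    (U : Submodule Λ W) : ℕ∞ := Module.length Λ (W ⧸ U)

/-- Real-valued length (junk `0` when the length is infinite). -/
noncomputable def len (Λ : Type) [CommRing Λ] (W : Type) [AddCommGroup W] [Module Λ W] : ℝ :=
  ((Module.length Λ W).toNat : ℝ)

/-- Real-valued length of `α • W`. -/
noncomputable def alen (α : Λ) (W : Type) [AddCommGroup W] [Module Λ W] : ℝ :=
  len Λ (ism (Ideal.span {α}) W)

/-- `x` is a (weakly) regular sequence on `W`. -/
def Reg (x : Fin d → Λ) (W : Type) [AddCommGroup W] [Module Λ W] : Prop :=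
  ∀ (j : Fin d) (w : W), x j • w ∈ ism (idlLt x j) W → w ∈ ism (idlLt x j) W

/-- `x` is `γ`-almost regular on `W` up to depth `L`. -/
def AReg (γ : Λ) (x : Fin d → Λ) (L : ℕ) (W : Type) [AddCommGroup W] [Module Λ W] : Prop :=
  ∀ (j : Fin d) (N K : ℕ) (w : W), K ≤ L →
    x j ^ N • w ∈ ism (idlLt (fun i => x i ^ N) j ⊔ idl x ^ K) W →
    γ • w ∈ ism (idlLt (fun i => x i ^ N) j ⊔ idl x ^ (K - N)) W

/-- All relations on `y` in `W` are Koszul relations, up to depth `n`. -/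
def KZ (n : ℕ) (y : Fin d → Λ) (W : Type) [AddCommGroup W] [Module Λ W] : Prop :=
  ∀ w : Fin d → W, ∑ i, y i • w i = 0 → ∃ a : Fin d → Fin d → W,
    (∀ i j, a i j = -a j i) ∧ (∀ i, a i i = 0) ∧
      ∀ i, w i - ∑ j, y j • a i j ∈ ism (idl y ^ (n - 1)) W

end basic

section growth

/-- The Hilbert–Samuel function. -/
noncomputable def hs (R : Type) [CommRing R] [IsLocalRing R] (k : ℕ) : ℝ :=
  len R (R ⧸ maximalIdeal R ^ k)

/-- `limsup d! h(k) / k^d ≤ E`. -/
def UBe (h : ℕ → ℝ) (d : ℕ) (E : ℝ) : Prop :=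
  ∀ ε : ℝ, 0 < ε → ∀ᶠ k : ℕ in atTop, (d.factorial : ℝ) * h k ≤ (E + ε) * (k : ℝ) ^ d

/-- `E ≤ liminf d! h(k) / k^d`. -/
def LBe (h : ℕ → ℝ) (d : ℕ) (E : ℝ) : Prop :=
  ∀ ε : ℝ, 0 < ε → ∀ᶠ k : ℕ in atTop, (E - ε) * (k : ℝ) ^ d ≤ (d.factorial : ℝ) * h k

/-- `E ≤ limsup d! h(k) / k^d`. -/
def LeMult (h : ℕ → ℝ) (d : ℕ) (E : ℝ) : Prop := ∀ E' : ℝ, UBe h d E' → E ≤ E'

/-- Partial sums `h 0 + … + h k`. -/
def psum (h : ℕ → ℝ) (k : ℕ) : ℝ := ∑ j ∈ Finset.range (k + 1), h j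

end growth

section cx

/-- A complex `P_d → … → P_0`, written as one module with orthogonal projections `p i`. -/
structure Cx (Λ : Type) [CommRing Λ] (d : ℕ) (P : Type) [AddCommGroup P] [Module Λ P] where
  p : ℕ → Module.End Λ P
  D : Module.End Λ P
  p_mul : ∀ i j, p i * p j = if i = j then p i else 0
  p_sum : ∑ i ∈ Finset.range (d + 1), p i = 1
  D_sq : D * D = 0
  D_p : ∀ i, D * p (i + 1) = p i * D
  D_p0 : D * p 0 = 0

variable {Λ : Type} [CommRing Λ] {d : ℕ} {P : Type} [AddCommGroup P] [Module Λ P]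

/-- Multiplication by `c` is null-homotopic. -/
def Cx.Nul (C : Cx Λ d P) (c : Λ) : Prop :=
  ∃ h : Module.End Λ P, C.D * h + h * C.D = c • (1 : Module.End Λ P)

/-- `P ⧸ C.top y i` is `P_i / y P_i`. -/
def Cx.top (C : Cx Λ d P) {e : ℕ} (y : Fin e → Λ) (i : ℕ) : Submodule Λ P :=
  ism (idl y) P ⊔ LinearMap.ker (C.p i)

/-- `P ⧸ C.b0` is `H_0`. -/
def Cx.b0 (C : Cx Λ d P) : Submodule Λ P := LinearMap.range C.D ⊔ LinearMap.ker (C.p 0)

end cx

section lens

/-- An additive length function on all modules. -/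
structure ALen (Λ : Type) [CommRing Λ] where
  l : ∀ (M : Type) [AddCommGroup M] [Module Λ M], ENNReal
  l_add : ∀ (M' M M'' : Type) [AddCommGroup M'] [Module Λ M'] [AddCommGroup M] [Module Λ M]
    [AddCommGroup M''] [Module Λ M''] (f : M' →ₗ[Λ] M) (g : M →ₗ[Λ] M''),
    Function.Injective f → Function.Surjective g → Function.Exact f g → l M = l M' + l M''
  l_zero : ∀ (M : Type) [AddCommGroup M] [Module Λ M], Subsingleton M → l M = 0

/-- A real length function, additive on a class `G` of good modules, for which modules killed by `α`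
are negligible. -/
structure GLen (Λ : Type) [CommRing Λ] (α : Λ) where
  G : ∀ (M : Type) [AddCommGroup M] [Module Λ M], Prop
  l : ∀ (M : Type) [AddCommGroup M] [Module Λ M], ℝ
  G_inj : ∀ (M' M : Type) [AddCommGroup M'] [Module Λ M'] [AddCommGroup M] [Module Λ M]
    (f : M' →ₗ[Λ] M), Function.Injective f → G M → G M'
  G_surj : ∀ (M M'' : Type) [AddCommGroup M] [Module Λ M] [AddCommGroup M''] [Module Λ M'']
    (g : M →ₗ[Λ] M''), Function.Surjective g → G M → G M''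
  G_prod : ∀ (M M' : Type) [AddCommGroup M] [Module Λ M] [AddCommGroup M'] [Module Λ M'],
    G M → G M' → G (M × M')
  l_equiv : ∀ (M M' : Type) [AddCommGroup M] [Module Λ M] [AddCommGroup M'] [Module Λ M'],
    (M ≃ₗ[Λ] M') → l M = l M'
  l_add : ∀ (M' M M'' : Type) [AddCommGroup M'] [Module Λ M'] [AddCommGroup M] [Module Λ M]
    [AddCommGroup M''] [Module Λ M''] (f : M' →ₗ[Λ] M) (g : M →ₗ[Λ] M''),
    Function.Injective f → Function.Surjective g → Function.Exact f g → G M → l M = l M' + l M''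
  l_nonneg : ∀ (M : Type) [AddCommGroup M] [Module Λ M], 0 ≤ l M
  l_kill : ∀ (M : Type) [AddCommGroup M] [Module Λ M], G M → (∀ v : M, α • v = 0) → l M = 0

end lens

section sys

variable {R : Type} [CommRing R]

/-- A matrix acting on `Q^r`. -/
def act {r : ℕ} (A : Matrix (Fin r) (Fin r) R) (Q : Type) [AddCommGroup Q] [Module R Q] :
    Module.End R (Fin r → Q) where
  toFun w i := ∑ j, A i j • w j
  map_add' w w' := by ext i; simp [Finset.sum_add_distrib]
  map_smul' c w := by ext i; simp [Finset.smul_sum, smul_smul, mul_comm]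

/-- A truncated finite free algebra with `d` parameters, in matrix form: `Z j` are the multiplications
by the parameters and `C` is the commutative algebra, everything modulo `𝔪 ^ M`. -/
structure Sys (R : Type) [CommRing R] (𝔪 : Ideal R) (M d N0 r : ℕ) where
  Z : Fin d → Matrix (Fin r) (Fin r) R
  C : Set (Matrix (Fin r) (Fin r) R)
  Z_mem : ∀ j, Z j ∈ C
  comm : ∀ A ∈ C, ∀ B ∈ C, ∀ i j, (A * B - B * A) i j ∈ 𝔪 ^ M
  gen : ∀ μ ∈ 𝔪 ^ N0, ∃ H : Fin d → Matrix (Fin r) (Fin r) R, (∀ j, H j ∈ C) ∧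
    ∀ i j, (μ • (1 : Matrix (Fin r) (Fin r) R) - ∑ l, Z l * H l) i j ∈ 𝔪 ^ M

variable {𝔪 : Ideal R} {M d N0 r : ℕ}

/-- The submodule `∑ Z_j^T Q^r + 𝔪^M Q^r` of `Q^r`. -/
def Sys.sub (S : Sys R 𝔪 M d N0 r) (Q : Type) [AddCommGroup Q] [Module R Q] (T : ℕ) :
    Submodule R (Fin r → Q) :=
  (⨆ j, LinearMap.range (act (S.Z j ^ T) Q)) ⊔ ism (𝔪 ^ M) (Fin r → Q)

/-- The length of `(S ⊗ Q) / z^[T]`. -/
noncomputable def Sys.zl (S : Sys R 𝔪 M d N0 r) (Q : Type) [AddCommGroup Q] [Module R Q] (T : ℕ) : ℝ :=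
  len R ((Fin r → Q) ⧸ S.sub Q T)

/-- The length of `S / (𝔪, z)`. -/
noncomputable def Sys.b0 (S : Sys R 𝔪 M d N0 r) : ℝ := S.zl (R ⧸ 𝔪) 1

/-- The lower bound `b₀ E T^d ≲ length (S / z^[T])`, uniformly over truncated systems. -/
def LowB (R : Type) [CommRing R] [IsLocalRing R] (d : ℕ) (E : ℝ) : Prop :=
  ∀ (N0 : ℕ) (C0 ε : ℝ), 0 < ε → ∃ T0 : ℕ, ∀ T ≥ T0, ∃ M0 : ℕ, ∀ M ≥ M0,
    ∀ (r : ℕ) (S : Sys R (maximalIdeal R) M d N0 r), (r : ℝ) ≤ C0 * S.b0 →
      S.b0 * (E - ε) * (T : ℝ) ^ d ≤ S.zl R T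

/-- A ring homomorphism defined on a subring, extended by junk values. -/
structure PHom (R B : Type) [CommRing R] [CommRing B] where
  dom : Subring R
  toFun : R → B
  map_one : toFun 1 = 1
  map_add : ∀ a ∈ dom, ∀ b ∈ dom, toFun (a + b) = toFun a + toFun b
  map_mul : ∀ a ∈ dom, ∀ b ∈ dom, toFun (a * b) = toFun a * toFun b

/-- `∑ range (Z j ^ T)` inside `B^r`, as a `Λ`-submodule. -/
def zsub (Λ : Type) [CommRing Λ] {B : Type} [CommRing B] [Algebra Λ B] {d r : ℕ}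
    (Z : Fin d → Matrix (Fin r) (Fin r) B) (T : ℕ) : Submodule Λ (Fin r → B) :=
  ⨆ j, LinearMap.range ((Z j ^ T).mulVecLin.restrictScalars Λ)

end sys

end Crest.Agent.R183
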