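import Crest.Agent.R183.Defs

/-!
# rid 183, file `Defs2`: more shared definitions (no proofs)
-/

set_option autoImplicit false

open Filter IsLocalRing

namespace Crest.Agent.R183

section loc

variable {R : Type} [CommRing R] [IsLocalRing R] {d : ℕ}

/-- `x` generates an ideal that is primary to the maximal ideal. -/
def Sop (x : Fin d → R) : Prop :=
  (∀ i, x i ∈ maximalIdeal R) ∧ ∃ c : ℕ, maximalIdeal R ^ c ≤ idl x

/-- `x` generates a reduction of the maximal ideal. -/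
def IsRed (x : Fin d → R) (K : ℕ) : Prop :=
  (∀ i, x i ∈ maximalIdeal R) ∧ maximalIdeal R ^ (K + 1) = idl x * maximalIdeal R ^ K

/-- The maximal ideal extends to the maximal ideal. -/
def Unram {A B : Type} [CommRing A] [IsLocalRing A] [CommRing B] [IsLocalRing B] (ψ : A →+* B) : Prop :=
  (maximalIdeal A).map ψ = maximalIdeal B

/-- The residue fields agree. -/
def SameRes {A B : Type} [CommRing A] [CommRing B] [IsLocalRing B] (ψ : A →+* B) : Prop :=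
  ∀ b : B, ∃ a : A, b - ψ a ∈ maximalIdeal B

/-- The residues of the `τ i` are algebraically independent over the residue field of `A`. -/
def AlgInd {A B σ : Type} [CommRing A] [IsLocalRing A] [CommRing B] [IsLocalRing B] (ψ : A →+* B)
    (τ : σ → B) : Prop :=
  ∀ f : MvPolynomial σ A, MvPolynomial.eval₂ ψ τ f ∈ maximalIdeal B →
    ∀ β, MvPolynomial.coeff β f ∈ maximalIdeal A

/-- The Hilbert–Samuel function of a module. -/
noncomputable def hsM (R : Type) [CommRing R] [IsLocalRing R] (Q : Type) [AddCommGroup Q] [Module R Q]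
    (k : ℕ) : ℝ := len R (Q ⧸ ism (maximalIdeal R ^ k) Q)

/-- `LowB` for a module of coefficients; `LowM R d R E` is `LowB R d E`. -/
def LowM (R : Type) [CommRing R] [IsLocalRing R] (d : ℕ) (Q : Type) [AddCommGroup Q] [Module R Q]
    (E : ℝ) : Prop :=
  ∀ (N0 : ℕ) (C0 ε : ℝ), 0 < ε → ∃ T0 : ℕ, ∀ T ≥ T0, ∃ M0 : ℕ, ∀ M ≥ M0,
    ∀ (r : ℕ) (S : Sys R (maximalIdeal R) M d N0 r), (r : ℝ) ≤ C0 * S.b0 →
      S.b0 * (E - ε) * (T : ℝ) ^ d ≤ S.zl Q T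

end loc

/-- A regular base: a domain with a regular sequence `X` generating a maximal ideal, such that hypersurfaces
have small growth. -/
structure RBase (Λ : Type) [CommRing Λ] {d : ℕ} (X : Fin d → Λ) : Prop where
  dom : IsDomain Λ
  noeth : IsNoetherianRing Λ
  pos : 0 < d
  reg : Reg X Λ
  max : (idl X).IsMaximal
  small : ∀ γ : Λ, γ ≠ 0 → ∃ C : ℝ, ∀ k : ℕ,
    len Λ (Λ ⧸ (idl X ^ k ⊔ Ideal.span {γ})) ≤ C * ((k : ℝ) + 1) ^ (d - 1)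

/-- `W` is isogenous to `Λ^ρ` through `γ`. -/
def Sand {Λ : Type} [CommRing Λ] (γ : Λ) (W : Type) [AddCommGroup W] [Module Λ W] (ρ : ℕ) : Prop :=
  ∃ (β : W →ₗ[Λ] (Fin ρ → Λ)) (ι : (Fin ρ → Λ) →ₗ[Λ] W),
    (∀ w, ι (β w) = γ • w) ∧ ∀ v, β (ι v) = γ • v

/-- The data of a cover: a coefficient ring `Λ` with parameters `X`, an algebra `B`, a module `N`. -/
structure Cov (d : ℕ) where
  Λ : Type
  [iΛ : CommRing Λ]
  B : Type
  [iB : CommRing B]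
  [aB : Algebra Λ B]
  N : Type
  [gN : AddCommGroup N]
  [mN : Module Λ N]
  X : Fin d → Λ
  q : ℕ
  α : Λ
  α' : Λ
  ρ : ℝ

attribute [instance] Cov.iΛ Cov.iB Cov.aB Cov.gN Cov.mN

/-- `N` is Cohen–Macaulay and `B` is `α`-isogenous to a truncation of `N`. -/
structure Cov.Basic {d : ℕ} (c : Cov d) (n0 : ℕ) : Prop where
  reg : Reg c.X c.N
  finN : IsFiniteLength c.Λ (c.N ⧸ ism (idl c.X) c.N)
  finB : IsFiniteLength c.Λ c.B
  sand : ∃ (β : c.B →ₗ[c.Λ] c.N ⧸ ism (idl c.X ^ (n0 * c.q)) c.N)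
    (ι : (c.N ⧸ ism (idl c.X ^ (n0 * c.q)) c.N) →ₗ[c.Λ] c.B),
      (∀ b, ι (β b) = c.α • b) ∧ ∀ v, β (ι v) = c.α • v
  kill : ∀ v : c.N, (c.α * c.α') • v ∈ ism (idl c.X ^ (n0 * c.q)) c.N
  pos : 0 < c.ρ

/-- The part of the cover property that does not mention the system. -/
structure Cov.Est {d : ℕ} (c : Cov d) (E Cc ε : ℝ) (t : ℕ) : Prop where
  lenN : len c.Λ (c.N ⧸ ism (br c.X c.q) c.N) ≤ Cc * c.ρ
  smallN : len c.Λ (c.N ⧸ ism (br c.X c.q ⊔ Ideal.span {c.α + c.α'}) c.N) ≤ ε * c.ρ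
  smallB : len c.Λ (c.B ⧸ ism (br c.X c.q ⊔ Ideal.span {c.α}) c.B) ≤ ε * c.ρ
  low : c.ρ * E * (t : ℝ) ^ d ≤
    alen c.α (c.N ⧸ ism (br c.X (c.q * t)) c.N) + (Cc / t + ε) * c.ρ * (t : ℝ) ^ d

/-- The partial homomorphism `φ : R / 𝔪^M → B` is defined on `F`, sends `x i` to `X i ^ q` and contracts the
maximal ideal. -/
structure Cov.Hom {R : Type} [CommRing R] [IsLocalRing R] {d : ℕ} (c : Cov d) (x : Fin d → R) (K M : ℕ)
    (F : Finset (R ⧸ maximalIdeal R ^ M)) (φ : PHom (R ⧸ maximalIdeal R ^ M) c.B) : Prop where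
  dom : ∀ a ∈ F, a ∈ φ.dom
  xdom : ∀ i, Ideal.Quotient.mk (maximalIdeal R ^ M) (x i) ∈ φ.dom
  xval : ∀ i, φ.toFun (Ideal.Quotient.mk (maximalIdeal R ^ M) (x i)) = algebraMap c.Λ c.B (c.X i ^ c.q)
  contr : ∀ a : R, a ∈ maximalIdeal R → Ideal.Quotient.mk (maximalIdeal R ^ M) a ∈ F →
    φ.toFun (Ideal.Quotient.mk (maximalIdeal R ^ M) a) ∈ ism (idl c.X ^ (c.q - K)) c.B

/-- The matrices `φ (Z j)`. -/
def Sys.Zφ {R B : Type} [CommRing R] [CommRing B] {𝔪 : Ideal R} {M d N0 r : ℕ} (S : Sys R 𝔪 M d N0 r)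
    (φ : PHom (R ⧸ 𝔪 ^ M) B) (j : Fin d) : Matrix (Fin r) (Fin r) B :=
  (S.Z j).map fun a => φ.toFun (Ideal.Quotient.mk (𝔪 ^ M) a)

/-- The cover property. -/
def CP (R : Type) [CommRing R] [IsLocalRing R] (d : ℕ) (x : Fin d → R) (E : ℝ) : Prop :=
  ∀ N0 : ℕ, ∃ (K : ℕ) (Cc : ℝ), 0 ≤ Cc ∧ ∀ (nf : ℕ → ℕ) (t0 q0 : ℕ) (ε : ℝ), 0 < ε →
    ∃ T0 : ℕ, ∀ T ≥ T0, ∃ t ≥ t0, ∃ M0 : ℕ, ∀ M ≥ M0,
      ∀ (r : ℕ) (S : Sys R (maximalIdeal R) M d N0 r) (F : Finset (R ⧸ maximalIdeal R ^ M)),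
        ∃ (c : Cov d) (φ : PHom (R ⧸ maximalIdeal R ^ M) c.B),
          c.Basic (nf t) ∧ q0 ≤ c.q ∧ c.Est E Cc ε t ∧ c.Hom x K M F φ ∧
          len c.Λ ((Fin r → c.B) ⧸ zsub c.Λ (S.Zφ φ) t) * (T : ℝ) ^ d ≤
            (c.ρ * S.zl R T + r * (Cc / t + ε) * c.ρ * (T : ℝ) ^ d) * (t : ℝ) ^ d

end Crest.Agent.R183
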