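import Crest.Agent.R183.Grow

/-!
# rid 183, file `Tr`: adjoining transcendentals to the residue field

Prefix helper lemmas with `tr_`.
-/

set_option autoImplicit false

open IsLocalRing

namespace Crest.Agent.R183

variable (A : Type) [CommRing A] [IsLocalRing A] (σ : Type)

/-- The prime `𝔪 A[X]`. -/
noncomputable def trP : Ideal (MvPolynomial σ A) := (maximalIdeal A).map (MvPolynomial.C : A →+* MvPolynomial σ A)

/-- `A[X] / 𝔪 A[X] = k[X]` is a domain (`MvPolynomial.quotientEquivQuotientMvPolynomial`). -/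
instance trP_isPrime : (trP A σ).IsPrime := by
  rw [trP, ← ker_residue, ← MvPolynomial.ker_map]
  exact RingHom.ker_isPrime _

/-- `A(X) = A[X]_{𝔪 A[X]}`. -/
abbrev Tr : Type := Localization.AtPrime (trP A σ)

/-- The structure map. -/
noncomputable def trC : A →+* Tr A σ := (algebraMap (MvPolynomial σ A) (Tr A σ)).comp MvPolynomial.C

/-- The transcendentals. -/
noncomputable def trX (i : σ) : Tr A σ := algebraMap (MvPolynomial σ A) (Tr A σ) (MvPolynomial.X i)

theorem trC_flat : (trC A σ).Flat := by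
  exact RingHom.Flat.comp (f := algebraMap A (MvPolynomial σ A))
    (RingHom.flat_algebraMap_iff.2 inferInstance) (RingHom.flat_algebraMap_iff.2 inferInstance)

theorem trC_unram : Unram (trC A σ) := by
  rw [Unram, trC, ← Ideal.map_map]
  exact Localization.AtPrime.map_eq_maximalIdeal

theorem trC_local : IsLocalHom (trC A σ) := by
  exact ((local_hom_TFAE _).out 2 0).1 (trC_unram A σ).le

theorem tr_algInd : AlgInd (trC A σ) (trX A σ) := by
  intro f hf
  have h : MvPolynomial.eval₂Hom (trC A σ) (trX A σ) = algebraMap _ (Tr A σ) := by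
    ext <;> simp [trC, trX]
  rw [← MvPolynomial.coe_eval₂Hom, h,
    IsLocalization.AtPrime.to_map_mem_maximal_iff (Tr A σ) (trP A σ)] at hf
  exact MvPolynomial.mem_map_C_iff.1 hf

theorem tr_noeth [IsNoetherianRing A] [Finite σ] : IsNoetherianRing (Tr A σ) := by
  infer_instance

theorem tr_inf {A σ B : Type} [CommRing A] [IsLocalRing A] [CommRing B] [IsLocalRing B]
    {ψ : A →+* B} {τ : σ → B} (h : AlgInd ψ τ) (i : σ) : Infinite (ResidueField B) := by
  classical
  refine Infinite.of_injective (fun n : ℕ => residue B (τ i ^ n)) fun n m hnm => ?_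
  by_contra hne
  have h1 := h (MvPolynomial.X i ^ n - MvPolynomial.X i ^ m) (by
    rw [← residue_eq_zero_iff]
    simpa [MvPolynomial.eval₂_sub, sub_eq_zero] using hnm) (Finsupp.single i n)
  rw [MvPolynomial.coeff_sub, MvPolynomial.coeff_X_pow, MvPolynomial.coeff_X_pow, if_pos rfl,
    if_neg fun h2 => hne (Finsupp.single_injective i h2).symm, sub_zero] at h1
  exact (maximalIdeal.isMaximal A).ne_top ((Ideal.eq_top_iff_one _).2 h1)

theorem tr_infinite [Nonempty σ] : Infinite (ResidueField (Tr A σ)) := by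
  exact tr_inf (tr_algInd A σ) (Classical.arbitrary σ)

variable {A σ}

/-- The universal property. -/
theorem tr_lift {B : Type} [CommRing B] [IsLocalRing B] (ψ : A →+* B) [IsLocalHom ψ] (τ : σ → B)
    (h : AlgInd ψ τ) :
    ∃ g : Tr A σ →+* B, IsLocalHom g ∧ g.comp (trC A σ) = ψ ∧ ∀ i, g (trX A σ i) = τ i := by
  have hu : ∀ y : (trP A σ).primeCompl, IsUnit (MvPolynomial.eval₂Hom ψ τ y) := fun y =>
    notMem_maximalIdeal.1 fun hy => y.2 (MvPolynomial.mem_map_C_iff.2 (h y hy))
  have hm : trP A σ ≤ (maximalIdeal B).comap (MvPolynomial.eval₂Hom ψ τ) := by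
    rw [trP, Ideal.map_le_iff_le_comap, Ideal.comap_comap, MvPolynomial.eval₂Hom_comp_C,
      maximalIdeal_comap]
  refine ⟨IsLocalization.lift hu, ⟨fun x hx => ?_⟩, ?_, fun i => ?_⟩
  · obtain ⟨⟨u, s⟩, rfl⟩ := IsLocalization.mk'_surjective (trP A σ).primeCompl x
    rw [IsLocalization.AtPrime.isUnit_mk'_iff (Tr A σ) (trP A σ)]
    refine fun h1 => notMem_maximalIdeal.2 ?_ (hm h1)
    rw [(IsLocalization.lift_mk'_spec (S := Tr A σ) hu u _ s).1 rfl]
    exact (hu s).mul hx
  · rw [trC, ← RingHom.comp_assoc, IsLocalization.lift_comp, MvPolynomial.eval₂Hom_comp_C]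
  · rw [trX, IsLocalization.lift_eq, MvPolynomial.eval₂Hom_X']

theorem AlgInd.comp_left {A' B : Type} [CommRing A'] [IsLocalRing A'] [CommRing B] [IsLocalRing B]
    {ψ : A →+* B} {τ : σ → B} (h : AlgInd ψ τ) (g : A' →+* A) [IsLocalHom g] : AlgInd (ψ.comp g) τ := by
  intro f hf β
  have h1 := h (MvPolynomial.map g f) (by rwa [MvPolynomial.eval₂_map]) β
  rwa [MvPolynomial.coeff_map, ← Ideal.mem_comap, maximalIdeal_comap] at h1

theorem AlgInd.comp_right {B B' : Type} [CommRing B] [IsLocalRing B] [CommRing B'] [IsLocalRing B']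
    {ψ : A →+* B} {τ : σ → B} (h : AlgInd ψ τ) (g : B →+* B') [IsLocalHom g] :
    AlgInd (g.comp ψ) fun i => g (τ i) := by
  intro f hf
  refine h f ?_
  rwa [← maximalIdeal_comap g, Ideal.mem_comap, MvPolynomial.hom_eval₂]

theorem AlgInd.reindex {B σ' : Type} [CommRing B] [IsLocalRing B] {ψ : A →+* B} {τ : σ → B}
    (h : AlgInd ψ τ) (e : σ' → σ) (he : Function.Injective e) : AlgInd ψ fun i => τ (e i) := by
  intro f hf β
  have h1 := h (MvPolynomial.rename e f) (by rwa [MvPolynomial.eval₂_rename]) (β.mapDomain e)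
  rwa [MvPolynomial.coeff_rename_mapDomain e he] at h1

theorem AlgInd.infinite {B : Type} [CommRing B] [IsLocalRing B] {ψ : A →+* B} {τ : ℕ → B} (h : AlgInd ψ τ) :
    Infinite (ResidueField B) := by
  exact tr_inf h 0

end Crest.Agent.R183
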