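import Crest.Agent.R183.Coef
import Crest.Agent.R183.Tr

/-!
# rid 183, file `Desc`: a finite free model of a flat local map of Artinian rings

Prefix helper lemmas with `ds_`.
-/

set_option autoImplicit false
set_option linter.style.haveILetI false

open IsLocalRing

namespace Crest.Agent.R183

theorem ds_len_congr {A B V W : Type} [CommRing A] [CommRing B] [AddCommGroup V] [Module A V]
    [AddCommGroup W] [Module B W] (h : Module.length A V = Module.length B W) : len A V = len B W := by
  rw [len, len, h]

theorem ds_len_le {A B V W : Type} [CommRing A] [CommRing B] [AddCommGroup V] [Module A V]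
    [AddCommGroup W] [Module B W] (hW : Module.length B W ≠ ⊤)
    (h : Module.length A V ≤ Module.length B W) : len A V ≤ len B W :=
  Nat.cast_le.mpr (ENat.toNat_le_toNat h hW)

theorem ds_good_finite {A : Type} [CommRing A] [IsLocalRing A] [IsArtinianRing A] {B : Subring A}
    (h : Good B) : IsFiniteLength B B :=
  Module.length_ne_top_iff.mp (ne_top_of_le_ne_top Module.length_ne_top h.len)

theorem ds_good_noeth {A : Type} [CommRing A] [IsLocalRing A] [IsArtinianRing A] {B : Subring A}
    (h : Good B) : IsNoetherianRing B :=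
  (isFiniteLength_iff_isNoetherian_isArtinian.mp (ds_good_finite h)).1

theorem ds_good_art {A : Type} [CommRing A] [IsLocalRing A] [IsArtinianRing A] {B : Subring A}
    (h : Good B) : IsArtinianRing B :=
  (isFiniteLength_iff_isNoetherian_isArtinian.mp (ds_good_finite h)).2

/-- A good subring is generated by finitely many elements under ring operations and inverses: take the set from
`Good.fg` and generators of its maximal ideal, and use nilpotence. -/
theorem Good.exists_gen {A : Type} [CommRing A] [IsLocalRing A] [IsArtinianRing A] {B : Subring A}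
    (h : Good B) : ∃ G : Finset A, (∀ g ∈ G, g ∈ B) ∧ ∀ B' : Subring A, (∀ g ∈ G, g ∈ B') →
      (∀ b ∈ B', b ∉ maximalIdeal A → ∃ b' ∈ B', b * b' = 1) → B ≤ B' := by
  classical
  haveI := ds_good_noeth h
  obtain ⟨s, hsB, hs⟩ := h.fg
  obtain ⟨t, ht⟩ := (IsNoetherian.noetherian ((maximalIdeal A).comap B.subtype))
  refine ⟨s ∪ t.image B.subtype, ?_, fun B' hG hinv => ?_⟩
  · intro g hg
    rcases Finset.mem_union.1 hg with hg | hg
    · exact hsB g hg
    · obtain ⟨x, -, rfl⟩ := Finset.mem_image.1 hg
      exact x.2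
  have hCinv : ∀ c ∈ B ⊓ B', c ∉ maximalIdeal A → ∃ c' ∈ B ⊓ B', c * c' = 1 := by
    rintro c ⟨hc1, hc2⟩ hc
    obtain ⟨c1, h1, e1⟩ := h.inv c hc1 hc
    obtain ⟨c2, h2, e2⟩ := hinv c hc2 hc
    have : c1 = c2 := by
      calc c1 = c1 * (c * c2) := by rw [e2, mul_one]
        _ = (c * c1) * c2 := by ring
        _ = c2 := by rw [e1, one_mul]
    exact ⟨c1, ⟨h1, this ▸ h2⟩, e1⟩
  let F : Subfield (ResidueField A) :=
    { (B ⊓ B').map (residue A) with
      inv_mem' := by
        rintro _ ⟨c, hc, rfl⟩
        by_cases hm : c ∈ maximalIdeal A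
        · refine ⟨0, (B ⊓ B').zero_mem, ?_⟩
          rw [(residue_eq_zero_iff c).2 hm, inv_zero, map_zero]
        · obtain ⟨c', hc', e⟩ := hCinv c hc hm
          refine ⟨c', hc', ?_⟩
          exact eq_inv_of_mul_eq_one_right (by rw [← map_mul, e, map_one]) }
  have hF : Subfield.closure (residue A '' (s : Set A)) ≤ F := by
    rw [Subfield.closure_le]
    rintro _ ⟨a, ha, rfl⟩
    exact ⟨a, ⟨hsB a ha, hG a (Finset.mem_union_left _ ha)⟩, rfl⟩
  have h0 : ∀ b ∈ B, ∃ c ∈ B ⊓ B', b - c ∈ maximalIdeal A := by
    intro b hb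
    obtain ⟨c, hc, e⟩ := hF (hs b hb)
    refine ⟨c, hc, ?_⟩
    rw [← residue_eq_zero_iff, map_sub]
    exact sub_eq_zero.2 e.symm
  have hk : ∀ k : ℕ, ∀ b ∈ B, ∃ c ∈ B ⊓ B', b - c ∈ maximalIdeal A ^ k := by
    intro k
    induction k with
    | zero => intro b _; exact ⟨0, zero_mem _, by simp⟩
    | succ k ih =>
      have key : ∀ x : B, x ∈ Submodule.span B (t : Set B) → ∀ b : B,
          ∃ c ∈ B ⊓ B', (b : A) * x - c ∈ maximalIdeal A ^ (k + 1) := by
        intro x hx
        induction hx using Submodule.span_induction with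
        | mem x hx =>
          intro b
          obtain ⟨c, hc, e⟩ := ih b b.2
          have hxm : (x : A) ∈ maximalIdeal A := by
            have : x ∈ (maximalIdeal A).comap B.subtype := ht ▸ Submodule.subset_span hx
            exact this
          have hxC : (x : A) ∈ B ⊓ B' :=
            ⟨x.2, hG _ (Finset.mem_union_right _ (Finset.mem_image_of_mem _ hx))⟩
          refine ⟨c * x, mul_mem hc hxC, ?_⟩
          rw [← sub_mul, pow_succ]
          exact Ideal.mul_mem_mul e hxm
        | zero => intro b; exact ⟨0, zero_mem _, by simp⟩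
        | add x y _ _ hx hy =>
          intro b
          obtain ⟨c1, h1, e1⟩ := hx b
          obtain ⟨c2, h2, e2⟩ := hy b
          refine ⟨c1 + c2, add_mem h1 h2, ?_⟩
          have := add_mem e1 e2
          convert this using 1
          push_cast; ring
        | smul a x _ hx =>
          intro b
          obtain ⟨c, hc, e⟩ := hx (b * a)
          refine ⟨c, hc, ?_⟩
          convert e using 2
          simp only [smul_eq_mul]
          push_cast; ring
      intro b hb
      obtain ⟨c, hc, e⟩ := h0 b hb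
      have hx : (⟨b - c, sub_mem hb hc.1⟩ : B) ∈ Submodule.span B (t : Set B) := by
        rw [ht]; exact e
      obtain ⟨c', hc', e'⟩ := key _ hx 1
      refine ⟨c + c', add_mem hc hc', ?_⟩
      convert e' using 1
      push_cast; ring
  obtain ⟨N, hN⟩ := (isArtinianRing_iff_isNilpotent_maximalIdeal A).mp ‹_›
  intro b hb
  obtain ⟨c, hc, e⟩ := hk N b hb
  rw [hN, Ideal.zero_eq_bot, Ideal.mem_bot, sub_eq_zero] at e
  exact e ▸ hc.2

/-- A local map whose residue field extension is finitely generated becomes residually finite after adjoining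
finitely many transcendentals: choose a transcendence basis among the generators. -/
theorem exists_algInd_finite {A B : Type} [CommRing A] [IsLocalRing A] [CommRing B] [IsLocalRing B]
    (g : A →+* B) [IsLocalHom g] (s : Finset B)
    (hs : Subfield.closure (residue B '' (s : Set B)) = ⊤) :
    ∃ (j : ℕ) (g1 : Tr A (Fin j) →+* B) (_ : IsLocalHom g1), g1.comp (trC A (Fin j)) = g ∧
      (ResidueField.map g1).Finite := by
  classical
  letI : Algebra (ResidueField A) (ResidueField B) := (ResidueField.map g).toAlgebra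
  set s' : Set (ResidueField B) := residue B '' (s : Set B) with hs'
  have hs'f : s'.Finite := s.finite_toSet.image _
  have htop : ∀ (k : Type) [Field k] [Algebra k (ResidueField B)],
      IntermediateField.adjoin k s' = ⊤ := by
    intro k _ _
    rw [eq_top_iff]
    intro x _
    have hx : x ∈ Subfield.closure s' := hs ▸ Subfield.mem_top x
    have : Subfield.closure s' ≤ (IntermediateField.adjoin k s').toSubfield :=
      Subfield.closure_le.2 (IntermediateField.subset_adjoin k s')
    exact this hx
  have halg : Algebra.IsAlgebraic (Algebra.adjoin (ResidueField A) s') (ResidueField B) := by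
    rw [← IntermediateField.isAlgebraic_adjoin_iff_top, htop, Algebra.isAlgebraic_iff_isIntegral]
    exact Algebra.isIntegral_of_surjective IntermediateField.topEquiv.surjective
  obtain ⟨t, hts, ht⟩ := exists_isTranscendenceBasis_subset (R := ResidueField A) s'
  haveI : Finite t := (hs'f.subset hts).to_subtype
  obtain ⟨j, ⟨e⟩⟩ := Finite.exists_equiv_fin t
  choose τ hτ using fun i : Fin j => residue_surjective (R := B) (e.symm i : ResidueField B)
  have hind : AlgebraicIndependent (ResidueField A) (fun i : Fin j => (e.symm i : ResidueField B)) :=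
    ht.1.comp _ e.symm.injective
  have hAI : AlgInd g τ := by
    intro f hf β
    have h1 : MvPolynomial.aeval (fun i : Fin j => (e.symm i : ResidueField B))
        (MvPolynomial.map (residue A) f) = 0 := by
      rw [← residue_eq_zero_iff, MvPolynomial.eval₂_comp_left] at hf
      rw [MvPolynomial.aeval_def, MvPolynomial.eval₂_map, ← hf]
      congr 1
      funext i
      exact (hτ i).symm
    have h2 : MvPolynomial.map (residue A) f = 0 := (algebraicIndependent_iff.1 hind) _ h1
    have h3 := congrArg (MvPolynomial.coeff β) h2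
    rwa [MvPolynomial.coeff_map, MvPolynomial.coeff_zero, residue_eq_zero_iff] at h3
  obtain ⟨g1, hg1, hcomp, hX⟩ := tr_lift g τ hAI
  refine ⟨j, g1, hg1, hcomp, ?_⟩
  haveI := trC_local A (Fin j)
  letI : Algebra (ResidueField (Tr A (Fin j))) (ResidueField B) := (ResidueField.map g1).toAlgebra
  letI : Algebra (ResidueField A) (ResidueField (Tr A (Fin j))) :=
    (ResidueField.map (trC A (Fin j))).toAlgebra
  haveI : IsScalarTower (ResidueField A) (ResidueField (Tr A (Fin j))) (ResidueField B) := by
    refine IsScalarTower.of_algebraMap_eq fun x => ?_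
    obtain ⟨x, rfl⟩ := residue_surjective x
    change ResidueField.map g (residue A x) =
      ResidueField.map g1 (ResidueField.map (trC A (Fin j)) (residue A x))
    rw [ResidueField.map_residue, ResidueField.map_residue, ResidueField.map_residue, ← hcomp]
    rfl
  let φ := IsScalarTower.toAlgHom (ResidueField A) (ResidueField (Tr A (Fin j))) (ResidueField B)
  have hle : Algebra.adjoin (ResidueField A) (Set.range ((↑) : t → ResidueField B)) ≤ φ.range := by
    rw [Algebra.adjoin_le_iff]
    rintro _ ⟨x, rfl⟩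
    refine ⟨residue _ (trX A (Fin j) (e x)), ?_⟩
    change ResidueField.map g1 (residue _ _) = _
    rw [ResidueField.map_residue, hX, hτ, Equiv.symm_apply_apply]
  have hint : ∀ x : ResidueField B, IsIntegral (ResidueField (Tr A (Fin j))) x := by
    intro x
    have h1 : IsAlgebraic φ.range x :=
      (ht.isAlgebraic.isAlgebraic x).tower_top_of_subalgebra_le hle
    have h2 : IsAlgebraic (ResidueField (Tr A (Fin j))) x :=
      IsAlgebraic.of_ringHom_of_comp_eq (φ.rangeRestrict : _ →+* φ.range) (RingHom.id _) h1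
        φ.rangeRestrict_surjective Function.injective_id (RingHom.ext fun _ => rfl)
    exact h2.isIntegral
  haveI : Finite s' := hs'f.to_subtype
  have hfd := IntermediateField.finiteDimensional_adjoin (K := ResidueField (Tr A (Fin j))) (S := s')
    fun x _ => hint x
  rw [htop] at hfd
  exact Module.Finite.equiv (IntermediateField.topEquiv (F := ResidueField (Tr A (Fin j)))
    (E := ResidueField B)).toLinearEquiv

theorem ds_len_res {A : Type} [CommRing A] [IsLocalRing A] (W : Type) [AddCommGroup W] [Module A W] :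
    Module.length (ResidueField A) (TensorProduct A (ResidueField A) W) =
      colen A (ism (maximalIdeal A) W) := by
  rw [← Module.length_eq_of_surjective (S := A) (R := ResidueField A) residue_surjective]
  exact (TensorProduct.quotTensorEquivQuotSMul W (maximalIdeal A)).length_eq

/-- A surjection `A^r → B` with `r` the minimal number of generators is bijective when the lengths agree. -/
theorem free_of_length {A W : Type} [CommRing A] [IsLocalRing A] [IsArtinianRing A] [AddCommGroup W]
    [Module A W] [Module.Finite A W] {r : ℕ} (h1 : colen A (ism (maximalIdeal A) W) = r)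
    (h2 : Module.length A W = r * Module.length A A) : Nonempty (Module.Basis (Fin r) A W) := by
  rw [← ds_len_res, Module.length_eq_finrank, Nat.cast_inj] at h1
  let b := Module.finBasisOfFinrankEq (ResidueField A) (TensorProduct A (ResidueField A) W) h1
  choose v hv using fun i => TensorProduct.mk_surjective A W (ResidueField A) residue_surjective (b i)
  have hsp := span_eq_top_of_tmul_eq_basis v b hv
  let p : (Fin r → A) →ₗ[A] W := Fintype.linearCombination A v
  have hp : Function.Surjective p := by
    rw [← LinearMap.range_eq_top, Fintype.range_linearCombination, hsp]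
  have h3 := Module.length_eq_add_of_exact _ _ (LinearMap.ker p).subtype_injective hp
    (LinearMap.exact_subtype_ker_map p)
  rw [Module.length_pi_of_fintype, Finset.sum_const, Finset.card_univ, Fintype.card_fin,
    nsmul_eq_mul, ← h2] at h3
  have h4 : Module.length A W ≠ ⊤ := Module.length_ne_top
  have h5 : Module.length A (LinearMap.ker p) = 0 := by
    have : 0 + Module.length A W = Module.length A (LinearMap.ker p) + Module.length A W := by
      rw [zero_add]; exact h3
    exact (WithTop.add_right_cancel h4 this).symm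
  have h6 : LinearMap.ker p = ⊥ :=
    Submodule.subsingleton_iff_eq_bot.1 (Module.length_eq_zero_iff.1 h5)
  exact ⟨(Pi.basisFun A (Fin r)).map (LinearEquiv.ofBijective p ⟨LinearMap.ker_eq_bot.1 h6, hp⟩)⟩

theorem ds_br_map {A B : Type} [CommRing A] [CommRing B] (f : A →+* B) {d : ℕ} (x : Fin d → A) (T : ℕ) :
    (br x T).map f = br (fun i => f (x i)) T := by
  simp only [br, idl_map, map_pow]

theorem ds_colen_restrict {A B : Type} [CommRing A] [IsLocalRing A] [CommRing B] [IsLocalRing B]
    [Algebra A B] [IsLocalHom (algebraMap A B)] (I : Ideal B) :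
    colen A (I.restrictScalars A) =
      colen B I * Module.length (ResidueField A) (ResidueField B) := by
  rw [colen, (Submodule.Quotient.restrictScalarsEquiv A I).length_eq,
    IsLocalRing.length_restrictScalars A B]

theorem ds_len_flat {A B : Type} [CommRing A] [IsLocalRing A] [CommRing B] [IsLocalRing B]
    (f : A →+* B) [IsLocalHom f] (hf : f.Flat) :
    Module.length B B = Module.length A A * colen B ((maximalIdeal A).map f) := by
  letI := f.toAlgebra
  haveI : Module.Flat A B := hf
  haveI : IsLocalHom (algebraMap A B) := ‹IsLocalHom f›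
  have := IsLocalRing.length_baseChange A B A
  rwa [(TensorProduct.AlgebraTensorModule.rid A B B).length_eq] at this

theorem ds_colen_max (A : Type) [CommRing A] [IsLocalRing A] : colen A (maximalIdeal A) = 1 := by
  have := Module.length_eq_of_surjective (S := A) (R := ResidueField A) (M := ResidueField A)
    residue_surjective
  rw [Module.length_eq_one (ResidueField A) (ResidueField A)] at this
  exact this

theorem ds_good_unram {A : Type} [CommRing A] [IsLocalRing A] {B : Subring A} (h : Good B)
    [IsLocalRing B] : (maximalIdeal B).map B.subtype = maximalIdeal A := by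
  rw [h.maximalIdeal_eq, h.unr]

theorem ds_good_local {A : Type} [CommRing A] [IsLocalRing A] {B : Subring A} (h : Good B)
    [IsLocalRing B] : IsLocalHom B.subtype :=
  ((local_hom_TFAE B.subtype).out 2 0).mp (ds_good_unram h).le

theorem ds_good_len {A : Type} [CommRing A] [IsLocalRing A] [IsArtinianRing A] {B : Subring A}
    (h : Good B) : Module.length B B = Module.length A A := by
  have := h.colen ⊥
  rwa [Ideal.map_bot, ln_colen_bot, ln_colen_bot] at this

theorem ds_good_comap {A : Type} [CommRing A] [IsLocalRing A] [IsArtinianRing A] {B : Subring A}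
    (h : Good B) (I : Ideal B) : (I.map B.subtype).comap B.subtype = I := by
  haveI := ds_good_noeth h
  haveI := ds_good_art h
  by_contra hne
  have hlt : I < (I.map B.subtype).comap B.subtype :=
    lt_of_le_of_ne Ideal.le_comap_map (Ne.symm hne)
  have h1 := h.colen ((I.map B.subtype).comap B.subtype)
  rw [Ideal.map_comap_map, ← h.colen I, colen, colen, Module.length_quotient,
    Module.length_quotient] at h1
  exact (Order.coheight_strictAnti hlt (Order.coheight_lt_top _)).ne h1

theorem ds_good_res {A : Type} [CommRing A] [IsLocalRing A] {B : Subring A} (h : Good B)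
    [IsLocalRing B] : ∃ s : Finset B, Subfield.closure (residue B '' (s : Set B)) = ⊤ := by
  classical
  haveI := ds_good_local h
  obtain ⟨s, hsB, hs⟩ := h.fg
  refine ⟨s.attach.image fun a => ⟨a.1, hsB a.1 a.2⟩, ?_⟩
  rw [eq_top_iff]
  intro x _
  obtain ⟨x, rfl⟩ := residue_surjective x
  have h1 := hs x x.2
  have h2 : residue A '' (s : Set A) ⊆ ResidueField.map B.subtype ''
      (residue B '' ((s.attach.image fun a => (⟨a.1, hsB a.1 a.2⟩ : B) : Finset B) : Set B)) := by
    rintro _ ⟨a, ha, rfl⟩
    refine ⟨residue B ⟨a, hsB a ha⟩, ⟨⟨a, hsB a ha⟩, ?_, rfl⟩, ResidueField.map_residue _ _⟩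
    simp only [Finset.coe_image, Set.mem_image]
    exact ⟨⟨a, ha⟩, by simp, rfl⟩
  have h3 := Subfield.closure_mono h2 h1
  rw [← RingHom.map_field_closure] at h3
  obtain ⟨y, hy, e⟩ := h3
  have : y = residue B x := (ResidueField.map B.subtype).injective (e.trans (by rfl))
  exact this ▸ hy

/-- Take `A ⊆ A0` good, `B ⊆ B0` good containing `z` and the image of the generators of `A`
(`Good.exists_gen` applied to the preimage of `B`), `A1 = Tr A (Fin j)` from `exists_algInd_finite`, `e` the degree
of the residue field extension.  `IsLocalRing.length_restrictScalars` gives `ℓ_{A1} = e ℓ_B`, `Good.colen` compares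
`B` with `B0`, `IsLocalRing.length_baseChange` gives `ℓ(B0) = ℓ(A0) ℓ(B0 / 𝔪 B0)` and `ℓ(A1) = ℓ(A)`.  For an ideal
`I` of `B`, `I B0 ⊓ B = I` since both have the same colength.  The map `g` is `tr_lift`. -/
theorem free_model {A0 B0 R1 : Type} [CommRing A0] [IsLocalRing A0] [IsArtinianRing A0] [CommRing B0]
    [IsLocalRing B0] [IsArtinianRing B0] [CommRing R1] [IsLocalRing R1] (f : A0 →+* B0) [IsLocalHom f]
    (hf : f.Flat) (ψ : A0 →+* R1) [IsLocalHom ψ] (hψ : Unram ψ) (τ : ℕ → R1) (hτ : AlgInd ψ τ) {d : ℕ}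
    (z : Fin d → B0) (hz : ∀ i, z i ∈ maximalIdeal B0) {N0 : ℕ} (hN : maximalIdeal B0 ^ N0 ≤ idl z) :
    ∃ (A1 B : Type) (_ : CommRing A1) (_ : IsLocalRing A1) (_ : IsArtinianRing A1) (_ : CommRing B)
      (_ : Algebra A1 B) (r e : ℕ) (_ : Module.Basis (Fin r) A1 B) (g : A1 →+* R1) (w : Fin d → B),
      Unram g ∧ 1 ≤ e ∧ (r : ℕ∞) = e * colen B0 ((maximalIdeal A0).map f) ∧
      (maximalIdeal A1 ^ N0).map (algebraMap A1 B) ≤ idl w ∧
      (e : ℕ∞) ≤ colen A1 ((idl w ⊔ (maximalIdeal A1).map (algebraMap A1 B)).restrictScalars A1) ∧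
      ∀ T, colen A1 ((br w T).restrictScalars A1) ≤ e * colen B0 (br z T) := by
  classical
  obtain ⟨A, -, hA⟩ := exists_good (∅ : Finset A0)
  obtain ⟨G, -, hG⟩ := hA.exists_gen
  obtain ⟨B, hBF, hB⟩ := exists_good (G.image f ∪ Finset.univ.image z)
  have hAB : A ≤ B.comap f := by
    refine hG _ (fun g hg => hBF _ (Finset.mem_union_left _ (Finset.mem_image_of_mem _ hg))) ?_
    intro b hb hm
    obtain ⟨u, rfl⟩ : IsUnit b := by simpa using hm
    have hm' : f u ∉ maximalIdeal B0 := by
      simp
    obtain ⟨b', hb', e⟩ := hB.inv _ hb hm'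
    refine ⟨↑u⁻¹, ?_, by simp⟩
    have : f ↑u⁻¹ = b' := by
      calc f ↑u⁻¹ = f ↑u⁻¹ * (f u * b') := by rw [e, mul_one]
        _ = f (↑u⁻¹ * u) * b' := by rw [map_mul, mul_assoc]
        _ = b' := by simp
    change f ↑u⁻¹ ∈ B
    exact this ▸ hb'
  have hzB : ∀ i, z i ∈ B := fun i =>
    hBF _ (Finset.mem_union_right _ (Finset.mem_image_of_mem _ (Finset.mem_univ i)))
  haveI := hA.isLocalRing
  haveI := hB.isLocalRing
  haveI := ds_good_local hA
  haveI := ds_good_local hB
  haveI := ds_good_noeth hA
  haveI := ds_good_noeth hB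
  haveI := ds_good_art hB
  let g0 : A →+* B := (f.comp A.subtype).codRestrict B fun a => hAB a.2
  have hg0 : B.subtype.comp g0 = f.comp A.subtype := rfl
  haveI : IsLocalHom (B.subtype.comp g0) := by rw [hg0]; infer_instance
  haveI : IsLocalHom g0 := isLocalHom_of_comp g0 B.subtype
  obtain ⟨s, hs⟩ := ds_good_res hB
  obtain ⟨j, g1, hg1, hcomp, hfin⟩ := exists_algInd_finite g0 s hs
  haveI := trC_local A (Fin j)
  haveI := tr_noeth A (Fin j)
  have hlen1 : Module.length (Tr A (Fin j)) (Tr A (Fin j)) = Module.length A0 A0 := by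
    rw [ds_len_flat (trC A (Fin j)) (trC_flat A (Fin j)), trC_unram A (Fin j), ds_colen_max, mul_one,
      ds_good_len hA]
  haveI hart : IsArtinianRing (Tr A (Fin j)) :=
    (isFiniteLength_iff_isNoetherian_isArtinian.mp (Module.length_ne_top_iff.mp
      (hlen1 ▸ Module.length_ne_top))).2
  letI : Algebra (Tr A (Fin j)) B := g1.toAlgebra
  haveI : IsLocalHom (algebraMap (Tr A (Fin j)) B) := hg1
  haveI : Module.Finite (ResidueField (Tr A (Fin j))) (ResidueField B) := by
    have : ResidueField.map g1 = algebraMap (ResidueField (Tr A (Fin j))) (ResidueField B) := by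
      refine RingHom.ext fun x => ?_
      obtain ⟨x, rfl⟩ := residue_surjective x
      rfl
    rw [this] at hfin
    exact RingHom.finite_algebraMap.mp hfin
  set e := Module.finrank (ResidueField (Tr A (Fin j))) (ResidueField B) with he
  have hle : Module.length (ResidueField (Tr A (Fin j))) (ResidueField B) = e :=
    Module.length_eq_finrank _ _
  have he1 : 1 ≤ e := Module.finrank_pos
  have hcol : ∀ I : Ideal B, colen (Tr A (Fin j)) (I.restrictScalars (Tr A (Fin j))) =
      e * colen B0 (I.map B.subtype) := fun I => by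
    rw [ds_colen_restrict, hle, hB.colen, mul_comm]
  have hmap : ((maximalIdeal (Tr A (Fin j))).map (algebraMap (Tr A (Fin j)) B)).map B.subtype =
      (maximalIdeal A0).map f := by
    rw [← trC_unram A (Fin j), Ideal.map_map, Ideal.map_map, ← ds_good_unram hA, Ideal.map_map, ← hg0,
      ← hcomp]
    rfl
  obtain ⟨c, hc⟩ : ∃ c : ℕ, colen B0 ((maximalIdeal A0).map f) = c :=
    ⟨_, (ENat.natCast_toNat Module.length_ne_top).symm⟩
  have hlenB : Module.length (Tr A (Fin j)) B =
      (e * c : ℕ) * Module.length (Tr A (Fin j)) (Tr A (Fin j)) := by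
    rw [IsLocalRing.length_restrictScalars (Tr A (Fin j)) B, hle, ds_good_len hB, ds_len_flat f hf, hc,
      hlen1]
    push_cast; ring
  haveI : Module.Finite (Tr A (Fin j)) B := by
    have h1 : Module.length (Tr A (Fin j)) B ≠ ⊤ := by
      rw [hlenB]
      exact WithTop.mul_ne_top (ENat.natCast_ne_top _) Module.length_ne_top
    haveI := (isFiniteLength_iff_isNoetherian_isArtinian.mp (Module.length_ne_top_iff.mp h1)).1
    infer_instance
  have hgen : colen (Tr A (Fin j)) (ism (maximalIdeal (Tr A (Fin j))) B) = (e * c : ℕ) := by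
    rw [ism, Ideal.smul_top_eq_map, hcol, hmap, hc]
    push_cast; rfl
  obtain ⟨b⟩ := free_of_length hgen hlenB
  obtain ⟨g, hg, hgc, -⟩ := tr_lift (ψ.comp A.subtype) (fun i : Fin j => τ i)
    ((hτ.comp_left A.subtype).reindex _ Fin.val_injective)
  let w : Fin d → B := fun i => ⟨z i, hzB i⟩
  have hmB : (maximalIdeal (Tr A (Fin j))).map (algebraMap (Tr A (Fin j)) B) ≤ maximalIdeal B :=
    ((local_hom_TFAE _).out 0 2).mp hg1
  refine ⟨Tr A (Fin j), B, inferInstance, inferInstance, hart, inferInstance, inferInstance, e * c, e, b,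
    g, w, ?_, he1, ?_, ?_, ?_, fun T => ?_⟩
  · rw [Unram, ← trC_unram A (Fin j), Ideal.map_map, hgc, ← Ideal.map_map, ds_good_unram hA]
    exact hψ
  · rw [hc]; push_cast; rfl
  · rw [← ds_good_comap hB (idl w), ← Ideal.map_le_iff_le_comap, idl_map, Ideal.map_pow, Ideal.map_pow]
    refine le_trans (Ideal.pow_right_mono ?_ N0) hN
    rw [← ds_good_unram hB]
    exact Ideal.map_mono hmB
  · rw [ds_colen_restrict, hle]
    have h1 : idl w ⊔ (maximalIdeal (Tr A (Fin j))).map (algebraMap (Tr A (Fin j)) B) ≤
        maximalIdeal B := by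
      refine sup_le (ln_idl_le fun i => ?_) hmB
      rw [hB.maximalIdeal_eq]
      exact hz i
    have h2 := colen_anti h1
    rw [ds_colen_max] at h2
    exact le_mul_of_one_le_left' h2
  · rw [hcol, ds_br_map]
    exact le_rfl

open TensorProduct in
theorem ds_coker {A B D : Type} [CommRing A] [CommRing B] [Algebra A B] [CommRing D] [Algebra A D]
    {r d : ℕ} (b : Module.Basis (Fin r) A B) (y : Fin d → B) (J : Ideal A)
    (hJ : ∀ a ∈ J, algebraMap A D a = 0) :
    colen D (⨆ j, LinearMap.range ((Algebra.leftMulMatrix b (y j)).map (algebraMap A D)).mulVecLin) =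
      Module.length D (D ⊗[A] (B ⧸ (idl y ⊔ J.map (algebraMap A B)).restrictScalars A)) := by
  set I := (idl y ⊔ J.map (algebraMap A B)).restrictScalars A with hI
  set U := ⨆ j, LinearMap.range ((Algebra.leftMulMatrix b (y j)).map (algebraMap A D)).mulVecLin
    with hU
  let E : D ⊗[A] B ≃ₗ[D] (Fin r → D) := (b.baseChange D).equivFun
  have hE : ∀ (c : D) (x : B) (i : Fin r), E (c ⊗ₜ x) i = algebraMap A D (b.repr x i) * c := by
    intro c x i
    rw [← Algebra.smul_def]
    exact Module.Basis.baseChange_repr_tmul D b c x i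
  have hmul : ∀ (t : B) (u : D ⊗[A] B), E ((LinearMap.mulLeft A t).baseChange D u) =
      ((Algebra.leftMulMatrix b t).map (algebraMap A D)).mulVec (E u) := by
    intro t u
    induction u with
    | zero => simp
    | add u v hu hv => rw [map_add, map_add, map_add, Matrix.mulVec_add, hu, hv]
    | tmul c x =>
      funext i
      rw [LinearMap.baseChange_tmul, hE, LinearMap.mulLeft_apply, ← Algebra.leftMulMatrix_mulVec_repr]
      simp only [Matrix.mulVec, dotProduct, map_sum, map_mul, Finset.sum_mul, Matrix.map_apply, hE,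
        mul_assoc]
  let F : (Fin r → D) →ₗ[D] D ⊗[A] (B ⧸ I) := (I.mkQ.baseChange D).comp E.symm.toLinearMap
  have hF : Function.Surjective F :=
    (LinearMap.lTensor_surjective D I.mkQ_surjective).comp E.symm.surjective
  have hker : U = LinearMap.ker F := by
    apply le_antisymm
    · refine iSup_le fun j => ?_
      rintro _ ⟨v, rfl⟩
      obtain ⟨u, rfl⟩ := E.surjective v
      rw [Matrix.mulVecLin_apply, ← hmul, LinearMap.mem_ker]
      change I.mkQ.baseChange D (E.symm (E _)) = 0
      rw [E.symm_apply_apply, ← LinearMap.comp_apply, ← LinearMap.baseChange_comp]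
      have : I.mkQ.comp (LinearMap.mulLeft A (y j)) = 0 := by
        refine LinearMap.ext fun x => ?_
        rw [LinearMap.comp_apply, LinearMap.zero_apply, Submodule.mkQ_apply,
          Submodule.Quotient.mk_eq_zero]
        exact Ideal.mem_sup_left (Ideal.mul_mem_right _ _ (ln_mem_idl y j))
      rw [this, LinearMap.baseChange_zero, LinearMap.zero_apply]
    · intro v hv
      obtain ⟨u, rfl⟩ := E.surjective v
      have h1 : I.mkQ.lTensor D u = 0 := by
        have : I.mkQ.baseChange D (E.symm (E u)) = 0 := hv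
        rwa [E.symm_apply_apply] at this
      obtain ⟨t, rfl⟩ := (lTensor_exact D (LinearMap.exact_subtype_mkQ I) I.mkQ_surjective u).1 h1
      clear h1 hv
      induction t with
      | zero => simp
      | add u v hu hv => rw [map_add, map_add]; exact add_mem hu hv
      | tmul c x =>
        obtain ⟨x, hx⟩ := x
        obtain ⟨x1, h1, x2, h2, rfl⟩ := Submodule.mem_sup.1 (show x ∈ idl y ⊔ J.map (algebraMap A B) from hx)
        rw [LinearMap.lTensor_tmul, Submodule.subtype_apply, tmul_add, map_add]
        refine add_mem ?_ ?_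
        · obtain ⟨a, rfl⟩ := Ideal.mem_span_range_iff_exists_fun.1 h1
          rw [tmul_sum, map_sum]
          refine sum_mem fun j _ => ?_
          have := hmul (y j) (c ⊗ₜ a j)
          rw [LinearMap.baseChange_tmul, LinearMap.mulLeft_apply, mul_comm] at this
          rw [this]
          exact Submodule.mem_iSup_of_mem j ⟨_, rfl⟩
        · have h3 : x2 ∈ J • (⊤ : Submodule A B) := by
            rw [Ideal.smul_top_eq_map]; exact h2
          have h4 : c ⊗ₜ[A] x2 = 0 := by
            refine Submodule.smul_induction_on h3 (fun a ha n _ => ?_) (fun u v hu hv => ?_)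
            · rw [← smul_tmul, Algebra.smul_def, hJ a ha, zero_mul, zero_tmul]
            · rw [tmul_add, hu, hv, add_zero]
          rw [h4, map_zero]
          exact zero_mem _
  rw [hker]
  exact (F.quotKerEquivOfSurjective hF).length_eq

open TensorProduct in
theorem ds_sub {R A B D : Type} [CommRing R] [CommRing A] [CommRing B] [Algebra A B] [CommRing D]
    [Algebra A D] [Algebra R D] (hs : Function.Surjective (algebraMap R D)) {r d : ℕ}
    (b : Module.Basis (Fin r) A B) (w : Fin d → B) (J : Ideal A)
    (hJ : ∀ a ∈ J, algebraMap A D a = 0) (Z : Fin d → Matrix (Fin r) (Fin r) R)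
    (hZ : ∀ j, (Z j).map (algebraMap R D) = (Algebra.leftMulMatrix b (w j)).map (algebraMap A D))
    (T : ℕ) :
    colen R (⨆ j, LinearMap.range (act (Z j ^ T) D)) =
      Module.length D (D ⊗[A] (B ⧸ (br w T ⊔ J.map (algebraMap A B)).restrictScalars A)) := by
  rw [br, ← ds_coker b _ J hJ, colen_eq_restrict_of_surj hs, Submodule.restrictScalars_iSup]
  congr 2
  funext j
  have h1 : (Z j ^ T).map (algebraMap R D) =
      (Algebra.leftMulMatrix b (w j ^ T)).map (algebraMap A D) := by
    have e1 := map_pow (algebraMap R D).mapMatrix (Z j) T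
    have e2 := map_pow (algebraMap A D).mapMatrix (Algebra.leftMulMatrix b (w j)) T
    simp only [RingHom.mapMatrix_apply] at e1 e2
    rw [e1, map_pow, e2, hZ]
  have h2 : ∀ v : Fin r → D, act (Z j ^ T) D v =
      ((Algebra.leftMulMatrix b (w j ^ T)).map (algebraMap A D)).mulVec v := by
    intro v
    rw [← h1]
    funext i
    change ∑ k, (Z j ^ T) i k • v k = _
    simp only [Matrix.mulVec, dotProduct, Matrix.map_apply, Algebra.smul_def]
  ext v
  simp only [LinearMap.mem_range, Submodule.restrictScalars_mem, Matrix.mulVecLin_apply, h2]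

open TensorProduct in
theorem ds_len_field {A K : Type} [CommRing A] [IsLocalRing A] [Field K] [Algebra A K]
    (hK : ∀ a ∈ maximalIdeal A, algebraMap A K a = 0) (N : Type) [AddCommGroup N] [Module A N]
    (hN : ism (maximalIdeal A) N = ⊥) : Module.length K (K ⊗[A] N) = Module.length A N := by
  letI : Algebra (ResidueField A) K := (Ideal.Quotient.lift _ (algebraMap A K) hK).toAlgebra
  haveI : IsScalarTower A (ResidueField A) K := IsScalarTower.of_algebraMap_eq fun _ => rfl
  rw [← (AlgebraTensorModule.cancelBaseChange A (ResidueField A) K K N).length_eq,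
    Module.length_eq_rank, Module.rank_baseChange, Cardinal.lift_id, ← Module.length_eq_rank, ds_len_res,
    hN, ln_colen_bot]

/-- The matrices are entrywise lifts of `(Algebra.leftMulMatrix b (w j)).map g`; `C` is the set of matrices whose
reduction lies in the `R' / 𝔪'^M`-span of the `(leftMulMatrix b a).map g`.  The quotients are base changes of
`B / (w, 𝔪)` (to the residue field, where the dimension is preserved) and of `B / w^[T]`
(`length_baseChange_le`). -/
theorem sys_of_free {R' A1 B : Type} [CommRing R'] [IsLocalRing R'] [IsNoetherianRing R'] {M : ℕ}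
    [IsLocalRing (R' ⧸ maximalIdeal R' ^ M)] [CommRing A1] [IsLocalRing A1] [IsArtinianRing A1] [CommRing B]
    [Algebra A1 B] {r : ℕ} (b : Module.Basis (Fin r) A1 B) (g : A1 →+* R' ⧸ maximalIdeal R' ^ M)
    (hg : Unram g) {d : ℕ} (w : Fin d → B) {N0 : ℕ}
    (hN : (maximalIdeal A1 ^ N0).map (algebraMap A1 B) ≤ idl w) :
    ∃ S : Sys R' (maximalIdeal R') M d N0 r,
      S.b0 = len A1 (B ⧸ (idl w ⊔ (maximalIdeal A1).map (algebraMap A1 B)).restrictScalars A1) ∧
      ∀ T, S.zl R' T ≤ len A1 (B ⧸ (br w T).restrictScalars A1) := by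
  classical
  have hM : M ≠ 0 := by
    rintro rfl
    have : (1 : R' ⧸ maximalIdeal R' ^ 0) = 0 := Ideal.Quotient.eq_zero_iff_mem.2 (by simp)
    exact one_ne_zero this
  set π := Ideal.Quotient.mk (maximalIdeal R' ^ M) with hπ
  have hπs : Function.Surjective π := Ideal.Quotient.mk_surjective
  haveI : IsLocalHom π := IsLocalHom.of_surjective π hπs
  choose lift hlift using hπs
  have hlm : ∀ X : Matrix (Fin r) (Fin r) (R' ⧸ maximalIdeal R' ^ M), π.mapMatrix (X.map lift) = X :=
    fun X => by ext i j; exact hlift _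
  have hker : ∀ X : Matrix (Fin r) (Fin r) R', π.mapMatrix X = 0 → ∀ i j, X i j ∈ maximalIdeal R' ^ M :=
    fun X hX i j => Ideal.Quotient.eq_zero_iff_mem.1 (congrFun (congrFun hX i) j)
  let Φ : B →+* Matrix (Fin r) (Fin r) (R' ⧸ maximalIdeal R' ^ M) :=
    g.mapMatrix.comp (Algebra.leftMulMatrix b : B →ₐ[A1] _).toRingHom
  let V := Submodule.span (R' ⧸ maximalIdeal R' ^ M) (Set.range Φ)
  have hΦV : ∀ x, Φ x ∈ V := fun x => Submodule.subset_span ⟨x, rfl⟩
  have hcomm : ∀ X ∈ V, ∀ Y ∈ V, X * Y = Y * X := by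
    intro X hX Y hY
    induction hX using Submodule.span_induction with
    | mem X hX =>
      obtain ⟨x, rfl⟩ := hX
      induction hY using Submodule.span_induction with
      | mem Y hY => obtain ⟨y, rfl⟩ := hY; rw [← map_mul, ← map_mul, mul_comm]
      | zero => simp
      | add Y Y' _ _ h1 h2 => rw [mul_add, add_mul, h1, h2]
      | smul a Y _ h1 => rw [mul_smul_comm, smul_mul_assoc, h1]
    | zero => simp
    | add X X' _ _ h1 h2 => rw [mul_add, add_mul, h1, h2]
    | smul a X _ h1 => rw [mul_smul_comm, smul_mul_assoc, h1]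
  have hgen : ∀ ρ ∈ (maximalIdeal A1 ^ N0).map g,
      ∃ H : Fin d → Matrix (Fin r) (Fin r) (R' ⧸ maximalIdeal R' ^ M), (∀ j, H j ∈ V) ∧
        ρ • (1 : Matrix (Fin r) (Fin r) (R' ⧸ maximalIdeal R' ^ M)) = ∑ l, Φ (w l) * H l := by
    intro ρ hρ
    induction hρ using Submodule.span_induction with
    | mem ρ hρ =>
      obtain ⟨a, ha, rfl⟩ := hρ
      obtain ⟨c, hc⟩ := Ideal.mem_span_range_iff_exists_fun.1 (hN (Ideal.mem_map_of_mem _ ha))
      refine ⟨fun l => Φ (c l), fun l => hΦV _, ?_⟩
      simp only [← map_mul, ← map_sum, mul_comm (w _), hc]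
      ext i j
      change _ = g (Algebra.leftMulMatrix b (algebraMap A1 B a) i j)
      rw [AlgHom.commutes, Matrix.algebraMap_matrix_apply, Matrix.smul_apply, Matrix.one_apply]
      split_ifs <;> simp
    | zero => exact ⟨0, fun _ => zero_mem _, by simp⟩
    | add x y _ _ h1 h2 =>
      obtain ⟨H1, m1, e1⟩ := h1
      obtain ⟨H2, m2, e2⟩ := h2
      exact ⟨H1 + H2, fun j => add_mem (m1 j) (m2 j), by
        simp only [add_smul, e1, e2, Pi.add_apply, mul_add, Finset.sum_add_distrib]⟩
    | smul a x _ h1 =>
      obtain ⟨H1, m1, e1⟩ := h1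
      exact ⟨a • H1, fun j => V.smul_mem a (m1 j), by
        simp only [smul_assoc, e1, Pi.smul_apply, mul_smul_comm, Finset.smul_sum]⟩
  let S : Sys R' (maximalIdeal R') M d N0 r :=
    { Z := fun j => (Φ (w j)).map lift
      C := {X | π.mapMatrix X ∈ V}
      Z_mem := fun j => by
        change π.mapMatrix _ ∈ V
        rw [hlm]; exact hΦV _
      comm := fun X hX Y hY => hker _ (by rw [map_sub, map_mul, map_mul, hcomm _ hX _ hY, sub_self])
      gen := fun μ hμ => by
        have h1 : π μ ∈ (maximalIdeal A1 ^ N0).map g := by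
          rw [Ideal.map_pow, hg]
          have h2 := Ideal.mem_map_of_mem π hμ
          rw [Ideal.map_pow] at h2
          exact Ideal.pow_right_mono (((local_hom_TFAE π).out 0 2).mp ‹IsLocalHom π›) N0 h2
        obtain ⟨H, hH, e⟩ := hgen _ h1
        refine ⟨fun l => (H l).map lift, fun l => ?_, hker _ ?_⟩
        · change π.mapMatrix _ ∈ V
          rw [hlm]; exact hH l
        · rw [map_sub, map_sum]
          simp only [map_mul, hlm]
          rw [← e, sub_eq_zero]
          ext i j
          simp only [RingHom.mapMatrix_apply, Matrix.map_apply, Matrix.smul_apply, Matrix.one_apply]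
          split_ifs <;> simp }
  haveI : Module.Finite A1 B := Module.Finite.of_basis b
  refine ⟨S, ?_, fun T => ?_⟩
  · letI : Field (R' ⧸ maximalIdeal R') := Ideal.Quotient.field _
    let fa : (R' ⧸ maximalIdeal R' ^ M) →+* R' ⧸ maximalIdeal R' :=
      Ideal.Quotient.factor (Ideal.pow_le_self hM)
    letI : Algebra A1 (R' ⧸ maximalIdeal R') := (fa.comp g).toAlgebra
    have hJ : ∀ a ∈ maximalIdeal A1, algebraMap A1 (R' ⧸ maximalIdeal R') a = 0 := by
      intro a ha
      have h1 : g a ∈ maximalIdeal _ := hg ▸ Ideal.mem_map_of_mem g ha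
      rw [← hlift (g a)] at h1
      change fa (g a) = 0
      rw [← hlift (g a)]
      refine Ideal.Quotient.eq_zero_iff_mem.2 ?_
      rw [mem_maximalIdeal, mem_nonunits_iff] at h1 ⊢
      exact fun h => h1 (h.map π)
    have h1 := ds_sub (R := R') (D := R' ⧸ maximalIdeal R') Ideal.Quotient.mk_surjective b w
      (maximalIdeal A1) hJ S.Z (fun j => by
        ext i k
        change fa (π (lift _)) = fa (g _)
        rw [hlift]; rfl) 1
    have h2 : ism (maximalIdeal R' ^ M) (Fin r → R' ⧸ maximalIdeal R') = ⊥ := by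
      rw [eq_bot_iff, ism, Submodule.smul_le]
      intro a ha v _
      rw [Submodule.mem_bot]
      funext i
      rw [Pi.smul_apply, Algebra.smul_def, Ideal.Quotient.algebraMap_eq,
        Ideal.Quotient.eq_zero_iff_mem.2 (Ideal.pow_le_self hM ha), zero_mul, Pi.zero_apply]
    have h3 : br w 1 = idl w := by simp [br]
    rw [h3, ds_len_field hJ] at h1
    · refine ds_len_congr ?_
      rw [← h1, Sys.sub, h2, sup_bot_eq]
    · rw [eq_bot_iff, ism, Submodule.smul_le]
      intro a ha v _
      obtain ⟨v, rfl⟩ := Submodule.Quotient.mk_surjective _ v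
      rw [Submodule.mem_bot, ← Submodule.Quotient.mk_smul, Submodule.Quotient.mk_eq_zero,
        Algebra.smul_def]
      exact Ideal.mem_sup_right (Ideal.mul_mem_right _ _ (Ideal.mem_map_of_mem _ ha))
  · letI : Algebra A1 (R' ⧸ maximalIdeal R' ^ M) := g.toAlgebra
    have h1 := ds_sub (R := R') (D := R' ⧸ maximalIdeal R' ^ M) Ideal.Quotient.mk_surjective b w
      ⊥ (fun a ha => by rw [Ideal.mem_bot.1 ha, map_zero]) S.Z (fun j => by
        ext i k
        exact hlift _) T
    rw [Ideal.map_bot, sup_bot_eq] at h1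
    have h2 := length_baseChange_le (A := A1) (B := R' ⧸ maximalIdeal R' ^ M) hg
      (B ⧸ (br w T).restrictScalars A1)
    rw [← h1] at h2
    refine ds_len_le Module.length_ne_top (le_trans ?_ h2)
    let P : (Fin r → R') →ₗ[R'] (Fin r → R' ⧸ maximalIdeal R' ^ M) :=
      (Algebra.linearMap R' (R' ⧸ maximalIdeal R' ^ M)).compLeft (Fin r)
    have hP : ∀ v, P (fun i => lift (v i)) = v := fun v => funext fun i => hlift _
    rw [ln_len_add P]
    refine le_trans (colen_anti ?_) le_self_add
    have h3 : (⨆ j, LinearMap.range (act (S.Z j ^ T) (R' ⧸ maximalIdeal R' ^ M))) ≤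
        (⨆ j, LinearMap.range (act (S.Z j ^ T) R')).map P := by
      refine iSup_le fun j => ?_
      rintro _ ⟨v, rfl⟩
      refine ⟨act (S.Z j ^ T) R' fun i => lift (v i), Submodule.mem_iSup_of_mem j ⟨_, rfl⟩, ?_⟩
      funext i
      change π (∑ k, (S.Z j ^ T) i k • lift (v k)) = ∑ k, (S.Z j ^ T) i k • v k
      rw [map_sum]
      refine Finset.sum_congr rfl fun k _ => ?_
      rw [smul_eq_mul, map_mul, hlift]
      rfl
    refine (Submodule.comap_mono h3).trans ?_
    rw [Submodule.comap_map_eq, Sys.sub]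
    refine sup_le_sup_left (fun v hv => ?_) _
    rw [ln_ism_pi]
    intro i _
    rw [ism, smul_eq_mul, Ideal.mul_top]
    exact Ideal.Quotient.eq_zero_iff_mem.1 (congrFun hv i)

theorem ds_colen_quot {S : Type} [CommRing S] (J I : Ideal S) :
    colen (S ⧸ J) (I.map (Ideal.Quotient.mk J)) = colen S (I ⊔ J) := by
  rw [colen_eq_restrict_of_surj (Λ := S) Ideal.Quotient.mk_surjective,
    ln_len_add (Algebra.linearMap S (S ⧸ J)),
    LinearMap.range_eq_top.2 (show Function.Surjective (Algebra.linearMap S (S ⧸ J)) from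
      Ideal.Quotient.mk_surjective), sup_top_eq, ln_colen_top, add_zero]
  congr 1
  have := Ideal.comap_map_of_surjective' (Ideal.Quotient.mk J) Ideal.Quotient.mk_surjective I
  rw [Ideal.mk_ker] at this
  rw [← this]
  rfl

theorem ds_quot_local {S : Type} [CommRing S] [IsLocalRing S] {J : Ideal S} (hJ : J ≤ maximalIdeal S) :
    IsLocalRing (S ⧸ J) := by
  haveI : Nontrivial (S ⧸ J) :=
    Ideal.Quotient.nontrivial_iff.2 (ne_top_of_le_ne_top (maximalIdeal.isMaximal S).ne_top hJ)
  exact IsLocalRing.of_surjective' (Ideal.Quotient.mk J) Ideal.Quotient.mk_surjective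

theorem ds_quot_max {S : Type} [CommRing S] [IsLocalRing S] (J : Ideal S) [IsLocalRing (S ⧸ J)] :
    (maximalIdeal S).map (Ideal.Quotient.mk J) = maximalIdeal (S ⧸ J) :=
  IsLocalRing.map_maximalIdeal_of_surjective _ Ideal.Quotient.mk_surjective

theorem ds_quot_art {S : Type} [CommRing S] [IsNoetherianRing S] [IsLocalRing S] (J : Ideal S)
    [IsLocalRing (S ⧸ J)] {n : ℕ} (h : maximalIdeal S ^ n ≤ J) : IsArtinianRing (S ⧸ J) := by
  rw [isArtinianRing_iff_isNilpotent_maximalIdeal]
  refine ⟨n, ?_⟩
  rw [← ds_quot_max, ← Ideal.map_pow, Ideal.zero_eq_bot, Ideal.map_eq_bot_iff_le_ker, Ideal.mk_ker]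
  exact h

theorem ds_quot_map_local {A S : Type} [CommRing A] [IsLocalRing A] [CommRing S] [IsLocalRing S]
    (f : A →+* S) [IsLocalHom f] {I : Ideal A} {J : Ideal S} [IsLocalRing (A ⧸ I)]
    [IsLocalRing (S ⧸ J)] (h : I ≤ J.comap f) : IsLocalHom (Ideal.quotientMap J f h) := by
  refine ((local_hom_TFAE _).out 2 0).mp ?_
  rw [← ds_quot_max, Ideal.map_map, Ideal.quotientMap_comp_mk, ← Ideal.map_map, ← ds_quot_max]
  exact Ideal.map_mono (((local_hom_TFAE f).out 0 2).mp ‹_›)

/-- `free_model` for `R / 𝔪^M → S / 𝔪^M S` (flat by base change) and `R / 𝔪^M → R' / 𝔪'^M`, then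
`sys_of_free`. -/
theorem sys_exists {R S R' : Type} [CommRing R] [IsNoetherianRing R] [IsLocalRing R] [CommRing S]
    [IsNoetherianRing S] [IsLocalRing S] [CommRing R'] [IsNoetherianRing R'] [IsLocalRing R'] (f : R →+* S)
    [IsLocalHom f] (hf : f.Flat) {c : ℕ} (hc : maximalIdeal S ^ c ≤ (maximalIdeal R).map f) (ψ : R →+* R')
    [IsLocalHom ψ] (hψ : Unram ψ) (τ : ℕ → R') (hτ : AlgInd ψ τ) {d : ℕ} (z : Fin d → S)
    (hz : ∀ i, z i ∈ maximalIdeal S) {N0 : ℕ} (hN : maximalIdeal S ^ N0 ≤ idl z) {M : ℕ} (hM : 0 < M) :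
    ∃ (r : ℕ) (Sy : Sys R' (maximalIdeal R') M d N0 r), 1 ≤ Sy.b0 ∧
      (r : ℝ) ≤ len S (S ⧸ (maximalIdeal R).map f) * Sy.b0 ∧
      ∀ T, Sy.zl R' T ≤ Sy.b0 * len S (S ⧸ br z T) := by
  have hfm : (maximalIdeal R).map f ≤ maximalIdeal S := ((local_hom_TFAE f).out 0 2).mp ‹_›
  have hJ : (maximalIdeal R ^ M).map f ≤ (maximalIdeal R).map f :=
    Ideal.map_mono (Ideal.pow_le_self hM.ne')
  haveI : IsLocalRing (R ⧸ maximalIdeal R ^ M) := ds_quot_local (Ideal.pow_le_self hM.ne')
  haveI : IsLocalRing (R' ⧸ maximalIdeal R' ^ M) := ds_quot_local (Ideal.pow_le_self hM.ne')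
  haveI : IsLocalRing (S ⧸ (maximalIdeal R ^ M).map f) := ds_quot_local (hJ.trans hfm)
  haveI : IsArtinianRing (R ⧸ maximalIdeal R ^ M) := ds_quot_art _ le_rfl
  haveI : IsArtinianRing (S ⧸ (maximalIdeal R ^ M).map f) := ds_quot_art _ (n := c * M) (by
    rw [pow_mul, Ideal.map_pow]; exact Ideal.pow_right_mono hc M)
  have hψM : maximalIdeal R ^ M ≤ (maximalIdeal R' ^ M).comap ψ := by
    rw [← Ideal.map_le_iff_le_comap, Ideal.map_pow, hψ]
  let f0 := Ideal.quotientMap ((maximalIdeal R ^ M).map f) f Ideal.le_comap_map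
  let ψ0 := Ideal.quotientMap (maximalIdeal R' ^ M) ψ hψM
  haveI : IsLocalHom f0 := ds_quot_map_local f _
  haveI : IsLocalHom ψ0 := ds_quot_map_local ψ _
  have hf0 : f0.Flat := by
    letI := f.toAlgebra
    haveI : Module.Flat R S := hf
    have h1 : Module.Flat (R ⧸ maximalIdeal R ^ M) (S ⧸ (maximalIdeal R ^ M).map (algebraMap R S)) :=
      Module.Flat.of_linearEquiv
        (Algebra.TensorProduct.quotIdealMapEquivQuotTensor S (maximalIdeal R ^ M)).toLinearEquiv
    exact RingHom.flat_algebraMap_iff.2 h1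
  have hψ0 : Unram ψ0 := by
    rw [Unram, ← ds_quot_max, Ideal.map_map, Ideal.quotientMap_comp_mk, ← Ideal.map_map, hψ, ds_quot_max]
  haveI : IsLocalHom (Ideal.Quotient.mk (maximalIdeal R' ^ M)) :=
    IsLocalHom.of_surjective _ Ideal.Quotient.mk_surjective
  have hτ0 : AlgInd ψ0 fun i => Ideal.Quotient.mk (maximalIdeal R' ^ M) (τ i) := by
    intro p hp β
    obtain ⟨p, rfl⟩ := MvPolynomial.map_surjective (Ideal.Quotient.mk (maximalIdeal R ^ M))
      Ideal.Quotient.mk_surjective p
    rw [MvPolynomial.eval₂_map, Ideal.quotientMap_comp_mk] at hp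
    rw [MvPolynomial.coeff_map, ← ds_quot_max]
    exact Ideal.mem_map_of_mem _ (hτ.comp_right _ p hp β)
  obtain ⟨A1, B, _, _, _, _, _, r, e, b, g, w, hg, he1, hr, hw, hb0, hT⟩ := free_model f0 hf0 ψ0 hψ0 _ hτ0
    (fun i => Ideal.Quotient.mk ((maximalIdeal R ^ M).map f) (z i))
    (fun i => by rw [← ds_quot_max]; exact Ideal.mem_map_of_mem _ (hz i)) (N0 := N0)
    (by rw [← ds_quot_max, ← Ideal.map_pow, ← idl_map]; exact Ideal.map_mono hN)
  obtain ⟨Sy, h1, h2⟩ := sys_of_free b g hg w hw
  haveI : Module.Finite A1 B := Module.Finite.of_basis b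
  have heb : (e : ℝ) ≤ Sy.b0 := by
    rw [h1, len, Nat.cast_le]
    have := ENat.toNat_le_toNat hb0 Module.length_ne_top
    rwa [ENat.toNat_natCast] at this
  have he1' : (1 : ℝ) ≤ e := by exact_mod_cast he1
  refine ⟨r, Sy, he1'.trans heb, ?_, fun T => ?_⟩
  · rw [← ds_quot_max, Ideal.map_map, Ideal.quotientMap_comp_mk, ← Ideal.map_map, ds_colen_quot,
      sup_eq_left.2 hJ] at hr
    have h3 := congrArg ENat.toNat hr
    rw [ENat.toNat_natCast, ENat.toNat_mul, ENat.toNat_natCast] at h3
    have h4 : (r : ℝ) = e * len S (S ⧸ (maximalIdeal R).map f) := by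
      rw [len, h3, Nat.cast_mul]
    rw [h4, mul_comm]
    exact mul_le_mul_of_nonneg_left heb len_nonneg
  · have hfin : colen S (br z T) ≠ ⊤ := by
      obtain ⟨n, hn⟩ : ∃ n : ℕ, maximalIdeal S ^ n ≤ br z T := by
        rcases Nat.eq_zero_or_pos d with rfl | hd
        · refine ⟨N0, hN.trans (ln_idl_le fun i => i.elim0)⟩
        · refine ⟨N0 * (d * T), ?_⟩
          rw [pow_mul]
          exact (Ideal.pow_right_mono hN _).trans (idl_pow_le_br hd z T)
      refine Module.length_ne_top_iff.2 (isFiniteLength_quot (c := n) ?_)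
      rwa [ism, smul_eq_mul, Ideal.mul_top]
    have h3 := hT T
    rw [← ds_br_map, ds_colen_quot] at h3
    have h4 : colen A1 ((br w T).restrictScalars A1) ≤ e * colen S (br z T) :=
      h3.trans (mul_le_mul_right (colen_anti le_sup_left) _)
    have h5 := ENat.toNat_le_toNat h4 (WithTop.mul_ne_top (ENat.natCast_ne_top _) hfin)
    rw [ENat.toNat_mul, ENat.toNat_natCast] at h5
    calc Sy.zl R' T ≤ _ := h2 T
      _ ≤ (e : ℝ) * len S (S ⧸ br z T) := by rw [len, len]; exact_mod_cast h5
      _ ≤ _ := mul_le_mul_of_nonneg_right heb len_nonneg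

end Crest.Agent.R183
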