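import Crest.Agent.R183.Defs2

/-!
# rid 183, file `Dsc`: the discriminant of a monic polynomial and Frobenius

Prefix helper lemmas with `dc_`.
-/

set_option autoImplicit false

open Polynomial

namespace Crest.Agent.R183

variable {Λ : Type} [CommRing Λ]

/-- The determinant of the trace form of `Λ[Y] / f` in the power basis. -/
noncomputable def dsc (f : Λ[X]) (ρ : ℕ) : Λ :=
  Matrix.det (Matrix.of fun i j : Fin ρ => ∑ l : Fin ρ, ((X ^ ((i : ℕ) + j + l)) %ₘ f).coeff l)

/-- `Polynomial.map_modByMonic`, `RingHom.map_det`. -/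
theorem dsc_map {Λ' : Type} [CommRing Λ'] (g : Λ →+* Λ') {f : Λ[X]} (hf : f.Monic) (ρ : ℕ) :
    dsc (f.map g) ρ = g (dsc f ρ) := by
  unfold dsc
  rw [RingHom.map_det]
  congr 1
  ext i j
  simp only [Matrix.of_apply, RingHom.mapMatrix_apply, Matrix.map_apply, map_sum]
  refine Finset.sum_congr rfl (fun l _ => ?_)
  rw [← Polynomial.coeff_map, Polynomial.map_modByMonic g hf, Polynomial.map_pow, Polynomial.map_X]

theorem dc_basis {f : Λ[X]} (hf : f.Monic) (i : Fin f.natDegree) :
    AdjoinRoot.powerBasisAux' hf i = AdjoinRoot.root f ^ (i : ℕ) :=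
  (AdjoinRoot.powerBasis' hf).basis_eq_pow i

/-- The trace is the sum of the diagonal entries of `Algebra.leftMulMatrix` in `AdjoinRoot.powerBasis' hf`. -/
theorem dsc_eq_det {f : Λ[X]} (hf : f.Monic) {ρ : ℕ} (hρ : f.natDegree = ρ) :
    dsc f ρ = Matrix.det (Matrix.of fun i j : Fin ρ =>
      Algebra.trace Λ (AdjoinRoot f) (AdjoinRoot.root f ^ ((i : ℕ) + j))) := by
  subst hρ
  unfold dsc
  congr 1
  ext i j
  simp only [Matrix.of_apply]
  rw [Algebra.trace_eq_matrix_trace (AdjoinRoot.powerBasisAux' hf), Matrix.trace]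
  refine Finset.sum_congr rfl (fun l _ => ?_)
  rw [Matrix.diag_apply, Algebra.leftMulMatrix_eq_repr_mul, dc_basis, ← pow_add,
    AdjoinRoot.powerBasisAux'_repr_apply_to_fun, ← AdjoinRoot.mk_X, ← map_pow,
    AdjoinRoot.modByMonicHom_mk]

theorem dc_eq_discr {f : Λ[X]} (hf : f.Monic) :
    dsc f f.natDegree = Algebra.discr Λ (AdjoinRoot.powerBasisAux' hf) := by
  rw [dsc_eq_det hf rfl, Algebra.discr_def]
  congr 1
  ext i j
  rw [Algebra.traceMatrix_apply, Algebra.traceForm_apply, dc_basis, dc_basis, ← pow_add,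
    Matrix.of_apply]

/-- `Algebra.discr_not_zero_of_basis` over the fraction field. -/
theorem dsc_ne_zero [IsDomain Λ] [CharZero Λ] {f : Λ[X]} (hf : f.Monic)
    (hi : Irreducible (f.map (algebraMap Λ (FractionRing Λ)))) : dsc f f.natDegree ≠ 0 := by
  intro h
  have hinj : Function.Injective (algebraMap Λ (FractionRing Λ)) :=
    IsFractionRing.injective Λ (FractionRing Λ)
  have hm : (f.map (algebraMap Λ (FractionRing Λ))).Monic := hf.map _
  have h1 := dsc_map (algebraMap Λ (FractionRing Λ)) hf f.natDegree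
  rw [h, map_zero, ← hf.natDegree_map (algebraMap Λ (FractionRing Λ)), dc_eq_discr hm] at h1
  have : Fact (Irreducible (f.map (algebraMap Λ (FractionRing Λ)))) := ⟨hi⟩
  have : CharZero (FractionRing Λ) := charZero_of_injective_ringHom hinj
  have := hm.finite_adjoinRoot
  exact Algebra.discr_not_zero_of_basis (FractionRing Λ) (AdjoinRoot.powerBasisAux' hm) h1

theorem dc_charpoly_pow (p : ℕ) [hp : Fact p.Prime] [CharP Λ p] {ι : Type} [Fintype ι]
    [DecidableEq ι] [Nonempty ι] (A : Matrix ι ι Λ) :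
    (A ^ p).charpoly = A.charpoly.map (frobenius Λ p) := by
  apply Polynomial.expand_injective hp.out.pos
  rw [← Polynomial.map_expand, Polynomial.map_frobenius_expand]
  unfold Matrix.charpoly
  rw [AlgHom.map_det, ← Matrix.coe_detMonoidHom,
    ← (Matrix.detMonoidHom : Matrix ι ι Λ[X] →* Λ[X]).map_pow]
  apply congr_arg Matrix.det
  refine matPolyEquiv.injective ?_
  rw [map_pow, Matrix.matPolyEquiv_charmatrix, sub_pow_char_of_commute, ← C_pow]
  · exact (id (matPolyEquiv_eq_X_pow_sub_C p A) :)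
  · exact (C A).commute_X

/-- `(X - A)^p = X^p - A^p`, so `expand p (charpoly (A^p)) = (charpoly A)^p = expand p (map frobenius (charpoly A))`;
compare `FiniteField.Matrix.charpoly_pow_card`. -/
theorem trace_pow_char (p : ℕ) [Fact p.Prime] [CharP Λ p] {ι : Type} [Fintype ι] [DecidableEq ι]
    (A : Matrix ι ι Λ) : Matrix.trace (A ^ p) = Matrix.trace A ^ p := by
  have hp : p.Prime := Fact.out
  cases isEmpty_or_nonempty ι
  · simp [Matrix.trace, hp.ne_zero]
  rw [Matrix.trace_eq_neg_charpoly_coeff, Matrix.trace_eq_neg_charpoly_coeff, dc_charpoly_pow,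
    Polynomial.coeff_map, ← map_neg, frobenius_def]

theorem dc_trace_pow (p : ℕ) [Fact p.Prime] [CharP Λ p] {f : Λ[X]} (hf : f.Monic)
    (x : AdjoinRoot f) :
    Algebra.trace Λ (AdjoinRoot f) (x ^ p) = Algebra.trace Λ (AdjoinRoot f) x ^ p := by
  rw [Algebra.trace_eq_matrix_trace (AdjoinRoot.powerBasisAux' hf),
    Algebra.trace_eq_matrix_trace (AdjoinRoot.powerBasisAux' hf), map_pow, trace_pow_char]

/-- Let `T` be the matrix of the `θ^(p i)`, `i < ρ`, in the power basis.  The trace form gives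
`det T ^ 2 * dsc = det (trace θ^(p (i + j))) = dsc ^ p`.  By the adjugate, `det T • v` lies in the span of the
`θ^(p i)`, hence so does `det T ^ 2 * dsc • v`. -/
theorem dsc_pow_smul_mem (p : ℕ) [Fact p.Prime] [CharP Λ p] {f : Λ[X]} (hf : f.Monic) {ρ : ℕ}
    (hρ : f.natDegree = ρ) (v : AdjoinRoot f) :
    dsc f ρ ^ p • v ∈ Submodule.span Λ (Set.range fun i : Fin ρ => (AdjoinRoot.root f ^ p) ^ (i : ℕ)) := by
  subst hρ
  set b := AdjoinRoot.powerBasisAux' hf with hb
  set w : Fin f.natDegree → AdjoinRoot f := fun i => (AdjoinRoot.root f ^ p) ^ (i : ℕ) with hw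
  have h1 : Algebra.discr Λ w = dsc f f.natDegree ^ p := by
    rw [dsc_eq_det hf rfl, ← frobenius_def, RingHom.map_det, Algebra.discr_def]
    congr 1
    ext i j
    rw [Algebra.traceMatrix_apply, Algebra.traceForm_apply, RingHom.mapMatrix_apply,
      Matrix.map_apply, Matrix.of_apply, frobenius_def, ← dc_trace_pow p hf, hw]
    simp only
    rw [← pow_add, ← pow_mul, ← pow_mul, mul_comm]
  have h2 : Algebra.discr Λ w = (b.toMatrix w).det ^ 2 * Algebra.discr Λ b := by
    rw [← Algebra.discr_of_matrix_vecMul, b.toMatrix_map_vecMul]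
  have h3 : ∀ j, (b.toMatrix w).det • b j ∈ Submodule.span Λ (Set.range w) := by
    intro j
    have e : (b.toMatrix w).det • b j = ∑ i, (b.toMatrix w).adjugate i j • w i := by
      apply b.repr.injective
      ext k
      have := congrFun (congrFun (Matrix.mul_adjugate (b.toMatrix w)) k) j
      rw [Matrix.mul_apply, Matrix.smul_apply, Matrix.one_apply] at this
      simp only [map_smul, map_sum, Finsupp.coe_finsetSum, Finset.sum_apply, Finsupp.smul_apply,
        Module.Basis.repr_self, Finsupp.single_apply, smul_eq_mul]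
      simp only [Module.Basis.toMatrix_apply, smul_eq_mul] at this
      rw [show (if j = k then (1 : Λ) else 0) = if k = j then 1 else 0 by simp only [eq_comm], ← this]
      exact Finset.sum_congr rfl (fun i _ => mul_comm _ _)
    rw [e]
    exact Submodule.sum_mem _ (fun i _ =>
      Submodule.smul_mem _ _ (Submodule.subset_span ⟨i, rfl⟩))
  have h4 : (b.toMatrix w).det • v ∈ Submodule.span Λ (Set.range w) := by
    rw [← b.sum_repr v, Finset.smul_sum]
    refine Submodule.sum_mem _ (fun j _ => ?_)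
    rw [smul_comm]
    exact Submodule.smul_mem _ _ (h3 j)
  rw [← h1, h2, show (b.toMatrix w).det ^ 2 * Algebra.discr Λ b =
    ((b.toMatrix w).det * Algebra.discr Λ b) * (b.toMatrix w).det by ring, mul_smul]
  exact Submodule.smul_mem _ _ h4

end Crest.Agent.R183
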