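import Crest.Agent.R183.Kos

/-!
# rid 183, file `E1`: multiplicativity of lengths of bracket powers on almost Cohen–Macaulay modules

Prefix helper lemmas with `e1_`.
-/

set_option autoImplicit false

namespace Crest.Agent.R183

variable {Λ : Type} [CommRing Λ] {d : ℕ} {W : Type} [AddCommGroup W] [Module Λ W]

/-- `∑ z_j^{a_j} W`. -/
def esub (z : Fin d → Module.End Λ W) (a : Fin d → ℕ) : Submodule Λ W :=
  ⨆ j, LinearMap.range (z j ^ a j)

/-- `c` lies in the ideal generated by the `z j` inside a commutative family. -/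
def InIdl (𝒞 : Set (Module.End Λ W)) (z : Fin d → Module.End Λ W) (c : Λ) : Prop :=
  ∃ h : Fin d → Module.End Λ W, (∀ j, h j ∈ 𝒞) ∧ c • (1 : Module.End Λ W) = ∑ j, z j * h j

theorem e1_abs {A : Type} [CommRing A] [Algebra Λ A] (z : Fin d → A) (hd : 0 < d) {T : ℕ}
    (c : Fin (d * T) → Λ) (hc : ∀ i, algebraMap Λ A (c i) ∈ idl z) {a : Fin d → ℕ}
    (ha : ∀ j, a j ≤ T) : ∃ h : Fin d → A, algebraMap Λ A (∏ i, c i) = ∑ j, z j ^ a j * h j := by
  have h1 : ∏ i, algebraMap Λ A (c i) ∈ ∏ _i : Fin (d * T), idl z :=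
    Ideal.prod_mem_prod fun i _ => hc i
  rw [Finset.prod_const, Finset.card_univ, Fintype.card_fin, ← map_prod] at h1
  have h2 : br z T ≤ idl fun j => z j ^ a j := by
    refine Ideal.span_le.2 ?_
    rintro _ ⟨j, rfl⟩
    exact Ideal.mem_of_dvd _ (pow_dvd_pow _ (ha j)) (Ideal.subset_span ⟨j, rfl⟩)
  obtain ⟨h, hh⟩ := Ideal.mem_span_range_iff_exists_fun.1 (h2 (idl_pow_le_br hd z T h1))
  exact ⟨h, by rw [← hh]; exact Finset.sum_congr rfl fun j _ => mul_comm _ _⟩

open scoped IsMulCommutative in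
/-- Work in the commutative ring `Algebra.adjoin Λ 𝒞` (`Algebra.adjoinCommRingOfComm`) and use
`idl_pow_le_br`: a product of `d T` elements of `(z)` lies in `(z^[T])`. -/
theorem InIdl.prod {𝒞 : Set (Module.End Λ W)} (hC : ∀ a ∈ 𝒞, ∀ b ∈ 𝒞, Commute a b)
    {z : Fin d → Module.End Λ W} (hz : ∀ j, z j ∈ 𝒞) (hd : 0 < d) {T : ℕ} (c : Fin (d * T) → Λ)
    (hc : ∀ i, InIdl 𝒞 z (c i)) {a : Fin d → ℕ} (ha : ∀ j, a j ≤ T) :
    InIdl (Algebra.adjoin Λ 𝒞 : Set (Module.End Λ W)) (fun j => z j ^ a j) (∏ i, c i) := by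
  have := Algebra.isMulCommutative_adjoin Λ (s := 𝒞) hC
  obtain ⟨h, hh⟩ := e1_abs (A := Algebra.adjoin Λ 𝒞)
    (fun j => ⟨z j, Algebra.subset_adjoin (hz j)⟩) hd c (fun i => by
      obtain ⟨h, h1, h2⟩ := hc i
      refine Ideal.mem_span_range_iff_exists_fun.2
        ⟨fun j => ⟨h j, Algebra.subset_adjoin (h1 j)⟩, Subtype.ext ?_⟩
      rw [Subalgebra.coe_algebraMap, Algebra.algebraMap_eq_smul_one, h2,
        AddSubmonoidClass.coe_finsetSum]
      exact Finset.sum_congr rfl fun j _ => (hC _ (h1 j) _ (hz j)).eq) ha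
  refine ⟨fun j => h j, fun j => (h j).2, ?_⟩
  have h1 := congrArg Subtype.val hh
  rw [Subalgebra.coe_algebraMap, Algebra.algebraMap_eq_smul_one,
    AddSubmonoidClass.coe_finsetSum] at h1
  exact h1

theorem InIdl.smul_mem {𝒞 : Set (Module.End Λ W)} {z : Fin d → Module.End Λ W} {a : Fin d → ℕ} {c : Λ}
    (h : InIdl 𝒞 (fun j => z j ^ a j) c) (w : W) : c • w ∈ esub z a := by
  obtain ⟨g, -, hg⟩ := h
  have h1 := LinearMap.congr_fun hg w
  rw [LinearMap.smul_apply, Module.End.one_apply, LinearMap.sum_apply] at h1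
  rw [h1]
  exact Submodule.sum_mem _ fun j _ => Submodule.mem_iSup_of_mem j ⟨g j w, rfl⟩

theorem e1_mem_iSup (f : Fin d → Module.End Λ W) (w : W) :
    w ∈ (⨆ j, LinearMap.range (f j)) ↔ ∃ u : Fin d → W, w = ∑ j, f j (u j) := by
  constructor
  · intro hw
    induction hw using Submodule.iSup_induction' with
    | mem i x hx =>
      obtain ⟨y, rfl⟩ := hx
      refine ⟨Pi.single i y, ?_⟩
      rw [Finset.sum_eq_single i] <;> simp +contextual
    | zero => exact ⟨0, by simp⟩
    | add x y _ _ hx hy =>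
      obtain ⟨u, rfl⟩ := hx
      obtain ⟨v, rfl⟩ := hy
      exact ⟨u + v, by simp [Finset.sum_add_distrib]⟩
  · rintro ⟨u, rfl⟩
    exact Submodule.sum_mem _ fun j _ => Submodule.mem_iSup_of_mem j ⟨u j, rfl⟩

/-- `∑_{j ≠ j0} z_j^{a_j} W`. -/
def e1U (z : Fin d → Module.End Λ W) (a : Fin d → ℕ) (j0 : Fin d) : Submodule Λ W :=
  ⨆ j, LinearMap.range (if j = j0 then 0 else z j ^ a j)

theorem e1_update (z : Fin d → Module.End Λ W) (a : Fin d → ℕ) (j0 : Fin d) (m : ℕ) :
    esub z (Function.update a j0 m) = e1U z a j0 ⊔ LinearMap.range (z j0 ^ m) := by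
  refine le_antisymm (iSup_le fun j => ?_) (sup_le (iSup_le fun j => ?_) ?_)
  · by_cases h : j = j0
    · subst h
      rw [Function.update_self]; exact le_sup_right
    · refine le_sup_of_le_left (le_iSup_of_le j ?_)
      rw [Function.update_of_ne h, if_neg h]
  · by_cases h : j = j0
    · rw [if_pos h, LinearMap.range_zero]; exact bot_le
    · refine le_iSup_of_le j ?_
      rw [Function.update_of_ne h, if_neg h]
  · refine le_iSup_of_le j0 ?_
    rw [Function.update_self]

theorem e1_self (z : Fin d → Module.End Λ W) (a : Fin d → ℕ) (j0 : Fin d) :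
    esub z a = e1U z a j0 ⊔ LinearMap.range (z j0 ^ a j0) := by
  rw [← e1_update, Function.update_eq_self]

theorem e1U_map {z : Fin d → Module.End Λ W} (hz : ∀ i j, Commute (z i) (z j)) (a : Fin d → ℕ)
    (j0 : Fin d) (m : ℕ) : (e1U z a j0).map (z j0 ^ m) ≤ e1U z a j0 := by
  rw [e1U, Submodule.map_iSup]
  refine iSup_mono fun j => ?_
  rintro _ ⟨_, ⟨w, rfl⟩, rfl⟩
  refine ⟨(z j0 ^ m) w, ?_⟩
  split_ifs
  · simp
  · rw [← Module.End.mul_apply, ← Module.End.mul_apply, ((hz j j0).pow_pow _ _).eq]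

theorem e1_ism_map (J : Ideal Λ) (f : Module.End Λ W) : (ism J W).map f ≤ ism J W := by
  rw [Submodule.map_smul'']
  exact smul_mono_right _ le_top

theorem e1_upd {z : Fin d → Module.End Λ W} (hz : ∀ i j, Commute (z i) (z j)) (a : Fin d → ℕ)
    (j0 : Fin d) (k : ℕ) (J : Ideal Λ) :
    colen Λ (esub z (Function.update a j0 (a j0 * k)) ⊔ ism J W) ≤
      k * colen Λ (esub z a ⊔ ism J W) := by
  rw [e1_update, e1_self z a j0, sup_right_comm, sup_right_comm _ _ (ism J W), pow_mul]
  refine colen_range_pow_le _ _ ?_ k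
  rw [Submodule.map_sup]
  exact sup_le_sup (e1U_map hz a j0 _) (e1_ism_map J _)

theorem e1_insert (a b : Fin d → ℕ) (s : Finset (Fin d)) {j0 : Fin d} (h : j0 ∉ s) :
    (fun j => if j ∈ insert j0 s then a j * b j else a j) =
      Function.update (fun j => if j ∈ s then a j * b j else a j) j0
        ((fun j => if j ∈ s then a j * b j else a j) j0 * b j0) := by
  funext j
  by_cases hj : j = j0
  · subst hj; simp [h]
  · simp [hj]

theorem e1_esub_le {z : Fin d → Module.End Λ W} (hz : ∀ i j, Commute (z i) (z j))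
    (a b : Fin d → ℕ) (J : Ideal Λ) (s : Finset (Fin d)) :
    colen Λ (esub z (fun j => if j ∈ s then a j * b j else a j) ⊔ ism J W) ≤
      (∏ j ∈ s, b j : ℕ) * colen Λ (esub z a ⊔ ism J W) := by
  induction s using Finset.induction_on with
  | empty => simp
  | insert j0 s h ih =>
    rw [e1_insert a b s h, Finset.prod_insert h, Nat.cast_mul, mul_assoc]
    exact (e1_upd hz _ j0 _ J).trans (mul_le_mul_right ih _)

theorem colen_esub_le {z : Fin d → Module.End Λ W} (hz : ∀ i j, Commute (z i) (z j)) (a b : Fin d → ℕ)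
    (J : Ideal Λ) :
    colen Λ (esub z (fun j => a j * b j) ⊔ ism J W) ≤ (∏ j, b j : ℕ) * colen Λ (esub z a ⊔ ism J W) := by
  simpa using e1_esub_le hz a b J Finset.univ

theorem e1_comap_add (f : Module.End Λ W) (U : Submodule Λ W) :
    colen Λ (U.comap f) + colen Λ (U ⊔ LinearMap.range f) ≤ colen Λ U := by
  rw [colen_eq_add (le_sup_left : U ≤ U ⊔ LinearMap.range f)]
  refine add_le_add_left ?_ _
  let g : W →ₗ[Λ] ↥(U ⊔ LinearMap.range f) :=
    f.codRestrict _ fun w => Submodule.mem_sup_right ⟨w, rfl⟩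
  refine Module.length_le_of_injective
    ((U.comap f).mapQ (U.submoduleOf (U ⊔ LinearMap.range f)) g fun w hw => hw) ?_
  refine (injective_iff_map_eq_zero _).2 fun q hq => ?_
  obtain ⟨w, rfl⟩ := Submodule.Quotient.mk_surjective _ q
  have h1 : g w ∈ U.submoduleOf (U ⊔ LinearMap.range f) := (Submodule.Quotient.mk_eq_zero _).1 hq
  exact (Submodule.Quotient.mk_eq_zero _).2 h1

theorem e1_ker {E K : Submodule Λ W} {c : Λ} (hfin : IsFiniteLength Λ (W ⧸ E))
    (h : ∀ w ∈ K, c • w ∈ E) : colen Λ E ≤ colen Λ K + colen Λ (E ⊔ ism (Ideal.span {c}) W) := by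
  let m : Module.End Λ (W ⧸ E) := c • 1
  have h1 := Module.length_eq_add_of_exact (LinearMap.ker m).subtype (LinearMap.ker m).mkQ
    (Submodule.injective_subtype _) (Submodule.mkQ_surjective _) (LinearMap.exact_subtype_mkQ _)
  rw [length_ker_eq hfin, add_comm] at h1
  refine h1.le.trans (add_le_add ?_ ?_)
  · refine colen_le_of_surj E.mkQ E.mkQ_surjective ?_
    rintro _ ⟨w, hw, rfl⟩
    exact (Submodule.Quotient.mk_eq_zero _).2 (h w hw)
  · refine colen_le_of_surj E.mkQ E.mkQ_surjective ?_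
    rw [Submodule.map_sup, Submodule.mkQ_map_self, bot_sup_eq, Submodule.map_le_iff_le_comap]
    refine Submodule.smul_le.2 fun r hr w _ => ?_
    obtain ⟨r', rfl⟩ := Ideal.mem_span_singleton'.1 hr
    exact ⟨E.mkQ (r' • w), by simp [m, smul_smul, mul_comm]⟩

/-- One variable.  Let `N = N0 * (d * T)`, `U = ∑_{j ≠ j0} z j ^ a j W`, `ζ = z j0 ^ a j0`.  For `i < k` the map
`W / esub z a → (ζ^i W + U) / (ζ^(i+1) W + U)`, `w ↦ ζ^i w`, is onto.  If `ζ^i w = ζ^(i+1) w' + u` then
`kos_h1` for the exponents `(i * a j0, a j)` and `K = L` gives `γ^d • (w - ζ w') ∈ U + (x)^(L - d N) W`, and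
`(x)^(d N) W ≤ (x^[N]) W ≤ esub z a`.  So the kernel lies in the kernel of `γ^d` on `W / esub z a`, of length
`colen (esub z a ⊔ γ^d W)` by `length_ker_eq` (if `W / esub z a` has infinite length, both sides are `⊤` or
`k = 0`). -/
theorem e1_step {𝒞 : Set (Module.End Λ W)} (hC : ∀ a ∈ 𝒞, ∀ b ∈ 𝒞, Commute a b)
    {z : Fin d → Module.End Λ W} (hz : ∀ j, z j ∈ 𝒞) {γ : Λ} {x : Fin d → Λ} {L N0 T : ℕ}
    (hR : AReg γ x L W) (hx : ∀ i, InIdl 𝒞 z (x i ^ N0)) (hL : 2 * (d * (N0 * (d * T))) ≤ L)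
    (a : Fin d → ℕ) (j0 : Fin d) (k : ℕ) (ha : ∀ j, a j ≤ T) (hk : a j0 * k ≤ T) :
    (k : ℕ∞) * colen Λ (esub z a) ≤ colen Λ (esub z (Function.update a j0 (a j0 * k))) +
      k * colen Λ (esub z a ⊔ ism (Ideal.span {γ ^ d}) W) := by
  have hd : 0 < d := j0.pos
  have hzz : ∀ i j, Commute (z i) (z j) := fun i j => hC _ (hz i) _ (hz j)
  rcases Nat.eq_zero_or_pos k with rfl | hk0
  · simp
  by_cases hfin : colen Λ (esub z a) = ⊤
  · have h1 : esub z (Function.update a j0 (a j0 * k)) ≤ esub z a := by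
      rw [e1_update, e1_self z a j0]
      refine sup_le_sup_left ?_ _
      obtain ⟨k, rfl⟩ := Nat.exists_eq_add_of_lt hk0
      rw [zero_add, mul_add, mul_one, add_comm, pow_add]
      exact LinearMap.range_comp_le_range _ _
    have h2 := colen_anti h1
    rw [hfin, top_le_iff] at h2
    rw [h2, top_add]
    exact le_top
  have hfin' := Module.length_ne_top_iff.1 hfin
  set N := N0 * (d * T) with hN
  have hxN : ∀ (a' : Fin d → ℕ), (∀ j, a' j ≤ T) → ∀ i,
      InIdl (Algebra.adjoin Λ 𝒞 : Set (Module.End Λ W)) (fun j => z j ^ a' j) (x i ^ N) := by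
    intro a' ha' i
    have := InIdl.prod hC hz hd (fun _ => x i ^ N0) (fun _ => hx i) ha'
    rwa [Finset.prod_const, Finset.card_univ, Fintype.card_fin, ← pow_mul] at this
  have hE : ism (idl x ^ (L - d * N)) W ≤ esub z a := by
    refine Submodule.smul_le.2 fun r hr w _ => ?_
    have h1 := idl_pow_le_br hd x N (Ideal.pow_le_pow_right (by omega) hr)
    obtain ⟨c, rfl⟩ := Ideal.mem_span_range_iff_exists_fun.1 h1
    rw [Finset.sum_smul]
    refine Submodule.sum_mem _ fun i _ => ?_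
    rw [mul_smul]
    exact Submodule.smul_mem _ _ ((hxN a ha i).smul_mem w)
  set U := e1U z a j0 with hU
  set ζ := z j0 ^ a j0 with hζ
  set e := colen Λ (esub z a ⊔ ism (Ideal.span {γ ^ d}) W) with he
  have key : ∀ i < k, colen Λ (esub z a) + colen Λ (U ⊔ LinearMap.range (ζ ^ i)) ≤
      colen Λ (U ⊔ LinearMap.range (ζ ^ (i + 1))) + e := by
    intro i hi
    have h1 := e1_comap_add (ζ ^ i) (U ⊔ LinearMap.range (ζ ^ (i + 1)))
    have h2 : LinearMap.range (ζ ^ (i + 1)) ≤ LinearMap.range (ζ ^ i) := by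
      rw [pow_succ]; exact LinearMap.range_comp_le_range _ _
    rw [sup_assoc, sup_eq_right.2 h2] at h1
    have h3 := e1_ker (K := (U ⊔ LinearMap.range (ζ ^ (i + 1))).comap (ζ ^ i)) (c := γ ^ d) hfin' ?_
    · calc _ ≤ colen Λ ((U ⊔ LinearMap.range (ζ ^ (i + 1))).comap (ζ ^ i)) + e +
            colen Λ (U ⊔ LinearMap.range (ζ ^ i)) := add_le_add_left h3 _
        _ ≤ _ := by rw [add_right_comm]; exact add_le_add_left h1 _
    intro w hw
    obtain ⟨u0, hu0, _, ⟨w', rfl⟩, hw'⟩ := Submodule.mem_sup.1 hw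
    obtain ⟨u, rfl⟩ := (e1_mem_iSup _ _).1 hu0
    set a' := Function.update a j0 (a j0 * i) with ha'
    have ha'T : ∀ j, a' j ≤ T := by
      intro j
      by_cases h : j = j0
      · subst h
        rw [ha', Function.update_self]
        exact (Nat.mul_le_mul_left _ hi.le).trans hk
      · rw [ha', Function.update_of_ne h]; exact ha j
    obtain ⟨A, -, hA0, hA⟩ := kos_h1 (fun j => z j ^ a' j) (fun i j => (hzz i j).pow_pow _ _)
      (N := N) hR (fun i => by
        obtain ⟨h, h1, h2⟩ := hxN a' ha'T i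
        exact ⟨h, fun j l => Algebra.commute_of_mem_adjoin_of_forall_mem_commute (h1 l)
          fun b hb => (hC _ (hz j) _ hb).pow_left _, h2⟩) le_rfl
      (fun j => if j = j0 then w - ζ w' else -u j) (by
        have h4 : ∀ j, (z j ^ a' j) (if j = j0 then w - ζ w' else -u j) =
            (if j = j0 then (ζ ^ i) (w - ζ w') else 0) -
              (if j = j0 then 0 else z j ^ a j : Module.End Λ W) (u j) := by
          intro j
          by_cases h : j = j0
          · subst h
            simp [ha', hζ, pow_mul]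
          · simp [ha', h]
        simp only [h4, Finset.sum_sub_distrib, Finset.sum_ite_eq', Finset.mem_univ, if_true]
        rw [map_sub, ← hw', ← Module.End.mul_apply, ← pow_succ, add_sub_cancel_right, sub_self]
        exact Submodule.zero_mem _)
    have h5 := hE (hA j0)
    rw [if_pos rfl, smul_sub] at h5
    have h6 : ∑ j, (z j ^ a' j) (A j0 j) ∈ esub z a := by
      refine Submodule.sum_mem _ fun j _ => ?_
      by_cases h : j = j0
      · rw [h, hA0, map_zero]; exact Submodule.zero_mem _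
      · rw [ha', Function.update_of_ne h]
        exact Submodule.mem_iSup_of_mem j ⟨_, rfl⟩
    have h7 : γ ^ d • ζ w' ∈ esub z a :=
      Submodule.smul_mem _ _ (Submodule.mem_iSup_of_mem j0 ⟨_, rfl⟩)
    simpa using Submodule.add_mem _ (Submodule.add_mem _ h5 h6) h7
  have main : ∀ i ≤ k, (i : ℕ∞) * colen Λ (esub z a) ≤
      colen Λ (U ⊔ LinearMap.range (ζ ^ i)) + i * e := by
    intro i
    induction i with
    | zero => simp
    | succ i ih =>
      intro hi
      calc ((i + 1 : ℕ) : ℕ∞) * colen Λ (esub z a)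
          = i * colen Λ (esub z a) + colen Λ (esub z a) := by push_cast; ring
        _ ≤ colen Λ (U ⊔ LinearMap.range (ζ ^ i)) + i * e + colen Λ (esub z a) :=
            add_le_add_left (ih (by omega)) _
        _ = colen Λ (esub z a) + colen Λ (U ⊔ LinearMap.range (ζ ^ i)) + i * e := by ring
        _ ≤ colen Λ (U ⊔ LinearMap.range (ζ ^ (i + 1))) + e + i * e :=
            add_le_add_left (key i hi) _
        _ = _ := by push_cast; ring
  rw [e1_update, pow_mul]
  exact main k le_rfl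

/-- Iterate `e1_step` over the variables, using `colen_esub_le` for the error terms. -/
theorem e1_all {𝒞 : Set (Module.End Λ W)} (hC : ∀ a ∈ 𝒞, ∀ b ∈ 𝒞, Commute a b)
    {z : Fin d → Module.End Λ W} (hz : ∀ j, z j ∈ 𝒞) {γ : Λ} {x : Fin d → Λ} {L N0 t k : ℕ}
    (hR : AReg γ x L W) (hx : ∀ i, InIdl 𝒞 z (x i ^ N0)) (hk : 0 < k)
    (hL : 2 * (d * (N0 * (d * (t * k)))) ≤ L) :
    ((k ^ d : ℕ) : ℕ∞) * colen Λ (esub z fun _ => t) ≤ colen Λ (esub z fun _ => t * k) +
      (d * k ^ d : ℕ) * colen Λ (esub z (fun _ => t) ⊔ ism (Ideal.span {γ ^ d}) W) := by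
  have hzz : ∀ i j, Commute (z i) (z j) := fun i j => hC _ (hz i) _ (hz j)
  set e := colen Λ (esub z (fun _ => t) ⊔ ism (Ideal.span {γ ^ d}) W) with he
  have main : ∀ s : Finset (Fin d), ((k ^ s.card : ℕ) : ℕ∞) * colen Λ (esub z fun _ => t) ≤
      colen Λ (esub z fun j => if j ∈ s then t * k else t) + (s.card * k ^ s.card : ℕ) * e := by
    intro s
    induction s using Finset.induction_on with
    | empty => simp
    | insert j0 s h ih =>
      have h1 := e1_step hC hz hR hx hL (fun j => if j ∈ s then t * k else t) j0 k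
        (fun j => by
          split_ifs
          exacts [le_rfl, Nat.le_mul_of_pos_right _ hk]) (by simp [h])
      have h2 := e1_esub_le hzz (fun _ => t) (fun _ => k) (Ideal.span {γ ^ d}) s
      rw [Finset.prod_const] at h2
      rw [← e1_insert (fun _ => t) (fun _ => k) s h] at h1
      rw [Finset.card_insert_of_notMem h]
      calc ((k ^ (s.card + 1) : ℕ) : ℕ∞) * colen Λ (esub z fun _ => t)
          = k * (((k ^ s.card : ℕ) : ℕ∞) * colen Λ (esub z fun _ => t)) := by push_cast; ring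
        _ ≤ k * (colen Λ (esub z fun j => if j ∈ s then t * k else t) +
            (s.card * k ^ s.card : ℕ) * e) := mul_le_mul_right ih _
        _ = k * colen Λ (esub z fun j => if j ∈ s then t * k else t) +
            k * ((s.card * k ^ s.card : ℕ) * e) := mul_add _ _ _
        _ ≤ colen Λ (esub z fun j => if j ∈ insert j0 s then t * k else t) +
            k * ((k ^ s.card : ℕ) * e) + k * ((s.card * k ^ s.card : ℕ) * e) :=
            add_le_add_left (h1.trans (add_le_add_right (mul_le_mul_right h2 _) _)) _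
        _ = _ := by push_cast; ring
  simpa using main Finset.univ

end Crest.Agent.R183
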