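import Crest.Agent.R183.Main0
import Crest.Agent.R183.CovP
import Crest.Agent.R183.CovM2
import Crest.Agent.R183.Cov0

/-!
# rid 183, file `Final`: the three characteristics
-/

set_option autoImplicit false

open IsLocalRing

namespace Crest.Agent.R183

theorem domainCase (d : ℕ) : DomainCase d := by
  intro D _ _ _ _ _ _ _ h h' E hE
  obtain ⟨p, hp⟩ := CharP.exists (ResidueField D)
  rcases CharP.char_is_prime_or_zero (ResidueField D) p with hpr | rfl
  · haveI : Fact p.Prime := ⟨hpr⟩
    by_cases h0 : (p : D) = 0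
    · haveI : CharP D p := (CharP.charP_iff_prime_eq_zero hpr).2 h0
      obtain ⟨x, hx, hc⟩ := cp_charP D p h h' hE
      exact lowB_of_cp hx hc
    · obtain ⟨x, hx, hc⟩ := cp_mixed D p h0 h h' hE
      exact lowB_of_cp hx hc
  · haveI : CharZero (ResidueField D) := CharP.charP_to_charZero _
    obtain ⟨x, hx, hc⟩ := cp_char0 D h h' hE
    exact lowB_of_cp hx hc

end Crest.Agent.R183
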