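import Crest.Agent.R183.SUP
import Crest.Agent.R183.DT2
import Crest.Agent.R183.Cohen
import Crest.Agent.R183.Sand

/-!
# rid 183, file `GT`: from domains to all complete local rings

Prefix helper lemmas with `gt_`.
-/

set_option autoImplicit false

open IsLocalRing

namespace Crest.Agent.R183

variable {R : Type} [CommRing R] [IsNoetherianRing R] [IsLocalRing R] [IsAdicComplete (maximalIdeal R) R] {d : ℕ}

theorem gt_local {A : Type} [CommRing A] [IsLocalRing A] (P : Ideal A) [P.IsPrime] :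
    IsLocalRing (A ⧸ P) :=
  IsLocalRing.of_surjective' (Ideal.Quotient.mk P) Ideal.Quotient.mk_surjective

theorem gt_res {A B : Type} [CommRing A] [IsLocalRing A] [CommRing B] [IsLocalRing B] (f : A →+* B)
    (hf : Function.Surjective f) : Nonempty (ResidueField A ≃+* ResidueField B) := by
  have := IsLocalHom.of_surjective f hf
  refine ⟨RingEquiv.ofBijective (ResidueField.map f) ⟨RingHom.injective _, fun y => ?_⟩⟩
  obtain ⟨b, rfl⟩ := residue_surjective y
  obtain ⟨a, rfl⟩ := hf b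
  exact ⟨residue A a, ResidueField.map_residue f a⟩

theorem gt_hsM_zero {A : Type} [CommRing A] [IsLocalRing A] (Q : Type) [AddCommGroup Q] [Module A Q]
    [Subsingleton Q] (k : ℕ) : hsM A Q k = 0 := by
  have : Subsingleton (Q ⧸ ism (maximalIdeal A ^ k) Q) :=
    (Submodule.mkQ_surjective _).subsingleton
  unfold hsM len
  rw [Module.length_eq_zero]
  simp

/-- If `dim R / P ≤ d`, take `γ ∈ P` from `exists_cut` (with `γ0 = 0`) and `x = 0`.  Otherwise use `exists_rbase` for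
`D = R / P` (`complete_quot`; the residue field is that of `R`), `exists_sand` over the base, `Sand.areg`,
`areg_algebraMap_iff` (twice), lift the parameters, adjust `γ` by `exists_cut`, and use `AReg.quot` with
`𝔪^(c L) D ≤ (x)^L D`. -/
theorem exists_areg [PerfectField (ResidueField R)] (h : ringKrullDim R ≤ (d + 1 : ℕ)) (P : Ideal R)
    [P.IsPrime] : ∃ (γ : R) (x : Fin (d + 1) → R), ringKrullDim (R ⧸ Ideal.span {γ}) ≤ d ∧
      (∀ i, x i ∈ maximalIdeal R) ∧
      ∀ L : ℕ, ∃ M1 : ℕ, ∀ M ≥ M1, AReg γ x L ((R ⧸ P) ⧸ ism (maximalIdeal R ^ M) (R ⧸ P)) := by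
  by_cases hP : ringKrullDim (R ⧸ P) ≤ d
  · obtain ⟨γ, hγ, hdim⟩ := exists_cut h P 0 (Or.inr hP)
    rw [sub_zero] at hγ
    refine ⟨γ, fun _ => 0, hdim, fun _ => zero_mem _, fun L => ⟨0, fun M _ j N K w _ _ => ?_⟩⟩
    obtain ⟨w, rfl⟩ := Submodule.Quotient.mk_surjective _ w
    have h0 : γ • w = 0 := by
      rw [Algebra.smul_def, Ideal.Quotient.algebraMap_eq, Ideal.Quotient.eq_zero_iff_mem.2 hγ, zero_mul]
    rw [← Submodule.Quotient.mk_smul, h0, Submodule.Quotient.mk_zero]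
    exact zero_mem _
  have := gt_local P
  have := complete_quot P
  obtain ⟨e⟩ := gt_res (Ideal.Quotient.mk P) Ideal.Quotient.mk_surjective
  have := PerfectField.of_ringEquiv e
  obtain ⟨Λ, _, X, Φ, hb, hfin, hinj, hs, c, hc⟩ :=
    exists_rbase (R := R ⧸ P) ((ringKrullDim_quotient_le P).trans h) hP
  let := Φ.toAlgebra
  have : Module.Finite Λ (R ⧸ P) := hfin
  have := hb.dom
  obtain ⟨γ0, hγ0, hS⟩ := exists_sand (Λ := Λ) (W := R ⧸ P)
  choose x hx using fun i => Ideal.Quotient.mk_surjective (Φ (X i))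
  obtain ⟨γ1, hγ1⟩ := Ideal.Quotient.mk_surjective (Φ γ0)
  have h1 : γ1 ∉ P := fun h1 => hγ0 (hinj (by
    rw [← hγ1, Ideal.Quotient.eq_zero_iff_mem.2 h1, map_zero]))
  obtain ⟨γ, hγ, hdim⟩ := exists_cut h P γ1 (Or.inl h1)
  have h2 : algebraMap R (R ⧸ P) γ = algebraMap Λ (R ⧸ P) γ0 :=
    (Ideal.Quotient.eq.2 hγ).trans hγ1
  have h3 : (fun i => algebraMap R (R ⧸ P) (x i)) = fun i => algebraMap Λ (R ⧸ P) (X i) := funext hx
  refine ⟨γ, x, hdim, fun i => ?_, fun L => ⟨c * L, fun M hM => ?_⟩⟩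
  · have h4 := hs i
    simp only [← hx i] at h4
    exact fun hu => h4 (hu.map _)
  · have h4 := (areg_algebraMap_iff (Λ' := R ⧸ P) γ0 X L).2 (hS.areg hb.reg L)
    rw [← h2, ← h3, areg_algebraMap_iff] at h4
    refine h4.quot fun w hw => ?_
    rw [← rg2_mem_map (Λ' := R ⧸ P)] at hw ⊢
    refine rg2_mono ?_ hw
    rw [Ideal.map_pow, Ideal.map_pow, ← rg2_idl_map, h3,
      map_maximalIdeal_of_surjective (algebraMap R (R ⧸ P)) Ideal.Quotient.mk_surjective]
    refine (Ideal.pow_le_pow_right hM).trans ?_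
    rw [pow_mul]
    exact Ideal.pow_right_mono hc L

/-- The statement for domains, to be supplied by the three covers. -/
def DomainCase (d : ℕ) : Prop :=
  ∀ (D : Type) [CommRing D] [IsDomain D] [IsNoetherianRing D] [IsLocalRing D]
    [IsAdicComplete (maximalIdeal D) D] [PerfectField (ResidueField D)] [Infinite (ResidueField D)],
    ringKrullDim D ≤ (d + 1 : ℕ) → ¬ ringKrullDim D ≤ d → ∀ E : ℝ, LeMult (hs D) (d + 1) E → LowB D (d + 1) E

theorem gt_prime (H : DomainCase d) [PerfectField (ResidueField R)] [Infinite (ResidueField R)]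
    (h : ringKrullDim R ≤ (d + 1 : ℕ)) (P : Ideal R) [P.IsPrime] :
    ∃ E : ℝ, UBe (hsM R (R ⧸ P)) (d + 1) E ∧ LowM R (d + 1) (R ⧸ P) E := by
  have := gt_local P
  have hh : hsM R (R ⧸ P) = hs (R ⧸ P) := funext (hsM_quot P)
  by_cases hP : ringKrullDim (R ⧸ P) ≤ d
  · exact ⟨0, hh ▸ ube_zero_of_dim hP, lowM_of_nonpos _ le_rfl⟩
  have := complete_quot P
  obtain ⟨e⟩ := gt_res (Ideal.Quotient.mk P) Ideal.Quotient.mk_surjective
  have := PerfectField.of_ringEquiv e
  have : Infinite (ResidueField (R ⧸ P)) := Infinite.of_injective e e.injective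
  obtain ⟨C, hC, h1⟩ := hsM_le_poly h (R ⧸ P)
  obtain ⟨E, h2, h3⟩ := exists_ube_leMult (h := hsM R (R ⧸ P)) (fun k => Nat.cast_nonneg _)
    (ube_of_le_poly h1 hC)
  refine ⟨E, h2, lowM_of_quot P ?_⟩
  rw [hh] at h3
  exact H (R ⧸ P) ((ringKrullDim_quotient_le P).trans h) hP E h3

/-- Induct along a prime filtration of `R` (`IsNoetherianRing.exists_relSeries_isQuotientEquivQuotientPrime`):
for each member `Q` there is `E_Q` with `UBe (hsM R Q) (d+1) E_Q` and `LowM R (d+1) Q E_Q`.  For `R / P` take `E_P` from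
`exists_ube_leMult` (`hsM_le_poly`, `ube_of_le_poly`); if `dim R / P ≤ d` take `E_P = 0` (`ube_zero_of_dim`,
`lowM_of_nonpos`).  Use `hsM_le_add`, `LowM.add`, `exists_areg`. -/
theorem lowB_of_domainCase (H : DomainCase d) [PerfectField (ResidueField R)] [Infinite (ResidueField R)]
    (h : ringKrullDim R ≤ (d + 1 : ℕ)) {E : ℝ} (hE : LeMult (hs R) (d + 1) E) : LowB R (d + 1) E := by
  obtain ⟨s, hs1, hs2⟩ := IsNoetherianRing.exists_relSeries_isQuotientEquivQuotientPrime R R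
  have key : ∀ n, (hn : n < s.length + 1) →
      ∃ E' : ℝ, UBe (hsM R (s ⟨n, hn⟩)) (d + 1) E' ∧ LowM R (d + 1) (s ⟨n, hn⟩) E' := by
    intro n
    induction n with
    | zero =>
      intro hn
      have h0 : s ⟨0, hn⟩ = ⊥ := hs1
      rw [h0]
      refine ⟨0, ube_zero_of_le_poly (C := 0) fun k => ?_, lowM_of_nonpos _ le_rfl⟩
      rw [gt_hsM_zero, zero_mul]
    | succ n ih =>
      intro hn
      obtain ⟨E', h1, h2⟩ := ih (n.lt_add_one.trans hn)
      obtain ⟨hle, p, ⟨e⟩⟩ := s.step ⟨n, (add_lt_add_iff_right _).1 hn⟩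
      change s ⟨n, n.lt_add_one.trans hn⟩ ≤ s ⟨n + 1, hn⟩ at hle
      change (s ⟨n + 1, hn⟩ ⧸ (s ⟨n, n.lt_add_one.trans hn⟩).submoduleOf (s ⟨n + 1, hn⟩)) ≃ₗ[R]
        R ⧸ p.1 at e
      generalize s ⟨n, n.lt_add_one.trans hn⟩ = N₁ at h1 h2 hle e
      generalize s ⟨n + 1, hn⟩ = N₂ at hle e
      have := p.2
      obtain ⟨E'', h3, h4⟩ := gt_prime H h p.1
      obtain ⟨γ, x, hdim, hx, hγ⟩ := exists_areg h p.1
      have hg : Function.Surjective (e.toLinearMap ∘ₗ (N₁.submoduleOf N₂).mkQ) :=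
        e.surjective.comp (Submodule.mkQ_surjective _)
      have hfg : Function.Exact (Submodule.inclusion hle)
          (e.toLinearMap ∘ₗ (N₁.submoduleOf N₂).mkQ) := by
        intro y
        rw [LinearMap.comp_apply, LinearEquiv.coe_coe, e.map_eq_zero_iff, Submodule.mkQ_apply,
          Submodule.Quotient.mk_eq_zero]
        exact ⟨fun hy => ⟨⟨y.1, hy⟩, rfl⟩, fun ⟨z, hz⟩ => hz ▸ z.2⟩
      exact ⟨E' + E'', (h1.add h3).of_le (Filter.Eventually.of_forall fun k =>
        hsM_le_add _ _ hg hfg k),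
        LowM.add _ _ (Submodule.inclusion_injective hle) hg hfg hdim hx hγ h2 h4⟩
  obtain ⟨E', h1, h2⟩ := key s.length s.length.lt_add_one
  have h0 : s ⟨s.length, s.length.lt_add_one⟩ = ⊤ := hs2
  rw [h0] at h1 h2
  have h3 : UBe (hs R) (d + 1) E' := by
    refine h1.of_le (Filter.Eventually.of_forall fun k => ?_)
    have h4 := hsM_le_add (⊤ : Submodule R R).subtype (0 : R →ₗ[R] PUnit.{1})
      (fun y => ⟨0, Subsingleton.elim _ _⟩) (fun y => ⟨fun _ => ⟨⟨y, trivial⟩, rfl⟩, fun _ => rfl⟩) k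
    rwa [gt_hsM_zero PUnit.{1}, add_zero, hsM_self] at h4
  exact (h2.of_equiv Submodule.topEquiv).mono (hE E' h3)

end Crest.Agent.R183
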