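import Crest.Agent.R183.Defs2

/-!
# rid 183, file `PBasis`: `p`-bases of fields, and small coefficient subrings of Artinian local rings

Prefix helper lemmas with `pb_`.
-/

set_option autoImplicit false

open IsLocalRing

namespace Crest.Agent.R183

section twisted

variable {A B C ι κ : Type} [CommRing A] [CommRing B] [CommRing C]

/-- linear independence along a ring homomorphism -/
def pb_TI (φ : A →+* B) (m : ι → B) : Prop :=
  ∀ f : ι →₀ A, (f.sum fun i c => φ c * m i) = 0 → f = 0

theorem pb_TI_iff (φ : A →+* B) (m : ι → B) :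
    pb_TI φ m ↔ letI := φ.toAlgebra; LinearIndependent A m := by
  let := φ.toAlgebra
  rw [linearIndependent_iff]
  rfl

theorem pb_TI_on (φ : A →+* B) (m : ι → B) (S : Set ι) : pb_TI φ (fun i : S => m i) ↔
    ∀ f : ι →₀ A, (∀ i ∈ f.support, i ∈ S) → (f.sum fun i c => φ c * m i) = 0 → f = 0 := by
  let := φ.toAlgebra
  rw [pb_TI_iff]
  exact linearIndepOn_iff (R := A) (v := m) (s := S)

theorem pb_TI.comp {φ : A →+* B} {m : ι → B} (h : pb_TI φ m) {m' : κ → B} (e : κ → ι)
    (he : Function.Injective e) (hm : ∀ k, m' k = m (e k)) : pb_TI φ m' := by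
  let := φ.toAlgebra
  rw [show m' = m ∘ e from funext hm]
  exact (pb_TI_iff _ _).2 (((pb_TI_iff _ _).1 h).comp e he)

theorem pb_TI.mul {φ : A →+* B} {ψ : B →+* C} {b : ι → B} {c : κ → C} (hb : pb_TI φ b)
    (hc : pb_TI ψ c) : pb_TI (ψ.comp φ) fun x : ι × κ => ψ (b x.1) * c x.2 := by
  let := φ.toAlgebra
  let := ψ.toAlgebra
  let := (ψ.comp φ).toAlgebra
  have : IsScalarTower A B C := IsScalarTower.of_algebraMap_eq' rfl
  exact (pb_TI_iff _ _).2 (linearIndependent_smul ((pb_TI_iff _ _).1 hb) ((pb_TI_iff _ _).1 hc))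

theorem pb_TI.of_comp {φ : A →+* B} (ψ : B →+* C) {b : ι → B}
    (h : pb_TI (ψ.comp φ) fun i => ψ (b i)) : pb_TI φ b := by
  intro f hf
  refine h f ?_
  have := congrArg ψ hf
  simpa only [map_finsuppSum, map_mul, map_zero, RingHom.comp_apply] using this

end twisted

theorem pb_pull {ι κ K L : Type} [Field K] [Field L] {q : ℕ} (g : L →+* K) (e : ι → κ)
    (he : Function.Injective e) {v : ι → L} {w : κ → K} (hvw : ∀ i, g (v i) = w (e i))
    (H : ∀ f : (κ →₀ ℕ) →₀ K, (∀ β ∈ f.support, ∀ i, β i < q) →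
      (f.sum fun β c => c ^ q * β.prod fun i n => w i ^ n) = 0 → f = 0)
    (f : (ι →₀ ℕ) →₀ L) (hf : ∀ β ∈ f.support, ∀ i, β i < q)
    (h : (f.sum fun β c => c ^ q * β.prod fun i n => v i ^ n) = 0) : f = 0 := by
  classical
  rcases Nat.eq_zero_or_pos q with rfl | hq
  · by_contra h0
    have h1 : ∀ β ∈ f.support, β = 0 := fun β hβ =>
      Finsupp.ext fun i => absurd (hf β hβ i) (Nat.not_lt_zero _)
    obtain ⟨β, hβ⟩ := Finsupp.support_nonempty_iff.2 h0
    rw [Finsupp.sum, Finset.sum_eq_single_of_mem β hβ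
      (fun b hb hne => absurd ((h1 b hb).trans (h1 β hβ).symm) hne), h1 β hβ] at h
    simp at h
  have hinj : Function.Injective (Finsupp.mapDomain e : (ι →₀ ℕ) → κ →₀ ℕ) :=
    Finsupp.mapDomain_injective he
  have h1 := H ((f.mapRange g (map_zero g)).mapDomain (Finsupp.mapDomain e)) (fun β hβ k => by
      obtain ⟨γ, hγ, rfl⟩ := Finset.mem_image.1 (Finsupp.mapDomain_support hβ)
      by_cases hk : k ∈ Set.range e
      · obtain ⟨i, rfl⟩ := hk
        rw [Finsupp.mapDomain_apply he]
        exact hf γ (Finsupp.support_mapRange hγ) i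
      · rw [Finsupp.mapDomain_of_notMem_range _ _ hk]
        exact hq) (by
      rw [Finsupp.sum_mapDomain_index_inj hinj,
        Finsupp.sum_mapRange_index (fun _ => by rw [zero_pow hq.ne', zero_mul])]
      have := congrArg g h
      simpa only [map_finsuppSum, map_mul, map_zero, map_pow, map_finsuppProd, hvw,
        Finsupp.prod_mapDomain_index_inj he] using this)
  have h2 : f.mapRange g (map_zero g) = 0 :=
    Finsupp.mapDomain_injective hinj (by rw [h1, Finsupp.mapDomain_zero])
  ext β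
  exact g.injective (by simpa using DFunLike.congr_fun h2 β)

section field

variable {K : Type} [Field K]

/-- The reduced monomials in `s` are linearly independent over `K^p`. -/
def PInd (p : ℕ) (s : Set K) : Prop :=
  ∀ f : (s →₀ ℕ) →₀ K, (∀ β ∈ f.support, ∀ i, β i < p) →
    (f.sum fun β c => c ^ p * β.prod fun i n => (i : K) ^ n) = 0 → f = 0

/-- `K = K^q [s]`. -/
def PSpan (q : ℕ) (s : Set K) : Prop := Subring.closure (Set.range (fun a : K => a ^ q) ∪ s) = ⊤

/-- reduced exponents supported in `s` -/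
def pb_Red (p : ℕ) (s : Set K) : Set (K →₀ ℕ) := {β | (∀ i, β i < p) ∧ ∀ i ∈ β.support, i ∈ s}

theorem pb_iff (p : ℕ) [Fact p.Prime] [CharP K p] (s : Set K) : PInd p s ↔
    pb_TI (frobenius K p) fun β : pb_Red p s => (β : K →₀ ℕ).prod fun i n => i ^ n := by
  classical
  have h0 : PInd p s ↔ pb_TI (frobenius K p)
      fun β : {β : s →₀ ℕ | ∀ i, β i < p} => (β : s →₀ ℕ).prod fun i n => (i : K) ^ n :=
    (pb_TI_on (frobenius K p) (fun β : s →₀ ℕ => β.prod fun i n => (i : K) ^ n) _).symm
  rw [h0]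
  constructor
  · intro h
    refine h.comp (fun β => ⟨β.1.subtypeDomain (· ∈ s), fun i => β.2.1 i⟩) (fun β γ hβγ => ?_)
      fun β => (Finsupp.prod_subtypeDomain_index (h := fun i n => i ^ n) β.2.2).symm
    have h1 := congrArg Subtype.val hβγ
    ext i
    by_cases hi : i ∈ s
    · exact DFunLike.congr_fun h1 ⟨i, hi⟩
    · rw [Finsupp.notMem_support_iff.1 fun h2 => hi (β.2.2 i h2),
        Finsupp.notMem_support_iff.1 fun h2 => hi (γ.2.2 i h2)]
  · intro h
    refine h.comp (fun β => ⟨β.1.mapDomain Subtype.val, fun k => ?_, fun k hk => ?_⟩)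
      (fun β γ hβγ => Subtype.ext
        (Finsupp.mapDomain_injective Subtype.val_injective (congrArg Subtype.val hβγ)))
      fun β => (Finsupp.prod_mapDomain_index_inj (h := fun i n => i ^ n) Subtype.val_injective).symm
    · by_cases hk : k ∈ s
      · exact (Finsupp.mapDomain_apply Subtype.val_injective β.1 ⟨k, hk⟩).trans_lt (β.2 _)
      · rw [Finsupp.mapDomain_of_notMem_range _ _ (by simpa using hk)]
        exact (Fact.out : p.Prime).pos
    · obtain ⟨i, -, rfl⟩ := Finset.mem_image.1 (Finsupp.mapDomain_support hk)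
      exact i.2

theorem pb_insert (p : ℕ) [Fact p.Prime] [CharP K p] {t : Set K} (ht : PInd p t) {a : K}
    (ha : a ∉ Subring.closure (Set.range (fun a : K => a ^ p) ∪ t)) : PInd p (insert a t) := by
  classical
  have hp : p.Prime := Fact.out
  have hpow : ∀ x : K, x ^ p ∈ Subring.closure (Set.range (fun a : K => a ^ p) ∪ t) := fun x =>
    Subring.subset_closure (Or.inl ⟨x, rfl⟩)
  let L : Subfield K :=
    { Subring.closure (Set.range (fun a : K => a ^ p) ∪ t) with
      inv_mem' := fun x hx => by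
        rcases eq_or_ne x 0 with rfl | h0
        · simp
        have : x⁻¹ = x ^ (p - 1) * x⁻¹ ^ p := by
          obtain ⟨k, rfl⟩ : ∃ k, p = k + 1 := ⟨p - 1, by have := hp.pos; omega⟩
          rw [Nat.add_sub_cancel, pow_succ, ← mul_assoc, ← mul_pow, mul_inv_cancel₀ h0, one_pow,
            one_mul]
        rw [this]
        exact Subring.mul_mem _ (Subring.pow_mem _ hx _) (hpow _) }
  have hmon : ∀ β : pb_Red p t, ((β : K →₀ ℕ).prod fun i n => i ^ n) ∈ L := fun β =>
    prod_mem fun i hi => pow_mem (Subring.subset_closure (Or.inr (β.2.2 i hi)) : i ∈ L) _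
  have h1 : pb_TI ((frobenius K p).codRestrict L hpow) fun β : pb_Red p t => (⟨_, hmon β⟩ : L) :=
    pb_TI.of_comp L.subtype ((pb_iff p t).1 ht)
  have hirr : Irreducible (Polynomial.X ^ p - Polynomial.C (⟨a ^ p, hpow a⟩ : L)) :=
    X_pow_sub_C_irreducible_of_prime hp fun b hb => ha (by
      have : (b : K) = a := frobenius_inj K p (congrArg Subtype.val hb)
      rw [← this]
      exact b.2)
  have hmin := minpoly.eq_of_irreducible_of_monic (x := a) hirr (by simp [Subfield.algebraMap_ofSubfield])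
    (Polynomial.monic_X_pow_sub_C _ hp.ne_zero)
  have h2 : pb_TI L.subtype fun i : Fin p => a ^ (i : ℕ) := by
    have := linearIndependent_pow (K := L) a
    rw [← hmin, Polynomial.natDegree_X_pow_sub_C] at this
    exact (pb_TI_iff _ _).2 this
  refine (pb_iff p _).2 ((h1.mul h2).comp
    (fun β => (⟨β.1.erase a, fun i => ?_, fun i hi => ?_⟩, ⟨β.1 a, β.2.1 a⟩)) (fun β γ h => ?_)
    fun β => ?_)
  · rw [Finsupp.erase_apply]
    split_ifs
    exacts [hp.pos, β.2.1 i]
  · rw [Finsupp.support_erase, Finset.mem_erase] at hi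
    exact (β.2.2 i hi.2).resolve_left hi.1
  · have i1 : β.1.erase a = γ.1.erase a := congrArg (fun x => x.1.1) h
    have i2 : β.1 a = γ.1 a := congrArg (fun x => x.2.1) h
    ext i
    by_cases hi : i = a
    · rw [hi, i2]
    · rw [← Finsupp.erase_ne hi, i1, Finsupp.erase_ne hi]
  · rw [← Finsupp.mul_prod_erase' β.1 a _ (fun _ => pow_zero _), mul_comm]
    rfl

/-- Zorn's lemma.  For a maximal `t`, `L = K^p[t]` is a field (every nonzero `a ∈ L` has inverse
`a^(p-1) (a⁻¹)^p`); if `a ∉ L` then `X^p - a^p` is irreducible over `L` (`X_pow_sub_C_irreducible_of_prime`), so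
`1, a, …, a^(p-1)` are independent over `L` and `insert a t` is `p`-independent. -/
theorem exists_pbasis (p : ℕ) [Fact p.Prime] [CharP K p] {s : Set K} (hs : PInd p s) :
    ∃ t : Set K, s ⊆ t ∧ PInd p t ∧ PSpan p t := by
  classical
  obtain ⟨t, hst, ht⟩ := zorn_subset_nonempty {t : Set K | PInd p t} (fun c hc hch hne => by
    refine ⟨⋃₀ c, (pb_iff p _).2 ((pb_TI_on _ (fun β : K →₀ ℕ => β.prod fun i n => i ^ n) _).2
      fun f hf h => ?_), fun _ h => Set.subset_sUnion_of_mem h⟩
    obtain ⟨t, htc, ht⟩ := hch.directedOn.exists_mem_subset_of_finite_of_subset_sUnion hne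
      (f.support.biUnion fun β => β.support).finite_toSet (fun i hi => by
        obtain ⟨β, hβ, hi⟩ := Finset.mem_biUnion.1 hi
        exact (hf β hβ).2 i hi)
    exact (pb_TI_on _ (fun β : K →₀ ℕ => β.prod fun i n => i ^ n) _).1 ((pb_iff p t).1 (hc htc)) f
      (fun β hβ => ⟨(hf β hβ).1, fun i hi => ht (Finset.mem_biUnion.2 ⟨β, hβ, hi⟩)⟩) h) s hs
  refine ⟨t, hst, ht.prop, eq_top_iff.2 fun a _ => ?_⟩
  by_contra ha
  exact ha (Subring.subset_closure (Or.inr (ht.le_of_ge (pb_insert p ht.prop ha)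
    (Set.subset_insert _ _) (Set.mem_insert _ _))))

theorem PSpan.pow (p : ℕ) [Fact p.Prime] [CharP K p] {s : Set K} (hs : PSpan p s) (n : ℕ) : PSpan (p ^ n) s := by
  induction n with
  | zero => exact eq_top_iff.2 fun a _ => Subring.subset_closure (Or.inl ⟨a, by simp⟩)
  | succ n ih =>
    refine eq_top_iff.2 (hs.ge.trans (Subring.closure_le.2 ?_))
    rintro _ (⟨a, rfl⟩ | ha)
    · have h1 : Subring.closure (Set.range (fun a : K => a ^ p ^ n) ∪ s) ≤
          (Subring.closure (Set.range (fun a : K => a ^ p ^ (n + 1)) ∪ s)).comap (frobenius K p) := by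
        refine Subring.closure_le.2 ?_
        rintro _ (⟨b, rfl⟩ | hb)
        · exact Subring.subset_closure (Or.inl ⟨b, by simp [frobenius_def, pow_succ, pow_mul]⟩)
        · rename_i b
          have h2 : b ∈ Subring.closure (Set.range (fun a : K => a ^ p ^ (n + 1)) ∪ s) :=
            Subring.subset_closure (Or.inr hb)
          exact pow_mem h2 p
      exact h1 (ih.ge (Subring.mem_top a))
    · exact Subring.subset_closure (Or.inr ha)

theorem PInd.subset {p : ℕ} {s t : Set K} (ht : PInd p t) (h : s ⊆ t) : PInd p s :=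
  pb_pull (RingHom.id K) (Set.inclusion h) (Set.inclusion_injective h) (fun _ => rfl) ht

theorem PInd.preimage {p : ℕ} {L : Type} [Field L] (g : L →+* K) {s : Set K} (hs : PInd p s) :
    PInd p (g ⁻¹' s) :=
  pb_pull g (fun i : g ⁻¹' s => (⟨g i, i.2⟩ : s))
    (fun _ _ h => Subtype.ext (g.injective (congrArg Subtype.val h))) (fun _ => rfl) hs

theorem pb_pow (p : ℕ) [Fact p.Prime] [CharP K p] {s : Set K} (hs : PInd p s) (n : ℕ) :
    pb_TI (iterateFrobenius K p n)
      fun β : {β : s →₀ ℕ | ∀ i, β i < p ^ n} => (β : s →₀ ℕ).prod fun i m => (i : K) ^ m := by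
  have hp : p.Prime := Fact.out
  have h0 : pb_TI (frobenius K p)
      fun β : {β : s →₀ ℕ | ∀ i, β i < p} => (β : s →₀ ℕ).prod fun i n => (i : K) ^ n :=
    (pb_TI_on (frobenius K p) (fun β : s →₀ ℕ => β.prod fun i n => (i : K) ^ n) _).2 hs
  induction n with
  | zero =>
    refine (pb_TI_on _ (fun β : s →₀ ℕ => β.prod fun i n => (i : K) ^ n) _).2 fun f hf h => ?_
    by_contra h0
    have h1 : ∀ β ∈ f.support, β = 0 := fun β hβ =>
      Finsupp.ext fun i => by simpa using hf β hβ i
    obtain ⟨β, hβ⟩ := Finsupp.support_nonempty_iff.2 h0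
    rw [Finsupp.sum, Finset.sum_eq_single_of_mem β hβ
      (fun b hb hne => absurd ((h1 b hb).trans (h1 β hβ).symm) hne)] at h
    have h2 := Finsupp.mem_support_iff.1 hβ
    rw [h1 β hβ] at h h2
    exact h2 (by simpa using h)
  | succ n ih =>
    have h1 : iterateFrobenius K p (n + 1) = (frobenius K p).comp (iterateFrobenius K p n) := by
      ext x
      simp [iterateFrobenius_def, frobenius_def, pow_succ, pow_mul]
    rw [h1]
    refine (ih.mul h0).comp (fun β => (⟨β.1.mapRange (· / p) (Nat.zero_div p), fun i => ?_⟩,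
      ⟨β.1.mapRange (· % p) (Nat.zero_mod p), fun i => Nat.mod_lt _ hp.pos⟩)) (fun β γ h => ?_)
      fun β => ?_
    · exact Nat.div_lt_of_lt_mul (by rw [← pow_succ']; exact β.2 i)
    · ext i
      have i1 : β.1 i / p = γ.1 i / p := congrArg (fun x => x.1.1 i) h
      have i2 : β.1 i % p = γ.1 i % p := congrArg (fun x => x.2.1 i) h
      rw [← Nat.div_add_mod (β.1 i) p, i1, i2, Nat.div_add_mod]
    · simp only
      rw [Finsupp.prod_mapRange_index (fun _ => pow_zero _),
        Finsupp.prod_mapRange_index (fun _ => pow_zero _), map_finsuppProd, ← Finsupp.prod_mul]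
      refine Finsupp.prod_congr fun i _ => ?_
      rw [frobenius_def, ← pow_mul, ← pow_add, Nat.div_add_mod']

/-- The monomials with exponents `< p^n` are independent over `K^(p^n)`: induct on `n`, splitting exponents as
`β = β0 + p β1`. -/
theorem PInd.pow (p : ℕ) [Fact p.Prime] [CharP K p] {s : Set K} (hs : PInd p s) (n : ℕ)
    (f : (s →₀ ℕ) →₀ K) (hf : ∀ β ∈ f.support, ∀ i, β i < p ^ n)
    (h : (f.sum fun β c => c ^ p ^ n * β.prod fun i m => (i : K) ^ m) = 0) : f = 0 :=
  (pb_TI_on (iterateFrobenius K p n) (fun β : s →₀ ℕ => β.prod fun i n => (i : K) ^ n) _).1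
    (pb_pow p hs n) f hf h

end field

end Crest.Agent.R183
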