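import Crest.Agent.R183.Tr
import Crest.Agent.R183.PBasis
import Crest.Agent.R183.Cohen

/-!
# rid 183, file `Gonf`: a complete unramified extension with a large perfect residue field

Prefix helper lemmas with `gf_`.
-/

set_option autoImplicit false

open IsLocalRing

namespace Crest.Agent.R183

theorem gf_poly {B L K : Type} [CommRing B] [Field L] [Field K] [Algebra L K] (ρ : B →+* L)
    (hρ : Function.Surjective ρ) {c : K} (hc : IsIntegral L c) :
    ∃ F : Polynomial B, F.Monic ∧ F.eval₂ ((algebraMap L K).comp ρ) c = 0 ∧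
      ∀ G : Polynomial B, G.eval₂ ((algebraMap L K).comp ρ) c = 0 →
        ∃ H : Polynomial B, ∀ n, ρ ((G - F * H).coeff n) = 0 := by
  obtain ⟨F, hF, -, hm⟩ := Polynomial.lifts_and_natDegree_eq_and_monic
    ((Polynomial.mem_lifts _).2 (Polynomial.map_surjective ρ hρ (minpoly L c))) (minpoly.monic hc)
  refine ⟨F, hm, ?_, fun G hG => ?_⟩
  · rw [← Polynomial.eval₂_map, hF]
    exact minpoly.aeval L c
  · rw [← Polynomial.eval₂_map] at hG
    obtain ⟨H', hH'⟩ := minpoly.dvd L c hG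
    obtain ⟨H, rfl⟩ := Polynomial.map_surjective ρ hρ H'
    refine ⟨H, fun n => ?_⟩
    rw [← Polynomial.coeff_map, Polynomial.map_sub, Polynomial.map_mul, hF, hH', sub_self,
      Polynomial.coeff_zero]

section gf_zorn

open MvPolynomial Filter

variable {A K : Type} [CommRing A] [IsLocalRing A] [Field K] [Algebra A K]

omit [IsLocalRing A] [Field K] [Algebra A K] in
theorem gf_eq {C : Type} [CommRing C] [Algebra A C] (f g : MvPolynomial K A →ₐ[A] C) {T : Set K}
    (h : ∀ c ∈ T, f (X c) = g (X c)) {x : MvPolynomial K A} (hx : x ∈ supported A T) : f x = g x :=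
  Algebra.adjoin_le (S := AlgHom.equalizer f g) (by rintro _ ⟨c, hc, rfl⟩; exact h c hc) hx

omit [IsLocalRing A] [Field K] [Algebra A K] in
theorem gf_X {T : Set K} {c : K} (hc : c ∈ T) : (X c : MvPolynomial K A) ∈ supported A T :=
  Algebra.subset_adjoin ⟨c, hc, rfl⟩

/-- A flat unramified `A`-algebra `A[T] / J` with closed fibre the subfield generated by `T`. -/
def gf_Good (p : Set K × Set (MvPolynomial K A)) : Prop :=
  ∃ (B : Type) (_ : CommRing B) (_ : Algebra A B) (φ : MvPolynomial K A →ₐ[A] B) (χ : B →ₐ[A] K),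
    Module.Flat A B ∧ (∀ b, ∃ x ∈ supported A p.1, φ x = b) ∧
    (∀ x, x ∈ p.2 ↔ x ∈ supported A p.1 ∧ φ x = 0) ∧ (∀ c ∈ p.1, χ (φ (X c)) = c) ∧
    ∀ b, χ b = 0 → b ∈ (maximalIdeal A).map (algebraMap A B)

theorem gf_chain (c : Set (Set K × Set (MvPolynomial K A))) (hc : ∀ p ∈ c, gf_Good p)
    (hch : IsChain (· ≤ ·) c) (y : Set K × Set (MvPolynomial K A)) (hy : y ∈ c) :
    ∃ ub, gf_Good ub ∧ ∀ z ∈ c, z ≤ ub := by
  classical
  have : Nonempty c := ⟨⟨y, hy⟩⟩
  have : IsDirectedOrder c := hch.directedOn.isDirectedOrder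
  choose B _ _ φ χ hfl hs hJ hX hk using fun p : c => hc p p.2
  obtain ⟨T, hT⟩ : ∃ T : Set K, ∀ t, t ∈ T ↔ ∃ p : c, t ∈ p.1.1 := ⟨{t | ∃ p : c, t ∈ p.1.1}, fun _ => Iff.rfl⟩
  have hle : ∀ p : c, supported A p.1.1 ≤ supported A T := fun p =>
    supported_mono fun t ht => (hT t).2 ⟨p, ht⟩
  obtain ⟨r, hr1, hr2⟩ : ∃ r : MvPolynomial K A →ₐ[A] MvPolynomial K A,
      (∀ x, r x ∈ supported A T) ∧ ∀ x ∈ supported A T, r x = x := by
    refine ⟨aeval fun t => if t ∈ T then X t else 0, fun x => ?_, fun x hx =>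
      gf_eq _ (AlgHom.id A _) (fun t ht => by simp [ht]) hx⟩
    induction x using MvPolynomial.induction_on with
    | C a => rw [aeval_C]; exact Subalgebra.algebraMap_mem _ a
    | add p q hp hq => rw [map_add]; exact add_mem hp hq
    | mul_X p t hp =>
      rw [map_mul, aeval_X]
      refine mul_mem hp ?_
      split_ifs with ht
      · exact gf_X ht
      · exact zero_mem _
  have ev1 : ∀ x ∈ supported A T, ∀ᶠ q : c in atTop, x ∈ supported A q.1.1 := by
    intro x hx
    induction hx using Algebra.adjoin_induction with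
    | mem x hx =>
      obtain ⟨t, ht, rfl⟩ := hx
      obtain ⟨p, hp⟩ := (hT t).1 ht
      filter_upwards [eventually_ge_atTop p] with q hq using gf_X (hq.1 hp)
    | algebraMap a => exact Eventually.of_forall fun q => Subalgebra.algebraMap_mem _ a
    | add x y _ _ hx hy => filter_upwards [hx, hy] with q h1 h2 using add_mem h1 h2
    | mul x y _ _ hx hy => filter_upwards [hx, hy] with q h1 h2 using mul_mem h1 h2
  obtain ⟨I, hI⟩ : ∃ I : Ideal (MvPolynomial K A), ∀ x, x ∈ I ↔ ∀ᶠ q : c in atTop, φ q (r x) = 0 :=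
    ⟨{ carrier := {x | ∀ᶠ q : c in atTop, φ q (r x) = 0}
       add_mem' := fun hx hy => by
        filter_upwards [hx, hy] with q h1 h2
        rw [map_add, map_add, h1, h2, add_zero]
       zero_mem' := Eventually.of_forall fun q => by rw [map_zero, map_zero]
       smul_mem' := fun a x hx => by
        filter_upwards [hx] with q h1
        rw [smul_eq_mul, map_mul, map_mul, h1, mul_zero] }, fun _ => Iff.rfl⟩
  have key : ∀ p : c, ∀ x ∈ supported A p.1.1, φ p x = 0 → Ideal.Quotient.mkₐ A I x = 0 := by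
    intro p x hx h0
    refine Ideal.Quotient.eq_zero_iff_mem.2 ((hI x).2 ?_)
    filter_upwards [eventually_ge_atTop p] with q hq
    rw [hr2 x (hle p hx)]
    exact ((hJ q x).1 (hq.2 ((hJ p x).2 ⟨hx, h0⟩))).2
  have hψ : ∀ p : c, ∃ ψ : B p →ₐ[A] MvPolynomial K A ⧸ I,
      ∀ x ∈ supported A p.1.1, ψ (φ p x) = Ideal.Quotient.mkₐ A I x := fun p => by
    have h1 : Function.Surjective ((φ p).comp (supported A p.1.1).val) := fun b => by
      obtain ⟨x, hx, rfl⟩ := hs p b
      exact ⟨⟨x, hx⟩, rfl⟩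
    exact ⟨AlgHom.liftOfSurjective _ h1 ((Ideal.Quotient.mkₐ A I).comp (supported A p.1.1).val)
      fun x hx => key p x.1 x.2 hx, fun x hx => AlgHom.liftOfSurjective_apply _ h1 _ _ ⟨x, hx⟩⟩
  have hev : ∀ p : c, ∀ x ∈ supported A p.1.1, aeval id x = χ p (φ p x) := fun p x hx =>
    gf_eq _ ((χ p).comp (φ p)) (fun t ht => by rw [aeval_X]; exact (hX p t ht).symm) hx
  have hsur : ∀ b, ∃ x ∈ supported A T, Ideal.Quotient.mkₐ A I x = b := fun b => by
    obtain ⟨x, rfl⟩ := Ideal.Quotient.mkₐ_surjective A I b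
    refine ⟨r x, hr1 x, Ideal.Quotient.eq.2 ((hI _).2 (Eventually.of_forall fun q => ?_))⟩
    rw [map_sub, hr2 _ (hr1 x), sub_self, map_zero]
  refine ⟨(T, {x | x ∈ supported A T ∧ Ideal.Quotient.mkₐ A I x = 0}),
    ⟨MvPolynomial K A ⧸ I, inferInstance, inferInstance, Ideal.Quotient.mkₐ A I,
      Ideal.Quotient.liftₐ I ((aeval id).comp r) fun x hx => ?_, ?_, hsur, fun _ => Iff.rfl,
      fun t ht => ?_, fun b hb => ?_⟩, fun z hz => ⟨fun t ht => (hT t).2 ⟨⟨z, hz⟩, ht⟩, fun x hx => ?_⟩⟩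
  · obtain ⟨q, h1, h2⟩ := (((hI x).1 hx).and (ev1 _ (hr1 x))).exists
    rw [AlgHom.comp_apply, hev q _ h2, h1, map_zero]
  · refine Module.Flat.of_forall_isTrivialRelation fun {l f b} h => ?_
    choose x hx hxb using fun j => hsur (b j)
    have h1 : ∑ j, f j • x j ∈ I := by
      refine Ideal.Quotient.eq_zero_iff_mem.1 (?_ : Ideal.Quotient.mkₐ A I _ = 0)
      simpa only [map_sum, map_smul, hxb] using h
    obtain ⟨q, h2, h3⟩ := (((hI _).1 h1).and (eventually_all.2 fun j => ev1 _ (hx j))).exists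
    rw [hr2 _ (Subalgebra.sum_mem _ fun j _ => Subalgebra.smul_mem _ (hx j) _)] at h2
    simp only [map_sum, map_smul] at h2
    have := hfl q
    obtain ⟨k, a, w, h4, h5⟩ :=
      Module.Flat.isTrivialRelation_of_sum_smul_eq_zero (R := A) (M := B q) h2
    obtain ⟨ψ, hψ⟩ := hψ q
    refine ⟨k, a, fun j => ψ (w j), fun i => ?_, h5⟩
    rw [← hxb i, ← hψ _ (h3 i), show φ q (x i) = _ from h4 i]
    simp only [map_sum, map_smul]
  · change aeval id (r (X t)) = t
    rw [hr2 _ (gf_X ht), aeval_X, id]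
  · obtain ⟨x, hx, rfl⟩ := hsur b
    obtain ⟨q, hq⟩ := (ev1 x hx).exists
    obtain ⟨ψ, hψ⟩ := hψ q
    change aeval id (r x) = 0 at hb
    rw [hr2 x hx, hev q x hq] at hb
    have := Ideal.mem_map_of_mem (ψ : B q →+* MvPolynomial K A ⧸ I) (hk q _ hb)
    rwa [Ideal.map_map, AlgHom.comp_algebraMap, RingHom.coe_coe, hψ x hq] at this
  · have := (hJ ⟨z, hz⟩ x).1 hx
    exact ⟨hle ⟨z, hz⟩ this.1, key ⟨z, hz⟩ x this.1 this.2⟩

variable [Algebra (ResidueField A) K] [IsScalarTower A (ResidueField A) K]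

theorem gf_base : ∃ p : Set K × Set (MvPolynomial K A), gf_Good p := by
  refine ⟨(∅, {x | x ∈ supported A ∅ ∧ aeval (fun _ => (0 : A)) x = 0}), A, inferInstance,
    inferInstance, aeval fun _ => 0, Algebra.ofId A K, inferInstance,
    fun b => ⟨C b, Subalgebra.algebraMap_mem _ b, aeval_C _ _⟩, fun _ => Iff.rfl,
    fun c hc => hc.elim, fun b hb => Ideal.mem_map_of_mem _ ?_⟩
  rw [Algebra.ofId_apply, IsScalarTower.algebraMap_apply A (ResidueField A) K, map_eq_zero] at hb
  exact (residue_eq_zero_iff b).1 hb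

theorem gf_step [Algebra.IsAlgebraic (ResidueField A) K] {p : Set K × Set (MvPolynomial K A)}
    (hp : gf_Good p) {c : K} (hc : c ∉ p.1) : ∃ q, gf_Good q ∧ p ≤ q ∧ c ∈ q.1 := by
  classical
  obtain ⟨B, _, _, φ, χ, hfl, hs, hJ, hX, hk⟩ := hp
  let S : Subalgebra (ResidueField A) K :=
    { χ.range.toSubsemiring with
      algebraMap_mem' := fun a => by
        obtain ⟨a, rfl⟩ := residue_surjective a
        exact ⟨algebraMap A B a, (χ.commutes a).trans
          (IsScalarTower.algebraMap_apply A (ResidueField A) K a)⟩ }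
  let L : IntermediateField (ResidueField A) K := S.toIntermediateField fun x hx =>
    S.inv_mem_of_algebraic (x := ⟨x, hx⟩) (Algebra.IsAlgebraic.isAlgebraic _)
  let ρ : B →+* L := (χ : B →+* K).codRestrict L fun b => ⟨b, rfl⟩
  have hρ : Function.Surjective ρ := by
    rintro ⟨_, b, rfl⟩
    exact ⟨b, rfl⟩
  obtain ⟨F, hF, hF0, hFd⟩ := gf_poly ρ hρ (Algebra.IsIntegral.isIntegral (R := L) c)
  have e : (algebraMap L K).comp ρ = (χ : B →+* K) := rfl
  rw [e] at hF0 hFd
  let φ' : MvPolynomial K A →ₐ[A] AdjoinRoot F :=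
    aeval fun t => if t = c then AdjoinRoot.root F else AdjoinRoot.of F (φ (X t))
  have h1 : ∀ x ∈ supported A p.1, φ' x = AdjoinRoot.of F (φ x) := fun x hx =>
    gf_eq φ' ((IsScalarTower.toAlgHom A B (AdjoinRoot F)).comp φ) (fun t ht => by
      rw [aeval_X, if_neg (by rintro rfl; exact hc ht)]; rfl) hx
  have h2 : φ' (X c) = AdjoinRoot.root F := by rw [aeval_X, if_pos rfl]
  have hle : supported A p.1 ≤ supported A (insert c p.1) := supported_mono (Set.subset_insert _ _)
  refine ⟨(insert c p.1, {x | x ∈ supported A (insert c p.1) ∧ φ' x = 0}),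
    ⟨AdjoinRoot F, inferInstance, inferInstance, φ', AdjoinRoot.liftAlgHom F χ c hF0, ?_,
      fun b => ?_, fun _ => Iff.rfl, fun t ht => ?_, fun b hb => ?_⟩,
    ⟨Set.subset_insert _ _, fun x hx => ?_⟩, Set.mem_insert _ _⟩
  · have := hF.free_adjoinRoot
    exact Module.Flat.trans A B _
  · obtain ⟨G, rfl⟩ := AdjoinRoot.mk_surjective b
    induction G using Polynomial.induction_on' with
    | add G H hG hH =>
      obtain ⟨x, hx, hx'⟩ := hG
      obtain ⟨y, hy, hy'⟩ := hH
      exact ⟨x + y, add_mem hx hy, by rw [map_add, map_add, hx', hy']⟩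
    | monomial n b =>
      obtain ⟨x, hx, rfl⟩ := hs b
      refine ⟨x * X c ^ n, mul_mem (hle hx) (pow_mem (gf_X (Set.mem_insert _ _)) n), ?_⟩
      rw [map_mul, map_pow, h1 x hx, h2, ← Polynomial.C_mul_X_pow_eq_monomial, map_mul, map_pow,
        AdjoinRoot.mk_C, AdjoinRoot.mk_X]
  · rcases ht with rfl | ht
    · rw [h2, AdjoinRoot.liftAlgHom_root]
    · rw [h1 _ (gf_X ht), AdjoinRoot.liftAlgHom_of, hX t ht]
  · obtain ⟨G, rfl⟩ := AdjoinRoot.mk_surjective b
    obtain ⟨H, hH⟩ := hFd G hb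
    have h3 : G - F * H ∈ ((maximalIdeal A).map (algebraMap A B)).map Polynomial.C :=
      Ideal.mem_map_C_iff.2 fun n => hk _ (congrArg Subtype.val (hH n))
    have h4 := Ideal.mem_map_of_mem (AdjoinRoot.mk F) h3
    rw [Ideal.map_map, Ideal.map_map, map_sub, map_mul, AdjoinRoot.mk_self, zero_mul, sub_zero] at h4
    exact h4
  · have := (hJ x).1 hx
    exact ⟨hle this.1, by rw [h1 x this.1, this.2, map_zero]⟩

end gf_zorn

/-- A flat unramified extension with algebraically closed residue field. -/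
theorem gf_exists (A : Type) [CommRing A] [IsLocalRing A] :
    ∃ (B : Type) (_ : CommRing B) (_ : IsLocalRing B) (ψ : A →+* B),
      ψ.Flat ∧ Unram ψ ∧ IsAlgClosed (ResidueField B) := by
  let K := AlgebraicClosure (ResidueField A)
  obtain ⟨p0, hp0⟩ := gf_base (A := A) (K := K)
  obtain ⟨p, -, hp⟩ := zorn_le_nonempty₀ {p : Set K × Set (MvPolynomial K A) | gf_Good p}
    (fun c hc hch y hy => gf_chain c hc hch y hy) p0 hp0
  have hT : ∀ c, c ∈ p.1 := fun c => by
    by_contra hc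
    obtain ⟨q, hq, hpq, hcq⟩ := gf_step hp.prop hc
    exact hc ((hp.le_of_ge hq hpq).1 hcq)
  obtain ⟨B, _, _, φ, χ, hfl, -, -, hX, hk⟩ := hp.prop
  have hχ : Function.Surjective χ := fun c => ⟨_, hX c (hT c)⟩
  have hm : (RingHom.ker χ).IsMaximal := RingHom.ker_isMaximal_of_surjective χ hχ
  have he : RingHom.ker χ = (maximalIdeal A).map (algebraMap A B) := by
    refine le_antisymm hk (Ideal.map_le_iff_le_comap.2 fun a ha => ?_)
    rw [Ideal.mem_comap, RingHom.mem_ker, χ.commutes,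
      IsScalarTower.algebraMap_apply A (ResidueField A) K, map_eq_zero]
    exact (residue_eq_zero_iff a).2 ha
  refine ⟨Localization.AtPrime (RingHom.ker χ), inferInstance, inferInstance, algebraMap A _,
    RingHom.flat_algebraMap_iff.2 (Module.Flat.trans A B _), ?_, ?_⟩
  · rw [Unram, ← Localization.AtPrime.map_eq_maximalIdeal, IsScalarTower.algebraMap_eq A B,
      ← Ideal.map_map, ← he]
  · exact IsAlgClosed.of_ringEquiv (k := K) _ ((RingHom.quotientKerEquivOfSurjective hχ).symm.trans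
      (RingEquiv.ofBijective _ (RingHom.ker χ).bijective_algebraMap_quotient_residueField))

theorem gf_local {A B : Type} [CommRing A] [IsLocalRing A] [CommRing B] [IsLocalRing B] {ψ : A →+* B}
    (h : Unram ψ) : IsLocalHom ψ :=
  ((local_hom_TFAE ψ).out 0 2).2 (le_of_eq h)

theorem gf_comp {A B C : Type} [CommRing A] [IsLocalRing A] [CommRing B] [IsLocalRing B] [CommRing C]
    [IsLocalRing C] {f : A →+* B} {g : B →+* C} (hf : Unram f) (hg : Unram g) : Unram (g.comp f) := by
  rw [Unram, ← Ideal.map_map, hf, hg]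

/-- Residue characteristic `p`.  Let `s` be a `p`-basis of `k` (`exists_pbasis` from `∅`), `b̃ i` lifts.  Let
`G = s →₀ ℤ[1/p]_{≥0}`, realised as the additive submonoid of `s →₀ ℚ≥0` (or `s →₀ ℚ`) of elements with
`p^n • g ∈ s →₀ ℕ` for some `n`.  `ℤ[G] = AddMonoidAlgebra ℤ G` is free over `MvPolynomial s ℤ` on the `g` with
all entries `< 1`.  Put `B = A ⊗_{ℤ[s]} ℤ[G]`; concretely one may define `B` as the direct limit of
`B n = A[Y_i : i ∈ s] / (Y_i^(p^n) - b̃ i)` along `Y_i ↦ Y_i^p`.  `B` is free over `A`, and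
`B / 𝔪 B = k ⊗ ℤ[G]` is a field, the perfect closure of `k`: the map `k[Y] / (Y_i^(p^n) - b i) → k`, `c ↦ c^(p^n)`,
`Y_i ↦ b i`, is injective (`PInd.pow`) and surjective (`PSpan.pow`).  `B` is integral over `A`, so it is local
with maximal ideal `𝔪 B`.  Any other proof is welcome, e.g. Zorn/transfinite adjunction of roots. -/
theorem exists_perf (A : Type) [CommRing A] [IsLocalRing A] (p : ℕ) [Fact p.Prime]
    [CharP (ResidueField A) p] :
    ∃ (B : Type) (_ : CommRing B) (_ : IsLocalRing B) (ψ : A →+* B),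
      ψ.Flat ∧ Unram ψ ∧ PerfectField (ResidueField B) := by
  obtain ⟨B, _, _, ψ, h1, h2, h3⟩ := gf_exists A
  exact ⟨B, _, _, ψ, h1, h2, inferInstance⟩

/-- `A1 = Tr R ℕ`, `A2` from `exists_perf` (or `A2 = A1` in residue characteristic `0`), `R'` the completion of
`A2` at its finitely generated maximal ideal (`AdicCompletion.isLocalRing_of_fg`, `maximalIdeal_eq_map_of_fg`,
`isAdicComplete_of_fg`, `residueField_map_bijective_of_fg`, `noeth_of_perfect`).  `hs A2 = hs R` by
`hs_eq_of_flat`, and `R' / 𝔪'^k = A2 / 𝔪2^k`. -/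
theorem exists_gonf (R : Type) [CommRing R] [IsNoetherianRing R] [IsLocalRing R] :
    ∃ (R' : Type) (_ : CommRing R') (_ : IsLocalRing R') (_ : IsNoetherianRing R')
      (_ : IsAdicComplete (maximalIdeal R') R') (ψ : R →+* R') (τ : ℕ → R'),
      PerfectField (ResidueField R') ∧ IsLocalHom ψ ∧ Unram ψ ∧ AlgInd ψ τ ∧ ∀ k, hs R' k = hs R k := by
  obtain ⟨B, _, _, ψ, h1, h2, h3⟩ := gf_exists (Tr R ℕ)
  have h4 := gf_comp (trC_unram R ℕ) h2
  have fg : (maximalIdeal B).FG := h4 ▸ (maximalIdeal R).fg_of_isNoetherianRing.map _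
  have i1 := AdicCompletion.isLocalRing_of_fg fg
  have i2 := AdicCompletion.algebraMap_isLocalHom_of_fg fg
  have i3 := AdicCompletion.isAdicComplete_of_fg fg
  have h5 : Unram (algebraMap B (AdicCompletion (maximalIdeal B) B)) :=
    (AdicCompletion.maximalIdeal_eq_map_of_fg fg).symm
  have h6 := AdicCompletion.residueField_map_bijective_of_fg fg
  have i4 : IsAlgClosed (ResidueField (AdicCompletion (maximalIdeal B) B)) :=
    IsAlgClosed.of_ringEquiv (k := ResidueField B) _ (RingEquiv.ofBijective _ h6)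
  have i5 := gf_local h2
  have h7 := gf_comp h4 h5
  refine ⟨AdicCompletion (maximalIdeal B) B, inferInstance, i1,
    noeth_of_perfect _ (h5 ▸ fg.map _), i3, _, _, inferInstance, gf_local h7, h7,
    ((tr_algInd R ℕ).comp_right ψ).comp_right _, fun k => ?_⟩
  rw [← hs_eq_of_flat _ ((trC_flat R ℕ).comp h1) h4 k]
  have h8 := colen_eq_restrict_of_local (Λ := B) (fun b => by
    obtain ⟨a, ha⟩ := h6.2 (residue _ b)
    obtain ⟨a, rfl⟩ := residue_surjective a
    exact ⟨a, Ideal.Quotient.eq.1 ha.symm⟩) (maximalIdeal (AdicCompletion (maximalIdeal B) B) ^ k)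
  have h9 : Submodule.restrictScalars B (maximalIdeal (AdicCompletion (maximalIdeal B) B) ^ k) =
      LinearMap.ker (AdicCompletion.eval (maximalIdeal B) B k) := by
    rw [← h5, ← Ideal.map_pow, ← Ideal.smul_top_eq_map, AdicCompletion.pow_smul_top_eq_ker_eval fg]
  rw [h9, colen, colen, (LinearMap.quotKerEquivOfSurjective _
    (AdicCompletion.eval_surjective (maximalIdeal B) B k)).length_eq, smul_eq_mul, Ideal.mul_top] at h8
  rw [hs, hs, len, len, h8]

end Crest.Agent.R183
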