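import Crest.Agent.R183.PS

/-!
# rid 183, file `KA`: a one-dimensional complete local domain has a finite birational valuation overring

Prefix helper lemmas with `ka_`.
-/

set_option autoImplicit false

open IsLocalRing

namespace Crest.Agent.R183

theorem ka_length_le {D M : Type} [CommRing D] [AddCommGroup M] [Module D M] {n : ℕ∞}
    (h : ∀ N : Submodule D M, N.FG → Module.length D N ≤ n) : Module.length D M ≤ n := by
  rcases eq_or_ne n ⊤ with rfl | hn
  · exact le_top
  have key : ∀ k : ℕ, (∃ N : Submodule D M, N.FG ∧ N = ⊤) ∨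
      ∃ N : Submodule D M, N.FG ∧ (k : ℕ∞) ≤ Module.length D N := by
    intro k
    induction k with
    | zero => exact Or.inr ⟨⊥, Submodule.fg_bot, by simp⟩
    | succ k ih =>
      rcases ih with ih | ⟨N, hN, hk⟩
      · exact Or.inl ih
      by_cases ht : N = ⊤
      · exact Or.inl ⟨N, hN, ht⟩
      obtain ⟨m, -, hm⟩ := SetLike.exists_of_lt (lt_top_iff_ne_top.2 ht)
      refine Or.inr ⟨N ⊔ Submodule.span D {m}, hN.sup (Submodule.fg_span_singleton m), ?_⟩
      have h1 : N < N ⊔ Submodule.span D {m} := left_lt_sup.2 fun hle =>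
        hm (hle (Submodule.mem_span_singleton_self m))
      have h2 := Order.height_strictMono h1 (by
        rw [← Module.length_submodule]
        exact (h N hN).trans_lt hn.lt_top)
      rw [← Module.length_submodule, ← Module.length_submodule] at h2
      rw [Nat.cast_succ]
      exact Order.add_one_le_of_lt (hk.trans_lt h2)
  obtain ⟨k, rfl⟩ := ENat.ne_top_iff_exists.1 hn
  rcases key (k + 1) with ⟨N, hN, rfl⟩ | ⟨N, hN, hk⟩
  · simpa using h ⊤ hN
  · have := hk.trans (h N hN)
    exact absurd (Nat.cast_le.1 this) (by omega)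

theorem ka_ideal {D W : Type} [CommRing D] [IsDomain D] [IsNoetherianRing D]
    (h : ringKrullDim D ≤ (1 : ℕ)) [AddCommGroup W] [Module D W] (g : W →ₗ[D] D)
    (hg : Function.Injective g) {x : D} (hx : x ≠ 0) :
    colen D (ism (Ideal.span {x}) W) ≤ colen D (Ideal.span {x}) := by
  have : Ring.KrullDimLE 1 D := Ring.krullDimLE_iff.2 h
  rcases subsingleton_or_nontrivial W with hW | hW
  · rw [colen, Module.length_eq_zero]
    exact zero_le
  obtain ⟨w, hw⟩ := exists_ne (0 : W)
  have ha : g w ≠ 0 := fun h0 => hw (hg (by rw [h0, map_zero]))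
  have hJ : colen D (LinearMap.range g) ≠ ⊤ := by
    refine ne_top_of_le_ne_top (Module.length_ne_top_iff.2
      (isFiniteLength_quotient_span_singleton D (mem_nonZeroDivisors_of_ne_zero ha)))
      (colen_anti ?_)
    rw [Ideal.span_singleton_le_iff_mem]
    exact ⟨w, rfl⟩
  have h1 := ln_len_add g ((ism (Ideal.span {x}) W).map g)
  rw [Submodule.comap_map_eq_of_injective hg, sup_eq_right.2 LinearMap.map_le_range] at h1
  have h2 := ln_len_add (LinearMap.toSpanSingleton D D x) ((ism (Ideal.span {x}) W).map g)
  have h3 : ((ism (Ideal.span {x}) W).map g).comap (LinearMap.toSpanSingleton D D x) =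
      LinearMap.range g := by
    ext y
    simp only [Submodule.mem_comap, Submodule.mem_map, ln_mem_ism_span,
      LinearMap.toSpanSingleton_apply, LinearMap.mem_range, smul_eq_mul]
    constructor
    · rintro ⟨_, ⟨v, rfl⟩, hv⟩
      rw [map_smul, smul_eq_mul, mul_comm y] at hv
      exact ⟨v, mul_left_cancel₀ hx hv⟩
    · rintro ⟨v, rfl⟩
      exact ⟨_, ⟨v, rfl⟩, by rw [map_smul, smul_eq_mul, mul_comm]⟩
  have h4 : (ism (Ideal.span {x}) W).map g ⊔ LinearMap.range (LinearMap.toSpanSingleton D D x) =
      Ideal.span {x} := by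
    rw [LinearMap.range_toSpanSingleton]
    refine sup_eq_right.2 ((ln_map_ism g _).trans ?_)
    rw [ism, smul_eq_mul, Ideal.mul_top]
  rw [h3, h4, h1, add_comm] at h2
  exact (ENat.add_le_add_iff_left hJ).1 h2.le

theorem ka_general {D W : Type} [CommRing D] [IsDomain D] [IsNoetherianRing D]
    (h : ringKrullDim D ≤ (1 : ℕ)) [AddCommGroup W] [Module D W] (f : W →ₗ[D] FractionRing D)
    (hf : Function.Injective f) {x : D} (hx : x ≠ 0) :
    colen D (ism (Ideal.span {x}) W) ≤ colen D (Ideal.span {x}) := by
  refine ka_length_le fun N hN => ?_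
  obtain ⟨U, hU, hUN⟩ : ∃ U : Submodule D W, U.FG ∧ U.map (ism (Ideal.span {x}) W).mkQ = N := by
    obtain ⟨s, rfl⟩ := hN
    choose l hl using (ism (Ideal.span {x}) W).mkQ_surjective
    refine ⟨Submodule.span D (l '' s), Submodule.fg_span (s.finite_toSet.image l), ?_⟩
    rw [Submodule.map_span, Set.image_image]
    simp [hl]
  obtain ⟨a, ha, hint⟩ := FractionalIdeal.isFractional_of_fg (S := nonZeroDivisors D) (hU.map f)
  have hinj : Function.Injective (Algebra.linearMap D (FractionRing D)) :=
    IsFractionRing.injective D _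
  let g₀ : U →ₗ[D] LinearMap.range (Algebra.linearMap D (FractionRing D)) :=
    LinearMap.codRestrict _ (a • (f ∘ₗ U.subtype)) fun u => hint _ ⟨u, u.2, rfl⟩
  let g : U →ₗ[D] D := (LinearEquiv.ofInjective _ hinj).symm.toLinearMap ∘ₗ g₀
  have hg : Function.Injective g := by
    refine (LinearEquiv.ofInjective _ hinj).symm.injective.comp fun u v huv => ?_
    have h1 : a • f u = a • f v := congrArg Subtype.val huv
    rw [Algebra.smul_def, Algebra.smul_def] at h1
    exact Subtype.ext (hf (mul_left_cancel₀
      (IsFractionRing.to_map_ne_zero_of_mem_nonZeroDivisors ha) h1))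
  refine le_trans ?_ (ka_ideal h g hg hx)
  let p : U →ₗ[D] N := LinearMap.codRestrict N ((ism (Ideal.span {x}) W).mkQ ∘ₗ U.subtype)
    fun u => hUN ▸ ⟨u, u.2, rfl⟩
  have hp : Function.Surjective p := by
    rintro ⟨y, hy⟩
    rw [← hUN] at hy
    obtain ⟨u, hu, rfl⟩ := hy
    exact ⟨⟨u, hu⟩, rfl⟩
  rw [← ln_colen_bot]
  refine colen_le_of_surj p hp ?_
  rintro _ ⟨u, hu, rfl⟩
  exact Subtype.ext ((Submodule.Quotient.mk_eq_zero _).2 (ln_mem_ism U.subtype hu))

/-- Krull–Akizuki lemma.  For a finitely generated `W ≠ 0` (a fractional ideal, isomorphic to an ideal `J ≠ 0`, with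
`D / J` of finite length): `len (J / x J) = len (D / x D)` (compare `D ⊇ J ⊇ x J`, `D ⊇ x D ⊇ x J`, `x D / x J ≅ D / J`).
In general, a strictly increasing chain in `V / x V` is witnessed inside a finitely generated `W ≤ V`, and
`(W + x V) / x V` is a quotient of `W / x W`. -/
theorem krull_akizuki {D : Type} [CommRing D] [IsDomain D] [IsNoetherianRing D] [IsLocalRing D]
    (h : ringKrullDim D ≤ (1 : ℕ)) (V : Submodule D (FractionRing D)) {x : D} (hx : x ≠ 0) :
    colen D (ism (Ideal.span {x}) V) ≤ colen D (Ideal.span {x}) :=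
  ka_general h V.subtype V.injective_subtype hx

/-- Let `V` be a valuation subring of the fraction field dominating `D` (`LocalSubring.exists_le_valuationSubring`
or `exists_valuationRing_of_isMax`).  By `krull_akizuki`, `V / x V` has finite length over `D` for `0 ≠ x ∈ D`; every
nonzero ideal of `V` contains such an `x`, so `V` is Noetherian, a DVR (it is not a field: `𝔪_D ≠ 0` lies in its
maximal ideal).  `V` is `x`-adically separated, `D` is `𝔪`-adically complete and `𝔪^c ≤ (x)`, `V / 𝔪 V` is finite, so
`V` is finite over `D` (`span_eq_top_of_complete`). -/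
theorem exists_dvr {D : Type} [CommRing D] [IsDomain D] [IsNoetherianRing D] [IsLocalRing D]
    [IsAdicComplete (maximalIdeal D) D] (h : ringKrullDim D = (1 : ℕ)) :
    ∃ V : Subalgebra D (FractionRing D), Module.Finite D V ∧ ∃ (_ : IsDiscreteValuationRing V),
      IsLocalHom (algebraMap D V) := by
  have : Ring.KrullDimLE 1 D := Ring.krullDimLE_iff.2 h.le
  obtain ⟨A, hA, hloc⟩ := IsLocalRing.exists_factor_valuationRing (algebraMap D (FractionRing D))
  let V : Subalgebra D (FractionRing D) := { A.toSubring with algebraMap_mem' := hA }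
  have hval : ValuationRing V := inferInstanceAs (ValuationRing A)
  have hl : IsLocalHom (algebraMap D V) := hloc
  have hinj : Function.Injective (algebraMap D V) := fun a b hab =>
    IsFractionRing.injective D (FractionRing D) (congrArg Subtype.val hab)
  have hfin : ∀ a : D, a ≠ 0 → IsNoetherian D (V ⧸ ism (Ideal.span {a}) V) := by
    intro a ha
    refine (isFiniteLength_iff_isNoetherian_isArtinian.1 (Module.length_ne_top_iff.1 ?_)).1
    exact ne_top_of_le_ne_top (Module.length_ne_top_iff.2
      (isFiniteLength_quotient_span_singleton D (mem_nonZeroDivisors_of_ne_zero ha)))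
      (ka_general h.le V.val.toLinearMap Subtype.val_injective ha)
  have hnoeth : IsNoetherianRing V := by
    refine (isNoetherianRing_iff_ideal_fg V).2 fun I => ?_
    rcases eq_or_ne I ⊥ with rfl | hI
    · exact Submodule.fg_bot
    obtain ⟨y, hy, hy0⟩ := Submodule.exists_mem_ne_zero_of_ne_bot hI
    obtain ⟨a, b, hb, hab⟩ := IsFractionRing.div_surjective (A := D) (y : FractionRing D)
    have hb0 := IsFractionRing.to_map_ne_zero_of_mem_nonZeroDivisors (K := FractionRing D) hb
    have h1 : algebraMap D V a = algebraMap D V b * y := Subtype.ext (by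
      change algebraMap D (FractionRing D) a = algebraMap D (FractionRing D) b * y
      rw [← hab]
      field_simp)
    have ha : a ≠ 0 := by
      rintro rfl
      exact hy0 (Subtype.ext (by rw [← hab]; simp))
    have h2 : (Ideal.span {algebraMap D V a}).restrictScalars D = ism (Ideal.span {a}) V := by
      ext v
      rw [ln_mem_ism_span, Submodule.restrictScalars_mem, Ideal.mem_span_singleton']
      simp only [Algebra.smul_def, mul_comm]
    have h3 : IsNoetherian V (V ⧸ Ideal.span {algebraMap D V a}) := by
      have := hfin a ha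
      rw [← h2] at this
      exact isNoetherian_of_tower D (isNoetherian_of_linearEquiv
        (Submodule.Quotient.restrictScalarsEquiv D (Ideal.span {algebraMap D V a})))
    refine Submodule.fg_of_fg_map_of_fg_inf_ker (Ideal.span {algebraMap D V a}).mkQ
      (IsNoetherian.noetherian _) ?_
    rw [Submodule.ker_mkQ, inf_eq_right.2]
    · exact Submodule.fg_span_singleton _
    · rw [Ideal.span_singleton_le_iff_mem, h1]
      exact I.mul_mem_left _ hy
  have hD : ¬ IsField D := fun hF => by
    rw [ringKrullDim_eq_zero_of_isField hF] at h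
    exact zero_ne_one h
  obtain ⟨m, hm, hm0⟩ := Submodule.exists_mem_ne_zero_of_ne_bot
    (mt isField_iff_maximalIdeal_eq.2 hD)
  have hV : ¬ IsField V := fun hF => by
    have h1 := map_nonunit (algebraMap D V) m hm
    rw [isField_iff_maximalIdeal_eq.1 hF] at h1
    exact hm0 (hinj (by rw [map_zero]; exact h1))
  have hdvr : IsDiscreteValuationRing V := ((IsDiscreteValuationRing.TFAE V hV).out 1 0).1 hval
  refine ⟨V, ?_, hdvr, hl⟩
  have : IsHausdorff (maximalIdeal D) V :=
    IsHausdorff.of_map (J := maximalIdeal V) (map_maximalIdeal_le _)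
  have := hfin m hm0
  obtain ⟨n, s, hs⟩ := Module.Finite.exists_fin (R := D) (M := V ⧸ ism (Ideal.span {m}) V)
  choose l hl using (ism (Ideal.span {m}) V).mkQ_surjective
  have h1 : Submodule.span D (Set.range fun i => l (s i)) ⊔ ism (Ideal.span {m}) V = ⊤ := by
    rw [sup_comm, ← Submodule.map_mkQ_eq_top, Submodule.map_span, ← Set.range_comp]
    simpa [Function.comp_def, hl] using hs
  have h2 := span_eq_top_of_complete (maximalIdeal D) (fun i => l (s i)) (top_le_iff.1 (h1.ge.trans
    (sup_le_sup_left (ln_ism_mono ((Ideal.span_singleton_le_iff_mem _).2 hm)) _)))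
  exact ⟨h2 ▸ Submodule.fg_span (Set.finite_range _)⟩

end Crest.Agent.R183
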