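import Crest.Agent.R183.Reg2

/-!
# rid 183, file `Kos`: the Koszul complex and the truncated acyclicity lemma

Prefix helper lemmas with `ks_`.
-/

set_option autoImplicit false

namespace Crest.Agent.R183

variable {Λ : Type} [CommRing Λ] {d : ℕ} {W : Type} [AddCommGroup W] [Module Λ W]

/-- The sign of inserting `j` into `I`. -/
def ksgn (Λ : Type) [CommRing Λ] (j : Fin d) (I : Finset (Fin d)) : Λ := (-1) ^ (I.filter (· < j)).card

/-- The Koszul differential. -/
noncomputable def kosD (z : Fin d → Module.End Λ W) : Module.End Λ (Finset (Fin d) → W) :=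
  LinearMap.pi fun I => ∑ j ∈ Iᶜ, ksgn Λ j I • (z j).comp (LinearMap.proj (insert j I))

/-- The projection to degree `i`. -/
noncomputable def kosP (Λ : Type) [CommRing Λ] (d : ℕ) (W : Type) [AddCommGroup W] [Module Λ W] (i : ℕ) :
    Module.End Λ (Finset (Fin d) → W) :=
  LinearMap.pi fun I => if I.card = i then LinearMap.proj I else 0

/-- The Koszul homotopy. -/
noncomputable def kosH (h : Fin d → Module.End Λ W) : Module.End Λ (Finset (Fin d) → W) :=
  LinearMap.pi fun I => ∑ j ∈ I, ksgn Λ j I • (h j).comp (LinearMap.proj (I.erase j))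

theorem ks_D_apply (z : Fin d → Module.End Λ W) (w : Finset (Fin d) → W) (I : Finset (Fin d)) :
    kosD z w I = ∑ j ∈ Iᶜ, ksgn Λ j I • z j (w (insert j I)) := by
  simp [kosD, LinearMap.sum_apply]

theorem ks_H_apply (h : Fin d → Module.End Λ W) (w : Finset (Fin d) → W) (I : Finset (Fin d)) :
    kosH h w I = ∑ j ∈ I, ksgn Λ j I • h j (w (I.erase j)) := by
  simp [kosH, LinearMap.sum_apply]

theorem ks_P_apply (i : ℕ) (w : Finset (Fin d) → W) (I : Finset (Fin d)) :
    kosP Λ d W i w I = if I.card = i then w I else 0 := by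
  simp only [kosP, LinearMap.pi_apply]
  split_ifs <;> rfl

theorem ks_sgn_insert (j : Fin d) {k : Fin d} {I : Finset (Fin d)} (hk : k ∉ I) :
    ksgn Λ j (insert k I) = (if k < j then -1 else 1) * ksgn Λ j I := by
  unfold ksgn
  rw [Finset.filter_insert]
  split_ifs with h
  · rw [Finset.card_insert_of_notMem (fun h' => hk (Finset.mem_filter.1 h').1), pow_succ]
    ring
  · rw [one_mul]

theorem ks_sgn_sq (j : Fin d) (I : Finset (Fin d)) : ksgn Λ j I * ksgn Λ j I = 1 := by
  unfold ksgn
  rw [← mul_pow]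
  simp

theorem ks_sgn_empty (j : Fin d) : ksgn Λ j ∅ = 1 := by simp [ksgn]

theorem ks_eps {j k : Fin d} (h : j ≠ k) :
    (if k < j then -1 else 1 : Λ) = -(if j < k then -1 else 1) := by
  rcases lt_or_gt_of_ne h with h1 | h1
  · rw [if_neg (not_lt.2 h1.le), if_pos h1, neg_neg]
  · rw [if_pos h1, if_neg (not_lt.2 h1.le)]

theorem ks_antisym {ι M : Type} [DecidableEq ι] [AddCommGroup M] (s : Finset ι) (f : ι → ι → M)
    (h : ∀ j ∈ s, ∀ k ∈ s, j ≠ k → f j k + f k j = 0) :
    ∑ j ∈ s, ∑ k ∈ s.erase j, f j k = 0 := by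
  induction s using Finset.induction_on with
  | empty => simp
  | insert a s ha ih =>
    rw [Finset.sum_insert ha, Finset.erase_insert ha]
    have h1 : ∀ j ∈ s, ∑ k ∈ (insert a s).erase j, f j k = f j a + ∑ k ∈ s.erase j, f j k := by
      intro j hj
      have hne : a ≠ j := fun h => ha (h ▸ hj)
      rw [Finset.erase_insert_of_ne hne, Finset.sum_insert (fun h => ha (Finset.mem_of_mem_erase h))]
    rw [Finset.sum_congr rfl h1, Finset.sum_add_distrib, ih (fun j hj k hk =>
      h j (Finset.mem_insert_of_mem hj) k (Finset.mem_insert_of_mem hk)), add_zero,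
      ← Finset.sum_add_distrib]
    exact Finset.sum_eq_zero (fun k hk => h a (Finset.mem_insert_self a s) k
      (Finset.mem_insert_of_mem hk) (fun h => ha (h ▸ hk)))

theorem ks_map_mem {P P' : Type} [AddCommGroup P] [Module Λ P] [AddCommGroup P'] [Module Λ P']
    (f : P →ₗ[Λ] P') {J : Ideal Λ} {w : P} (h : w ∈ ism J P) : f w ∈ ism J P' := by
  refine Submodule.smul_induction_on h (fun r hr m _ => ?_) (fun a b ha hb => ?_)
  · rw [map_smul]
    exact Submodule.smul_mem_smul hr trivial
  · rw [map_add]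
    exact add_mem ha hb

theorem ks_ism_mono {J J' : Ideal Λ} (h : J ≤ J') : ism J W ≤ ism J' W :=
  Submodule.smul_mono_left h

theorem ks_mem_ism_idl {y : Fin d → Λ} {v : W} (h : v ∈ ism (idl y) W) :
    ∃ b : Fin d → W, v = ∑ i, y i • b i := by
  refine Submodule.smul_induction_on h (fun r hr m _ => ?_) ?_
  · obtain ⟨c, rfl⟩ := Ideal.mem_span_range_iff_exists_fun.1 hr
    refine ⟨fun i => c i • m, ?_⟩
    rw [Finset.sum_smul]
    exact Finset.sum_congr rfl (fun i _ => by rw [smul_smul, mul_comm])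
  · rintro _ _ ⟨a, rfl⟩ ⟨b, rfl⟩
    exact ⟨a + b, by simp [Finset.sum_add_distrib]⟩

theorem exists_kos (z : Fin d → Module.End Λ W) (hz : ∀ i j, Commute (z i) (z j)) :
    ∃ C : Cx Λ d (Finset (Fin d) → W), C.p = kosP Λ d W ∧ C.D = kosD z := by
  refine ⟨⟨kosP Λ d W, kosD z, fun i j => ?_, ?_, ?_, fun i => ?_, ?_⟩, rfl, rfl⟩
  · refine LinearMap.ext (fun w => funext (fun I => ?_))
    rw [Module.End.mul_apply, ks_P_apply, ks_P_apply]
    by_cases h : i = j
    · subst h
      rw [if_pos rfl, ks_P_apply]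
      split_ifs <;> rfl
    · rw [if_neg h]
      split_ifs with h1 h2
      · exact absurd (h1.symm.trans h2) h
      · rfl
      · rfl
  · refine LinearMap.ext (fun w => funext (fun I => ?_))
    rw [LinearMap.sum_apply, Finset.sum_apply]
    simp only [ks_P_apply]
    rw [Finset.sum_ite_eq, if_pos, Module.End.one_apply]
    have := Finset.card_le_univ I
    rw [Fintype.card_fin] at this
    exact Finset.mem_range.2 (by omega)
  · refine LinearMap.ext (fun w => funext (fun I => ?_))
    rw [Module.End.mul_apply, ks_D_apply]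
    simp only [ks_D_apply, map_sum, Finset.smul_sum, map_smul, smul_smul, Finset.compl_insert]
    refine ks_antisym _ _ (fun j hj k hk hne => ?_)
    rw [Finset.mem_compl] at hj hk
    have h1 : z k (z j (w (insert j (insert k I)))) = z j (z k (w (insert k (insert j I)))) := by
      rw [Finset.insert_comm, ← Module.End.mul_apply, (hz k j).eq, Module.End.mul_apply]
    rw [h1, ← add_smul, ks_sgn_insert k hj, ks_sgn_insert j hk, ks_eps hne]
    convert zero_smul Λ _ using 2
    ring
  · refine LinearMap.ext (fun w => funext (fun I => ?_))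
    rw [Module.End.mul_apply, Module.End.mul_apply, ks_P_apply, ks_D_apply, ks_D_apply]
    split_ifs with h
    · refine Finset.sum_congr rfl (fun j hj => ?_)
      rw [ks_P_apply, if_pos (by rw [Finset.card_insert_of_notMem (Finset.mem_compl.1 hj), h])]
    · refine Finset.sum_eq_zero (fun j hj => ?_)
      rw [ks_P_apply, if_neg (by
        rw [Finset.card_insert_of_notMem (Finset.mem_compl.1 hj)]; omega), map_zero, smul_zero]
  · refine LinearMap.ext (fun w => funext (fun I => ?_))
    rw [Module.End.mul_apply, ks_D_apply]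
    refine Finset.sum_eq_zero (fun j hj => ?_)
    rw [ks_P_apply, if_neg (by
      rw [Finset.card_insert_of_notMem (Finset.mem_compl.1 hj)]; omega), map_zero, smul_zero]

/-- The terms `(j, j')` with `j ≠ j'` cancel; the diagonal terms give `∑ z j * h j`. -/
theorem kosD_kosH (z h : Fin d → Module.End Λ W) (hc : ∀ i j, Commute (z i) (h j)) (c : Λ)
    (hs : c • (1 : Module.End Λ W) = ∑ j, z j * h j) :
    kosD z * kosH h + kosH h * kosD z = c • (1 : Module.End Λ (Finset (Fin d) → W)) := by
  refine LinearMap.ext (fun w => funext (fun I => ?_))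
  have h1 : kosD z (kosH h w) I = ∑ j ∈ Iᶜ, z j (h j (w I)) + ∑ j ∈ Iᶜ, ∑ k ∈ I,
      (ksgn Λ j I * ksgn Λ k (insert j I)) • z j (h k (w (insert j (I.erase k)))) := by
    rw [ks_D_apply, ← Finset.sum_add_distrib]
    refine Finset.sum_congr rfl (fun j hj => ?_)
    rw [Finset.mem_compl] at hj
    rw [ks_H_apply, Finset.sum_insert hj, Finset.erase_insert hj, ks_sgn_insert j hj,
      if_neg (lt_irrefl j), one_mul, map_add, smul_add, map_smul, smul_smul, ks_sgn_sq, one_smul,
      map_sum, Finset.smul_sum]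
    congr 1
    refine Finset.sum_congr rfl (fun k hk => ?_)
    have hne : j ≠ k := fun h => hj (h ▸ hk)
    rw [map_smul, smul_smul, Finset.erase_insert_of_ne hne]
  have h2 : kosH h (kosD z w) I = ∑ k ∈ I, z k (h k (w I)) + ∑ k ∈ I, ∑ j ∈ Iᶜ,
      (ksgn Λ k I * ksgn Λ j (I.erase k)) • z j (h k (w (insert j (I.erase k)))) := by
    rw [ks_H_apply, ← Finset.sum_add_distrib]
    refine Finset.sum_congr rfl (fun k hk => ?_)
    have h3 : ksgn Λ k (I.erase k) = ksgn Λ k I := by
      conv_rhs => rw [← Finset.insert_erase hk]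
      rw [ks_sgn_insert k (Finset.notMem_erase k I), if_neg (lt_irrefl k), one_mul]
    have h4 : ∀ j v, h k (z j v) = z j (h k v) := fun j v => by
      rw [← Module.End.mul_apply, ← (hc j k).eq, Module.End.mul_apply]
    rw [ks_D_apply, Finset.compl_erase, Finset.sum_insert (by simpa using hk),
      Finset.insert_erase hk, h3, map_add, smul_add, map_smul, smul_smul, ks_sgn_sq, one_smul, h4,
      map_sum, Finset.smul_sum]
    congr 1
    refine Finset.sum_congr rfl (fun j _ => ?_)
    rw [map_smul, smul_smul, h4]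
  have h3 : c • w I = ∑ j, z j (h j (w I)) := by
    have := LinearMap.congr_fun hs (w I)
    simpa [LinearMap.sum_apply] using this
  have h4 : (∑ j ∈ Iᶜ, ∑ k ∈ I,
      (ksgn Λ j I * ksgn Λ k (insert j I)) • z j (h k (w (insert j (I.erase k))))) +
      ∑ k ∈ I, ∑ j ∈ Iᶜ,
      (ksgn Λ k I * ksgn Λ j (I.erase k)) • z j (h k (w (insert j (I.erase k)))) = 0 := by
    rw [Finset.sum_comm, ← Finset.sum_add_distrib]
    refine Finset.sum_eq_zero (fun k hk => ?_)
    rw [← Finset.sum_add_distrib]
    refine Finset.sum_eq_zero (fun j hj => ?_)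
    rw [Finset.mem_compl] at hj
    have h5 : ksgn Λ j I = (if k < j then -1 else 1) * ksgn Λ j (I.erase k) := by
      conv_lhs => rw [← Finset.insert_erase hk]
      rw [ks_sgn_insert j (Finset.notMem_erase k I)]
    have hne : j ≠ k := fun h => hj (h ▸ hk)
    rw [← add_smul, h5, ks_sgn_insert k hj, ks_eps hne]
    convert zero_smul Λ _ using 2
    split_ifs <;> ring
  show kosD z (kosH h w) I + kosH h (kosD z w) I = c • w I
  rw [h1, h2, h3, add_add_add_comm, h4, add_zero, add_comm, Finset.sum_add_sum_compl]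

/-- the ideal `(x i ^ N : i < j)` -/
def ks_I (x : Fin d → Λ) (N j : ℕ) : Ideal Λ := Ideal.span ((fun i => x i ^ N) '' {i | (i : ℕ) < j})

theorem ks_I_succ (x : Fin d → Λ) (N : ℕ) (j : Fin d) :
    ks_I x N (j + 1) = Ideal.span {x j ^ N} ⊔ ks_I x N j := by
  unfold ks_I
  rw [← Ideal.span_union, Set.singleton_union,
    ← Set.image_insert_eq (f := fun i => x i ^ N)]
  congr 2
  ext i
  simp only [Set.mem_ofPred_eq, Set.mem_insert_iff, Fin.ext_iff]
  omega

theorem ks_p_zero {P : Type} [AddCommGroup P] [Module Λ P] (C : Cx Λ d P) {i : ℕ} (hi : d < i) :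
    C.p i = 0 := by
  rw [← mul_one (C.p i), ← C.p_sum, Finset.mul_sum]
  refine Finset.sum_eq_zero (fun k hk => ?_)
  rw [C.p_mul, if_neg]
  have := Finset.mem_range.1 hk
  omega

theorem ks_acyc {P : Type} [AddCommGroup P] [Module Λ P] (C : Cx Λ d P) {γ : Λ} {x : Fin d → Λ}
    {L N K : ℕ} (hR : AReg γ x L P) (hN : ∀ j, C.Nul (x j ^ N)) (hK : K ≤ L) (m : ℕ) :
    ∀ j i : ℕ, j + m = d → j < i → ∀ w : P, C.p i w = w →
      C.D w ∈ ism (ks_I x N j ⊔ idl x ^ K) P →
      γ ^ m • w ∈ LinearMap.range C.D ⊔ ism (ks_I x N j ⊔ idl x ^ (K - m * N)) P := by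
  induction m with
  | zero =>
    intro j i hj hi w hw _
    rw [ks_p_zero C (by omega), LinearMap.zero_apply] at hw
    rw [← hw, smul_zero]
    exact zero_mem _
  | succ m ih =>
    intro j i hj hi w hw hD
    obtain ⟨jf, rfl⟩ : ∃ jf : Fin d, (jf : ℕ) = j := ⟨⟨j, by omega⟩, rfl⟩
    obtain ⟨h, hh⟩ := hN jf
    have h1 : C.D (h w) + h (C.D w) = x jf ^ N • w := LinearMap.congr_fun hh w
    have h2 : C.D (C.p (i + 1) (h w)) = x jf ^ N • w - C.p i (h (C.D w)) := by
      rw [← Module.End.mul_apply, C.D_p, Module.End.mul_apply, eq_sub_iff_add_eq, ← map_add, h1,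
        map_smul, hw]
    have he : C.p i (h (C.D w)) ∈ ism (ks_I x N jf ⊔ idl x ^ K) P :=
      ks_map_mem _ (ks_map_mem _ hD)
    have h3 := ih (jf + 1) (i + 1) (by omega) (by omega) (C.p (i + 1) (h w))
      (by rw [← Module.End.mul_apply, C.p_mul, if_pos rfl]) (by
        rw [h2, ks_I_succ]
        refine sub_mem (Submodule.smul_mem_smul ?_ trivial)
          (ks_ism_mono (sup_le_sup_right le_sup_right _) he)
        exact Ideal.mem_sup_left (Ideal.mem_sup_left (Ideal.mem_span_singleton_self _)))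
    rw [ks_I_succ, sup_assoc, ism, Submodule.sup_smul, Submodule.ideal_span_singleton_smul] at h3
    obtain ⟨_, ⟨u, rfl⟩, b, hb, h4⟩ := Submodule.mem_sup.1 h3
    obtain ⟨a, ha, r, hr, rfl⟩ := Submodule.mem_sup.1 hb
    obtain ⟨v', -, rfl⟩ := (Submodule.mem_smul_pointwise_iff_exists _ _ _).1 ha
    have h5 := congrArg C.D h4
    rw [map_add, map_add, ← Module.End.mul_apply, C.D_sq, LinearMap.zero_apply, zero_add, map_smul,
      map_smul, h2] at h5
    have h6 : x jf ^ N • (γ ^ m • w - C.D v') = γ ^ m • C.p i (h (C.D w)) + C.D r := by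
      linear_combination (norm := module) -h5
    have h7 := hR jf N (K - m * N) (γ ^ m • w - C.D v') (by omega) (by
      rw [h6]
      exact add_mem (Submodule.smul_mem _ _ (ks_ism_mono (sup_le_sup_left
        (Ideal.pow_le_pow_right (Nat.sub_le _ _)) _) he)) (ks_map_mem _ hr))
    have h8 : γ ^ (m + 1) • w = C.D (γ • v') + γ • (γ ^ m • w - C.D v') := by
      rw [map_smul, smul_sub, smul_smul, pow_succ']
      abel
    rw [h8, show K - (m + 1) * N = K - m * N - N by rw [add_mul, one_mul, Nat.sub_add_eq]]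
    exact add_mem (Submodule.mem_sup_left ⟨_, rfl⟩) (Submodule.mem_sup_right h7)

/-- Truncated acyclicity.  Let `I j = (x i ^ N : i < j)` for `j ≤ d`.  Claim, by descending induction on `j`: if
`i > j`, `p i w = w`, `K ≤ L` and `D w ∈ (I j + (x)^K) P`, then
`γ^(d-j) • w ∈ range D + (I j + (x)^(K - (d-j) N)) P`.  For `j = d`, `p i = 0`.  Step: with `D h + h D = x j ^ N`
and `v = p (i+1) (h w)`, `x j ^ N • w ≡ D v` modulo `(I j + (x)^K) P`; the claim for `j + 1` gives
`γ^(d-j-1) • v = D u + x j ^ N • v' + …`; apply `D` to get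
`x j ^ N • (γ^(d-j-1) • w - D v') ∈ (I j + (x)^(K - (d-j-1) N)) P`, and use `AReg`. -/
theorem Cx.acyc {P : Type} [AddCommGroup P] [Module Λ P] (C : Cx Λ d P) {γ : Λ} {x : Fin d → Λ}
    {L N K : ℕ} (hR : AReg γ x L P) (hN : ∀ j, C.Nul (x j ^ N)) (hK : K ≤ L) {i : ℕ} (hi : 0 < i)
    {w : P} (hw : C.p i w = w) (hD : C.D w ∈ ism (idl x ^ K) P) :
    γ ^ d • w ∈ LinearMap.range C.D ⊔ ism (idl x ^ (K - d * N)) P := by
  have h0 : ks_I x N 0 = ⊥ := by simp [ks_I]
  have := ks_acyc C hR hN hK d 0 i (zero_add d) hi w hw (by rwa [h0, bot_sup_eq])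
  rwa [h0, bot_sup_eq] at this

/-- `H_1` of the Koszul complex, read off at the index `i`: apply `Cx.acyc` to the element with component
`w j` at `{j}`; the `{i}`-component of `D u` is `∑_{j ≠ i} ± z j (u {i, j})`.  The second statement keeps the
alternating structure. -/
theorem kos_h1 (z : Fin d → Module.End Λ W) (hz : ∀ i j, Commute (z i) (z j)) {γ : Λ} {x : Fin d → Λ}
    {L N K : ℕ} (hR : AReg γ x L W)
    (hN : ∀ i, ∃ h : Fin d → Module.End Λ W, (∀ j l, Commute (z j) (h l)) ∧
      x i ^ N • (1 : Module.End Λ W) = ∑ j, z j * h j)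
    (hK : K ≤ L) (w : Fin d → W) (hw : ∑ j, z j (w j) ∈ ism (idl x ^ K) W) :
    ∃ a : Fin d → Fin d → W, (∀ i j, a i j = -a j i) ∧ (∀ i, a i i = 0) ∧
      ∀ i, γ ^ d • w i - ∑ j, z j (a i j) ∈ ism (idl x ^ (K - d * N)) W := by
  obtain ⟨C, hp, hD⟩ := exists_kos z hz
  let u : Finset (Fin d) → W := fun I => ∑ j, if I = {j} then w j else 0
  have hu1 : ∀ j, u {j} = w j := by
    intro j
    simp only [u, Finset.singleton_inj]
    rw [Finset.sum_ite_eq, if_pos (Finset.mem_univ _)]
  have hu2 : ∀ I : Finset (Fin d), I.card ≠ 1 → u I = 0 := by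
    intro I hI
    refine Finset.sum_eq_zero (fun j _ => if_neg ?_)
    rintro rfl
    exact hI (Finset.card_singleton j)
  have h1 : C.p 1 u = u := by
    funext I
    rw [hp, ks_P_apply]
    split_ifs with h
    · rfl
    · exact (hu2 I h).symm
  have h2 : C.D u = LinearMap.single Λ (fun _ : Finset (Fin d) => W) ∅ (∑ j, z j (w j)) := by
    funext I
    rw [hD, ks_D_apply, LinearMap.single_apply]
    by_cases hI : I = ∅
    · subst hI
      rw [Pi.single_eq_same, Finset.compl_empty]
      refine Finset.sum_congr rfl (fun j _ => ?_)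
      rw [ks_sgn_empty, one_smul, LawfulSingleton.insert_empty_eq, hu1]
    · rw [Pi.single_eq_of_ne hI]
      refine Finset.sum_eq_zero (fun j hj => ?_)
      rw [hu2, map_zero, smul_zero]
      rw [Finset.card_insert_of_notMem (Finset.mem_compl.1 hj)]
      have := Finset.card_pos.2 (Finset.nonempty_iff_ne_empty.2 hI)
      omega
  have h3 := C.acyc (hR.pi (Finset (Fin d))) (N := N) (fun i => by
    obtain ⟨h, hc, hs⟩ := hN i
    exact ⟨kosH h, by rw [hD]; exact kosD_kosH z h hc _ hs⟩) hK one_pos h1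
    (by rw [h2]; exact ks_map_mem _ hw)
  obtain ⟨_, ⟨v, rfl⟩, r, hr, h4⟩ := Submodule.mem_sup.1 h3
  refine ⟨fun i j => if j = i then 0 else ksgn Λ j {i} • v (insert j {i}), fun i j => ?_,
    fun i => if_pos rfl, fun i => ?_⟩
  · by_cases h : j = i
    · simp [h]
    · have h5 : ∀ a b : Fin d, ksgn Λ a {b} = if b < a then -1 else 1 := fun a b => by
        rw [← LawfulSingleton.insert_empty_eq, ks_sgn_insert a (Finset.notMem_empty b),
          ks_sgn_empty, mul_one]
      simp only [if_neg h, if_neg (Ne.symm h)]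
      rw [h5, h5, ks_eps h, neg_smul, Finset.pair_comm]
  · have h5 := congrFun h4 {i}
    rw [Pi.add_apply, Pi.smul_apply, hu1, hD, ks_D_apply] at h5
    have h6 : ∑ j, z j (if j = i then 0 else ksgn Λ j {i} • v (insert j {i})) =
        ∑ j ∈ ({i} : Finset (Fin d))ᶜ, ksgn Λ j {i} • z j (v (insert j {i})) := by
      rw [← Finset.sum_add_sum_compl {i}, Finset.sum_singleton, if_pos rfl, map_zero, zero_add]
      refine Finset.sum_congr rfl (fun j hj => ?_)
      rw [if_neg (by simpa using hj), map_smul]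
    rw [h6, ← h5, add_sub_cancel_left]
    exact ks_map_mem (LinearMap.proj (R := Λ) (φ := fun _ : Finset (Fin d) => W) {i}) hr

/-- Any system of parameters of a Cohen–Macaulay module is regular.  Fix `j` and `v` with
`w j • v ∈ (w_{<j}) W`.  For each `n ≥ 1` apply `kos_h1` (with `γ = 1`, `Reg.areg`) to the family `w i` for `i ≤ j`,
`w i ^ n` for `i > j`: `v ∈ (w_{<j}) W + 𝔪^n W`.  Conclude by Krull's intersection theorem on
`W / (w_{<j}) W` (`Ideal.iInf_pow_smul_eq_bot_of_isLocalRing`). -/
theorem Reg.of_sop [IsNoetherianRing Λ] [IsLocalRing Λ] [Module.Finite Λ W] {x w : Fin d → Λ}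
    (h : Reg x W) (hw : ∀ i, w i ∈ IsLocalRing.maximalIdeal Λ)
    (hx : ∀ i, x i ∈ (idl w).radical) : Reg w W := by
  intro j v hv
  have hwm : idl w ≤ IsLocalRing.maximalIdeal Λ := by
    refine Ideal.span_le.2 ?_
    rintro _ ⟨i, rfl⟩
    exact hw i
  have hxm : idl x ≤ IsLocalRing.maximalIdeal Λ := by
    refine Ideal.span_le.2 ?_
    rintro _ ⟨i, rfl⟩
    obtain ⟨n, hn⟩ := hx i
    exact (IsLocalRing.maximalIdeal.isMaximal Λ).isPrime.mem_of_pow_mem n (hwm hn)
  obtain ⟨b, hb⟩ := ks_mem_ism_idl (y := fun i => if i < j then w i else 0) (ks_ism_mono (by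
    refine Ideal.span_mono ?_
    rintro _ ⟨i, hi, rfl⟩
    exact ⟨i, if_pos hi⟩) hv)
  have key : ∀ n : ℕ, v ∈ ism (idlLt w j) W ⊔ ism (IsLocalRing.maximalIdeal Λ ^ n) W := by
    intro n
    let y : Fin d → Λ := fun i => if i ≤ j then w i else w i ^ n
    have hwy : idl w ≤ (idl y).radical := by
      refine Ideal.span_le.2 ?_
      rintro _ ⟨i, rfl⟩
      by_cases hi : i ≤ j
      · exact Ideal.le_radical (Ideal.subset_span ⟨i, if_pos hi⟩)
      · exact ⟨n, Ideal.subset_span ⟨i, if_neg hi⟩⟩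
    have hxy : ∀ i, ∃ N, x i ^ N ∈ idl y := fun i =>
      ((Ideal.radical_mono hwy).trans (Ideal.radical_idem _).le) (hx i)
    choose N0 hN0 using hxy
    obtain ⟨a, -, ha, ha'⟩ := kos_h1 (fun i => y i • (1 : Module.End Λ W))
      (fun i k => ((Commute.refl _).smul_left _).smul_right _) (h.areg (d * Finset.univ.sup N0 + n))
      (N := Finset.univ.sup N0) (fun i => by
        obtain ⟨c, hc⟩ := Ideal.mem_span_range_iff_exists_fun.1
          (Ideal.pow_mem_of_pow_mem _ (hN0 i) (Finset.le_sup (f := N0) (Finset.mem_univ i)))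
        refine ⟨fun l => c l • (1 : Module.End Λ W),
          fun k l => ((Commute.refl _).smul_left _).smul_right _, ?_⟩
        rw [← hc, Finset.sum_smul]
        refine Finset.sum_congr rfl (fun l _ => ?_)
        rw [smul_mul_smul_comm, mul_one, mul_comm]) le_rfl
      (fun i => if i < j then -b i else if i = j then v else 0) (by
        have : ∑ i, (y i • (1 : Module.End Λ W)) (if i < j then -b i else if i = j then v else 0) =
            ∑ i, ((if i = j then w j • v else 0) - (if i < j then w i else 0) • b i) := by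
          refine Finset.sum_congr rfl (fun i _ => ?_)
          rcases lt_trichotomy i j with hi | rfl | hi
          · simp [y, hi, hi.le, hi.ne]
          · simp [y]
          · simp [hi.ne', not_lt.2 hi.le]
        rw [this, Finset.sum_sub_distrib, Finset.sum_ite_eq', if_pos (Finset.mem_univ _), ← hb,
          sub_self]
        exact zero_mem _)
    have h1 := ha' j
    rw [if_neg (lt_irrefl j), if_pos rfl, one_pow, one_smul, Nat.add_sub_cancel_left] at h1
    rw [← sub_add_cancel v (∑ l, (y l • (1 : Module.End Λ W)) (a j l))]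
    refine add_mem (Submodule.mem_sup_right (ks_ism_mono (Ideal.pow_right_mono hxm n) h1))
      (Submodule.sum_mem _ (fun l _ => ?_))
    show y l • a j l ∈ _
    rcases lt_trichotomy l j with hl | rfl | hl
    · refine Submodule.mem_sup_left (Submodule.smul_mem_smul ?_ trivial)
      exact Ideal.subset_span ⟨l, hl, (if_pos hl.le).symm⟩
    · rw [ha, smul_zero]
      exact zero_mem _
    · refine Submodule.mem_sup_right (Submodule.smul_mem_smul ?_ trivial)
      simp only [y, if_neg (not_le.2 hl)]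
      exact Ideal.pow_mem_pow (hw l) n
  have hK := Ideal.iInf_pow_smul_eq_bot_of_isLocalRing (M := W ⧸ ism (idlLt w j) W)
    (IsLocalRing.maximalIdeal Λ) (IsLocalRing.maximalIdeal.isMaximal Λ).ne_top
  rw [← Submodule.Quotient.mk_eq_zero, ← Submodule.mem_bot Λ, ← hK, Submodule.mem_iInf]
  intro n
  obtain ⟨a, ha, r, hr, rfl⟩ := Submodule.mem_sup.1 (key n)
  rw [Submodule.Quotient.mk_add, (Submodule.Quotient.mk_eq_zero _).2 ha, zero_add]
  exact ks_map_mem (Submodule.mkQ _) hr

end Crest.Agent.R183
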