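import Crest.Agent.R183.Defs

/-!
# rid 183, file `L2`: calculus of lengths of subquotients and of graded Euler characteristics

Prefix helper lemmas with `l2_`.  Everything is formal: isomorphism theorems plus the axioms of `GLen`.
-/

set_option autoImplicit false

open Submodule

namespace Crest.Agent.R183

variable {Λ : Type} [CommRing Λ] {α : Λ} {E : Type} [AddCommGroup E] [Module Λ E]

/-- Length of `P / (P ⊓ Q)`. -/
noncomputable def GLen.l2 (L : GLen Λ α) (P Q : Submodule Λ E) : ℝ := L.l (↥P ⧸ Q.submoduleOf P)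

/-- `P / (P ⊓ Q)` is good. -/
def GLen.G2 (L : GLen Λ α) (P Q : Submodule Λ E) : Prop := L.G (↥P ⧸ Q.submoduleOf P)

/-- `P` is almost contained in `Q`. -/
def ALE (α : Λ) (P Q : Submodule Λ E) : Prop := ∃ c : ℕ, ∀ v ∈ P, α ^ c • v ∈ Q

theorem ALE.of_le {P Q : Submodule Λ E} (h : P ≤ Q) : ALE α P Q := by
  exact ⟨0, fun v hv => Q.smul_mem _ (h hv)⟩

theorem ALE.trans {P Q R : Submodule Λ E} (h : ALE α P Q) (h' : ALE α Q R) : ALE α P R := by
  obtain ⟨c, hc⟩ := h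
  obtain ⟨c', hc'⟩ := h'
  exact ⟨c' + c, fun v hv => by rw [pow_add, mul_smul]; exact hc' _ (hc v hv)⟩

theorem ALE.sup {P P' Q : Submodule Λ E} (h : ALE α P Q) (h' : ALE α P' Q) : ALE α (P ⊔ P') Q := by
  obtain ⟨c, hc⟩ := h
  obtain ⟨c', hc'⟩ := h'
  refine ⟨c + c', fun v hv => ?_⟩
  obtain ⟨a, ha, b, hb, rfl⟩ := mem_sup.1 hv
  rw [smul_add, pow_add]
  refine Q.add_mem ?_ ?_
  · rw [mul_comm, mul_smul]; exact Q.smul_mem _ (hc a ha)
  · rw [mul_smul]; exact Q.smul_mem _ (hc' b hb)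

theorem ALE.inf {P Q Q' : Submodule Λ E} (h : ALE α P Q) (h' : ALE α P Q') : ALE α P (Q ⊓ Q') := by
  obtain ⟨c, hc⟩ := h
  obtain ⟨c', hc'⟩ := h'
  refine ⟨c + c', fun v hv => ⟨?_, ?_⟩⟩
  · rw [pow_add, mul_comm, mul_smul]; exact Q.smul_mem _ (hc v hv)
  · rw [pow_add, mul_smul]; exact Q'.smul_mem _ (hc' v hv)

namespace GLen

variable (L : GLen Λ α)

theorem l2_G_equiv {M M' : Type} [AddCommGroup M] [Module Λ M] [AddCommGroup M'] [Module Λ M']
    (e : M ≃ₗ[Λ] M') (h : L.G M) : L.G M' := L.G_surj _ _ e.toLinearMap e.surjective h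

theorem l2_G_zero {M M' : Type} [AddCommGroup M] [Module Λ M] [AddCommGroup M'] [Module Λ M']
    [Subsingleton M'] (h : L.G M) : L.G M' :=
  L.G_inj _ _ 0 (Function.injective_of_subsingleton _) h

theorem l2_fin (M : Type) [AddCommGroup M] [Module Λ M] (h : L.G M) (n : ℕ) :
    L.G (Fin n → M) ∧ L.l (Fin n → M) = n * L.l M := by
  induction n with
  | zero =>
    refine ⟨L.l2_G_zero h, ?_⟩
    rw [L.l_kill _ (L.l2_G_zero h) fun v => Subsingleton.elim _ _]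
    simp
  | succ n ih =>
    have e : (M × (Fin n → M)) ≃ₗ[Λ] (Fin (n + 1) → M) := Fin.consLinearEquiv Λ fun _ => M
    have h1 := L.G_prod _ _ h ih.1
    refine ⟨L.l2_G_equiv e h1, ?_⟩
    rw [← L.l_equiv _ _ e, L.l_add _ _ _ (LinearMap.inl Λ _ _) (LinearMap.snd Λ _ _)
      LinearMap.inl_injective LinearMap.snd_surjective Function.Exact.inl_snd h1, ih.2]
    push_cast
    ring

/-- Finite powers of a good module are good (the empty power injects into `M` by the zero map). -/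
theorem G_pi (M : Type) [AddCommGroup M] [Module Λ M] (h : L.G M) (ι : Type) [Finite ι] :
    L.G (ι → M) := by
  obtain ⟨n, ⟨e⟩⟩ := Finite.exists_equiv_fin ι
  exact L.l2_G_equiv (LinearEquiv.funCongrLeft Λ M e) (L.l2_fin M h n).1

theorem l_pi (M : Type) [AddCommGroup M] [Module Λ M] (h : L.G M) (ι : Type) [Fintype ι] :
    L.l (ι → M) = Fintype.card ι * L.l M := by
  rw [← (L.l2_fin M h _).2]
  exact (L.l_equiv _ _ (LinearEquiv.funCongrLeft Λ M (Fintype.equivFin ι))).symm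

theorem l_le_of_surj (M M'' : Type) [AddCommGroup M] [Module Λ M] [AddCommGroup M''] [Module Λ M'']
    (g : M →ₗ[Λ] M'') (hg : Function.Surjective g) (h : L.G M) : L.l M'' ≤ L.l M := by
  rw [L.l_add _ _ _ (LinearMap.ker g).subtype g (injective_subtype _) hg
    (LinearMap.exact_subtype_ker_map g) h]
  linarith [L.l_nonneg (LinearMap.ker g)]

theorem l2_nonneg (P Q : Submodule Λ E) : 0 ≤ L.l2 P Q := L.l_nonneg _

theorem l2_kill (c : ℕ) : ∀ (M : Type) [AddCommGroup M] [Module Λ M], L.G M →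
    (∀ v : M, α ^ c • v = 0) → L.l M = 0 := by
  induction c with
  | zero =>
    intro M _ _ h hv
    refine L.l_kill M h fun v => ?_
    rw [← one_smul Λ v, ← pow_zero α, hv, smul_zero]
  | succ c ih =>
    intro M _ _ h hv
    set N : Submodule Λ M := LinearMap.range (α • LinearMap.id) with hN
    rw [L.l_add _ _ _ N.subtype N.mkQ (injective_subtype _) N.mkQ_surjective
      (LinearMap.exact_subtype_mkQ N) h, ih N (L.G_inj _ _ _ (injective_subtype _) h),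
      L.l_kill _ (L.G_surj _ _ _ N.mkQ_surjective h), add_zero]
    · intro v
      obtain ⟨w, rfl⟩ := N.mkQ_surjective v
      rw [← map_smul, mkQ_apply, Quotient.mk_eq_zero]
      exact ⟨w, rfl⟩
    · rintro ⟨_, w, rfl⟩
      refine Subtype.ext ?_
      change α ^ c • α • w = 0
      rw [← mul_smul, ← pow_succ, hv]

/-- the first isomorphism theorem -/
noncomputable def l2_iso {A B : Type} [AddCommGroup A] [Module Λ A] [AddCommGroup B] [Module Λ B]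
    (g : A →ₗ[Λ] B) {K : Submodule Λ A} {S : Submodule Λ B} (hK : K = LinearMap.ker g)
    (hS : LinearMap.range g = S) : (A ⧸ K) ≃ₗ[Λ] S :=
  (quotEquivOfEq _ _ hK).trans (g.quotKerEquivRange.trans (LinearEquiv.ofEq _ _ hS))

/-- `P / (P ⊓ Q)` inside `E / Q` -/
noncomputable def l2_e (P Q : Submodule Λ E) : (↥P ⧸ Q.submoduleOf P) ≃ₗ[Λ] P.map Q.mkQ :=
  l2_iso (Q.mkQ ∘ₗ P.subtype) (by rw [LinearMap.ker_comp, ker_mkQ]; rfl)
    (by rw [LinearMap.range_comp, range_subtype])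

theorem l2_eq (P Q : Submodule Λ E) : L.l2 P Q = L.l (P.map Q.mkQ) := L.l_equiv _ _ (l2_e P Q)

theorem l2_G_iff {P Q : Submodule Λ E} : L.G2 P Q ↔ L.G (P.map Q.mkQ) :=
  ⟨L.l2_G_equiv (l2_e P Q), L.l2_G_equiv (l2_e P Q).symm⟩

theorem l2_congr {P Q Q' : Submodule Λ E} (h : ∀ v ∈ P, v ∈ Q ↔ v ∈ Q') :
    L.l2 P Q = L.l2 P Q' := by
  unfold l2
  rw [show Q.submoduleOf P = Q'.submoduleOf P from Submodule.ext fun v => h v v.2]

theorem l2_chain' {P Q R : Submodule Λ E} (h : L.G2 P R) (hRQ : R ≤ Q) :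
    L.l2 P R = L.l2 P Q + L.l2 (P ⊓ Q) R := by
  have e : (P.map R.mkQ).map (factor hRQ) = P.map Q.mkQ := by
    rw [← map_comp, factor_comp_mk]
  rw [l2_eq, l2_eq, l2_eq, ← e, add_comm]
  refine L.l_add _ _ _ (inclusion (map_mono inf_le_left)) ((factor hRQ).submoduleMap _)
    (inclusion_injective _) (LinearMap.submoduleMap_surjective _ _) ?_ (L.l2_G_iff.1 h)
  rintro ⟨_, v, hv, rfl⟩
  rw [Subtype.ext_iff]
  change Q.mkQ v = 0 ↔ _
  rw [mkQ_apply, Quotient.mk_eq_zero]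
  refine ⟨fun hq => ⟨⟨_, v, ⟨hv, hq⟩, rfl⟩, rfl⟩, ?_⟩
  rintro ⟨⟨_, w, hw, rfl⟩, h1⟩
  have h2 : w - v ∈ R := (Submodule.Quotient.eq R).1 (congrArg Subtype.val h1)
  simpa using Q.sub_mem hw.2 (hRQ h2)

/-- `P' / (P' ⊓ Q')` is a quotient of a submodule of `P / (P ⊓ Q)`. -/
theorem G2_mono {P Q P' Q' : Submodule Λ E} (h : L.G2 P Q) (hP : P' ≤ P) (hQ : Q ≤ Q') :
    L.G2 P' Q' := by
  have e : (P'.map Q.mkQ).map (factor hQ) = P'.map Q'.mkQ := by
    rw [← map_comp, factor_comp_mk]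
  rw [l2_G_iff, ← e]
  exact L.G_surj _ _ _ (LinearMap.submoduleMap_surjective _ _)
    (L.G_inj _ _ (inclusion (map_mono hP)) (inclusion_injective _) (L.l2_G_iff.1 h))

/-- The image of a good module is good. -/
theorem G2_range {M : Type} [AddCommGroup M] [Module Λ M] (h : L.G M) (f : M →ₗ[Λ] E)
    (Q : Submodule Λ E) : L.G2 (LinearMap.range f ⊔ Q) Q := by
  have e : (LinearMap.range f ⊔ Q).map Q.mkQ = LinearMap.range (Q.mkQ ∘ₗ f) := by
    rw [Submodule.map_sup, mkQ_map_self, sup_bot_eq, ← LinearMap.range_comp]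
  rw [l2_G_iff, e]
  exact L.G_surj _ _ _ (LinearMap.surjective_rangeRestrict _) h

theorem l2_chain {P Q R : Submodule Λ E} (h : L.G2 P R) (hRQ : R ≤ Q) (hQP : Q ≤ P) :
    L.l2 P R = L.l2 P Q + L.l2 Q R := by
  rw [L.l2_chain' h hRQ, inf_eq_right.2 hQP]

theorem l2_inf (P Q : Submodule Λ E) : L.l2 P (P ⊓ Q) = L.l2 P Q := by
  exact L.l2_congr fun v hv => ⟨fun h => h.2, fun h => ⟨hv, h⟩⟩

theorem l2_sup {P B Q : Submodule Λ E} (h : B ≤ Q) : L.l2 (P ⊔ B) Q = L.l2 P Q := by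
  have e : B.map Q.mkQ = ⊥ := le_bot_iff.1 ((map_mono h).trans (mkQ_map_self Q).le)
  rw [l2_eq, l2_eq, Submodule.map_sup, e, sup_bot_eq]

/-- Filter by `α ^ i • P`; each step is killed by `α`. -/
theorem l2_ale {P Q : Submodule Λ E} (h : L.G2 P Q) (h' : ALE α P Q) : L.l2 P Q = 0 := by
  obtain ⟨c, hc⟩ := h'
  refine L.l2_kill c _ h fun v => ?_
  obtain ⟨w, rfl⟩ := mkQ_surjective _ v
  rw [← map_smul, mkQ_apply, Quotient.mk_eq_zero]
  exact hc w w.2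

theorem l2_map {E' : Type} [AddCommGroup E'] [Module Λ E'] (f : E →ₗ[Λ] E') (P : Submodule Λ E)
    (Q : Submodule Λ E') : L.l2 (P.map f) Q = L.l2 P (Q.comap f) := by
  rw [l2_eq]
  exact (L.l_equiv _ _ (l2_iso (Q.mkQ ∘ₗ f ∘ₗ P.subtype)
    (by rw [LinearMap.ker_comp, ker_mkQ]; rfl)
    (by rw [LinearMap.range_comp, LinearMap.range_comp, range_subtype]))).symm

theorem l2_mono_left {P P' Q : Submodule Λ E} (h : L.G2 P Q) (hP : P' ≤ P) :
    L.l2 P' Q ≤ L.l2 P Q := by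
  have h1 := L.l2_chain' (Q := P' ⊔ Q) h le_sup_right
  have e : (P ⊓ (P' ⊔ Q)).map Q.mkQ = P'.map Q.mkQ := by
    refine le_antisymm ((map_mono inf_le_right).trans ?_) (map_mono (le_inf hP le_sup_left))
    rw [Submodule.map_sup, mkQ_map_self, sup_bot_eq]
  have h2 : L.l2 (P ⊓ (P' ⊔ Q)) Q = L.l2 P' Q := by rw [l2_eq, l2_eq, e]
  linarith [L.l2_nonneg P (P' ⊔ Q)]

/-- `range f / (range f ⊓ Q) ≅ M / comap f Q`. -/
theorem l2_range {M : Type} [AddCommGroup M] [Module Λ M] (f : M →ₗ[Λ] E) (Q : Submodule Λ E) :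
    L.l2 (LinearMap.range f) Q = L.l (M ⧸ Q.comap f) := by
  rw [l2_eq]
  exact (L.l_equiv _ _ (l2_iso (Q.mkQ ∘ₗ f) (by rw [LinearMap.ker_comp, ker_mkQ])
    (by rw [LinearMap.range_comp]))).symm

end GLen

/-- A differential graded module with finitely many degrees. -/
structure DG (Λ : Type) [CommRing Λ] (E : Type) [AddCommGroup E] [Module Λ E] where
  del : Module.End Λ E
  π : ℤ → Module.End Λ E
  lo : ℤ
  hi : ℤ
  π_mul : ∀ i j, π i * π j = if i = j then π i else 0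
  π_sum : ∑ j ∈ Finset.Icc lo hi, π j = 1
  del_sq : del * del = 0
  del_π : ∀ j, del * π (j + 1) = π j * del

namespace DG

variable (G : DG Λ E)

/-- Graded submodule. -/
def Gr (U : Submodule Λ E) : Prop := ∀ j, U.map (G.π j) ≤ U

/-- Graded subcomplex. -/
def Sub (U : Submodule Λ E) : Prop := G.Gr U ∧ U.map G.del ≤ U

/-- Euler characteristic of `P / (P ⊓ Q)`. -/
noncomputable def chi (L : GLen Λ α) (P Q : Submodule Λ E) : ℝ :=
  ∑ j ∈ Finset.Icc G.lo G.hi, (-1 : ℝ) ^ j.natAbs * L.l2 (P.map (G.π j)) Q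

variable {G}

theorem π_eq_zero {j : ℤ} (hj : j ∉ Finset.Icc G.lo G.hi) : G.π j = 0 := by
  rw [← mul_one (G.π j), ← G.π_sum, Finset.mul_sum]
  exact Finset.sum_eq_zero fun i hi => by rw [G.π_mul, if_neg fun h : j = i => hj (h ▸ hi)]

theorem Gr.sup {P Q : Submodule Λ E} (h : G.Gr P) (h' : G.Gr Q) : G.Gr (P ⊔ Q) := by
  exact fun j => (Submodule.map_sup _ _ _).trans_le (sup_le_sup (h j) (h' j))

theorem Gr.inf {P Q : Submodule Λ E} (h : G.Gr P) (h' : G.Gr Q) : G.Gr (P ⊓ Q) := by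
  exact fun j => (map_inf_le _).trans (inf_le_inf (h j) (h' j))

theorem l2_del (j : ℤ) (v : E) : G.π j (G.del v) = G.del (G.π (j + 1) v) :=
  (LinearMap.congr_fun (G.del_π j) v).symm

theorem l2_idem (j : ℤ) (v : E) : G.π j (G.π j v) = G.π j v := by
  have := LinearMap.congr_fun (G.π_mul j j) v
  rwa [if_pos rfl] at this

theorem Gr.map_del {P : Submodule Λ E} (h : G.Gr P) : G.Gr (P.map G.del) := by
  rintro j _ ⟨_, ⟨v, hv, rfl⟩, rfl⟩
  exact ⟨_, h (j + 1) ⟨v, hv, rfl⟩, (l2_del j v).symm⟩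

theorem Gr.comap_del {P : Submodule Λ E} (h : G.Gr P) : G.Gr (P.comap G.del) := by
  rintro j _ ⟨v, hv, rfl⟩
  rw [mem_comap, ← sub_add_cancel j 1, ← l2_del]
  exact h _ ⟨_, hv, rfl⟩

theorem Sub.sup {P Q : Submodule Λ E} (h : G.Sub P) (h' : G.Sub Q) : G.Sub (P ⊔ Q) := by
  exact ⟨h.1.sup h'.1, (Submodule.map_sup _ _ _).trans_le (sup_le_sup h.2 h'.2)⟩

theorem Sub.inf {P Q : Submodule Λ E} (h : G.Sub P) (h' : G.Sub Q) : G.Sub (P ⊓ Q) := by
  exact ⟨h.1.inf h'.1, (map_inf_le _).trans (inf_le_inf h.2 h'.2)⟩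

/-- A submodule containing all homogeneous components of `v` contains `v`. -/
theorem mem_of_π {U : Submodule Λ E} {v : E} (h : ∀ j, G.π j v ∈ U) : v ∈ U := by
  have e := LinearMap.congr_fun G.π_sum v
  rw [LinearMap.sum_apply, Module.End.one_apply] at e
  rw [← e]
  exact sum_mem fun j _ => h j

variable (L : GLen Λ α)

/-- In degree `j`: `π j P ⊓ Q = π j Q` for graded `Q ≤ P`. -/
theorem chi_chain {T R0 P Q R : Submodule Λ E} (hG : L.G2 T R0) (hP : G.Gr P) (hQ : G.Gr Q)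
    (h0 : R0 ≤ R) (hRQ : R ≤ Q) (hQP : Q ≤ P) (hT : P ≤ T) :
    G.chi L P R = G.chi L P Q + G.chi L Q R := by
  unfold chi
  rw [← Finset.sum_add_distrib]
  refine Finset.sum_congr rfl fun j _ => ?_
  have e : P.map (G.π j) ⊓ Q = Q.map (G.π j) := by
    refine le_antisymm ?_ (le_inf (map_mono hQP) (hQ j))
    rintro _ ⟨⟨v, -, rfl⟩, hv⟩
    exact ⟨_, hv, l2_idem j v⟩
  rw [L.l2_chain' (L.G2_mono hG ((hP j).trans hT) h0) hRQ, e, mul_add]

theorem chi_sup {P B Q : Submodule Λ E} (hQ : G.Gr Q) (h : B ≤ Q) :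
    G.chi L (P ⊔ B) Q = G.chi L P Q := by
  refine Finset.sum_congr rfl fun j _ => ?_
  rw [Submodule.map_sup, L.l2_sup ((map_mono h).trans (hQ j))]

theorem chi_inf {P Q : Submodule Λ E} (hP : G.Gr P) : G.chi L P (P ⊓ Q) = G.chi L P Q := by
  refine Finset.sum_congr rfl fun j _ => ?_
  rw [L.l2_congr (Q := P ⊓ Q) (Q' := Q) fun v hv => ⟨fun h => h.2, fun h => ⟨hP j hv, h⟩⟩]

theorem chi_ale {T R0 P Q : Submodule Λ E} (hG : L.G2 T R0) (hP : G.Gr P) (hQ : G.Gr Q)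
    (h0 : R0 ≤ Q) (hT : P ≤ T) (h : ALE α P Q) : G.chi L P Q = 0 := by
  refine Finset.sum_eq_zero fun j _ => ?_
  rw [L.l2_ale (L.G2_mono hG ((hP j).trans hT) h0) ((ALE.of_le (hP j)).trans h), mul_zero]

theorem l2_le0 {T R0 P Q : Submodule Λ E} (hG : L.G2 T R0) (h : P ≤ Q) : L.l2 P Q = 0 := by
  have : Subsingleton (↥P ⧸ Q.submoduleOf P) :=
    Submodule.Quotient.subsingleton_iff.2 (eq_top_iff.2 fun v _ => h v.2)
  exact L.l_kill _ (L.l2_G_zero hG) fun v => Subsingleton.elim _ _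

theorem l2_sign (j : ℤ) : (-1 : ℝ) ^ (j + 1).natAbs = -(-1) ^ j.natAbs := by
  rcases Int.even_or_odd j with h | h
  · rw [(Int.natAbs_even.2 h).neg_one_pow, (Int.natAbs_odd.2 h.add_one).neg_one_pow]
  · rw [(Int.natAbs_odd.2 h).neg_one_pow, (Int.natAbs_even.2 h.add_one).neg_one_pow, neg_neg]

/-- `π j ∘ del = del ∘ π (j+1)`, `l2_map`, and the terms outside `Icc lo hi` vanish. -/
theorem chi_map {T R0 : Submodule Λ E} (hG : L.G2 T R0) (Z Q : Submodule Λ E) :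
    G.chi L (Z.map G.del) Q = -G.chi L Z (Q.comap G.del) := by
  set a : ℤ → ℝ := fun j => (-1 : ℝ) ^ j.natAbs * L.l2 (Z.map (G.π j)) (Q.comap G.del) with ha
  have h1 : G.chi L (Z.map G.del) Q = -∑ j ∈ Finset.Icc G.lo G.hi, a (j + 1) := by
    rw [chi, ← Finset.sum_neg_distrib]
    refine Finset.sum_congr rfl fun j _ => ?_
    have e : (Z.map G.del).map (G.π j) = (Z.map (G.π (j + 1))).map G.del := by
      rw [← map_comp, ← map_comp]
      exact congrArg (fun f => map f Z) (G.del_π j).symm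
    rw [e, L.l2_map, ha]
    dsimp only
    rw [l2_sign]
    ring
  have h2 : ∀ j, j ∉ Finset.Icc G.lo G.hi ∨ j - 1 ∉ Finset.Icc G.lo G.hi → a j = 0 := by
    intro j hj
    refine mul_eq_zero_of_right _ (l2_le0 L hG ?_)
    rintro _ ⟨v, -, rfl⟩
    rcases hj with hj | hj
    · rw [π_eq_zero hj]; exact zero_mem _
    · rw [mem_comap, ← sub_add_cancel j 1, ← l2_del, π_eq_zero hj]; exact zero_mem _
  rw [h1, neg_inj]
  refine Finset.sum_bij_ne_zero (fun j _ _ => j + 1) (fun j _ h => ?_)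
    (fun i _ _ j _ _ h => add_right_cancel h) (fun j _ h => ?_) fun _ _ _ => rfl
  · by_contra hc
    exact h (h2 _ (Or.inl hc))
  · refine ⟨j - 1, ?_, by rwa [sub_add_cancel], sub_add_cancel _ _⟩
    by_contra hc
    exact h (h2 _ (Or.inr hc))

/-- Compare both sides with `P ⊔ P'`. -/
theorem chi_congr_left {T R0 P P' Q : Submodule Λ E} (hG : L.G2 T R0) (hP : G.Gr P) (hP' : G.Gr P')
    (h0 : R0 ≤ Q) (hQ : Q ≤ P) (hQ' : Q ≤ P') (hT : P ≤ T) (hT' : P' ≤ T)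
    (h : ALE α P P') (h' : ALE α P' P) : G.chi L P Q = G.chi L P' Q := by
  have e1 := chi_chain L hG (hP.sup hP') hP h0 hQ le_sup_left (sup_le hT hT')
  have e2 := chi_chain L hG (hP.sup hP') hP' h0 hQ' le_sup_right (sup_le hT hT')
  rw [chi_ale L hG (hP.sup hP') hP (h0.trans hQ) (sup_le hT hT') ((ALE.of_le le_rfl).sup h')] at e1
  rw [chi_ale L hG (hP.sup hP') hP' (h0.trans hQ') (sup_le hT hT')
    (h.sup (ALE.of_le le_rfl))] at e2
  linarith

/-- Compare both sides with `Q ⊔ Q'`. -/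
theorem chi_congr_right {T R0 P Q Q' : Submodule Λ E} (hG : L.G2 T R0) (hP : G.Gr P) (hQ : G.Gr Q)
    (hQ' : G.Gr Q') (h0 : R0 ≤ Q) (h0' : R0 ≤ Q') (hQP : Q ≤ P) (hQP' : Q' ≤ P) (hT : P ≤ T)
    (h : ALE α Q Q') (h' : ALE α Q' Q) : G.chi L P Q = G.chi L P Q' := by
  have hle := sup_le hQP hQP'
  have e1 := chi_chain L hG hP (hQ.sup hQ') h0 le_sup_left hle hT
  have e2 := chi_chain L hG hP (hQ.sup hQ') h0' le_sup_right hle hT
  rw [chi_ale L hG (hQ.sup hQ') hQ h0 (hle.trans hT) ((ALE.of_le le_rfl).sup h')] at e1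
  rw [chi_ale L hG (hQ.sup hQ') hQ' h0' (hle.trans hT) (h.sup (ALE.of_le le_rfl))] at e2
  linarith

theorem chi_single {T R0 P Q : Submodule Λ E} (hG : L.G2 T R0) (hP : G.Gr P) (h0 : R0 ≤ Q)
    (hT : P ≤ T) (h : ∀ j : ℤ, j ≠ 0 → ALE α (P.map (G.π j)) Q) :
    G.chi L P Q = L.l2 (P.map (G.π 0)) Q := by
  rw [chi, Finset.sum_eq_single 0]
  · simp
  · intro j _ hj
    rw [L.l2_ale (L.G2_mono hG ((hP j).trans hT) h0) (h j hj), mul_zero]
  · intro hj
    rw [l2_le0 L hG, mul_zero]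
    rw [π_eq_zero hj, Submodule.map_zero]
    exact bot_le

/-- Invariance under an automorphism commuting with the projections. -/
theorem chi_aut (e : E ≃ₗ[Λ] E) (he : ∀ j v, e (G.π j v) = G.π j (e v)) (P Q : Submodule Λ E) :
    G.chi L (P.map (e : E →ₗ[Λ] E)) (Q.map (e : E →ₗ[Λ] E)) = G.chi L P Q := by
  refine Finset.sum_congr rfl fun j _ => ?_
  have h : (P.map (e : E →ₗ[Λ] E)).map (G.π j) = (P.map (G.π j)).map (e : E →ₗ[Λ] E) := by
    rw [← map_comp, ← map_comp]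
    exact congrArg (fun f => map f P) (LinearMap.ext fun v => (he j v).symm)
  rw [h, L.l2_map, comap_map_eq_of_injective e.injective]

/-- The stable Euler characteristic of `U`, read off at the levels `Θ' ≤ Θ`. -/
noncomputable def cx (G : DG Λ E) (L : GLen Λ α) (U Θ Θ' : Submodule Λ E) : ℝ :=
  G.chi L ((U ⊓ Θ'.comap G.del) ⊔ Θ) (U.map G.del ⊔ Θ)

theorem cx_aut (e : E ≃ₗ[Λ] E) (he : ∀ j v, e (G.π j v) = G.π j (e v))
    (he' : ∀ v, e (G.del v) = G.del (e v)) (U Θ Θ' : Submodule Λ E) :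
    G.cx L (U.map (e : E →ₗ[Λ] E)) (Θ.map (e : E →ₗ[Λ] E)) (Θ'.map (e : E →ₗ[Λ] E))
      = G.cx L U Θ Θ' := by
  have h1 : (U.map (e : E →ₗ[Λ] E)).map G.del = (U.map G.del).map (e : E →ₗ[Λ] E) := by
    rw [← map_comp, ← map_comp]
    exact congrArg (fun f => map f U) (LinearMap.ext fun v => (he' v).symm)
  have h2 : (Θ'.map (e : E →ₗ[Λ] E)).comap G.del = (Θ'.comap G.del).map (e : E →ₗ[Λ] E) := by
    rw [map_equiv_eq_comap_symm, map_equiv_eq_comap_symm, ← comap_comp, ← comap_comp]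
    refine congrArg (fun f => comap f Θ') (LinearMap.ext fun v => e.injective ?_)
    change e (e.symm (G.del v)) = e (G.del (e.symm v))
    rw [he', e.apply_symm_apply, e.apply_symm_apply]
  rw [cx, cx, h1, h2, ← Submodule.map_inf _ e.injective, ← Submodule.map_sup, ← Submodule.map_sup,
    chi_aut L e he]

/-- Change of ambient module.  With `Z = (U ⊔ R) ⊓ comap del (Θ' ⊔ R)` one has `Z = (U ⊓ comap del Θ') ⊔ R`
(if `del (u + ρ) = θ' + ρ'` then `del u - θ' ∈ T ⊓ R ≤ Θ'`), and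
`T ⊓ (map del U ⊔ Θ ⊔ R) = map del U ⊔ Θ`; then `chi_sup`, `chi_inf`. -/
theorem cx_sub {T R U Θ Θ' : Submodule Λ E} (hT : G.Sub T) (hR : G.Sub R) (hU : G.Sub U)
    (hΘ : G.Sub Θ) (hΘ' : G.Sub Θ') (h1 : T ⊓ R ≤ Θ') (h2 : Θ' ≤ Θ) (h3 : Θ ≤ U) (h4 : U ≤ T) :
    G.cx L (U ⊔ R) (Θ ⊔ R) (Θ' ⊔ R) = G.cx L U Θ Θ' := by
  have e1 : (U ⊔ R) ⊓ (Θ' ⊔ R).comap G.del = U ⊓ Θ'.comap G.del ⊔ R := by
    refine le_antisymm ?_ (sup_le (inf_le_inf le_sup_left (comap_mono le_sup_left))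
      (le_inf le_sup_right fun v hv => mem_sup_right (hR.2 ⟨v, hv, rfl⟩)))
    rintro v ⟨hv, hv'⟩
    obtain ⟨u, hu, ρ, hρ, rfl⟩ := mem_sup.1 hv
    obtain ⟨θ, hθ, ρ', hρ', e⟩ := mem_sup.1 (mem_comap.1 hv')
    refine add_mem_sup ⟨hu, ?_⟩ hρ
    have a1 : G.del u - θ ∈ T := T.sub_mem (h4 (hU.2 ⟨u, hu, rfl⟩)) (h4 (h3 (h2 hθ)))
    have a2 : G.del u - θ ∈ R := by
      rw [map_add] at e
      rw [show G.del u - θ = ρ' - G.del ρ by rw [sub_eq_sub_iff_add_eq_add, ← e, add_comm]]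
      exact R.sub_mem hρ' (hR.2 ⟨ρ, hρ, rfl⟩)
    have a3 := Θ'.add_mem (h1 ⟨a1, a2⟩) hθ
    rwa [sub_add_cancel] at a3
  have e2 : (U ⊔ R).map G.del ⊔ (Θ ⊔ R) = U.map G.del ⊔ Θ ⊔ R := by
    rw [Submodule.map_sup, sup_assoc, sup_assoc, sup_left_comm (R.map G.del), sup_eq_right.2 hR.2]
  have e3 : U ⊓ Θ'.comap G.del ⊔ R ⊔ (Θ ⊔ R) = U ⊓ Θ'.comap G.del ⊔ Θ ⊔ R := by
    rw [sup_assoc, sup_assoc, sup_left_comm R, sup_idem]
  have g1 : G.Gr (U ⊓ Θ'.comap G.del ⊔ Θ) := (hU.1.inf hΘ'.1.comap_del).sup hΘ.1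
  have l1 : U ⊓ Θ'.comap G.del ⊔ Θ ≤ T := (sup_le inf_le_left h3).trans h4
  have l2 : U.map G.del ⊔ Θ ≤ T := (sup_le hU.2 h3).trans h4
  rw [cx, cx, e1, e2, e3, chi_sup L ((hU.1.map_del.sup hΘ.1).sup hR.1) le_sup_right]
  refine Finset.sum_congr rfl fun j _ => ?_
  rw [L.l2_congr (Q' := U.map G.del ⊔ Θ) fun v hv => ⟨fun h => ?_, fun h => mem_sup_left h⟩]
  obtain ⟨a, ha, ρ, hρ, rfl⟩ := mem_sup.1 h
  have a1 : ρ ∈ T := by simpa using T.sub_mem (l1 (g1 j hv)) (l2 ha)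
  exact add_mem ha (mem_sup_right (h2 (h1 ⟨a1, hρ⟩)))

end DG

/-- A filtration by subcomplexes on which the inclusion `F (· + n0) → F ·` is almost zero on homology. -/
structure Filt (L : GLen Λ α) (G : DG Λ E) (bot top : ℤ) (n0 : ℕ) where
  F : ℤ → Submodule Λ E
  sub : ∀ a, G.Sub (F a)
  anti : Antitone F
  good : L.G2 (F bot) (F top)
  hZ : ∀ a b, bot ≤ a → a ≤ b → b + n0 ≤ top →
    ALE α (F (a + n0) ⊓ (F (b + n0)).comap G.del) ((F a).map G.del ⊔ F b)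

/-- The stable Euler characteristic of `U` at level `t`. -/
noncomputable def Filt.cx {L : GLen Λ α} {G : DG Λ E} {bot top : ℤ} {n0 : ℕ} (Φ : Filt L G bot top n0)
    (U : Submodule Λ E) (t : ℤ) : ℝ :=
  G.cx L U (Φ.F t) (Φ.F (t + n0))

end Crest.Agent.R183
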