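import Crest.Agent.R183.Sand

/-!
# rid 183, file `LechS`: Lech's limit formula, as an inequality

Prefix helper lemmas with `ls_`.
-/

set_option autoImplicit false

open Filter IsLocalRing

namespace Crest.Agent.R183

section ls_len

variable {A Λ : Type} [CommRing A] [CommRing Λ] [Algebra A Λ]

theorem ls_len_kill (I : Ideal Λ) (hI : ∀ l : Λ, ∃ a : A, l - algebraMap A Λ a ∈ I) (M : Type)
    [AddCommGroup M] [Module Λ M] [Module A M] [IsScalarTower A Λ M]
    (h : ∀ l ∈ I, ∀ m : M, l • m = 0) : Module.length A M ≤ Module.length Λ M := by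
  rw [← WithBot.coe_le_coe, Module.coe_length, Module.coe_length]
  refine Order.krullDim_le_of_strictMono (fun p : Submodule A M =>
    ({ toAddSubmonoid := p.toAddSubmonoid
       smul_mem' := fun l m hm => by
        obtain ⟨a, ha⟩ := hI l
        have h1 := h _ ha m
        rw [sub_smul, sub_eq_zero, algebraMap_smul] at h1
        rw [h1]
        exact p.smul_mem a hm } : Submodule Λ M)) fun p q hpq => ?_
  rw [← SetLike.coe_ssubset_coe] at hpq ⊢
  exact hpq

theorem ls_len_le (I : Ideal Λ) (hI : ∀ l : Λ, ∃ a : A, l - algebraMap A Λ a ∈ I) (k : ℕ) :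
    ∀ (M : Type) [AddCommGroup M] [Module Λ M] [Module A M] [IsScalarTower A Λ M],
      (∀ l ∈ I ^ k, ∀ m : M, l • m = 0) → Module.length A M ≤ Module.length Λ M := by
  induction k with
  | zero =>
    intro M _ _ _ _ h
    have : Subsingleton M := ⟨fun a b => by
      rw [← one_smul Λ a, ← one_smul Λ b, h 1 (by simp), h 1 (by simp)]⟩
    rw [Module.length_eq_zero]
    exact zero_le
  | succ k ih =>
    intro M _ _ _ _ h
    have h1 := Module.length_eq_add_of_exact _ _ (ism (I ^ k) M).subtype_injective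
      (ism (I ^ k) M).mkQ_surjective (LinearMap.exact_subtype_mkQ _)
    have h2 := Module.length_eq_add_of_exact ((ism (I ^ k) M).subtype.restrictScalars A)
      ((ism (I ^ k) M).mkQ.restrictScalars A) (ism (I ^ k) M).subtype_injective
      (ism (I ^ k) M).mkQ_surjective (LinearMap.exact_subtype_mkQ _)
    rw [h1, h2]
    refine add_le_add (ls_len_kill I hI _ fun l hl m => Subtype.ext ?_) (ih _ fun l hl m => ?_)
    · obtain ⟨m, hm⟩ := m
      change l • m = 0
      refine Submodule.smul_induction_on hm (fun r hr n _ => ?_) fun x y hx hy => ?_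
      · rw [smul_smul]
        exact h _ (by rw [pow_succ']; exact Ideal.mul_mem_mul hl hr) n
      · rw [smul_add, hx, hy, add_zero]
    · obtain ⟨m, rfl⟩ := Submodule.Quotient.mk_surjective _ m
      rw [← Submodule.Quotient.mk_smul, Submodule.Quotient.mk_eq_zero]
      exact Submodule.smul_mem_smul hl trivial

theorem ls_colen_le (I : Ideal Λ) (hI : ∀ l : Λ, ∃ a : A, l - algebraMap A Λ a ∈ I) {k : ℕ}
    {W : Type} [AddCommGroup W] [Module Λ W] [Module A W] [IsScalarTower A Λ W] {U : Submodule Λ W}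
    (hU : ism (I ^ k) W ≤ U) : colen A (U.restrictScalars A) ≤ colen Λ U := by
  rw [colen, (Submodule.Quotient.restrictScalarsEquiv A U).length_eq]
  refine ls_len_le I hI k _ fun l hl m => ?_
  obtain ⟨m, rfl⟩ := Submodule.Quotient.mk_surjective _ m
  rw [← Submodule.Quotient.mk_smul, Submodule.Quotient.mk_eq_zero]
  exact hU (Submodule.smul_mem_smul hl trivial)

end ls_len

section ls_rees

open Polynomial

variable {S : Type} [CommRing S] (𝔫 : Ideal S)

/-- The degree `n` part of the Rees algebra. -/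
noncomputable def ls_g (n : ℕ) : ↥(𝔫 ^ n) →ₗ[S] reesAlgebra 𝔫 where
  toFun a := ⟨monomial n a.1, reesAlgebra.monomial_mem.2 a.2⟩
  map_add' a b := Subtype.ext (by simp)
  map_smul' c a := Subtype.ext (by simp [Polynomial.smul_monomial])

theorem ls_g_coe (n : ℕ) (a : ↥(𝔫 ^ n)) : (ls_g 𝔫 n a).1 = monomial n a.1 := rfl

/-- Truncated initial module. -/
def ls_V (I : Ideal S) (n : ℕ) : Submodule S (reesAlgebra 𝔫) where
  carrier := {f | ∀ i < n, f.1.coeff i ∈ I ⊔ 𝔫 ^ (i + 1)}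
  add_mem' {f g} hf hg i hi := by
    rw [Subalgebra.coe_add, coeff_add]
    exact add_mem (hf i hi) (hg i hi)
  zero_mem' i _ := by simp
  smul_mem' c f hf i hi := by
    rw [Subalgebra.coe_smul, coeff_smul]
    exact Submodule.smul_mem _ c (hf i hi)

theorem ls_mem_V {I : Ideal S} {n : ℕ} {f : reesAlgebra 𝔫} :
    f ∈ ls_V 𝔫 I n ↔ ∀ i < n, f.1.coeff i ∈ I ⊔ 𝔫 ^ (i + 1) := Iff.rfl

/-- The initial ideal. -/
def ls_in (I : Ideal S) : Ideal (reesAlgebra 𝔫) where
  carrier := {f | ∀ i, f.1.coeff i ∈ I ⊔ 𝔫 ^ (i + 1)}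
  add_mem' {f g} hf hg i := by
    rw [Subalgebra.coe_add, coeff_add]
    exact add_mem (hf i) (hg i)
  zero_mem' i := by simp
  smul_mem' c f hf i := by
    rw [smul_eq_mul, Subalgebra.coe_mul, coeff_mul]
    refine Ideal.sum_mem _ fun p hp => ?_
    obtain ⟨a, ha, b, hb, hab⟩ := Submodule.mem_sup.1 (hf p.2)
    rw [← hab, mul_add, ← Finset.HasAntidiagonal.mem_antidiagonal.1 hp, add_assoc, pow_add]
    exact add_mem (Ideal.mem_sup_left (I.mul_mem_left _ ha))
      (Ideal.mem_sup_right (Ideal.mul_mem_mul (c.2 p.1) hb))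

theorem ls_mem_in {I : Ideal S} {f : reesAlgebra 𝔫} :
    f ∈ ls_in 𝔫 I ↔ ∀ i, f.1.coeff i ∈ I ⊔ 𝔫 ^ (i + 1) := Iff.rfl

theorem ls_g_mem_in {I : Ideal S} {n : ℕ} {a : ↥(𝔫 ^ n)} (ha : a.1 ∈ I ⊔ 𝔫 ^ (n + 1)) :
    ls_g 𝔫 n a ∈ ls_in 𝔫 I := fun i => by
  rw [ls_g_coe, coeff_monomial]
  split_ifs with h
  · exact h ▸ ha
  · exact zero_mem _

theorem ls_colen_V (I : Ideal S) (n : ℕ) : colen S (I ⊔ 𝔫 ^ n) = colen S (ls_V 𝔫 I n) := by
  induction n with
  | zero =>
    have h1 : I ⊔ 𝔫 ^ 0 = ⊤ := by simp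
    have h2 : ls_V 𝔫 I 0 = ⊤ := eq_top_iff.2 fun f _ i hi => absurd hi (Nat.not_lt_zero i)
    rw [h1, h2, ln_colen_top, ln_colen_top]
  | succ n ih =>
    have h1 : (I ⊔ 𝔫 ^ (n + 1)) ⊔ LinearMap.range (𝔫 ^ n).subtype = I ⊔ 𝔫 ^ n := by
      rw [Submodule.range_subtype, sup_assoc,
        sup_eq_right.2 (Ideal.pow_le_pow_right (I := 𝔫) (Nat.le_succ n))]
    have h2 : ls_V 𝔫 I (n + 1) ⊔ LinearMap.range (ls_g 𝔫 n) = ls_V 𝔫 I n := by
      refine le_antisymm (sup_le (fun f hf i hi => hf i (by omega)) ?_) fun f hf => ?_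
      · rintro _ ⟨a, rfl⟩ i hi
        rw [ls_g_coe, coeff_monomial, if_neg (by omega)]
        exact zero_mem _
      · refine Submodule.mem_sup.2 ⟨f - ls_g 𝔫 n ⟨f.1.coeff n, f.2 n⟩, fun i hi => ?_, _, ⟨_, rfl⟩,
          sub_add_cancel _ _⟩
        rw [Subalgebra.coe_sub, coeff_sub, ls_g_coe, coeff_monomial]
        split_ifs with h
        · rw [h, sub_self]; exact zero_mem _
        · rw [sub_zero]; exact hf i (by omega)
    have h3 : (ls_V 𝔫 I (n + 1)).comap (ls_g 𝔫 n) =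
        Submodule.comap (𝔫 ^ n).subtype (I ⊔ 𝔫 ^ (n + 1)) := by
      ext a
      refine ⟨fun h => ?_, fun h i _ => ls_g_mem_in 𝔫 h i⟩
      have := h n (Nat.lt_succ_self n)
      rwa [ls_g_coe, coeff_monomial, if_pos rfl] at this
    rw [ln_len_add (𝔫 ^ n).subtype, ln_len_add (ls_g 𝔫 n) (ls_V 𝔫 I (n + 1)), h1, h2, h3, ih]

theorem ls_decomp (f : reesAlgebra 𝔫) :
    f = ∑ i ∈ f.1.support, ls_g 𝔫 i ⟨f.1.coeff i, f.2 i⟩ := by
  apply Subtype.ext
  rw [AddSubmonoidClass.coe_finsetSum]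
  exact f.1.as_sum_support

end ls_rees

theorem ls_core {S : Type} [CommRing S] [IsNoetherianRing S] (𝔫 : Ideal S) {d : ℕ} (hd : 0 < d)
    {z : Fin d → S} {K0 c : ℕ} (hz1 : ∀ i, z i ∈ 𝔫 ^ 1) (hz2 : 𝔫 ^ (K0 + 1) = idl z * 𝔫 ^ K0)
    (hc : 𝔫 ^ c ≤ idl z) {Λ G : Type} [CommRing Λ] [CommRing G] [Algebra S Λ]
    [Algebra S G] [Algebra Λ G] [IsScalarTower S Λ G] (X : Fin d → Λ)
    (hI : ∀ l : Λ, ∃ a : S, l - algebraMap S Λ a ∈ idl X)
    (π : reesAlgebra 𝔫 →ₐ[S] G) (hπ : Function.Surjective π) (hπ0 : ∀ f, π f = 0 ↔ f ∈ ls_in 𝔫 ⊥)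
    (hX : ∀ i, algebraMap Λ G (X i) = π (ls_g 𝔫 1 ⟨z i, hz1 i⟩)) :
    Module.Finite Λ G ∧ (∀ k, colen Λ (ism (idl X ^ k) G) ≤ colen S (𝔫 ^ (K0 + k))) ∧
      ∀ T, colen S (br z T) ≤ colen Λ (ism (br X T) G) := by
  let y : Fin d → reesAlgebra 𝔫 := fun i => ls_g 𝔫 1 ⟨z i, hz1 i⟩
  replace hX : ∀ i, algebraMap Λ G (X i) = π (y i) := hX
  have step : ∀ (W : Submodule Λ G) (n : ℕ), K0 ≤ n → (∀ a, π (ls_g 𝔫 n a) ∈ W) →
      ∀ a, π (ls_g 𝔫 (n + 1) a) ∈ idl X • W := by
    rintro W n hn hW ⟨a, ha⟩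
    have h1 : 𝔫 ^ (n + 1) = 𝔫 ^ n • Submodule.span S (Set.range z) := by
      obtain ⟨m, rfl⟩ := Nat.exists_eq_add_of_le hn
      rw [show K0 + m + 1 = K0 + 1 + m by ring, pow_add, hz2, pow_add, smul_eq_mul, mul_assoc,
        mul_comm]
      rfl
    obtain ⟨b, hb, hab⟩ := (Submodule.mem_ideal_smul_span_iff_exists_sum _ _ _).1 (h1 ▸ ha)
    rw [Finsupp.sum_fintype _ _ (by simp)] at hab
    have h2 : ls_g 𝔫 (n + 1) ⟨a, ha⟩ = ∑ i, y i * ls_g 𝔫 n ⟨b i, hb i⟩ := by
      apply Subtype.ext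
      rw [AddSubmonoidClass.coe_finsetSum, ls_g_coe]
      dsimp only
      rw [← hab, map_sum]
      refine Finset.sum_congr rfl fun i _ => ?_
      rw [Subalgebra.coe_mul, ls_g_coe, ls_g_coe, Polynomial.monomial_mul_monomial, add_comm,
        smul_eq_mul, mul_comm]
    rw [h2, map_sum]
    refine Submodule.sum_mem _ fun i _ => ?_
    rw [map_mul, ← hX, ← Algebra.smul_def]
    exact Submodule.smul_mem_smul (ln_mem_idl _ i) (hW _)
  have dec : ∀ (W : Submodule Λ G) (f : reesAlgebra 𝔫),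
      (∀ i, π (ls_g 𝔫 i ⟨f.1.coeff i, f.2 i⟩) ∈ W) → π f ∈ W := fun W f h => by
    rw [ls_decomp 𝔫 f, map_sum]
    exact W.sum_mem fun i _ => h i
  refine ⟨?_, fun k => ?_, fun T => ?_⟩
  · let W : Submodule Λ G := ⨆ j : Fin (K0 + 1),
      Submodule.span Λ (LinearMap.range (π.toLinearMap ∘ₗ ls_g 𝔫 j) : Set G)
    have hW : W.FG := Submodule.fg_iSup _ fun j => by
      obtain ⟨t, ht⟩ : (LinearMap.range (π.toLinearMap ∘ₗ ls_g 𝔫 j)).FG :=
        Submodule.fg_range _
      exact ⟨t, by rw [← ht, Submodule.span_span_of_tower]⟩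
    have h1 : ∀ n a, π (ls_g 𝔫 n a) ∈ W := by
      intro n
      induction n with
      | zero => exact fun a => Submodule.mem_iSup_of_mem 0 (Submodule.subset_span ⟨a, rfl⟩)
      | succ n ih =>
        intro a
        by_cases hn : K0 ≤ n
        · exact Submodule.smul_le_right (step W n hn ih a)
        · exact Submodule.mem_iSup_of_mem ⟨n + 1, by omega⟩ (Submodule.subset_span ⟨a, rfl⟩)
    have h2 : W = ⊤ := eq_top_iff.2 fun g _ => by
      obtain ⟨f, rfl⟩ := hπ g
      exact dec W f fun i => h1 i _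
    exact ⟨h2 ▸ hW⟩
  · have h1 : ∀ j n, K0 + j ≤ n → ∀ a,
        π (ls_g 𝔫 n a) ∈ ism (idl X ^ j) G := by
      intro j
      induction j with
      | zero => intro n _ a; simp [ism, Ideal.map_top]
      | succ j ih =>
        intro n hn a
        obtain ⟨n, rfl⟩ : ∃ m, n = m + 1 := ⟨n - 1, by omega⟩
        rw [ism, pow_succ', mul_smul]
        exact step _ n (by omega) (ih n (by omega)) a
    refine (colen_le_restrict (Λ := S) _).trans ?_
    rw [← bot_sup_eq (𝔫 ^ (K0 + k)), ls_colen_V]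
    refine colen_le_of_surj π.toLinearMap hπ ?_
    rintro _ ⟨f, hf, rfl⟩
    refine dec _ f fun i => ?_
    by_cases hi : i < K0 + k
    · rw [(hπ0 _).2 (ls_g_mem_in 𝔫 (hf i hi))]
      exact zero_mem _
    · exact h1 k i (by omega) _
  · have h1 : 𝔫 ^ (c * (d * T)) ≤ br z T := by
      rw [pow_mul]
      exact (Ideal.pow_right_mono hc _).trans (idl_pow_le_br hd z T)
    refine le_trans ?_ (ls_colen_le (A := S) (idl X) hI (ln_ism_mono (idl_pow_le_br hd _ T)))
    · rw [← sup_eq_left.2 h1, ls_colen_V, ln_len_add π.toLinearMap]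
      refine le_trans (colen_anti fun f hf i _ => ?_) le_self_add
      have h2 : π f ∈ (ls_in 𝔫 (br z T)).map π := by
        have h3 : π f ∈ (br X T).map (algebraMap Λ G) := by
          have : π f ∈ ism (br X T) G := hf
          rwa [ism, Ideal.smul_top_eq_map] at this
        rw [br, idl_map] at h3
        refine ln_idl_le (fun j => ?_) h3
        rw [map_pow, hX, ← map_pow]
        refine Ideal.mem_map_of_mem _ fun n => ?_
        rw [Subalgebra.coe_pow, ls_g_coe, Polynomial.monomial_pow, Polynomial.coeff_monomial]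
        split_ifs
        · exact Ideal.mem_sup_left (ln_mem_br z T j)
        · exact zero_mem _
      obtain ⟨g, hg, hgf⟩ := (Ideal.mem_map_iff_of_surjective π hπ).1 h2
      have h5 : f - g ∈ ls_in 𝔫 ⊥ := (hπ0 _).1 (by rw [map_sub, hgf, sub_self])
      have h4 : f - g + g ∈ ls_in 𝔫 (br z T) :=
        add_mem (fun n => (sup_le_sup_right bot_le _ : ⊥ ⊔ 𝔫 ^ (n + 1) ≤ br z T ⊔ _) (h5 n)) hg
      rw [sub_add_cancel] at h4
      exact h4 i

theorem ls_model (S : Type) [CommRing S] [IsNoetherianRing S] [IsLocalRing S] {d : ℕ} (hd : 0 < d)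
    {z : Fin d → S} {K0 : ℕ} (hz : IsRed z K0) :
    ∃ (G : Type) (_ : AddCommGroup G) (_ : Module (MvPolynomial (Fin d) (ResidueField S)) G),
      Module.Finite (MvPolynomial (Fin d) (ResidueField S)) G ∧
      (∀ k, colen (MvPolynomial (Fin d) (ResidueField S)) (ism (idl MvPolynomial.X ^ k) G) ≤
        colen S (maximalIdeal S ^ (K0 + k))) ∧
      ∀ T, colen S (br z T) ≤
        colen (MvPolynomial (Fin d) (ResidueField S)) (ism (br MvPolynomial.X T) G) := by
  obtain ⟨G, _, _, π, hπ, hπ0⟩ : ∃ (G : Type) (_ : CommRing G) (_ : Algebra S G)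
      (π : reesAlgebra (maximalIdeal S) →ₐ[S] G), Function.Surjective π ∧
      ∀ f, π f = 0 ↔ f ∈ ls_in (maximalIdeal S) ⊥ :=
    ⟨reesAlgebra (maximalIdeal S) ⧸ ls_in (maximalIdeal S) ⊥, inferInstance, inferInstance,
      Ideal.Quotient.mkₐ S (ls_in (maximalIdeal S) ⊥),
      Ideal.Quotient.mkₐ_surjective S (ls_in (maximalIdeal S) ⊥),
      fun f => Ideal.Quotient.eq_zero_iff_mem (I := ls_in (maximalIdeal S) ⊥)⟩
  let κ : ResidueField S →+* G := Ideal.Quotient.lift (maximalIdeal S) (algebraMap S G) fun a ha => by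
    rw [← π.commutes, hπ0]
    intro i
    rw [Subalgebra.coe_algebraMap, Polynomial.algebraMap_apply, Polynomial.coeff_C]
    split_ifs with h
    · subst h; simpa using ha
    · exact zero_mem _
  have hz1 : ∀ i, z i ∈ maximalIdeal S ^ 1 := fun i => by rw [pow_one]; exact hz.1 i
  obtain ⟨c, hc⟩ := hz.sop.2
  let y : Fin d → G := fun i => π (ls_g (maximalIdeal S) 1 ⟨z i, hz1 i⟩)
  let _ : Algebra (MvPolynomial (Fin d) (ResidueField S)) G := (MvPolynomial.eval₂Hom κ y).toAlgebra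
  have : IsScalarTower S (MvPolynomial (Fin d) (ResidueField S)) G :=
    IsScalarTower.of_algebraMap_eq fun a => (MvPolynomial.eval₂Hom_C κ y (residue S a)).symm
  refine ⟨G, _, _, ls_core _ hd hz1 hz.2 hc MvPolynomial.X (fun l => ?_) π hπ hπ0 fun i =>
    MvPolynomial.eval₂Hom_X' κ y i⟩
  obtain ⟨a, ha⟩ := residue_surjective (MvPolynomial.constantCoeff l)
  refine ⟨a, ?_⟩
  have e : algebraMap S (MvPolynomial (Fin d) (ResidueField S)) a = MvPolynomial.C (residue S a) := rfl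
  rw [e, ha, idl, ← Set.image_univ, MvPolynomial.mem_ideal_span_X_image]
  intro m hm
  by_contra hne
  have : m = 0 := Finsupp.ext fun i => by simpa using fun h => hne ⟨i, trivial, h⟩
  subst this
  rw [MvPolynomial.mem_support_iff, MvPolynomial.coeff_sub, MvPolynomial.coeff_zero_C] at hm
  exact hm (sub_self _)

/-- Let `z` be a reduction of `𝔫` (`exists_red`), `K` the residue field, and `G = ⨁ j, 𝔫^j / 𝔫^(j+1)` as a module
over `Λ = MvPolynomial (Fin d) K`, where `X i` acts by multiplication with `z i` (degree `+1`).  One way to build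
it: `G = ℕ →₀`-like direct sum `⨁ j, G j` with commuting `K`-linear endomorphisms, and the module structure from
`MvPolynomial.aeval` into the commutative subalgebra they generate (or `Module.compHom` from the Rees algebra:
`G = reesAlgebra 𝔫 ⧸ 𝔫 • reesAlgebra 𝔫` is a commutative ring, an algebra over `K` and over `Λ`; this avoids
building module structures by hand).  `G` is finite over `Λ`, generated in degrees `≤ K0`.  Put `ρ = finrank Λ G`.
* `G_{≥ k} ≤ (X)^(k - K0) G`, and `hs S k = dim G / G_{≥ k}`; so `LBe` from `RBase.lbe`, `rbase_poly`, `LBe.shift`.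
* `len (S / I) = ∑ j, len (𝔫^j / (𝔫^j ⊓ I + 𝔫^(j+1)))` and `z^[T] 𝔫^(j-T) ≤ 𝔫^j ⊓ br z T`, so
  `len (S / br z T) ≤ dim G / X^[T] G`; use `RBase.br_approx`.
Lengths over `Λ` of modules killed by a power of `(X)` are `K`-dimensions. -/
theorem lech_limit (S : Type) [CommRing S] [IsNoetherianRing S] [IsLocalRing S] [Infinite (ResidueField S)]
    {d : ℕ} (hd : 0 < d) (h : ringKrullDim S ≤ d) :
    ∃ (z : Fin d → S) (ρ : ℝ), Sop z ∧ LBe (hs S) d ρ ∧
      ∀ ε : ℝ, 0 < ε → ∀ᶠ T : ℕ in atTop, len S (S ⧸ br z T) ≤ (ρ + ε) * (T : ℝ) ^ d := by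
  obtain ⟨z, K0, hz⟩ := exists_red h
  obtain ⟨G, _, _, _, h1, h2⟩ := ls_model S hd hz
  have hb := rbase_poly (ResidueField S) hd
  refine ⟨z, Module.finrank (MvPolynomial (Fin d) (ResidueField S)) G, hz.sop, ?_, fun ε hε => ?_⟩
  · refine ((hb.lbe (W := G)).shift K0).of_le ?_
    filter_upwards [eventually_ge_atTop K0] with k hk
    have h3 := h1 (k - K0)
    rw [Nat.add_sub_cancel' hk] at h3
    refine Nat.cast_le.2 (ENat.toNat_le_toNat h3 (Module.length_ne_top_iff.2 ?_))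
    exact isFiniteLength_quot (c := k) (by rw [ism, smul_eq_mul, Ideal.mul_top])
  · obtain ⟨C, hC, h3⟩ := hb.br_approx (W := G)
    filter_upwards [eventually_gt_atTop 0,
      tendsto_natCast_atTop_atTop.eventually_ge_atTop (C / ε)] with T hT hT2
    have h4 : len S (S ⧸ br z T) ≤ len (MvPolynomial (Fin d) (ResidueField S))
        (G ⧸ ism (br MvPolynomial.X T) G) :=
      Nat.cast_le.2 (ENat.toNat_le_toNat (h2 T) (Module.length_ne_top_iff.2
        (hb.isFiniteLength (ln_ism_mono (idl_pow_le_br hd _ T)))))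
    have h5 := (abs_le.1 (h3 T hT)).2
    have h6 : C * (T : ℝ) ^ (d - 1) ≤ ε * (T : ℝ) ^ d := by
      obtain ⟨e, rfl⟩ : ∃ e, d = e + 1 := ⟨d - 1, by omega⟩
      rw [Nat.add_sub_cancel, pow_succ', ← mul_assoc]
      rw [div_le_iff₀' hε] at hT2
      gcongr
    linarith

end Crest.Agent.R183
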