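import Crest.Agent.R183.Defs

/-!
# rid 183, file `Len`: elementary length estimates

Prefix helper lemmas with `ln_`.  No regularity is assumed in this file.
-/

set_option autoImplicit false

namespace Crest.Agent.R183

variable {Λ : Type} [CommRing Λ] {d : ℕ} {W : Type} [AddCommGroup W] [Module Λ W]

theorem ln_mem_idl (x : Fin d → Λ) (i : Fin d) : x i ∈ idl x := Ideal.subset_span ⟨i, rfl⟩

theorem ln_mem_br (x : Fin d → Λ) (t : ℕ) (i : Fin d) : x i ^ t ∈ br x t :=
  ln_mem_idl (fun i => x i ^ t) i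

theorem ln_idl_le {x : Fin d → Λ} {I : Ideal Λ} (h : ∀ i, x i ∈ I) : idl x ≤ I := by
  rw [idl, Ideal.span_le]
  rintro _ ⟨i, rfl⟩
  exact h i

theorem br_le_idl_pow (x : Fin d → Λ) (t : ℕ) : br x t ≤ idl x ^ t :=
  ln_idl_le fun i => Ideal.pow_mem_pow (ln_mem_idl x i) t

theorem br_anti (x : Fin d → Λ) {s t : ℕ} (h : s ≤ t) : br x t ≤ br x s := by
  refine ln_idl_le fun i => ?_
  obtain ⟨k, rfl⟩ := Nat.exists_eq_add_of_le h
  rw [pow_add]
  exact Ideal.mul_mem_right _ _ (ln_mem_br x s i)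

theorem br_br (x : Fin d → Λ) (s t : ℕ) : br (fun i => x i ^ s) t = br x (s * t) := by
  simp only [br, ← pow_mul]

theorem ln_mono_mem (x : Fin d → Λ) (β : Fin d → ℕ) : (∏ i, x i ^ β i) ∈ idl x ^ (∑ i, β i) := by
  rw [← Finset.prod_pow_eq_pow_sum]
  exact Ideal.prod_mem_prod fun i _ => Ideal.pow_mem_pow (ln_mem_idl x i) _

theorem ln_idl_pow_eq (x : Fin d → Λ) (k : ℕ) :
    idl x ^ k = Ideal.span ((fun β : Fin d → ℕ => ∏ i, x i ^ β i) '' {β | ∑ i, β i = k}) := by
  apply le_antisymm
  · induction k with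
    | zero =>
      rw [pow_zero, Ideal.one_eq_top, top_le_iff, Ideal.eq_top_iff_one]
      exact Ideal.subset_span ⟨fun _ => 0, by simp, by simp⟩
    | succ k ih =>
      rw [pow_succ]
      refine le_trans (Ideal.mul_mono_left ih) ?_
      rw [idl, Ideal.span_mul_span, Ideal.span_le]
      rintro _ ⟨_, ⟨β, hβ, rfl⟩, _, ⟨j, rfl⟩, rfl⟩
      refine Ideal.subset_span ⟨β + Pi.single j 1, ?_, ?_⟩
      · have hβ' : ∑ i, β i = k := hβ
        simp [Finset.sum_add_distrib, hβ']
      · simp only [Pi.add_apply, pow_add, Finset.prod_mul_distrib]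
        congr 1
        rw [Finset.prod_eq_single j]
        · simp
        · intro i _ hi
          simp [hi]
        · simp
  · rw [Ideal.span_le]
    rintro _ ⟨β, hβ, rfl⟩
    have hβ' : ∑ i, β i = k := hβ
    rw [← hβ']
    exact ln_mono_mem x β

/-- `(x)^k W` is spanned by the `x^β • w`, `|β| = k`; there are finitely many `β`. -/
theorem mem_ism_idl_pow (x : Fin d → Λ) (k : ℕ) (w : W) :
    w ∈ ism (idl x ^ k) W ↔ ∃ f : (Fin d → ℕ) → W,
      w = ∑ β ∈ Finset.Nat.antidiagonalTuple d k, (∏ i, x i ^ β i) • f β := by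
  classical
  constructor
  · intro hw
    let L : ((Fin d → ℕ) → W) →ₗ[Λ] W :=
      ∑ β ∈ Finset.Nat.antidiagonalTuple d k, (∏ i, x i ^ β i) • LinearMap.proj β
    have hL : ∀ f, L f = ∑ β ∈ Finset.Nat.antidiagonalTuple d k, (∏ i, x i ^ β i) • f β := by
      intro f
      simp [L, LinearMap.sum_apply]
    have : ism (idl x ^ k) W ≤ LinearMap.range L := by
      rw [ism, Submodule.smul_le]
      intro r hr n _
      rw [ln_idl_pow_eq] at hr
      induction hr using Submodule.span_induction with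
      | mem r hr =>
        obtain ⟨β, hβ, rfl⟩ := hr
        refine ⟨Pi.single β n, ?_⟩
        rw [hL, Finset.sum_eq_single β]
        · simp
        · intro γ _ hγ
          simp [hγ]
        · intro h
          exact absurd (Finset.Nat.mem_antidiagonalTuple.mpr hβ) h
      | zero => simp
      | add a b _ _ ha hb => rw [add_smul]; exact Submodule.add_mem _ ha hb
      | smul a b _ hb => rw [smul_eq_mul, mul_smul]; exact Submodule.smul_mem _ _ hb
    obtain ⟨f, hf⟩ := this hw
    exact ⟨f, by rw [← hf, hL]⟩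
  · rintro ⟨f, rfl⟩
    refine Submodule.sum_mem _ fun β hβ => Submodule.smul_mem_smul ?_ Submodule.mem_top
    rw [← Finset.Nat.mem_antidiagonalTuple.mp hβ]
    exact ln_mono_mem x β

/-- Pigeonhole on the exponents: a monomial of degree `s (q + d)` has `∑ ⌊β i / s⌋ ≥ q`. -/
theorem idl_pow_le_br_pow (hd : 0 < d) (x : Fin d → Λ) (s q : ℕ) :
    idl x ^ (s * (q + d)) ≤ br x s ^ q := by
  rcases Nat.eq_zero_or_pos s with rfl | hs
  · have : br x 0 = ⊤ := by
      rw [Ideal.eq_top_iff_one]
      simpa using ln_mem_br x 0 ⟨0, hd⟩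
    rw [this, Ideal.top_pow]
    exact le_top
  · rw [ln_idl_pow_eq, Ideal.span_le]
    rintro _ ⟨β, hβ, rfl⟩
    have hβ' : ∑ i, β i = s * (q + d) := hβ
    have h1 : ∏ i, x i ^ β i = (∏ i, (x i ^ s) ^ (β i / s)) * ∏ i, x i ^ (β i % s) := by
      rw [← Finset.prod_mul_distrib]
      refine Finset.prod_congr rfl fun i _ => ?_
      rw [← pow_mul, ← pow_add, Nat.div_add_mod]
    have h2 : q ≤ ∑ i, β i / s := by
      have h3 : ∑ i, β i ≤ ∑ i : Fin d, (s * (β i / s) + s) :=
        Finset.sum_le_sum fun i _ => by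
          have := Nat.div_add_mod (β i) s
          have := Nat.mod_lt (β i) hs
          omega
      rw [Finset.sum_add_distrib, ← Finset.mul_sum, hβ'] at h3
      simp only [Finset.sum_const, Finset.card_univ, Fintype.card_fin, smul_eq_mul] at h3
      have h4 : s * q ≤ s * ∑ i, β i / s := by nlinarith
      exact Nat.le_of_mul_le_mul_left h4 hs
    change ∏ i, x i ^ β i ∈ br x s ^ q
    rw [h1]
    exact Ideal.mul_mem_right _ _ (Ideal.pow_le_pow_right h2
      (ln_mono_mem (fun i => x i ^ s) fun i => β i / s))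

theorem idl_pow_le_br (hd : 0 < d) (x : Fin d → Λ) (t : ℕ) : idl x ^ (d * t) ≤ br x t := by
  rw [ln_idl_pow_eq, Ideal.span_le]
  rintro _ ⟨β, hβ, rfl⟩
  have hβ' : ∑ i, β i = d * t := hβ
  have hne : (Finset.univ : Finset (Fin d)).Nonempty := ⟨⟨0, hd⟩, Finset.mem_univ _⟩
  obtain ⟨i, -, hi⟩ := Finset.exists_le_of_sum_le (f := fun _ => t) (g := β) hne (by simp [hβ'])
  change ∏ i, x i ^ β i ∈ br x t
  rw [← Finset.mul_prod_erase _ _ (Finset.mem_univ i)]
  exact Ideal.mul_mem_right _ _ (br_anti x hi (ln_mem_br x _ i))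

theorem ln_len_add {W' : Type} [AddCommGroup W'] [Module Λ W'] (f : W' →ₗ[Λ] W)
    (U : Submodule Λ W) : colen Λ U = colen Λ (U.comap f) + colen Λ (U ⊔ LinearMap.range f) := by
  refine Module.length_eq_add_of_exact ((U.comap f).mapQ U f le_rfl) (Submodule.factor le_sup_left)
    ?_ (Submodule.factor_surjective _) ?_
  · rw [injective_iff_map_eq_zero]
    intro a ha
    obtain ⟨a, rfl⟩ := Submodule.Quotient.mk_surjective _ a
    rw [Submodule.mapQ_apply, Submodule.Quotient.mk_eq_zero] at ha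
    exact (Submodule.Quotient.mk_eq_zero _).mpr ha
  · intro y
    obtain ⟨y, rfl⟩ := Submodule.Quotient.mk_surjective _ y
    constructor
    · intro hy
      have hy' : y ∈ U ⊔ LinearMap.range f := (Submodule.Quotient.mk_eq_zero _).mp hy
      obtain ⟨u, hu, _, ⟨w, rfl⟩, rfl⟩ := Submodule.mem_sup.mp hy'
      refine ⟨Submodule.Quotient.mk w, ?_⟩
      rw [Submodule.mapQ_apply, eq_comm, Submodule.Quotient.eq]
      simpa using hu
    · rintro ⟨w, hw⟩
      obtain ⟨w, rfl⟩ := Submodule.Quotient.mk_surjective _ w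
      rw [← hw, Submodule.mapQ_apply]
      exact (Submodule.Quotient.mk_eq_zero _).mpr (Submodule.mem_sup_right ⟨w, rfl⟩)

theorem ln_colen_top : colen Λ (⊤ : Submodule Λ W) = 0 := Module.length_eq_zero

theorem ln_colen_bot : colen Λ (⊥ : Submodule Λ W) = Module.length Λ W :=
  (Submodule.quotEquivOfEqBot ⊥ rfl).length_eq

theorem colen_anti {U V : Submodule Λ W} (h : U ≤ V) : colen Λ V ≤ colen Λ U :=
  Module.length_le_of_surjective (Submodule.factor h) (Submodule.factor_surjective h)

theorem colen_eq_add {U V : Submodule Λ W} (h : U ≤ V) :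
    colen Λ U = Module.length Λ (↥V ⧸ U.submoduleOf V) + colen Λ V := by
  have := ln_len_add V.subtype U
  rwa [Submodule.range_subtype, sup_eq_right.mpr h] at this

/-- The modular law. -/
theorem colen_sup_add_inf (U V : Submodule Λ W) :
    colen Λ (U ⊔ V) + colen Λ (U ⊓ V) = colen Λ U + colen Λ V := by
  have h1 := ln_len_add V.subtype U
  have h2 := ln_len_add V.subtype (U ⊓ V)
  have h3 : (U ⊓ V).comap V.subtype = U.comap V.subtype := by
    ext v
    simp
  rw [Submodule.range_subtype] at h1 h2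
  rw [sup_eq_right.mpr inf_le_right, h3] at h2
  rw [h1, h2]
  ring

/-- Subadditivity along a linear map. -/
theorem colen_le_comap_add {W' : Type} [AddCommGroup W'] [Module Λ W'] (f : W' →ₗ[Λ] W)
    (U : Submodule Λ W) : colen Λ U ≤ colen Λ (U.comap f) + colen Λ (U ⊔ LinearMap.range f) :=
  (ln_len_add f U).le

theorem colen_le_of_surj {W' : Type} [AddCommGroup W'] [Module Λ W'] (f : W' →ₗ[Λ] W)
    (hf : Function.Surjective f) {U' : Submodule Λ W'} {U : Submodule Λ W} (h : U'.map f ≤ U) :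
    colen Λ U ≤ colen Λ U' := by
  rw [ln_len_add f U, LinearMap.range_eq_top.mpr hf, sup_top_eq, ln_colen_top, add_zero]
  exact colen_anti (Submodule.map_le_iff_le_comap.mp h)

theorem ln_map_ism {W' : Type} [AddCommGroup W'] [Module Λ W'] (f : W →ₗ[Λ] W') (J : Ideal Λ) :
    (ism J W).map f ≤ ism J W' := by
  rw [ism, Submodule.map_smul'']
  exact smul_mono_right _ le_top

theorem ln_mem_ism {W' : Type} [AddCommGroup W'] [Module Λ W'] (f : W →ₗ[Λ] W') {J : Ideal Λ}
    {w : W} (hw : w ∈ ism J W) : f w ∈ ism J W' :=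
  ln_map_ism f J ⟨w, hw, rfl⟩

theorem ln_colen_pi (V : Submodule Λ W) (ι : Type) [Fintype ι] :
    colen Λ (Submodule.pi Set.univ fun _ : ι => V) = Fintype.card ι * colen Λ V := by
  have hs : Function.Surjective (V.mkQ.compLeft ι) := by
    intro g
    choose f hf using fun i => V.mkQ_surjective (g i)
    exact ⟨f, funext hf⟩
  have hk : (Submodule.pi Set.univ fun _ : ι => V) = LinearMap.ker (V.mkQ.compLeft ι) := by
    ext f
    simp [funext_iff, Submodule.mem_pi]
  rw [hk, colen, ((V.mkQ.compLeft ι).quotKerEquivOfSurjective hs).length_eq,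
    Module.length_pi_of_fintype]
  simp

theorem ln_ism_pi (J : Ideal Λ) (ι : Type) [Fintype ι] :
    ism J (ι → W) = Submodule.pi Set.univ fun _ : ι => ism J W := by
  classical
  ext f
  constructor
  · intro hf i _
    exact ln_mem_ism (LinearMap.proj i : (ι → W) →ₗ[Λ] W) hf
  · intro hf
    rw [← Finset.univ_sum_single f]
    exact Submodule.sum_mem _ fun i _ =>
      ln_mem_ism (LinearMap.single Λ (fun _ : ι => W) i) (hf i (Set.mem_univ _))

theorem colen_ism_pi (J : Ideal Λ) (ι : Type) [Fintype ι] :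
    colen Λ (ism J (ι → W)) = Fintype.card ι * colen Λ (ism J W) := by
  rw [ln_ism_pi, ln_colen_pi]

/-- A module with `μ` generators. -/
theorem colen_ism_le_of_gen {μ : ℕ} (f : (Fin μ → Λ) →ₗ[Λ] W) (hf : Function.Surjective f)
    (J : Ideal Λ) : colen Λ (ism J W) ≤ μ * colen Λ J := by
  refine (colen_le_of_surj f hf (ln_map_ism f J)).trans (le_of_eq ?_)
  rw [colen_ism_pi, Fintype.card_fin, ism, smul_eq_mul, Ideal.mul_top]

/-- Filter by the powers of `z`: each step is a quotient of `W / (U ⊔ range z)`. -/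
theorem colen_range_pow_le (z : Module.End Λ W) (U : Submodule Λ W) (hU : U.map z ≤ U) (k : ℕ) :
    colen Λ (U ⊔ LinearMap.range (z ^ k)) ≤ k * colen Λ (U ⊔ LinearMap.range z) := by
  have hUk : ∀ (k : ℕ), ∀ u ∈ U, (z ^ k) u ∈ U := by
    intro k
    induction k with
    | zero => intro u hu; simpa using hu
    | succ k ih =>
      intro u hu
      rw [pow_succ']
      exact hU ⟨_, ih u hu, rfl⟩
  induction k with
  | zero =>
    have : LinearMap.range (z ^ 0) = ⊤ := by
      rw [pow_zero]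
      exact LinearMap.range_id
    rw [this, sup_top_eq, ln_colen_top]
    exact zero_le
  | succ k ih =>
    rw [ln_len_add (z ^ k) (U ⊔ LinearMap.range (z ^ (k + 1))), Nat.cast_succ, add_mul, one_mul,
      add_comm]
    refine add_le_add (le_trans (colen_anti ?_) ih) (colen_anti ?_)
    · exact sup_le_sup_right le_sup_left _
    · refine sup_le (fun u hu => Submodule.mem_sup_left (hUk k u hu)) ?_
      rintro _ ⟨w, rfl⟩
      exact Submodule.mem_sup_right ⟨w, by rw [pow_succ]; rfl⟩

theorem ln_mem_ism_span (a : Λ) (w : W) : w ∈ ism (Ideal.span {a}) W ↔ ∃ v : W, a • v = w := by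
  rw [ism, Submodule.ideal_span_singleton_smul, Submodule.mem_smul_pointwise_iff_exists]
  simp

theorem ln_ism_span (a : Λ) :
    ism (Ideal.span {a}) W = LinearMap.range (algebraMap Λ (Module.End Λ W) a) := by
  ext w
  rw [ln_mem_ism_span]
  simp

theorem colen_span_pow_le (a : Λ) (U : Submodule Λ W) (k : ℕ) :
    colen Λ (U ⊔ ism (Ideal.span {a ^ k}) W) ≤ k * colen Λ (U ⊔ ism (Ideal.span {a}) W) := by
  rw [ln_ism_span, ln_ism_span, map_pow]
  refine colen_range_pow_le _ U ?_ k
  rintro _ ⟨u, hu, rfl⟩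
  exact U.smul_mem a hu

theorem ln_idl_succ (x : Fin (d + 1) → Λ) :
    idl x = Ideal.span {x 0} ⊔ idl fun i : Fin d => x i.succ := by
  rw [idl, Fin.range_fin_succ, Ideal.span_insert]
  rfl

theorem ln_ism_sup (I J : Ideal Λ) : ism (I ⊔ J) W = ism I W ⊔ ism J W := Submodule.sup_smul _ _ _

theorem ln_ism_mono {I J : Ideal Λ} (h : I ≤ J) : ism I W ≤ ism J W := Submodule.smul_mono_left h

/-- One variable at a time. -/
theorem colen_idl_exp_le (x : Fin d → Λ) (a : Fin d → ℕ) (U : Submodule Λ W) :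
    colen Λ (U ⊔ ism (idl fun i => x i ^ a i) W) ≤ (∏ i, a i : ℕ) * colen Λ (U ⊔ ism (idl x) W) := by
  induction d generalizing U with
  | zero =>
    have : (fun i => x i ^ a i) = x := funext fun i => i.elim0
    rw [this]
    simp
  | succ d ih =>
    rw [ln_idl_succ x, ln_idl_succ fun i => x i ^ a i, ln_ism_sup, ln_ism_sup, ← sup_assoc]
    refine (ih (fun i => x i.succ) (fun i => a i.succ) _).trans ?_
    rw [Fin.prod_univ_succ, Nat.cast_mul, mul_comm (a 0 : ℕ∞), mul_assoc]
    refine mul_le_mul_right ?_ _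
    rw [sup_right_comm, sup_comm (ism (Ideal.span {x 0}) W), ← sup_assoc]
    exact colen_span_pow_le _ _ _

theorem colen_br_le (x : Fin d → Λ) (t : ℕ) (U : Submodule Λ W) :
    colen Λ (U ⊔ ism (br x t) W) ≤ (t ^ d : ℕ) * colen Λ (U ⊔ ism (idl x) W) := by
  simpa [br] using colen_idl_exp_le x (fun _ => t) U

theorem ln_card_tuple (d k : ℕ) : (Finset.Nat.antidiagonalTuple d k).card = d.multichoose k := by
  have := Finset.card_finsuppAntidiag_nat_eq_multichoose (s := (Finset.univ : Finset (Fin d))) k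
  rwa [Finset.finsuppAntidiag, Finset.card_map, Finset.card_attach,
    Finset.piAntidiag_univ_fin_eq_antidiagonalTuple, Finset.card_univ, Fintype.card_fin] at this

theorem ln_colen_idl_pow_le (x : Fin d → Λ) (k : ℕ) (U : Submodule Λ W) :
    colen Λ (U ⊔ ism (idl x ^ k) W) ≤
      (∑ j ∈ Finset.range k, d.multichoose j : ℕ) * colen Λ (U ⊔ ism (idl x) W) := by
  classical
  induction k with
  | zero =>
    rw [pow_zero, Ideal.one_eq_top, ism, Submodule.top_smul, sup_top_eq, ln_colen_top]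
    exact zero_le
  | succ k ih =>
    let L : (Finset.Nat.antidiagonalTuple d k → W) →ₗ[Λ] W :=
      ∑ β : Finset.Nat.antidiagonalTuple d k, (∏ i, x i ^ β.1 i) • LinearMap.proj β
    have hL : ∀ f, L f = ∑ β : Finset.Nat.antidiagonalTuple d k, (∏ i, x i ^ β.1 i) • f β := by
      intro f
      simp [L, LinearMap.sum_apply]
    rw [ln_len_add L (U ⊔ ism (idl x ^ (k + 1)) W), Finset.sum_range_succ, Nat.cast_add, add_mul,
      add_comm]
    refine add_le_add (le_trans (colen_anti ?_) ih) ?_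
    · refine sup_le (le_sup_left.trans le_sup_left) (le_trans ?_ le_sup_right)
      intro w hw
      obtain ⟨f, rfl⟩ := (mem_ism_idl_pow x k w).mp hw
      refine ⟨fun β => f β.1, ?_⟩
      rw [hL]
      exact Finset.sum_coe_sort _ fun β => (∏ i, x i ^ β i) • f β
    · rw [← ln_card_tuple, ← Fintype.card_coe, ← ln_colen_pi]
      refine colen_anti fun f hf => ?_
      rw [Submodule.mem_comap, hL]
      refine Submodule.sum_mem _ fun β _ => ?_
      obtain ⟨u, hu, v, hv, huv⟩ := Submodule.mem_sup.mp (hf β (Set.mem_univ _))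
      rw [← huv, smul_add]
      refine Submodule.add_mem _ (Submodule.mem_sup_left (U.smul_mem _ hu))
        (Submodule.mem_sup_right ?_)
      rw [pow_succ, ism, Submodule.mul_smul]
      refine Submodule.smul_mem_smul ?_ hv
      have := ln_mono_mem x β.1
      rwa [Finset.Nat.mem_antidiagonalTuple.mp β.2] at this

/-- `(x)^j W / (x)^(j+1) W` is a quotient of `(W / x W)^{monomials of degree j}`; the number of monomials of
degree `< k` in `d` variables is `(k + d - 1).choose d` (for `k = 0` the left side is `0`). -/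
theorem colen_idl_pow_le (x : Fin d → Λ) (k : ℕ) (U : Submodule Λ W) :
    colen Λ (U ⊔ ism (idl x ^ k) W) ≤ ((k + d - 1).choose d : ℕ) * colen Λ (U ⊔ ism (idl x) W) := by
  refine (ln_colen_idl_pow_le x k U).trans (mul_le_mul_left ?_ _)
  cases k with
  | zero => simp
  | succ k =>
    rw [Nat.sum_range_multichoose]
    exact le_of_eq (by congr 2; omega)

/-- For finite length, kernel and cokernel of an endomorphism have the same length. -/
theorem length_ker_eq (hW : IsFiniteLength Λ W) (z : Module.End Λ W) :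
    Module.length Λ (LinearMap.ker z) = colen Λ (LinearMap.range z) := by
  have h1 := ln_len_add z ⊥
  have h2 := Module.length_eq_add_of_exact _ _ (LinearMap.ker z).subtype_injective
    (LinearMap.ker z).mkQ_surjective (LinearMap.exact_subtype_mkQ _)
  rw [ln_colen_bot, bot_sup_eq, Submodule.comap_bot, h2, add_comm] at h1
  have h3 : colen Λ (LinearMap.ker z) ≠ ⊤ :=
    Module.length_ne_top_iff.mpr (hW.of_surjective (LinearMap.ker z).mkQ_surjective)
  exact ENat.add_right_injective_of_ne_top h3 h1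

theorem isFiniteLength_of_colen_le {U : Submodule Λ W} {n : ℕ∞} (hn : n ≠ ⊤) (h : colen Λ U ≤ n) :
    IsFiniteLength Λ (W ⧸ U) :=
  Module.length_ne_top_iff.mp (ne_top_of_le_ne_top hn h)

theorem len_nonneg : 0 ≤ len Λ W := Nat.cast_nonneg _

/-- Transfer of `ℕ∞` inequalities to `len`. -/
theorem len_le_of_le {n : ℕ} (h : Module.length Λ W ≤ n) : len Λ W ≤ n := by
  rw [len, Nat.cast_le]
  exact ENat.toNat_le_of_le_natCast h

theorem length_eq_len (hW : IsFiniteLength Λ W) :
    ∃ n : ℕ, Module.length Λ W = n ∧ len Λ W = n :=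
  ⟨(Module.length Λ W).toNat, (ENat.natCast_toNat (Module.length_ne_top_iff.mpr hW)).symm, rfl⟩

theorem ln_len_exact {W' W'' : Type} [AddCommGroup W'] [Module Λ W'] [AddCommGroup W''] [Module Λ W'']
    (hW : Module.length Λ W ≠ ⊤) (h : Module.length Λ W = Module.length Λ W' + Module.length Λ W'') :
    len Λ W = len Λ W' + len Λ W'' := by
  have h1 : Module.length Λ W' ≠ ⊤ := ne_top_of_le_ne_top hW (h ▸ le_self_add)
  have h2 : Module.length Λ W'' ≠ ⊤ := ne_top_of_le_ne_top hW (h ▸ le_add_self)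
  rw [len, len, len, h, ENat.toNat_add h1 h2, Nat.cast_add]

theorem ln_len_le {W' : Type} [AddCommGroup W'] [Module Λ W'] (hW : Module.length Λ W ≠ ⊤)
    (h : Module.length Λ W' ≤ Module.length Λ W) : len Λ W' ≤ len Λ W :=
  Nat.cast_le.mpr (ENat.toNat_le_toNat h hW)

theorem ln_len_congr {W' : Type} [AddCommGroup W'] [Module Λ W']
    (h : Module.length Λ W' = Module.length Λ W) : len Λ W' = len Λ W := by
  rw [len, len, h]

theorem alen_add (hW : IsFiniteLength Λ W) (α : Λ) :
    alen α W + len Λ (W ⧸ ism (Ideal.span {α}) W) = len Λ W :=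
  (ln_len_exact (Module.length_ne_top_iff.mpr hW) (Module.length_eq_add_of_exact _ _
    (ism (Ideal.span {α}) W).subtype_injective (ism (Ideal.span {α}) W).mkQ_surjective
    (LinearMap.exact_subtype_mkQ _))).symm

theorem alen_pi (hW : IsFiniteLength Λ W) (α : Λ) (ι : Type) [Fintype ι] :
    alen α (ι → W) = Fintype.card ι * alen α W := by
  have hl : Module.length Λ (ι → W) = Fintype.card ι * Module.length Λ W := by
    rw [Module.length_pi_of_fintype]
    simp
  have hW' : IsFiniteLength Λ (ι → W) := by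
    rw [← Module.length_ne_top_iff, hl]
    exact WithTop.mul_ne_top (ENat.natCast_ne_top _) (Module.length_ne_top_iff.mpr hW)
  have h1 := alen_add hW α
  have h2 := alen_add hW' α
  have h3 : len Λ (ι → W) = Fintype.card ι * len Λ W := by
    rw [len, len, hl, ENat.toNat_mul, ENat.toNat_natCast, Nat.cast_mul]
  have h4 : len Λ ((ι → W) ⧸ ism (Ideal.span {α}) (ι → W)) =
      Fintype.card ι * len Λ (W ⧸ ism (Ideal.span {α}) W) := by
    have := colen_ism_pi (W := W) (Ideal.span {α}) ι
    rw [colen, colen] at this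
    rw [len, len, this, ENat.toNat_mul, ENat.toNat_natCast, Nat.cast_mul]
  rw [h3, h4, ← h1] at h2
  linarith

theorem ln_map_ism_surj {W' : Type} [AddCommGroup W'] [Module Λ W'] (f : W →ₗ[Λ] W')
    (hf : Function.Surjective f) (J : Ideal Λ) : (ism J W).map f = ism J W' := by
  rw [ism, Submodule.map_smul'', Submodule.map_top, LinearMap.range_eq_top.mpr hf]

theorem alen_equiv {W' : Type} [AddCommGroup W'] [Module Λ W'] (e : W ≃ₗ[Λ] W') (α : Λ) :
    alen α W = alen α W' := by
  rw [alen, alen, ← ln_map_ism_surj e.toLinearMap e.surjective]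
  exact ln_len_congr (e.submoduleMap _).length_eq

theorem ln_sub_ne_top (hW : IsFiniteLength Λ W) (U : Submodule Λ W) : Module.length Λ U ≠ ⊤ :=
  Module.length_ne_top_iff.mpr (hW.of_injective U.subtype_injective)

theorem ln_quot_ne_top (hW : IsFiniteLength Λ W) (U : Submodule Λ W) : colen Λ U ≠ ⊤ :=
  Module.length_ne_top_iff.mpr (hW.of_surjective U.mkQ_surjective)

theorem alen_mul_le (hW : IsFiniteLength Λ W) (α β : Λ) : alen (α * β) W ≤ alen α W := by
  have h : ism (Ideal.span {α * β}) W ≤ ism (Ideal.span {α}) W :=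
    ln_ism_mono (Ideal.span_singleton_le_span_singleton.mpr (dvd_mul_right _ _))
  exact ln_len_le (ln_sub_ne_top hW _)
    (Module.length_le_of_injective (Submodule.inclusion h) (Submodule.inclusion_injective h))

theorem ln_cl_add {W' : Type} [AddCommGroup W'] [Module Λ W'] (f : W' →ₗ[Λ] W)
    {U : Submodule Λ W} (hU : colen Λ U ≠ ⊤) :
    len Λ (W ⧸ U) = len Λ (W' ⧸ U.comap f) + len Λ (W ⧸ (U ⊔ LinearMap.range f)) :=
  ln_len_exact hU (ln_len_add f U)

theorem ln_cl_anti {U V : Submodule Λ W} (hU : colen Λ U ≠ ⊤) (h : U ≤ V) :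
    len Λ (W ⧸ V) ≤ len Λ (W ⧸ U) :=
  ln_len_le hU (colen_anti h)

theorem ln_fin_anti {U V : Submodule Λ W} (hU : colen Λ U ≠ ⊤) (h : U ≤ V) : colen Λ V ≠ ⊤ :=
  ne_top_of_le_ne_top hU (colen_anti h)

/-- Multiplication by `b`. -/
abbrev ln_mul (W : Type) [AddCommGroup W] [Module Λ W] (b : Λ) : W →ₗ[Λ] W :=
  algebraMap Λ (Module.End Λ W) b

theorem ln_cl_mul (b : Λ) {U : Submodule Λ W} (hU : colen Λ U ≠ ⊤) :
    len Λ (W ⧸ U) = len Λ (W ⧸ U.comap (ln_mul W b)) + len Λ (W ⧸ (U ⊔ ism (Ideal.span {b}) W)) := by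
  rw [ln_ism_span]
  exact ln_cl_add _ hU

theorem ln_smul_mem (a : Λ) (w : W) : a • w ∈ ism (Ideal.span {a}) W :=
  (ln_mem_ism_span a _).mpr ⟨w, rfl⟩

/-- `α W / α² W` is a quotient of `W / (α + α') W`. -/
theorem alen_le_sq (hW : IsFiniteLength Λ W) {α α' : Λ} (h : ∀ w : W, (α * α') • w = 0) :
    alen α W ≤ alen (α ^ 2) W + len Λ (W ⧸ ism (Ideal.span {α + α'}) W) := by
  have h1 := alen_add hW α
  have h2 := alen_add hW (α ^ 2)
  have h3 := ln_cl_mul α (ln_quot_ne_top hW (ism (Ideal.span {α ^ 2}) W))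
  have h4 := ln_cl_anti (ln_quot_ne_top hW (ism (Ideal.span {α}) W))
    (le_sup_right : _ ≤ ism (Ideal.span {α ^ 2}) W ⊔ _)
  have h5 : ism (Ideal.span {α + α'}) W ≤ (ism (Ideal.span {α ^ 2}) W).comap (ln_mul W α) := by
    intro w hw
    obtain ⟨v, rfl⟩ := (ln_mem_ism_span _ _).mp hw
    change α • (α + α') • v ∈ ism (Ideal.span {α ^ 2}) W
    rw [smul_smul, mul_add, add_smul, h, add_zero, ← pow_two]
    exact ln_smul_mem _ _
  have h6 := ln_cl_anti (ln_quot_ne_top hW _) h5
  linarith

/-- The length of `α (W / U)`. -/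
noncomputable def ln_al (α : Λ) (U : Submodule Λ W) : ℝ :=
  len Λ (W ⧸ U) - len Λ (W ⧸ (U ⊔ ism (Ideal.span {α}) W))

theorem ln_alen_quot (α : Λ) {U : Submodule Λ W} (hU : colen Λ U ≠ ⊤) :
    alen α (W ⧸ U) = ln_al α U := by
  have h1 := alen_add (Module.length_ne_top_iff.mp hU) α
  rw [← ln_map_ism_surj U.mkQ U.mkQ_surjective,
    ln_len_congr (Submodule.quotientQuotientEquivQuotientSup U _).length_eq] at h1
  rw [ln_al]
  linarith

theorem ln_al_anti (α : Λ) {U V : Submodule Λ W} (hU : colen Λ U ≠ ⊤) (h : U ≤ V) :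
    ln_al α V ≤ ln_al α U := by
  set A := ism (Ideal.span {α}) W
  have h1 := colen_sup_add_inf V (U ⊔ A)
  have h2 : V ⊔ (U ⊔ A) = V ⊔ A := by rw [← sup_assoc, sup_eq_left.mpr h]
  have h3 : U ≤ V ⊓ (U ⊔ A) := le_inf h le_sup_left
  rw [h2] at h1
  have h4 := congrArg (fun n : ℕ∞ => (n.toNat : ℝ)) h1
  rw [ENat.toNat_add (ln_fin_anti hU (h.trans le_sup_left)) (ln_fin_anti hU h3),
    ENat.toNat_add (ln_fin_anti hU h) (ln_fin_anti hU le_sup_left), Nat.cast_add, Nat.cast_add] at h4
  have h5 := ln_cl_anti hU h3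
  simp only [ln_al, len] at h5 ⊢
  linarith

theorem ln_step {α α' b : Λ} {U Y : Submodule Λ W} (hU : colen Λ U ≠ ⊤) (hY : colen Λ Y ≠ ⊤)
    (hα : ∀ w : W, (α * α') • w ∈ U) (hb : ∀ w ∈ Y, b • w ∈ U) :
    ln_al α U ≤ ln_al α (U ⊔ ism (Ideal.span {b}) W) +
      (ln_al α Y + len Λ (W ⧸ (Y ⊔ ism (Ideal.span {α + α'}) W))) := by
  set A := ism (Ideal.span {α}) W with hA
  have hY1 : Y ≤ U.comap (ln_mul W b) := hb
  have h1 := ln_cl_mul b hU
  have h2 := ln_cl_mul b (ln_fin_anti hU (le_sup_left : U ≤ U ⊔ A))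
  have h3 := ln_al_anti α hY hY1
  have hT : colen Λ (U.comap (ln_mul W b) ⊔ A) ≠ ⊤ := ln_fin_anti hY (hY1.trans le_sup_left)
  have h4 := ln_cl_mul (α + α') hT
  have h5 : (U ⊔ A).comap (ln_mul W b) ≤
      (U.comap (ln_mul W b) ⊔ A).comap (ln_mul W (α + α')) := by
    intro w hw
    obtain ⟨u, hu, v, hv, huv⟩ := Submodule.mem_sup.mp (show b • w ∈ U ⊔ A from hw)
    obtain ⟨v, rfl⟩ := (ln_mem_ism_span _ _).mp hv
    change (α + α') • w ∈ U.comap (ln_mul W b) ⊔ A
    rw [add_smul]
    refine Submodule.add_mem _ (Submodule.mem_sup_right (ln_smul_mem _ _))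
      (Submodule.mem_sup_left ?_)
    change b • α' • w ∈ U
    rw [smul_comm, ← huv, smul_add, smul_smul, mul_comm α' α]
    exact U.add_mem (U.smul_mem _ hu) (hα v)
  have h6 := ln_cl_anti (ln_fin_anti hY (hY1.trans (Submodule.comap_mono le_sup_left))) h5
  have h7 : Y ⊔ ism (Ideal.span {α + α'}) W ≤
      U.comap (ln_mul W b) ⊔ A ⊔ ism (Ideal.span {α + α'}) W :=
    sup_le_sup_right (hY1.trans le_sup_left) _
  have h8 := ln_cl_anti (ln_fin_anti hY le_sup_left) h7
  rw [sup_right_comm] at h2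
  simp only [ln_al] at h3 ⊢
  linarith

theorem ln_filter {α α' : Λ} {Y : Submodule Λ W} (hY : colen Λ Y ≠ ⊤) (j d : ℕ) :
    ∀ (y : Fin d → Λ) (I : Ideal Λ) (b : Λ) (U : Submodule Λ W), Y ≤ ism (I ⊔ idl y) W →
      (∀ w ∈ ism I W, b • w ∈ U) → (∀ i (w : W), (b * y i ^ j) • w ∈ U) →
      (∀ w : W, (α * α') • w ∈ U) → colen Λ U ≠ ⊤ →
      ln_al α U ≤ ln_al α (U ⊔ ism (Ideal.span {b}) W) +
        (j : ℝ) ^ d * (ln_al α Y + len Λ (W ⧸ (Y ⊔ ism (Ideal.span {α + α'}) W))) := by
  induction d with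
  | zero =>
    intro y I b U h1 h2 _ h4 h5
    have : idl y ≤ I := ln_idl_le fun i => i.elim0
    rw [sup_eq_left.mpr this] at h1
    rw [pow_zero, one_mul]
    exact ln_step h5 hY h4 fun w hw => h2 w (h1 hw)
  | succ d ih =>
    intro y I b U h1 h2 h3 h4 h5
    set c := ln_al α Y + len Λ (W ⧸ (Y ⊔ ism (Ideal.span {α + α'}) W))
    have key : ∀ t : ℕ, ln_al α (U ⊔ ism (Ideal.span {b * y 0 ^ t}) W) ≤
        ln_al α (U ⊔ ism (Ideal.span {b}) W) + t * ((j : ℝ) ^ d * c) := by
      intro t
      induction t with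
      | zero => simp
      | succ t iht =>
        have h6 := ih (fun i => y i.succ) (I ⊔ Ideal.span {y 0}) (b * y 0 ^ t)
          (U ⊔ ism (Ideal.span {b * y 0 ^ (t + 1)}) W) (by rwa [sup_assoc, ← ln_idl_succ])
          (by
            intro w hw
            rw [ln_ism_sup] at hw
            obtain ⟨u, hu, v, hv, rfl⟩ := Submodule.mem_sup.mp hw
            obtain ⟨v, rfl⟩ := (ln_mem_ism_span _ _).mp hv
            rw [smul_add]
            refine Submodule.add_mem _ (Submodule.mem_sup_left ?_) (Submodule.mem_sup_right ?_)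
            · rw [mul_comm, mul_smul]
              exact U.smul_mem _ (h2 u hu)
            · rw [smul_smul, mul_assoc, ← pow_succ]
              exact ln_smul_mem _ _)
          (by
            intro i w
            refine Submodule.mem_sup_left ?_
            rw [mul_right_comm, mul_comm, mul_smul]
            exact U.smul_mem _ (h3 _ w))
          (fun w => Submodule.mem_sup_left (h4 w)) (ln_fin_anti h5 le_sup_left)
        have h7 : U ⊔ ism (Ideal.span {b * y 0 ^ (t + 1)}) W ⊔ ism (Ideal.span {b * y 0 ^ t}) W =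
            U ⊔ ism (Ideal.span {b * y 0 ^ t}) W := by
          have : ism (Ideal.span {b * y 0 ^ (t + 1)}) W ≤ ism (Ideal.span {b * y 0 ^ t}) W :=
            ln_ism_mono (Ideal.span_singleton_le_span_singleton.mpr
              (mul_dvd_mul_left b (pow_dvd_pow _ (Nat.le_succ t))))
          rw [sup_assoc, sup_eq_right.mpr this]
        rw [h7] at h6
        push_cast
        linarith
    have h8 : U ⊔ ism (Ideal.span {b * y 0 ^ j}) W = U := by
      refine sup_eq_left.mpr fun w hw => ?_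
      obtain ⟨v, rfl⟩ := (ln_mem_ism_span _ _).mp hw
      exact h3 0 v
    have h9 := key j
    rw [h8] at h9
    rw [pow_succ']
    linarith

/-- Almost subadditivity.  Filter `W / y^[j] W` by monomials, `j^d` steps, each a quotient of `W / y W`; or
one variable at a time.  For `0 → W1 → V → V / W1 → 0` with `α α' V = 0`:
`ℓ(α V) = ℓ(α (V / W1)) + ℓ(α V ⊓ W1)`, and `(α V ⊓ W1) / α W1` lies in the kernel of `η = α + α'` on
`W1 / α W1`, whose length is that of `W1 / (α, η) W1` (`length_ker_eq`).  It is convenient to prove by induction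
on the filtration both `alen α V ≤ #steps * (alen α (W / y W) + μ)` with `μ = len (W / (y, η))`, adding one step
at the bottom each time; if `t ≤ j`-th bracket powers are wanted use `br_anti`. -/
theorem alen_br_le (y : Fin d → Λ) (j : ℕ) {α α' : Λ}
    (hW : IsFiniteLength Λ (W ⧸ ism (idl y) W)) (h : ∀ w : W, (α * α') • w ∈ ism (br y j) W) :
    alen α (W ⧸ ism (br y j) W) ≤ (j : ℝ) ^ d * (alen α (W ⧸ ism (idl y) W) +
      len Λ (W ⧸ ism (idl y ⊔ Ideal.span {α + α'}) W)) := by
  have hY : colen Λ (ism (idl y) W) ≠ ⊤ := Module.length_ne_top_iff.mpr hW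
  have hU : colen Λ (ism (br y j) W) ≠ ⊤ := by
    have := colen_br_le y j (⊥ : Submodule Λ W)
    rw [bot_sup_eq, bot_sup_eq] at this
    exact ne_top_of_le_ne_top (WithTop.mul_ne_top (ENat.natCast_ne_top _) hY) this
  have h1 := ln_filter (α := α) (α' := α') hY j d y ⊥ 1 (ism (br y j) W) (by rw [bot_sup_eq])
    (by
      intro w hw
      rw [ism, Submodule.bot_smul, Submodule.mem_bot] at hw
      rw [hw, smul_zero]
      exact Submodule.zero_mem _)
    (fun i w => by
      rw [one_mul]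
      exact Submodule.smul_mem_smul (ln_mem_br y j i) Submodule.mem_top)
    h hU
  have h2 : ism (Ideal.span {(1 : Λ)}) W = ⊤ := by
    rw [Ideal.span_singleton_one, ism, Submodule.top_smul]
  have h3 : ln_al α (⊤ : Submodule Λ W) = 0 := by rw [ln_al, top_sup_eq, sub_self]
  rw [h2, sup_top_eq, h3, zero_add] at h1
  rw [ln_alen_quot α hU, ln_alen_quot α hY, ln_ism_sup]
  exact h1

/-- A surjection does not increase `alen`. -/
theorem alen_le_of_surj {W' : Type} [AddCommGroup W'] [Module Λ W'] (hW : IsFiniteLength Λ W)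
    (f : W →ₗ[Λ] W') (hf : Function.Surjective f) (α : Λ) : alen α W' ≤ alen α W := by
  rw [alen, alen, ← ln_map_ism_surj f hf]
  exact ln_len_le (ln_sub_ne_top hW _)
    (Module.length_le_of_surjective _ (f.submoduleMap_surjective _))

section scalars

variable {Λ' : Type} [CommRing Λ'] [Algebra Λ Λ'] [Module Λ' W] [IsScalarTower Λ Λ' W]

theorem ism_map_restrict (J : Ideal Λ) :
    (ism (J.map (algebraMap Λ Λ')) W).restrictScalars Λ = ism J W :=
  Ideal.smul_restrictScalars J ⊤

theorem idl_map {B : Type} [CommRing B] (f : Λ →+* B) (x : Fin d → Λ) :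
    (idl x).map f = idl fun i => f (x i) := by
  rw [idl, Ideal.map_span, ← Set.range_comp]
  rfl

theorem colen_le_restrict (U : Submodule Λ' W) : colen Λ' U ≤ colen Λ (U.restrictScalars Λ) := by
  have := Submodule.length_le_length_restrictScalars Λ (⊤ : Submodule Λ' (W ⧸ U))
  rw [Submodule.restrictScalars_top, Module.length_top, Module.length_top] at this
  rw [colen, colen, (Submodule.Quotient.restrictScalarsEquiv Λ U).length_eq]
  exact this

theorem colen_eq_restrict_of_surj (h : Function.Surjective (algebraMap Λ Λ')) (U : Submodule Λ' W) :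
    colen Λ' U = colen Λ (U.restrictScalars Λ) := by
  rw [colen, colen, (Submodule.Quotient.restrictScalarsEquiv Λ U).length_eq]
  exact (Module.length_eq_of_surjective h).symm

/-- `IsLocalRing.length_restrictScalars` when the residue fields agree. -/
theorem colen_eq_restrict_of_local [IsLocalRing Λ] [IsLocalRing Λ'] [IsLocalHom (algebraMap Λ Λ')]
    (h : ∀ b : Λ', ∃ a : Λ, b - algebraMap Λ Λ' a ∈ IsLocalRing.maximalIdeal Λ') (U : Submodule Λ' W) :
    colen Λ' U = colen Λ (U.restrictScalars Λ) := by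
  have hs : Function.Surjective
      (algebraMap (IsLocalRing.ResidueField Λ) (IsLocalRing.ResidueField Λ')) := by
    intro b
    obtain ⟨b, rfl⟩ := IsLocalRing.residue_surjective b
    obtain ⟨a, ha⟩ := h b
    refine ⟨IsLocalRing.residue Λ a, ?_⟩
    rw [IsLocalRing.ResidueField.algebraMap_residue, eq_comm]
    exact Ideal.Quotient.eq.mpr ha
  rw [colen, colen, (Submodule.Quotient.restrictScalarsEquiv Λ U).length_eq,
    IsLocalRing.length_restrictScalars Λ Λ' (W ⧸ U), Module.length_eq_of_surjective hs,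
    Module.length_eq_one (IsLocalRing.ResidueField Λ') (IsLocalRing.ResidueField Λ'), mul_one]

end scalars

end Crest.Agent.R183
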