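import Crest.Agent.R183.LocAux

/-!
# rid 183, file `Loc`: Bennett's inequality along a regular curve, and polynomial extensions

Prefix helper lemmas with `lc_`.
-/

set_option autoImplicit false

open IsLocalRing

namespace Crest.Agent.R183

variable {A : Type} [CommRing A] [IsNoetherianRing A] [IsLocalRing A]

/-- `W` is finite, killed by `P^n`, and `t` is regular on `W`, where `A / P` is a DVR with uniformiser `t`.  Induct
on `n`: `W' = (0 :_W P)`; `t` is regular on `W / W'` (it embeds in a power of `W`), so the lengths modulo `t` add;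
`W'` is a finite torsion-free `A / P`-module, hence free, and both sides equal its rank. -/
theorem length_loc_le (P : Ideal A) [P.IsPrime] {t : A} (ht : t ∉ P) (hm : maximalIdeal A = P ⊔ Ideal.span {t})
    (n : ℕ) (W : Type) [AddCommGroup W] [Module A W] [Module.Finite A W] (hP : ism (P ^ n) W = ⊥)
    (hr : ∀ w : W, t • w = 0 → w = 0) :
    Module.length (Localization.AtPrime P) (LocalizedModule P.primeCompl W) ≤
      colen A (ism (Ideal.span {t}) W) := by
  have htm : t ∈ maximalIdeal A := hm ▸ Ideal.mem_sup_right (Ideal.mem_span_singleton_self t)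
  have hf : Submodule.span (Localization.AtPrime P)
      (Set.range (LocalizedModule.mkLinearMap P.primeCompl W)) = ⊤ := by
    rw [eq_top_iff]
    intro x _
    induction x using LocalizedModule.induction_on with
    | _ w s =>
    have : LocalizedModule.mk w s =
        (Localization.mk 1 s : Localization.AtPrime P) • LocalizedModule.mk w (1 : P.primeCompl) := by
      rw [LocalizedModule.mk_smul_mk, one_smul, mul_one]
    rw [this]
    exact Submodule.smul_mem _ _ (Submodule.subset_span ⟨w, rfl⟩)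
  have := lc_gen P ht htm n (LocalizedModule.mkLinearMap P.primeCompl W) hf ⊥ hP.le
    (by simpa using hr)
  rwa [bot_sup_eq, Submodule.bot_coe, Set.image_singleton, map_zero, Submodule.span_zero_singleton,
    ln_colen_bot] at this

/-- Bennett.  Let `Ā = A / P^(n+1) A_P ⊓ A` (kernel of `A → A_P / P^(n+1) A_P`), on which `t` is regular, and `W` the
image of `𝔪^n` in `Ā`.  `𝔪^n = ∑ P^i t^(n-i)`, so `P W ≤ ∑_{i < n} P^(i+1) t^(n-i) Ā ≤ t W`, and `𝔪 W = t W`.  Hence
`len (W / t W) ≤ len (𝔪^n / 𝔪^(n+1))`, while `W_P = Ā_P`. -/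
theorem bennett (P : Ideal A) [P.IsPrime] {t : A} (ht : t ∉ P) (hm : maximalIdeal A = P ⊔ Ideal.span {t})
    (n : ℕ) : hs (Localization.AtPrime P) (n + 1) + hs A n ≤ hs A (n + 1) := by
  set B := Localization.AtPrime P with hB
  have htm : t ∈ maximalIdeal A := hm ▸ Ideal.mem_sup_right (Ideal.mem_span_singleton_self t)
  have hPm : P ≤ maximalIdeal A := hm ▸ le_sup_left
  have htu : IsUnit (algebraMap A B t) := IsLocalization.map_units B (⟨t, ht⟩ : P.primeCompl)
  have hmap : P.map (algebraMap A B) = maximalIdeal B := Localization.AtPrime.map_eq_maximalIdeal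
  let V : Submodule A A := (maximalIdeal A ^ n : Ideal A)
  let f : V →ₗ[A] B := Algebra.linearMap A B ∘ₗ V.subtype
  have hfa : ∀ x : V, f x = algebraMap A B x := fun x => rfl
  have hf : Submodule.span B (Set.range f) = ⊤ := by
    refine Ideal.eq_top_of_isUnit_mem _ (Submodule.subset_span ⟨⟨t ^ n, Ideal.pow_mem_pow htm n⟩, rfl⟩) ?_
    rw [hfa, map_pow]
    exact htu.pow n
  let U : Submodule A V := Submodule.comap f (Submodule.restrictScalars A (maximalIdeal B ^ (n + 1) : Ideal B))
  have hU : ∀ x : V, x ∈ U ↔ algebraMap A B x ∈ maximalIdeal B ^ (n + 1) := fun x => Iff.rfl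
  have hPB : ∀ p ∈ P ^ (n + 1), algebraMap A B p ∈ maximalIdeal B ^ (n + 1) := by
    intro p hp
    rw [← hmap, ← Ideal.map_pow]
    exact Ideal.mem_map_of_mem _ hp
  have h1 : ism (P ^ (n + 1)) V ≤ U := by
    refine Submodule.smul_le.mpr fun p hp x _ => ?_
    rw [hU, Submodule.coe_smul, smul_eq_mul, map_mul]
    exact Ideal.mul_mem_right _ _ (hPB p hp)
  have h2 : ∀ x : V, t • x ∈ U → x ∈ U := by
    intro x hx
    rw [hU, Submodule.coe_smul, smul_eq_mul, map_mul] at hx
    exact (hU x).mpr ((Ideal.unit_mul_mem_iff_mem _ htu).mp hx)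
  have h3 := lc_gen P ht htm (n + 1) f hf U h1 h2
  have h4 : Submodule.span B (f '' U) ≤ (maximalIdeal B ^ (n + 1) : Ideal B) := by
    rw [Submodule.span_le]
    rintro _ ⟨x, hx, rfl⟩
    exact hx
  have h5 : Submodule.submoduleOf (maximalIdeal A ^ (n + 1) : Ideal A) V ≤ U ⊔ ism (Ideal.span {t}) V := by
    intro x hx
    have hx' : (x : A) ∈ maximalIdeal A ^ (n + 1) := hx
    have h6 := lc_pow_le P (Ideal.span {t}) n
    rw [← hm] at h6
    obtain ⟨p, hp, z, hz, hpz⟩ := Submodule.mem_sup.mp (h6 hx')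
    obtain ⟨y, hy, rfl⟩ := Ideal.mem_span_singleton_mul.mp hz
    have hpV : p ∈ V := Ideal.pow_le_pow_right (Nat.le_succ n) (Ideal.pow_right_mono hPm _ hp)
    have : x = (⟨p, hpV⟩ : V) + t • (⟨y, hy⟩ : V) := Subtype.ext hpz.symm
    rw [this]
    exact Submodule.add_mem _ (Submodule.mem_sup_left ((hU _).mpr (hPB p hp)))
      (Submodule.mem_sup_right (ln_smul_mem t _))
  have h7 := colen_eq_add (Λ := A) (W := A) (U := (maximalIdeal A ^ (n + 1) : Ideal A)) (V := V)
    (Ideal.pow_le_pow_right (Nat.le_succ n))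
  refine lc_le_toNat (lc_fin (n + 1)) ?_
  exact le_trans (add_le_add (((colen_anti h4).trans h3).trans (colen_anti h5)) le_rfl) h7.ge

theorem psum_loc_le (P : Ideal A) [P.IsPrime] {t : A} (ht : t ∉ P)
    (hm : maximalIdeal A = P ⊔ Ideal.span {t}) (k : ℕ) : psum (hs (Localization.AtPrime P)) k ≤ hs A k := by
  induction k with
  | zero => simp [psum, hs_zero]
  | succ k ih =>
    have := bennett P ht hm k
    rw [psum, Finset.sum_range_succ]
    rw [psum] at ih
    linarith

/-- Upper bound for one variable.  `Q` is a maximal ideal of `A[Y]` over `𝔪`, so `Q = (𝔪, g)` with `g` monic.  In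
`B = A[Y]_Q`, `B' = B / g` is flat and unramified over `A`... directly: filter `B / 𝔫^k` by the images of
`g^j B`; the `j`-th step is a quotient of `B / (g, 𝔪^(k-j))`, of length `≤ hs A (k - j)` because `A → B / g` is
unramified (`𝔪 (B / g)` is the maximal ideal): each `𝔪^i (B/g) / 𝔪^(i+1) (B/g)` is generated by
`len (𝔪^i / 𝔪^(i+1))` elements over the residue field. -/
theorem hs_poly_le (Q : Ideal (Polynomial A)) [Q.IsMaximal] (hQ : Q.comap Polynomial.C = maximalIdeal A) (k : ℕ) :
    hs (Localization.AtPrime Q) k ≤ psum (hs A) k := by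
  set B := Localization.AtPrime Q with hB
  obtain ⟨g, hg⟩ : ∃ g : Polynomial A, Q = (maximalIdeal A).map Polynomial.C ⊔ Ideal.span {g} := by
    by_cases h : Q = (Q.comap Polynomial.C).map Polynomial.C
    · exact ⟨0, by rw [← hQ, ← h]; simp⟩
    · obtain ⟨f, _, hf⟩ := Polynomial.exists_monic_span_sup_map_eq A Q (hQ ▸ maximalIdeal.isMaximal A) h
      exact ⟨f, hQ ▸ hf⟩
  let φ : A →+* B := (algebraMap (Polynomial A) B).comp Polynomial.C
  let γ : B := algebraMap (Polynomial A) B g
  have hmap : Q.map (algebraMap (Polynomial A) B) = maximalIdeal B := Localization.AtPrime.map_eq_maximalIdeal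
  have hn : maximalIdeal B = (maximalIdeal A).map φ ⊔ Ideal.span {γ} := by
    rw [← hmap, ← Ideal.map_map, ← Set.image_singleton, ← Ideal.map_span, ← Ideal.map_sup, ← hg]
  have hγ : γ ∈ maximalIdeal B := hn ▸ Ideal.mem_sup_right (Ideal.mem_span_singleton_self γ)
  induction k with
  | zero => simp [psum, hs_zero]
  | succ k ih =>
    rw [psum, Finset.sum_range_succ]
    rw [psum] at ih
    refine le_trans ?_ (add_le_add ih le_rfl)
    refine lc_toNat_le (lc_fin k) (lc_fin (k + 1)) ?_
    refine (ln_len_add (ln_mul B γ) (maximalIdeal B ^ (k + 1) : Ideal B)).le.trans (add_le_add ?_ ?_)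
    · refine colen_anti fun x hx => ?_
      change γ * x ∈ maximalIdeal B ^ (k + 1)
      rw [pow_succ']
      exact Ideal.mul_mem_mul hγ hx
    · refine le_trans (colen_anti ?_) (lc_unram φ (Ideal.span {γ}) hn.le (k + 1) _ le_rfl)
      refine sup_le_sup ?_ ?_
      · rw [Ideal.map_pow]
        exact Ideal.pow_right_mono (hn ▸ le_sup_left) _
      · rw [← ln_ism_span, ism, smul_eq_mul, Ideal.mul_top]

/-- Lower bound at a rational point: `Q = (𝔪, Y - c)`.  After the shift `Y ↦ Y + c`, `Q^k` consists of the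
polynomials whose `j`-th coefficient lies in `𝔪^(k-j)`, so `A[Y] / Q^k ≅ ∏_{j < k} A / 𝔪^(k-j)`; the residue fields
agree and `A[Y] / Q^k` is already local. -/
theorem le_hs_poly (c : A) (Q : Ideal (Polynomial A)) [Q.IsPrime]
    (hQ : Q = (maximalIdeal A).map Polynomial.C ⊔ Ideal.span {Polynomial.X - Polynomial.C c}) (k : ℕ) :
    psum (hs A) k ≤ hs (Localization.AtPrime Q) k := by
  set B := Localization.AtPrime Q with hB
  set g : Polynomial A := Polynomial.X - Polynomial.C c with hg
  let γ : B := algebraMap (Polynomial A) B g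
  have hmap : Q.map (algebraMap (Polynomial A) B) = maximalIdeal B := Localization.AtPrime.map_eq_maximalIdeal
  have hunit : ∀ y : Q.primeCompl, IsUnit (Polynomial.evalRingHom c y) := by
    rintro ⟨y, hy⟩
    by_contra h
    apply hy
    have h1 : Polynomial.eval c y ∈ maximalIdeal A := h
    obtain ⟨z, hz⟩ := Polynomial.X_sub_C_dvd_sub_C_eval (a := c) (p := y)
    have h2 : y = Polynomial.C (Polynomial.eval c y) + g * z := by rw [← hz]; ring
    rw [SetLike.mem_coe, hQ, h2]
    exact Ideal.add_mem _ (Ideal.mem_sup_left (Ideal.mem_map_of_mem _ h1))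
      (Ideal.mem_sup_right (Ideal.mul_mem_right _ _ (Ideal.mem_span_singleton_self g)))
  let ψ : B →+* A := IsLocalization.lift (M := Q.primeCompl) hunit
  have hψ : ∀ y : Polynomial A, ψ (algebraMap (Polynomial A) B y) = Polynomial.eval c y := fun y =>
    IsLocalization.lift_eq hunit y
  have hψs : Function.Surjective ψ := fun a => ⟨algebraMap (Polynomial A) B (Polynomial.C a), by simp [hψ]⟩
  have hψγ : ψ γ = 0 := by simp [γ, hψ, hg]
  have hψm : (maximalIdeal B).map ψ = maximalIdeal A := map_maximalIdeal_of_surjective ψ hψs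
  have hcol : ∀ (j : ℕ) (y : Polynomial A), g * y ∈ Q ^ (j + 1) → y ∈ Q ^ j := by
    intro j y hy
    have h6 := lc_pow_le ((maximalIdeal A).map Polynomial.C) (Ideal.span {g}) j
    rw [← hQ] at h6
    obtain ⟨p, hp, z, hz, hpz⟩ := Submodule.mem_sup.mp (h6 hy)
    obtain ⟨u, hu, rfl⟩ := Ideal.mem_span_singleton_mul.mp hz
    have hp' : g * (y - u) ∈ (maximalIdeal A ^ (j + 1)).map Polynomial.C := by
      rw [Ideal.map_pow, mul_sub, ← hpz, add_sub_cancel_right]
      exact hp
    have hker : (maximalIdeal A ^ (j + 1)).map Polynomial.C =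
        RingHom.ker (Polynomial.mapRingHom (Ideal.Quotient.mk (maximalIdeal A ^ (j + 1)))) := by
      rw [Polynomial.ker_mapRingHom, Ideal.mk_ker]
    rw [hker, RingHom.mem_ker, map_mul, Polynomial.coe_mapRingHom,
      ((Polynomial.monic_X_sub_C c).map _).mul_right_eq_zero_iff, ← Polynomial.coe_mapRingHom,
      ← RingHom.mem_ker, ← hker, Ideal.map_pow] at hp'
    have h7 : y - u ∈ Q ^ j :=
      Ideal.pow_le_pow_right (Nat.le_succ j) (Ideal.pow_right_mono (hQ ▸ le_sup_left) _ hp')
    simpa using Ideal.add_mem _ h7 hu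
  induction k with
  | zero => simp [psum, hs_zero]
  | succ k ih =>
    rw [psum, Finset.sum_range_succ]
    rw [psum] at ih
    refine le_trans (add_le_add ih le_rfl) ?_
    refine lc_le_toNat (lc_fin (k + 1)) ?_
    refine le_trans (add_le_add ?_ ?_) (ln_len_add (ln_mul B γ) (maximalIdeal B ^ (k + 1) : Ideal B)).ge
    · refine colen_anti fun x hx => ?_
      obtain ⟨y, s, rfl⟩ := IsLocalization.exists_mk'_eq Q.primeCompl x
      have hx' : γ * IsLocalization.mk' B y s ∈ maximalIdeal B ^ (k + 1) := hx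
      rw [IsLocalization.mul_mk'_eq_mk'_of_mul, ← hmap, ← Ideal.map_pow,
        IsLocalization.mk'_mem_map_algebraMap_iff] at hx'
      obtain ⟨s', hs', h⟩ := hx'
      change IsLocalization.mk' B y s ∈ maximalIdeal B ^ k
      rw [← hmap, ← Ideal.map_pow, IsLocalization.mk'_mem_map_algebraMap_iff]
      exact ⟨s', hs', hcol k _ (by rwa [mul_left_comm])⟩
    · let _ : Algebra B A := ψ.toAlgebra
      refine (colen_eq_restrict_of_surj (Λ := B) (Λ' := A) (W := A) hψs
        (maximalIdeal A ^ (k + 1) : Ideal A)).le.trans ?_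
      refine colen_le_of_surj (Algebra.linearMap B A) hψs ?_
      rw [Submodule.map_le_iff_le_comap]
      refine sup_le (fun x hx => ?_) ?_
      · change ψ x ∈ maximalIdeal A ^ (k + 1)
        rw [← hψm, ← Ideal.map_pow]
        exact Ideal.mem_map_of_mem _ hx
      · rintro _ ⟨x, rfl⟩
        change ψ (γ * x) ∈ maximalIdeal A ^ (k + 1)
        rw [map_mul, hψγ, zero_mul]
        exact Ideal.zero_mem _

theorem hs_congr {B : Type} [CommRing B] [IsLocalRing B] (e : A ≃+* B) (k : ℕ) : hs A k = hs B k := by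
  exact (hs_eq_of_flat (e : A →+* B) (RingHom.Flat.of_bijective e.bijective)
    (map_maximalIdeal_of_surjective (e : A →+* B) e.surjective) k).symm

end Crest.Agent.R183
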