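import Crest.Agent.R183.Grow

/-!
# rid 183, file `LocAux`: helper lemmas for `Loc`
-/

set_option autoImplicit false

open IsLocalRing

namespace Crest.Agent.R183

theorem lc_colen_lt {Λ : Type} [CommRing Λ] {W : Type} [AddCommGroup W] [Module Λ W]
    {U V : Submodule Λ W} (h : U < V) : colen Λ V + 1 ≤ colen Λ U := by
  rw [colen, colen, Module.length_quotient, Module.length_quotient]
  exact Order.coheight_add_one_le h

theorem lc_colen_step {B : Type} [CommRing B] [IsLocalRing B] {M : Type} [AddCommGroup M] [Module B M]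
    (N : Submodule B M) (m : M) (h : ∀ a ∈ maximalIdeal B, a • m ∈ N) :
    colen B N ≤ colen B (N ⊔ Submodule.span B {m}) + 1 := by
  rw [ln_len_add (LinearMap.toSpanSingleton B M m) N, ← LinearMap.span_singleton_eq_range, add_comm]
  refine add_le_add le_rfl ?_
  have h1 : colen B (maximalIdeal B) = 1 := by
    have : IsSimpleModule B (B ⧸ maximalIdeal B) :=
      isSimpleModule_iff_isCoatom.mpr (Ideal.isMaximal_def.mp (maximalIdeal.isMaximal B))
    exact Module.length_eq_one _ _
  rw [← h1]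
  refine colen_anti fun a ha => ?_
  simpa using h a ha

theorem lc_socle {Λ : Type} [CommRing Λ] {W : Type} [AddCommGroup W] [Module Λ W] (P : Ideal Λ) (n : ℕ)
    {U : Submodule Λ W} (hU : U ≠ ⊤) (h : ism (P ^ n) W ≤ U) : ∃ w, w ∉ U ∧ ∀ a ∈ P, a • w ∈ U := by
  induction n with
  | zero =>
    exfalso
    apply hU
    rw [pow_zero, Ideal.one_eq_top, ism, Submodule.top_smul] at h
    exact top_le_iff.mp h
  | succ n ih =>
    by_cases h' : ism (P ^ n) W ≤ U
    · exact ih h'
    · obtain ⟨w, hw, hwU⟩ := SetLike.not_le_iff_exists.mp h'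
      refine ⟨w, hwU, fun a ha => h ?_⟩
      rw [pow_succ', ism, Submodule.mul_smul]
      exact Submodule.smul_mem_smul ha hw

theorem lc_pow_le {Λ : Type} [CommRing Λ] (P J : Ideal Λ) (n : ℕ) :
    (P ⊔ J) ^ (n + 1) ≤ P ^ (n + 1) ⊔ J * (P ⊔ J) ^ n := by
  induction n with
  | zero => simp
  | succ n ih =>
    rw [pow_succ (P ⊔ J) (n + 1)]
    refine (Ideal.mul_mono_left ih).trans ?_
    rw [Ideal.sup_mul, Ideal.mul_sup, mul_assoc, ← pow_succ, ← pow_succ]
    refine sup_le (sup_le le_sup_left ?_) le_sup_right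
    refine le_sup_of_le_right ?_
    rw [mul_comm]
    exact Ideal.mul_mono_right (Ideal.pow_right_mono le_sup_left _)

theorem lc_toNat_le {a b c : ℕ∞} (hb : b ≠ ⊤) (hc : c ≠ ⊤) (h : a ≤ b + c) :
    (a.toNat : ℝ) ≤ b.toNat + c.toNat := by
  rw [← Nat.cast_add, ← ENat.toNat_add hb hc, Nat.cast_le]
  exact ENat.toNat_le_toNat h (WithTop.add_ne_top.mpr ⟨hb, hc⟩)

theorem lc_le_toNat {a b c : ℕ∞} (ha : a ≠ ⊤) (h : b + c ≤ a) :
    (b.toNat : ℝ) + c.toNat ≤ a.toNat := by
  have hb : b ≠ ⊤ := ne_top_of_le_ne_top ha (le_self_add.trans h)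
  have hc : c ≠ ⊤ := ne_top_of_le_ne_top ha (le_add_self.trans h)
  rw [← Nat.cast_add, ← ENat.toNat_add hb hc, Nat.cast_le]
  exact ENat.toNat_le_toNat h ha

variable {A : Type} [CommRing A] [IsNoetherianRing A] [IsLocalRing A]

theorem lc_fin (k : ℕ) : colen A (maximalIdeal A ^ k : Ideal A) ≠ ⊤ := by
  refine Module.length_ne_top_iff.mpr (isFiniteLength_quot (c := k) ?_)
  rw [ism, smul_eq_mul, Ideal.mul_top]

/-- The common core: `M` is a module over `A_P`, spanned by the image of a finite `A`-module `W`. -/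
theorem lc_gen (P : Ideal A) [P.IsPrime] {t : A} (ht : t ∉ P) (htm : t ∈ maximalIdeal A) (n : ℕ)
    {W : Type} [AddCommGroup W] [Module A W] [Module.Finite A W]
    {M : Type} [AddCommGroup M] [Module A M] [Module (Localization.AtPrime P) M]
    [IsScalarTower A (Localization.AtPrime P) M] (f : W →ₗ[A] M)
    (hf : Submodule.span (Localization.AtPrime P) (Set.range f) = ⊤) (U : Submodule A W)
    (hP : ism (P ^ n) W ≤ U) (hs : ∀ w, t • w ∈ U → w ∈ U) :
    colen (Localization.AtPrime P) (Submodule.span (Localization.AtPrime P) (f '' U)) ≤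
      colen A (U ⊔ ism (Ideal.span {t}) W) := by
  set B := Localization.AtPrime P with hB
  induction U using IsNoetherian.induction with
  | _ U ih =>
  by_cases hU : U = ⊤
  · subst hU
    rw [Submodule.top_coe, Set.image_univ, hf, ln_colen_top]
    exact zero_le
  obtain ⟨w, hwU, hw⟩ := lc_socle P n hU hP
  let U' : Submodule A W :=
    { carrier := {x | ∃ k : ℕ, t ^ k • x ∈ U ⊔ Submodule.span A {w}}
      add_mem' := by
        rintro x y ⟨k, hk⟩ ⟨l, hl⟩
        refine ⟨k + l, ?_⟩
        rw [smul_add]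
        refine Submodule.add_mem _ ?_ ?_
        · rw [add_comm, pow_add, mul_smul]
          exact Submodule.smul_mem _ _ hk
        · rw [pow_add, mul_smul]
          exact Submodule.smul_mem _ _ hl
      zero_mem' := ⟨0, by simp⟩
      smul_mem' := by
        rintro c x ⟨k, hk⟩
        refine ⟨k, ?_⟩
        rw [smul_comm]
        exact Submodule.smul_mem _ _ hk }
  have hle : U ≤ U' := fun x hx => ⟨0, by simpa using Submodule.mem_sup_left hx⟩
  have hw' : w ∈ U' := ⟨0, by
    simpa using Submodule.mem_sup_right (S := U) (Submodule.mem_span_singleton_self w)⟩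
  have hlt : U < U' := lt_of_le_of_ne hle fun h => hwU (h ▸ hw')
  have hs' : ∀ x, t • x ∈ U' → x ∈ U' := by
    rintro x ⟨k, hk⟩
    exact ⟨k + 1, by rwa [pow_succ, mul_smul]⟩
  have h1 := ih U' hlt (hP.trans hle) hs'
  have htu : IsUnit (algebraMap A B t) := IsLocalization.map_units B (⟨t, ht⟩ : P.primeCompl)
  have h2 : Submodule.span B (f '' U') ≤ Submodule.span B (f '' U) ⊔ Submodule.span B {f w} := by
    rw [Submodule.span_le]
    rintro _ ⟨x, ⟨k, hk⟩, rfl⟩
    obtain ⟨u, hu, z, hz, huz⟩ := Submodule.mem_sup.mp hk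
    obtain ⟨a, rfl⟩ := Submodule.mem_span_singleton.mp hz
    obtain ⟨v, hv⟩ := (htu.pow k).exists_left_inv
    have hx : f x = v • (f u + algebraMap A B a • f w) := by
      rw [algebraMap_smul, ← map_smul, ← map_add, huz, map_smul, ← algebraMap_smul B (t ^ k), smul_smul,
        map_pow, hv, one_smul]
    rw [SetLike.mem_coe, hx]
    refine Submodule.smul_mem _ _ (Submodule.add_mem _ ?_ ?_)
    · exact Submodule.mem_sup_left (Submodule.subset_span ⟨u, hu, rfl⟩)
    · exact Submodule.mem_sup_right (Submodule.smul_mem _ _ (Submodule.mem_span_singleton_self _))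
  have h3 : ∀ a ∈ maximalIdeal B, a • f w ∈ Submodule.span B (f '' U) := by
    intro a ha
    replace ha : a ∈ P.map (algebraMap A B) := by
      rw [Localization.AtPrime.map_eq_maximalIdeal]
      exact ha
    have : P.map (algebraMap A B) ≤
        (Submodule.span B (f '' U)).comap (LinearMap.toSpanSingleton B M (f w)) := by
      rw [Ideal.map_le_iff_le_comap]
      intro p hp
      rw [Ideal.mem_comap, Submodule.mem_comap, LinearMap.toSpanSingleton_apply, algebraMap_smul, ← map_smul]
      exact Submodule.subset_span ⟨_, hw p hp, rfl⟩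
    simpa using this ha
  have h4 : U ⊔ ism (Ideal.span {t}) W < U' ⊔ ism (Ideal.span {t}) W := by
    refine lt_of_le_of_ne (sup_le_sup_right hle _) fun h => ?_
    have h5 : U' ≤ U ⊔ (Ideal.span {t}) • U' := by
      intro x hx
      have hx' : x ∈ U ⊔ ism (Ideal.span {t}) W := h ▸ Submodule.mem_sup_left hx
      obtain ⟨u, hu, z, hz, huz⟩ := Submodule.mem_sup.mp hx'
      obtain ⟨y, rfl⟩ := (ln_mem_ism_span t z).mp hz
      have hy : y ∈ U' := by
        apply hs'
        have : t • y = x - u := by rw [← huz]; abel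
        rw [this]
        exact Submodule.sub_mem _ hx (hle hu)
      rw [← huz]
      exact Submodule.add_mem _ (Submodule.mem_sup_left hu)
        (Submodule.mem_sup_right (Submodule.smul_mem_smul (Ideal.mem_span_singleton_self t) hy))
    have h6 : Ideal.span {t} ≤ Ideal.jacobson (⊥ : Ideal A) :=
      ((Ideal.span_singleton_le_iff_mem _).mpr htm).trans (maximalIdeal_le_jacobson _)
    exact hwU (Submodule.le_of_le_smul_of_le_jacobson_bot (IsNoetherian.noetherian U') h6 h5 hw')
  calc colen B (Submodule.span B (f '' U))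
      ≤ colen B (Submodule.span B (f '' U) ⊔ Submodule.span B {f w}) + 1 := lc_colen_step _ _ h3
    _ ≤ colen B (Submodule.span B (f '' U')) + 1 := add_le_add (colen_anti h2) le_rfl
    _ ≤ colen A (U' ⊔ ism (Ideal.span {t}) W) + 1 := add_le_add h1 le_rfl
    _ ≤ _ := lc_colen_lt h4

/-- An unramified extension does not increase colengths. -/
theorem lc_unram {B : Type} [CommRing B] [IsLocalRing B] (φ : A →+* B) (J : Ideal B)
    (hJ : maximalIdeal B ≤ (maximalIdeal A).map φ ⊔ J) (n : ℕ) (I : Ideal A) (hI : maximalIdeal A ^ n ≤ I) :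
    colen B (I.map φ ⊔ J : Ideal B) ≤ colen A I := by
  induction I using IsNoetherian.induction with
  | _ I ih =>
  by_cases hU : I = ⊤
  · subst hU
    rw [Ideal.map_top, top_sup_eq, ln_colen_top]
    exact zero_le
  obtain ⟨w, hwU, hw⟩ := lc_socle (W := A) (maximalIdeal A) n hU
    (by rwa [ism, smul_eq_mul, Ideal.mul_top])
  have hlt : I < I ⊔ Ideal.span {w} :=
    lt_of_le_of_ne le_sup_left fun h => hwU (h ▸ Ideal.mem_sup_right (Ideal.mem_span_singleton_self w))
  have h1 := ih _ hlt (hI.trans le_sup_left)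
  have h3 : ∀ a ∈ maximalIdeal B, a • φ w ∈ (Ideal.map φ I ⊔ J : Ideal B) := by
    intro a ha
    obtain ⟨x, hx, y, hy, rfl⟩ := Submodule.mem_sup.mp (hJ ha)
    rw [smul_eq_mul, add_mul]
    refine Ideal.add_mem _ (Ideal.mem_sup_left ?_) (Ideal.mem_sup_right (Ideal.mul_mem_right _ _ hy))
    have : (maximalIdeal A).map φ ≤
        Submodule.comap (LinearMap.toSpanSingleton B B (φ w)) (Ideal.map φ I) := by
      rw [Ideal.map_le_iff_le_comap]
      intro p hp
      rw [Ideal.mem_comap, Submodule.mem_comap, LinearMap.toSpanSingleton_apply, smul_eq_mul, ← map_mul]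
      exact Ideal.mem_map_of_mem _ (hw p hp)
    simpa using this hx
  have h2 : Ideal.map φ (I ⊔ Ideal.span {w}) ⊔ J ≤ (Ideal.map φ I ⊔ J) ⊔ Submodule.span B {φ w} := by
    rw [Ideal.map_sup, Ideal.map_span, Set.image_singleton]
    exact sup_le (sup_le (le_sup_left.trans le_sup_left) le_sup_right) (le_sup_right.trans le_sup_left)
  calc colen B (Ideal.map φ I ⊔ J : Ideal B)
      ≤ colen B ((Ideal.map φ I ⊔ J : Ideal B) ⊔ Submodule.span B {φ w}) + 1 := lc_colen_step _ _ h3
    _ ≤ colen B (Ideal.map φ (I ⊔ Ideal.span {w}) ⊔ J : Ideal B) + 1 := add_le_add (colen_anti h2) le_rfl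
    _ ≤ colen A (I ⊔ Ideal.span {w} : Ideal A) + 1 := add_le_add h1 le_rfl
    _ ≤ _ := lc_colen_lt hlt

end Crest.Agent.R183
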