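import Crest.Agent.R183.Loc
import Crest.Agent.R183.KA

/-!
# rid 183, file `Step`: Hilbert–Samuel functions do not grow under localisation along a curve

Prefix helper lemmas with `st_`.
-/

set_option autoImplicit false

open IsLocalRing

namespace Crest.Agent.R183

attribute [local instance] Polynomial.algebra in
theorem st_low {A V : Type} [CommRing A] [IsNoetherianRing A] [CommRing V] [IsDomain V]
    (π : A →+* V) (P : Ideal A) [P.IsPrime] (hP : RingHom.ker π = P) (c : V) (a b : A) (hb : b ∉ P)
    (hab : π b * c = π a) (T : Type) [CommRing T] [IsLocalRing T] [Algebra (Polynomial A) T]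
    (N : Ideal (Polynomial A)) [N.IsPrime] (hN : N = RingHom.ker (Polynomial.eval₂RingHom π c))
    [IsLocalization.AtPrime T N] (k : ℕ) : psum (hs (Localization.AtPrime P)) k ≤ hs T k := by
  let L := Localization.AtPrime P
  let K := FractionRing V
  have hK : ∀ x : A, algebraMap V K (π x) = 0 ↔ x ∈ P := fun x => by
    rw [← hP, RingHom.mem_ker, map_eq_zero_iff _ (IsFractionRing.injective V K)]
  let ρ : L →+* K := IsLocalization.lift (M := P.primeCompl) (g := (algebraMap V K).comp π)
    fun y => Ne.isUnit fun h => y.2 ((hK y).1 h)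
  have hρ : ∀ x, ρ (algebraMap A L x) = algebraMap V K (π x) := fun x => IsLocalization.lift_eq _ x
  have hker : ∀ x : L, x ∈ maximalIdeal L ↔ ρ x = 0 := fun x => by
    obtain ⟨⟨u, s⟩, rfl⟩ := IsLocalization.mk'_surjective P.primeCompl x
    rw [IsLocalization.AtPrime.mk'_mem_maximal_iff L P, IsLocalization.lift_mk'_spec, mul_zero]
    exact (hK u).symm
  let c₀ : L := IsLocalization.mk' L a (⟨b, hb⟩ : P.primeCompl)
  have hc : ρ c₀ = algebraMap V K c := by
    rw [IsLocalization.lift_mk'_spec]
    simp [← hab]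
  let Q : Ideal (Polynomial L) := (maximalIdeal L).comap (Polynomial.evalRingHom c₀)
  have hQ : Q = (maximalIdeal L).map Polynomial.C ⊔
      Ideal.span {Polynomial.X - Polynomial.C c₀} := by
    have h1 : maximalIdeal L =
        ((maximalIdeal L).map Polynomial.C).map (Polynomial.evalRingHom c₀) := by
      rw [Ideal.map_map, show (Polynomial.evalRingHom c₀).comp Polynomial.C = RingHom.id L by
        ext; simp, Ideal.map_id]
    rw [← Polynomial.ker_evalRingHom, RingHom.ker_eq_comap_bot,
      ← Ideal.comap_map_of_surjective _ (fun x => ⟨Polynomial.C x, by simp⟩), ← h1]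
  have := Polynomial.isLocalization P.primeCompl L
  have h2 := IsLocalization.isLocalization_isLocalization_atPrime_isLocalization
    (P.primeCompl.map Polynomial.C) (Localization.AtPrime Q) Q
  have h3 : (Q.comap (algebraMap (Polynomial A) (Polynomial L))).primeCompl = N.primeCompl := by
    ext g
    refine not_congr ?_
    change Polynomial.eval c₀ (g.map (algebraMap A L)) ∈ maximalIdeal L ↔ g ∈ N
    rw [hN, hker, Polynomial.eval_map, Polynomial.hom_eval₂, hc, RingHom.mem_ker,
      show ρ.comp (algebraMap A L) = (algebraMap V K).comp π from RingHom.ext hρ,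
      ← Polynomial.hom_eval₂, map_eq_zero_iff _ (IsFractionRing.injective V K)]
    rfl
  have h4 : IsLocalization N.primeCompl (Localization.AtPrime Q) := h3 ▸ h2
  exact (le_hs_poly c₀ Q hQ k).trans_eq
    (hs_congr (IsLocalization.algEquiv N.primeCompl (Localization.AtPrime Q) T).toRingEquiv k)

/-- Induct on `r`.  For `r = 0`, `π` is onto, `A / P ≅ V`, and `psum_loc_le` applies with a lift of the uniformiser.
Step: let `ev : A[Y] → V`, `Y ↦ c last`, `Q = ev⁻¹ 𝔪_V` (maximal: `A[Y] / Q` is a domain integral over the residue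
field), `A' = A[Y]_Q`, `π' : A' → V`, `P' = ker π'`.  `A'_{P'}` and `(A_P[Y])_{(P, Y - a / b)}` (where
`π b * c last = π a`) are both localisations of `A[Y]` at `ker ev` (`Polynomial.isLocalization`,
`IsLocalization.isLocalization_isLocalization_atPrime_isLocalization`).  Use `le_hs_poly`, `hs_poly_le`,
`psum_iter_mono`. -/
theorem step_aux (r : ℕ) : ∀ (A V : Type) [CommRing A] [IsNoetherianRing A] [IsLocalRing A] [CommRing V]
    [IsDomain V] [IsDiscreteValuationRing V] (π : A →+* V) [IsLocalHom π] (P : Ideal A) [P.IsPrime],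
    RingHom.ker π = P → π.IsIntegral → (∀ v : V, ∃ a b : A, b ∉ P ∧ π b * v = π a) →
    ∀ c : Fin r → V, Subring.closure (Set.range π ∪ Set.range c) = ⊤ →
    ∀ k, psum^[r + 1] (hs (Localization.AtPrime P)) k ≤ psum^[r] (hs A) k := by
  induction r with
  | zero =>
    intro A V _ _ _ _ _ _ π _ P _ hP _ _ c hc k
    have hs : Function.Surjective π := fun v => by
      have h1 : v ∈ Subring.closure (Set.range π ∪ Set.range c) := hc ▸ Subring.mem_top v
      rwa [Set.range_eq_empty c, Set.union_empty, ← RingHom.coe_range, Subring.closure_eq] at h1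
    obtain ⟨ϖ, hϖ⟩ := IsDiscreteValuationRing.exists_irreducible V
    obtain ⟨t, rfl⟩ := hs ϖ
    refine psum_loc_le P (t := t) (fun h => hϖ.ne_zero ?_) ?_ k
    · rwa [← hP] at h
    · rw [← maximalIdeal_comap π, hϖ.maximalIdeal_eq, ← Set.image_singleton, ← Ideal.map_span,
        Ideal.comap_map_of_surjective π hs, sup_comm, ← hP, RingHom.ker_eq_comap_bot]
  | succ r ih =>
    intro A V _ _ _ _ _ _ π _ P _ hP hi hb c hc k
    let ev := Polynomial.eval₂RingHom π (c (Fin.last r))
    have hev : ev.comp Polynomial.C = π := by ext; simp [ev]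
    have hevi : ev.IsIntegral := RingHom.IsIntegral.tower_top Polynomial.C ev (hev ▸ hi)
    let Q := (maximalIdeal V).comap ev
    have : Q.IsMaximal := Ideal.isMaximal_comap_of_isIntegral_of_isMaximal' ev hevi _
    have hQ : Q.comap Polynomial.C = maximalIdeal A := by
      rw [Ideal.comap_comap, hev, maximalIdeal_comap]
    let A' := Localization.AtPrime Q
    let π' : A' →+* V := IsLocalization.lift (M := Q.primeCompl) (g := ev)
      fun y => notMem_maximalIdeal.1 y.2
    have hπ' : π'.comp (algebraMap _ A') = ev := IsLocalization.lift_comp _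
    have hπ : ∀ x, π' (algebraMap _ A' (Polynomial.C x)) = π x := fun x =>
      (RingHom.congr_fun hπ' _).trans (RingHom.congr_fun hev x)
    have : IsLocalHom π' := ⟨fun x hx => by
      obtain ⟨⟨u, s⟩, rfl⟩ := IsLocalization.mk'_surjective Q.primeCompl x
      rw [IsLocalization.AtPrime.isUnit_mk'_iff A' Q]
      refine notMem_maximalIdeal.2 ?_
      rw [(IsLocalization.lift_mk'_spec (S := A') (fun y => notMem_maximalIdeal.1 y.2) u _ s).1 rfl]
      exact (notMem_maximalIdeal.1 s.2).mul hx⟩
    have := RingHom.ker_isPrime π'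
    have h1 := ih A' V π' (RingHom.ker π') rfl
      (RingHom.IsIntegral.tower_top (algebraMap _ A') π' (hπ' ▸ hevi))
      (fun v => by
        obtain ⟨a, b, h1, h2⟩ := hb v
        refine ⟨algebraMap _ A' (Polynomial.C a), algebraMap _ A' (Polynomial.C b), ?_, ?_⟩
        · rwa [RingHom.mem_ker, hπ, ← RingHom.mem_ker, hP]
        · rwa [hπ, hπ])
      (fun i => c i.castSucc) (by
        rw [eq_top_iff, ← hc]
        refine Subring.closure_mono ?_
        rintro _ (⟨x, rfl⟩ | ⟨i, rfl⟩)
        · exact Or.inl ⟨_, hπ x⟩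
        · refine Fin.lastCases (Or.inl ⟨algebraMap (Polynomial A) A' Polynomial.X, ?_⟩)
            (fun i => Or.inr ⟨i, rfl⟩) i
          exact (RingHom.congr_fun hπ' _).trans (by simp [ev])) k
    obtain ⟨a, b, h2, h3⟩ := hb (c (Fin.last r))
    have h4 := IsLocalization.isLocalization_isLocalization_atPrime_isLocalization
      Q.primeCompl (Localization.AtPrime (RingHom.ker π')) (RingHom.ker π')
    rw [Function.iterate_succ_apply psum (r + 1), Function.iterate_succ_apply psum r]
    refine (psum_iter_mono (st_low π P hP _ a b h2 h3 (Localization.AtPrime (RingHom.ker π'))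
      ((RingHom.ker π').comap (algebraMap _ A')) ?_) _ k).trans
      (h1.trans (psum_iter_mono (hs_poly_le Q hQ) r k))
    rw [RingHom.comap_ker, hπ']

/-- `exists_dvr` for `S / P` (`complete_quot`). -/
theorem step_loc (S : Type) [CommRing S] [IsNoetherianRing S] [IsLocalRing S] [IsAdicComplete (maximalIdeal S) S]
    (P : Ideal S) [P.IsPrime] (hP : ringKrullDim (S ⧸ P) = (1 : ℕ)) :
    ∃ r : ℕ, ∀ k, psum^[r + 1] (hs (Localization.AtPrime P)) k ≤ psum^[r] (hs S) k := by
  have : Nontrivial (S ⧸ P) := inferInstance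
  have : IsLocalRing (S ⧸ P) := .of_surjective' (Ideal.Quotient.mk P) Ideal.Quotient.mk_surjective
  have := complete_quot P
  obtain ⟨V, hV, _, _⟩ := exists_dvr hP
  have : IsLocalHom (Ideal.Quotient.mk P) := .of_surjective _ Ideal.Quotient.mk_surjective
  obtain ⟨r, c, hc⟩ := Module.Finite.exists_fin (R := S ⧸ P) (M := V)
  have hinj : Function.Injective (algebraMap (S ⧸ P) V) := fun x y h =>
    IsFractionRing.injective (S ⧸ P) (FractionRing (S ⧸ P)) (congrArg Subtype.val h)
  refine ⟨r, step_aux r S V ((algebraMap (S ⧸ P) V).comp (Ideal.Quotient.mk P)) P ?_ ?_ ?_ c ?_⟩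
  · rw [RingHom.ker_comp_of_injective _ hinj, Ideal.mk_ker]
  · exact (RingHom.isIntegral_of_surjective _ Ideal.Quotient.mk_surjective).trans _ _
      (algebraMap_isIntegral_iff.2 inferInstance)
  · intro v
    obtain ⟨⟨x, y⟩, h⟩ := IsLocalization.surj (nonZeroDivisors (S ⧸ P)) v.1
    obtain ⟨a, ha⟩ := Ideal.Quotient.mk_surjective x
    obtain ⟨b, hb⟩ := Ideal.Quotient.mk_surjective y.1
    refine ⟨a, b, fun h1 => nonZeroDivisors.coe_ne_zero y ?_, Subtype.ext ?_⟩
    · rw [← hb, Ideal.Quotient.eq_zero_iff_mem.2 h1]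
    · rw [RingHom.comp_apply, RingHom.comp_apply, ha, hb, mul_comm]
      exact h
  · rw [eq_top_iff]
    intro v _
    have hv : v ∈ Submodule.span (S ⧸ P) (Set.range c) := hc ▸ Submodule.mem_top
    induction hv using Submodule.span_induction with
    | mem x hx => exact Subring.subset_closure (Or.inr hx)
    | zero => exact zero_mem _
    | add x y _ _ hx hy => exact add_mem (hx trivial) (hy trivial)
    | smul a x _ hx =>
      obtain ⟨a, rfl⟩ := Ideal.Quotient.mk_surjective a
      rw [Algebra.smul_def]
      exact mul_mem (Subring.subset_closure (Or.inl ⟨a, rfl⟩)) (hx trivial)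

theorem st_height {R S : Type} [CommRing R] [IsNoetherianRing R] [IsLocalRing R] [CommRing S]
    [IsNoetherianRing S] (f : R →+* S) (hf : f.Flat) (P : Ideal S) [P.IsPrime]
    (hP : (maximalIdeal R).map f ≤ P) :
    P.height = (maximalIdeal R).height +
      (P.map (Ideal.Quotient.mk ((maximalIdeal R).map f))).height := by
  algebraize [f]
  have : P.LiesOver (maximalIdeal R) := ⟨(maximalIdeal.isMaximal R).eq_of_le
    (Ideal.comap_ne_top _ Ideal.IsPrime.ne_top') (Ideal.map_le_iff_le_comap.1 hP)⟩
  exact Ideal.height_eq_height_add_of_liesOver_of_hasGoingDown _ P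

theorem st_dim {R : Type} [CommRing R] [IsLocalRing R] {d : ℕ} (h : ringKrullDim R = d) :
    (maximalIdeal R).height = d := by
  rw [← maximalIdeal_height_eq_ringKrullDim] at h
  exact_mod_cast h

theorem st_coheight {S : Type} [CommRing S] (p : PrimeSpectrum S) :
    ringKrullDim (S ⧸ p.asIdeal) = Order.coheight p := by
  rw [ringKrullDim_quotient, Order.coheight_eq_krullDim_Ici]
  rfl

/-- For a flat local map, `dim S = dim R + dim S / 𝔪 S` (`Ideal.height_eq_height_add_of_liesOver_of_hasGoingDown`).
If `dim S > dim R`, take the prime just below the top of a longest chain in `S / 𝔪 S`; the same formula for `S_P`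
gives its dimension. -/
theorem exists_curve {R S : Type} [CommRing R] [IsNoetherianRing R] [IsLocalRing R] [CommRing S]
    [IsNoetherianRing S] [IsLocalRing S] (f : R →+* S) [IsLocalHom f] (hf : f.Flat) {d δ : ℕ}
    (hR : ringKrullDim R = d) (hS : ringKrullDim S = (d + δ + 1 : ℕ)) :
    ∃ (P : Ideal S) (_ : P.IsPrime), (maximalIdeal R).map f ≤ P ∧ ringKrullDim (S ⧸ P) = (1 : ℕ) ∧
      ringKrullDim (Localization.AtPrime P) = (d + δ : ℕ) := by
  have h1 := st_height f hf (maximalIdeal S) (map_maximalIdeal_le f)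
  set J := (maximalIdeal R).map f with hJ
  have hm : ((maximalIdeal S).map (Ideal.Quotient.mk J)).IsPrime :=
    Ideal.map_isPrime_of_surjective Ideal.Quotient.mk_surjective
      (by rw [Ideal.mk_ker]; exact map_maximalIdeal_le f)
  rw [st_dim hR, st_dim hS, Nat.cast_add, Nat.cast_add, add_assoc, Nat.cast_one] at h1
  have h2 := (PrimeSpectrum.height_eq_orderHeight ⟨_, hm⟩).symm.trans
    (WithTop.add_left_cancel (ENat.natCast_ne_top d) h1).symm
  obtain ⟨-, ⟨p, hp, h3⟩, -⟩ := Order.height_eq_coe_add_one_iff.1 h2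
  let P : PrimeSpectrum S := ⟨p.asIdeal.comap (Ideal.Quotient.mk J), inferInstance⟩
  have hJP : J ≤ P.asIdeal := Ideal.mk_ker (I := J) ▸ Ideal.ker_le_comap _
  have h4 := st_height f hf P.asIdeal hJP
  have h5 : P.asIdeal.map (Ideal.Quotient.mk J) = p.asIdeal :=
    Ideal.map_comap_of_surjective _ Ideal.Quotient.mk_surjective _
  rw [h5, PrimeSpectrum.height_eq_orderHeight p, h3, st_dim hR] at h4
  refine ⟨P.asIdeal, inferInstance, hJP, ?_, ?_⟩
  · rw [st_coheight]
    have h6 : 0 < Order.coheight P := Order.coheight_pos.2 (not_isMax_of_lt (b := closedPoint S)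
      (lt_of_le_of_ne (le_maximalIdeal P.2.ne_top) fun h => hp.ne (PrimeSpectrum.ext ?_)))
    · have h7 := le_iSup (fun a : PrimeSpectrum S => Order.height a + Order.coheight a) P
      rw [← WithBot.coe_le_coe, ← Order.krullDim_eq_iSup_height_add_coheight_of_nonempty,
        ← ringKrullDim, hS, ← PrimeSpectrum.height_eq_orderHeight, h4, ← Nat.cast_add] at h7
      have h8 : ((d + δ : ℕ) : ℕ∞) + Order.coheight P ≤ (d + δ : ℕ) + 1 := by exact_mod_cast h7
      rw [le_antisymm ((ENat.add_le_add_iff_left (ENat.natCast_ne_top _)).1 h8)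
        (Order.one_le_iff_pos.2 h6)]
      rfl
    · rw [← h5, h]
      rfl
  · rw [IsLocalization.AtPrime.ringKrullDim_eq_height P.asIdeal, h4]
    rfl

theorem dim_le_of_flat {R S : Type} [CommRing R] [IsNoetherianRing R] [IsLocalRing R] [CommRing S]
    [IsNoetherianRing S] [IsLocalRing S] (f : R →+* S) [IsLocalHom f] (hf : f.Flat) :
    ringKrullDim R ≤ ringKrullDim S := by
  rw [← maximalIdeal_height_eq_ringKrullDim, ← maximalIdeal_height_eq_ringKrullDim,
    st_height f hf (maximalIdeal S) (map_maximalIdeal_le f)]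
  exact WithBot.coe_le_coe.2 le_self_add

/-- Equal dimensions: the closed fibre is zero-dimensional. -/
theorem primary_of_dim_eq {R S : Type} [CommRing R] [IsNoetherianRing R] [IsLocalRing R] [CommRing S]
    [IsNoetherianRing S] [IsLocalRing S] (f : R →+* S) [IsLocalHom f] (hf : f.Flat) {d : ℕ}
    (hR : ringKrullDim R = d) (hS : ringKrullDim S = d) :
    ∃ c : ℕ, maximalIdeal S ^ c ≤ (maximalIdeal R).map f := by
  refine Ideal.exists_pow_le_of_le_radical_of_fg ?_ (IsNoetherian.noetherian _)
  rw [Ideal.radical_eq_sInf]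
  refine le_sInf fun P ⟨h1, h2⟩ => ?_
  refine (Ideal.eq_of_le_of_height_le P (le_maximalIdeal h2.ne_top) ?_).ge
  rw [st_height f hf P h1, st_dim hR, st_dim hS]
  exact le_self_add

/-- Induct on `δ`: pass to the completion (`completion_noeth`, `completion_hs`, `completion_dim`, flat by
`AdicCompletion.flat_of_isNoetherian`), choose `P` by `exists_curve`, apply the induction hypothesis to
`R → Ŝ_P`, and use `step_loc`, `LBe.psum_iter`, `psum_iter_mono`. -/
theorem lbe_of_equidim {R : Type} [CommRing R] [IsNoetherianRing R] [IsLocalRing R] {d : ℕ}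
    (hR : ringKrullDim R = d) {E : ℝ}
    (H : ∀ (S : Type) [CommRing S] [IsNoetherianRing S] [IsLocalRing S] (f : R →+* S) [IsLocalHom f],
      f.Flat → ringKrullDim S = d → LBe (hs S) d E) (δ : ℕ) :
    ∀ (S : Type) [CommRing S] [IsNoetherianRing S] [IsLocalRing S] (f : R →+* S) [IsLocalHom f],
      f.Flat → ringKrullDim S = (d + δ : ℕ) → ∃ j : ℕ, LBe (psum^[j] (hs S)) (d + δ + j) E := by
  induction δ with
  | zero => exact fun S _ _ _ f _ hf hS => ⟨0, H S f hf hS⟩
  | succ δ ih =>
    intro S _ _ _ f _ hf hS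
    have := completion_noeth S
    let T := AdicCompletion (maximalIdeal S) S
    have hT : ringKrullDim T = (d + δ + 1 : ℕ) := (completion_dim S).trans hS
    have hf' : ((algebraMap S T).comp f).Flat :=
      hf.comp (RingHom.flat_algebraMap_iff.2 inferInstance)
    obtain ⟨P, _, h1, h2, h3⟩ := exists_curve ((algebraMap S T).comp f) hf' hR hT
    have : IsLocalHom ((algebraMap T (Localization.AtPrime P)).comp ((algebraMap S T).comp f)) := by
      refine ((local_hom_TFAE _).out 2 0).1 ?_
      rw [← Ideal.map_map, ← Localization.AtPrime.map_eq_maximalIdeal]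
      exact Ideal.map_mono h1
    obtain ⟨j, hj⟩ := ih (Localization.AtPrime P)
      ((algebraMap T (Localization.AtPrime P)).comp ((algebraMap S T).comp f))
      (hf'.comp (RingHom.flat_algebraMap_iff.2 inferInstance)) h3
    obtain ⟨r, hr⟩ := step_loc T P h2
    refine ⟨j + r, ?_⟩
    have h4 := hj.psum_iter (r + 1)
    rw [← Function.iterate_add_apply, add_comm (r + 1), Function.iterate_add_apply,
      show d + δ + j + (r + 1) = d + (δ + 1) + (j + r) by ring] at h4
    refine h4.of_le (.of_forall fun k => ?_)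
    rw [Function.iterate_add_apply psum j r, ← funext (completion_hs S)]
    exact psum_iter_mono hr j k

end Crest.Agent.R183
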