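import Crest.Agent.R183.GT
import Crest.Agent.R183.Desc
import Crest.Agent.R183.Gonf
import Crest.Agent.R183.LechS
import Crest.Agent.R183.Step

/-!
# rid 183, file `Main0`: assembling Lech's inequality from the domain case

Prefix helper lemmas with `mn_`.
-/

set_option autoImplicit false

open Filter IsLocalRing

namespace Crest.Agent.R183

variable {R : Type} [CommRing R] [IsNoetherianRing R] [IsLocalRing R]

theorem mn_zero (hR : ringKrullDim R = (0 : ℕ)) :
    Module.length R R ≠ ⊤ ∧ ∀ᶠ k : ℕ in atTop, hs R k = len R R := by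
  obtain ⟨x, -, c, hc⟩ := exists_sop hR.le
  have h0 : idl x ≤ ⊥ := ln_idl_le fun i => i.elim0
  have h1 : ∀ k ≥ c, maximalIdeal R ^ k = ⊥ := fun k hk =>
    le_bot_iff.mp ((Ideal.pow_le_pow_right hk).trans (hc.trans h0))
  refine ⟨?_, eventually_atTop.mpr ⟨c, fun k hk => ?_⟩⟩
  · have := gw_colen_pow (R := R) c
    rwa [h1 c le_rfl, ln_colen_bot] at this
  · rw [hs, h1 k hk]
    exact ln_len_congr ln_colen_bot

/-- Dimension zero: `hs` is eventually the length, and `ℓ(S) = ℓ(R) ℓ(S / 𝔪 S) ≥ ℓ(R)`. -/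
theorem equidim_zero (hR : ringKrullDim R = (0 : ℕ)) {E : ℝ} (hE : LeMult (hs R) 0 E) (S : Type) [CommRing S]
    [IsNoetherianRing S] [IsLocalRing S] (f : R →+* S) [IsLocalHom f] (hf : f.Flat)
    (hS : ringKrullDim S = (0 : ℕ)) : LBe (hs S) 0 E := by
  obtain ⟨-, h2⟩ := mn_zero hR
  obtain ⟨h3, h4⟩ := mn_zero hS
  have h5 : E ≤ len R R := hE _ fun ε hε => h2.mono fun k hk => by
    rw [hk]
    simp [hε.le]
  have h6 : len R R ≤ len S S := by
    refine ds_len_le h3 ?_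
    rw [ds_len_flat f hf]
    refine ENat.self_le_mul_right _ ?_
    have : Nontrivial (S ⧸ (maximalIdeal R).map f) :=
      Ideal.Quotient.nontrivial_iff.mpr (map_maximalIdeal_lt_top f).ne
    exact Module.length_pos.ne'
  refine fun ε hε => h4.mono fun k hk => ?_
  rw [hk]
  simp only [pow_zero, mul_one, Nat.factorial_zero, Nat.cast_one, one_mul]
  linarith

theorem mn_dim_le {S : Type} [CommRing S] [IsNoetherianRing S] [IsLocalRing S] (g : R →+* S)
    [IsLocalHom g] (hg : Unram g) {d : ℕ} (h : ringKrullDim R ≤ d) : ringKrullDim S ≤ d := by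
  obtain ⟨x, hx⟩ := exists_sop h
  exact dim_le_of_sop (hx.map g (c := 1) (by rw [pow_one, hg]))

/-- Replace `S` by `S1 = Tr S (Fin 1)` (flat, unramified, Noetherian, infinite residue field, same `hs`, dimension
`≤ d + 1` by `Sop.map`).  Take `R'` from `exists_gonf` (dimension `≤ d + 1` by `Sop.map`, infinite residue field by
`AlgInd.infinite`), `LowB R'` from `lowB_of_domainCase`, `z, ρ` from `lech_limit`, and systems from `sys_exists`:
`b0 (E - ε) T^(d+1) ≤ zl ≤ b0 (ρ + ε) T^(d+1)`, so `E ≤ ρ`. -/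
theorem equidim_succ {d : ℕ} (H : DomainCase d) (hR : ringKrullDim R = (d + 1 : ℕ)) {E : ℝ}
    (hE : LeMult (hs R) (d + 1) E) (S : Type) [CommRing S] [IsNoetherianRing S] [IsLocalRing S] (f : R →+* S)
    [IsLocalHom f] (hf : f.Flat) (hS : ringKrullDim S = (d + 1 : ℕ)) : LBe (hs S) (d + 1) E := by
  have := tr_noeth S (Fin 1)
  have := tr_infinite S (Fin 1)
  have := trC_local S (Fin 1)
  have hg := trC_unram S (Fin 1)
  obtain ⟨c, hc⟩ := primary_of_dim_eq f hf hR hS
  have hc1 : maximalIdeal (Tr S (Fin 1)) ^ c ≤ (maximalIdeal R).map ((trC S (Fin 1)).comp f) := by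
    rw [← hg, ← Ideal.map_pow, ← Ideal.map_map]
    exact Ideal.map_mono hc
  obtain ⟨z, ρ, ⟨hz, N0, hN⟩, h1, h2⟩ :=
    lech_limit (Tr S (Fin 1)) (Nat.succ_pos d) (mn_dim_le _ hg hS.le)
  rw [funext (hs_eq_of_flat _ (trC_flat S (Fin 1)) hg)] at h1
  refine h1.mono (le_of_forall_pos_le_add fun ε hε => ?_)
  obtain ⟨R', _, _, _, _, ψ, τ, _, _, hψ, hτ, h3⟩ := exists_gonf R
  have := tr_inf hτ 0
  rw [← funext h3] at hE
  obtain ⟨T0, hT0⟩ := lowB_of_domainCase H (mn_dim_le ψ hψ hR.le) hE N0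
    (len (Tr S (Fin 1)) (Tr S (Fin 1) ⧸ (maximalIdeal R).map ((trC S (Fin 1)).comp f))) (ε / 2)
    (half_pos hε)
  obtain ⟨T, hT1, hT2, hT3⟩ :=
    ((h2 (ε / 2) (half_pos hε)).and ((eventually_ge_atTop T0).and (eventually_gt_atTop 0))).exists
  obtain ⟨M0, hM0⟩ := hT0 T hT2
  obtain ⟨r, Sy, s1, s2, s3⟩ := sys_exists ((trC S (Fin 1)).comp f) (hf.comp (trC_flat S (Fin 1)))
    hc1 ψ hψ τ hτ z hz hN (Nat.succ_pos M0)
  have h4 := (hM0 _ (Nat.le_succ M0) r Sy s2).trans ((s3 T).trans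
    (mul_le_mul_of_nonneg_left hT1 (zero_le_one.trans s1)))
  rw [mul_assoc] at h4
  have h5 := le_of_mul_le_mul_right (le_of_mul_le_mul_left h4 (zero_lt_one.trans_le s1))
    (by positivity)
  linarith

/-- `dim_le_of_flat`, `lbe_of_equidim`, `UBe.psum_iter`, `LBe.le_of_ube`. -/
theorem lech_of_domainCase (H : ∀ d, DomainCase d) (S : Type) [CommRing S] [IsNoetherianRing S] [IsLocalRing S]
    (f : R →+* S) (hf : IsLocalHom f) (hflat : f.Flat) (d d' : ℕ) (hd : ringKrullDim R = d)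
    (hd' : ringKrullDim S = d') (e e' : ℝ)
    (he : Tendsto (fun N : ℕ => (Nat.factorial d : ℝ) *
        ((Module.length R (R ⧸ maximalIdeal R ^ N)).toNat : ℝ) / (N : ℝ) ^ d) atTop (nhds e))
    (he' : Tendsto (fun N : ℕ => (Nat.factorial d' : ℝ) *
        ((Module.length S (S ⧸ maximalIdeal S ^ N)).toNat : ℝ) / (N : ℝ) ^ d') atTop (nhds e')) :
    e ≤ e' := by
  have h1 := dim_le_of_flat f hflat
  rw [hd, hd'] at h1
  obtain ⟨δ, rfl⟩ := Nat.exists_eq_add_of_le (show d ≤ d' by exact_mod_cast h1)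
  have h2 : LeMult (hs R) d e := (lbe_of_tendsto (h := hs R) he).leMult
  obtain ⟨j, hj⟩ := lbe_of_equidim hd (E := e) (fun S _ _ _ f _ hf hS => by
    cases d with
    | zero => exact equidim_zero hd h2 S f hf hS
    | succ d => exact equidim_succ (H d) hd h2 S f hf hS) δ S f hflat hd'
  exact hj.le_of_ube ((ube_of_tendsto (h := hs S) he').psum_iter j)

end Crest.Agent.R183
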