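import Crest.Agent.R183.Kos
import Crest.Agent.R183.PH

/-!
# rid 183, file `MinD`: the minimal model of a Koszul complex, in matrix form

Prefix helper lemmas with `md_`.
-/

set_option autoImplicit false

open IsLocalRing

namespace Crest.Agent.R183

/-- A finite free complex with null-homotopies of the `c j` and a map from `R^r / Z` to `H_0`. -/
structure CxData (R : Type) [CommRing R] {d r e : ℕ} (Z : Fin d → Matrix (Fin r) (Fin r) R) (c : Fin e → R) where
  ι : Type
  [fin : Fintype ι]
  [dec : DecidableEq ι]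
  deg : ι → ℕ
  deg_le : ∀ a, deg a ≤ d
  D : Matrix ι ι R
  D_deg : ∀ a b, deg b ≠ deg a + 1 → D a b = 0
  D_sq : D * D = 0
  H : Fin e → Matrix ι ι R
  H_spec : ∀ j, D * H j + H j * D = c j • (1 : Matrix ι ι R)
  π0 : Matrix ι (Fin r) R
  σ0 : Matrix (Fin r) ι R
  π1 : Fin d → Matrix ι (Fin r) R
  πσ : π0 * σ0 = Matrix.diagonal fun a => if deg a = 0 then (1 : R) else 0
  πZ : ∀ j, π0 * Z j = D * π1 j
  euler : ∑ a, (-1 : ℤ) ^ deg a = 0

attribute [instance] CxData.fin CxData.dec

/-- A finite free complex, homotopy equivalent to the Koszul complex of `Z` as far as `H_0` and the null-homotopies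
of the `c j` are concerned. -/
structure MinData (R : Type) [CommRing R] {d r e : ℕ} (Z : Fin d → Matrix (Fin r) (Fin r) R) (c : Fin e → R)
    extends CxData R Z c where
  σ_deg : ∀ i a, deg a ≠ 0 → σ0 i a = 0
  σD : ∃ ζ : Fin d → Matrix (Fin r) ι R, σ0 * D = ∑ j, Z j * ζ j
  surj : ∃ (θ : Matrix ι (Fin r) R) (η : Fin d → Matrix (Fin r) (Fin r) R), σ0 * θ + ∑ j, Z j * η j = 1

variable {R : Type} [CommRing R] {d r e : ℕ} {Z : Fin d → Matrix (Fin r) (Fin r) R} {c : Fin e → R}

/-- The Koszul complex, `ι = Finset (Fin d) × Fin r`: the matrices of `kosD`, `kosH` for `z j = (Z j).mulVecLin`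
(`exists_kos`, `kosD_kosH`); `∑_I (-1)^|I| = 0` for `d > 0`. -/
theorem exists_minData_kos (hd : 0 < d) (hZ : ∀ i j, Z i * Z j = Z j * Z i)
    (H : Fin e → Fin d → Matrix (Fin r) (Fin r) R) (hH : ∀ i j l, Z i * H j l = H j l * Z i)
    (hc : ∀ j, c j • (1 : Matrix (Fin r) (Fin r) R) = ∑ l, Z l * H j l) :
    ∃ m : MinData R Z c, Fintype.card m.ι = 2 ^ d * r := by
  classical
  let z : Fin d → Module.End R (Fin r → R) := fun j => (Z j).mulVecLin
  have hz : ∀ i j, Commute (z i) (z j) := fun i j => by
    show (Z i).mulVecLin ∘ₗ (Z j).mulVecLin = (Z j).mulVecLin ∘ₗ (Z i).mulVecLin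
    rw [← Matrix.mulVecLin_mul, ← Matrix.mulVecLin_mul, hZ]
  let h : Fin e → Fin d → Module.End R (Fin r → R) := fun j l => (H j l).mulVecLin
  have hzh : ∀ j i l, Commute (z i) (h j l) := fun j i l => by
    show (Z i).mulVecLin ∘ₗ (H j l).mulVecLin = (H j l).mulVecLin ∘ₗ (Z i).mulVecLin
    rw [← Matrix.mulVecLin_mul, ← Matrix.mulVecLin_mul, hH]
  have hs : ∀ j, c j • (1 : Module.End R (Fin r → R)) = ∑ l, z l * h j l := fun j => by
    refine LinearMap.ext fun w => ?_
    have h1 := congrArg (fun A : Matrix (Fin r) (Fin r) R => A.mulVec w) (hc j)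
    simp only [Matrix.smul_mulVec, Matrix.one_mulVec, Matrix.sum_mulVec, ← Matrix.mulVec_mulVec] at h1
    simpa [LinearMap.sum_apply, z, h] using h1
  obtain ⟨C, -, hCD⟩ := exists_kos z hz
  have hDD : kosD z * kosD z = 0 := by rw [← hCD]; exact C.D_sq
  let b0 : Module.Basis (Fin r) R (Fin r → R) := Pi.basisFun R (Fin r)
  let b : Module.Basis (Σ _ : Finset (Fin d), Fin r) R (Finset (Fin d) → Fin r → R) :=
    Pi.basis fun _ => b0
  have hb : ∀ x : (Σ _ : Finset (Fin d), Fin r), b x = Pi.single x.1 (Pi.single x.2 1) := fun x => by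
    simp [b, b0]
  have hbr : ∀ (w : Finset (Fin d) → Fin r → R) (x : (Σ _ : Finset (Fin d), Fin r)),
      b.repr w x = w x.1 x.2 := fun w x => by
    simp [b, b0]
  have hZm : ∀ j, LinearMap.toMatrix b0 b0 (z j) = Z j := fun j => by
    ext i k
    simp [LinearMap.toMatrix_apply, b0, z]
  let sg : Finset (Fin d) → (Fin r → R) →ₗ[R] (Finset (Fin d) → Fin r → R) := fun I =>
    LinearMap.single R (fun _ => Fin r → R) I
  let pj : Finset (Fin d) → (Finset (Fin d) → Fin r → R) →ₗ[R] (Fin r → R) := fun I =>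
    LinearMap.proj I
  have hsg : ∀ I w, sg I w = Pi.single I w := fun I w => rfl
  have hpj : ∀ I w, pj I w = w I := fun I w => rfl
  refine ⟨{ ι := (Σ _ : Finset (Fin d), Fin r)
            deg := fun x => x.1.card
            deg_le := fun x => by simpa using Finset.card_le_univ x.1
            D := LinearMap.toMatrix b b (kosD z)
            D_deg := ?_
            D_sq := ?_
            H := fun j => LinearMap.toMatrix b b (kosH (h j))
            H_spec := ?_
            π0 := LinearMap.toMatrix b0 b (sg ∅)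
            σ0 := LinearMap.toMatrix b b0 (pj ∅)
            π1 := fun j => LinearMap.toMatrix b0 b (sg {j})
            πσ := ?_
            πZ := ?_
            euler := ?_
            σ_deg := ?_
            σD := ?_
            surj := ?_ }, ?_⟩
  · intro x y hxy
    rw [LinearMap.toMatrix_apply, hbr, hb, ks_D_apply, Finset.sum_apply]
    refine Finset.sum_eq_zero fun j hj => ?_
    rw [Pi.single_eq_of_ne, map_zero, smul_zero, Pi.zero_apply]
    intro h1
    apply hxy
    show y.1.card = x.1.card + 1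
    rw [← h1, Finset.card_insert_of_notMem (Finset.mem_compl.1 hj)]
  · rw [← LinearMap.toMatrix_mul, hDD, map_zero]
  · intro j
    rw [← LinearMap.toMatrix_mul, ← LinearMap.toMatrix_mul, ← map_add, kosD_kosH z (h j) (hzh j) (c j) (hs j),
      map_smul, LinearMap.toMatrix_one]
  · rw [← LinearMap.toMatrix_comp]
    ext x y
    rw [LinearMap.toMatrix_apply, hbr, hb, LinearMap.comp_apply, hpj, hsg, Matrix.diagonal_apply]
    obtain ⟨I, i⟩ := x
    obtain ⟨J, k⟩ := y
    by_cases hI : I = ∅
    · subst hI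
      by_cases hJ : J = ∅
      · subst hJ
        simp [Pi.single_apply]
      · have : (∅ : Finset (Fin d)) ≠ J := fun h => hJ h.symm
        simp [Pi.single_apply, hJ, this]
    · simp [Pi.single_apply, hI]
  · intro j
    rw [← hZm j, ← LinearMap.toMatrix_comp, ← LinearMap.toMatrix_comp]
    congr 1
    refine LinearMap.ext fun w => funext fun I => ?_
    rw [LinearMap.comp_apply, LinearMap.comp_apply, hsg, hsg, ks_D_apply]
    by_cases hI : I = ∅
    · subst hI
      rw [Pi.single_eq_same, Finset.sum_eq_single j]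
      · rw [ks_sgn_empty, one_smul, Finset.insert_empty, Pi.single_eq_same]
      · intro k _ hk
        rw [Pi.single_eq_of_ne, map_zero, smul_zero]
        rw [Finset.insert_empty]
        exact fun h => hk (Finset.singleton_injective h)
      · intro h1
        exact absurd (by simp) h1
    · rw [Pi.single_eq_of_ne hI]
      symm
      refine Finset.sum_eq_zero fun k hk => ?_
      rw [Pi.single_eq_of_ne, map_zero, smul_zero]
      intro h1
      have h2 := congrArg Finset.card h1
      rw [Finset.card_insert_of_notMem (Finset.mem_compl.1 hk), Finset.card_singleton] at h2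
      exact hI (Finset.card_eq_zero.1 (by omega))
  · rw [Fintype.sum_sigma]
    simp only [Finset.sum_const, Finset.card_univ, Fintype.card_fin, nsmul_eq_mul]
    rw [← Finset.mul_sum]
    have h1 := Finset.sum_powerset_neg_one_pow_card_of_nonempty
      (x := (Finset.univ : Finset (Fin d))) ⟨⟨0, hd⟩, Finset.mem_univ _⟩
    rw [Finset.powerset_univ] at h1
    rw [h1, mul_zero]
  · intro i x hx
    show LinearMap.toMatrix b b0 (pj ∅) i x = 0
    have hx' : (∅ : Finset (Fin d)) ≠ x.1 := fun h1 => hx (by show x.1.card = 0; rw [← h1]; rfl)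
    rw [LinearMap.toMatrix_apply, hb, hpj, Pi.single_eq_of_ne hx', map_zero, Finsupp.zero_apply]
  · refine ⟨fun j => LinearMap.toMatrix b b0 (pj {j}), ?_⟩
    show LinearMap.toMatrix b b0 (pj ∅) * LinearMap.toMatrix b b (kosD z) = _
    simp only [← hZm, ← LinearMap.toMatrix_comp]
    rw [← map_sum]
    congr 1
    refine LinearMap.ext fun w => ?_
    rw [LinearMap.comp_apply, hpj, ks_D_apply, LinearMap.sum_apply, Finset.compl_empty]
    refine Finset.sum_congr rfl fun j _ => ?_
    rw [ks_sgn_empty, one_smul, Finset.insert_empty, LinearMap.comp_apply, hpj]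
  · refine ⟨LinearMap.toMatrix b0 b (sg ∅), fun _ => 0, ?_⟩
    simp only [Matrix.mul_zero, Finset.sum_const_zero, add_zero]
    rw [← LinearMap.toMatrix_comp, ← LinearMap.toMatrix_one b0]
    congr 1
  · show Fintype.card (Σ _ : Finset (Fin d), Fin r) = _
    simp [Fintype.card_sigma]

/-- Gaussian elimination of a unit entry `u = D a b`.  On `ι' = {x // x ≠ a ∧ x ≠ b}` put
`π = [1 | -D_{· b} u⁻¹ at column a | 0 at column b]`, `σ = [1 ; 0 at row a ; -u⁻¹ D_{a ·} at row b]`, `D' = π D σ`.
Then `π σ = 1`, `π D = D' π`, `D σ = σ D'`, `σ π = 1 - D h - h D` with `h = u⁻¹ E_{b a}`, and `π`, `σ` preserve degrees.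
Take `H' = π H σ`, `π0' = π π0`, `σ0' = σ0 σ`, `π1' = π π1`. -/
theorem MinData.elim (m : MinData R Z c) {a b : m.ι} (hu : IsUnit (m.D a b)) [Nontrivial R] :
    ∃ m' : MinData R Z c, Fintype.card m'.ι < Fintype.card m.ι := by
  classical
  obtain ⟨v, hv⟩ := hu.exists_right_inv
  have hdeg : m.deg b = m.deg a + 1 := by
    by_contra h
    exact hu.ne_zero (m.D_deg a b h)
  have hab : a ≠ b := fun h => by rw [h] at hdeg; omega
  let ι' := {x : m.ι // x ≠ a ∧ x ≠ b}
  let D := m.D
  let h : Matrix m.ι m.ι R := Matrix.single b a v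
  let inc : Matrix m.ι ι' R := fun x y => if x = y.1 then 1 else 0
  let pr : Matrix ι' m.ι R := fun y x => if y.1 = x then 1 else 0
  have hpr : ∀ {κ : Type} (A : Matrix m.ι κ R) (y : ι') (k : κ), (pr * A) y k = A y.1 k := by
    intro κ A y k
    simp [Matrix.mul_apply, pr]
  have hinc : ∀ {κ : Type} (A : Matrix κ m.ι R) (y : ι') (k : κ), (A * inc) k y = A k y.1 := by
    intro κ A y k
    simp [Matrix.mul_apply, inc]
  have hAh : ∀ {κ : Type} (A : Matrix κ m.ι R) (k : κ) (x : m.ι),
      (A * h) k x = if x = a then A k b * v else 0 := by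
    intro κ A k x
    rw [Matrix.mul_apply, Finset.sum_eq_single b]
    · simp only [h, Matrix.single_apply, true_and]
      by_cases hx : x = a
      · simp [hx]
      · rw [if_neg (fun h1 => hx h1.symm), if_neg hx, mul_zero]
    · intro y _ hy
      simp only [h, Matrix.single_apply]
      rw [if_neg (fun h1 => hy h1.1.symm), mul_zero]
    · intro h1
      exact absurd (Finset.mem_univ _) h1
  have hhA : ∀ {κ : Type} (A : Matrix m.ι κ R) (x : m.ι) (k : κ),
      (h * A) x k = if x = b then v * A a k else 0 := by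
    intro κ A x k
    rw [Matrix.mul_apply, Finset.sum_eq_single a]
    · simp only [h, Matrix.single_apply, and_true]
      by_cases hx : x = b
      · simp [hx]
      · rw [if_neg (fun h1 => hx h1.symm), if_neg hx, zero_mul]
    · intro y _ hy
      simp only [h, Matrix.single_apply]
      rw [if_neg (fun h1 => hy h1.2.symm), zero_mul]
    · intro h1
      exact absurd (Finset.mem_univ _) h1
  have hDD : D * D = 0 := m.D_sq
  have hprinc : pr * inc = 1 := by
    ext x y
    rw [hpr, Matrix.one_apply]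
    simp only [inc, Subtype.val_inj]
  have hprh : pr * h = 0 := by
    ext x y
    rw [hpr, Matrix.zero_apply]
    simp only [h, Matrix.single_apply]
    rw [if_neg (fun h1 => x.2.2 h1.1.symm)]
  have hhinc : h * inc = 0 := by
    ext x y
    rw [hinc, Matrix.zero_apply]
    simp only [h, Matrix.single_apply]
    rw [if_neg (fun h1 => y.2.1 h1.2.symm)]
  have hhh : h * h = 0 := by
    ext x y
    rw [hhA, Matrix.zero_apply]
    simp only [h, Matrix.single_apply]
    rw [if_neg (fun h1 : b = a ∧ a = y => hab h1.1.symm), mul_zero, ite_self]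
  have hDh : h * D * h = h := by
    ext x y
    rw [hAh, hhA]
    simp only [h, Matrix.single_apply]
    by_cases hx : x = b
    · by_cases hy : y = a
      · rw [if_pos hy, if_pos hx, if_pos ⟨hx.symm, hy.symm⟩, mul_assoc]
        show v * (m.D a b * v) = v
        rw [hv, mul_one]
      · rw [if_neg hy, if_neg (fun h1 => hy h1.2.symm)]
    · rw [if_neg hx, zero_mul, ite_self, if_neg (fun h1 => hx h1.1.symm)]
  have hip : inc * pr = 1 - Matrix.single a a 1 - Matrix.single b b 1 := by
    ext x y
    rw [Matrix.mul_apply, Matrix.sub_apply, Matrix.sub_apply, Matrix.one_apply, Matrix.single_apply,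
      Matrix.single_apply]
    by_cases hx : x ≠ a ∧ x ≠ b
    · rw [Finset.sum_eq_single (⟨x, hx⟩ : ι')]
      · simp only [inc, pr, if_true, one_mul]
        rw [if_neg (fun h1 : a = x ∧ a = y => hx.1 h1.1.symm),
          if_neg (fun h1 : b = x ∧ b = y => hx.2 h1.1.symm), sub_zero, sub_zero]
      · intro w _ hw
        simp only [inc]
        rw [if_neg (fun h1 => hw (Subtype.ext h1.symm)), zero_mul]
      · intro h1
        exact absurd (Finset.mem_univ _) h1
    · rw [Finset.sum_eq_zero]
      · rcases not_and_or.1 hx with h1 | h1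
        · have h2 : x = a := not_not.1 h1
          subst h2
          rw [if_neg (fun h1 : b = x ∧ b = y => hab h1.1.symm)]
          simp
        · have h2 : x = b := not_not.1 h1
          subst h2
          rw [if_neg (fun h1 : a = x ∧ a = y => hab h1.1)]
          simp
      · intro w _
        simp only [inc]
        rw [if_neg (fun h1 : x = w.1 => hx (h1 ▸ w.2)), zero_mul]
  have hEa : Matrix.single a a (1 : R) * (1 - D * h) = 0 := by
    ext x y
    rw [Matrix.mul_apply, Finset.sum_eq_single a]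
    · rw [Matrix.sub_apply, hAh, Matrix.one_apply, Matrix.zero_apply]
      by_cases hy : y = a
      · rw [if_pos hy, if_pos hy.symm]
        show _ * (1 - m.D a b * v) = 0
        rw [hv, sub_self, mul_zero]
      · rw [if_neg hy, if_neg (fun h1 => hy h1.symm), sub_self, mul_zero]
    · intro w _ hw
      rw [Matrix.single_apply, if_neg (fun h1 => hw h1.2.symm), zero_mul]
    · intro h1
      exact absurd (Finset.mem_univ _) h1
  have hEb : (1 - h * D) * Matrix.single b b (1 : R) = 0 := by
    ext x y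
    rw [Matrix.mul_apply, Finset.sum_eq_single b]
    · rw [Matrix.sub_apply, hhA, Matrix.one_apply, Matrix.zero_apply]
      by_cases hx : x = b
      · rw [if_pos hx, if_pos hx]
        show (1 - v * m.D a b) * _ = 0
        rw [mul_comm v, hv, sub_self, zero_mul]
      · rw [if_neg hx, if_neg hx, sub_self, zero_mul]
    · intro w _ hw
      rw [Matrix.single_apply, if_neg (fun h1 => hw h1.1.symm), mul_zero]
    · intro h1
      exact absurd (Finset.mem_univ _) h1
  let π : Matrix ι' m.ι R := pr * (1 - D * h)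
  let σ : Matrix m.ι ι' R := (1 - h * D) * inc
  have hπσ : π * σ = 1 := by
    have h1 : (1 - D * h) * (1 - h * D) = 1 - D * h - h * D := by
      have : D * h * (h * D) = D * (h * h) * D := by simp only [Matrix.mul_assoc]
      rw [sub_mul, mul_sub, mul_sub, this, hhh]
      simp only [mul_one, one_mul, mul_zero, zero_mul]
      abel
    have h2 : π * σ = pr * ((1 - D * h) * (1 - h * D)) * inc := by
      simp only [π, σ, Matrix.mul_assoc]
    rw [h2, h1, Matrix.mul_sub, Matrix.mul_sub, Matrix.sub_mul, Matrix.sub_mul, Matrix.mul_one, hprinc,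
      ← Matrix.mul_assoc pr h D, hprh, Matrix.mul_assoc pr, Matrix.mul_assoc D, hhinc]
    simp
  have hσπ : σ * π = 1 - h * D - D * h := by
    have h2 : σ * π = (1 - h * D) * (inc * pr) * (1 - D * h) := by
      simp only [π, σ, Matrix.mul_assoc]
    have h3 : h * D * (D * h) = h * (D * D) * h := by simp only [Matrix.mul_assoc]
    rw [h2, hip, mul_sub (1 - h * D), hEb, sub_zero, mul_assoc, sub_mul (1 : Matrix m.ι m.ι R) (Matrix.single a a 1), hEa,
      sub_zero, one_mul, sub_mul, mul_sub, mul_sub, h3, hDD]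
    simp only [mul_one, one_mul, mul_zero, zero_mul]
    abel
  have hπD : π * D * σ * π = π * D := by
    have h1 : (1 - D * h) * D * (1 - h * D - D * h) = (1 - D * h) * D := by
      have e1 : D * h * D * (h * D) = D * (h * D * h) * D := by simp only [Matrix.mul_assoc]
      have e2 : D * h * D * (D * h) = D * h * (D * D) * h := by simp only [Matrix.mul_assoc]
      have e3 : D * (D * h) = D * D * h := by simp only [Matrix.mul_assoc]
      have e4 : D * (h * D) = D * h * D := by simp only [Matrix.mul_assoc]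
      simp only [sub_mul, mul_sub, mul_one, one_mul, e1, e2, e3, e4, hDh, hDD, mul_zero, zero_mul]
      abel
    rw [Matrix.mul_assoc (π * D), hσπ]
    simp only [π, Matrix.mul_assoc pr]
    rw [h1]
  have hDσ : σ * (π * D * σ) = D * σ := by
    have h1 : (1 - h * D - D * h) * D * (1 - h * D) = D * (1 - h * D) := by
      have e1 : D * h * D * (h * D) = D * (h * D * h) * D := by simp only [Matrix.mul_assoc]
      have e2 : h * D * D = h * (D * D) := by simp only [Matrix.mul_assoc]
      have e4 : D * (h * D) = D * h * D := by simp only [Matrix.mul_assoc]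
      simp only [sub_mul, mul_sub, mul_one, one_mul, e1, e2, e4, hDh, hDD, mul_zero, zero_mul]
      abel
    rw [← Matrix.mul_assoc, ← Matrix.mul_assoc, ← Matrix.mul_assoc, hσπ]
    simp only [σ, ← Matrix.mul_assoc]
    rw [h1]
  have hD' : ∀ x y : ι', (π * D * σ) x y = D x.1 y.1 - D x.1 b * v * D a y.1 := by
    intro x y
    have h1 : (1 - D * h) * D * (1 - h * D) = D - D * h * D := by
      have e1 : D * h * D * (h * D) = D * (h * D * h) * D := by simp only [Matrix.mul_assoc]
      have e4 : D * (h * D) = D * h * D := by simp only [Matrix.mul_assoc]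
      simp only [sub_mul, mul_sub, mul_one, one_mul, e1, e4, hDh]
      abel
    have h2 : π * D * σ = pr * ((1 - D * h) * D * (1 - h * D)) * inc := by
      simp only [π, σ, Matrix.mul_assoc]
    rw [h2, h1, hinc, hpr, Matrix.sub_apply, Matrix.mul_assoc, Matrix.mul_apply, Finset.sum_eq_single b]
    · rw [hhA, if_pos rfl, mul_assoc]
    · intro w _ hw
      rw [hhA, if_neg hw, mul_zero]
    · intro h1
      exact absurd (Finset.mem_univ _) h1
  have hσ0h : m.σ0 * h = 0 := by
    ext i x
    rw [hAh, m.σ_deg i b (by omega), zero_mul, ite_self, Matrix.zero_apply]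
  have hπE : π * (Matrix.diagonal fun x => if m.deg x = 0 then (1 : R) else 0) =
      (Matrix.diagonal fun x : ι' => if m.deg x.1 = 0 then (1 : R) else 0) * π := by
    ext x y
    rw [Matrix.mul_diagonal, Matrix.diagonal_mul]
    by_cases hxy : m.deg x.1 = m.deg y
    · rw [hxy, mul_comm]
    · have : π x y = 0 := by
        simp only [π]
        rw [hpr, Matrix.sub_apply, hAh, Matrix.one_apply, if_neg (fun h1 => hxy (by rw [h1]))]
        split_ifs with hy
        · rw [show D x.1 b = 0 from m.D_deg _ _ (by rw [hy] at hxy; omega), zero_mul, sub_zero]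
        · rw [sub_zero]
      rw [this, zero_mul, mul_zero]
  obtain ⟨ζ, hζ⟩ := m.σD
  obtain ⟨θ, η, hθ⟩ := m.surj
  refine ⟨{ ι := ι'
            deg := fun x => m.deg x.1
            deg_le := fun x => m.deg_le x.1
            D := π * D * σ
            D_deg := ?_
            D_sq := ?_
            H := fun j => π * m.H j * σ
            H_spec := ?_
            π0 := π * m.π0
            σ0 := m.σ0 * σ
            π1 := fun j => π * m.π1 j
            πσ := ?_
            πZ := ?_
            euler := ?_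
            σ_deg := ?_
            σD := ?_
            surj := ?_ }, ?_⟩
  · intro x y hxy
    rw [hD', show D x.1 y.1 = 0 from m.D_deg _ _ hxy]
    by_cases h1 : m.deg b = m.deg x.1 + 1
    · rw [show D a y.1 = 0 from m.D_deg _ _ (by omega), mul_zero, sub_zero]
    · rw [show D x.1 b = 0 from m.D_deg _ _ h1, zero_mul, zero_mul, sub_zero]
  · have h1 : π * D * σ * (π * D * σ) = π * D * σ * π * D * σ := by simp only [Matrix.mul_assoc]
    rw [h1, hπD, Matrix.mul_assoc π, hDD]
    simp
  · intro j
    have h1 : π * D * σ * (π * m.H j * σ) = π * D * σ * π * m.H j * σ := by simp only [Matrix.mul_assoc]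
    have h2 : π * m.H j * σ * (π * D * σ) = π * m.H j * (σ * (π * D * σ)) := by
      simp only [Matrix.mul_assoc]
    have h3 : π * D * m.H j * σ + π * m.H j * (D * σ) = π * (D * m.H j + m.H j * D) * σ := by
      simp only [Matrix.mul_assoc, Matrix.mul_add, Matrix.add_mul]
    rw [h1, h2, hπD, hDσ, h3, show D * m.H j + m.H j * D = c j • 1 from m.H_spec j, Matrix.mul_smul,
      Matrix.mul_one, Matrix.smul_mul, hπσ]
  · have h1 : π * m.π0 * (m.σ0 * σ) = π * (m.π0 * m.σ0) * σ := by simp only [Matrix.mul_assoc]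
    rw [h1, m.πσ, hπE, Matrix.mul_assoc, hπσ, Matrix.mul_one]
  · intro j
    rw [Matrix.mul_assoc, m.πZ, ← Matrix.mul_assoc, ← Matrix.mul_assoc, hπD]
  · have h1 := m.euler
    have h2 : ∑ x : ι', (-1 : ℤ) ^ m.deg x.1 =
        ∑ x ∈ (Finset.univ.erase a).erase b, (-1 : ℤ) ^ m.deg x := by
      symm
      refine Finset.sum_subtype _ (fun x => ?_) _
      simp [and_comm]
    rw [← Finset.add_sum_erase _ _ (Finset.mem_univ a), ← Finset.add_sum_erase _ _
      (Finset.mem_erase.2 ⟨hab.symm, Finset.mem_univ b⟩), hdeg, pow_succ] at h1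
    show ∑ x : ι', (-1 : ℤ) ^ m.deg x.1 = 0
    rw [h2]
    linarith
  · intro i x hx
    show (m.σ0 * σ) i x = 0
    simp only [σ]
    rw [← Matrix.mul_assoc, Matrix.mul_sub, ← Matrix.mul_assoc, hσ0h, Matrix.zero_mul, sub_zero,
      Matrix.mul_one, hinc]
    exact m.σ_deg i x.1 hx
  · refine ⟨fun j => ζ j * σ, ?_⟩
    show m.σ0 * σ * (π * D * σ) = _
    rw [Matrix.mul_assoc, hDσ, ← Matrix.mul_assoc, show m.σ0 * D = _ from hζ, Matrix.sum_mul]
    simp only [Matrix.mul_assoc]
  · refine ⟨π * θ, fun j => ζ j * h * θ + η j, ?_⟩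
    show m.σ0 * σ * (π * θ) + _ = _
    have h1 : m.σ0 * σ * (π * θ) = m.σ0 * (σ * π) * θ := by simp only [Matrix.mul_assoc]
    have h2 : ∑ j, Z j * (ζ j * h * θ + η j) = m.σ0 * D * h * θ + ∑ j, Z j * η j := by
      rw [show m.σ0 * D = _ from hζ, Matrix.sum_mul, Matrix.sum_mul, ← Finset.sum_add_distrib]
      simp only [Matrix.mul_add, Matrix.mul_assoc]
    rw [h1, h2, hσπ, ← hθ, Matrix.mul_sub, Matrix.mul_sub, ← Matrix.mul_assoc, hσ0h, Matrix.zero_mul,
      sub_zero, Matrix.mul_one, Matrix.sub_mul, ← Matrix.mul_assoc]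
    abel
  · exact Fintype.card_subtype_lt (x := a) (fun h1 => h1.1 rfl)

theorem MinData.exists_min [IsLocalRing R] (m : MinData R Z c) :
    ∃ m' : MinData R Z c, Fintype.card m'.ι ≤ Fintype.card m.ι ∧ ∀ a b, m'.D a b ∈ maximalIdeal R := by
  induction' hn : Fintype.card m.ι using Nat.strong_induction_on with n ih generalizing m
  by_cases h : ∀ a b, m.D a b ∈ maximalIdeal R
  · exact ⟨m, hn.le, h⟩
  · push Not at h
    obtain ⟨a, b, hab⟩ := h
    have hu : IsUnit (m.D a b) := by
      by_contra h1
      exact hab ((mem_maximalIdeal _).2 h1)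
    obtain ⟨m1, hm1⟩ := m.elim hu
    obtain ⟨m2, hm2, hm3⟩ := ih _ (hn ▸ hm1) m1 rfl
    exact ⟨m2, by omega, hm3⟩

/-- `R^r / (Z, 𝔪)` is a quotient of `k^{degree 0}`. -/
theorem MinData.colen_le [IsLocalRing R] (m : MinData R Z c) :
    colen R (zsub R Z 1 ⊔ ism (maximalIdeal R) (Fin r → R)) ≤
      ((Finset.univ.filter fun a => m.deg a = 0).card : ℕ) := by
  classical
  set U : Submodule R (Fin r → R) := zsub R Z 1 ⊔ ism (maximalIdeal R) (Fin r → R) with hU
  let ι0 := {a : m.ι // m.deg a = 0}
  let g : ι0 → (Fin r → R) ⧸ U := fun a => U.mkQ fun i => m.σ0 i a.1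
  have hg : ∀ a, maximalIdeal R ≤ LinearMap.ker (LinearMap.toSpanSingleton R _ (g a)) := by
    intro a x hx
    rw [LinearMap.mem_ker, LinearMap.toSpanSingleton_apply, ← map_smul, Submodule.mkQ_apply,
      Submodule.Quotient.mk_eq_zero]
    exact Submodule.mem_sup_right (Submodule.smul_mem_smul hx trivial)
  let f : (ι0 → R ⧸ maximalIdeal R) →ₗ[R] (Fin r → R) ⧸ U :=
    ∑ a, (Submodule.liftQ (maximalIdeal R) (LinearMap.toSpanSingleton R _ (g a)) (hg a)).comp
      (LinearMap.proj a)
  have hf : Function.Surjective f := by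
    intro q
    obtain ⟨w, rfl⟩ := U.mkQ_surjective q
    obtain ⟨θ, η, hθ⟩ := m.surj
    refine ⟨fun a => Submodule.Quotient.mk (θ.mulVec w a.1), ?_⟩
    have h1 : f (fun a => Submodule.Quotient.mk (θ.mulVec w a.1)) =
        U.mkQ (∑ a : ι0, θ.mulVec w a.1 • fun i => m.σ0 i a.1) := by
      simp only [f, LinearMap.sum_apply, LinearMap.comp_apply, LinearMap.proj_apply,
        Submodule.liftQ_apply, LinearMap.toSpanSingleton_apply, map_sum, map_smul, g]
    have h2 : (∑ a : ι0, θ.mulVec w a.1 • fun i => m.σ0 i a.1) = m.σ0.mulVec (θ.mulVec w) := by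
      funext i
      rw [Finset.sum_apply, Matrix.mulVec, dotProduct,
        ← Finset.sum_filter_add_sum_filter_not Finset.univ (fun a => m.deg a = 0),
        Finset.sum_eq_zero (s := Finset.univ.filter fun a => ¬ m.deg a = 0)
          (fun a ha => by rw [m.σ_deg i a (Finset.mem_filter.1 ha).2, zero_mul]), add_zero,
        Finset.sum_subtype (p := fun a => m.deg a = 0) _ (fun a => by simp)]
      refine Finset.sum_congr rfl fun a _ => ?_
      rw [Pi.smul_apply, smul_eq_mul, mul_comm]
    have h3 : w = m.σ0.mulVec (θ.mulVec w) + ∑ j, (Z j).mulVec ((η j).mulVec w) := by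
      have := congrArg (fun A : Matrix (Fin r) (Fin r) R => A.mulVec w) hθ
      simpa only [Matrix.add_mulVec, Matrix.sum_mulVec, Matrix.one_mulVec, ← Matrix.mulVec_mulVec]
        using this.symm
    rw [h1, h2, Submodule.mkQ_apply, Submodule.mkQ_apply, Submodule.Quotient.eq]
    have h4 : m.σ0.mulVec (θ.mulVec w) - w = -∑ j, (Z j).mulVec ((η j).mulVec w) := by
      conv_lhs => rw [h3]
      rw [← h3]
      conv_lhs => enter [2]; rw [h3]
      abel
    rw [h4]
    refine neg_mem (Submodule.sum_mem _ fun j _ => Submodule.mem_sup_left ?_)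
    refine Submodule.mem_iSup_of_mem j ⟨(η j).mulVec w, ?_⟩
    simp
  refine (Module.length_le_of_surjective f hf).trans (le_of_eq ?_)
  have hsimp : IsSimpleModule R (R ⧸ maximalIdeal R) :=
    isSimpleModule_iff_isCoatom.2 (Ideal.isMaximal_def.1 (maximalIdeal.isMaximal R))
  rw [Module.length_pi_of_fintype]
  simp only [Module.length_eq_one, Finset.sum_const, Finset.card_univ, nsmul_eq_mul, mul_one]
  rw [Fintype.card_subtype]

/-- Push a complex along a partial homomorphism defined on all entries (`PHom.mat_mul`, …). -/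
theorem CxData.exists_finset (C : CxData R Z c) : ∃ F : Finset R, ∀ (B : Type) [CommRing B] (φ : PHom R B),
    (∀ a ∈ F, a ∈ φ.dom) → ∃ C' : CxData B (fun j => (Z j).map φ.toFun) (fun j => φ.toFun (c j)),
      ∃ e : C'.ι ≃ C.ι, (∀ a, C'.deg a = C.deg (e a)) ∧ ∀ a b, C'.D a b = φ.toFun (C.D (e a) (e b)) := by
  classical
  let S : Set R := (Set.range fun p : C.ι × C.ι => C.D p.1 p.2) ∪
    (Set.range fun p : Fin e × C.ι × C.ι => C.H p.1 p.2.1 p.2.2) ∪
    (Set.range fun p : C.ι × Fin r => C.π0 p.1 p.2) ∪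
    (Set.range fun p : Fin r × C.ι => C.σ0 p.1 p.2) ∪
    (Set.range fun p : Fin d × C.ι × Fin r => C.π1 p.1 p.2.1 p.2.2) ∪
    (Set.range fun p : Fin d × Fin r × Fin r => Z p.1 p.2.1 p.2.2) ∪ Set.range c
  have hS : S.Finite := by
    refine Set.Finite.union (Set.Finite.union (Set.Finite.union (Set.Finite.union (Set.Finite.union
      (Set.Finite.union ?_ ?_) ?_) ?_) ?_) ?_) ?_ <;> exact Set.finite_range _
  refine ⟨hS.toFinset, fun B _ φ hφ => ?_⟩
  have hφ' : ∀ a ∈ S, a ∈ φ.dom := fun a ha => hφ a (hS.mem_toFinset.2 ha)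
  have hD : φ.MDom C.D := fun i j => hφ' _
    (Or.inl (Or.inl (Or.inl (Or.inl (Or.inl (Or.inl ⟨(i, j), rfl⟩))))))
  have hH : ∀ l, φ.MDom (C.H l) := fun l i j => hφ' _
    (Or.inl (Or.inl (Or.inl (Or.inl (Or.inl (Or.inr ⟨(l, i, j), rfl⟩))))))
  have hπ0 : φ.MDom C.π0 := fun i j => hφ' _
    (Or.inl (Or.inl (Or.inl (Or.inl (Or.inr ⟨(i, j), rfl⟩)))))
  have hσ0 : φ.MDom C.σ0 := fun i j => hφ' _
    (Or.inl (Or.inl (Or.inl (Or.inr ⟨(i, j), rfl⟩))))
  have hπ1 : ∀ l, φ.MDom (C.π1 l) := fun l i j => hφ' _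
    (Or.inl (Or.inl (Or.inr ⟨(l, i, j), rfl⟩)))
  have hZ : ∀ l, φ.MDom (Z l) := fun l i j => hφ' _ (Or.inl (Or.inr ⟨(l, i, j), rfl⟩))
  have hc : ∀ l, c l ∈ φ.dom := fun l => hφ' _ (Or.inr ⟨l, rfl⟩)
  refine ⟨{ ι := C.ι
            deg := C.deg
            deg_le := C.deg_le
            D := C.D.map φ.toFun
            D_deg := ?_
            D_sq := ?_
            H := fun j => (C.H j).map φ.toFun
            H_spec := ?_
            π0 := C.π0.map φ.toFun
            σ0 := C.σ0.map φ.toFun
            π1 := fun j => (C.π1 j).map φ.toFun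
            πσ := ?_
            πZ := ?_
            euler := C.euler }, Equiv.refl _, fun a => rfl, fun a b => rfl⟩
  · intro a b hab
    rw [Matrix.map_apply, C.D_deg a b hab, φ.map_zero]
  · rw [← PHom.mat_mul hD hD, C.D_sq, PHom.mat_zero]
  · intro j
    rw [← PHom.mat_mul hD (hH j), ← PHom.mat_mul (hH j) hD,
      ← PHom.mat_add (hD.mul (hH j)) ((hH j).mul hD), C.H_spec, PHom.mat_smul PHom.mdom_one (hc j),
      PHom.mat_one]
  · rw [← PHom.mat_mul hπ0 hσ0, C.πσ, Matrix.diagonal_map φ.map_zero]
    congr 1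
    funext a
    split_ifs
    · exact φ.map_one
    · exact φ.map_zero
  · intro j
    rw [← PHom.mat_mul hπ0 (hZ j), C.πZ, PHom.mat_mul hD (hπ1 j)]

end Crest.Agent.R183
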