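import Crest.Agent.R183.L2

/-!
# rid 183, file `MonoA`: the monomial Čech model

`UU m` are the exponents of the Laurent monomials `λ^a v_1^{b_1} ⋯ v_m^{b_m}`; `y_i` is identified with
`λ e_i(v)` (`YY i`).  `EE m P` is the total space of `P ⊗ (Čech cube)`.  Prefix helper lemmas with `ma_`.
-/

set_option autoImplicit false

open Submodule

namespace Crest.Agent.R183

/-- Exponents `(a, b)` of `λ^a v^b`. -/
abbrev UU (m : ℕ) : Type := ℤ × (Fin m → ℤ)

/-- The exponent of `λ v^I`. -/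
def gam {m : ℕ} (I : Finset (Fin m)) : UU m := (1, fun j => if j ∈ I then 1 else 0)

abbrev FF (m : ℕ) (P : Type) [AddCommGroup P] : Type := UU m →₀ P

abbrev EE (m : ℕ) (P : Type) [AddCommGroup P] : Type := Finset (Fin m) → FF m P

/-- Stable under multiplication by all `λ v^I`. -/
def Stable {m : ℕ} (A : Set (UU m)) : Prop := ∀ u ∈ A, ∀ I : Finset (Fin m), u + gam I ∈ A

section ops

variable (Λ : Type) [CommRing Λ] {m : ℕ} (P : Type) [AddCommGroup P] [Module Λ P]

/-- Multiplication by a monomial. -/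
noncomputable def sh (u : UU m) : Module.End Λ (FF m P) := Finsupp.lmapDomain P Λ (fun w => w + u)

/-- Multiplication by `λ e_i(v)`. -/
noncomputable def YY (i : Fin (m + 1)) : Module.End Λ (FF m P) :=
  ∑ I ∈ Finset.powersetCard (i : ℕ) (Finset.univ : Finset (Fin m)), sh Λ P (gam I)

/-- Elements supported on `A`. -/
def supp (A : Set (UU m)) : Submodule Λ (FF m P) := Finsupp.supported P Λ A

variable {Λ} in
/-- The relations of `P ⊗_{ℤ[y]} (ℤ[A] / ℤ[A'])`. -/
noncomputable def Rel (y : Fin (m + 1) → Λ) (A A' : Set (UU m)) : Submodule Λ (FF m P) :=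
  supp Λ P A' ⊔ ⨆ i, (supp Λ P A).map (y i • (1 : Module.End Λ (FF m P)) - YY Λ P i)

variable {Λ P}

/-- An endomorphism of `P` acting on coefficients. -/
noncomputable def onF (m : ℕ) (f : Module.End Λ P) : Module.End Λ (FF m P) :=
  Finsupp.mapRange.linearMap f

/-- An endomorphism of `FF` acting on every component. -/
noncomputable def onE (f : Module.End Λ (FF m P)) : Module.End Λ (EE m P) :=
  LinearMap.compLeft f (Finset (Fin m))

variable (Λ P) in
/-- The Čech differential. -/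
noncomputable def cech : Module.End Λ (EE m P) :=
  LinearMap.pi fun I : Finset (Fin m) => ∑ j ∈ I,
    ((-1 : Λ) ^ (I.filter (· < j)).card) • (LinearMap.proj (I.erase j) : EE m P →ₗ[Λ] FF m P)

variable (C : Cx Λ (m + 1) P)

/-- The sign `(-1)^i` on `P_i`. -/
noncomputable def Cx.sgn : Module.End Λ P := ∑ i ∈ Finset.range (m + 2), ((-1 : Λ) ^ i) • C.p i

/-- The total differential. -/
noncomputable def mdel : Module.End Λ (EE m P) :=
  onE (onF m C.D) + onE (onF m C.sgn) * cech Λ P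

/-- The projection to total degree `j = i - #I`. -/
noncomputable def mπ (j : ℤ) : Module.End Λ (EE m P) :=
  LinearMap.pi fun I : Finset (Fin m) =>
    if 0 ≤ j + I.card then (onF m (C.p (j + I.card).toNat)).comp (LinearMap.proj I) else 0

theorem ma_onF_apply (f : Module.End Λ P) (x : FF m P) (u : UU m) : onF m f x u = f (x u) := rfl

theorem ma_onF_mul (f g : Module.End Λ P) : onF m (f * g) = onF m f * onF m g := by
  ext1
  refine LinearMap.ext fun x => Finsupp.ext fun u => rfl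

theorem ma_onF_zero : onF m (0 : Module.End Λ P) = 0 :=
  LinearMap.ext fun _ => Finsupp.ext fun _ => rfl

theorem ma_onF_one : onF m (1 : Module.End Λ P) = 1 :=
  LinearMap.ext fun _ => Finsupp.ext fun _ => rfl

theorem ma_onF_add (f g : Module.End Λ P) : onF m (f + g) = onF m f + onF m g :=
  LinearMap.ext fun _ => Finsupp.ext fun _ => rfl

theorem ma_onF_sum {ι : Type} (s : Finset ι) (f : ι → Module.End Λ P) :
    onF m (∑ i ∈ s, f i) = ∑ i ∈ s, onF m (f i) := by
  classical
  induction s using Finset.induction_on with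
  | empty => rw [Finset.sum_empty, Finset.sum_empty, ma_onF_zero]
  | insert a s ha ih => rw [Finset.sum_insert ha, Finset.sum_insert ha, ma_onF_add, ih]

theorem ma_onE_apply (f : Module.End Λ (FF m P)) (x : EE m P) (I : Finset (Fin m)) :
    onE f x I = f (x I) := rfl

theorem ma_onE_mul (f g : Module.End Λ (FF m P)) : onE (f * g) = onE f * onE g := rfl

theorem ma_onE_add (f g : Module.End Λ (FF m P)) : onE (f + g) = onE f + onE g := rfl

theorem ma_onE_zero : onE (0 : Module.End Λ (FF m P)) = 0 := rfl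

theorem ma_cech_apply (x : EE m P) (I : Finset (Fin m)) :
    cech Λ P x I = ∑ j ∈ I, ((-1 : Λ) ^ (I.filter (· < j)).card) • x (I.erase j) := by
  simp [cech]

theorem ma_cech_onE (f : Module.End Λ (FF m P)) : cech Λ P * onE f = onE f * cech Λ P := by
  refine LinearMap.ext fun x => funext fun I => ?_
  simp only [Module.End.mul_apply, ma_onE_apply, ma_cech_apply, map_sum, map_smul]

theorem ma_sign {I : Finset (Fin m)} {j k : Fin m} (hj : j ∈ I) (hjk : j < k) :
    (-1 : Λ) ^ (I.filter (· < j)).card * (-1) ^ ((I.erase j).filter (· < k)).card +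
      (-1) ^ (I.filter (· < k)).card * (-1) ^ ((I.erase k).filter (· < j)).card = 0 := by
  have e1 : (I.erase k).filter (· < j) = I.filter (· < j) := by
    rw [Finset.filter_erase, Finset.erase_eq_of_notMem]
    simp only [Finset.mem_filter, not_and, not_lt]
    exact fun _ => hjk.le
  have e2 : (I.filter (· < k)).card = ((I.erase j).filter (· < k)).card + 1 := by
    rw [Finset.filter_erase, Finset.card_erase_add_one (Finset.mem_filter.2 ⟨hj, hjk⟩)]
  rw [e1, e2, pow_succ]
  ring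

theorem ma_cech_sq : cech Λ P * cech Λ P = (0 : Module.End Λ (EE m P)) := by
  refine LinearMap.ext fun x => funext fun I => ?_
  simp only [Module.End.mul_apply, ma_cech_apply, Finset.smul_sum, smul_smul, LinearMap.zero_apply,
    Pi.zero_apply]
  rw [Finset.sum_sigma']
  refine Finset.sum_involution (fun p _ => ⟨p.2, p.1⟩) (fun p hp => ?_) (fun p hp _ h => ?_)
    (fun p hp => ?_) fun _ _ => rfl
  · rw [Finset.mem_sigma, Finset.mem_erase] at hp
    dsimp only
    rw [Finset.erase_right_comm (a := p.2), ← add_smul]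
    rcases lt_or_gt_of_ne hp.2.1 with h | h
    · rw [add_comm, ma_sign hp.2.2 h, zero_smul]
    · rw [ma_sign hp.1 h, zero_smul]
  · rw [Finset.mem_sigma, Finset.mem_erase] at hp
    exact hp.2.1 (congrArg Sigma.fst h)
  · rw [Finset.mem_sigma, Finset.mem_erase] at hp ⊢
    exact ⟨hp.2.2, hp.2.1.symm, hp.1⟩

theorem ma_p_eq_zero {i : ℕ} (hi : m + 1 < i) : C.p i = 0 := by
  rw [← mul_one (C.p i), ← C.p_sum, Finset.mul_sum]
  refine Finset.sum_eq_zero fun k hk => ?_
  rw [Finset.mem_range] at hk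
  rw [C.p_mul, if_neg (by omega)]

/-- The projections indexed by integers. -/
noncomputable def ma_pz (k : ℤ) : Module.End Λ P := if 0 ≤ k then C.p k.toNat else 0

theorem ma_mπ_apply (j : ℤ) (x : EE m P) (I : Finset (Fin m)) :
    mπ C j x I = onF m (ma_pz C (j + I.card)) (x I) := by
  unfold mπ ma_pz
  rw [LinearMap.pi_apply]
  split_ifs
  · rfl
  · rw [ma_onF_zero]
    rfl

theorem ma_pz_mul (i j : ℤ) : ma_pz C i * ma_pz C j = if i = j then ma_pz C i else 0 := by
  unfold ma_pz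
  by_cases hi : 0 ≤ i
  · by_cases hj : 0 ≤ j
    · rw [if_pos hi, if_pos hj, C.p_mul]
      exact if_congr (by omega) rfl rfl
    · rw [if_neg hj, mul_zero, if_neg (by omega)]
  · rw [if_neg hi, zero_mul, ite_self]

theorem ma_D_pz (k : ℤ) : C.D * ma_pz C (k + 1) = ma_pz C k * C.D := by
  unfold ma_pz
  by_cases hk : 0 ≤ k
  · rw [if_pos hk, if_pos (by omega), show (k + 1).toNat = k.toNat + 1 by omega, C.D_p]
  · rw [if_neg hk, zero_mul]
    split_ifs with h
    · rw [show (k + 1).toNat = 0 by omega, C.D_p0]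
    · rw [mul_zero]

theorem ma_sgn_p (k : ℕ) : C.sgn * C.p k = C.p k * C.sgn := by
  unfold Cx.sgn
  rw [Finset.sum_mul, Finset.mul_sum]
  refine Finset.sum_congr rfl fun i _ => ?_
  rw [smul_mul_assoc, mul_smul_comm, C.p_mul, C.p_mul]
  by_cases h : i = k
  · rw [h]
  · rw [if_neg h, if_neg (Ne.symm h)]

theorem ma_sgn_pz (k : ℤ) : C.sgn * ma_pz C k = ma_pz C k * C.sgn := by
  unfold ma_pz
  split_ifs
  · exact ma_sgn_p C _
  · rw [mul_zero, zero_mul]

theorem ma_D_sgn : C.D * C.sgn + C.sgn * C.D = 0 := by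
  unfold Cx.sgn
  rw [Finset.mul_sum, Finset.sum_mul, Finset.sum_range_succ', Finset.sum_range_succ (n := m + 1)]
  simp only [smul_mul_assoc, mul_smul_comm, C.D_p0, C.D_p]
  rw [← C.D_p (m + 1), ma_p_eq_zero C (by omega : m + 1 < m + 1 + 1), mul_zero, smul_zero,
    smul_zero, add_zero, add_zero, ← Finset.sum_add_distrib]
  refine Finset.sum_eq_zero fun i _ => ?_
  rw [← add_smul, pow_succ, mul_neg_one, neg_add_cancel, zero_smul]

theorem ma_pz_sum {c : ℕ} (hc : c ≤ m) :
    ∑ j ∈ Finset.Icc (-(m : ℤ)) (m + 1), ma_pz C (j + c) = 1 := by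
  rw [← C.p_sum]
  symm
  refine Finset.sum_bij_ne_zero (fun i _ _ => (i : ℤ) - c) (fun i hi _ => ?_)
    (fun i _ _ j _ _ h => by omega) (fun j hj h => ?_) fun i _ _ => ?_
  · rw [Finset.mem_range] at hi
    rw [Finset.mem_Icc]
    omega
  · unfold ma_pz at h
    by_cases h0 : 0 ≤ j + c
    · rw [if_pos h0] at h
      refine ⟨(j + c).toNat, ?_, h, by omega⟩
      rw [Finset.mem_range]
      by_contra hlt
      exact h (ma_p_eq_zero C (by omega))
    · exact (h (if_neg h0)).elim
  · unfold ma_pz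
    rw [sub_add_cancel, if_pos (by omega), Int.toNat_natCast]

theorem mπ_mul (i j : ℤ) : mπ C i * mπ C j = if i = j then mπ C i else 0 := by
  refine LinearMap.ext fun x => funext fun I => ?_
  rw [Module.End.mul_apply, ma_mπ_apply, ma_mπ_apply, ← Module.End.mul_apply, ← ma_onF_mul,
    ma_pz_mul]
  by_cases h : i = j
  · rw [if_pos h, if_pos (by rw [h]), ma_mπ_apply]
  · rw [if_neg h, if_neg (by omega), ma_onF_zero]
    rfl

/-- `C.p i = 0` for `i > m + 1` (multiply `p_sum` by `p i`). -/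
theorem mπ_sum : ∑ j ∈ Finset.Icc (-(m : ℤ)) (m + 1), mπ C j = 1 := by
  refine LinearMap.ext fun x => funext fun I => ?_
  rw [LinearMap.sum_apply, Finset.sum_apply]
  simp only [ma_mπ_apply]
  rw [← LinearMap.sum_apply, ← ma_onF_sum, ma_pz_sum C (by simpa using I.card_le_univ), ma_onF_one]
  rfl

/-- `D sgn + sgn D = 0` (note `p (m+1) * D = D * p (m+2) = 0`), `cech` commutes with `onE _`, and
`cech * cech = 0` (the terms `(j, j')` and `(j', j)` cancel). -/
theorem mdel_sq : mdel C * mdel C = 0 := by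
  have h1 : onE (onF m C.D) * onE (onF m C.D) = 0 := by
    rw [← ma_onE_mul, ← ma_onF_mul, C.D_sq, ma_onF_zero, ma_onE_zero]
  have h2 : onE (onF m C.D) * onE (onF m C.sgn) + onE (onF m C.sgn) * onE (onF m C.D) = 0 := by
    rw [← ma_onE_mul, ← ma_onE_mul, ← ma_onF_mul, ← ma_onF_mul, ← ma_onE_add, ← ma_onF_add,
      ma_D_sgn, ma_onF_zero, ma_onE_zero]
  have h3 := ma_cech_onE (onF m C.D)
  have h4 := ma_cech_onE (onF m C.sgn)
  have h5 := ma_cech_sq (Λ := Λ) (m := m) (P := P)
  unfold mdel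
  generalize onE (onF m C.D) = A at *
  generalize onE (onF m C.sgn) = S at *
  generalize cech Λ P = K at *
  calc (A + S * K) * (A + S * K) = A * A + (A * S * K + S * (K * A)) + S * (K * S) * K := by
        noncomm_ring
    _ = A * A + (A * S + S * A) * K + S * S * (K * K) := by
        rw [h3, h4]
        noncomm_ring
    _ = 0 := by rw [h1, h2, h5, zero_mul, mul_zero, add_zero, add_zero]

theorem mdel_π (j : ℤ) : mdel C * mπ C (j + 1) = mπ C j * mdel C := by
  refine LinearMap.ext fun x => funext fun I => ?_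
  simp only [mdel, Module.End.mul_apply, LinearMap.add_apply, Pi.add_apply, ma_onE_apply,
    ma_cech_apply, ma_mπ_apply, map_add, map_sum, map_smul]
  congr 1
  · rw [← Module.End.mul_apply, ← ma_onF_mul, add_right_comm, ma_D_pz, ma_onF_mul,
      Module.End.mul_apply]
  · refine Finset.sum_congr rfl fun k hk => ?_
    have := Finset.card_erase_add_one hk
    rw [show j + 1 + ((I.erase k).card : ℤ) = j + I.card by omega, ← Module.End.mul_apply,
      ← ma_onF_mul, ma_sgn_pz, ma_onF_mul, Module.End.mul_apply]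

/-- The total complex. -/
noncomputable def monoDG : DG Λ (EE m P) where
  del := mdel C
  π := mπ C
  lo := -m
  hi := m + 1
  π_mul := mπ_mul C
  π_sum := mπ_sum C
  del_sq := mdel_sq C
  del_π := mdel_π C

end ops

/-- For each vertex `I` of the cube a pair of monomial sets `A2 I ⊆ A1 I`. -/
structure Shape (m : ℕ) where
  A1 : Finset (Fin m) → Set (UU m)
  A2 : Finset (Fin m) → Set (UU m)
  bot : ℤ
  sub : ∀ I, A2 I ⊆ A1 I
  st1 : ∀ I, Stable (A1 I)
  st2 : ∀ I, Stable (A2 I)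
  mono1 : ∀ I j, A1 I ⊆ A1 (insert j I)
  mono2 : ∀ I j, A2 I ⊆ A2 (insert j I)
  bdd : ∀ I, ∀ u ∈ A1 I, bot ≤ u.1
  fin : ∀ I a, {u | u ∈ A1 I ∧ u ∉ A2 I ∧ u.1 = a}.Finite

/-- Families of monomial sets indexed by the degree `i` in `P` and the vertex `I`. -/
abbrev Fam (m : ℕ) : Type := ℕ → Finset (Fin m) → Set (UU m)

namespace Shape

variable {m : ℕ} (s : Shape m)

/-- Families defining subcomplexes. -/
structure Closed (q : ℕ) (S : Fam m) : Prop where
  lo : ∀ i I, s.A2 I ⊆ S i I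
  hi : ∀ i I, S i I ⊆ s.A1 I
  st : ∀ i I, Stable (S i I)
  mono : ∀ i I j, S i I ⊆ S i (insert j I)
  dcl : ∀ i I, ∀ u ∈ S (i + 1) I, ∀ l : Fin q → Finset (Fin m), u + ∑ k, gam (l k) ∈ S i I

/-- The staircase family. -/
def stair (ι : ℕ → ℤ) : Fam m := fun i I => {u | u ∈ s.A1 I ∧ ι i ≤ u.1} ∪ s.A2 I

variable {Λ : Type} [CommRing Λ] {P : Type} [AddCommGroup P] [Module Λ P]
  (C : Cx Λ (m + 1) P) (y : Fin (m + 1) → Λ)

/-- The submodule of `EE` attached to a family. -/
noncomputable def U (S : Fam m) : Submodule Λ (EE m P) :=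
  ⨅ I, (supp Λ P (s.A1 I) ⊓ ⨅ i, (supp Λ P (S i I) ⊔ Rel P y (s.A1 I) (s.A2 I)).comap
    (onF m (C.p i))).comap (LinearMap.proj I : EE m P →ₗ[Λ] FF m P)

/-- The `λ`-adic filtration. -/
noncomputable def Fil (a : ℤ) : Submodule Λ (EE m P) := s.U C y (s.stair fun _ => a)

end Shape

section box

variable {m : ℕ}

/-- Monomials of the vertex `I`: exponent of `v_j` at most `g j + a`, and nonnegative for `j ∉ I`. -/
def boxA1 (g : Fin m → ℤ) (Pt : Finset (Fin m)) (bot : ℤ) (I : Finset (Fin m)) : Set (UU m) :=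
  {u | Pt ⊆ I ∧ bot ≤ u.1 ∧ (∀ j, u.2 j - u.1 ≤ g j) ∧ ∀ j, j ∉ I → 0 ≤ u.2 j}

/-- Monomials killed at the vertex `I`. -/
def boxA2 (c g : Fin m → ℤ) (Pt : Finset (Fin m)) (bot : ℤ) (I : Finset (Fin m)) : Set (UU m) :=
  {u | u ∈ boxA1 g Pt bot I ∧ ∃ j ∈ I, u.2 j - u.1 ≤ c j}

theorem boxA1_stable (g : Fin m → ℤ) (Pt : Finset (Fin m)) (bot : ℤ) (I : Finset (Fin m)) :
    Stable (boxA1 g Pt bot I) := by
  rintro u ⟨h1, h2, h3, h4⟩ J
  refine ⟨h1, ?_, fun j => ?_, fun j hj => ?_⟩
  · simp only [gam, Prod.fst_add]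
    omega
  · have := h3 j
    simp only [gam, Prod.fst_add, Prod.snd_add, Pi.add_apply]
    split_ifs <;> omega
  · have := h4 j hj
    simp only [gam, Prod.snd_add, Pi.add_apply]
    split_ifs <;> omega

theorem boxA2_stable (c g : Fin m → ℤ) (Pt : Finset (Fin m)) (bot : ℤ) (I : Finset (Fin m)) :
    Stable (boxA2 c g Pt bot I) := by
  rintro u ⟨h1, j, hj, h2⟩ J
  refine ⟨boxA1_stable g Pt bot I u h1 J, j, hj, ?_⟩
  simp only [gam, Prod.fst_add, Prod.snd_add, Pi.add_apply]
  split_ifs <;> omega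

theorem box_fin (c g : Fin m → ℤ) (Pt : Finset (Fin m)) (bot : ℤ) (I : Finset (Fin m)) (a : ℤ) :
    {u | u ∈ boxA1 g Pt bot I ∧ u ∉ boxA2 c g Pt bot I ∧ u.1 = a}.Finite := by
  refine ((Set.Finite.pi' fun j => Set.finite_Icc (min 0 (c j + a)) (g j + a)).image
    fun b => ((a, b) : UU m)).subset ?_
  rintro u ⟨h1, h2, rfl⟩
  refine ⟨u.2, fun j => ⟨?_, ?_⟩, rfl⟩
  · by_cases hj : j ∈ I
    · by_contra hlt
      exact h2 ⟨h1, j, hj, by omega⟩
    · have := h1.2.2.2 j hj
      omega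
  · have := h1.2.2.1 j
    omega

/-- The finite Čech model of the line bundle `O(c)`, truncated at `g`; the factors in `Pt` only carry
the second chart. -/
def box (c g : Fin m → ℤ) (Pt : Finset (Fin m)) (bot : ℤ) : Shape m where
  A1 := boxA1 g Pt bot
  A2 := boxA2 c g Pt bot
  bot := bot
  sub := fun _ _ hu => hu.1
  st1 := boxA1_stable g Pt bot
  st2 := boxA2_stable c g Pt bot
  mono1 := fun I j _ hu => ⟨hu.1.trans (Finset.subset_insert j I), hu.2.1, hu.2.2.1,
    fun k hk => hu.2.2.2 k fun h => hk (Finset.mem_insert_of_mem h)⟩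
  mono2 := fun I j _ hu => ⟨⟨hu.1.1.trans (Finset.subset_insert j I), hu.1.2.1, hu.1.2.2.1,
    fun k hk => hu.1.2.2.2 k fun h => hk (Finset.mem_insert_of_mem h)⟩,
    let ⟨k, hk, hk'⟩ := hu.2; ⟨k, Finset.mem_insert_of_mem hk, hk'⟩⟩
  bdd := fun _ _ hu => hu.2.1
  fin := box_fin c g Pt bot

/-- The truncation `g` is large enough. -/
def BoxOK (c g : Fin m → ℤ) (Pt : Finset (Fin m)) (bot : ℤ) : Prop :=
  ∀ j, j ∉ Pt → c j ≤ g j ∧ -1 ≤ g j + bot

end box

end Crest.Agent.R183
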