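import Crest.Agent.R183.MonoU

/-!
# rid 183, file `MonoBox`: combinatorics of the box shapes

Prefix helper lemmas with `mb_`.
-/

set_option autoImplicit false

open Submodule

namespace Crest.Agent.R183

variable {m : ℕ}

/-- `u` survives at the vertex `I`. -/
def Live (c g : Fin m → ℤ) (Pt : Finset (Fin m)) (bot : ℤ) (u : UU m) (I : Finset (Fin m)) : Prop :=
  u ∈ boxA1 g Pt bot I ∧ u ∉ boxA2 c g Pt bot I

theorem mb_live {c g : Fin m → ℤ} {Pt : Finset (Fin m)} {bot : ℤ} {u : UU m} {I : Finset (Fin m)} :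
    Live c g Pt bot u I ↔ Pt ⊆ I ∧ bot ≤ u.1 ∧ (∀ j, u.2 j - u.1 ≤ g j) ∧
      (∀ j, j ∉ I → 0 ≤ u.2 j) ∧ ∀ j ∈ I, c j < u.2 j - u.1 :=
  ⟨fun ⟨h1, h2⟩ => ⟨h1.1, h1.2.1, h1.2.2.1, h1.2.2.2, fun j hj => not_le.1 fun h => h2 ⟨h1, j, hj, h⟩⟩,
    fun ⟨h1, h2, h3, h4, h5⟩ => ⟨⟨h1, h2, h3, h4⟩, fun ⟨_, j, hj, h⟩ => not_le.2 (h5 j hj) h⟩⟩

/-- A direction `j0 ∉ Pt` with `0 ≤ u.2 j0` and `c j0 < u.2 j0 - u.1` can be toggled. -/
theorem live_toggle (c g : Fin m → ℤ) (Pt : Finset (Fin m)) (bot : ℤ) (u : UU m) {j0 : Fin m}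
    (h0 : j0 ∉ Pt) (h1 : 0 ≤ u.2 j0) (h2 : c j0 < u.2 j0 - u.1) (I : Finset (Fin m)) (hI : j0 ∉ I) :
    Live c g Pt bot u I ↔ Live c g Pt bot u (insert j0 I) := by
  rw [mb_live, mb_live, Finset.subset_insert_iff_of_notMem h0, Finset.forall_mem_insert]
  refine and_congr_right fun _ => and_congr_right fun _ => and_congr_right fun _ =>
    and_congr ⟨fun h j hj => h j fun hj' => hj (Finset.mem_insert_of_mem hj'), fun h j hj => ?_⟩
      (and_iff_right h2).symm
  by_cases e : j = j0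
  · exact e ▸ h1
  · exact h j fun hj' => (Finset.mem_insert.1 hj').elim e hj

/-- If no direction can be toggled, then for `j ∈ I`: `c j + u.1 < u.2 j < 0`, and for `j ∉ I`:
`0 ≤ u.2 j ≤ c j + u.1`. -/
theorem live_rigid (c g : Fin m → ℤ) (bot : ℤ) (u : UU m)
    (h : ∀ j, ¬(0 ≤ u.2 j ∧ c j < u.2 j - u.1)) {I : Finset (Fin m)} (hI : Live c g ∅ bot u I) :
    I = Finset.univ.filter (fun j => c j + 1 + u.1 < 0) ∧ (∀ j, c j + 1 + u.1 ≠ 0) ∧
      ∀ j, j ∉ I → 0 ≤ u.2 j ∧ u.2 j ≤ c j + u.1 := by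
  obtain ⟨-, -, -, h1, h2⟩ := mb_live.1 hI
  have h3 : ∀ j, (j ∈ I ∧ c j + 1 + u.1 < 0) ∨ (j ∉ I ∧ 0 ≤ u.2 j ∧ u.2 j ≤ c j + u.1) := fun j => by
    have := h j
    by_cases hj : j ∈ I
    · exact Or.inl ⟨hj, by have := h2 j hj; omega⟩
    · exact Or.inr ⟨hj, by have := h1 j hj; omega⟩
  refine ⟨Finset.ext fun j => ?_, fun j => ?_, fun j hj => ?_⟩
  · rw [Finset.mem_filter_univ]
    rcases h3 j with h4 | h4
    · exact iff_of_true h4.1 h4.2
    · exact iff_of_false h4.1 (by omega)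
  · rcases h3 j with h4 | h4 <;> omega
  · exact ((h3 j).resolve_left fun h4 => hj h4.1).2

/-- the live monomials of degree `a` -/
noncomputable def mbF (c g : Fin m → ℤ) (I : Finset (Fin m)) (a : ℤ) : Finset (UU m) :=
  (Fintype.piFinset fun j => Finset.Icc (if j ∈ I then c j + a + 1 else 0) (g j + a)).image
    fun b => (a, b)

theorem mb_mem {c g : Fin m → ℤ} {bot a : ℤ} (ha : bot ≤ a) {I : Finset (Fin m)} {u : UU m} :
    u ∈ mbF c g I a ↔ Live c g ∅ bot u I ∧ u.1 = a := by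
  simp only [mbF, Finset.mem_image, Fintype.mem_piFinset, Finset.mem_Icc, mb_live]
  constructor
  · rintro ⟨b, hb, rfl⟩
    refine ⟨⟨Finset.empty_subset _, ha, fun j => ?_, fun j hj => ?_, fun j hj => ?_⟩, rfl⟩
    · have := (hb j).2
      dsimp only
      omega
    · simpa only [if_neg hj] using (hb j).1
    · have := (hb j).1
      rw [if_pos hj] at this
      dsimp only
      omega
  · rintro ⟨⟨-, -, h1, h2, h3⟩, rfl⟩
    refine ⟨u.2, fun j => ⟨?_, by have := h1 j; omega⟩, rfl⟩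
    split_ifs with hj
    · have := h3 j hj
      omega
    · exact h2 j hj

theorem mb_count (c g : Fin m → ℤ) (bot : ℤ) (hg : BoxOK c g ∅ bot) {a : ℤ} (ha : bot ≤ a) :
    ∑ I : Finset (Fin m), (-1 : ℝ) ^ I.card * ((mbF c g I a).card : ℝ)
      = ∏ j, ((c j + 1 + a : ℤ) : ℝ) := by
  have h1 : ∀ j, ((c j + 1 + a : ℤ) : ℝ) = (-1) * ((g j : ℝ) - c j) + (g j + a + 1) := fun j => by
    push_cast
    ring
  simp only [h1]
  rw [Fintype.prod_add]
  refine Finset.sum_congr rfl fun I _ => ?_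
  rw [mbF, Finset.card_image_of_injective _ (Prod.mk_right_injective a), Fintype.card_piFinset,
    Finset.prod_mul_distrib, Finset.prod_const, mul_assoc, Nat.cast_prod,
    ← Finset.prod_mul_prod_compl I]
  congr 2
  · refine Finset.prod_congr rfl fun j hj => ?_
    have := (hg j (Finset.notMem_empty j)).1
    rw [if_pos hj, ← Int.cast_natCast, Int.card_Icc_of_le _ _ (by omega)]
    push_cast
    ring
  · refine Finset.prod_congr rfl fun j hj => ?_
    have := (hg j (Finset.notMem_empty j)).2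
    rw [if_neg (Finset.mem_compl.1 hj), ← Int.cast_natCast, Int.card_Icc_of_le _ _ (by omega)]
    push_cast
    ring

/-- The Euler characteristic of `O(c + a)`: the live set at `I` in degree `a` is a product of intervals
with `g j - c j` points for `j ∈ I` and `g j + a + 1` points for `j ∉ I`; use `Finset.prod_add` or
`Finset.prod_sub`-type expansion over subsets. -/
theorem live_count (c g : Fin m → ℤ) (bot : ℤ) (hg : BoxOK c g ∅ bot) {a : ℤ} (ha : bot ≤ a) :
    ∑ I : Finset (Fin m), (-1 : ℝ) ^ I.card * (({u : UU m | Live c g ∅ bot u I ∧ u.1 = a}.ncard : ℕ) : ℝ)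
      = ∏ j, ((c j + 1 + a : ℤ) : ℝ) := by
  rw [← mb_count c g bot hg ha]
  refine Finset.sum_congr rfl fun I _ => ?_
  rw [← Set.ncard_coe_finset (mbF c g I a)]
  congr 3
  exact Set.ext fun u => (mb_mem ha).symm

/-- The same, summed over a window of degrees. -/
theorem stair_count (c g : Fin m → ℤ) (bot : ℤ) (hg : BoxOK c g ∅ bot) {ι ι' : ℕ → ℤ} (i : ℕ)
    (h1 : bot ≤ ι i) (h2 : ι i ≤ ι' i) :
    ∑ I : Finset (Fin m), (-1 : ℝ) ^ I.card *
        ((((box c g ∅ bot).stair ι i I \ (box c g ∅ bot).stair ι' i I).ncard : ℕ) : ℝ)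
      = ∑ a ∈ Finset.Ico (ι i) (ι' i), ∏ j, ((c j + 1 + a : ℤ) : ℝ) := by
  rw [← Finset.sum_congr rfl fun a ha => mb_count c g bot hg (h1.trans (Finset.mem_Ico.1 ha).1),
    Finset.sum_comm]
  refine Finset.sum_congr rfl fun I _ => ?_
  rw [← Finset.mul_sum, ← Nat.cast_sum, ← Finset.card_biUnion,
    ← Set.ncard_coe_finset (Finset.biUnion _ _)]
  · congr 3
    ext u
    rw [Finset.mem_coe, Finset.mem_biUnion]
    constructor
    · rintro ⟨h3, h4⟩
      have h5 : u ∉ boxA2 c g ∅ bot I := fun h => h4 (Or.inr h)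
      obtain ⟨h6, h7⟩ := h3.resolve_right h5
      exact ⟨u.1, Finset.mem_Ico.2 ⟨h7, not_le.1 fun h => h4 (Or.inl ⟨h6, h⟩)⟩,
        (mb_mem (h1.trans h7)).2 ⟨⟨h6, h5⟩, rfl⟩⟩
    · rintro ⟨a, ha, hu⟩
      obtain ⟨h3, h4⟩ := Finset.mem_Ico.1 ha
      obtain ⟨⟨h5, h6⟩, rfl⟩ := (mb_mem (h1.trans h3)).1 hu
      exact ⟨Or.inl ⟨h5, h3⟩, fun h => h.elim (fun h => not_le.2 h4 h.2) h6⟩
  · intro a ha b hb hab
    refine Finset.disjoint_left.2 fun u hu hu' => hab ?_
    rw [← ((mb_mem (h1.trans (Finset.mem_Ico.1 ha).1)).1 hu).2,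
      ((mb_mem (h1.trans (Finset.mem_Ico.1 hb).1)).1 hu').2]

/-- Global sections of `O(c + a)`, `a ≥ 0`. -/
def secs (c : Fin m → ℤ) : Set (UU m) := {u | 0 ≤ u.1 ∧ ∀ j, 0 ≤ u.2 j ∧ u.2 j ≤ c j + u.1}

/-- Those of degree `0`. -/
noncomputable def secs0 (c : Fin m → ℤ) : Finset (UU m) :=
  (Fintype.piFinset fun j => Finset.Icc 0 (c j)).image fun b => ((0 : ℤ), b)

theorem secs0_card (σ : Equiv.Perm (Fin m)) :
    (secs0 fun j => ((σ j : ℕ) : ℤ)).card = m.factorial := by
  rw [secs0, Finset.card_image_of_injective _ (Prod.mk_right_injective _), Fintype.card_piFinset,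
    ← Finset.prod_range_add_one_eq_factorial, ← Fin.prod_univ_eq_prod_range (fun i => i + 1),
    ← Equiv.prod_comp σ fun j : Fin m => (j : ℕ) + 1]
  exact Finset.prod_congr rfl fun j _ => by simp

section core

variable {M : Type} [AddCommGroup M]

/-- elementary symmetric polynomial in the variables of `s` times the monomial `b` -/
def mbE (X : (Fin m → ℤ) → M) (s : Finset (Fin m)) (i : ℤ) (b : Fin m → ℤ) : M :=
  ∑ I ∈ s.powerset, if (I.card : ℤ) = i then X (b + (gam I).2) else 0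

theorem mb_zero (X : (Fin m → ℤ) → M) {s : Finset (Fin m)} {i : ℤ} (h : i < 0 ∨ (s.card : ℤ) < i)
    (b : Fin m → ℤ) : mbE X s i b = 0 :=
  Finset.sum_eq_zero fun I hI => if_neg (by
    have := Finset.card_le_card (Finset.mem_powerset.1 hI)
    omega)

theorem mb_insert (X : (Fin m → ℤ) → M) {s : Finset (Fin m)} {v : Fin m} (hv : v ∉ s) (i r : ℤ)
    (b : Fin m → ℤ) : mbE X (insert v s) i (Function.update b v r) =
      mbE X s i (Function.update b v r) + mbE X s (i - 1) (Function.update b v (r + 1)) := by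
  rw [mbE, Finset.sum_powerset_insert hv]
  congr 1
  refine Finset.sum_congr rfl fun I hI => ?_
  have hI' : v ∉ I := fun h => hv (Finset.mem_powerset.1 hI h)
  rw [Finset.card_insert_of_notMem hI']
  refine if_congr (by omega) (congrArg X (funext fun j => ?_)) rfl
  by_cases e : j = v
  · simp [gam, e, hI']
  · simp [gam, e]

theorem mb_chain {W : AddSubgroup M} {f : ℤ → M} {C : ℤ}
    (h : ∀ r, 0 ≤ r → r ≤ C → f r + f (r + 1) ∈ W) {t : ℤ} (h0 : 0 ≤ t) :
    t ≤ C + 1 → (f t ∈ W ↔ f 0 ∈ W) := by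
  induction t, h0 using Int.leInduction with
  | base => exact fun _ => Iff.rfl
  | succ t ht ih =>
    intro h1
    have h2 := h t ht (by omega)
    rw [← ih (by omega)]
    exact ⟨fun h3 => by simpa using W.sub_mem h2 h3, fun h3 => by simpa using W.sub_mem h2 h3⟩

theorem mb_core (X : (Fin m → ℤ) → M) (W : AddSubgroup M) (c : Fin m → ℤ) (σ : Equiv.Perm (Fin m))
    (hc : ∀ j, ((σ j : ℕ) : ℤ) ≤ c j) (s : Finset (Fin m)) :
    (∀ j ∈ s, ∀ j', σ j' < σ j → j' ∈ s) → ∀ b : Fin m → ℤ, (∀ j ∈ s, 0 ≤ b j ∧ b j ≤ c j + 1) →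
      (∀ i b', (∀ j ∈ s, 0 ≤ b' j ∧ b' j ≤ c j) → (∀ j, j ∉ s → b' j = b j) → mbE X s i b' ∈ W) →
      X b ∈ W := by
  induction s using Finset.induction_on_max_value σ with
  | empty =>
    intro _ b _ h
    have e : b + (gam (∅ : Finset (Fin m))).2 = b := funext fun j => by simp [gam]
    simpa [mbE, e] using h 0 b (by simp) fun _ _ => rfl
  | insert v s hv hs ih =>
    intro h1 b hb h
    have hlt : ∀ j ∈ s, σ j < σ v := fun j hj =>
      (hs j hj).lt_of_ne fun e => hv (σ.injective e ▸ hj)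
    have hcard : (s.card : ℤ) ≤ c v := by
      refine le_trans ?_ (hc v)
      rw [← Fin.card_Iio]
      exact_mod_cast Finset.card_le_card_of_injOn σ (fun j hj => Finset.mem_coe.2
        (Finset.mem_Iio.2 (hlt j hj))) σ.injective.injOn
    refine ih (fun j hj j' hj' => (Finset.mem_insert.1 (h1 j (Finset.mem_insert_of_mem hj) j'
      hj')).resolve_left fun e => lt_asymm (hlt j hj) (e ▸ hj')) b
      (fun j hj => hb j (Finset.mem_insert_of_mem hj)) fun i b' h2 h3 => ?_
    have h4 : ∀ r, 0 ≤ r → r ≤ c v → mbE X s (i + b v - r) (Function.update b' v r) +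
        mbE X s (i + b v - (r + 1)) (Function.update b' v (r + 1)) ∈ W := fun r hr hr' => by
      rw [← sub_sub, ← mb_insert X hv]
      refine h _ _ (fun j hj => ?_) fun j hj => ?_
      · rcases Finset.mem_insert.1 hj with rfl | hj
        · rw [Function.update_self]
          exact ⟨hr, hr'⟩
        · rw [Function.update_of_ne (ne_of_mem_of_not_mem hj hv)]
          exact h2 j hj
      · rw [Finset.mem_insert, not_or] at hj
        rw [Function.update_of_ne hj.1, h3 j hj.2]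
    have h5 := hb v (Finset.mem_insert_self _ _)
    have h6 := mb_chain (f := fun r => mbE X s (i + b v - r) (Function.update b' v r)) h4 h5.1 h5.2
    rw [add_sub_cancel_right, ← h3 v hv, Function.update_eq_self, h3 v hv] at h6
    refine h6.2 ?_
    by_cases h7 : i + b v ≤ c v
    · refine (mb_chain (f := fun r => mbE X s (i + b v - r) (Function.update b' v r)) h4
        (by omega) le_rfl).1 ?_
      rw [mb_zero X (Or.inl (by omega))]
      exact W.zero_mem
    · rw [mb_zero X (Or.inr (by omega))]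
      exact W.zero_mem

end core

theorem mb_gen {Λ : Type} [CommRing Λ] {P : Type} [AddCommGroup P] [Module Λ P]
    (W : Submodule Λ (FF m P)) (c : Fin m → ℤ) (σ : Equiv.Perm (Fin m))
    (hc : ∀ j, ((σ j : ℕ) : ℤ) ≤ c j) {u : UU m} (hu : u ∈ secs c) (hu0 : 0 < u.1) (w : P)
    (h : ∀ i, ∀ u' ∈ secs c, u'.1 = u.1 - 1 → YY Λ P i (Finsupp.single u' w) ∈ W) :
    Finsupp.single u w ∈ W := by
  refine mb_core (fun b => Finsupp.single (u.1, b) w) W.toAddSubgroup (fun j => c j + (u.1 - 1)) σ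
    (fun j => by have := hc j; omega) Finset.univ (fun _ _ _ _ => Finset.mem_univ _) u.2
    (fun j _ => by have := hu.2 j; omega) fun i b hb _ => ?_
  by_cases hi : i < 0 ∨ ((Finset.univ : Finset (Fin m)).card : ℤ) < i
  · rw [mb_zero _ hi]
    exact zero_mem _
  rw [Finset.card_fin] at hi
  obtain ⟨k, rfl⟩ := Int.eq_ofNat_of_zero_le (by omega : 0 ≤ i)
  have h1 := h ⟨k, by omega⟩ (u.1 - 1, b) ⟨by omega, fun j => hb j (Finset.mem_univ _)⟩ rfl
  rw [YY, LinearMap.sum_apply, Finset.powersetCard_eq_filter, Finset.sum_filter] at h1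
  refine (congrArg (· ∈ W) (Finset.sum_congr rfl fun I _ => ?_)).mp h1
  refine if_congr Nat.cast_inj.symm ?_ rfl
  rw [sh, Finsupp.lmapDomain_apply, Finsupp.mapDomain_single]
  exact congrArg (Finsupp.single · w) (Prod.ext (sub_add_cancel _ _) rfl)

/-- Generation in degree `0`, one step.  In terms of Laurent polynomials in `v`: if `c (σ⁻¹ r) ≥ r` for all `r`
then the monomials with exponents in `[0, c + 1]` lie in `∑_i e_i(v) · span [0, c]`.  Induct on `m` (or on a
finite set of variables), splitting off the variable `v` with the largest bound `c_v ≥ m - 1`: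
`e_i = e'_i + v e'_{i-1}`.  By induction a monomial is a combination of `e'_i h v^s` with `h` in the smaller
box and `0 ≤ s ≤ c_v + 1`.  Modulo the span, `e'_i h v^s ≡ - e'_{i-1} h v^{s+1}` for `0 ≤ s ≤ c_v`, with
`e'_{-1} = e'_m = 0`.  If `s + i ≤ c_v` go down to `e'_{-1}`; otherwise `s ≥ m - i` and go up to `e'_m`. -/
theorem secs_step (c : Fin m → ℤ) (σ : Equiv.Perm (Fin m)) (hc : ∀ j, ((σ j : ℕ) : ℤ) ≤ c j)
    {u : UU m} (hu : u ∈ secs c) (hu0 : 0 < u.1) :
    ∃ f : Fin (m + 1) → FF m ℤ, (∀ i, f i ∈ supp ℤ ℤ (secs c ∩ {w | w.1 = u.1 - 1})) ∧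
      Finsupp.single u (1 : ℤ) = ∑ i, YY ℤ ℤ i (f i) := by
  obtain ⟨f, h1, h2⟩ := mb_gen ((Submodule.pi Set.univ fun _ : Fin (m + 1) =>
    supp ℤ ℤ (secs c ∩ {w | w.1 = u.1 - 1})).map (∑ i, YY ℤ ℤ i ∘ₗ LinearMap.proj i)) c σ hc hu hu0 1
    fun i u' h1 h2 => ⟨Pi.single i (Finsupp.single u' 1), fun j _ => by
      by_cases e : j = i
      · rw [e, Pi.single_eq_same]
        exact Finsupp.single_mem_supported _ _ ⟨h1, h2⟩
      · rw [Pi.single_eq_of_ne e]
        exact zero_mem _, by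
      rw [LinearMap.sum_apply, Finset.sum_eq_single i (fun j _ e => by simp [e]) (by simp)]
      simp⟩
  exact ⟨f, fun i => h1 i trivial, by rw [← h2, LinearMap.sum_apply]; rfl⟩

variable {Λ : Type} [CommRing Λ] {P : Type} [AddCommGroup P] [Module Λ P]

/-- Generation in degree `0` modulo the relations: induct on `u.1`; tensor `secs_step` with `w`, and use
`YY i (single u' w) ≡ single u' (y i • w)` modulo `Rel`. -/
theorem secs_gen (y : Fin (m + 1) → Λ) (c : Fin m → ℤ) (σ : Equiv.Perm (Fin m))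
    (hc : ∀ j, ((σ j : ℕ) : ℤ) ≤ c j) {A A' : Set (UU m)} (hA : secs c ⊆ A) (N : Submodule Λ P)
    {u : UU m} (hu : u ∈ secs c) {w : P} (hw : w ∈ N) :
    ∃ f : UU m → P, (∀ μ, f μ ∈ N) ∧
      Finsupp.single u w - ∑ μ ∈ secs0 c, Finsupp.single μ (f μ) ∈ Rel P y A A' := by
  classical
  set V : Submodule Λ (FF m P) := Rel P y A A' ⊔ (Submodule.pi Set.univ fun _ : UU m => N).map
    (∑ μ ∈ secs0 c, Finsupp.lsingle μ ∘ₗ LinearMap.proj μ) with hV
  have key : ∀ n : ℕ, ∀ u ∈ secs c, u.1 = n → ∀ w ∈ N, Finsupp.single u w ∈ V := by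
    intro n
    induction n with
    | zero =>
      intro u hu hn w hw
      have h0 : u ∈ secs0 c := Finset.mem_image.2 ⟨u.2, Fintype.mem_piFinset.2 fun j =>
        Finset.mem_Icc.2 (by have := hu.2 j; omega), Prod.ext (by simpa using hn.symm) rfl⟩
      refine Submodule.mem_sup_right ⟨Pi.single u w, fun j _ => ?_, ?_⟩
      · by_cases e : j = u
        · rwa [e, Pi.single_eq_same]
        · rw [Pi.single_eq_of_ne e]
          exact zero_mem _
      · rw [LinearMap.sum_apply, Finset.sum_eq_single u (fun j _ e => by simp [e]) fun h => absurd h0 h]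
        simp
    | succ n ih =>
      intro u hu hn w hw
      refine mb_gen V c σ hc hu (by omega) w fun i u' h1 h2 => ?_
      have h3 := ih u' h1 (by omega) _ (N.smul_mem (y i) hw)
      have h4 : (y i • (1 : Module.End Λ (FF m P)) - YY Λ P i) (Finsupp.single u' w) ∈ V :=
        Submodule.mem_sup_left (Submodule.mem_sup_right (Submodule.mem_iSup_of_mem i
          (Submodule.mem_map_of_mem (Finsupp.single_mem_supported _ _ (hA h1)))))
      simpa using V.sub_mem h3 h4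
  obtain ⟨r, hr, _, ⟨f, hf, rfl⟩, e⟩ := Submodule.mem_sup.1
    (key u.1.toNat u hu (Int.toNat_of_nonneg hu.1).symm w hw)
  refine ⟨f, fun μ => hf μ trivial, ?_⟩
  rw [← e, LinearMap.sum_apply]
  exact (add_sub_cancel_right r _).symm ▸ hr

end Crest.Agent.R183
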