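import Crest.Agent.R183.MonoU

/-!
# rid 183, file `MonoEX`: exactness of `P ⊗_{ℤ[y]} -` on windows of length at most `n`

Prefix helper lemmas with `ex_`.
-/

set_option autoImplicit false

open Submodule

namespace Crest.Agent.R183

variable {Λ : Type} [CommRing Λ] {m : ℕ} {P : Type} [AddCommGroup P] [Module Λ P]
  {y : Fin (m + 1) → Λ} {n : ℕ}

theorem ex_sh_single (v u : UU m) (w : P) :
    sh Λ P v (Finsupp.single u w) = Finsupp.single (u + v) w :=
  Finsupp.mapDomain_single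

theorem ex_sh_sh (v v' : UU m) : sh Λ P v * sh Λ P v' = sh Λ P (v' + v) := by
  ext u w : 2
  simp only [LinearMap.comp_apply, Finsupp.lsingle_apply, Module.End.mul_apply, ex_sh_single,
    add_assoc]

theorem ex_sh_zero (f : FF m P) : sh Λ P 0 f = f := by
  simp only [sh, add_zero]
  exact Finsupp.mapDomain_id

theorem ex_sh_YY (v : UU m) (i : Fin (m + 1)) : Commute (sh Λ P v) (YY Λ P i) :=
  Commute.sum_right _ _ _ fun I _ => by rw [Commute, SemiconjBy, ex_sh_sh, ex_sh_sh, add_comm]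

theorem ex_YY_YY (i j : Fin (m + 1)) : Commute (YY Λ P i) (YY Λ P j) :=
  Commute.sum_left _ _ _ fun _ _ => ex_sh_YY _ j

theorem ex_sh_onF (v : UU m) (g : Module.End Λ P) (f : FF m P) :
    sh Λ P v (onF m g f) = onF m g (sh Λ P v f) := by
  have : sh Λ P v * onF m g = onF m g * sh Λ P v := by
    ext u w : 2
    simp [onF, ex_sh_single]
  exact LinearMap.congr_fun this f

theorem ex_supp_mono {A B : Set (UU m)} (h : A ⊆ B) : supp Λ P A ≤ supp Λ P B :=
  Finsupp.supported_mono h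

theorem ex_supp_union (A B : Set (UU m)) : supp Λ P (A ∪ B) = supp Λ P A ⊔ supp Λ P B :=
  Finsupp.supported_union A B

theorem ex_supp_inter (A B : Set (UU m)) : supp Λ P (A ∩ B) = supp Λ P A ⊓ supp Λ P B :=
  Finsupp.supported_inter A B

theorem ex_apply {A : Set (UU m)} {f : FF m P} (hf : f ∈ supp Λ P A) {u : UU m} (hu : u ∉ A) :
    f u = 0 :=
  (Finsupp.mem_supported' Λ f).1 hf u hu

theorem ex_single {A : Set (UU m)} {u : UU m} (hu : u ∈ A) (w : P) :
    Finsupp.single u w ∈ supp Λ P A :=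
  Finsupp.single_mem_supported Λ w hu

theorem ex_sh_mem {A B : Set (UU m)} {v : UU m} (h : ∀ u ∈ A, u + v ∈ B) {f : FF m P}
    (hf : f ∈ supp Λ P A) : sh Λ P v f ∈ supp Λ P B :=
  Finsupp.supported_comap_lmapDomain P Λ _ B (ex_supp_mono (B := (· + v) ⁻¹' B) h hf)

theorem ex_YY_mem {A B : Set (UU m)} (h : ∀ u ∈ A, ∀ I, u + gam I ∈ B) (i : Fin (m + 1))
    {f : FF m P} (hf : f ∈ supp Λ P A) : YY Λ P i f ∈ supp Λ P B := by
  rw [YY, LinearMap.sum_apply]
  exact sum_mem fun I _ => ex_sh_mem (fun u hu => h u hu I) hf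

theorem ex_onF_mem {A : Set (UU m)} (g : Module.End Λ P) {f : FF m P} (hf : f ∈ supp Λ P A) :
    onF m g f ∈ supp Λ P A :=
  (Finsupp.mem_supported' Λ _).2 fun u hu => by simp [onF, ex_apply hf hu]

variable (P y) in
/-- the relations without the killed monomials -/
noncomputable def ex_R (A : Set (UU m)) : Submodule Λ (FF m P) :=
  ⨆ i, (supp Λ P A).map (y i • (1 : Module.End Λ (FF m P)) - YY Λ P i)

theorem ex_Rel (A A' : Set (UU m)) : Rel P y A A' = supp Λ P A' ⊔ ex_R P y A := rfl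

theorem ex_R_mono {A B : Set (UU m)} (h : A ⊆ B) : ex_R P y A ≤ ex_R P y B :=
  iSup_mono fun _ => map_mono (ex_supp_mono h)

theorem ex_R_union (A B : Set (UU m)) : ex_R P y (A ∪ B) = ex_R P y A ⊔ ex_R P y B := by
  simp only [ex_R, ex_supp_union, Submodule.map_sup, iSup_sup_eq]

theorem ex_mem_R {A : Set (UU m)} {f : FF m P} (hf : f ∈ supp Λ P A) (i : Fin (m + 1)) :
    y i • f - YY Λ P i f ∈ ex_R P y A :=
  mem_iSup_of_mem i ⟨f, hf, rfl⟩

theorem ex_R_le {A : Set (UU m)} (hA : Stable A) : ex_R P y A ≤ supp Λ P A :=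
  iSup_le fun i => by
    rintro _ ⟨f, hf, rfl⟩
    exact sub_mem (smul_mem _ _ hf) (ex_YY_mem hA i hf)

theorem ex_R_exists {A : Set (UU m)} {f : FF m P} (hf : f ∈ ex_R P y A) :
    ∃ h : Fin (m + 1) → FF m P, (∀ i, h i ∈ supp Λ P A) ∧
      f = ∑ i, (y i • h i - YY Λ P i (h i)) := by
  obtain ⟨g, hg, rfl⟩ := (mem_iSup_iff_exists_finsupp _ _).1 hf
  choose h h1 h2 using hg
  exact ⟨h, h1, by
    rw [Finsupp.sum_fintype _ _ fun _ => rfl]
    exact Finset.sum_congr rfl fun i _ => (h2 i).symm⟩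

theorem ex_Rel_mono {A A' B B' : Set (UU m)} (h : A ⊆ B) (h' : A' ⊆ B') :
    Rel P y A A' ≤ Rel P y B B' :=
  sup_le_sup (ex_supp_mono h') (ex_R_mono h)

theorem ex_sup_Rel {A A' S : Set (UU m)} (h : A' ⊆ S) :
    supp Λ P S ⊔ Rel P y A A' = Rel P y A S := by
  rw [ex_Rel A A', ex_Rel A S, ← sup_assoc, sup_eq_left.2 (ex_supp_mono (Λ := Λ) (P := P) h)]

theorem ex_sh_Rel {A A' B B' : Set (UU m)} {v : UU m} (h : ∀ u ∈ A, u + v ∈ B)
    (h' : ∀ u ∈ A', u + v ∈ B') : Rel P y A A' ≤ (Rel P y B B').comap (sh Λ P v) := by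
  refine sup_le (fun f hf => mem_sup_left (ex_sh_mem h' hf)) (iSup_le fun i => ?_)
  rintro _ ⟨f, hf, rfl⟩
  refine mem_sup_right ?_
  have e : sh Λ P v (YY Λ P i f) = YY Λ P i (sh Λ P v f) := LinearMap.congr_fun (ex_sh_YY v i) f
  change sh Λ P v (y i • f - YY Λ P i f) ∈ _
  rw [map_sub, map_smul, e]
  exact ex_mem_R (ex_sh_mem h hf) i

theorem ex_gam_ne (u : UU m) (I : Finset (Fin m)) : u + gam I ≠ u := fun h => by
  have := congrArg Prod.fst h
  simp [gam] at this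

theorem ex_stable_sum {A : Set (UU m)} (hA : Stable A) {u : UU m} (hu : u ∈ A) {ι : Type}
    (s : Finset ι) (l : ι → Finset (Fin m)) : u + ∑ k ∈ s, gam (l k) ∈ A := by
  classical
  induction s using Finset.induction_on with
  | empty => simpa using hu
  | insert k s hk ih =>
    rw [Finset.sum_insert hk, add_comm (gam _), ← add_assoc]
    exact hA _ ih _

theorem ex_step (hK : KZ n y P) {A A' : Set (UU m)} {bot : ℤ} {u : UU m} (hA : Stable A)
    (hu : u ∈ A) (hB : Stable (A \ {u})) (h1 : A' ⊆ A \ {u})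
    (hb : ∀ u ∈ A, bot ≤ u.1) (ht : ∀ u ∈ A, bot + n ≤ u.1 → u ∈ A') :
    supp Λ P (A \ {u}) ⊓ Rel P y A A' ≤ Rel P y (A \ {u}) A' := by
  classical
  rintro f ⟨hf, hf'⟩
  obtain ⟨g, hg, r, hr, rfl⟩ := mem_sup.1 hf'
  obtain ⟨h, hh, rfl⟩ := ex_R_exists hr
  have hu' : u ∉ A \ {u} := fun h => h.2 rfl
  have hY : ∀ i w, YY Λ P i (Finsupp.single u w) ∈ supp Λ P (A \ {u}) := fun i w =>
    ex_YY_mem (A := {u}) (by rintro _ rfl I; exact ⟨hA _ hu I, ex_gam_ne _ I⟩) i (ex_single (Set.mem_singleton u) w)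
  have he : ∀ i, (h i).erase u ∈ supp Λ P (A \ {u}) := fun i =>
    (Finsupp.mem_supported' Λ _).2 fun v hv => by
      by_cases e : v = u
      · rw [e, Finsupp.erase_same]
      · rw [Finsupp.erase_ne e]
        exact ex_apply (hh i) fun h => hv ⟨h, e⟩
  have hYh : ∀ i, YY Λ P i (h i) ∈ supp Λ P (A \ {u}) := fun i => by
    rw [← Finsupp.erase_add_single u (h i), map_add]
    exact add_mem (ex_YY_mem hB i (he i)) (hY i _)
  have h0 : ∑ i, y i • h i u = 0 := by
    have := ex_apply hf hu'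
    rw [Finsupp.add_apply, ex_apply (ex_supp_mono h1 hg) hu', zero_add, Finsupp.finsetSum_apply]
      at this
    rw [← this]
    refine Finset.sum_congr rfl fun i _ => ?_
    rw [Finsupp.sub_apply, ex_apply (hYh i) hu', sub_zero, Finsupp.smul_apply]
  obtain ⟨a, ha1, ha2, ha3⟩ := hK _ h0
  have hz : ∑ i, ∑ j, YY Λ P j (YY Λ P i (Finsupp.single u (a i j))) = 0 := by
    rw [← Finset.sum_product']
    refine Finset.sum_ninvolution Prod.swap (fun x => ?_) (fun x hx e => hx ?_) (by simp) (by simp)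
    · have e : YY Λ P x.1 (YY Λ P x.2 (Finsupp.single u (a x.2 x.1))) =
          YY Λ P x.2 (YY Λ P x.1 (Finsupp.single u (a x.2 x.1))) :=
        LinearMap.congr_fun (ex_YY_YY x.1 x.2) _
      rw [Prod.fst_swap, Prod.snd_swap, e, ← map_add, ← map_add, ← Finsupp.single_add, ha1,
        neg_add_cancel, Finsupp.single_zero, map_zero, map_zero]
    · rw [show x.2 = x.1 from congrArg Prod.fst e, ha2, Finsupp.single_zero, map_zero, map_zero]
  have e1 : ∀ i, y i • h i - YY Λ P i (h i) =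
      (y i • (h i).erase u - YY Λ P i ((h i).erase u)) + Finsupp.single u (y i • h i u) -
        YY Λ P i (Finsupp.single u (h i u - ∑ j, y j • a i j)) -
        ∑ j, (y j • YY Λ P i (Finsupp.single u (a i j)) -
          YY Λ P j (YY Λ P i (Finsupp.single u (a i j)))) -
        ∑ j, YY Λ P j (YY Λ P i (Finsupp.single u (a i j))) := fun i => by
    conv_lhs => rw [← Finsupp.erase_add_single u (h i)]
    rw [Finset.sum_sub_distrib, Finsupp.single_sub, map_sub, Finsupp.single_finsetSum, map_sum,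
      smul_add, map_add]
    simp only [← Finsupp.smul_single, map_smul]
    abel
  refine add_mem (mem_sup_left hg) ?_
  simp only [e1]
  rw [Finset.sum_sub_distrib, hz, sub_zero, Finset.sum_sub_distrib, Finset.sum_sub_distrib,
    Finset.sum_add_distrib, ← Finsupp.single_finsetSum, h0, Finsupp.single_zero, add_zero]
  refine sub_mem (sub_mem (sum_mem fun i _ => mem_sup_right (ex_mem_R (he i) i))
    (sum_mem fun i _ => ?_))
    (sum_mem fun i _ => sum_mem fun j _ => mem_sup_right (ex_mem_R (hY i _) j))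
  rw [YY, LinearMap.sum_apply]
  refine sum_mem fun I _ => ?_
  rw [ex_sh_single, ← ex_sup_Rel (A' := A') subset_rfl]
  refine Shape.single_pow_mem y hB ⟨hA _ hu I, ex_gam_ne _ I⟩ (fun l => ht _ ?_ ?_) (ha3 i)
  · exact ex_stable_sum hA (hA _ hu I) _ _
  · have := hb u hu
    simp only [Prod.fst_add, Prod.fst_sum, gam, Finset.sum_const, Finset.card_univ,
      Fintype.card_fin, nsmul_eq_mul, mul_one]
    omega

/-- The key lemma.  Induct on the finite set `A \ A''`.  Pick `u ∈ A \ A''` of least `λ`-degree; then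
`A \ {u}` is stable (a predecessor of `u` in `A` has smaller degree, so lies in `A''`, and then `u ∈ A''`).
It suffices to show `supp (A \ {u}) ⊓ Rel A A' ≤ Rel (A \ {u}) A'`.  An element is
`ρ + ∑ i (y i - YY i) (single u (w i))` with `ρ ∈ Rel (A \ {u}) A' ≤ supp (A \ {u})`; its `u`-coefficient is
`∑ y i • w i = 0`.  By `KZ`, `w i = ∑ j, y j • a i j + w' i` with `w' i ∈ (y)^(n-1) P`.  The sum equals
`- ∑ YY i (single u (w i))`.  Modulo `Rel (A \ {u}) A'`: `y j • YY i f ≡ YY j (YY i f)` for `f = single u _`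
(because `YY i f ∈ supp (A \ {u})`), the `YY` commute and `a` is alternating, so the Koszul part vanishes;
and `YY i (single u (w' i))` is a sum of `single (u + gam I) (w' i)`, which by `Shape.single_pow_mem` is
congruent to an element supported in `A` in degree `≥ bot + n`, hence in `A'`. -/
theorem supp_inf_Rel (hK : KZ n y P) {A A' A'' : Set (UU m)} {bot : ℤ} (hA : Stable A)
    (hA'' : Stable A'') (h1 : A' ⊆ A'') (h2 : A'' ⊆ A) (hfin : (A \ A'').Finite)
    (hb : ∀ u ∈ A, bot ≤ u.1) (ht : ∀ u ∈ A, bot + n ≤ u.1 → u ∈ A') :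
    supp Λ P A'' ⊓ Rel P y A A' ≤ Rel P y A'' A' := by
  obtain ⟨k, hk⟩ : ∃ k, (A \ A'').ncard = k := ⟨_, rfl⟩
  induction k generalizing A with
  | zero =>
    rw [Set.ncard_eq_zero hfin, Set.sdiff_eq_empty] at hk
    exact inf_le_right.trans (ex_Rel_mono hk subset_rfl)
  | succ k ih =>
    obtain ⟨u, hu, hmin⟩ := Set.exists_min_image _ Prod.fst hfin
      (Set.nonempty_of_ncard_ne_zero (by omega))
    have hB : Stable (A \ {u}) := fun v hv I => ⟨hA _ hv.1 I, fun e => by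
      have e : v + gam I = u := e
      refine hu.2 (e ▸ hA'' v ?_ I)
      by_contra hv'
      have := hmin v ⟨hv.1, hv'⟩
      rw [← e] at this
      simp [gam] at this⟩
    have h2' : A'' ⊆ A \ {u} := fun v hv => ⟨h2 hv, fun e => hu.2 ((e : v = u) ▸ hv)⟩
    refine le_trans (le_inf inf_le_left ((inf_le_inf_right _ (ex_supp_mono h2')).trans
      (ex_step hK hA hu.1 hB (h1.trans h2') hb ht))) (ih hB h2'
        (hfin.subset fun v hv => ⟨hv.1.1, hv.2⟩) (fun v hv => hb v hv.1) (fun v hv => ht v hv.1) ?_)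
    rw [Set.sdiff_sdiff_comm, Set.ncard_sdiff_singleton_of_mem hu, hk]
    rfl

/-- One-step version: read off the `u`-coefficient after `supp_inf_Rel` with `A'' = insert u A'`. -/
theorem mem_of_single_mem_Rel (hK : KZ n y P) {A A' : Set (UU m)} {bot : ℤ} (hA : Stable A)
    {u : UU m} (hu : u ∉ A') (huA : u ∈ A) (hA' : Stable A') (hA'' : Stable (insert u A'))
    (h1 : A' ⊆ A) (hfin : (A \ A').Finite)
    (hb : ∀ u ∈ A, bot ≤ u.1) (ht : ∀ u ∈ A, bot + n ≤ u.1 → u ∈ A') {w : P}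
    (hw : Finsupp.single u w ∈ Rel P y A A') : w ∈ ism (idl y) P := by
  obtain ⟨g, hg, r, hr, e⟩ := mem_sup.1 (supp_inf_Rel hK hA hA'' (Set.subset_insert u A')
    (Set.insert_subset huA h1) (hfin.subset (Set.sdiff_subset_sdiff_right (Set.subset_insert u A')))
    hb ht ⟨ex_single (Set.mem_insert u A') w, hw⟩)
  obtain ⟨h, hh, rfl⟩ := ex_R_exists hr
  have e' := DFunLike.congr_fun e u
  rw [Finsupp.single_eq_same, Finsupp.add_apply, ex_apply hg hu, zero_add,
    Finsupp.finsetSum_apply] at e'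
  rw [← e']
  refine sum_mem fun i _ => ?_
  have : YY Λ P i (h i) ∈ supp Λ P A' := ex_YY_mem (fun v hv I => by
    rcases hv with rfl | hv
    · exact (hA'' _ (Set.mem_insert _ _) I).resolve_left (ex_gam_ne _ I)
    · exact hA' v hv I) i (hh i)
  rw [Finsupp.sub_apply, ex_apply this hu, sub_zero, Finsupp.smul_apply]
  exact smul_mem_smul (Ideal.subset_span ⟨i, rfl⟩) mem_top

namespace Shape

variable (s : Shape m) (C : Cx Λ (m + 1) P)

/-- The family contains the top of a window of length at most `n`. -/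
def Win (n : ℕ) (S : Fam m) : Prop := ∀ i I, ∀ u ∈ s.A1 I, s.bot + n ≤ u.1 → u ∈ S i I

theorem Win.finite {q : ℕ} {S : Fam m} (hS : s.Closed q S) (hW : s.Win n S) (i : ℕ)
    (I : Finset (Fin m)) : (s.A1 I \ S i I).Finite := by
  refine ((Set.finite_Ico s.bot (s.bot + n)).biUnion fun a _ => s.fin I a).subset fun u hu => ?_
  exact Set.mem_biUnion (x := u.1) ⟨s.bdd I u hu.1, not_le.1 fun h => hu.2 (hW i I u hu.1 h)⟩
    ⟨hu.1, fun h => hu.2 (hS.lo i I h), rfl⟩

/-- Componentwise: if `f1 + ρ1 = f2 + ρ2` then `f1 - f2 ∈ supp (S1 ∪ S2) ⊓ Rel A1 (S1 ∩ S2)`, so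
`f1 - f2 = g + ∑ (y - YY) (h1 + h2)` with `g ∈ supp (S1 ∩ S2)`, `hk ∈ supp Sk`, and
`f1 - ∑ (y - YY) h1 = f2 + g + ∑ (y - YY) h2 ∈ supp S1 ⊓ supp S2`. -/
theorem U_inf (hK : KZ n y P) {q : ℕ} {S S' : Fam m} (hS : s.Closed q S) (hS' : s.Closed q S')
    (hW : s.Win n S) (hW' : s.Win n S') :
    s.U C y S ⊓ s.U C y S' = s.U C y (fun i I => S i I ∩ S' i I) := by
  refine le_antisymm (fun w hw => ?_) (le_inf (s.U_mono C y fun _ _ => Set.inter_subset_left)
    (s.U_mono C y fun _ _ => Set.inter_subset_right))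
  obtain ⟨hw, hw'⟩ := hw
  replace hw := (s.mem_U C y).1 hw
  replace hw' := (s.mem_U C y).1 hw'
  refine (s.mem_U C y).2 fun I => ⟨(hw I).1, fun i => ?_⟩
  obtain ⟨f, hf, r, hr, e⟩ := mem_sup.1 ((hw I).2 i)
  obtain ⟨f', hf', r', hr', e'⟩ := mem_sup.1 ((hw' I).2 i)
  have key : f - f' ∈ Rel P y (S i I ∪ S' i I) (S i I ∩ S' i I) := by
    refine supp_inf_Rel hK (s.st1 I) (fun u hu J => hu.imp (hS.st i I u · J) (hS'.st i I u · J))
      (Set.inter_subset_left.trans Set.subset_union_left) (Set.union_subset (hS.hi i I) (hS'.hi i I))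
      ((hW.finite s hS i I).subset (Set.sdiff_subset_sdiff_right Set.subset_union_left)) (s.bdd I)
      (fun u hu h => ⟨hW i I u hu h, hW' i I u hu h⟩) ⟨?_, ?_⟩
    · exact sub_mem (ex_supp_mono Set.subset_union_left hf) (ex_supp_mono Set.subset_union_right hf')
    · rw [show f - f' = r' - r by rw [sub_eq_sub_iff_add_eq_add, e, add_comm r', e']]
      exact ex_Rel_mono subset_rfl (Set.subset_inter (hS.lo i I) (hS'.lo i I)) (sub_mem hr' hr)
  rw [ex_Rel, ex_R_union] at key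
  obtain ⟨g, hg, t0, ht0, e1⟩ := mem_sup.1 key
  obtain ⟨t, ht, t', ht', rfl⟩ := mem_sup.1 ht0
  rw [← e, show f + r = (f - t) + (t + r) by abel]
  refine add_mem_sup ?_ (add_mem (mem_sup_right (ex_R_mono (hS.hi i I) ht)) hr)
  rw [ex_supp_inter]
  refine ⟨sub_mem hf (ex_R_le (hS.st i I) ht), ?_⟩
  rw [show f - t = f' + g + t' by rw [sub_eq_iff_eq_add.1 e1.symm]; abel]
  exact add_mem (add_mem hf' (ex_supp_mono Set.inter_subset_right hg)) (ex_R_le (hS'.st i I) ht')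

theorem ex_U_le (s' : Shape m) (h1 : ∀ I, s'.A1 I ⊆ s.A1 I) (h2 : ∀ I, s'.A2 I ⊆ s.A2 I)
    (S : Fam m) : s'.U C y S ≤ s.U C y S := fun _ hw =>
  (s.mem_U C y).2 fun I => ⟨ex_supp_mono (h1 I) ((s'.mem_U C y).1 hw I).1, fun i =>
    (sup_le_sup_left (ex_Rel_mono (h1 I) (h2 I)) _ : supp Λ P (S i I) ⊔ Rel P y _ _ ≤ _)
      (((s'.mem_U C y).1 hw I).2 i)⟩

/-- Change of shape, intersection.  `s'` is a smaller shape.  An element `f` of
`supp (A1' I)` lying in `supp (S i I) ⊔ Rel A1 A2 ≤ Rel A1 (S i I)` lies in `Rel (A1' ∪ S) S` by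
`supp_inf_Rel`, so `f - ∑ (y - YY) h ∈ supp S ⊓ supp A1'` with `h ∈ supp A1'`. -/
theorem U_restrict (hK : KZ n y P) (s' : Shape m) (h1 : ∀ I, s'.A1 I ⊆ s.A1 I)
    (h2 : ∀ I, s'.A2 I ⊆ s.A2 I) {q : ℕ} {S : Fam m} (hS : s.Closed q S)
    (hW : s.Win n S) :
    s'.U C y (fun _ I => s'.A1 I) ⊓ s.U C y S = s'.U C y (fun i I => S i I ∩ s'.A1 I) := by
  refine le_antisymm (fun w hw => ?_) (le_inf (s'.U_mono C y fun _ _ => Set.inter_subset_right)
    ((ex_U_le s C s' h1 h2 _).trans (s.U_mono C y fun _ _ => Set.inter_subset_left)))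
  obtain ⟨hw', hw⟩ := hw
  replace hw := (s.mem_U C y).1 hw
  replace hw' := (s'.mem_U C y).1 hw'
  refine (s'.mem_U C y).2 fun I => ⟨(hw' I).1, fun i => ?_⟩
  have hf := ex_onF_mem (C.p i) (hw' I).1
  have key : onF m (C.p i) (w I) ∈ Rel P y (s'.A1 I ∪ S i I) (S i I) := by
    refine supp_inf_Rel hK (s.st1 I) (fun u hu J => hu.imp (s'.st1 I u · J) (hS.st i I u · J))
      Set.subset_union_right (Set.union_subset (h1 I) (hS.hi i I))
      ((hW.finite s hS i I).subset (Set.sdiff_subset_sdiff_right Set.subset_union_right)) (s.bdd I)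
      (hW i I) ⟨ex_supp_mono Set.subset_union_left hf, ?_⟩
    rw [← ex_sup_Rel (hS.lo i I)]
    exact (hw I).2 i
  rw [ex_Rel, ex_R_union] at key
  obtain ⟨g, hg, t, ht, e⟩ := mem_sup.1 ((sup_le le_sup_left (sup_le le_sup_right
    ((ex_R_le (hS.st i I)).trans le_sup_left)) : _ ≤ supp Λ P (S i I) ⊔ ex_R P y (s'.A1 I)) key)
  rw [← e]
  refine add_mem_sup ?_ (mem_sup_right ht)
  rw [ex_supp_inter]
  refine ⟨hg, ?_⟩
  rw [eq_sub_of_add_eq e]
  exact sub_mem hf (ex_R_le (s'.st1 I) ht)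

/-- Change of shape, sum (no exactness needed). -/
theorem U_extend (s' : Shape m) (h1 : ∀ I, s'.A1 I ⊆ s.A1 I) (h2 : ∀ I, s'.A2 I ⊆ s.A2 I)
    {S' S : Fam m} (hS' : ∀ i I, S' i I ⊆ s'.A1 I) (hS : ∀ i I, S i I ⊆ s.A1 I) :
    s'.U C y S' ⊔ s.U C y S = s.U C y (fun i I => S' i I ∪ S i I) := by
  refine le_antisymm (sup_le ((ex_U_le s C s' h1 h2 _).trans
    (s.U_mono C y fun _ _ => Set.subset_union_left)) (s.U_mono C y fun _ _ => Set.subset_union_right))
    ((s.U_le_iff C y fun i I => Set.union_subset ((hS' i I).trans (h1 I)) (hS i I)).2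
      ⟨fun I f hf => mem_sup_right (((s.U_le_iff C y hS).1 le_rfl).1 I f hf), fun i I u hu w => ?_⟩)
  rcases hu with hu | hu
  · exact mem_sup_left (s'.single_mem_U C y hS' hu w)
  · exact mem_sup_right (s.single_mem_U C y hS hu w)

/-- Enlarging `A2` inside the family does not change `U`. -/
theorem U_congr (s' : Shape m) (h1 : ∀ I, s'.A1 I = s.A1 I) {S : Fam m}
    (h2 : ∀ i I, s.A2 I ⊆ S i I) (h2' : ∀ i I, s'.A2 I ⊆ S i I) : s'.U C y S = s.U C y S := by
  ext w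
  simp only [mem_U, h1, ex_sup_Rel (h2 _ _), ex_sup_Rel (h2' _ _)]

/-- Translation of the exponents as an automorphism of `EE`. -/
noncomputable def shE (Λ : Type) [CommRing Λ] (P : Type) [AddCommGroup P] [Module Λ P] (v : UU m) :
    EE m P ≃ₗ[Λ] EE m P :=
  LinearEquiv.piCongrRight fun _ => Finsupp.domLCongr (Equiv.addRight v)

theorem ex_shE (v : UU m) (w : EE m P) (I : Finset (Fin m)) :
    shE Λ P v w I = sh Λ P v (w I) :=
  Finsupp.equivMapDomain_eq_mapDomain (Equiv.addRight v) (w I)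

theorem ex_U_sh (s' : Shape m) (v : UU m) (h1 : ∀ I, ∀ u ∈ s.A1 I, u + v ∈ s'.A1 I)
    (h2 : ∀ I, ∀ u ∈ s.A2 I, u + v ∈ s'.A2 I) {S S' : Fam m}
    (h : ∀ i I, ∀ u ∈ S i I, u + v ∈ S' i I) {w : EE m P} (hw : w ∈ s.U C y S) :
    shE Λ P v w ∈ s'.U C y S' := by
  replace hw := (s.mem_U C y).1 hw
  refine (s'.mem_U C y).2 fun I => ?_
  rw [ex_shE]
  refine ⟨ex_sh_mem (h1 I) (hw I).1, fun i => ?_⟩
  obtain ⟨f, hf, r, hr, e⟩ := mem_sup.1 ((hw I).2 i)
  rw [← ex_sh_onF, ← e, map_add]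
  exact add_mem_sup (ex_sh_mem (h i I) hf) (ex_sh_Rel (h1 I) (h2 I) hr)

theorem shE_π (v : UU m) (j : ℤ) (w : EE m P) :
    shE Λ P v ((monoDG C).π j w) = (monoDG C).π j (shE Λ P v w) := by
  funext I
  rw [ex_shE]
  change sh Λ P v (mπ C j w I) = mπ C j (shE Λ P v w) I
  simp only [mπ, LinearMap.pi_apply]
  split_ifs
  · simp only [LinearMap.comp_apply, LinearMap.proj_apply, ex_shE, ex_sh_onF]
  · simp

theorem shE_del (v : UU m) (w : EE m P) :
    shE Λ P v ((monoDG C).del w) = (monoDG C).del (shE Λ P v w) := by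
  funext I
  rw [ex_shE]
  change sh Λ P v (onF m C.D (w I) + onF m C.sgn (cech Λ P w I)) =
    onF m C.D (shE Λ P v w I) + onF m C.sgn (cech Λ P (shE Λ P v w) I)
  rw [map_add, ex_sh_onF, ex_sh_onF, ex_shE]
  congr 2
  simp only [cech, LinearMap.pi_apply, LinearMap.sum_apply, LinearMap.smul_apply,
    LinearMap.proj_apply, map_sum, map_smul, ex_shE]

theorem U_shE (s' : Shape m) (v : UU m) (h1 : ∀ I u, u + v ∈ s'.A1 I ↔ u ∈ s.A1 I)
    (h2 : ∀ I u, u + v ∈ s'.A2 I ↔ u ∈ s.A2 I) {S S' : Fam m}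
    (h : ∀ i I u, u + v ∈ S' i I ↔ u ∈ S i I) :
    (s.U C y S).map (shE Λ P v : EE m P →ₗ[Λ] EE m P) = s'.U C y S' := by
  refine le_antisymm ?_ fun w hw => ⟨shE Λ P (-v) w, ?_, ?_⟩
  · rintro _ ⟨w, hw, rfl⟩
    exact ex_U_sh s C s' v (fun I u => (h1 I u).2) (fun I u => (h2 I u).2)
      (fun i I u => (h i I u).2) hw
  · refine ex_U_sh s' C s (-v) (fun I u hu => (h1 I _).1 ?_) (fun I u hu => (h2 I _).1 ?_)
      (fun i I u hu => (h i I _).1 ?_) hw <;> rwa [neg_add_cancel_right]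
  · funext I
    change shE Λ P v (shE Λ P (-v) w) I = w I
    rw [ex_shE, ex_shE, ← Module.End.mul_apply, ex_sh_sh, neg_add_cancel, ex_sh_zero]

end Shape

end Crest.Agent.R183
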