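import Crest.Agent.R183.MonoEX

/-!
# rid 183, file `MonoStep`: counting and elimination

Prefix helper lemmas with `ms_`.  Both theorems are proved by induction on the finite set
`Δ = {(i, I, u) | i ≤ m + 1, u ∈ S i I \ S' i I}`.  Pick `(i, I, u) ∈ Δ` minimising lexicographically
`(u.1 + i * q, -i, #I)`.  Removing it from `S` keeps the family closed: a predecessor
`(i, I, u - gam J)`, `(i, I.erase j, u)` or `(i + 1, I, u - ∑ gam (l k))` in `S` either lies in `S'` (then so
does `(i, I, u)`) or in `Δ` with smaller potential.  WLOG `S i = S' i` for `i > m + 1` is not needed: replace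
`S i` by `S' i` for `i > m + 1` first (this does not change `U`, since `C.p i = 0`, and keeps closedness
because `S' ⊆ S`).
-/

set_option autoImplicit false

open Submodule

namespace Crest.Agent.R183

variable {Λ : Type} [CommRing Λ] {m : ℕ} {P : Type} [AddCommGroup P] [Module Λ P]
  {y : Fin (m + 1) → Λ} {n : ℕ}

namespace Shape

variable (s : Shape m) (C : Cx Λ (m + 1) P)

/-- The generators at `(i, I, u)`. -/
noncomputable def msφ (i : ℕ) (I : Finset (Fin m)) (u : UU m) : P →ₗ[Λ] EE m P :=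
  (LinearMap.single Λ (fun _ : Finset (Fin m) => FF m P) I).comp
    ((Finsupp.lsingle u : P →ₗ[Λ] FF m P).comp (C.p i))

theorem ms_φ_apply (i : ℕ) (I : Finset (Fin m)) (u : UU m) (w : P) :
    msφ C i I u w = (Pi.single I (Finsupp.single u (C.p i w)) : EE m P) := rfl

theorem ms_onF_single (f : Module.End Λ P) (u : UU m) (w : P) :
    onF m f (Finsupp.single u w) = Finsupp.single u (f w) := by
  simp [onF]

theorem ms_pp (i j : ℕ) (w : P) : C.p i (C.p j w) = if i = j then C.p i w else 0 := by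
  rw [← Module.End.mul_apply, C.p_mul]
  split_ifs <;> rfl

theorem ms_p_zero {i : ℕ} (hi : m + 1 < i) : C.p i = 0 := by
  rw [← mul_one (C.p i), ← C.p_sum, Finset.mul_sum]
  refine Finset.sum_eq_zero fun j hj => ?_
  rw [C.p_mul, if_neg]
  have := Finset.mem_range.1 hj
  omega

theorem ms_sgn {i : ℕ} (w : P) : C.sgn (C.p i w) = (-1 : Λ) ^ i • C.p i w := by
  rw [Cx.sgn, LinearMap.sum_apply, Finset.sum_eq_single i]
  · rw [LinearMap.smul_apply, ms_pp, if_pos rfl]
  · intro j _ hj
    rw [LinearMap.smul_apply, ms_pp, if_neg hj, smul_zero]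
  · intro hi
    rw [ms_p_zero C (by have := Finset.mem_range.not.1 hi; omega)]
    simp

theorem ms_π_φ (j : ℤ) (i : ℕ) (I : Finset (Fin m)) (u : UU m) (w : P) :
    (monoDG C).π j (msφ C i I u w) = if j = (i : ℤ) - I.card then msφ C i I u w else 0 := by
  funext I'
  have h1 : (monoDG C).π j (msφ C i I u w) I' = if 0 ≤ j + I'.card then
      onF m (C.p (j + I'.card).toNat) (msφ C i I u w I') else 0 := by
    change (if 0 ≤ j + I'.card then (onF m (C.p (j + I'.card).toNat)).comp
      (LinearMap.proj I' : EE m P →ₗ[Λ] FF m P) else 0) (msφ C i I u w) = _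
    split_ifs <;> rfl
  rw [h1, ite_apply, Pi.zero_apply, ms_φ_apply]
  by_cases hI : I' = I
  · subst hI
    rw [Pi.single_eq_same, ms_onF_single, ms_pp]
    by_cases hj : j = (i : ℤ) - I'.card
    · have h2 : (j + I'.card).toNat = i := by omega
      rw [if_pos (by omega), if_pos h2, if_pos hj, h2]
    · rw [if_neg hj]
      split_ifs with h2 h3
      · omega
      · simp
      · rfl
  · simp [Pi.single_eq_of_ne hI]

theorem ms_single_mem {S : Fam m} {i : ℕ} {I : Finset (Fin m)} {u : UU m} (hu : u ∈ s.A1 I) {w : P}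
    (h : Finsupp.single u (C.p i w) ∈ supp Λ P (S i I) ⊔ Rel P y (s.A1 I) (s.A2 I)) :
    msφ C i I u w ∈ s.U C y S := by
  rw [mem_U]
  intro I'
  rw [ms_φ_apply]
  by_cases hI : I' = I
  · subst hI
    rw [Pi.single_eq_same]
    refine ⟨Finsupp.single_mem_supported Λ _ hu, fun i' => ?_⟩
    rw [ms_onF_single, ms_pp]
    split_ifs with h'
    · subst h'; exact h
    · simp
  · simp [Pi.single_eq_of_ne hI]

theorem ms_ne_add_gam (u : UU m) (J : Finset (Fin m)) : u + gam J ≠ u := fun h => by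
  have := congrArg Prod.fst h
  simp [gam] at this

theorem ms_mem_of_ism {S : Fam m} {i : ℕ} {I : Finset (Fin m)} {u : UU m} (hu : u ∈ s.A1 I)
    (hst : Stable (insert u (S i I))) {w : P} (hw : C.p i w ∈ ism (idl y) P) :
    msφ C i I u w ∈ s.U C y S := by
  refine ms_single_mem s C hu (single_pow_mem y (q := 1) (s.st1 I) hu (fun l => ?_) (by rwa [pow_one]))
  rw [Fin.sum_univ_one]
  exact (hst u (Set.mem_insert _ _) (l 0)).resolve_left (ms_ne_add_gam u _)

theorem ms_ism_of_mem (hK : KZ n y P) {q : ℕ} {S : Fam m} (hS : s.Closed q S) (hW : s.Win n S) {i : ℕ}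
    {I : Finset (Fin m)} {u : UU m} (hu : u ∈ s.A1 I) (hu' : u ∉ S i I)
    (hst : Stable (insert u (S i I))) {w : P} (hw : msφ C i I u w ∈ s.U C y S) :
    C.p i w ∈ ism (idl y) P := by
  have h1 := (((mem_U s C y).1 hw) I).2 i
  rw [ms_φ_apply, Pi.single_eq_same, ms_onF_single, ms_pp, if_pos rfl] at h1
  refine mem_of_single_mem_Rel hK (s.st1 I) hu' hu (hS.st i I) hst (hS.hi i I)
    (Win.finite s hS hW i I) (s.bdd I) (hW i I) ?_
  refine (show _ ≤ Rel P y (s.A1 I) (S i I) from ?_) h1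
  exact sup_le le_sup_left (sup_le_sup_right (Finsupp.supported_mono (hS.lo i I)) _)

theorem ms_mem_top {i : ℕ} {w : P} : w ∈ C.top y i ↔ C.p i w ∈ ism (idl y) P := by
  constructor
  · intro h
    obtain ⟨a, ha, b, hb, rfl⟩ := Submodule.mem_sup.1 h
    rw [map_add, LinearMap.mem_ker.1 hb, add_zero]
    refine Submodule.smul_induction_on ha (fun r hr x _ => ?_) fun x x' hx hx' => ?_
    · rw [map_smul]; exact Submodule.smul_mem_smul hr trivial
    · rw [map_add]; exact add_mem hx hx'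
  · intro h
    rw [← add_sub_cancel (C.p i w) w]
    refine Submodule.add_mem_sup h ?_
    rw [LinearMap.mem_ker, map_sub, ms_pp, if_pos rfl, sub_self]

theorem ms_U_eq {S S' : Fam m} (hS : ∀ i I, S i I ⊆ s.A1 I) {i : ℕ} {I : Finset (Fin m)} {u : UU m}
    (h1 : S i I = insert u (S' i I)) (h2 : ∀ i' I', (i', I') ≠ (i, I) → S i' I' = S' i' I') :
    s.U C y S = LinearMap.range (msφ C i I u) ⊔ s.U C y S' := by
  have hle : ∀ i' I', S' i' I' ⊆ S i' I' := fun i' I' => by
    by_cases h : (i', I') = (i, I)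
    · obtain ⟨rfl, rfl⟩ := Prod.mk.inj h
      rw [h1]; exact Set.subset_insert _ _
    · rw [h2 i' I' h]
  have hS' : ∀ i I, S' i I ⊆ s.A1 I := fun i I => (hle i I).trans (hS i I)
  have h3 := (U_le_iff s C y hS').1 le_rfl
  refine le_antisymm ((U_le_iff s C y hS).2 ⟨fun I' f hf => Submodule.mem_sup_right (h3.1 I' f hf),
    fun i' I' v hv w => ?_⟩) (sup_le ?_ (U_mono s C y hle))
  · by_cases h : (i', I') = (i, I)
    · obtain ⟨rfl, rfl⟩ := Prod.mk.inj h
      rw [h1] at hv
      rcases hv with rfl | hv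
      · exact Submodule.mem_sup_left ⟨w, rfl⟩
      · exact Submodule.mem_sup_right (h3.2 _ _ v hv w)
    · rw [h2 i' I' h] at hv
      exact Submodule.mem_sup_right (h3.2 _ _ v hv w)
  · rintro _ ⟨w, rfl⟩
    exact single_mem_U s C y hS (by rw [h1]; exact Set.mem_insert _ _) w

theorem ms_cech_single (I : Finset (Fin m)) (x : FF m P) :
    cech Λ P (Pi.single I x : EE m P) = ∑ j ∈ Iᶜ,
      ((-1 : Λ) ^ ((insert j I).filter (· < j)).card) • (Pi.single (insert j I) x : EE m P) := by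
  funext I'
  rw [cech, LinearMap.pi_apply, LinearMap.sum_apply, Finset.sum_apply]
  simp only [LinearMap.smul_apply, LinearMap.proj_apply, Pi.smul_apply, Pi.single_apply, smul_ite,
    smul_zero]
  rw [← Finset.sum_filter, ← Finset.sum_filter]
  refine Finset.sum_congr ?_ fun j hj => ?_
  · ext j
    simp only [Finset.mem_filter, Finset.mem_compl]
    constructor
    · rintro ⟨hj, rfl⟩
      exact ⟨Finset.notMem_erase _ _, (Finset.insert_erase hj).symm⟩
    · rintro ⟨hj, rfl⟩
      exact ⟨Finset.mem_insert_self _ _, Finset.erase_insert hj⟩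
  · rw [(Finset.mem_filter.1 hj).2]

theorem ms_onE_single (f : Module.End Λ (FF m P)) (I : Finset (Fin m)) (x : FF m P) :
    onE f (Pi.single I x : EE m P) = (Pi.single I (f x) : EE m P) := by
  funext I'
  change f ((Pi.single I x : EE m P) I') = _
  by_cases h : I' = I
  · subst h; simp
  · simp [Pi.single_eq_of_ne h]

theorem ms_del_φ (i : ℕ) (I : Finset (Fin m)) (u : UU m) (w : P) :
    (monoDG C).del (msφ C i I u w) = (Pi.single I (Finsupp.single u (C.D (C.p i w))) : EE m P) +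
      ∑ j ∈ Iᶜ, ((-1 : Λ) ^ (((insert j I).filter (· < j)).card + i)) • msφ C i (insert j I) u w := by
  change (onE (onF m C.D) + onE (onF m C.sgn) * cech Λ P : Module.End Λ (EE m P))
    (msφ C i I u w) = _
  rw [LinearMap.add_apply, Module.End.mul_apply, ms_φ_apply, ms_onE_single, ms_onF_single,
    ms_cech_single, map_sum]
  congr 1
  refine Finset.sum_congr rfl fun j _ => ?_
  rw [map_smul, ms_onE_single, ms_onF_single, ms_sgn, ms_φ_apply, pow_add, mul_smul,
    ← Finsupp.smul_single, Pi.single_smul]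

/-- Remove one monomial from a family. -/
def msRem (S : Fam m) (i : ℕ) (I : Finset (Fin m)) (u : UU m) : Fam m :=
  fun i' I' => {v | v ∈ S i' I' ∧ (i', I', v) ≠ (i, I, u)}

theorem ms_mem_rem {S : Fam m} {i i' : ℕ} {I I' : Finset (Fin m)} {u v : UU m} :
    v ∈ msRem S i I u i' I' ↔ v ∈ S i' I' ∧ (i', I', v) ≠ (i, I, u) := Iff.rfl

theorem ms_rem_insert {S : Fam m} {i : ℕ} {I : Finset (Fin m)} {u : UU m} (hu : u ∈ S i I) :
    S i I = insert u (msRem S i I u i I) := by
  ext v
  rw [Set.mem_insert_iff, ms_mem_rem]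
  by_cases h : v = u
  · simp [h, hu]
  · simp [h]

theorem ms_rem_ne {S : Fam m} {i : ℕ} {I : Finset (Fin m)} {u : UU m} (i' : ℕ) (I' : Finset (Fin m))
    (h : (i', I') ≠ (i, I)) : S i' I' = msRem S i I u i' I' := by
  ext v
  rw [ms_mem_rem]
  refine ⟨fun hv => ⟨hv, fun h' => h ?_⟩, fun hv => hv.1⟩
  simp only [Prod.mk.injEq] at h' ⊢
  exact ⟨h'.1, h'.2.1⟩

theorem ms_le_rem {S S' : Fam m} (hle : ∀ i I, S' i I ⊆ S i I) {i : ℕ} {I : Finset (Fin m)} {u : UU m}
    (hu : u ∉ S' i I) (i' : ℕ) (I' : Finset (Fin m)) : S' i' I' ⊆ msRem S i I u i' I' := by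
  refine fun v hv => ⟨hle i' I' hv, fun h => hu ?_⟩
  simp only [Prod.mk.injEq] at h
  obtain ⟨rfl, rfl, rfl⟩ := h
  exact hv

theorem ms_rem_closed {q : ℕ} {S S' : Fam m} (hS : s.Closed q S) (hS' : s.Closed q S')
    {i : ℕ} {I : Finset (Fin m)} {u : UU m} (hu : u ∉ S' i I)
    (h1 : ∀ v J, v + gam J = u → v ∈ S i I → v ∈ S' i I)
    (h2 : ∀ I' j, insert j I' = I → I' ≠ I → u ∈ S i I' → u ∈ S' i I')
    (h3 : ∀ v (l : Fin q → Finset (Fin m)), v + ∑ k, gam (l k) = u → v ∈ S (i + 1) I →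
      v ∈ S' (i + 1) I) : s.Closed q (msRem S i I u) where
  lo i' I' v hv := ⟨hS.lo i' I' hv, fun h => by
    simp only [Prod.mk.injEq] at h
    obtain ⟨rfl, rfl, rfl⟩ := h
    exact hu (hS'.lo _ _ hv)⟩
  hi i' I' v hv := hS.hi i' I' hv.1
  st i' I' v hv J := ⟨hS.st i' I' v hv.1 J, fun h => by
    simp only [Prod.mk.injEq] at h
    obtain ⟨rfl, rfl, rfl⟩ := h
    exact hu (hS'.st _ _ v (h1 v J rfl hv.1) J)⟩
  mono i' I' j v hv := ⟨hS.mono i' I' j hv.1, fun h => by
    simp only [Prod.mk.injEq] at h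
    obtain ⟨rfl, rfl, rfl⟩ := h
    exact hu (hS'.mono _ _ j (h2 I' j rfl (fun h' => hv.2 (by rw [← h'])) hv.1))⟩
  dcl i' I' v hv l := ⟨hS.dcl i' I' v hv.1 l, fun h => by
    simp only [Prod.mk.injEq] at h
    obtain ⟨rfl, rfl, rfl⟩ := h
    exact hu (hS'.dcl _ _ v (h3 v l rfl hv.1) l)⟩

/-- The difference of two families. -/
def msΔ (S S' : Fam m) : Set (ℕ × Finset (Fin m) × UU m) :=
  {t | t.2.2 ∈ S t.1 t.2.1 \ S' t.1 t.2.1}

theorem ms_Δ_finite {q : ℕ} {S S' : Fam m} (hS : s.Closed q S) (hS' : s.Closed q S') (hW : s.Win n S')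
    (hN : ∀ i, m + 1 < i → S i = S' i) : (msΔ S S').Finite := by
  refine ((Set.finite_Iic (m + 1)).biUnion fun i _ => Set.finite_iUnion fun I : Finset (Fin m) =>
    (Win.finite s hS' hW i I).image fun v => (i, I, v)).subset ?_
  rintro ⟨i, I, v⟩ ht
  have h1 : v ∈ S i I \ S' i I := ht
  refine Set.mem_biUnion (x := i) ?_ (Set.mem_iUnion.2 ⟨I, v, ⟨hS.hi i I h1.1, h1.2⟩, rfl⟩)
  by_contra h
  rw [hN i (by simpa using h)] at h1
  exact h1.2 h1.1

theorem ms_Δ_rem {S S' : Fam m} (hfin : (msΔ S S').Finite) {i : ℕ} {I : Finset (Fin m)} {u : UU m}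
    (hu : u ∈ S i I \ S' i I) : (msΔ (msRem S i I u) S').ncard < (msΔ S S').ncard := by
  refine Set.ncard_lt_ncard ⟨fun t ht => ⟨ht.1.1, ht.2⟩, fun h => ?_⟩ hfin
  exact (h (show (i, I, u) ∈ msΔ S S' from hu)).1.2 rfl

theorem ms_eq_of_Δ {S S' : Fam m} (hle : ∀ i I, S' i I ⊆ S i I) (h : msΔ S S' = ∅) : S = S' := by
  funext i I
  refine Set.Subset.antisymm (fun v hv => ?_) (hle i I)
  by_contra hv'
  exact (Set.eq_empty_iff_forall_notMem.1 h (i, I, v)) ⟨hv, hv'⟩

theorem ms_sum_gam {q : ℕ} (l : Fin q → Finset (Fin m)) : (∑ k, gam (l k)).1 = q := by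
  rw [Prod.fst_sum]
  simp [gam]

/-- The minimal element of the difference. -/
theorem ms_min (q : ℕ) {S S' : Fam m} (hfin : (msΔ S S').Finite) (hne : msΔ S S' ≠ ∅) :
    ∃ (i : ℕ) (I : Finset (Fin m)) (u : UU m), u ∈ S i I \ S' i I ∧
      (∀ I' v J, v + gam J = u → v ∈ S i I' → v ∈ S' i I') ∧
      (∀ I', I'.card < I.card → u ∈ S i I' → u ∈ S' i I') ∧
      ∀ I' v (l : Fin q → Finset (Fin m)), v + ∑ k, gam (l k) = u → v ∈ S (i + 1) I' →
        v ∈ S' (i + 1) I' := by
  obtain ⟨⟨i, I, u⟩, ht, hmin⟩ := Set.exists_min_image (msΔ S S')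
    (fun t => toLex (t.2.2.1 + t.1 * q, toLex (-(t.1 : ℤ), t.2.1.card))) hfin
    (Set.nonempty_iff_ne_empty.2 hne)
  refine ⟨i, I, u, ht, fun I' v J h hv => ?_, fun I' h hv => ?_, fun I' v l h hv => ?_⟩
  · by_contra hv'
    have h1 := hmin (i, I', v) ⟨hv, hv'⟩
    have h2 : v.1 + 1 = u.1 := congrArg Prod.fst h
    simp only [Prod.Lex.toLex_le_toLex] at h1
    omega
  · by_contra hv'
    have h1 := hmin (i, I', u) ⟨hv, hv'⟩
    simp only [Prod.Lex.toLex_le_toLex] at h1
    omega
  · by_contra hv'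
    have h1 := hmin (i + 1, I', v) ⟨hv, hv'⟩
    have h2 : v.1 + q = u.1 := by rw [← h, Prod.fst_add, ms_sum_gam]
    simp only [Prod.Lex.toLex_le_toLex, Nat.cast_add, Nat.cast_one, add_mul, one_mul] at h1
    omega

theorem ms_card_lt {I I' : Finset (Fin m)} {j : Fin m} (h : insert j I' = I) (h' : I' ≠ I) :
    I'.card < I.card :=
  Finset.card_lt_card (Finset.ssubset_iff_subset_ne.2 ⟨h ▸ Finset.subset_insert _ _, h'⟩)

/-- Normalisation above the top degree. -/
theorem ms_norm {q : ℕ} {S S' : Fam m} (hS : s.Closed q S) (hS' : s.Closed q S')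
    (hle : ∀ i I, S' i I ⊆ S i I) : ∃ S0 : Fam m, s.Closed q S0 ∧ (∀ i I, S' i I ⊆ S0 i I) ∧
      (∀ i, m + 1 < i → S0 i = S' i) ∧ (∀ i ≤ m + 1, S0 i = S i) ∧ s.U C y S0 = s.U C y S := by
  have h1 : ∀ i I, (if i ≤ m + 1 then S i else S' i) I ⊆ S i I := fun i I => by
    split_ifs
    · exact subset_rfl
    · exact hle i I
  have h2 : ∀ i I, S' i I ⊆ (if i ≤ m + 1 then S i else S' i) I := fun i I => by
    split_ifs
    · exact hle i I
    · exact subset_rfl
  have h3 : ∀ i I, (if i ≤ m + 1 then S i else S' i) I ⊆ s.A1 I := fun i I => (h1 i I).trans (hS.hi i I)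
  refine ⟨fun i => if i ≤ m + 1 then S i else S' i,
    ⟨fun i I => (hS'.lo i I).trans (h2 i I), h3, fun i I => ?_, fun i I j => ?_, fun i I u hu l => ?_⟩,
    h2, fun i hi => if_neg (by omega), fun i hi => if_pos hi,
    le_antisymm (U_mono s C y h1) ((U_le_iff s C y hS.hi).2
      ⟨((U_le_iff s C y h3).1 le_rfl).1, fun i I u hu w => ?_⟩)⟩
  · split_ifs
    · exact hS.st i I
    · exact hS'.st i I
  · split_ifs
    · exact hS.mono i I j
    · exact hS'.mono i I j
  · by_cases hi : i ≤ m + 1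
    · rw [if_pos hi]
      exact hS.dcl i I u (h1 _ _ hu) l
    · rw [if_neg (by omega)] at hu
      exact h2 _ _ (hS'.dcl i I u hu l)
  · by_cases hi : i ≤ m + 1
    · exact single_mem_U s C y h3 (by rwa [if_pos hi]) w
    · rw [ms_p_zero C (by omega)]
      simp

/-- One step: `U S = U S' ⊔ range φ` with `φ w = Pi.single I (single u (p i w))`, homogeneous of degree
`i - #I`, and `comap φ (U S') = C.top y i` by `mem_of_single_mem_Rel`
(`supp (S' i I) ⊔ Rel A1 A2 = Rel A1 (S' i I)`; if `p i w ∈ (y) P` then `w = p i w + (w - p i w) ∈ top`). -/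
theorem chi_step (hK : KZ n y P) {α : Λ} (L : GLen Λ α) {q : ℕ}
    (hD : LinearMap.range C.D ≤ ism (idl y ^ q) P) {S S' : Fam m}
    (hS : s.Closed q S) (hS' : s.Closed q S') (hW : s.Win n S') {i : ℕ} (hi : i ≤ m + 1)
    {I : Finset (Fin m)} {u : UU m} (hu : u ∉ S' i I) (h1 : S i I = insert u (S' i I))
    (h2 : ∀ i' I', (i', I') ≠ (i, I) → S i' I' = S' i' I') (hP : L.G P) :
    (monoDG C).chi L (s.U C y S) (s.U C y S')
      = (-1 : ℝ) ^ (i + I.card) * L.l (P ⧸ C.top y i) := by
  have huA : u ∈ s.A1 I := hS.hi i I (by rw [h1]; exact Set.mem_insert _ _)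
  have hst : Stable (insert u (S' i I)) := h1 ▸ hS.st i I
  have hc : (s.U C y S').comap (msφ C i I u) = C.top y i := by
    ext w
    rw [Submodule.mem_comap, ms_mem_top]
    exact ⟨ms_ism_of_mem s C hK hS' hW huA hu hst, ms_mem_of_ism s C huA hst⟩
  have hI : I.card ≤ m := by simpa using I.card_le_univ
  rw [ms_U_eq s C hS.hi h1 h2, DG.chi_sup L (U_sub s C y hD hS').1 le_rfl, DG.chi,
    Finset.sum_eq_single ((i : ℤ) - I.card)]
  · rw [← LinearMap.range_comp, GLen.l2_range]
    have h3 : ((monoDG C).π ((i : ℤ) - I.card)).comp (msφ C i I u) = msφ C i I u :=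
      LinearMap.ext fun w => by rw [LinearMap.comp_apply, ms_π_φ, if_pos rfl]
    rw [h3, hc]
    congr 1
    rcases Nat.even_or_odd (i + I.card) with h | h
    · rw [h.neg_one_pow, Even.neg_one_pow]
      obtain ⟨k, hk⟩ := h
      rw [Nat.even_iff]; omega
    · rw [h.neg_one_pow, Odd.neg_one_pow]
      obtain ⟨k, hk⟩ := h
      rw [Nat.odd_iff]; omega
  · intro j _ hj
    rw [← LinearMap.range_comp, GLen.l2_range]
    have h3 : ((monoDG C).π j).comp (msφ C i I u) = 0 :=
      LinearMap.ext fun w => by rw [LinearMap.comp_apply, ms_π_φ, if_neg hj]; rfl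
    rw [h3, Submodule.comap_zero, L.l_kill _ (L.G_surj _ _ _ (Submodule.mkQ_surjective _) hP)
      fun v => Subsingleton.elim _ _, mul_zero]
  · intro h
    refine absurd (Finset.mem_Icc.2 ?_) h
    change -(m : ℤ) ≤ _ ∧ _ ≤ (m : ℤ) + 1
    omega

/-- Counting formula; goodness comes from `Fil_good` with the pair `Fil bot`, `Fil (bot + n)`. -/
theorem chi_U (hK : KZ n y P) {α : Λ} (L : GLen Λ α) (hP : L.G P) {q : ℕ}
    (hD : LinearMap.range C.D ≤ ism (idl y ^ q) P) {S S' : Fam m}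
    (hS : s.Closed q S) (hS' : s.Closed q S') (hle : ∀ i I, S' i I ⊆ S i I) (hW : s.Win n S') :
    (monoDG C).chi L (s.U C y S) (s.U C y S')
      = ∑ i ∈ Finset.range (m + 2), ∑ I : Finset (Fin m),
          (-1 : ℝ) ^ (i + I.card) * ((S i I \ S' i I).ncard : ℝ) * L.l (P ⧸ C.top y i) := by
  obtain ⟨S0, hS0, hle0, hN, h0, hU⟩ := ms_norm s C (y := y) hS hS' hle
  rw [← hU, Finset.sum_congr rfl fun i hi => by
    rw [← h0 i (by have := Finset.mem_range.1 hi; omega)]]
  clear h0 hU hS hle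
  have hchain : ∀ {S1 S2 : Fam m}, s.Closed q S1 → s.Closed q S2 → (∀ i I, S' i I ⊆ S2 i I) →
      (∀ i I, S2 i I ⊆ S1 i I) → (monoDG C).chi L (s.U C y S1) (s.U C y S') =
        (monoDG C).chi L (s.U C y S1) (s.U C y S2) + (monoDG C).chi L (s.U C y S2) (s.U C y S') := by
    intro S1 S2 h1 h2 h3 h4
    refine DG.chi_chain L (Fil_good s C y L hP s.bot (s.bot + n)) (U_sub s C y hD h1).1
      (U_sub s C y hD h2).1 (U_mono s C y fun i I v hv => ?_) (U_mono s C y h3) (U_mono s C y h4)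
      (U_mono s C y fun i I v hv => Or.inl ⟨h1.hi i I hv, s.bdd I v (h1.hi i I hv)⟩)
    rcases hv with hv | hv
    · exact hW i I v hv.1 hv.2
    · exact hS'.lo i I hv
  induction hn : (msΔ S0 S').ncard using Nat.strong_induction_on generalizing S0 with
  | _ N ih =>
  have hfin := ms_Δ_finite s hS0 hS' hW hN
  by_cases hne : msΔ S0 S' = ∅
  · rw [ms_eq_of_Δ hle0 hne]
    have := hchain hS' hS' (fun _ _ => subset_rfl) fun _ _ => subset_rfl
    simp only [Set.sdiff_self, Set.ncard_empty, Nat.cast_zero, mul_zero, zero_mul,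
      Finset.sum_const_zero]
    linarith
  obtain ⟨i, I, u, hu, m1, m2, m3⟩ := ms_min q hfin hne
  have hi : i ≤ m + 1 := by
    by_contra h
    rw [hN i (by omega)] at hu
    exact hu.2 hu.1
  have hc := ms_rem_closed s hS0 hS' hu.2 (m1 I) (fun I' j h h' => m2 I' (ms_card_lt h h')) (m3 I)
  have hle1 := ms_le_rem hle0 hu.2
  rw [hchain hS0 hc hle1 fun _ _ v hv => hv.1,
    chi_step s C hK L hD hS0 hc (fun i I v hv hv' => hle1 i I (hW i I v hv hv')) hi
      (fun h => h.2 rfl) (ms_rem_insert hu.1) ms_rem_ne hP,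
    ih _ (hn ▸ ms_Δ_rem hfin hu) _ hc hle1 (fun i' hi' => by
      rw [← hN i' hi']
      exact funext fun I' => (ms_rem_ne i' I' fun h => by
        have := (Prod.mk.inj h).1; omega).symm) rfl]
  have h1 : ∀ i' I', ((S0 i' I' \ S' i' I').ncard : ℝ) =
      (if I' = I then if i' = i then 1 else 0 else 0) + (msRem S0 i I u i' I' \ S' i' I').ncard := by
    intro i' I'
    by_cases h : (i', I') = (i, I)
    · obtain ⟨rfl, rfl⟩ := Prod.mk.inj h
      have h2 : S0 i' I' \ S' i' I' = insert u (msRem S0 i' I' u i' I' \ S' i' I') := by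
        rw [← Set.insert_sdiff_of_notMem _ hu.2, ← ms_rem_insert hu.1]
      rw [h2, Set.ncard_insert_of_notMem (fun h => h.1.2 rfl)
        ((Win.finite s hS' hW i' I').subset fun v hv => ⟨hc.hi _ _ hv.1, hv.2⟩)]
      simp [add_comm]
    · rw [← ms_rem_ne i' I' h]
      have h2 : (if I' = I then if i' = i then (1 : ℝ) else 0 else 0) = 0 := by
        split_ifs with h3 h4
        · exact absurd (by rw [h3, h4]) h
        · rfl
        · rfl
      rw [h2, zero_add]
  simp only [h1, mul_add, add_mul, Finset.sum_add_distrib, mul_ite, ite_mul, mul_zero, zero_mul,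
    mul_one, Finset.sum_ite_eq', Finset.mem_univ, if_true, Finset.mem_range]
  rw [if_pos (by omega)]

/-- Elimination (discrete Morse theory).  For the minimal `(i, I, u)`: if the second alternative holds,
remove it; the degree `j` parts of `U` do not change.  If the first holds with `j0`, then `j0 ∉ I`
(minimality of `#I`); remove both `(i, I, u)` and `(i, insert j0 I, u)` (the family stays closed, and the
hypothesis persists).  Let `U1` be the smaller complex, `φ w`, `φ' w` the generators at `I`, `insert j0 I`;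
`∂ (φ w) ≡ ± φ' w` modulo `U1`.  A homogeneous `z ∈ U S` of degree `j` is in `U1`, or `≡ φ' w ≡ ± ∂ (φ w)`,
or `≡ φ w`; in the last case `∂ z ∈ U S' ≤ U1` forces `φ' w ∈ U1`, so `p i w ∈ (y) P` by
`mem_of_single_mem_Rel` and `φ w ∈ U1` (`single_pow_mem` with `q = 1`).  So `z = ∂ v + z1`, `z1 ∈ U1`; replace
`z1` by `π j z1` and apply the induction hypothesis. -/
theorem elim (hK : KZ n y P) {q : ℕ} (hD : LinearMap.range C.D ≤ ism (idl y ^ q) P) {S S' : Fam m}
    (hS : s.Closed q S) (hS' : s.Closed q S') (hle : ∀ i I, S' i I ⊆ S i I) (hW : s.Win n S') (j : ℤ)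
    (H : ∀ i ≤ m + 1, ∀ u : UU m,
      (∃ j0, ∀ I, j0 ∉ I → (u ∈ S i I \ S' i I ↔ u ∈ S i (insert j0 I) \ S' i (insert j0 I))) ∨
      ∀ I, u ∈ S i I \ S' i I → (i : ℤ) - I.card ≠ j)
    {z : EE m P} (hz : z ∈ s.U C y S) (hj : (monoDG C).π j z = z)
    (hd : (monoDG C).del z ∈ s.U C y S') :
    z ∈ (s.U C y S).map (monoDG C).del ⊔ s.U C y S' := by
  obtain ⟨S0, hS0, hle0, hN, h0, hU⟩ := ms_norm s C (y := y) hS hS' hle
  rw [← hU] at hz ⊢
  have H0 : ∀ i ≤ m + 1, ∀ u : UU m,
      (∃ j0, ∀ I, j0 ∉ I → (u ∈ S0 i I \ S' i I ↔ u ∈ S0 i (insert j0 I) \ S' i (insert j0 I))) ∨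
      ∀ I, u ∈ S0 i I \ S' i I → (i : ℤ) - I.card ≠ j := fun i hi u => by
    rw [h0 i hi]; exact H i hi u
  clear h0 hU hS hle H
  induction hn : (msΔ S0 S').ncard using Nat.strong_induction_on generalizing S0 z with
  | _ N ih =>
  have hfin := ms_Δ_finite s hS0 hS' hW hN
  by_cases hne : msΔ S0 S' = ∅
  · rw [ms_eq_of_Δ hle0 hne] at hz
    exact Submodule.mem_sup_right hz
  obtain ⟨i, I, u, hu, m1, m2, m3⟩ := ms_min q hfin hne
  have hi : i ≤ m + 1 := by
    by_contra h
    rw [hN i (by omega)] at hu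
    exact hu.2 hu.1
  have hc := ms_rem_closed s hS0 hS' hu.2 (m1 I) (fun I' j h h' => m2 I' (ms_card_lt h h')) (m3 I)
  have hle1 := ms_le_rem hle0 hu.2
  have hU1 := ms_U_eq s C (y := y) hS0.hi (ms_rem_insert hu.1) ms_rem_ne
  have hN' : ∀ (S : Fam m) (I : Finset (Fin m)), (∀ i, m + 1 < i → S i = S' i) →
      ∀ i', m + 1 < i' → msRem S i I u i' = S' i' := fun S I hS i' hi' => by
    rw [← hS i' hi']
    exact funext fun I' => (ms_rem_ne i' I' fun h => by have := (Prod.mk.inj h).1; omega).symm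
  have hoth : ∀ (S : Fam m) (I I' : Finset (Fin m)) (i' : ℕ) (u' : UU m), (i', u') ≠ (i, u) →
      (u' ∈ msRem S i I u i' I' \ S' i' I' ↔ u' ∈ S i' I' \ S' i' I') := fun S I I' i' u' h =>
    and_congr_left' (and_iff_left fun h' => h (by
      simp only [Prod.mk.injEq] at h' ⊢; exact ⟨h'.1, h'.2.2⟩))
  rcases H0 i hi u with ⟨j0, hj0⟩ | hdeg
  · have hj0I : j0 ∉ I := fun h => by
      have h1 := (hj0 (I.erase j0) (Finset.notMem_erase _ _)).2 (by rwa [Finset.insert_erase h])
      exact h1.2 (m2 _ (Finset.card_erase_lt_of_mem h) h1.1)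
    have hII : insert j0 I ≠ I := fun h => hj0I (h ▸ Finset.mem_insert_self _ _)
    have hu' := (hj0 I hj0I).1 hu
    have hu1 : u ∈ msRem S0 i I u i (insert j0 I) \ S' i (insert j0 I) :=
      ⟨⟨hu'.1, fun h => hII (Prod.mk.inj (Prod.mk.inj h).2).1⟩, hu'.2⟩
    have hc2 := ms_rem_closed s hc hS' hu'.2 (fun v J h hv => m1 _ v J h hv.1)
      (fun I' j' h h' hv => by
        by_contra hv'
        by_cases h1 : j0 ∈ I'
        · have h2 := (hj0 (I'.erase j0) (Finset.notMem_erase _ _)).2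
            (by rw [Finset.insert_erase h1]; exact ⟨hv.1, hv'⟩)
          refine h2.2 (m2 _ ?_ h2.1)
          have h3 := ms_card_lt h h'
          rw [Finset.card_insert_of_notMem hj0I] at h3
          have h4 := Finset.card_erase_lt_of_mem h1
          omega
        · have h2 : j0 = j' := by
            have h3 : j0 ∈ insert j' I' := h ▸ Finset.mem_insert_self _ _
            exact (Finset.mem_insert.1 h3).resolve_right h1
          subst h2
          refine hv.2 ?_
          rw [← Finset.erase_insert h1, h, Finset.erase_insert hj0I])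
      fun v l h hv => m3 _ v l h hv.1
    have hle2 := ms_le_rem hle1 hu'.2
    have hU2 := ms_U_eq s C (y := y) hc.hi (ms_rem_insert hu1.1) ms_rem_ne
    set S2 := msRem (msRem S0 i I u) i (insert j0 I) u with hS2
    have hsub := U_sub s C y hD hc2
    have hW2 : s.Win n S2 := fun i I v hv hv' => hle2 i I (hW i I v hv hv')
    have h20 : s.U C y S2 ≤ s.U C y S0 := U_mono s C y fun _ _ v hv => hv.1.1
    -- the boundary of a generator
    obtain ⟨ε, hε, hdel⟩ : ∃ ε : Λ, ε * ε = 1 ∧ ∀ w,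
        (monoDG C).del (msφ C i I u w) - ε • msφ C i (insert j0 I) u w ∈ s.U C y S2 := by
      refine ⟨(-1) ^ (((insert j0 I).filter (· < j0)).card + i), by rw [← mul_pow]; simp, fun w => ?_⟩
      rw [ms_del_φ, ← Finset.add_sum_erase _ _ (Finset.mem_compl.2 hj0I), add_sub_assoc,
        add_sub_cancel_left]
      refine add_mem ?_ (Submodule.sum_mem _ fun j' hj' => Submodule.smul_mem _ _ ?_)
      · rcases i with _ | i
        · rw [← Module.End.mul_apply, C.D_p0]
          simp
        · have h1 : C.D (C.p (i + 1) w) = C.p i (C.D w) := by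
            rw [← Module.End.mul_apply, C.D_p, Module.End.mul_apply]
          have h2 : C.p i (C.D w) ∈ ism (idl y ^ q) P := h1 ▸ hD (LinearMap.mem_range_self _ _)
          rw [h1]
          refine ms_single_mem s C (S := S2) (i := i) (w := C.D w) (hS0.hi _ _ hu.1)
            (single_pow_mem y (s.st1 I) (hS0.hi _ _ hu.1) (fun l => ?_) h2)
          refine ⟨⟨hS0.dcl i I u hu.1 l, fun h => ?_⟩, fun h => ?_⟩
          · have := (Prod.mk.inj h).1; omega
          · have := (Prod.mk.inj h).1; omega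
      · rw [Finset.mem_erase, Finset.mem_compl] at hj'
        refine single_mem_U s C y hc2.hi ⟨⟨hS0.mono i I j' hu.1, fun h => ?_⟩, fun h => ?_⟩ w
        · exact hj'.2 ((Prod.mk.inj (Prod.mk.inj h).2).1 ▸ Finset.mem_insert_self _ _)
        · have h2 : j' ∈ insert j0 I := (Prod.mk.inj (Prod.mk.inj h).2).1 ▸ Finset.mem_insert_self _ _
          exact (Finset.mem_insert.1 h2).elim hj'.1 hj'.2
    obtain ⟨v, hv, hv2, hvπ⟩ : ∃ v ∈ s.U C y S0, z - (monoDG C).del v ∈ s.U C y S2 ∧
        (monoDG C).π j ((monoDG C).del v) = (monoDG C).del v := by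
      rw [hU1, hU2] at hz
      obtain ⟨_, ⟨w, rfl⟩, z1, hz1, hz⟩ := Submodule.mem_sup.1 hz
      obtain ⟨_, ⟨w', rfl⟩, z2, hz2, rfl⟩ := Submodule.mem_sup.1 hz1
      have hz3 : (monoDG C).π j z2 ∈ s.U C y S2 := hsub.1 j (Submodule.mem_map_of_mem hz2)
      have hz4 := congrArg ((monoDG C).π j) hz
      rw [hj, map_add, map_add, ms_π_φ, ms_π_φ, Finset.card_insert_of_notMem hj0I] at hz4
      by_cases h1 : j = (i : ℤ) - I.card
      · rw [if_pos h1, if_neg (by push_cast; omega), zero_add] at hz4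
        refine ⟨0, zero_mem _, ?_, by simp⟩
        rw [map_zero, sub_zero, ← hz4]
        refine add_mem (ms_mem_of_ism s C (hS0.hi _ _ hu.1) ?_ (ms_ism_of_mem s C hK hc2 hW2
          (hS0.hi _ _ hu'.1) (fun h => h.2 rfl) ?_ ?_)) hz3
        · rw [hS2, ← ms_rem_ne i I fun h => hII (Prod.mk.inj h).2.symm, ← ms_rem_insert hu.1]
          exact hS0.st i I
        · rw [hS2, ← ms_rem_insert hu1.1]
          exact hc.st _ _
        · have h2 : (monoDG C).del (msφ C i I u w) ∈ s.U C y S2 := by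
            have h3 := sub_mem (U_mono s C y hle2 hd) (hsub.2 (Submodule.mem_map_of_mem hz3))
            rwa [← hz4, map_add, add_sub_cancel_right] at h3
          have h4 := Submodule.smul_mem _ ε (sub_mem h2 (hdel w))
          rwa [sub_sub_cancel, smul_smul, hε, one_smul] at h4
      · rw [if_neg h1, zero_add] at hz4
        by_cases h2 : j = (i : ℤ) - (I.card + 1 : ℕ)
        · rw [if_pos h2] at hz4
          refine ⟨ε • msφ C i I u w', Submodule.smul_mem _ _ (single_mem_U s C y hS0.hi hu.1 w'),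
            ?_, ?_⟩
          · have h3 := sub_mem hz3 (Submodule.smul_mem _ ε (hdel w'))
            rw [smul_sub, smul_smul, hε, one_smul] at h3
            rw [← hz4, map_smul]
            convert h3 using 1
            abel
          · rw [← Module.End.mul_apply, ← (monoDG C).del_π, Module.End.mul_apply, map_smul, ms_π_φ,
              if_pos (by push_cast at h2; omega)]
        · rw [if_neg h2, zero_add] at hz4
          exact ⟨0, zero_mem _, by rwa [map_zero, sub_zero, ← hz4], by simp⟩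
    have hlt : (msΔ S2 S').ncard < N :=
      (ms_Δ_rem (hfin.subset fun t ht => ⟨ht.1.1, ht.2⟩) hu1).trans (hn ▸ ms_Δ_rem hfin hu)
    have key := ih _ hlt (z := z - (monoDG C).del v) (by rw [map_sub, hj, hvπ]) (by
        rw [map_sub, ← Module.End.mul_apply _ _ v, (monoDG C).del_sq, LinearMap.zero_apply, sub_zero]
        exact hd) S2 hv2 hc2 hle2 (hN' _ _ (hN' _ _ hN)) (fun i' hi' u' => by
        by_cases h : (i', u') = (i, u)
        · obtain ⟨rfl, rfl⟩ := Prod.mk.inj h
          refine Or.inl ⟨j0, fun I' hI' => ?_⟩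
          by_cases h1 : I' = I
          · subst h1
            exact iff_of_false (fun h => h.1.1.2 rfl) fun h => h.1.2 rfl
          · have h2 : I' ≠ insert j0 I := fun h => hI' (h ▸ Finset.mem_insert_self _ _)
            have h3 : insert j0 I' ≠ I := fun h => hj0I (h ▸ Finset.mem_insert_self _ _)
            have h4 : insert j0 I' ≠ insert j0 I := fun h => h1 (by
              rw [← Finset.erase_insert hI', h, Finset.erase_insert hj0I])
            rw [hS2, ← ms_rem_ne i' I' fun h => h2 (Prod.mk.inj h).2,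
              ← ms_rem_ne i' I' fun h => h1 (Prod.mk.inj h).2,
              ← ms_rem_ne i' (insert j0 I') fun h => h4 (Prod.mk.inj h).2,
              ← ms_rem_ne i' (insert j0 I') fun h => h3 (Prod.mk.inj h).2]
            exact hj0 I' hI'
        · simp only [hS2, hoth _ _ _ _ _ h]
          exact H0 i' hi' u') rfl
    rw [← sub_add_cancel z ((monoDG C).del v)]
    have h21 : (s.U C y S2).map (monoDG C).del ⊔ s.U C y S' ≤
        (s.U C y S0).map (monoDG C).del ⊔ s.U C y S' := sup_le_sup_right (Submodule.map_mono h20) _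
    exact add_mem (h21 key) (Submodule.mem_sup_left (Submodule.mem_map_of_mem hv))
  · rw [hU1] at hz
    obtain ⟨_, ⟨w, rfl⟩, z1, hz1, hz⟩ := Submodule.mem_sup.1 hz
    have hz4 := congrArg ((monoDG C).π j) hz
    rw [hj, map_add, ms_π_φ, if_neg (hdeg I hu).symm, zero_add] at hz4
    have hz5 : z ∈ s.U C y (msRem S0 i I u) :=
      hz4 ▸ (U_sub s C y hD hc).1 j (Submodule.mem_map_of_mem hz1)
    have key := ih _ (hn ▸ ms_Δ_rem hfin hu) hj hd _ hz5 hc hle1 (hN' _ _ hN) (fun i' hi' u' => by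
        by_cases h : (i', u') = (i, u)
        · obtain ⟨rfl, rfl⟩ := Prod.mk.inj h
          exact Or.inr fun I' hI' => hdeg I' ⟨hI'.1.1, hI'.2⟩
        · simp only [hoth _ _ _ _ _ h]
          exact H0 i' hi' u') rfl
    have h21 : (s.U C y (msRem S0 i I u)).map (monoDG C).del ⊔ s.U C y S' ≤
        (s.U C y S0).map (monoDG C).del ⊔ s.U C y S' :=
      sup_le_sup_right (Submodule.map_mono (U_mono s C y fun _ _ v hv => hv.1)) _
    exact h21 key

end Shape

end Crest.Agent.R183
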