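import Crest.Agent.R183.MonoA

/-!
# rid 183, file `MonoU`: API for the submodules `Shape.U`

Prefix helper lemmas with `mu_`.
-/

set_option autoImplicit false

open Submodule

namespace Crest.Agent.R183

section aux

variable {m : ℕ} {Λ : Type} [CommRing Λ] {P : Type} [AddCommGroup P] [Module Λ P]

theorem mu_single_mem {A : Set (UU m)} {u : UU m} (hu : u ∈ A) (w : P) :
    Finsupp.single u w ∈ supp Λ P A := Finsupp.single_mem_supported Λ w hu

theorem mu_supp_le {A : Set (UU m)} {V : Submodule Λ (FF m P)}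
    (h : ∀ u ∈ A, ∀ w : P, Finsupp.single u w ∈ V) : supp Λ P A ≤ V := by
  intro f hf
  rw [← Finsupp.sum_single f]
  exact Submodule.sum_mem _ fun u hu => h u ((Finsupp.mem_supported Λ f).1 hf hu) _

theorem mu_supp_mono {A B : Set (UU m)} (h : A ⊆ B) : supp Λ P A ≤ supp Λ P B :=
  Finsupp.supported_mono h

theorem mu_onF_single (f : Module.End Λ P) (u : UU m) (w : P) :
    onF m f (Finsupp.single u w) = Finsupp.single u (f w) := by
  simp [onF]

theorem mu_onF_apply (f : Module.End Λ P) (x : FF m P) (u : UU m) : onF m f x u = f (x u) := by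
  simp [onF]

theorem mu_onF_supp (f : Module.End Λ P) {A : Set (UU m)} {x : FF m P} (hx : x ∈ supp Λ P A) :
    onF m f x ∈ supp Λ P A :=
  mu_supp_le (V := (supp Λ P A).comap (onF m f)) (fun u hu w => by
    rw [Submodule.mem_comap, mu_onF_single]
    exact mu_single_mem hu _) hx

theorem mu_YY_single (i : Fin (m + 1)) (u : UU m) (w : P) :
    YY Λ P i (Finsupp.single u w) =
      ∑ I ∈ Finset.powersetCard (i : ℕ) (Finset.univ : Finset (Fin m)),
        Finsupp.single (u + gam I) w := by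
  simp [YY, sh, LinearMap.sum_apply]

theorem mu_onF_YY (f : Module.End Λ P) (i : Fin (m + 1)) (x : FF m P) :
    onF m f (YY Λ P i x) = YY Λ P i (onF m f x) := by
  induction x using Finsupp.induction_linear with
  | zero => simp
  | add a b ha hb => simp only [map_add, ha, hb]
  | single u w => simp only [mu_YY_single, map_sum, mu_onF_single]

theorem mu_rel_mem (y : Fin (m + 1) → Λ) {A : Set (UU m)} (A' : Set (UU m)) (i : Fin (m + 1))
    {x : FF m P} (hx : x ∈ supp Λ P A) : y i • x - YY Λ P i x ∈ Rel P y A A' :=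
  Submodule.mem_sup_right (Submodule.mem_iSup_of_mem i ⟨x, hx, rfl⟩)

theorem mu_Rel_le {y : Fin (m + 1) → Λ} {A A' : Set (UU m)} {V : Submodule Λ (FF m P)}
    (h : supp Λ P A' ≤ V) (h' : ∀ i, ∀ x ∈ supp Λ P A, y i • x - YY Λ P i x ∈ V) :
    Rel P y A A' ≤ V :=
  sup_le h (iSup_le fun i => by
    rintro _ ⟨x, hx, rfl⟩
    exact h' i x hx)

theorem mu_onF_Rel (f : Module.End Λ P) {y : Fin (m + 1) → Λ} {A A' : Set (UU m)} {x : FF m P}
    (hx : x ∈ Rel P y A A') : onF m f x ∈ Rel P y A A' :=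
  mu_Rel_le (V := (Rel P y A A').comap (onF m f))
    (fun _ hx => Submodule.mem_sup_left (mu_onF_supp f hx)) (fun i x hx => by
      rw [Submodule.mem_comap, map_sub, map_smul, mu_onF_YY]
      exact mu_rel_mem y A' i (mu_onF_supp f hx)) hx

theorem mu_onF_sup (f : Module.End Λ P) {y : Fin (m + 1) → Λ} {B A A' : Set (UU m)} {x : FF m P}
    (hx : x ∈ supp Λ P B ⊔ Rel P y A A') : onF m f x ∈ supp Λ P B ⊔ Rel P y A A' := by
  obtain ⟨a, ha, r, hr, rfl⟩ := Submodule.mem_sup.1 hx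
  rw [map_add]
  exact Submodule.add_mem_sup (mu_onF_supp f ha) (mu_onF_Rel f hr)

theorem mu_Rel_le_supp (y : Fin (m + 1) → Λ) {A A' : Set (UU m)} (hA : Stable A) (h : A' ⊆ A) :
    Rel P y A A' ≤ supp Λ P A :=
  mu_Rel_le (mu_supp_mono h) fun i x hx => by
    refine Submodule.sub_mem _ (Submodule.smul_mem _ _ hx) ?_
    refine mu_supp_le (V := (supp Λ P A).comap (YY Λ P i)) (fun u hu w => ?_) hx
    rw [Submodule.mem_comap, mu_YY_single]
    exact Submodule.sum_mem _ fun I _ => mu_single_mem (hA u hu I) _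

theorem mu_Rel_mono (y : Fin (m + 1) → Λ) {A A' B B' : Set (UU m)} (h : A ⊆ B) (h' : A' ⊆ B') :
    Rel P y A A' ≤ Rel P y B B' :=
  mu_Rel_le ((mu_supp_mono h').trans le_sup_left) fun i _ hx =>
    mu_rel_mem y B' i (mu_supp_mono h hx)

theorem mu_onF_mul (f g : Module.End Λ P) (x : FF m P) :
    onF m f (onF m g x) = onF m (f * g) x := by
  ext u
  simp [mu_onF_apply]

theorem mu_p_p (C : Cx Λ (m + 1) P) (i j : ℕ) (x : FF m P) :
    onF m (C.p i) (onF m (C.p j) x) = if i = j then onF m (C.p i) x else 0 := by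
  rw [mu_onF_mul, C.p_mul]
  split_ifs
  · rfl
  · ext u
    simp [mu_onF_apply]

theorem mu_sum_p (C : Cx Λ (m + 1) P) (x : FF m P) :
    ∑ i ∈ Finset.range (m + 2), onF m (C.p i) x = x := by
  ext u
  simp only [Finsupp.finsetSum_apply, mu_onF_apply]
  rw [← LinearMap.sum_apply, C.p_sum, Module.End.one_apply]

theorem mu_sgn (C : Cx Λ (m + 1) P) (x : FF m P) :
    onF m C.sgn x = ∑ i ∈ Finset.range (m + 2), ((-1 : Λ) ^ i) • onF m (C.p i) x := by
  ext u
  simp only [Finsupp.finsetSum_apply, Finsupp.smul_apply, mu_onF_apply, Cx.sgn,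
    LinearMap.sum_apply, LinearMap.smul_apply]

end aux

namespace Shape

variable {m : ℕ} (s : Shape m) {Λ : Type} [CommRing Λ] {P : Type} [AddCommGroup P] [Module Λ P]
  (C : Cx Λ (m + 1) P) (y : Fin (m + 1) → Λ)

theorem stair_closed {q : ℕ} {ι : ℕ → ℤ} (h : ∀ i, ι i ≤ ι (i + 1) + q) : s.Closed q (s.stair ι) := by
  refine ⟨fun i I => Set.subset_union_right, fun i I => ?_, fun i I => ?_, fun i I j => ?_,
    fun i I => ?_⟩
  · rintro u (hu | hu)
    · exact hu.1
    · exact s.sub I hu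
  · rintro u (hu | hu) J
    · refine Or.inl ⟨s.st1 I u hu.1 J, ?_⟩
      have := hu.2
      simp only [gam, Prod.fst_add]
      omega
    · exact Or.inr (s.st2 I u hu J)
  · rintro u (hu | hu)
    · exact Or.inl ⟨s.mono1 I j hu.1, hu.2⟩
    · exact Or.inr (s.mono2 I j hu)
  · have key : ∀ {A : Set (UU m)}, Stable A → ∀ (q : ℕ) (l : Fin q → Finset (Fin m)), ∀ u ∈ A,
        u + ∑ k, gam (l k) ∈ A := by
      intro A hA q
      induction q with
      | zero => intro l u hu; simpa using hu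
      | succ q ih =>
        intro l u hu
        rw [Fin.sum_univ_succ, ← add_assoc]
        exact ih _ _ (hA u hu _)
    rintro u (hu | hu) l
    · refine Or.inl ⟨key (s.st1 I) q l u hu.1, ?_⟩
      have h1 := hu.2
      have h2 := h i
      simp only [gam, Prod.fst_add, Prod.fst_sum, Finset.sum_const, Finset.card_univ,
        Fintype.card_fin, nsmul_eq_mul, mul_one]
      omega
    · exact Or.inr (key (s.st2 I) q l u hu)

theorem mem_U {S : Fam m} {w : EE m P} : w ∈ s.U C y S ↔ ∀ I, w I ∈ supp Λ P (s.A1 I) ∧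
    ∀ i, onF m (C.p i) (w I) ∈ supp Λ P (S i I) ⊔ Rel P y (s.A1 I) (s.A2 I) := by
  simp [U, Submodule.mem_iInf]

theorem U_mono {S S' : Fam m} (h : ∀ i I, S i I ⊆ S' i I) : s.U C y S ≤ s.U C y S' := by
  intro w hw
  rw [mem_U] at hw ⊢
  exact fun I => ⟨(hw I).1, fun i =>
    sup_le_sup_right (mu_supp_mono (Λ := Λ) (P := P) (h i I)) _ ((hw I).2 i)⟩

/-- For a family not depending on `i` the projections can be dropped (`supp` and `Rel` are stable under
`onF m f`, and `∑ p i = 1`). -/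
theorem mem_U_const {A : Finset (Fin m) → Set (UU m)} (hA : ∀ I, A I ⊆ s.A1 I) {w : EE m P} :
    w ∈ s.U C y (fun _ I => A I) ↔ ∀ I, w I ∈ supp Λ P (A I) ⊔ Rel P y (s.A1 I) (s.A2 I) := by
  rw [mem_U]
  refine forall_congr' fun I => ⟨fun h => ?_, fun h => ⟨?_, fun i => mu_onF_sup _ h⟩⟩
  · rw [← mu_sum_p C (w I)]
    exact Submodule.sum_mem _ fun i _ => h.2 i
  · exact sup_le (mu_supp_mono (hA I)) (mu_Rel_le_supp y (s.st1 I) (s.sub I)) h

theorem mu_single {S : Fam m} {I : Finset (Fin m)} {f : FF m P} (h1 : f ∈ supp Λ P (s.A1 I))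
    (h2 : ∀ i, onF m (C.p i) f ∈ supp Λ P (S i I) ⊔ Rel P y (s.A1 I) (s.A2 I)) :
    (Pi.single I f : EE m P) ∈ s.U C y S := by
  rw [mem_U]
  intro J
  rcases eq_or_ne J I with rfl | h
  · rw [Pi.single_eq_same]
    exact ⟨h1, h2⟩
  · rw [Pi.single_eq_of_ne h]
    exact ⟨Submodule.zero_mem _, fun i => by rw [map_zero]; exact Submodule.zero_mem _⟩

theorem mu_rel (S : Fam m) {I : Finset (Fin m)} {f : FF m P}
    (hf : f ∈ Rel P y (s.A1 I) (s.A2 I)) : (Pi.single I f : EE m P) ∈ s.U C y S :=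
  s.mu_single C y (mu_Rel_le_supp y (s.st1 I) (s.sub I) hf) fun _ =>
    Submodule.mem_sup_right (mu_onF_Rel _ hf)

theorem mu_gen {S : Fam m} {i : ℕ} {I : Finset (Fin m)} {u : UU m} (hu1 : u ∈ s.A1 I)
    (hu : u ∈ S i I) (w : P) :
    (Pi.single I (Finsupp.single u (C.p i w)) : EE m P) ∈ s.U C y S := by
  refine s.mu_single C y (mu_single_mem hu1 _) fun k => ?_
  rw [← mu_onF_single, mu_p_p]
  split_ifs with h
  · rw [h, mu_onF_single]
    exact Submodule.mem_sup_left (mu_single_mem hu _)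
  · exact Submodule.zero_mem _

theorem mu_U_le {S : Fam m} {V : Submodule Λ (EE m P)}
    (h1 : ∀ I, ∀ f ∈ Rel P y (s.A1 I) (s.A2 I), (Pi.single I f : EE m P) ∈ V)
    (h2 : ∀ i I, ∀ u ∈ S i I, ∀ w : P,
      (Pi.single I (Finsupp.single u (C.p i w)) : EE m P) ∈ V) : s.U C y S ≤ V := by
  intro w hw
  rw [mem_U] at hw
  rw [← Finset.univ_sum_single w]
  refine Submodule.sum_mem _ fun I _ => ?_
  change w I ∈ V.comap (LinearMap.single Λ (fun _ => FF m P) I)
  rw [← mu_sum_p C (w I)]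
  refine Submodule.sum_mem _ fun i _ => ?_
  obtain ⟨a, ha, r, hr, e⟩ := Submodule.mem_sup.1 ((hw I).2 i)
  have e' : onF m (C.p i) (w I) = onF m (C.p i) a + onF m (C.p i) r := by
    rw [← map_add, e, mu_p_p, if_pos rfl]
  rw [e']
  refine Submodule.add_mem _ ?_ (h1 I _ (mu_onF_Rel _ hr))
  refine mu_supp_le (V := (V.comap (LinearMap.single Λ (fun _ => FF m P) I)).comap
    (onF m (C.p i))) (fun u hu w => ?_) ha
  rw [Submodule.mem_comap, mu_onF_single]
  exact h2 i I u hu w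

theorem U_sup (S S' : Fam m) (h : ∀ i I, S i I ⊆ s.A1 I) (h' : ∀ i I, S' i I ⊆ s.A1 I) :
    s.U C y S ⊔ s.U C y S' = s.U C y (fun i I => S i I ∪ S' i I) := by
  refine le_antisymm (sup_le (s.U_mono C y fun _ _ => Set.subset_union_left)
    (s.U_mono C y fun _ _ => Set.subset_union_right)) (s.mu_U_le C y
      (fun I f hf => Submodule.mem_sup_left (s.mu_rel C y S hf)) ?_)
  rintro i I u (hu | hu) w
  · exact Submodule.mem_sup_left (s.mu_gen C y (h i I hu) hu w)
  · exact Submodule.mem_sup_right (s.mu_gen C y (h' i I hu) hu w)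

/-- A generator. -/
theorem single_mem_U {S : Fam m} (hS : ∀ i I, S i I ⊆ s.A1 I) {i : ℕ} {I : Finset (Fin m)} {u : UU m}
    (hu : u ∈ S i I) (w : P) :
    (Pi.single I (Finsupp.single u (C.p i w)) : EE m P) ∈ s.U C y S :=   s.mu_gen C y (hS i I hu) hu w

/-- `U S` is spanned by the generators and the relations. -/
theorem U_le_iff {S : Fam m} (hS : ∀ i I, S i I ⊆ s.A1 I) {V : Submodule Λ (EE m P)} :
    s.U C y S ≤ V ↔ (∀ I, ∀ f ∈ Rel P y (s.A1 I) (s.A2 I), (Pi.single I f : EE m P) ∈ V) ∧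
      ∀ i I, ∀ u ∈ S i I, ∀ w : P, (Pi.single I (Finsupp.single u (C.p i w)) : EE m P) ∈ V :=   ⟨fun h => ⟨fun _ _ hf => h (s.mu_rel C y S hf), fun _ _ _ hu w => h (s.single_mem_U C y hS hu w)⟩,
    fun h => s.mu_U_le C y h.1 h.2⟩

/-- Modulo `Rel`, `single u (c • w)` with `c ∈ (y)^q` is supported on `u + (sums of q gam's)`:
`single u (y i • w) ≡ YY i (single u w)`; induct on `q`. -/
theorem single_pow_mem {A A' B : Set (UU m)} (hA : Stable A) {q : ℕ} {u : UU m} (hu : u ∈ A)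
    (hB : ∀ l : Fin q → Finset (Fin m), u + ∑ k, gam (l k) ∈ B) {w : P}
    (hw : w ∈ ism (idl y ^ q) P) : Finsupp.single u w ∈ supp Λ P B ⊔ Rel P y A A' := by
  induction q generalizing u w with
  | zero => exact Submodule.mem_sup_left (mu_single_mem (by simpa using hB Fin.elim0) _)
  | succ q ih =>
    rw [ism, pow_succ', Submodule.mul_smul] at hw
    change w ∈ (supp Λ P B ⊔ Rel P y A A').comap (Finsupp.lsingle u)
    refine Submodule.smul_le.2 (fun r hr n hn => ?_) hw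
    obtain ⟨c, rfl⟩ := Ideal.mem_span_range_iff_exists_fun.1 hr
    rw [Finset.sum_smul]
    refine Submodule.sum_mem _ fun i _ => ?_
    rw [mul_smul]
    refine Submodule.smul_mem _ _ ?_
    rw [Submodule.mem_comap, map_smul, Finsupp.lsingle_apply,
      ← sub_add_cancel (y i • Finsupp.single u n) (YY Λ P i (Finsupp.single u n))]
    refine Submodule.add_mem _
      (Submodule.mem_sup_right (mu_rel_mem y A' i (mu_single_mem hu n))) ?_
    rw [mu_YY_single]
    refine Submodule.sum_mem _ fun I _ => ih (hA u hu I) (fun l => ?_) hn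
    have := hB (Fin.cons I l)
    rwa [Fin.sum_univ_succ, ← add_assoc] at this

/-- The component of `U S` at the vertex `I`. -/
noncomputable def muU (S : Fam m) (I : Finset (Fin m)) : Submodule Λ (FF m P) :=
  supp Λ P (s.A1 I) ⊓ ⨅ i, (supp Λ P (S i I) ⊔ Rel P y (s.A1 I) (s.A2 I)).comap (onF m (C.p i))

theorem mem_muU {S : Fam m} {I : Finset (Fin m)} {x : FF m P} : x ∈ s.muU C y S I ↔
    x ∈ supp Λ P (s.A1 I) ∧
      ∀ i, onF m (C.p i) x ∈ supp Λ P (S i I) ⊔ Rel P y (s.A1 I) (s.A2 I) := by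
  simp [muU, Submodule.mem_iInf]

theorem mu_mem {S : Fam m} {w : EE m P} : w ∈ s.U C y S ↔ ∀ I, w I ∈ s.muU C y S I := by
  simp only [mem_U, mem_muU]

theorem mu_p_mem {S : Fam m} {I : Finset (Fin m)} {x : FF m P} (hx : x ∈ s.muU C y S I) (k : ℕ) :
    onF m (C.p k) x ∈ s.muU C y S I := by
  rw [mem_muU] at hx ⊢
  refine ⟨mu_onF_supp _ hx.1, fun i => ?_⟩
  rw [mu_p_p]
  split_ifs
  · exact hx.2 i
  · exact Submodule.zero_mem _

/-- Closed families give graded subcomplexes.  `D (p (i+1) w) = p i (D w)` lies in `(y)^q P`, use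
`single_pow_mem` and `dcl`; the Čech part uses `mono`, `mono1`, `mono2`. -/
theorem U_sub {q : ℕ} (hD : LinearMap.range C.D ≤ ism (idl y ^ q) P) {S : Fam m}
    (hS : s.Closed q S) : (monoDG C).Sub (s.U C y S) := by
  constructor
  · rintro j _ ⟨w, hw, rfl⟩
    rw [SetLike.mem_coe, mu_mem] at hw
    rw [mu_mem]
    intro I
    change mπ C j w I ∈ _
    rw [mπ, LinearMap.pi_apply]
    split_ifs
    · exact s.mu_p_mem C y (hw I) _
    · exact Submodule.zero_mem _
  · rintro _ ⟨w, hw, rfl⟩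
    rw [SetLike.mem_coe, mu_mem] at hw
    rw [mu_mem]
    intro I
    change onF m C.D (w I) + onF m C.sgn (cech Λ P w I) ∈ _
    refine Submodule.add_mem _ ?_ ?_
    · obtain ⟨h1, h2⟩ := (s.mem_muU C y).1 (hw I)
      refine (s.mem_muU C y).2 ⟨mu_onF_supp _ h1, fun i => ?_⟩
      rw [mu_onF_mul, ← C.D_p, ← mu_onF_mul]
      obtain ⟨a, ha, r, hr, e⟩ := Submodule.mem_sup.1 (h2 (i + 1))
      rw [← e, map_add]
      refine Submodule.add_mem _ ?_ (Submodule.mem_sup_right (mu_onF_Rel _ hr))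
      refine mu_supp_le (V := (supp Λ P (S i I) ⊔ Rel P y (s.A1 I) (s.A2 I)).comap (onF m C.D))
        (fun u hu w => ?_) ha
      rw [Submodule.mem_comap, mu_onF_single]
      exact single_pow_mem y (s.st1 I) (hS.hi _ I hu) (hS.dcl i I u hu) (hD ⟨w, rfl⟩)
    · rw [mu_sgn]
      refine Submodule.sum_mem _ fun i _ => Submodule.smul_mem _ _ (s.mu_p_mem C y ?_ i)
      rw [cech, LinearMap.pi_apply, LinearMap.sum_apply]
      refine Submodule.sum_mem _ fun j hj => Submodule.smul_mem _ _ ?_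
      obtain ⟨h1, h2⟩ := (s.mem_muU C y).1 (hw (I.erase j))
      have e := Finset.insert_erase hj
      have a1 := s.mono1 (I.erase j) j
      have a2 := s.mono2 (I.erase j) j
      rw [e] at a1 a2
      refine (s.mem_muU C y).2 ⟨mu_supp_mono a1 h1, fun k => ?_⟩
      have a3 := hS.mono k (I.erase j) j
      rw [e] at a3
      exact sup_le_sup (mu_supp_mono a3) (mu_Rel_mono y a1 a2) (h2 k)

/-- `Fil a / Fil b` is a quotient of a finite power of `P` (finitely many monomials in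
`A1 I \ A2 I` have `λ`-degree in `[bot, b)`); use `G_pi`, `G2_range`, `G2_mono`. -/
theorem Fil_good {α : Λ} (L : GLen Λ α) (hP : L.G P) (a b : ℤ) :
    L.G2 (s.Fil C y a) (s.Fil C y b) := by
  classical
  have hfin : ∀ I, Finite {u : UU m | u ∈ s.A1 I ∧ u ∉ s.A2 I ∧ u.1 < b} := fun I =>
    ((Set.finite_Ico s.bot b).biUnion fun a _ => s.fin I a).subset fun u hu =>
      Set.mem_biUnion (x := u.1) ⟨s.bdd I u hu.1, hu.2.2⟩ ⟨hu.1, hu.2.1, rfl⟩
  let ι : Type := Σ I : Finset (Fin m), {u : UU m | u ∈ s.A1 I ∧ u ∉ s.A2 I ∧ u.1 < b}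
  have := Fintype.ofFinite ι
  let f : (ι → P) →ₗ[Λ] EE m P := ∑ x : ι,
    LinearMap.single Λ (fun _ => FF m P) x.1 ∘ₗ Finsupp.lsingle x.2.1 ∘ₗ LinearMap.proj x
  refine L.G2_mono (L.G2_range (L.G_pi P hP ι) f (s.Fil C y b)) ?_ le_rfl
  refine s.mu_U_le C y (fun I g hg => Submodule.mem_sup_right (s.mu_rel C y _ hg))
    fun i I u hu w => ?_
  have hu1 : u ∈ s.A1 I := hu.elim (fun h => h.1) fun h => s.sub I h
  by_cases h : u ∈ s.stair (fun _ => b) i I
  · exact Submodule.mem_sup_right (s.mu_gen C y hu1 h w)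
  · have h2 : u ∉ s.A2 I := fun h' => h (Or.inr h')
    have h3 : u.1 < b := not_le.1 fun h' => h (Or.inl ⟨hu1, h'⟩)
    refine Submodule.mem_sup_left ⟨Pi.single (⟨I, u, hu1, h2, h3⟩ : ι) (C.p i w), ?_⟩
    rw [LinearMap.sum_apply, Finset.sum_eq_single (⟨I, u, hu1, h2, h3⟩ : ι)]
    · simp
    · intro x _ hx
      simp [Pi.single_eq_of_ne hx]
    · intro h
      exact absurd (Finset.mem_univ _) h

end Shape

end Crest.Agent.R183
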