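import Crest.Agent.R183.MonoA

/-!
# rid 183, file `MonoZ1`: the `y_i^N` generate the unit ideal on each chart

Prefix helper lemmas with `z1_`.
-/

set_option autoImplicit false

open Submodule

namespace Crest.Agent.R183

/-- The coefficients of `∏_{j ∉ I} (1 + w_j T) ∏_{j ∈ I} (w_j + T)`. -/
noncomputable def z1_Y {m : ℕ} (I : Finset (Fin m)) (k : ℕ) : MvPolynomial (Fin m) ℤ :=
  ∑ J ∈ Finset.powersetCard k (Finset.univ : Finset (Fin m)),
    (∏ j ∈ J \ I, MvPolynomial.X j) * ∏ j ∈ I \ J, MvPolynomial.X j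

theorem z1_expand {m : ℕ} (I : Finset (Fin m)) :
    ∏ j : Fin m, (Polynomial.C (if j ∈ I then 1 else MvPolynomial.X j) * Polynomial.X
        + Polynomial.C (if j ∈ I then MvPolynomial.X j else 1) :
          Polynomial (MvPolynomial (Fin m) ℤ))
      = ∑ k ∈ Finset.range (m + 1), Polynomial.C (z1_Y I k) * Polynomial.X ^ k := by
  rw [Finset.prod_add, Finset.sum_powerset, Finset.card_univ, Fintype.card_fin]
  refine Finset.sum_congr rfl fun k _ => ?_
  rw [z1_Y, map_sum, Finset.sum_mul]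
  refine Finset.sum_congr rfl fun J hJ => ?_
  have e1 : ∏ j ∈ J, (if j ∈ I then 1 else MvPolynomial.X j : MvPolynomial (Fin m) ℤ)
      = ∏ j ∈ J \ I, MvPolynomial.X j := by
    rw [Finset.sdiff_eq_filter, Finset.prod_filter]
    exact Finset.prod_congr rfl fun j _ => by by_cases h : j ∈ I <;> simp [h]
  have e2 : ∏ j ∈ Finset.univ \ J, (if j ∈ I then MvPolynomial.X j else 1 : MvPolynomial (Fin m) ℤ)
      = ∏ j ∈ I \ J, MvPolynomial.X j := by
    rw [← Finset.prod_filter]
    refine Finset.prod_congr ?_ fun _ _ => rfl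
    ext j
    simp [and_comm]
  rw [Finset.prod_mul_distrib, Finset.prod_const, (Finset.mem_powersetCard.1 hJ).2, ← map_prod,
    ← map_prod, e1, e2, map_mul]
  ring

theorem z1_dom {m : ℕ} (I : Finset (Fin m)) {K : Type} [CommRing K] [IsDomain K]
    (φ : MvPolynomial (Fin m) ℤ →+* K) (h : ∀ k, k < m + 1 → φ (z1_Y I k) = 0) : False := by
  have h1 := congrArg (Polynomial.mapRingHom φ) (z1_expand I)
  rw [map_prod, map_sum, Finset.sum_eq_zero] at h1
  · obtain ⟨j, -, hj⟩ := Finset.prod_eq_zero_iff.1 h1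
    by_cases hI : j ∈ I
    · have := congrArg (fun p => Polynomial.coeff p 1) hj
      simp [hI, Polynomial.coeff_one] at this
    · have := congrArg (fun p => Polynomial.coeff p 0) hj
      simp [hI] at this
  · intro k hk
    simp [h k (Finset.mem_range.1 hk)]

theorem z1_span {m : ℕ} (I : Finset (Fin m)) :
    Ideal.span (Set.range fun k : Fin (m + 1) => z1_Y I k) = ⊤ := by
  by_contra h
  obtain ⟨M, hM, hle⟩ := Ideal.exists_le_maximal _ h
  have hP := hM.isPrime
  exact z1_dom I (Ideal.Quotient.mk M) fun k hk => Ideal.Quotient.eq_zero_iff_mem.2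
    (hle (Ideal.subset_span ⟨⟨k, hk⟩, rfl⟩))

/-- In the polynomial ring `ℤ[w_1..w_m]` put `Y_k = ∑_{#J = k} ∏_{j ∈ J \ I} w_j ∏_{j ∈ I \ J} w_j`, the
coefficients of `∏_{j ∉ I} (1 + w_j T) ∏_{j ∈ I} (w_j + T)`.  They generate the unit ideal: modulo a maximal
ideal the product of nonzero polynomials over a field is nonzero (`Finset.prod_one_add`-type expansion, or
`Finset.prod_add`).  Hence so do the `Y_k ^ N` (`Ideal.span_pow_eq_top`). -/
theorem chart_unit (m N : ℕ) (I : Finset (Fin m)) :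
    ∃ u : Fin (m + 1) → MvPolynomial (Fin m) ℤ,
      ∑ k, u k * (∑ J ∈ Finset.powersetCard (k : ℕ) (Finset.univ : Finset (Fin m)),
        (∏ j ∈ J \ I, MvPolynomial.X j) * ∏ j ∈ I \ J, MvPolynomial.X j) ^ N = 1 := by
  have h := Ideal.span_pow_eq_top _ (z1_span I) N
  rw [← Set.range_comp, Ideal.eq_top_iff_one, Ideal.mem_span_range_iff_exists_fun] at h
  exact h

section ops

variable (Λ : Type) [CommRing Λ] {m : ℕ} (P : Type) [AddCommGroup P] [Module Λ P]

theorem z1_sh_single (u w : UU m) (x : P) :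
    sh Λ P u (Finsupp.single w x) = Finsupp.single (w + u) x := by
  simp [sh]

theorem z1_sh_zero : sh Λ P (0 : UU m) = 1 := by
  refine Finsupp.lhom_ext fun w x => ?_
  rw [z1_sh_single, add_zero, Module.End.one_apply]

theorem z1_sh_add (u v : UU m) : sh Λ P (u + v) = sh Λ P u * sh Λ P v := by
  refine Finsupp.lhom_ext fun w x => ?_
  rw [Module.End.mul_apply, z1_sh_single, z1_sh_single, z1_sh_single, add_assoc, add_comm v u]

theorem z1_sh_comm (u v : UU m) : Commute (sh Λ P u) (sh Λ P v) := by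
  rw [Commute, SemiconjBy, ← z1_sh_add, ← z1_sh_add, add_comm]

theorem z1_sh_nsmul (u : UU m) (n : ℕ) : sh Λ P (n • u) = sh Λ P u ^ n := by
  induction n with
  | zero => rw [zero_nsmul, pow_zero, z1_sh_zero]
  | succ n ih => rw [succ_nsmul, z1_sh_add, ih, pow_succ]

theorem z1_sh_onF (u : UU m) (f : Module.End Λ P) : Commute (sh Λ P u) (onF m f) := by
  refine Finsupp.lhom_ext fun w x => ?_
  simp [onF, z1_sh_single]

theorem z1_sh_YY (u : UU m) (i : Fin (m + 1)) : Commute (sh Λ P u) (YY Λ P i) :=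
  Commute.sum_right _ _ _ fun _ _ => z1_sh_comm Λ P _ _

/-- Exponent of a monomial in the chart coordinates. -/
def z1_ex (I : Finset (Fin m)) (d : Fin m →₀ ℕ) : UU m :=
  (0, fun j => if j ∈ I then -(d j : ℤ) else d j)

theorem z1_ex_zero (I : Finset (Fin m)) : z1_ex I 0 = 0 := by
  refine Prod.ext rfl (funext fun j => ?_)
  simp [z1_ex]

theorem z1_ex_add (I : Finset (Fin m)) (d e : Fin m →₀ ℕ) :
    z1_ex I (d + e) = z1_ex I d + z1_ex I e := by
  refine Prod.ext rfl (funext fun j => ?_)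
  by_cases h : j ∈ I <;> simp [z1_ex, h, add_comm]

/-- The action of the chart polynomials. -/
noncomputable def z1_rho (I : Finset (Fin m)) :
    MvPolynomial (Fin m) ℤ →ₐ[ℤ] Module.End Λ (FF m P) :=
  AddMonoidAlgebra.lift ℤ (Module.End Λ (FF m P)) (Fin m →₀ ℕ)
    { toFun := fun d => sh Λ P (z1_ex I d.toAdd)
      map_one' := by rw [toAdd_one, z1_ex_zero, z1_sh_zero]
      map_mul' := fun d e => by rw [toAdd_mul, z1_ex_add, z1_sh_add] }

theorem z1_rho_monomial (I : Finset (Fin m)) (d : Fin m →₀ ℕ) (c : ℤ) :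
    z1_rho Λ P I (MvPolynomial.monomial d c) = c • sh Λ P (z1_ex I d) :=
  AddMonoidAlgebra.lift_single _ _ _

theorem z1_rho_eq (I : Finset (Fin m)) (p : MvPolynomial (Fin m) ℤ) :
    z1_rho Λ P I p = ∑ d ∈ p.support, p.coeff d • sh Λ P (z1_ex I d) := by
  conv_lhs => rw [p.as_sum]
  rw [map_sum]
  exact Finset.sum_congr rfl fun d _ => z1_rho_monomial Λ P I d _

theorem z1_rho_comm (I : Finset (Fin m)) (p : MvPolynomial (Fin m) ℤ) {T : Module.End Λ (FF m P)}
    (h : ∀ u, Commute (sh Λ P u) T) : Commute (z1_rho Λ P I p) T := by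
  rw [z1_rho_eq]
  exact Commute.sum_left _ _ _ fun d _ => (h _).smul_left _

theorem z1_YY (I : Finset (Fin m)) (k : Fin (m + 1)) :
    YY Λ P k = sh Λ P (gam I) * z1_rho Λ P I (z1_Y I k) := by
  rw [YY, z1_Y, map_sum, Finset.mul_sum]
  refine Finset.sum_congr rfl fun J _ => ?_
  have e : ∀ s : Finset (Fin m), (∏ j ∈ s, MvPolynomial.X j : MvPolynomial (Fin m) ℤ)
      = MvPolynomial.monomial (∑ j ∈ s, Finsupp.single j 1) 1 := fun s => by
    rw [MvPolynomial.monomial_sum_one]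
    rfl
  have e' : ∀ (s : Finset (Fin m)) (j : Fin m),
      (∑ i ∈ s, Finsupp.single i 1 : Fin m →₀ ℕ) j = if j ∈ s then 1 else 0 := fun s j => by
    simp [Finsupp.finsetSum_apply, Finsupp.single_apply]
  rw [e, e, MvPolynomial.monomial_mul, one_mul, z1_rho_monomial, one_smul, ← z1_sh_add]
  congr 1
  refine Prod.ext (by simp [gam, z1_ex]) (funext fun j => ?_)
  simp only [gam, z1_ex, Prod.snd_add, Pi.add_apply, Finsupp.add_apply, e', Finset.mem_sdiff]
  by_cases h1 : j ∈ I <;> by_cases h2 : j ∈ J <;> simp [h1, h2]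

end ops

/-- Operators inverting the `YY k ^ N` on the chart `I`.  Let `ρ : ℤ[w] → End (FF m P)` send `w_j` to
`sh (0, e_j)` for `j ∉ I` and to `sh (0, -e_j)` for `j ∈ I` (the `sh` commute and `sh u * sh u' = sh (u + u')`;
go through `AddMonoidAlgebra ℤ (UU m)`), so that `YY k = sh (gam I) * ρ (Y_k)`.  Put
`V k = ρ (u k) * sh (-N • gam I)`, and let `G` bound `N +` the total degrees of all `u k` for all `I`. -/
theorem chart_ops (m N : ℕ) : ∃ G : ℕ, ∀ (I : Finset (Fin m)) (Λ : Type) [CommRing Λ] (P : Type)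
    [AddCommGroup P] [Module Λ P], ∃ V : Fin (m + 1) → Module.End Λ (FF m P),
      ∑ k, V k * YY Λ P k ^ N = 1 ∧
      (∀ k i, V k * YY Λ P i = YY Λ P i * V k) ∧
      (∀ k (f : Module.End Λ P), V k * onF m f = onF m f * V k) ∧
      ∀ k (A A' : Set (UU m)),
        (∀ u ∈ A, ∀ v : UU m, v.1 = -N → (∀ j, j ∉ I → 0 ≤ v.2 j ∧ v.2 j + N ≤ G) →
          (∀ j ∈ I, v.2 j ≤ -N) → u + v ∈ A') →
        (supp Λ P A).map (V k) ≤ supp Λ P A' := by
  choose u hu using chart_unit m N
  refine ⟨N + Finset.univ.sup fun x : Finset (Fin m) × Fin (m + 1) × Fin m =>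
    (u x.1 x.2.1).degreeOf x.2.2, fun I Λ _ P _ _ =>
    ⟨fun k => z1_rho Λ P I (u I k) * sh Λ P (-(N • gam I)), ?_, fun k i => ?_, fun k f => ?_,
      fun k A A' h => ?_⟩⟩
  · have h1 := congrArg (z1_rho Λ P I) (hu I)
    rw [map_sum, map_one] at h1
    rw [← h1]
    refine Finset.sum_congr rfl fun k _ => ?_
    rw [z1_YY Λ P I k, (z1_rho_comm Λ P I _ fun v => z1_sh_comm Λ P v _).symm.mul_pow,
      ← z1_sh_nsmul, mul_assoc, ← mul_assoc (sh Λ P _), ← z1_sh_add, neg_add_cancel, z1_sh_zero,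
      one_mul, map_mul, map_pow]
    rfl
  · exact (z1_rho_comm Λ P I _ fun v => z1_sh_YY Λ P v i).mul_left (z1_sh_YY Λ P _ i)
  · exact (z1_rho_comm Λ P I _ fun v => z1_sh_onF Λ P v f).mul_left (z1_sh_onF Λ P _ f)
  · rintro _ ⟨x, hx, rfl⟩
    beta_reduce
    rw [z1_rho_eq, Finset.sum_mul, LinearMap.sum_apply]
    refine Submodule.sum_mem _ fun d hd => ?_
    rw [smul_mul_assoc, ← z1_sh_add, LinearMap.smul_apply]
    refine Submodule.smul_of_tower_mem _ _ ?_
    have h1 : (supp Λ P A).map (sh Λ P (z1_ex I d + -(N • gam I))) ≤ supp Λ P A' := by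
      rw [supp, sh, Finsupp.lmapDomain_supported]
      refine Finsupp.supported_mono ?_
      rintro _ ⟨w, hw, rfl⟩
      refine h w hw _ (by simp [z1_ex, gam]) (fun j hj => ?_) (fun j hj => ?_)
      · have h2 := (MvPolynomial.monomial_le_degreeOf j hd).trans
          (Finset.le_sup (f := fun x : Finset (Fin m) × Fin (m + 1) × Fin m =>
            (u x.1 x.2.1).degreeOf x.2.2) (Finset.mem_univ (I, k, j)))
        simp only [z1_ex, gam, Prod.snd_add, Prod.snd_neg, Prod.smul_snd, Pi.add_apply, Pi.neg_apply,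
          Pi.smul_apply, if_neg hj, smul_zero, neg_zero, add_zero]
        omega
      · simp only [z1_ex, gam, Prod.snd_add, Prod.snd_neg, Prod.smul_snd, Pi.add_apply, Pi.neg_apply,
          Pi.smul_apply, if_pos hj, Nat.smul_one_eq_cast]
        omega
    exact h1 ⟨x, hx, rfl⟩

end Crest.Agent.R183
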