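import Crest.Agent.R183.MonoStep
import Crest.Agent.R183.MonoBox
import Crest.Agent.R183.MonoZ1

/-!
# rid 183, file `MonoZ2`: the `λ`-adic filtration of a box shape is a `Filt`

Prefix helper lemmas with `z2_`.
-/

set_option autoImplicit false
set_option linter.unusedVariables false

open Submodule

namespace Crest.Agent.R183

variable {Λ : Type} [CommRing Λ] {m : ℕ} {P : Type} [AddCommGroup P] [Module Λ P]
  {y : Fin (m + 1) → Λ} {n : ℕ}

/-- Enlarge the truncation outside `Pt`. -/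
def bump (g : Fin m → ℤ) (Pt : Finset (Fin m)) (G : ℤ) : Fin m → ℤ :=
  fun j => if j ∈ Pt then g j else g j + G

/-- All of `supp A1`. -/
noncomputable def Shape.Tot (s : Shape m) (C : Cx Λ (m + 1) P) (y : Fin (m + 1) → Λ) :
    Submodule Λ (EE m P) := s.U C y fun _ I => s.A1 I

theorem z2_supp_mono {A B : Set (UU m)} (h : A ⊆ B) : supp Λ P A ≤ supp Λ P B :=
  Finsupp.supported_mono h

theorem z2_onF_supp (f : Module.End Λ P) {A : Set (UU m)} {w : FF m P} (hw : w ∈ supp Λ P A) :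
    onF m f w ∈ supp Λ P A :=
  (Finsupp.mem_supported Λ _).2
    ((Finset.coe_subset.2 (Finsupp.support_mapRange (hf := map_zero f))).trans ((Finsupp.mem_supported Λ _).1 hw))

theorem z2_onF_sh (f : Module.End Λ P) (u : UU m) : onF m f * sh Λ P u = sh Λ P u * onF m f :=
  Finsupp.lhom_ext fun a b => by simp [onF, sh]

theorem z2_onF_YY (f : Module.End Λ P) (i : Fin (m + 1)) : onF m f * YY Λ P i = YY Λ P i * onF m f := by
  simp only [YY, Finset.mul_sum, Finset.sum_mul, z2_onF_sh]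

theorem z2_onF_nul {D h : Module.End Λ P} {c : Λ} (e : D * h + h * D = c • (1 : Module.End Λ P))
    (w : FF m P) : onF m D (onF m h w) = c • w - onF m h (onF m D w) := by
  ext u
  have := LinearMap.congr_fun e (w u)
  simp only [LinearMap.add_apply, Module.End.mul_apply, LinearMap.smul_apply, Module.End.one_apply] at this
  simp [onF, ← this]

theorem z2_sh_supp {A B : Set (UU m)} {v : UU m} (h : ∀ u ∈ A, u + v ∈ B) {w : FF m P}
    (hw : w ∈ supp Λ P A) : sh Λ P v w ∈ supp Λ P B := by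
  classical
  refine (Finsupp.mem_supported Λ _).2 fun u hu => ?_
  obtain ⟨t, ht, rfl⟩ := Finset.mem_image.1 (Finsupp.mapDomain_support hu)
  exact h t ((Finsupp.mem_supported Λ _).1 hw ht)

theorem z2_YY_supp {A : Set (UU m)} (hA : Stable A) (i : Fin (m + 1)) {w : FF m P}
    (hw : w ∈ supp Λ P A) : YY Λ P i w ∈ supp Λ P A := by
  rw [YY, LinearMap.sum_apply]
  exact sum_mem fun I _ => z2_sh_supp (fun u hu => hA u hu I) hw

theorem z2_YY_pow_supp {A : Set (UU m)} (hA : Stable A) (i : Fin (m + 1)) (N : ℕ) {w : FF m P}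
    (hw : w ∈ supp Λ P A) : (YY Λ P i ^ N) w ∈ supp Λ P A := by
  induction N with
  | zero => exact hw
  | succ N ih => rw [pow_succ']; exact z2_YY_supp hA i ih

theorem z2_rel_mem {A A' : Set (UU m)} (i : Fin (m + 1)) {w : FF m P} (hw : w ∈ supp Λ P A) :
    y i • w - YY Λ P i w ∈ Rel P y A A' :=
  mem_sup_right (mem_iSup_of_mem i ⟨w, hw, rfl⟩)

theorem z2_pow_rel {A A' : Set (UU m)} (hA : Stable A) (i : Fin (m + 1)) (N : ℕ) {w : FF m P}
    (hw : w ∈ supp Λ P A) : y i ^ N • w - (YY Λ P i ^ N) w ∈ Rel P y A A' := by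
  induction N with
  | zero => simp
  | succ N ih =>
    have e : y i ^ (N + 1) • w - (YY Λ P i ^ (N + 1)) w = y i • (y i ^ N • w - (YY Λ P i ^ N) w) +
        (y i • (YY Λ P i ^ N) w - YY Λ P i ((YY Λ P i ^ N) w)) := by
      rw [pow_succ', pow_succ', mul_smul, Module.End.mul_apply, smul_sub]
      abel
    rw [e]
    exact add_mem (smul_mem _ _ ih) (z2_rel_mem i (z2_YY_pow_supp hA i N hw))

theorem z2_map_rel (T : Module.End Λ (FF m P)) (hT : ∀ i, T * YY Λ P i = YY Λ P i * T)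
    {A A' B B' : Set (UU m)} (h : ∀ w ∈ supp Λ P A, T w ∈ supp Λ P B)
    (h' : ∀ w ∈ supp Λ P A', T w ∈ supp Λ P B') {w : FF m P} (hw : w ∈ Rel P y A A') :
    T w ∈ Rel P y B B' := by
  have : Rel P y A A' ≤ (Rel P y B B').comap T := by
    refine sup_le (fun w hw => mem_sup_left (h' w hw)) (iSup_le fun i => ?_)
    rintro _ ⟨w, hw, rfl⟩
    have e : T ((y i • (1 : Module.End Λ (FF m P)) - YY Λ P i) w) = y i • T w - YY Λ P i (T w) := by
      have := LinearMap.congr_fun (hT i) w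
      simp only [Module.End.mul_apply] at this
      simp [this]
    rw [mem_comap, e]
    exact z2_rel_mem i (h w hw)
  exact this hw

theorem z2_map_sup (T : Module.End Λ (FF m P)) (hT : ∀ i, T * YY Λ P i = YY Λ P i * T)
    {A A' A'' B B' B'' : Set (UU m)} (h : ∀ w ∈ supp Λ P A, T w ∈ supp Λ P B)
    (h' : ∀ w ∈ supp Λ P A', T w ∈ supp Λ P B') (h'' : ∀ w ∈ supp Λ P A'', T w ∈ supp Λ P B'')
    {w : FF m P} (hw : w ∈ supp Λ P A'' ⊔ Rel P y A A') : T w ∈ supp Λ P B'' ⊔ Rel P y B B' := by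
  obtain ⟨a, ha, b, hb, rfl⟩ := mem_sup.1 hw
  rw [map_add]
  exact add_mem_sup (h'' a ha) (z2_map_rel T hT h h' hb)

theorem z2_U_le (C : Cx Λ (m + 1) P) {s' s : Shape m} (h1 : ∀ I, s'.A1 I ⊆ s.A1 I)
    (h2 : ∀ I, s'.A2 I ⊆ s.A2 I) {S' S : Fam m} (h : ∀ i I, S' i I ⊆ S i I) :
    s'.U C y S' ≤ s.U C y S := by
  intro w hw
  rw [Shape.mem_U] at hw ⊢
  refine fun I => ⟨z2_supp_mono (h1 I) (hw I).1, fun i => ?_⟩
  exact z2_map_sup 1 (fun _ => by rw [one_mul, mul_one]) (fun _ hw => z2_supp_mono (h1 I) hw)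
    (fun _ hw => z2_supp_mono (h2 I) hw) (fun _ hw => z2_supp_mono (h i I) hw) ((hw I).2 i)

theorem z2_mem_Tot (s : Shape m) (C : Cx Λ (m + 1) P) {w : EE m P} :
    w ∈ s.Tot C y ↔ ∀ I, w I ∈ supp Λ P (s.A1 I) :=
  ⟨fun h I => ((s.mem_U C y).1 h I).1,
    fun h => (s.mem_U_const C y fun _ => subset_rfl).2 fun I => mem_sup_left (h I)⟩

theorem z2_stair_sub (s : Shape m) (ι : ℕ → ℤ) (i : ℕ) (I : Finset (Fin m)) :
    s.stair ι i I ⊆ s.A1 I := fun _ hu => hu.elim (fun h => h.1) fun h => s.sub I h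

theorem z2_mem_Fil (s : Shape m) (C : Cx Λ (m + 1) P) (b : ℤ) {w : EE m P} :
    w ∈ s.Fil C y b ↔
      ∀ I, w I ∈ supp Λ P (s.stair (fun _ => b) 0 I) ⊔ Rel P y (s.A1 I) (s.A2 I) :=
  s.mem_U_const C y (A := fun I => s.stair (fun _ => b) 0 I) (z2_stair_sub s _ 0)

theorem z2_stable_sum {A : Set (UU m)} (hA : Stable A) {ι : Type} (t : Finset ι)
    (l : ι → Finset (Fin m)) {u : UU m} (hu : u ∈ A) : u + ∑ k ∈ t, gam (l k) ∈ A := by
  classical
  induction t using Finset.induction_on with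
  | empty => simpa using hu
  | insert a t ha ih =>
    rw [Finset.sum_insert ha, add_comm (gam _), ← add_assoc]
    exact hA _ ih _

theorem z2_tot_closed (s : Shape m) (q : ℕ) : s.Closed q fun _ I => s.A1 I :=
  ⟨fun _ => s.sub, fun _ _ => subset_rfl, fun _ => s.st1, fun _ => s.mono1,
    fun _ I _ hu l => z2_stable_sum (s.st1 I) _ l hu⟩

theorem z2_fil_closed (s : Shape m) (q : ℕ) (b : ℤ) : s.Closed q (s.stair fun _ => b) :=
  s.stair_closed fun _ => by omega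

theorem z2_del_apply (C : Cx Λ (m + 1) P) (z : EE m P) (I : Finset (Fin m))
    (h : ∀ j ∈ I, z (I.erase j) = 0) : (monoDG C).del z I = onF m C.D (z I) := by
  have e : cech Λ P z I = 0 := by
    simp only [cech, LinearMap.pi_apply, LinearMap.sum_apply, LinearMap.smul_apply,
      LinearMap.proj_apply]
    exact Finset.sum_eq_zero fun j hj => by rw [h j hj, smul_zero]
  change onF m C.D (z I) + onF m C.sgn (cech Λ P z I) = _
  rw [e, map_zero, add_zero]

theorem z2_le_bump (g : Fin m → ℤ) (Pt : Finset (Fin m)) {G : ℤ} (hG : 0 ≤ G) (j : Fin m) :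
    g j ≤ bump g Pt G j := by
  unfold bump
  split_ifs <;> omega

theorem z2_A1_mono {g g' : Fin m → ℤ} (hg : ∀ j, g j ≤ g' j) (Pt : Finset (Fin m)) {a a' : ℤ}
    (ha : a' ≤ a) (I : Finset (Fin m)) : boxA1 g Pt a I ⊆ boxA1 g' Pt a' I :=
  fun _ hu => ⟨hu.1, ha.trans hu.2.1, fun j => (hu.2.2.1 j).trans (hg j), hu.2.2.2⟩

theorem z2_A2_mono (c : Fin m → ℤ) {g g' : Fin m → ℤ} (hg : ∀ j, g j ≤ g' j) (Pt : Finset (Fin m))
    {a a' : ℤ} (ha : a' ≤ a) (I : Finset (Fin m)) : boxA2 c g Pt a I ⊆ boxA2 c g' Pt a' I :=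
  fun _ hu => ⟨z2_A1_mono hg Pt ha I hu.1, hu.2⟩

theorem z2_Tot_le (C : Cx Λ (m + 1) P) (c : Fin m → ℤ) {g g' : Fin m → ℤ} (hg : ∀ j, g j ≤ g' j)
    (Pt : Finset (Fin m)) {a a' : ℤ} (ha : a' ≤ a) :
    (box c g Pt a).Tot C y ≤ (box c g' Pt a').Tot C y :=
  z2_U_le C (z2_A1_mono hg Pt ha) (z2_A2_mono c hg Pt ha) fun _ => z2_A1_mono hg Pt ha

theorem z2_Fil_le (C : Cx Λ (m + 1) P) (c : Fin m → ℤ) {g g' : Fin m → ℤ} (hg : ∀ j, g j ≤ g' j)
    (Pt : Finset (Fin m)) {a a' b b' : ℤ} (ha : a' ≤ a) (hb : b' ≤ b) :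
    (box c g Pt a).Fil C y b ≤ (box c g' Pt a').Fil C y b' :=
  z2_U_le C (z2_A1_mono hg Pt ha) (z2_A2_mono c hg Pt ha) fun _ I _ hu =>
    hu.imp (fun h => ⟨z2_A1_mono hg Pt ha I h.1, hb.trans h.2⟩) fun h => z2_A2_mono c hg Pt ha I h

theorem z2_shift1 {g : Fin m → ℤ} {Pt I : Finset (Fin m)} {a : ℤ} {N G : ℕ} {u : UU m}
    (hu : u ∈ boxA1 g Pt (a + N) I) {v : UU m} (h1 : v.1 = -N)
    (h2 : ∀ j, j ∉ I → 0 ≤ v.2 j ∧ v.2 j + N ≤ G) (h3 : ∀ j ∈ I, v.2 j ≤ -N) :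
    u + v ∈ boxA1 (bump g Pt G) Pt a I := by
  obtain ⟨e1, e2, e3, e4⟩ := hu
  refine ⟨e1, ?_, fun j => ?_, fun j hj => ?_⟩
  · rw [Prod.fst_add]; omega
  · have := e3 j
    rw [Prod.fst_add, Prod.snd_add, Pi.add_apply]
    by_cases hj : j ∈ I
    · have := h3 j hj
      have := z2_le_bump g Pt (Int.natCast_nonneg G) j
      omega
    · have := h2 j hj
      rw [bump, if_neg fun h => hj (e1 h)]
      omega
  · have := h2 j hj
    have := e4 j hj
    rw [Prod.snd_add, Pi.add_apply]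
    omega

theorem z2_shift2 {c g : Fin m → ℤ} {Pt I : Finset (Fin m)} {a : ℤ} {N G : ℕ} {u : UU m}
    (hu : u ∈ boxA2 c g Pt (a + N) I) {v : UU m} (h1 : v.1 = -N)
    (h2 : ∀ j, j ∉ I → 0 ≤ v.2 j ∧ v.2 j + N ≤ G) (h3 : ∀ j ∈ I, v.2 j ≤ -N) :
    u + v ∈ boxA2 c (bump g Pt G) Pt a I := by
  obtain ⟨e1, j, hj, e2⟩ := hu
  refine ⟨z2_shift1 e1 h1 h2 h3, j, hj, ?_⟩
  have := h3 j hj
  rw [Prod.fst_add, Prod.snd_add, Pi.add_apply]
  omega

/-- One pass over the Čech degree `k`.  Let `G`, `V` come from `chart_ops` and `h i` be homotopies with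
`D h + h D = β * y i ^ N`.  For `#I = k` the `I`-component of `∂ z` is `D (z I)`.  Put
`w I = ∑ i, V i (h i (z I))` for `#I = k` and `0` otherwise.  Then
`D (w I) = β • ∑ V i (y i ^ N • z I) - ∑ V i (h i (D (z I)))`; now `y i ^ N • f - YY i ^ N f` lies in
`(y i - YY i) (supp A1)`, the `V i` commute with `y i - YY i` and map `supp A1`, `supp A2`, `supp (A1 ∩ {b + N ≤ ·})`
of the small shape into the corresponding sets (with `b`) of the large shape; so `D (w I) ≡ β • z I` modulo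
the `I`-component of `Fil b` (`mem_U_const`).  Let `z'` be `β • z - ∂ w` with the components `#I ≤ k` set to
zero. -/
theorem z_pass (N : ℕ) : ∃ G : ℕ, ∀ (Λ : Type) [CommRing Λ] (P : Type) [AddCommGroup P] [Module Λ P]
    (y : Fin (m + 1) → Λ) (C : Cx Λ (m + 1) P) (q : ℕ)
    (_ : LinearMap.range C.D ≤ ism (idl y ^ q) P) (β : Λ) (_ : ∀ i, C.Nul (β * y i ^ N))
    (c g : Fin m → ℤ) (Pt : Finset (Fin m)) (a b : ℤ) (k : ℕ) (z : EE m P),
    z ∈ (box c g Pt (a + N)).Tot C y → (monoDG C).del z ∈ (box c g Pt (a + N)).Fil C y (b + N) →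
    (∀ I : Finset (Fin m), I.card < k → z I = 0) →
    ∃ z' ∈ (box c (bump g Pt G) Pt a).Tot C y,
      (monoDG C).del z' ∈ (box c (bump g Pt G) Pt a).Fil C y b ∧
      (∀ I : Finset (Fin m), I.card < k + 1 → z' I = 0) ∧
      β • z - z' ∈ ((box c (bump g Pt G) Pt a).Tot C y).map (monoDG C).del ⊔
        (box c (bump g Pt G) Pt a).Fil C y b := by
  obtain ⟨G, hG⟩ := chart_ops m N
  refine ⟨G, fun Λ _ P _ _ y C q hD β hβ c g Pt a b k z hz hdz hk => ?_⟩
  choose V hV1 hV2 hV3 hV4 using fun I => hG I Λ P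
  choose h hh using hβ
  set s := box c g Pt (a + N) with hs
  set s' := box c (bump g Pt G) Pt a with hs'
  have hle := z2_le_bump g Pt (Int.natCast_nonneg G)
  have m1 : ∀ I i, ∀ w ∈ supp Λ P (s.A1 I), V I i w ∈ supp Λ P (s'.A1 I) := fun I i w hw =>
    hV4 I i _ _ (fun u hu v h1 h2 h3 => z2_shift1 hu h1 h2 h3) ⟨w, hw, rfl⟩
  have m2 : ∀ I i, ∀ w ∈ supp Λ P (s.A2 I), V I i w ∈ supp Λ P (s'.A2 I) := fun I i w hw =>
    hV4 I i _ _ (fun u hu v h1 h2 h3 => z2_shift2 hu h1 h2 h3) ⟨w, hw, rfl⟩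
  have m3 : ∀ I i, ∀ w ∈ supp Λ P (s.stair (fun _ => b + N) 0 I),
      V I i w ∈ supp Λ P (s'.stair (fun _ => b) 0 I) := fun I i w hw =>
    hV4 I i _ _ (fun u hu v h1 h2 h3 => hu.imp (fun e => ⟨z2_shift1 e.1 h1 h2 h3, by
      have := e.2
      rw [Prod.fst_add]
      dsimp only at this ⊢
      omega⟩) fun e => z2_shift2 e h1 h2 h3) ⟨w, hw, rfl⟩
  have hz1 := (z2_mem_Tot s C).1 hz
  let w : EE m P := fun I => if I.card = k then ∑ i, V I i (onF m (h i) (z I)) else 0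
  have hw : w ∈ s'.Tot C y := (z2_mem_Tot s' C).2 fun I => by
    simp only [w]
    split_ifs
    · exact sum_mem fun i _ => m1 I i _ (z2_onF_supp _ (hz1 I))
    · exact zero_mem _
  have hT := s'.U_sub C y hD (z2_tot_closed s' q)
  have hF := s'.U_sub C y hD (z2_fil_closed s' q b)
  set r : EE m P := β • z - (monoDG C).del w with hr
  have hrT : r ∈ s'.Tot C y :=
    sub_mem (smul_mem _ _ (z2_Tot_le C c hle Pt (by omega) hz)) (hT.2 ⟨w, hw, rfl⟩)
  let θ : EE m P := fun I => if I.card < k + 1 then r I else 0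
  have hθ : θ ∈ s'.Fil C y b := (z2_mem_Fil s' C b).2 fun I => by
    simp only [θ]
    split_ifs with hI
    swap
    · exact zero_mem _
    have e1 : (monoDG C).del w I = onF m C.D (w I) := z2_del_apply C w I fun j hj => by
      have := Finset.card_erase_add_one hj
      exact if_neg (by omega)
    rw [hr, Pi.sub_apply, Pi.smul_apply, e1]
    by_cases hI' : I.card = k
    swap
    · rw [hk I (by omega), show w I = 0 from if_neg hI', map_zero, smul_zero, sub_zero]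
      exact zero_mem _
    have e2 : (monoDG C).del z I = onF m C.D (z I) := z2_del_apply C z I fun j hj => by
      have := Finset.card_erase_add_one hj
      exact hk _ (by omega)
    have e3 := (z2_mem_Fil s C (b + N)).1 hdz I
    rw [e2] at e3
    have e4 : z I = ∑ i, V I i ((YY Λ P i ^ N) (z I)) := by
      have := LinearMap.congr_fun (hV1 I) (z I)
      rw [LinearMap.sum_apply, Module.End.one_apply] at this
      exact this.symm
    have e5 : β • z I - onF m C.D (w I) = ∑ i, (V I i (onF m (h i) (onF m C.D (z I))) -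
        β • V I i (y i ^ N • z I - (YY Λ P i ^ N) (z I))) := by
      rw [show w I = _ from if_pos hI', map_sum]
      conv_lhs => rw [e4, Finset.smul_sum, ← e4]
      rw [← Finset.sum_sub_distrib]
      refine Finset.sum_congr rfl fun i _ => ?_
      have := LinearMap.congr_fun (hV3 I i C.D) (onF m (h i) (z I))
      simp only [Module.End.mul_apply] at this
      rw [← this, z2_onF_nul (hh i), map_sub, map_sub, mul_smul, map_smul, smul_sub]
      abel
    rw [e5]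
    refine sum_mem fun i _ => sub_mem ?_ (smul_mem _ _ (mem_sup_right ?_))
    · refine z2_map_sup _ (hV2 I i) (m1 I i) (m2 I i) (m3 I i) ?_
      exact z2_map_sup _ (z2_onF_YY _) (fun _ => z2_onF_supp _) (fun _ => z2_onF_supp _)
        (fun _ => z2_onF_supp _) e3
    · exact z2_map_rel _ (hV2 I i) (m1 I i) (m2 I i) (z2_pow_rel (s.st1 I) i N (hz1 I))
  refine ⟨r - θ, (z2_mem_Tot s' C).2 fun I => ?_, ?_, fun I hI => ?_, ?_⟩
  · have := (z2_mem_Tot s' C).1 hrT I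
    simp only [θ, Pi.sub_apply]
    split_ifs
    · exact sub_mem this this
    · exact sub_mem this (zero_mem _)
  · have e : (monoDG C).del ((monoDG C).del w) = 0 := LinearMap.congr_fun (monoDG C).del_sq w
    rw [map_sub, hr, map_sub, map_smul, e, sub_zero]
    exact sub_mem (smul_mem _ _ (z2_Fil_le C c hle Pt (by omega) (by omega) hdz)) (hF.2 ⟨θ, hθ, rfl⟩)
  · simp only [θ, Pi.sub_apply, if_pos hI, sub_self]
  · have e : β • z - (r - θ) = (monoDG C).del w + θ := by rw [hr]; abel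
    rw [e]
    exact add_mem_sup ⟨w, hw, rfl⟩ hθ

theorem z2_bump_bump (g : Fin m → ℤ) (Pt : Finset (Fin m)) (G G' : ℤ) :
    bump (bump g Pt G) Pt G' = bump g Pt (G + G') := by
  funext j
  unfold bump
  split_ifs
  · rfl
  · ring

theorem z2_iter (C : Cx Λ (m + 1) P) {q : ℕ} (hD : LinearMap.range C.D ≤ ism (idl y ^ q) P) {β : Λ}
    {N : ℕ} (hβ : ∀ i, C.Nul (β * y i ^ N)) (c g : Fin m → ℤ) (Pt : Finset (Fin m)) (k : ℕ) :
    ∃ G : ℤ, 0 ≤ G ∧ ∀ (a b : ℤ) (z : EE m P),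
    z ∈ (box c g Pt (a + (k * N : ℕ))).Tot C y →
    (monoDG C).del z ∈ (box c g Pt (a + (k * N : ℕ))).Fil C y (b + (k * N : ℕ)) →
    ∃ z' ∈ (box c (bump g Pt G) Pt a).Tot C y,
      (monoDG C).del z' ∈ (box c (bump g Pt G) Pt a).Fil C y b ∧
      (∀ I : Finset (Fin m), I.card < k → z' I = 0) ∧
      β ^ k • z - z' ∈ ((box c (bump g Pt G) Pt a).Tot C y).map (monoDG C).del ⊔
        (box c (bump g Pt G) Pt a).Fil C y b := by
  obtain ⟨G0, hG0⟩ := z_pass (m := m) N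
  induction k with
  | zero =>
    have hle := z2_le_bump g Pt le_rfl
    refine ⟨0, le_rfl, fun a b z hz hdz => ⟨z, z2_Tot_le C c hle Pt (by simp) hz,
      z2_Fil_le C c hle Pt (by simp) (by simp) hdz, fun I hI => absurd hI (by omega), ?_⟩⟩
    rw [pow_zero, one_smul, sub_self]
    exact zero_mem _
  | succ k ih =>
    obtain ⟨G, hG, ih⟩ := ih
    refine ⟨G + G0, by omega, fun a b z hz hdz => ?_⟩
    have e : ∀ t : ℤ, t + (((k + 1) * N : ℕ) : ℤ) = t + N + (k * N : ℕ) := fun t => by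
      push_cast; ring
    rw [e] at hz
    rw [e, e] at hdz
    obtain ⟨z1, h1, h2, h3, h4⟩ := ih _ _ z hz hdz
    obtain ⟨z2, h5, h6, h7, h8⟩ := hG0 Λ P y C q hD β hβ c _ Pt a b k z1 h1 h2 h3
    have hle := z2_le_bump (bump g Pt G) Pt (Int.natCast_nonneg G0)
    have h9 := sup_le_sup (map_mono (f := (monoDG C).del) (z2_Tot_le (y := y) C c hle Pt
      (by omega : a ≤ a + N))) (z2_Fil_le (y := y) C c hle Pt (by omega : a ≤ a + N)
      (by omega : b ≤ b + N)) h4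
    rw [z2_bump_bump] at h5 h6 h8 h9
    refine ⟨z2, h5, h6, h7, ?_⟩
    have e2 : β ^ (k + 1) • z - z2 = β • (β ^ k • z - z1) + (β • z1 - z2) := by
      rw [pow_succ', mul_smul, smul_sub]; abel
    rw [e2]
    exact add_mem (smul_mem _ _ h9) h8

/-- The elimination step. -/
theorem z2_elim (hK : KZ n y P) (C : Cx Λ (m + 1) P) {q : ℕ}
    (hD : LinearMap.range C.D ≤ ism (idl y ^ q) P) {c g : Fin m → ℤ} {Pt : Finset (Fin m)} {a b G : ℤ}
    (hg : BoxOK c g Pt a) (hG : 0 ≤ G) (hb : b ≤ a + n) {w : EE m P}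
    (hw : w ∈ (box c (bump g Pt G) Pt a).Tot C y)
    (hd : (monoDG C).del w ∈ (box c g Pt a).Tot C y ⊔ (box c (bump g Pt G) Pt a).Fil C y b) :
    w ∈ ((box c (bump g Pt G) Pt a).Tot C y).map (monoDG C).del ⊔
      ((box c g Pt a).Tot C y ⊔ (box c (bump g Pt G) Pt a).Fil C y b) := by
  set s := box c g Pt a with hs
  set s' := box c (bump g Pt G) Pt a with hs'
  have hle := z2_le_bump g Pt hG
  have h1 : ∀ I, s.A1 I ⊆ s'.A1 I := z2_A1_mono hle Pt le_rfl
  have h2 : ∀ I, s.A2 I ⊆ s'.A2 I := z2_A2_mono c hle Pt le_rfl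
  have hE : s.Tot C y ⊔ s'.Fil C y b = s'.U C y fun i I => s.A1 I ∪ s'.stair (fun _ => b) i I :=
    s'.U_extend C s h1 h2 (fun _ _ => subset_rfl) (z2_stair_sub s' _)
  have c1 := z2_tot_closed s q
  have c2 := z2_fil_closed s' q b
  have hc : s'.Closed q fun i I => s.A1 I ∪ s'.stair (fun _ => b) i I :=
    ⟨fun i I u hu => Or.inr (c2.lo i I hu), fun i I u hu => hu.elim (h1 I ·) (c2.hi i I ·),
      fun i I u hu J => hu.imp (c1.st i I u · J) (c2.st i I u · J),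
      fun i I j u hu => hu.imp (c1.mono i I j ·) (c2.mono i I j ·),
      fun i I u hu l => hu.imp (c1.dcl i I u · l) (c2.dcl i I u · l)⟩
  have hT := s'.U_sub C y hD (z2_tot_closed s' q)
  have hS := s'.U_sub C y hD hc
  rw [hE] at hd ⊢
  refine DG.mem_of_π (G := monoDG C) fun j => ?_
  refine s'.elim C hK hD (z2_tot_closed s' q) hc hc.hi
    (fun i I u hu hu' => Or.inr (Or.inl ⟨hu, hb.trans hu'⟩)) j (fun i _ u => ?_)
    (hT.1 j ⟨w, hw, rfl⟩) (DG.l2_idem j w) ?_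
  · by_cases h : ∃ j0, j0 ∉ Pt ∧ g j0 < u.2 j0 - u.1 ∧ a ≤ u.1
    · obtain ⟨j0, e1, e2, e3⟩ := h
      have e4 := hg j0 e1
      have key : ∀ I, u ∈ s'.A1 I \ (s.A1 I ∪ s'.stair (fun _ => b) i I) ↔
          Live c (bump g Pt G) Pt a u I ∧ ¬ b ≤ u.1 := fun I =>
        ⟨fun h => ⟨⟨h.1, fun h' => h.2 (Or.inr (Or.inr h'))⟩, fun h' => h.2 (Or.inr (Or.inl ⟨h.1, h'⟩))⟩,
          fun h => ⟨h.1.1, fun h' => h'.elim (fun h'' => absurd (h''.2.2.1 j0) (by omega))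
            fun h'' => h''.elim (fun h3 => h.2 h3.2) h.1.2⟩⟩
      refine Or.inl ⟨j0, fun I hI => ?_⟩
      rw [key, key, live_toggle c _ Pt a u e1 (by omega) (by omega) I hI]
    · refine Or.inr fun I hI => absurd ?_ h
      obtain ⟨⟨e1, e2, e3, e4⟩, e5⟩ := hI
      by_contra h'
      refine e5 (Or.inl ⟨e1, e2, fun j => ?_, e4⟩)
      by_contra h''
      by_cases hj : j ∈ Pt
      · have := e3 j
        rw [bump, if_pos hj] at this
        exact h'' this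
      · exact h' ⟨j, hj, not_le.1 h'', e2⟩
  · rw [← sub_add_cancel j 1, ← DG.l2_del]
    exact hS.1 _ ⟨_, hd, rfl⟩

/-- Property (Z).  Let `n0 = (m+1) N`, `s = box c g Pt bot`.  Write `z = z0 + ρ` with `z0` in
`Tot` of `box c g Pt (a + n0)` and `ρ ∈ s.Fil (b + n0)` (`U_extend`); by `U_restrict`, `∂ z0` lies in
`Fil (b + n0)` of the small shape.  After `m + 1` passes `β^(m+1) • z0 ∈ map ∂ Tot* ⊔ Fil* b` for
`s* = box c g* Pt a`, `g* = bump g Pt ((m+1) G)` (the spaces `Tot`, `Fil` of the intermediate shapes increase).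
So `β^(m+1) z0 = ∂ w + θ`.  Let `S = A1(g, a) ∪ s*.stair b`, a closed family of `s*`; `∂ w ∈ s*.U S`.  By
`elim` (every `u ∈ A1* \ S` has `u.2 j - u.1 > g j` for some `j ∉ Pt`, and this `j` can be toggled by
`BoxOK`), applied to all homogeneous components of `w`, `w ∈ map ∂ Tot* ⊔ s*.U S`; hence
`∂ w ∈ map ∂ (s*.U S) ≤ map ∂ (Tot (g, a)) ⊔ Fil* b` (`U_extend`).  So `β^(m+1) z0 - ∂ w0 ∈ Tot (g, a) ⊓ Fil* b`,
which is `Fil b` of `box c g Pt a` by `U_restrict`, and this lies in `s.Fil b`; also `Tot (g, a) ≤ s.Fil a`.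
The windows have length `b - a ≤ n`. -/
theorem box_hZ (hK : KZ n y P) (C : Cx Λ (m + 1) P) {q : ℕ}
    (hD : LinearMap.range C.D ≤ ism (idl y ^ q) P) {α : Λ} {N : ℕ}
    (hN : ∀ i, C.Nul (α ^ 2 * y i ^ N)) {c g : Fin m → ℤ} {Pt : Finset (Fin m)} {bot top : ℤ}
    (hg : BoxOK c g Pt bot) (hn : top ≤ bot + n) (a b : ℤ) (ha : bot ≤ a) (hab : a ≤ b)
    (hb : b + ((m + 1) * N : ℕ) ≤ top) :
    ALE α ((box c g Pt bot).Fil C y (a + ((m + 1) * N : ℕ)) ⊓
        ((box c g Pt bot).Fil C y (b + ((m + 1) * N : ℕ))).comap (monoDG C).del)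
      (((box c g Pt bot).Fil C y a).map (monoDG C).del ⊔ (box c g Pt bot).Fil C y b) := by
  obtain ⟨G, hG, hit⟩ := z2_iter C hD hN c g Pt (m + 1)
  refine ⟨2 * (m + 1), fun z hz => ?_⟩
  obtain ⟨hz, hdz⟩ := hz
  rw [pow_mul]
  set n0 : ℤ := (((m + 1) * N : ℕ) : ℤ) with hn0
  have hn1 : 0 ≤ n0 := Int.natCast_nonneg _
  set s := box c g Pt bot with hs
  set s0 := box c g Pt (a + n0) with hs0
  set sa := box c g Pt a with hsa
  set s' := box c (bump g Pt G) Pt a with hs'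
  have hgg : ∀ j, g j ≤ g j := fun _ => le_rfl
  have hle := z2_le_bump g Pt hG
  have h1 : ∀ I, s0.A1 I ⊆ s.A1 I := z2_A1_mono hgg Pt (by omega)
  have h2 : ∀ I, s0.A2 I ⊆ s.A2 I := z2_A2_mono c hgg Pt (by omega)
  have hz' : z ∈ s0.Tot C y ⊔ s.Fil C y (b + n0) := by
    rw [Shape.Tot, Shape.Fil, s.U_extend C s0 h1 h2 (fun _ _ => subset_rfl) (z2_stair_sub s _)]
    refine s.U_mono C y (fun i I u hu => ?_) hz
    exact hu.imp (fun h => ⟨h.1.1, h.2, h.1.2.2⟩) Or.inr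
  obtain ⟨z0, hz0, ρ, hρ, rfl⟩ := mem_sup.1 hz'
  have hd0 : (monoDG C).del z0 ∈ s0.Fil C y (b + n0) := by
    have e1 : (monoDG C).del z0 ∈ s.Fil C y (b + n0) := by
      have e : (monoDG C).del z0 = (monoDG C).del (z0 + ρ) - (monoDG C).del ρ := by
        rw [map_add, add_sub_cancel_right]
      rw [e]
      exact sub_mem hdz ((s.U_sub C y hD (z2_fil_closed s q _)).2 ⟨ρ, hρ, rfl⟩)
    have e2 := (s.U_restrict C hK s0 h1 h2 (z2_fil_closed s q (b + n0))
      fun i I u hu hu' => Or.inl ⟨hu, le_trans (hb.trans hn) hu'⟩).le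
      ⟨(s0.U_sub C y hD (z2_tot_closed s0 q)).2 ⟨z0, hz0, rfl⟩, e1⟩
    refine s0.U_mono C y (fun i I u hu => ?_) e2
    exact hu.1.imp (fun h => ⟨hu.2, h.2⟩) fun h => ⟨hu.2, h.2⟩
  obtain ⟨z', -, -, h3, h4⟩ := hit a b z0 hz0 hd0
  have h5 : z' = 0 := funext fun I => h3 I (by
    have := I.card_le_univ
    rw [Fintype.card_fin] at this
    omega)
  rw [h5, sub_zero] at h4
  obtain ⟨_, ⟨w, hw, rfl⟩, θ, hθ, h6⟩ := mem_sup.1 h4
  have hz0a : z0 ∈ sa.Tot C y := z2_Tot_le C c hgg Pt (by omega) hz0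
  have h7 := z2_elim hK C hD (a := a) (b := b) (fun j hj => ⟨(hg j hj).1, by have := (hg j hj).2; omega⟩)
    hG (by omega) hw (by
      rw [eq_sub_of_add_eq h6]
      exact sub_mem (mem_sup_left (smul_mem _ _ hz0a)) (mem_sup_right hθ))
  obtain ⟨_, ⟨v, -, rfl⟩, _, h8, h9⟩ := mem_sup.1 h7
  obtain ⟨w0, hw0, θ', hθ', rfl⟩ := mem_sup.1 h8
  have e0 : (monoDG C).del ((monoDG C).del v) = 0 := LinearMap.congr_fun (monoDG C).del_sq v
  have e1 : (α ^ 2) ^ (m + 1) • z0 - (monoDG C).del w0 = (monoDG C).del θ' + θ := by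
    rw [← h6, ← h9, map_add, map_add, e0]
    abel
  have e2 : (α ^ 2) ^ (m + 1) • z0 - (monoDG C).del w0 ∈ s.Fil C y b := by
    have e3 := (s'.U_restrict C hK sa (z2_A1_mono hle Pt le_rfl) (z2_A2_mono c hle Pt le_rfl)
      (z2_fil_closed s' q b) fun i I u hu hu' => Or.inl ⟨hu, le_trans (by
        change b ≤ a + n
        omega) hu'⟩).le
      ⟨sub_mem (smul_mem _ ((α ^ 2) ^ (m + 1)) hz0a)
        ((sa.U_sub C y hD (z2_tot_closed sa q)).2 ⟨w0, hw0, rfl⟩), by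
        rw [e1]
        exact add_mem ((s'.U_sub C y hD (z2_fil_closed s' q b)).2 ⟨θ', hθ', rfl⟩) hθ⟩
    refine z2_U_le C (z2_A1_mono hgg Pt ha) (z2_A2_mono c hgg Pt ha) (fun i I u hu => ?_) e3
    have e4 := z2_A1_mono hgg Pt ha I hu.2
    exact hu.1.imp (fun h => ⟨e4, h.2⟩) fun h => ⟨e4, h.2⟩
  have e3 : w0 ∈ s.Fil C y a :=
    z2_U_le C (z2_A1_mono hgg Pt ha) (z2_A2_mono c hgg Pt ha)
      (fun i I u hu => Or.inl ⟨z2_A1_mono hgg Pt ha I hu, hu.2.1⟩) hw0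
  have e4 : (α ^ 2) ^ (m + 1) • (z0 + ρ) = (monoDG C).del w0 +
      (((α ^ 2) ^ (m + 1) • z0 - (monoDG C).del w0) + (α ^ 2) ^ (m + 1) • ρ) := by
    rw [smul_add]; abel
  rw [e4]
  exact add_mem_sup ⟨w0, e3, rfl⟩
    (add_mem e2 (smul_mem _ _ (z2_Fil_le C c hgg Pt le_rfl (by omega) hρ)))

end Crest.Agent.R183
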