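import Crest.Agent.R183.MxD
import Crest.Agent.R183.PS

/-!
# rid 183, file `MxA`: the unramified base `𝕎 k ⟦X'⟧` with its Frobenius lift

Prefix helper lemmas with `mxa_`.
-/

set_option autoImplicit false

open IsLocalRing

namespace Crest.Agent.R183

/-- A complete regular local base with parameters `p, X'` and a Frobenius lift. -/
structure MBase (p : ℕ) (A : Type) [CommRing A] [IsLocalRing A] {d : ℕ} (X' : Fin d → A) (Δ : DeltaS A p) :
    Prop where
  rb : RBase A (Fin.cons (p : A) X' : Fin (d + 1) → A)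
  max : idl (Fin.cons (p : A) X' : Fin (d + 1) → A) = maximalIdeal A
  cpl : IsAdicComplete (maximalIdeal A) A
  φX : ∀ i, Δ.φ (X' i) = X' i ^ p
  res : SameRes Δ.φ

/-- `φ = MvPowerSeries.expand p ∘ MvPowerSeries.map WittVector.frobenius`.  Modulo `p` this is the Frobenius
(`MvPowerSeries.map_frobenius_expand` over `𝕎 k / p`, `WittVector.frobenius` lifts the `p`-th power map). -/
theorem mbase_witt (p : ℕ) [Fact p.Prime] (k : Type) [Field k] [CharP k p] [PerfectRing k p] (d : ℕ) :
    ∃ Δ : DeltaS (MvPowerSeries (Fin d) (WittVector p k)) p,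
      MBase p (MvPowerSeries (Fin d) (WittVector p k)) MvPowerSeries.X Δ := by
  have hp : p ≠ 0 := (Fact.out : p.Prime).ne_zero
  have hm : maximalIdeal (WittVector p k) = Ideal.span {(p : WittVector p k)} :=
    (WittVector.irreducible p).maximalIdeal_eq
  have hC : (MvPowerSeries.C (p : WittVector p k) : MvPowerSeries (Fin d) (WittVector p k)) = p :=
    map_natCast _ p
  have : IsAdicComplete (maximalIdeal (WittVector p k)) (WittVector p k) := by
    rw [hm]
    infer_instance
  let φ : MvPowerSeries (Fin d) (WittVector p k) →+* MvPowerSeries (Fin d) (WittVector p k) :=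
    (MvPowerSeries.expand p hp : MvPowerSeries (Fin d) (WittVector p k) →ₐ[WittVector p k] _).toRingHom.comp
      (MvPowerSeries.map WittVector.frobenius)
  have hφ : ∀ f, φ f = MvPowerSeries.expand p hp (MvPowerSeries.map WittVector.frobenius f) := fun f => rfl
  have hF : (WittVector.constantCoeff : WittVector p k →+* k).comp WittVector.frobenius =
      (frobenius k p).comp WittVector.constantCoeff := by
    ext w
    simp [frobenius_def]
  have key : ∀ f, ∃ g, φ f = f ^ p + p * g := fun f => by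
    have h1 : MvPowerSeries.map (WittVector.constantCoeff : WittVector p k →+* k) (φ f - f ^ p) = 0 := by
      rw [map_sub, map_pow, hφ, MvPowerSeries.map_expand, ← RingHom.comp_apply (MvPowerSeries.map _),
        ← MvPowerSeries.map_comp, hF, MvPowerSeries.map_comp, RingHom.comp_apply,
        ← MvPowerSeries.map_expand, MvPowerSeries.map_frobenius_expand, sub_self]
    have h2 : ∀ β, ∃ c, c * p = MvPowerSeries.coeff β (φ f - f ^ p) := fun β => by
      rw [← Ideal.mem_span_singleton', ← WittVector.ker_constantCoeff, RingHom.mem_ker,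
        ← MvPowerSeries.coeff_map, h1, map_zero]
    choose c hc using h2
    obtain ⟨g, hg⟩ : ∃ g : MvPowerSeries (Fin d) (WittVector p k), ∀ β, MvPowerSeries.coeff β g = c β :=
      ⟨fun β => c β, fun _ => rfl⟩
    refine ⟨g, ?_⟩
    rw [← sub_eq_iff_eq_add', ← hC]
    ext β : 1
    rw [MvPowerSeries.coeff_C_mul, hg, mul_comm, hc]
  choose δ hδ using key
  refine ⟨⟨φ, δ, hδ, fun a ha => ?_⟩, ?_, ?_, ps_complete _ d, fun i => ?_, fun b => ?_⟩
  · ext β : 1
    have h1 := congrArg (MvPowerSeries.coeff β) ha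
    rw [← hC, MvPowerSeries.coeff_C_mul, map_zero, mul_comm] at h1
    rw [WittVector.eq_zero_of_p_mul_eq_zero _ h1, map_zero]
  · rw [← hC]
    exact rbase_ps_dvr _ (WittVector.irreducible p) d
  · rw [ps_maximal, hm, Ideal.map_span, Set.image_singleton, idl, idl, Fin.range_cons,
      Ideal.span_insert, hC]
  · change φ _ = _
    rw [hφ, MvPowerSeries.map_X, MvPowerSeries.expand_X]
  · obtain ⟨w, hw⟩ := (WittVector.frobenius_bijective p k).2 (MvPowerSeries.constantCoeff b)
    refine ⟨MvPowerSeries.C w, ?_⟩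
    change b - φ _ ∈ _
    rw [hφ, MvPowerSeries.map_C, MvPowerSeries.expand_C, hw, mem_maximalIdeal, mem_nonunits_iff,
      MvPowerSeries.isUnit_iff_constantCoeff]
    simp

theorem mxa_dense {R : Type} [CommRing R] (M : Subring R) (s : Set R) (hs : s ⊆ M)
    (h : ∀ b, ∃ t ∈ M, b - t ∈ Ideal.span s) (n : ℕ) (b : R) : ∃ t ∈ M, b - t ∈ Ideal.span s ^ n := by
  induction n generalizing b with
  | zero => exact ⟨0, M.zero_mem, by simp⟩
  | succ n ih =>
    have h1 : ∀ x ∈ Ideal.span s, ∀ r, ∃ t ∈ M, r * x - t ∈ Ideal.span s ^ (n + 1) := by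
      intro x hx
      induction hx using Submodule.span_induction with
      | mem x hx =>
        intro r
        obtain ⟨t, ht, hr⟩ := ih r
        refine ⟨t * x, M.mul_mem ht (hs hx), ?_⟩
        rw [← sub_mul, pow_succ]
        exact Ideal.mul_mem_mul hr (Ideal.subset_span hx)
      | zero => exact fun r => ⟨0, M.zero_mem, by simp⟩
      | add x y _ _ hx hy =>
        intro r
        obtain ⟨t, ht, hr⟩ := hx r
        obtain ⟨t', ht', hr'⟩ := hy r
        refine ⟨t + t', M.add_mem ht ht', ?_⟩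
        rw [mul_add, add_sub_add_comm]
        exact Ideal.add_mem _ hr hr'
      | smul c x _ hx =>
        intro r
        rw [smul_eq_mul, ← mul_assoc]
        exact hx _
    obtain ⟨t, ht, hb⟩ := h b
    obtain ⟨t', ht', hb'⟩ := h1 _ hb 1
    refine ⟨t + t', M.add_mem ht ht', ?_⟩
    rwa [one_mul, sub_sub] at hb'

theorem mxa_span {A R : Type} [CommRing A] [IsLocalRing A] [IsAdicComplete (maximalIdeal A) A]
    [CommRing R] [IsLocalRing R] [IsAdicComplete (maximalIdeal R) R] (f : A →+* R) [IsLocalHom f]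
    (hr : SameRes f) {d q : ℕ} (x : Fin d → R) (hq : 0 < q) (y : R)
    (hm : maximalIdeal R = Ideal.span (insert y (Set.range x))) (hy : y ∈ (maximalIdeal A).map f)
    (hx : ∀ i, x i ^ q ∈ (maximalIdeal A).map f) (a : R) :
    ∃ c : (Fin d → Fin q) → A, a = ∑ β, f (c β) * ∏ i, x i ^ (β i : ℕ) := by
  classical
  let _ : Algebra A R := f.toAlgebra
  have hf : algebraMap A R = f := rfl
  let w : (Fin d → Fin q) → R := fun β => ∏ i, x i ^ (β i : ℕ)
  let N : Submodule A R := Submodule.span A (Set.range w) ⊔ ism (maximalIdeal A) R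
  have hJ : ∀ r, r ∈ ism (maximalIdeal A) R ↔ r ∈ (maximalIdeal A).map f := fun r => by
    rw [ism, Ideal.smul_top_eq_map]
    rfl
  have hJN : ∀ r ∈ (maximalIdeal A).map f, r ∈ N := fun r h => Submodule.mem_sup_right ((hJ r).2 h)
  let M : Subring R :=
    { carrier := {r | ∀ z ∈ N, r * z ∈ N}
      mul_mem' := fun {r s} hr hs z hz => by
        rw [mul_assoc]
        exact hr _ (hs z hz)
      one_mem' := fun z hz => by rwa [one_mul]
      add_mem' := fun {r s} hr hs z hz => by
        rw [add_mul]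
        exact N.add_mem (hr z hz) (hs z hz)
      zero_mem' := fun z _ => by
        rw [zero_mul]
        exact N.zero_mem
      neg_mem' := fun {r} hr z hz => by
        rw [neg_mul]
        exact N.neg_mem (hr z hz) }
  have hJM : ∀ r ∈ (maximalIdeal A).map f, r ∈ M := fun r h z _ => hJN _ (Ideal.mul_mem_right _ _ h)
  have hxM : ∀ i, x i ∈ M := fun i z hz => by
    obtain ⟨s, hs, j, hj, rfl⟩ := Submodule.mem_sup.1 hz
    rw [mul_add]
    refine N.add_mem ?_ (hJN _ (Ideal.mul_mem_left _ _ ((hJ j).1 hj)))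
    clear hz
    induction hs using Submodule.span_induction with
    | mem s hs =>
      obtain ⟨β, rfl⟩ := hs
      have e1 : x i * w β = x i ^ ((β i : ℕ) + 1) * ∏ l ∈ Finset.univ.erase i, x l ^ (β l : ℕ) := by
        rw [pow_succ', mul_assoc, Finset.mul_prod_erase _ (fun l => x l ^ (β l : ℕ)) (Finset.mem_univ i)]
      rw [e1]
      by_cases hβ : (β i : ℕ) + 1 < q
      · refine Submodule.mem_sup_left (Submodule.subset_span ⟨Function.update β i ⟨_, hβ⟩, ?_⟩)
        change ∏ l, x l ^ (Function.update β i ⟨_, hβ⟩ l : ℕ) = _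
        rw [← Finset.mul_prod_erase _ _ (Finset.mem_univ i), Function.update_self]
        congr 1
        exact Finset.prod_congr rfl fun l hl => by rw [Function.update_of_ne (Finset.ne_of_mem_erase hl)]
      · have e2 : (β i : ℕ) + 1 = q := by
          have := (β i).2
          omega
        rw [e2]
        exact hJN _ (Ideal.mul_mem_right _ _ (hx i))
    | zero =>
      rw [mul_zero]
      exact N.zero_mem
    | add s t _ _ hs ht =>
      rw [mul_add]
      exact N.add_mem hs ht
    | smul c s _ hs =>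
      rw [mul_smul_comm]
      exact N.smul_mem c hs
  obtain ⟨n, hn⟩ : ∃ n, maximalIdeal R ^ n ≤ (maximalIdeal A).map f := by
    refine Ideal.exists_pow_le_of_le_radical_of_fg ?_ ?_
    · rw [hm, Ideal.span_le]
      rintro _ (rfl | ⟨i, rfl⟩)
      · exact Ideal.le_radical hy
      · exact ⟨q, hx i⟩
    · rw [hm]
      exact Submodule.fg_span ((Set.finite_range x).insert y)
  have hN : N = ⊤ := eq_top_iff.2 fun b _ => by
    obtain ⟨t, ht, hb⟩ := mxa_dense M (insert y (Set.range x)) (by
      rintro _ (rfl | ⟨i, rfl⟩)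
      exacts [hJM _ hy, hxM i]) (fun b => by
        obtain ⟨c, hc⟩ := hr b
        exact ⟨f c, fun z hz => N.smul_mem c hz, hm ▸ hc⟩) n b
    have h1 : (1 : R) ∈ N :=
      Submodule.mem_sup_left (Submodule.subset_span ⟨fun _ => ⟨0, hq⟩, by simp [w]⟩)
    have h2 := N.add_mem (ht 1 h1) (hJN _ (hn (hm ▸ hb)))
    rwa [mul_one, add_sub_cancel] at h2
  have : IsHausdorff (maximalIdeal A) R := by
    refine IsHausdorff.of_map (S := R) (J := maximalIdeal R) ?_
    rw [hf]
    exact ((IsLocalRing.local_hom_TFAE f).out 0 2).mp ‹_›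
  have e := (Fintype.equivFin (Fin d → Fin q)).symm.surjective.range_comp w
  have htop := span_eq_top_of_complete (maximalIdeal A) (w ∘ (Fintype.equivFin (Fin d → Fin q)).symm)
    (by rw [e]; exact hN)
  rw [e] at htop
  obtain ⟨c, hc⟩ := (Submodule.mem_span_range_iff_exists_fun A).1 (htop ▸ Submodule.mem_top (x := a))
  exact ⟨c, hc.symm⟩

variable {p : ℕ} [Fact p.Prime] {A : Type} [CommRing A] [IsLocalRing A] {d : ℕ} {X' : Fin d → A} {Δ : DeltaS A p}

theorem MBase.φ_local (h : MBase p A X' Δ) : IsLocalHom Δ.φ := by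
  refine ⟨fun a ha => ?_⟩
  by_contra hn
  have h1 : a ∈ maximalIdeal A := hn
  have h2 : Δ.φ a ∈ maximalIdeal A := by
    rw [Δ.spec]
    exact Ideal.add_mem _ (Ideal.pow_mem_of_mem _ h1 _ (Fact.out : p.Prime).pos)
      (Ideal.mul_mem_right _ _ (h.max ▸ Ideal.subset_span ⟨0, rfl⟩))
  exact h2 ha

theorem MBase.φ_pow_local (h : MBase p A X' Δ) (e : ℕ) : IsLocalHom (Δ.φ ^ e) := by
  induction e with
  | zero => exact ⟨fun a ha => ha⟩
  | succ e ih =>
    refine ⟨fun a ha => h.φ_local.1 a (ih.1 _ ?_)⟩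
    rwa [pow_succ] at ha

theorem MBase.φ_pow_res (h : MBase p A X' Δ) (e : ℕ) : SameRes (Δ.φ ^ e) := by
  induction e with
  | zero => exact fun b => ⟨b, by simp⟩
  | succ e ih =>
    intro b
    obtain ⟨a, ha⟩ := ih b
    obtain ⟨a', ha'⟩ := h.res a
    have := h.φ_pow_local e
    have h1 := map_nonunit (Δ.φ ^ e) _ ha'
    refine ⟨a', ?_⟩
    have e1 : b - (Δ.φ ^ (e + 1)) a' = (b - (Δ.φ ^ e) a) + (Δ.φ ^ e) (a - Δ.φ a') := by
      rw [map_sub, pow_succ, RingHom.mul_def, RingHom.comp_apply]
      ring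
    rw [e1]
    exact Ideal.add_mem _ ha h1

theorem MBase.φ_pow_X (h : MBase p A X' Δ) (e : ℕ) (i : Fin d) : (Δ.φ ^ e) (X' i) = X' i ^ p ^ e := by
  induction e with
  | zero => simp
  | succ e ih => rw [pow_succ, RingHom.mul_def, RingHom.comp_apply, h.φX, map_pow, ih, ← pow_mul, pow_succ]

/-- Complete Nakayama (`span_eq_top_of_complete`) for `A` as a module over itself through `φ^e`: modulo
`(p, X'^[q])` the ring is spanned by the reduced monomials over the residue field. -/
theorem MBase.span_monomials (h : MBase p A X' Δ) (e : ℕ) (a : A) :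
    ∃ c : (Fin d → Fin (p ^ e)) → A, a = ∑ β, (Δ.φ ^ e) (c β) * ∏ i, X' i ^ (β i : ℕ) := by
  have := h.cpl
  have := h.φ_pow_local e
  have hp : (p : A) ∈ maximalIdeal A := h.max ▸ Ideal.subset_span ⟨0, rfl⟩
  refine mxa_span (Δ.φ ^ e) (h.φ_pow_res e) X' (pow_pos (Fact.out : p.Prime).pos e) (p : A) ?_ ?_
    (fun i => ?_) a
  · rw [← h.max, idl, Fin.range_cons]
  · rw [← map_natCast (Δ.φ ^ e) p]
    exact Ideal.mem_map_of_mem _ hp
  · rw [← h.φ_pow_X]
    exact Ideal.mem_map_of_mem _ (h.max ▸ Ideal.subset_span ⟨i.succ, rfl⟩)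

end Crest.Agent.R183
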