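import Crest.Agent.R183.MxS

/-!
# rid 183, file `MxB`: uniform Briançon–Skoda bound, generation by monomials, divisibility of nilpotents

Prefix helper lemmas with `mxb_`.
-/

set_option autoImplicit false

open IsLocalRing MvPolynomial

namespace Crest.Agent.R183

section fil

variable {B ι : Type} [CommRing B] [IsLocalRing B] {g : ι → B} {ω : ι → ℕ} {𝔵 : Ideal B}

omit [IsLocalRing B] in
theorem mxb_mul_mem_Fil {a b : B} {w w' : ℕ} (ha : a ∈ Fil g ω w) (hb : b ∈ Fil g ω w') :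
    a * b ∈ Fil g ω (w + w') := Fil_mul w w' (Ideal.mul_mem_mul ha hb)

theorem mxb_mul_mem_FilG {a b : B} {w w' : ℕ} (hw : 0 < w) (ha : a ∈ FilG g ω 𝔵 w) (hb : b ∈ Fil g ω w') :
    a * b ∈ FilG g ω 𝔵 (w + w') := FilG_mul 𝔵 hw w' (Ideal.mul_mem_mul ha hb)

theorem mxb_Fil_le_FilG (w : ℕ) : Fil g ω (w + 1) ≤ FilG g ω 𝔵 w := le_sup_right

theorem mxb_x_le_FilG (w : ℕ) : 𝔵 * Fil g ω (w - 1) ≤ FilG g ω 𝔵 w := le_sup_of_le_left le_sup_left

theorem mxb_m_le_FilG (w : ℕ) : maximalIdeal B * Fil g ω w ≤ FilG g ω 𝔵 w := le_sup_of_le_left le_sup_right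

theorem mxb_pow_sub_pow {a b : B} {w : ℕ} (hw : 0 < w) (ha : a ∈ Fil g ω w) (hb : b ∈ Fil g ω w)
    (hab : b - a ∈ FilG g ω 𝔵 w) (N : ℕ) : b ^ (N + 1) - a ^ (N + 1) ∈ FilG g ω 𝔵 ((N + 1) * w) := by
  induction N with
  | zero => simpa using hab
  | succ N ih =>
    have e : b ^ (N + 1 + 1) - a ^ (N + 1 + 1) = (b ^ (N + 1) - a ^ (N + 1)) * b + (b - a) * a ^ (N + 1) := by
      ring
    rw [e]
    refine add_mem ?_ ?_
    · have := mxb_mul_mem_FilG (by positivity) ih hb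
      rwa [show (N + 1) * w + w = (N + 1 + 1) * w by ring] at this
    · have := mxb_mul_mem_FilG hw hab (pow_mem_Fil ha (N + 1))
      rwa [show w + (N + 1) * w = (N + 1 + 1) * w by ring] at this

theorem mxb_pow_mem_FilG {a b : B} {w N : ℕ} (hw : 0 < w) (hN : 0 < N) (ha : a ∈ Fil g ω w)
    (hb : b ∈ Fil g ω w) (hab : b - a ∈ FilG g ω 𝔵 w) (haN : a ^ N ∈ FilG g ω 𝔵 (N * w)) :
    b ^ N ∈ FilG g ω 𝔵 (N * w) := by
  obtain ⟨N, rfl⟩ : ∃ N', N = N' + 1 := ⟨N - 1, by omega⟩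
  have := add_mem (mxb_pow_sub_pow hw ha hb hab N) haN
  rwa [sub_add_cancel] at this

omit [IsLocalRing B] in
theorem mxb_pow_le_Fil {J : Ideal B} (hJ : J ≤ Fil g ω 1) (k : ℕ) : J ^ k ≤ Fil g ω k := by
  induction k with
  | zero => rw [Fil_zero]; exact le_top
  | succ k ih => rw [pow_succ]; exact (Ideal.mul_mono ih hJ).trans (Fil_mul k 1)

end fil

namespace MixData

variable {p : ℕ} [Fact p.Prime] {A : Type} [CommRing A] [IsLocalRing A] {d : ℕ} {X' : Fin d → A}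
  (m : MixData p A X') {Δ : DeltaS A p}

theorem mxb_π_f (e : ℕ) (l : m.L) :
    m.π Δ e (rename Sum.inl (m.f l)) = m.π Δ e (m.ξ 0 * m.y l 0) := by
  have h1 := m.π_r Δ (Nat.zero_le e) l
  rw [r, map_sub, sub_eq_zero] at h1
  exact h1.symm

theorem mxb_X1_mem (e : ℕ) : m.π Δ e (X (.inl none)) ∈ idl (m.zX Δ e) :=
  Ideal.subset_span ⟨0, rfl⟩

theorem mxb_X'_mem (e : ℕ) (i : Fin d) : m.π Δ e (C (X' i)) ∈ idl (m.zX Δ e) :=
  Ideal.subset_span ⟨i.succ, rfl⟩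

/-- The generators in `D e`. -/
noncomputable def mxb_g (Δ : DeltaS A p) (e : ℕ) : Option (Fin d ⊕ MxV m.L) → m.D Δ e :=
  fun i => m.π Δ e (m.gW i)

/-- The exponents. -/
def mxb_c : Option (Fin d ⊕ MxV m.L) → ℕ
  | none => 1
  | some (.inl _) => 1
  | some (.inr (.inl none)) => 1
  | some (.inr (.inl (some _))) => p ^ (m.n - 1) * m.n
  | some (.inr (.inr (_, j))) => p ^ (m.n - 1 - j)

omit [Fact p.Prime] in
theorem mxb_supp_finite : (Function.support (m.ωW (d := d) m.n)).Finite := by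
  refine Set.Finite.subset (((Set.finite_singleton none).union
    (Set.finite_range fun i : Fin d => some (Sum.inl i))).union
    ((Set.finite_range fun v : Option m.L => some (Sum.inr (Sum.inl v))).union
      (Set.finite_range fun x : m.L × Fin (m.n + 1) => some (Sum.inr (Sum.inr (x.1, (x.2 : ℕ))))))) ?_
  rintro (_ | i | v | ⟨l, j⟩) hx
  · exact Or.inl (Or.inl rfl)
  · exact Or.inl (Or.inr ⟨i, rfl⟩)
  · exact Or.inr (Or.inl ⟨v, rfl⟩)
  · refine Or.inr (Or.inr ⟨(l, ⟨j, ?_⟩), rfl⟩)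
    by_contra hj
    apply hx
    simp only [ωW]
    rw [if_neg]
    omega

theorem mxb_ω_mono {i i' : ℕ} (hi : i ≤ i') (x : Option (Fin d ⊕ MxV m.L)) : m.ωW i x ≤ m.ωW i' x := by
  rcases x with _ | j | (_ | l) | ⟨l, j⟩
  · exact Nat.pow_le_pow_right (Fact.out : p.Prime).pos hi
  · exact le_rfl
  · exact le_rfl
  · exact le_rfl
  · simp only [ωW]
    split_ifs with h1 h2
    · exact le_rfl
    · exact absurd ⟨h1.1, h1.2.trans hi⟩ h2
    · exact Nat.zero_le _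
    · exact le_rfl

theorem mxb_T_mem (e : ℕ) {l : m.L} (hl : l ∈ m.L0) :
    m.π Δ e (X (.inl (some l))) ∈ Fil (m.mxb_g Δ e) (m.ωW m.n) 1 := by
  have := mem_Fil (g := m.mxb_g Δ e) (ω := m.ωW m.n) (some (.inr (.inl (some l))))
  simp only [ωW, if_pos hl] at this
  exact this

theorem mxb_x_le (e : ℕ) : idl (m.zX Δ e) ≤ Fil (m.mxb_g Δ e) (m.ωW m.n) 1 := by
  rw [idl, Ideal.span_le]
  rintro _ ⟨i, rfl⟩
  refine Fin.cases ?_ (fun i => ?_) i
  · exact mem_Fil (g := m.mxb_g Δ e) (ω := m.ωW m.n) (some (.inr (.inl none)))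
  · exact mem_Fil (g := m.mxb_g Δ e) (ω := m.ωW m.n) (some (.inl i))

theorem mxb_y_mem (e : ℕ) {l : m.L} (hl : l ∈ m.L0) {i : ℕ} (hi : i ≤ m.n) :
    m.π Δ e (m.y l i) ∈ Fil (m.mxb_g Δ e) (m.ωW m.n) (p ^ i * (m.n - 1 - i)) := by
  have := mem_Fil (g := m.mxb_g Δ e) (ω := m.ωW m.n) (some (.inr (.inr (l, i))))
  simp only [ωW, if_pos (And.intro hl hi)] at this
  exact this

theorem mxb_ξ_mem (e : ℕ) {i : ℕ} (hi : i ≤ m.n) :
    m.π Δ e (m.ξ i) ∈ Fil (m.mxb_g Δ e) (m.ωW m.n) (p ^ i) := by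
  rw [ξ, map_sub, map_pow]
  refine sub_mem ?_ ?_
  · exact Fil_anti (Nat.pow_le_pow_right (Fact.out : p.Prime).pos hi)
      (mem_Fil (g := m.mxb_g Δ e) (ω := m.ωW m.n) none)
  · have := pow_mem_Fil (m.mxb_T_mem (Δ := Δ) e m.l0_mem) (p ^ i)
    rwa [mul_one] at this

theorem mxb_ξy_mem (e : ℕ) {l : m.L} (hl : l ∈ m.L0) {i k : ℕ} (hi : i + k + 1 = m.n) :
    m.π Δ e (m.ξ i * m.y l i) ∈ Fil (m.mxb_g Δ e) (m.ωW m.n) (p ^ i * (k + 1)) := by
  rw [map_mul]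
  have := mxb_mul_mem_Fil (m.mxb_ξ_mem (Δ := Δ) e (show i ≤ m.n by omega))
    (m.mxb_y_mem (Δ := Δ) e hl (show i ≤ m.n by omega))
  rwa [show m.n - 1 - i = k by omega, show p ^ i + p ^ i * k = p ^ i * (k + 1) by ring] at this

theorem mxb_X_mem_max (h : MBase p A X' Δ) (e : ℕ) [IsLocalRing (m.D Δ e)] (s : MxV m.L) :
    m.π Δ e (X s) ∈ maximalIdeal (m.D Δ e) := by
  rw [m.π_mem_iff h e]
  simp [mxM]

theorem mxb_Q (h : MBase p A X' Δ) {e : ℕ} (he : m.n ≤ e) [IsLocalRing (m.D Δ e)] {l : m.L}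
    (hl : l ∈ m.L0) {i k : ℕ} (hi : i + 1 + k + 1 = m.n)
    (hP : m.π Δ e (m.ξ (i + 1) * m.y l (i + 1)) ^ p ^ k ∈
      FilG (m.mxb_g Δ e) (m.ωW m.n) (idl (m.zX Δ e)) (p ^ k * (p ^ (i + 1) * (k + 1)))) :
    m.π Δ e (m.y l i) ^ p ^ (k + 1) ∈
      FilG (m.mxb_g Δ e) (m.ωW m.n) (idl (m.zX Δ e)) (p ^ k * (p ^ (i + 1) * (k + 1))) := by
  have hp : 0 < p := (Fact.out : p.Prime).pos
  have h1 := m.r_wt Δ h hl (show i + 1 < m.n by omega)
  have h2 := Ideal.mem_map_of_mem (m.π Δ e) h1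
  rw [Fil_map, show m.n - (i + 1) = k + 1 by omega, map_sub, map_sub,
    m.π_r Δ (show i + 1 ≤ e by omega)] at h2
  have h3 := Fil_mono (m.mxb_ω_mono (show i + 1 ≤ m.n by omega)) _ h2
  have hu := m.π_isUnit Δ e (m.δξ_not_mem Δ i h)
  have ha := m.mxb_ξy_mem (Δ := Δ) e hl hi
  have hy : m.π Δ e (m.y l i) ^ p ∈ Fil (m.mxb_g Δ e) (m.ωW m.n) (p ^ (i + 1) * (k + 1)) := by
    have := pow_mem_Fil (m.mxb_y_mem (Δ := Δ) e hl (show i ≤ m.n by omega)) p
    rwa [show m.n - 1 - i = k + 1 by omega, ← mul_assoc, ← pow_succ'] at this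
  have hb : -(m.π Δ e ((m.Δ' Δ).δ (m.ξ i))) * m.π Δ e (m.y l i) ^ p ∈
      Fil (m.mxb_g Δ e) (m.ωW m.n) (p ^ (i + 1) * (k + 1)) := Ideal.mul_mem_left _ _ hy
  have h4 := mxb_pow_mem_FilG (𝔵 := idl (m.zX Δ e)) (by positivity) (pow_pos hp k) ha hb
    (mxb_Fil_le_FilG _ (by
      have e1 : -(m.π Δ e ((m.Δ' Δ).δ (m.ξ i))) * m.π Δ e (m.y l i) ^ p -
          m.π Δ e (m.ξ (i + 1) * m.y l (i + 1)) =
          0 - m.π Δ e (m.ξ (i + 1) * m.y l (i + 1)) - m.π Δ e ((m.Δ' Δ).δ (m.ξ i) * m.y l i ^ p) := by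
        rw [map_mul _ _ (m.y l i ^ p), map_pow]; ring
      rw [e1]; exact h3)) hP
  rw [mul_pow, ← pow_mul, ← pow_succ'] at h4
  exact (Ideal.unit_mul_mem_iff_mem _ (hu.neg.pow _)).1 h4

theorem mxb_P (h : MBase p A X' Δ) {e : ℕ} (he : m.n ≤ e) [IsLocalRing (m.D Δ e)] {l : m.L}
    (hl : l ∈ m.L0) (k : ℕ) : ∀ i, i + k + 1 = m.n → m.π Δ e (m.ξ i * m.y l i) ^ p ^ k ∈
      FilG (m.mxb_g Δ e) (m.ωW m.n) (idl (m.zX Δ e)) (p ^ k * (p ^ i * (k + 1))) := by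
  have hp : 0 < p := (Fact.out : p.Prime).pos
  induction k with
  | zero =>
    intro i hi
    rw [pow_zero, pow_one, one_mul, zero_add, mul_one, map_mul, mul_comm]
    exact mxb_m_le_FilG _ (Ideal.mul_mem_mul (m.mxb_X_mem_max h e _)
      (m.mxb_ξ_mem e (show i ≤ m.n by omega)))
  | succ k ih =>
    intro i hi
    have h1 := m.mxb_Q h he hl (show i + 1 + k + 1 = m.n by omega) (ih (i + 1) (by omega))
    have h2 := mxb_mul_mem_FilG (by positivity) h1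
      (pow_mem_Fil (m.mxb_ξ_mem (Δ := Δ) e (show i ≤ m.n by omega)) (p ^ (k + 1)))
    rw [map_mul, mul_pow, mul_comm (m.π Δ e (m.ξ i) ^ _)]
    convert h2 using 2
    ring

theorem mxb_T (h : MBase p A X' Δ) {e : ℕ} (he : m.n ≤ e) [IsLocalRing (m.D Δ e)] {l : m.L}
    (hl : l ∈ m.L0) : m.π Δ e (X (.inl (some l))) ^ (p ^ (m.n - 1) * m.n) ∈
      FilG (m.mxb_g Δ e) (m.ωW m.n) (idl (m.zX Δ e)) (p ^ (m.n - 1) * m.n) := by
  have hp : 0 < p := (Fact.out : p.Prime).pos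
  have hn := m.n_pos
  have h1 := m.mxb_P h he hl (m.n - 1) 0 (by omega)
  have ha := m.mxb_ξy_mem (Δ := Δ) e hl (show 0 + (m.n - 1) + 1 = m.n by omega)
  rw [pow_zero, one_mul, show m.n - 1 + 1 = m.n by omega] at h1 ha
  have hb := pow_mem_Fil (m.mxb_T_mem (Δ := Δ) e hl) m.n
  rw [mul_one] at hb
  set ψ : MvPolynomial (Option m.L) A →+* m.D Δ e :=
    (m.π Δ e).comp (rename (R := A) (Sum.inl : Option m.L → MxV m.L)).toRingHom with hψ
  have hψX : ∀ v, ψ (X v) = m.π Δ e (X (.inl v)) := fun v => by simp [hψ]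
  have hψC : ∀ a, ψ (C a) = m.π Δ e (C a) := fun a => by simp [hψ]
  have hx : (mxX X').map ψ ≤ idl (m.zX Δ e) := by
    rw [mxX, idl, Ideal.map_span, Ideal.span_le]
    rintro _ ⟨_, ⟨i, rfl⟩, rfl⟩
    refine Fin.cases ?_ (fun i => ?_) i
    · rw [Fin.cons_zero, hψX]; exact m.mxb_X1_mem e
    · rw [Fin.cons_succ, hψC]; exact m.mxb_X'_mem e i
  have hT : (Ideal.span ((fun l => (X (some l) : MvPolynomial (Option m.L) A)) '' (m.L0 : Set m.L))).map ψ ≤
      Fil (m.mxb_g Δ e) (m.ωW m.n) 1 := by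
    rw [Ideal.map_span, Ideal.span_le]
    rintro _ ⟨_, ⟨l', hl', rfl⟩, rfl⟩
    rw [SetLike.mem_coe, hψX]
    exact m.mxb_T_mem e hl'
  have h2 := Ideal.mem_map_of_mem ψ (m.f0 l hl)
  rw [Ideal.map_mul, Ideal.map_pow, Ideal.map_sup, map_sub, map_pow, hψX] at h2
  have h3 := mxb_x_le_FilG (g := m.mxb_g Δ e) (ω := m.ωW m.n) (𝔵 := idl (m.zX Δ e)) m.n
    (Ideal.mul_mono hx (mxb_pow_le_Fil (sup_le (hx.trans (m.mxb_x_le e)) hT) (m.n - 1)) h2)
  have h4 : ψ (m.f l) = m.π Δ e (m.ξ 0 * m.y l 0) := m.mxb_π_f e l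
  rw [h4] at h3
  have h5 := mxb_pow_mem_FilG hn (pow_pos hp _) ha hb (by
    rw [← neg_sub]; exact neg_mem h3) h1
  rwa [← pow_mul, mul_comm m.n] at h5

/-- `fil_nakayama` for the images of `gW` in `D e`, weights `ωW n`, `𝔵 = idl (zX e)`, `e ≥ n + 1`.  Exponents: `1` for
`p` (`p = u^q` has weight `q > p^n`) and for `X'`, `X_1`; `p^(n-1-i)` for `y_{l,i}`, `n p^(n-1)` for `T_l`.  With
`w i = p^i (n - i)` prove by descending induction on `i ≤ n - 1` that `(ξ_i y_i)^(p^(n-1-i))` lies in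
`FilG (p^(n-1-i) w i)`: for `i = n - 1` because `y ∈ 𝔪` and `ξ_i ∈ Fil (p^i)`; then `r_wt` and `π r = 0` give
`unit * y_i^p = -ξ_{i+1} y_{i+1} + higher weight`.  For `T_l` use `f0` and `f_l = ξ_0 y_0 - r_0`. -/
theorem bs (h : MBase p A X' Δ) : ∃ K : ℕ, ∀ e, m.n + 1 ≤ e → ∀ l ∈ m.L0, ∀ j : ℕ,
    m.π Δ e (X (.inl (some l))) ^ j ∈ idl (m.zX Δ e) ^ (j - K) := by
  have hp : 1 < p := (Fact.out : p.Prime).one_lt
  have hn := m.n_pos
  obtain ⟨K, hK⟩ := fil_nakayama (m.ωW m.n) m.mxb_supp_finite m.mxb_c (by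
    rintro (_ | i | (_ | l) | ⟨l, j⟩) <;> simp only [mxb_c] <;> positivity)
  refine ⟨K, fun e he l hl j => ?_⟩
  have := m.isLocalRing h e
  have := m.isNoetherianRing h e
  have hmax : ∀ a ∈ maximalIdeal A, m.π Δ e (C a) ∈ maximalIdeal (m.D Δ e) := by
    intro a ha
    rw [m.π_mem_iff h e]
    simpa [mxM] using ha
  refine hK (m.D Δ e) (m.mxb_g Δ e) (idl (m.zX Δ e)) ?_ ?_ j ?_
  · rintro (_ | i | s) _
    · have : (p : A) ∈ maximalIdeal A := h.max ▸ Ideal.subset_span ⟨0, rfl⟩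
      simpa [mxb_g, gW] using hmax _ this
    · exact hmax _ (h.max ▸ Ideal.subset_span ⟨i.succ, rfl⟩)
    · exact m.mxb_X_mem_max h e s
  · rintro (_ | i | (_ | l') | ⟨l', i⟩) hw
    · simp only [mxb_c, ωW, pow_one, one_mul]
      apply mxb_Fil_le_FilG
      have h1 := pow_mem_Fil (m.mxb_T_mem (Δ := Δ) e m.l0_mem) (p ^ e)
      have h2 : m.mxb_g Δ e none = m.π Δ e (X (.inl (some m.l0))) ^ p ^ e := by
        rw [mxb_g, gW, map_natCast]; exact m.p_eq Δ e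
      rw [h2]
      refine Fil_anti ?_ h1
      rw [mul_one]
      exact Nat.succ_le_of_lt (Nat.pow_lt_pow_right hp (by omega))
    · simp only [mxb_c, ωW, pow_one, one_mul]
      apply mxb_x_le_FilG
      rw [Nat.sub_self, Fil_zero, Ideal.mul_top]
      exact m.mxb_X'_mem e i
    · simp only [mxb_c, ωW, pow_one, one_mul]
      apply mxb_x_le_FilG
      rw [Nat.sub_self, Fil_zero, Ideal.mul_top]
      exact m.mxb_X1_mem e
    · have hl' : l' ∈ m.L0 := by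
        by_contra hl'
        simp [ωW, hl'] at hw
      simp only [mxb_c, ωW, if_pos hl', mul_one]
      exact m.mxb_T h (by omega) hl'
    · have hl' : l' ∈ m.L0 ∧ i ≤ m.n := by
        by_contra hl'
        simp only [ωW, if_neg hl'] at hw
        omega
      simp only [ωW, if_pos hl'] at hw
      have hi : 0 < m.n - 1 - i := Nat.pos_of_mul_pos_left hw
      obtain ⟨k, hk⟩ : ∃ k, m.n - 1 - i = k + 1 := ⟨m.n - 1 - i - 1, by omega⟩
      simp only [mxb_c, ωW, if_pos hl', hk]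
      have h1 := m.mxb_Q h (show m.n ≤ e by omega) hl'.1 (show i + 1 + k + 1 = m.n by omega)
        (m.mxb_P h (show m.n ≤ e by omega) hl'.1 k (i + 1) (by omega))
      rw [show p ^ (k + 1) * (p ^ i * (k + 1)) = p ^ k * (p ^ (i + 1) * (k + 1)) by ring]
      exact h1
  · have := pow_mem_Fil (m.mxb_T_mem (Δ := Δ) e hl) j
    rwa [mul_one] at this

/-- The maximal ideal of `D 0` is generated by `p = u`, `X'`, `X_1`, the `T_l`; for `l ∉ L0`, `T_l ∈ (X_1)` in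
`D 0`. -/
theorem contr (h : MBase p A X' Δ) [IsLocalRing (m.D Δ 0)] : ∃ K : ℕ, ∀ e, m.n + 1 ≤ e →
    (maximalIdeal (m.D Δ 0)).map (m.tr h (Nat.zero_le e)) ≤ idl (m.zX Δ e) ^ (p ^ e - K) := by
  obtain ⟨K, hK⟩ := m.bs h
  refine ⟨K, fun e he => ?_⟩
  have hle : idl (m.zX Δ e) ^ (p ^ e) ≤ idl (m.zX Δ e) ^ (p ^ e - K) :=
    Ideal.pow_le_pow_right (Nat.sub_le _ _)
  have hX1 : m.tr h (Nat.zero_le e) (m.π Δ 0 (X (.inl none))) ∈ idl (m.zX Δ e) ^ (p ^ e - K) := by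
    rw [m.tr_inl h (Nat.zero_le e) none, Nat.sub_zero]
    exact hle (Ideal.pow_mem_pow (m.mxb_X1_mem e) _)
  rw [m.maximalIdeal_eq h 0, Ideal.map_span, Ideal.span_le]
  rintro _ ⟨b, (rfl | ⟨i, rfl⟩) | ⟨s, hs, rfl⟩, rfl⟩
  · rw [map_natCast, m.p_eq Δ e]
    exact hK e he m.l0 m.l0_mem _
  · rw [SetLike.mem_coe, m.tr_C h (Nat.zero_le e), Nat.sub_zero, h.φ_pow_X, map_pow, map_pow]
    exact hle (Ideal.pow_mem_pow (m.mxb_X'_mem e i) _)
  · rcases s with (_ | l) | ⟨l, i⟩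
    · exact hX1
    · by_cases hl : l ∈ m.L0
      · rw [SetLike.mem_coe, m.tr_inl h (Nat.zero_le e) (some l), Nat.sub_zero]
        exact hK e he l hl _
      · obtain ⟨c, hc⟩ := Ideal.mem_span_singleton'.1 (m.f1 l hl)
        have h1 : m.π Δ 0 (rename Sum.inl (m.f l)) = 0 := by
          rw [m.mxb_π_f 0 l, map_mul, m.π_ξ Δ 0, zero_mul]
        have h2 : m.π Δ 0 (X (.inl (some l))) =
            -(m.π Δ 0 (rename Sum.inl c)) * m.π Δ 0 (X (.inl none)) := by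
          have := congrArg (fun a => m.π Δ 0 (rename Sum.inl a)) hc
          simp only [map_mul, map_sub, rename_X, h1] at this
          rw [neg_mul, this]; ring
        show m.tr h (Nat.zero_le e) (m.π Δ 0 (X (.inl (some l)))) ∈ _
        rw [h2, map_mul]
        exact Ideal.mul_mem_left _ _ hX1
    · exact absurd hs (by simp [mxLev])

/-- The map from level `0`. -/
noncomputable def mxb_ψ (Δ : DeltaS A p) (e : ℕ) : MvPolynomial (Option m.L) A →+* m.D Δ e :=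
  (m.π Δ e).comp (rename (R := A) (Sum.inl : Option m.L → MxV m.L)).toRingHom

theorem mxb_ψ_X (e : ℕ) (v : Option m.L) : m.mxb_ψ Δ e (X v) = m.π Δ e (X (.inl v)) := by simp [mxb_ψ]

theorem mxb_ψ_C (e : ℕ) (a : A) : m.mxb_ψ Δ e (C a) = m.π Δ e (C a) := by simp [mxb_ψ]

theorem mxb_inv_mem (h : MBase p A X' Δ) (e : ℕ) {t : m.D Δ e} (ht : t ∈ (m.mxb_ψ Δ e).range)
    (hu : IsUnit t) : ∃ w ∈ (m.mxb_ψ Δ e).range, w * t = 1 := by
  have h1 : ((m.mxb_ψ Δ e).range.subtype.comp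
      ((m.mxb_ψ Δ e).rangeRestrict.comp (C : A →+* MvPolynomial (Option m.L) A))).IsIntegral := by
    have : (m.mxb_ψ Δ e).range.subtype.comp
      ((m.mxb_ψ Δ e).rangeRestrict.comp (C : A →+* MvPolynomial (Option m.L) A)) =
        (m.π Δ e).comp (C : A →+* m.𝒜) := RingHom.ext fun a => m.mxb_ψ_C e a
    rw [this]
    exact (m.finite_C h e).to_isIntegral
  have h2 := (RingHom.IsIntegral.tower_top _ _ h1).isLocalHom Subtype.val_injective
  obtain ⟨w, hw⟩ := (h2.map_nonunit ⟨t, ht⟩ hu).exists_left_inv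
  exact ⟨w, w.2, congrArg Subtype.val hw⟩

theorem mxb_ξ_dvd (h : MBase p A X' Δ) {e i : ℕ} (hi : i < e) :
    ∃ w ∈ (m.mxb_ψ Δ e).range, w * m.π Δ e (m.ξ i) = p := by
  have hp : 1 < p := (Fact.out : p.Prime).one_lt
  have hlt : p ^ i < p ^ e := Nat.pow_lt_pow_right hp hi
  have hu : m.π Δ e m.u ∈ (m.mxb_ψ Δ e).range := ⟨X (some m.l0), m.mxb_ψ_X e _⟩
  have hunit : IsUnit (m.π Δ e (m.u ^ (p ^ e - p ^ i) - 1)) := by
    apply m.π_isUnit Δ e
    intro hmem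
    have h0 : p ^ e - p ^ i ≠ 0 := by omega
    simp only [mxM, Ideal.mem_comap, map_sub, map_pow, u, constantCoeff_X, zero_pow h0, map_one, zero_sub,
      neg_mem_iff] at hmem
    exact (maximalIdeal.isMaximal A).ne_top ((Ideal.eq_top_iff_one _).2 hmem)
  rw [map_sub, map_pow, map_one] at hunit
  obtain ⟨w, hw, hw1⟩ := m.mxb_inv_mem h e (sub_mem (pow_mem hu _) (one_mem _)) hunit
  refine ⟨w * m.π Δ e m.u ^ (p ^ e - p ^ i), mul_mem hw (pow_mem hu _), ?_⟩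
  have e1 : m.π Δ e m.u ^ p ^ e = m.π Δ e m.u ^ (p ^ e - p ^ i) * m.π Δ e m.u ^ p ^ i := by
    rw [← pow_add, Nat.sub_add_cancel hlt.le]
  rw [ξ, map_sub, map_pow, map_natCast, m.p_eq Δ e, e1]
  linear_combination (m.π Δ e m.u ^ (p ^ e - p ^ i) * m.π Δ e m.u ^ p ^ i) * hw1

theorem mxb_lev (h : MBase p A X' Δ) (e i : ℕ) : i ≤ e → ∀ a ∈ mxSub A m.L i,
    ∃ c : ℕ, (p : m.D Δ e) ^ c * m.π Δ e a ∈ (m.mxb_ψ Δ e).range := by
  induction i using Nat.strong_induction_on with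
  | _ i ih =>
    intro hi a ha
    have hp : (p : m.D Δ e) ∈ (m.mxb_ψ Δ e).range := natCast_mem _ _
    rw [mxSub, supported_eq_adjoin_X] at ha
    induction ha using Algebra.adjoin_induction with
    | mem x hx =>
      obtain ⟨s, hs, rfl⟩ := hx
      rcases s with v | ⟨l, j⟩
      · exact ⟨0, by rw [pow_zero, one_mul]; exact ⟨X v, m.mxb_ψ_X e v⟩⟩
      · have hj : j < i := hs
        obtain ⟨c, hc⟩ := ih j hj (by omega) _ (m.r_sub Δ l j)
        obtain ⟨w, hw, hw1⟩ := m.mxb_ξ_dvd h (show j < e by omega)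
        rw [map_sub, m.π_r Δ (show j ≤ e by omega), map_mul] at hc
        refine ⟨c + 1, ?_⟩
        have e1 : (p : m.D Δ e) ^ (c + 1) * m.π Δ e (X (.inr (l, j))) =
            -(w * ((p : m.D Δ e) ^ c * (0 - m.π Δ e (m.ξ j) * m.π Δ e (m.y l j)))) := by
          rw [pow_succ, y]
          linear_combination (-((p : m.D Δ e) ^ c * m.π Δ e (X (.inr (l, j))))) * hw1
        rw [e1]
        exact neg_mem (mul_mem hw hc)
    | algebraMap a => exact ⟨0, by rw [pow_zero, one_mul]; exact ⟨C a, m.mxb_ψ_C e a⟩⟩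
    | add x y _ _ hx hy =>
      obtain ⟨c, hc⟩ := hx
      obtain ⟨c', hc'⟩ := hy
      refine ⟨c + c', ?_⟩
      have e1 : (p : m.D Δ e) ^ (c + c') * m.π Δ e (x + y) =
          p ^ c' * (p ^ c * m.π Δ e x) + p ^ c * (p ^ c' * m.π Δ e y) := by rw [map_add]; ring
      rw [e1]
      exact add_mem (mul_mem (pow_mem hp _) hc) (mul_mem (pow_mem hp _) hc')
    | mul x y _ _ hx hy =>
      obtain ⟨c, hc⟩ := hx
      obtain ⟨c', hc'⟩ := hy
      refine ⟨c + c', ?_⟩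
      have e1 : (p : m.D Δ e) ^ (c + c') * m.π Δ e (x * y) =
          (p ^ c * m.π Δ e x) * (p ^ c' * m.π Δ e y) := by rw [map_mul]; ring
      rw [e1]
      exact mul_mem hc hc'

theorem mxb_unif (h : MBase p A X' Δ) (e : ℕ) :
    ∃ c : ℕ, ∀ b : m.D Δ e, (p : m.D Δ e) ^ c * b ∈ (m.mxb_ψ Δ e).range := by
  classical
  let _ : Algebra A (m.D Δ e) := ((m.π Δ e).comp (C : A →+* m.𝒜)).toAlgebra
  have hfin : Module.Finite A (m.D Δ e) := m.finite_C h e
  obtain ⟨s, hs⟩ := hfin.fg_top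
  have hp : (p : m.D Δ e) ∈ (m.mxb_ψ Δ e).range := natCast_mem _ _
  have h1 : ∀ b : m.D Δ e, ∃ c : ℕ, (p : m.D Δ e) ^ c * b ∈ (m.mxb_ψ Δ e).range := by
    intro b
    obtain ⟨a, ha, rfl⟩ := m.π_surj h e b
    exact m.mxb_lev h e e le_rfl a ha
  choose c hc using h1
  refine ⟨s.sup c, fun b => ?_⟩
  have hb : b ∈ Submodule.span A (s : Set (m.D Δ e)) := hs ▸ Submodule.mem_top
  induction hb using Submodule.span_induction with
  | mem x hx =>
    obtain ⟨k, hk⟩ := Nat.exists_eq_add_of_le (Finset.le_sup (f := c) hx)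
    rw [hk, add_comm, pow_add, mul_assoc]
    exact mul_mem (pow_mem hp _) (hc x)
  | zero => rw [mul_zero]; exact zero_mem _
  | add x y _ _ hx hy => rw [mul_add]; exact add_mem hx hy
  | smul a x _ hx =>
    rw [Algebra.smul_def, mul_left_comm]
    exact mul_mem ⟨C a, m.mxb_ψ_C e a⟩ hx

/-- The reduced monomials. -/
noncomputable def mxb_v (Δ : DeltaS A p) (e : ℕ) (x : (Fin d → Fin (p ^ e)) × (Option m.L → Fin (p ^ e))) :
    m.D Δ e :=
  (∏ i, m.π Δ e (C (X' i)) ^ (x.1 i : ℕ)) * ∏ v, m.π Δ e (X (.inl v)) ^ (x.2 v : ℕ)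

theorem mxb_span (h : MBase p A X' Δ) (e : ℕ) (a : MvPolynomial (Option m.L) A) :
    ∃ c : (Fin d → Fin (p ^ e)) × (Option m.L → Fin (p ^ e)) → m.D Δ 0,
      m.mxb_ψ Δ e a = ∑ x, m.tr h (Nat.zero_le e) (c x) * m.mxb_v Δ e x := by
  classical
  have hq : 0 < p ^ e := pow_pos (Fact.out : p.Prime).pos e
  let _ : Algebra (m.D Δ 0) (m.D Δ e) := (m.tr h (Nat.zero_le e)).toAlgebra
  have key : m.mxb_ψ Δ e a ∈ Submodule.span (m.D Δ 0) (Set.range (m.mxb_v Δ e)) := by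
    induction a using MvPolynomial.induction_on' with
    | add a b ha hb => rw [map_add]; exact add_mem ha hb
    | monomial β a =>
      obtain ⟨c, hc⟩ := h.span_monomials e a
      have e1 : m.mxb_ψ Δ e (monomial β a) = ∑ γ : Fin d → Fin (p ^ e),
          (m.π Δ 0 (C (c γ)) * ∏ v, m.π Δ 0 (X (.inl v)) ^ (β v / p ^ e)) •
            m.mxb_v Δ e (γ, fun v => ⟨β v % p ^ e, Nat.mod_lt _ hq⟩) := by
        rw [monomial_eq, map_mul, m.mxb_ψ_C, Finsupp.prod_fintype _ _ (fun _ => pow_zero _), map_prod, hc,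
          map_sum, map_sum, Finset.sum_mul]
        refine Finset.sum_congr rfl fun γ _ => ?_
        rw [Algebra.smul_def, RingHom.algebraMap_toAlgebra, map_mul, map_mul, map_mul,
          m.tr_C h (Nat.zero_le e), Nat.sub_zero, mxb_v, map_prod, map_prod, map_prod]
        have e2 : ∏ v, m.mxb_ψ Δ e (X v ^ β v) =
            (∏ v, m.tr h (Nat.zero_le e) (m.π Δ 0 (X (.inl v)) ^ (β v / p ^ e))) *
              ∏ v, m.π Δ e (X (.inl v)) ^ (β v % p ^ e) := by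
          rw [← Finset.prod_mul_distrib]
          refine Finset.prod_congr rfl fun v _ => ?_
          rw [map_pow, map_pow, m.mxb_ψ_X, m.tr_inl h (Nat.zero_le e), Nat.sub_zero, ← pow_mul, ← pow_add,
            Nat.div_add_mod]
        rw [e2]
        simp only [map_pow]
        ring
      rw [e1]
      exact Submodule.sum_mem _ fun γ _ => Submodule.smul_mem _ _ (Submodule.subset_span ⟨_, rfl⟩)
  obtain ⟨c, hc⟩ := (Submodule.mem_span_range_iff_exists_fun _).1 key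
  exact ⟨c, hc.symm⟩

/-- For `i < e`, `π ξ_i = unit * u^(p^i)` divides `p` (the inverse of the unit `1 - u^(q - p^i)` lies in the image of
level `0`, because `D e` is integral over that subring by `finite_C`), and `ξ_i y_i ≡ -(level i)` (`r_sub`); so by induction on the
level every element of `D e` (`π_surj`) times a power of `p` is the image of an element of level `0`; by finiteness
one power works for all.  Elements of level `0` are combinations of reduced monomials with coefficients in the image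
of `tr` (`MBase.span_monomials`, `tr_C`, `tr_inl`). -/
theorem gen (h : MBase p A X' Δ) (e : ℕ) :
    ∃ (c : ℕ) (v : Fin ((p ^ e) ^ (d + 1 + Fintype.card m.L)) → m.D Δ e), ∀ b : m.D Δ e,
      ∃ a : Fin ((p ^ e) ^ (d + 1 + Fintype.card m.L)) → m.D Δ 0,
        (p : m.D Δ e) ^ c * b = ∑ i, m.tr h (Nat.zero_le e) (a i) * v i := by
  classical
  obtain ⟨c, hc⟩ := m.mxb_unif h e
  have hcard : Fintype.card ((Fin d → Fin (p ^ e)) × (Option m.L → Fin (p ^ e))) =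
      (p ^ e) ^ (d + 1 + Fintype.card m.L) := by
    simp only [Fintype.card_prod, Fintype.card_fun, Fintype.card_fin, Fintype.card_option]
    ring
  let E := Fintype.equivFinOfCardEq hcard
  refine ⟨c, fun i => m.mxb_v Δ e (E.symm i), fun b => ?_⟩
  obtain ⟨a, ha⟩ := hc b
  obtain ⟨x, hx⟩ := m.mxb_span h e a
  refine ⟨fun i => x (E.symm i), ?_⟩
  rw [← ha, hx]
  exact (E.symm.sum_comp fun y => m.tr h (Nat.zero_le e) (x y) * m.mxb_v Δ e y).symm

theorem mxb_tr_step (h : MBase p A X' Δ) {e e' : ℕ} (he : e ≤ e') (he1 : e + 1 ≤ e') (b : m.D Δ e) :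
    m.tr h he b = m.tr h he1 (m.Φ h e b) := by
  have h1 : m.tr h he = (m.tr h he1).comp (m.tr h (Nat.le_succ e)) := m.tr_trans h (Nat.le_succ e) he1
  have h2 : m.tr h (Nat.le_succ e) = (m.Φ h e).comp (m.tr h (le_refl e)) := m.tr_succ h (le_refl e)
  rw [h1, h2, m.tr_self h e]
  rfl

theorem mxb_root_iter (h : MBase p A X' Δ) {j : ℕ} (k : ℕ) : ∀ (e e' : ℕ) (he : e ≤ e'), e + k = e' →
    j ≤ p ^ e → ∀ b : m.D Δ e, b ^ p ^ k ∈ Ideal.span {m.π Δ e m.u ^ j} →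
      m.tr h he b ∈ Ideal.span {m.π Δ e' m.u ^ j} := by
  induction k with
  | zero =>
    intro e e' he hk _ b hb
    obtain rfl : e = e' := by omega
    rw [m.tr_self h e]
    simpa using hb
  | succ k ih =>
    intro e e' he hk hj b hb
    have he1 : e + 1 ≤ e' := by omega
    rw [m.mxb_tr_step h he he1]
    refine ih (e + 1) e' he1 (by omega)
      (hj.trans (Nat.pow_le_pow_right (Fact.out : p.Prime).pos (Nat.le_succ e))) _ ?_
    rw [← map_pow (m.Φ h e)]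
    refine m.root_closed h hj ?_
    rwa [← pow_mul, ← pow_succ]

/-- `root_closed`, `k` times. -/
theorem root_closed_iter (h : MBase p A X' Δ) {e j : ℕ} (hj : j ≤ p ^ e) (k : ℕ) {b : m.D Δ e}
    (hb : b ^ p ^ k ∈ Ideal.span {m.π Δ e m.u ^ j}) :
    m.tr h (Nat.le_add_right e k) b ∈ Ideal.span {m.π Δ (e + k) m.u ^ j} :=
  m.mxb_root_iter h k e (e + k) _ rfl hj b hb

theorem mxb_u_pow_regular (h : MBase p A X' Δ) (e N : ℕ) {b : m.D Δ e} (hb : m.π Δ e m.u ^ N * b = 0) :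
    b = 0 := by
  induction N with
  | zero => simpa using hb
  | succ N ih =>
    apply ih
    apply m.u_regular h e
    rw [← mul_assoc, ← pow_succ', hb]

theorem mxb_nil_iter (h : MBase p A X' Δ) (k M : ℕ) : ∀ (e : ℕ) (b : m.D Δ e), b ^ p ^ k = 0 →
    ∀ (e' : ℕ) (he : e ≤ e'), e + M * k ≤ e' →
      m.tr h he b ∈ Ideal.span {m.π Δ e' m.u ^ (M * p ^ (e' - k))} := by
  induction M with
  | zero => intro e b _ e' he _; simp
  | succ M ih =>
    intro e b hb e' he hM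
    have hk : e + k ≤ e' := by nlinarith
    have h1 := m.root_closed_iter h (le_refl (p ^ e)) k (b := b) (by rw [hb]; exact zero_mem _)
    obtain ⟨b', hb'⟩ := Ideal.mem_span_singleton'.1 h1
    have h2 : b' ^ p ^ k = 0 := by
      apply m.mxb_u_pow_regular h (e + k) (p ^ e * p ^ k)
      rw [pow_mul, ← mul_pow, mul_comm, hb', ← map_pow, hb, map_zero]
    have h3 := ih (e + k) b' h2 e' hk (by nlinarith)
    have h4 : m.tr h he b = m.tr h hk (m.tr h (Nat.le_add_right e k) b) := by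
      have := m.tr_trans h (Nat.le_add_right e k) hk
      rw [show m.tr h he = _ from this]
      rfl
    obtain ⟨c, hc⟩ := Ideal.mem_span_singleton'.1 h3
    have h5 : m.tr h hk (m.π Δ (e + k) m.u) = m.π Δ e' m.u ^ p ^ (e' - (e + k)) :=
      m.tr_inl h hk (some m.l0)
    refine Ideal.mem_span_singleton'.2 ⟨c, ?_⟩
    rw [h4, ← hb', map_mul, map_pow, h5, ← hc, ← pow_mul, ← pow_add, mul_assoc, ← pow_add]
    have e1 : e' - (e + k) + e = e' - k := by omega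
    rw [e1, add_mul, one_mul]

/-- After `k` steps `b` becomes `u^(p^e) b'` with `b'^(p^k) = 0` (`u_regular`), and `u^(p^e)` at level `e + k` is a
`p^k`-th root of `p`, compatible along `tr`.  Repeat `N p^k` times. -/
theorem nil_div (h : MBase p A X' Δ) (k N : ℕ) : ∃ j : ℕ, ∀ (e : ℕ) (b : m.D Δ e), b ^ p ^ k = 0 →
    ∀ (e' : ℕ) (he : e ≤ e'), e + j ≤ e' → m.tr h he b ∈ Ideal.span {(p : m.D Δ e') ^ N} := by
  refine ⟨N * p ^ k * k + k, fun e b hb e' he hj => ?_⟩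
  have h1 := m.mxb_nil_iter h k (N * p ^ k) e b hb e' he (by omega)
  have e1 : N * p ^ k * p ^ (e' - k) = p ^ e' * N := by
    rw [mul_assoc, ← pow_add, show k + (e' - k) = e' by omega, mul_comm]
  rwa [e1, pow_mul, ← m.p_eq Δ e'] at h1

end MixData

end Crest.Agent.R183
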