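import Crest.Agent.R183.Defs2

/-!
# rid 183, file `MxD`: Frobenius lifts on `p`-torsion-free rings, weighted filtrations

Prefix helper lemmas with `mxd_`.
-/

set_option autoImplicit false
set_option linter.unusedSectionVars false

open IsLocalRing

namespace Crest.Agent.R183

/-- A Frobenius lift `φ` on a `p`-torsion-free ring, with `φ a = a^p + p δ a`. -/
structure DeltaS (A : Type) [CommRing A] (p : ℕ) where
  φ : A →+* A
  δ : A → A
  spec : ∀ a, φ a = a ^ p + p * δ a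
  tf : ∀ a : A, p * a = 0 → a = 0

/-- `((a + b)^p - a^p - b^p) / p`. -/
def cross {A : Type} [CommRing A] (p : ℕ) (a b : A) : A :=
  ∑ k ∈ Finset.Ioo 0 p, ((p.choose k / p : ℕ) : A) * a ^ k * b ^ (p - k)

section delta

variable {A : Type} [CommRing A] {p : ℕ} [Fact p.Prime] (Δ : DeltaS A p)

omit [Fact p.Prime] in
theorem mxd_cancel (Δ : DeltaS A p) {a b : A} (h : (p : A) * a = p * b) : a = b :=
  sub_eq_zero.1 (Δ.tf _ (by rw [mul_sub, h, sub_self]))

omit [Fact p.Prime] in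
theorem mxd_cross_left (S : Subring A) {a b : A} (ha : a ∈ S) (hb : b ∈ S) :
    ∃ c ∈ S, cross p a b = a * c := by
  refine ⟨∑ k ∈ Finset.Ioo 0 p, ((p.choose k / p : ℕ) : A) * a ^ (k - 1) * b ^ (p - k),
    S.sum_mem fun k _ => S.mul_mem (S.mul_mem (natCast_mem S _) (S.pow_mem ha _)) (S.pow_mem hb _), ?_⟩
  rw [cross, Finset.mul_sum]
  refine Finset.sum_congr rfl fun k hk => ?_
  obtain ⟨k, rfl⟩ : ∃ j, k = j + 1 := ⟨k - 1, by have := (Finset.mem_Ioo.1 hk).1; omega⟩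
  rw [Nat.add_sub_cancel]
  ring

omit [Fact p.Prime] in
theorem mxd_cross_right (S : Subring A) {a b : A} (ha : a ∈ S) (hb : b ∈ S) :
    ∃ c ∈ S, cross p a b = b * c := by
  refine ⟨∑ k ∈ Finset.Ioo 0 p, ((p.choose k / p : ℕ) : A) * a ^ k * b ^ (p - k - 1),
    S.sum_mem fun k _ => S.mul_mem (S.mul_mem (natCast_mem S _) (S.pow_mem ha _)) (S.pow_mem hb _), ?_⟩
  rw [cross, Finset.mul_sum]
  refine Finset.sum_congr rfl fun k hk => ?_
  obtain ⟨j, hj⟩ : ∃ j, p - k = j + 1 := ⟨p - k - 1, by have := (Finset.mem_Ioo.1 hk).2; omega⟩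
  rw [hj, Nat.add_sub_cancel]
  ring

theorem cross_spec (a b : A) : (a + b) ^ p = a ^ p + b ^ p + p * cross p a b := by
  rw [add_pow_prime_eq' (Fact.out : p.Prime), cross]
  congr 2
  exact Finset.sum_congr rfl fun k _ => by ring

theorem cross_mem_left (a b : A) : cross p a b ∈ Ideal.span {a} := by
  obtain ⟨c, -, hc⟩ := mxd_cross_left (p := p) (⊤ : Subring A) (Subring.mem_top a) (Subring.mem_top b)
  rw [hc]
  exact Ideal.mul_mem_right _ _ (Ideal.mem_span_singleton_self a)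

theorem cross_mem_right (a b : A) : cross p a b ∈ Ideal.span {b} := by
  obtain ⟨c, -, hc⟩ := mxd_cross_right (p := p) (⊤ : Subring A) (Subring.mem_top a) (Subring.mem_top b)
  rw [hc]
  exact Ideal.mul_mem_right _ _ (Ideal.mem_span_singleton_self b)

theorem cross_mem_subring (S : Subring A) {a b : A} (ha : a ∈ S) (hb : b ∈ S) : cross p a b ∈ S := by
  obtain ⟨c, hc, h⟩ := mxd_cross_left (p := p) S ha hb
  rw [h]
  exact S.mul_mem ha hc

theorem DeltaS.δ_add (a b : A) : Δ.δ (a + b) = Δ.δ a + Δ.δ b - cross p a b := by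
  apply mxd_cancel Δ
  have h1 := Δ.spec (a + b)
  rw [map_add, Δ.spec a, Δ.spec b, cross_spec] at h1
  linear_combination -h1

theorem DeltaS.δ_mul (a b : A) : Δ.δ (a * b) = a ^ p * Δ.δ b + Δ.φ b * Δ.δ a := by
  apply mxd_cancel Δ
  have h1 := Δ.spec (a * b)
  have h2 := Δ.spec a
  have h3 := Δ.spec b
  rw [map_mul, mul_pow] at h1
  linear_combination -h1 + Δ.φ b * h2 + a ^ p * h3

theorem DeltaS.δ_zero : Δ.δ 0 = 0 := by
  apply Δ.tf
  have h1 := Δ.spec 0
  rw [map_zero, zero_pow (Fact.out : p.Prime).ne_zero, zero_add] at h1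
  exact h1.symm

theorem DeltaS.δ_one : Δ.δ 1 = 0 := by
  apply Δ.tf
  have h1 := Δ.spec 1
  rw [map_one, one_pow] at h1
  linear_combination -h1

theorem DeltaS.δ_φ (a : A) : Δ.δ (Δ.φ a) = Δ.φ (Δ.δ a) := by
  apply mxd_cancel Δ
  have h1 := Δ.spec (Δ.φ a)
  have h2 := congrArg Δ.φ (Δ.spec a)
  rw [map_add, map_pow, map_mul, map_natCast] at h2
  linear_combination h2 - h1

theorem DeltaS.δ_eq_zero {a : A} (h : Δ.φ a = a ^ p) : Δ.δ a = 0 := by
  apply Δ.tf
  have h1 := Δ.spec a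
  linear_combination h - h1

theorem DeltaS.δ_p : Δ.δ p = 1 - (p : A) ^ (p - 1) := by
  apply mxd_cancel Δ
  have h1 := Δ.spec (p : A)
  rw [map_natCast] at h1
  have h2 : (p : A) ^ p = p * (p : A) ^ (p - 1) := by
    rw [← pow_succ', Nat.sub_add_cancel (Fact.out : p.Prime).one_le]
  linear_combination -h1 - h2

theorem DeltaS.δ_intCast (n : ℤ) : ∃ m : ℤ, Δ.δ n = m := by
  obtain ⟨m, hm⟩ : (p : ℤ) ∣ n - n ^ p := by
    rw [← ZMod.intCast_zmod_eq_zero_iff_dvd]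
    push_cast
    rw [ZMod.pow_card, sub_self]
  refine ⟨m, mxd_cancel Δ ?_⟩
  have h1 := Δ.spec (n : A)
  rw [map_intCast] at h1
  have h2 := congrArg (Int.cast : ℤ → A) hm
  push_cast at h2
  linear_combination h2 - h1

/-- `(a^p + p δ a)^p - a^(p^2)` is divisible by `p^2`. -/
theorem DeltaS.δ_pow_p (S : Subring A) {a : A} (ha : a ∈ S) (hδ : Δ.δ a ∈ S) :
    ∃ c ∈ S, Δ.δ (a ^ p) = p * c := by
  have hp : p.Prime := Fact.out
  obtain ⟨c, hc, h⟩ := mxd_cross_right (p := p) S (S.pow_mem ha p) (S.mul_mem (natCast_mem S p) hδ)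
  refine ⟨(p : A) ^ (p - 2) * Δ.δ a ^ p + Δ.δ a * c,
    S.add_mem (S.mul_mem (S.pow_mem (natCast_mem S p) _) (S.pow_mem hδ _)) (S.mul_mem hδ hc), ?_⟩
  apply mxd_cancel Δ
  have h1 := Δ.spec (a ^ p)
  rw [map_pow, Δ.spec a, cross_spec, h, mul_pow] at h1
  have h2 : (p : A) ^ p = p * p * (p : A) ^ (p - 2) := by
    rw [← pow_two, ← pow_add, Nat.add_sub_cancel' hp.two_le]
  linear_combination -h1 + Δ.δ a ^ p * h2

/-- `δ` on a generated subring: closure induction with `δ_add`, `δ_mul`, `δ (-1) ∈ ℤ`. -/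
theorem DeltaS.δ_mem_closure (s : Set A) (S : Subring A) (h1 : s ⊆ S) (h2 : ∀ a ∈ s, Δ.δ a ∈ S) {a : A}
    (ha : a ∈ Subring.closure s) : Δ.δ a ∈ S := by
  have hle : Subring.closure s ≤ S := Subring.closure_le.2 h1
  have hφ : ∀ x ∈ S, Δ.δ x ∈ S → Δ.φ x ∈ S := fun x hx hd => by
    rw [Δ.spec]
    exact S.add_mem (S.pow_mem hx _) (S.mul_mem (natCast_mem S p) hd)
  induction ha using Subring.closure_induction with
  | mem x hx => exact h2 x hx
  | zero => rw [Δ.δ_zero]; exact S.zero_mem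
  | one => rw [Δ.δ_one]; exact S.zero_mem
  | add x y hx hy ihx ihy =>
    rw [Δ.δ_add]
    exact S.sub_mem (S.add_mem ihx ihy) (cross_mem_subring S (hle hx) (hle hy))
  | neg x hx ih =>
    obtain ⟨m, hm⟩ := Δ.δ_intCast (-1)
    rw [Int.cast_neg, Int.cast_one] at hm
    rw [← neg_one_mul, Δ.δ_mul, hm]
    exact S.add_mem (S.mul_mem (S.pow_mem (S.neg_mem S.one_mem) _) ih)
      (S.mul_mem (hφ x (hle hx) ih) (intCast_mem S m))
  | mul x y hx hy ihx ihy =>
    rw [Δ.δ_mul]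
    exact S.add_mem (S.mul_mem (S.pow_mem (hle hx) _) ihy) (S.mul_mem (hφ y (hle hy) ihy) ihx)

/-- `δ` on a generated ideal. -/
theorem DeltaS.δ_mem_span (s : Set A) (J : Ideal A) (h1 : s ⊆ J) (h2 : ∀ a ∈ s, Δ.δ a ∈ J) {a : A}
    (ha : a ∈ Ideal.span s) : Δ.δ a ∈ J := by
  have hle : Ideal.span s ≤ J := Ideal.span_le.2 h1
  induction ha using Submodule.span_induction with
  | mem x hx => exact h2 x hx
  | zero => rw [Δ.δ_zero]; exact J.zero_mem
  | add x y hx hy ihx ihy =>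
    rw [Δ.δ_add]
    refine J.sub_mem (J.add_mem ihx ihy) ?_
    exact (Ideal.span_singleton_le_iff_mem J).2 (hle hx) (cross_mem_left x y)
  | smul r x hx ih =>
    rw [smul_eq_mul, mul_comm, Δ.δ_mul]
    exact J.add_mem (J.mul_mem_right _ (J.pow_mem_of_mem (hle hx) _ (Fact.out : p.Prime).pos))
      (J.mul_mem_left _ ih)

/-- If `φ u = u^p` then `δ (p - u^m) ≡ 1` modulo `(p, u)`. -/
theorem DeltaS.δ_xi {u : A} (hu : Δ.φ u = u ^ p) {m : ℕ} (hm : 0 < m) :
    ∃ a ∈ Subring.closure {u}, ∃ b ∈ Subring.closure {u}, Δ.δ (p - u ^ m) = 1 + p * a + u * b := by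
  have hp : p.Prime := Fact.out
  set S := Subring.closure ({u} : Set A) with hS
  have huS : u ∈ S := Subring.subset_closure rfl
  obtain ⟨c, hc, h⟩ := mxd_cross_left (p := p) S (natCast_mem S p) (S.neg_mem (S.pow_mem huS m))
  obtain ⟨n, hn⟩ := Δ.δ_intCast (-1)
  rw [Int.cast_neg, Int.cast_one] at hn
  have h0 : Δ.δ (u ^ m) = 0 := Δ.δ_eq_zero (by rw [map_pow, hu, ← pow_mul, ← pow_mul, mul_comm])
  refine ⟨-(p : A) ^ (p - 2) - c, S.sub_mem (S.neg_mem (S.pow_mem (natCast_mem S p) _)) hc,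
    u ^ (p * m - 1) * n, S.mul_mem (S.pow_mem huS _) (intCast_mem S n), ?_⟩
  have h2 : (p : A) ^ (p - 1) = p * (p : A) ^ (p - 2) := by
    rw [← pow_succ']
    congr 1
    have := hp.two_le
    omega
  have h3 : u ^ (p * m) = u * u ^ (p * m - 1) := by
    rw [← pow_succ', Nat.sub_add_cancel (Nat.mul_pos hp.pos hm)]
  rw [sub_eq_add_neg, Δ.δ_add, h, Δ.δ_p, ← neg_one_mul (u ^ m), Δ.δ_mul, h0, hn, map_pow, hu, ← pow_mul, h2, h3]
  ring

/-- Extension to a polynomial ring with prescribed `δ (X i)`. -/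
theorem DeltaS.exists_poly (σ : Type) (v : σ → MvPolynomial σ A) :
    ∃ Δ' : DeltaS (MvPolynomial σ A) p, (∀ a, Δ'.φ (MvPolynomial.C a) = MvPolynomial.C (Δ.φ a)) ∧
      (∀ a, Δ'.δ (MvPolynomial.C a) = MvPolynomial.C (Δ.δ a)) ∧ ∀ i, Δ'.δ (MvPolynomial.X i) = v i := by
  classical
  let φ' : MvPolynomial σ A →+* MvPolynomial σ A :=
    MvPolynomial.eval₂Hom (MvPolynomial.C.comp Δ.φ) fun i => MvPolynomial.X i ^ p + (p : MvPolynomial σ A) * v i
  have hC : ∀ a, φ' (MvPolynomial.C a) = MvPolynomial.C (Δ.φ a) := fun a => by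
    simp [φ']
  have hX : ∀ i, φ' (MvPolynomial.X i) = MvPolynomial.X i ^ p + (p : MvPolynomial σ A) * v i := fun i => by
    simp [φ']
  have hC' : ∀ a, φ' (MvPolynomial.C a) =
      MvPolynomial.C a ^ p + (p : MvPolynomial σ A) * MvPolynomial.C (Δ.δ a) := fun a => by
    rw [hC, Δ.spec, map_add, map_pow, map_mul, map_natCast]
  have htf : ∀ f : MvPolynomial σ A, (p : MvPolynomial σ A) * f = 0 → f = 0 := fun f hf => by
    ext m
    apply Δ.tf
    have := congrArg (MvPolynomial.coeff m) hf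
    rwa [← map_natCast (MvPolynomial.C : A →+* MvPolynomial σ A), MvPolynomial.coeff_C_mul] at this
  have hex : ∀ f : MvPolynomial σ A, ∃ d, φ' f = f ^ p + p * d := fun f => by
    induction f using MvPolynomial.induction_on with
    | C a => exact ⟨_, hC' a⟩
    | add f g hf hg =>
      obtain ⟨d, hd⟩ := hf
      obtain ⟨e, he⟩ := hg
      refine ⟨d + e - cross p f g, ?_⟩
      rw [map_add, hd, he, cross_spec]
      ring
    | mul_X f i hf =>
      obtain ⟨d, hd⟩ := hf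
      refine ⟨f ^ p * v i + d * (MvPolynomial.X i ^ p + (p : MvPolynomial σ A) * v i), ?_⟩
      rw [map_mul, hd, hX, mul_pow]
      ring
  choose δ' hδ' using hex
  let Δ' : DeltaS (MvPolynomial σ A) p := ⟨φ', δ', hδ', htf⟩
  refine ⟨Δ', hC, fun a => mxd_cancel Δ' ?_, fun i => mxd_cancel Δ' ?_⟩
  · have h1 := hδ' (MvPolynomial.C a)
    rw [hC'] at h1
    exact (add_left_cancel h1).symm
  · have h1 := hδ' (MvPolynomial.X i)
    rw [hX] at h1
    exact (add_left_cancel h1).symm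

end delta

section fil

variable {A ι : Type} [CommRing A]

/-- The ideal spanned by the monomials in `g` of weight at least `w`. -/
def Fil (g : ι → A) (ω : ι → ℕ) (w : ℕ) : Ideal A :=
  Ideal.span {a | ∃ β : ι →₀ ℕ, w ≤ (β.sum fun i n => n * ω i) ∧ a = β.prod fun i n => g i ^ n}

variable {g : ι → A} {ω : ι → ℕ}

theorem mxd_mono_mem {w : ℕ} (β : ι →₀ ℕ) (h : w ≤ β.sum fun i n => n * ω i) :
    (β.prod fun i n => g i ^ n) ∈ Fil g ω w :=
  Ideal.subset_span ⟨β, h, rfl⟩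

theorem mxd_wt_add (ω : ι → ℕ) (β γ : ι →₀ ℕ) :
    ((β + γ).sum fun i n => n * ω i) = (β.sum fun i n => n * ω i) + γ.sum fun i n => n * ω i :=
  Finsupp.sum_add_index' (fun _ => zero_mul _) fun _ _ _ => add_mul _ _ _

theorem mxd_mon_add (g : ι → A) (β γ : ι →₀ ℕ) :
    ((β + γ).prod fun i n => g i ^ n) = (β.prod fun i n => g i ^ n) * γ.prod fun i n => g i ^ n :=
  Finsupp.prod_add_index' (fun _ => pow_zero _) fun _ _ _ => pow_add _ _ _

theorem mxd_wt_single (ω : ι → ℕ) (i : ι) (n : ℕ) :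
    ((Finsupp.single i n).sum fun i n => n * ω i) = n * ω i :=
  Finsupp.sum_single_index (zero_mul _)

theorem mxd_mon_single (g : ι → A) (i : ι) (n : ℕ) :
    ((Finsupp.single i n).prod fun i n => g i ^ n) = g i ^ n :=
  Finsupp.prod_single_index (pow_zero _)

theorem mxd_split (β : ι →₀ ℕ) (i : ι) {n : ℕ} (h : n ≤ β i) :
    ∃ γ : ι →₀ ℕ, β = Finsupp.single i n + γ := by
  refine ⟨β - Finsupp.single i n, ?_⟩
  rw [add_tsub_cancel_of_le (Finsupp.single_le_iff.2 h)]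

theorem Fil_zero : Fil g ω 0 = ⊤ := by
  rw [Ideal.eq_top_iff_one]
  exact Ideal.subset_span ⟨0, le_rfl, by simp⟩

theorem Fil_anti {w w' : ℕ} (h : w ≤ w') : Fil g ω w' ≤ Fil g ω w := by
  refine Ideal.span_mono ?_
  rintro a ⟨β, hβ, rfl⟩
  exact ⟨β, h.trans hβ, rfl⟩

theorem Fil_mono {ω' : ι → ℕ} (h : ∀ i, ω i ≤ ω' i) (w : ℕ) : Fil g ω w ≤ Fil g ω' w := by
  refine Ideal.span_mono ?_
  rintro a ⟨β, hβ, rfl⟩
  exact ⟨β, hβ.trans (Finset.sum_le_sum fun i _ => Nat.mul_le_mul_left _ (h i)), rfl⟩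

theorem mem_Fil (i : ι) : g i ∈ Fil g ω (ω i) := by
  have := mxd_mono_mem (g := g) (ω := ω) (w := ω i) (Finsupp.single i 1) (by rw [mxd_wt_single, one_mul])
  rwa [mxd_mon_single, pow_one] at this

theorem Fil_mul (w w' : ℕ) : Fil g ω w * Fil g ω w' ≤ Fil g ω (w + w') := by
  rw [Fil, Fil, Ideal.span_mul_span', Ideal.span_le]
  rintro _ ⟨_, ⟨β, hβ, rfl⟩, _, ⟨γ, hγ, rfl⟩, rfl⟩
  have := mxd_mono_mem (g := g) (ω := ω) (w := w + w') (β + γ) (by rw [mxd_wt_add]; omega)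
  rwa [mxd_mon_add] at this

theorem mxd_mul_mem {a b : A} {w w' : ℕ} (ha : a ∈ Fil g ω w) (hb : b ∈ Fil g ω w') :
    a * b ∈ Fil g ω (w + w') :=
  Fil_mul w w' (Ideal.mul_mem_mul ha hb)

theorem pow_mem_Fil {a : A} {w : ℕ} (h : a ∈ Fil g ω w) (n : ℕ) : a ^ n ∈ Fil g ω (n * w) := by
  induction n with
  | zero => rw [zero_mul, Fil_zero]; trivial
  | succ n ih =>
    rw [pow_succ, add_mul, one_mul]
    exact mxd_mul_mem ih h

theorem Fil_map {B : Type} [CommRing B] (f : A →+* B) (w : ℕ) :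
    (Fil g ω w).map f = Fil (fun i => f (g i)) ω w := by
  rw [Fil, Fil, Ideal.map_span]
  congr 1
  ext b
  have key : ∀ β : ι →₀ ℕ, f (β.prod fun i n => g i ^ n) = β.prod fun i n => f (g i) ^ n := fun β => by
    simp only [Finsupp.prod, map_prod, map_pow]
  constructor
  · rintro ⟨_, ⟨β, hβ, rfl⟩, rfl⟩
    exact ⟨β, hβ, key β⟩
  · rintro ⟨β, hβ, rfl⟩
    exact ⟨_, ⟨β, hβ, rfl⟩, key β⟩

theorem cross_mem_Fil {p : ℕ} {a b : A} {w : ℕ} (ha : a ∈ Fil g ω w) (hb : b ∈ Fil g ω w) :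
    cross p a b ∈ Fil g ω (p * w) := by
  refine Ideal.sum_mem _ fun k hk => ?_
  have hk' := (Finset.mem_Ioo.1 hk).2
  have := mxd_mul_mem (pow_mem_Fil ha k) (pow_mem_Fil hb (p - k))
  rw [← add_mul, Nat.add_sub_cancel' hk'.le] at this
  rw [mul_assoc]
  exact Ideal.mul_mem_left _ _ this

/-- `δ` multiplies weights by `p`, up to a loss that is at most the weight of `p`.  Induct on the monomial, then on
the span (`δ_mul`, `δ_add`; `φ a = a^p + p δ a` has weight `p w`). -/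
theorem DeltaS.δ_mem_Fil {p : ℕ} [Fact p.Prime] (Δ : DeltaS A p) {κ : Type} {g' : κ → A} {ω' : κ → ℕ}
    {loss : ℕ} (h1 : ∀ i, g i ∈ Fil g' ω' (ω i)) (h2 : ∀ i, Δ.δ (g i) ∈ Fil g' ω' (p * ω i - loss))
    (hp : (p : A) ∈ Fil g' ω' loss) {w : ℕ} {a : A} (ha : a ∈ Fil g ω w) :
    Δ.δ a ∈ Fil g' ω' (p * w - loss) := by
  let Q : A → ℕ → Prop := fun a w => a ∈ Fil g' ω' w ∧ Δ.δ a ∈ Fil g' ω' (p * w - loss)
  have hQ0 : ∀ r, Q r 0 := fun r => by
    refine ⟨by rw [Fil_zero]; trivial, ?_⟩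
    rw [mul_zero, Nat.zero_sub, Fil_zero]; trivial
  have hmul : ∀ a b w w', Q a w → Q b w' → Q (a * b) (w + w') := by
    rintro a b w w' ⟨ha1, ha2⟩ ⟨hb1, hb2⟩
    refine ⟨mxd_mul_mem ha1 hb1, ?_⟩
    have hφ : Δ.φ b ∈ Fil g' ω' (p * w') := by
      rw [Δ.spec]
      exact Ideal.add_mem _ (pow_mem_Fil hb1 p) (Fil_anti (by omega) (mxd_mul_mem hp hb2))
    rw [Δ.δ_mul, mul_add]
    exact Ideal.add_mem _ (Fil_anti (by omega) (mxd_mul_mem (pow_mem_Fil ha1 p) hb2))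
      (Fil_anti (by omega) (mxd_mul_mem hφ ha2))
  have hanti : ∀ a w w', w ≤ w' → Q a w' → Q a w := by
    rintro a w w' h ⟨ha1, ha2⟩
    exact ⟨Fil_anti h ha1, Fil_anti (Nat.sub_le_sub_right (Nat.mul_le_mul_left _ h) _) ha2⟩
  have hpow : ∀ i n, Q (g i ^ n) (n * ω i) := fun i n => by
    induction n with
    | zero => rw [zero_mul]; exact hQ0 _
    | succ n ih =>
      rw [pow_succ, add_mul, one_mul]
      exact hmul _ _ _ _ ih ⟨h1 i, h2 i⟩
  have hmon : ∀ β : ι →₀ ℕ, Q (β.prod fun i n => g i ^ n) (β.sum fun i n => n * ω i) := fun β => by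
    induction β using Finsupp.induction_linear with
    | zero => exact hQ0 _
    | add β γ hβ hγ => rw [mxd_wt_add, mxd_mon_add]; exact hmul _ _ _ _ hβ hγ
    | single i n => rw [mxd_wt_single, mxd_mon_single]; exact hpow i n
  suffices h : Q a w from h.2
  induction ha using Submodule.span_induction with
  | mem x hx =>
    obtain ⟨β, hβ, rfl⟩ := hx
    exact hanti _ _ _ hβ (hmon β)
  | zero => exact ⟨Ideal.zero_mem _, by rw [Δ.δ_zero]; exact Ideal.zero_mem _⟩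
  | add x y _ _ ihx ihy =>
    refine ⟨Ideal.add_mem _ ihx.1 ihy.1, ?_⟩
    rw [Δ.δ_add]
    exact Ideal.sub_mem _ (Ideal.add_mem _ ihx.2 ihy.2)
      (Fil_anti (Nat.sub_le _ _) (cross_mem_Fil ihx.1 ihy.1))
  | smul r x _ ih =>
    have := hmul _ _ _ _ (hQ0 r) ih
    rwa [zero_add] at this

/-- The part of `Fil w` that is negligible modulo `𝔵` and the maximal ideal. -/
def FilG [IsLocalRing A] (g : ι → A) (ω : ι → ℕ) (𝔵 : Ideal A) (w : ℕ) : Ideal A :=
  𝔵 * Fil g ω (w - 1) ⊔ maximalIdeal A * Fil g ω w ⊔ Fil g ω (w + 1)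

theorem FilG_mul [IsLocalRing A] (𝔵 : Ideal A) {w : ℕ} (hw : 0 < w) (w' : ℕ) :
    FilG g ω 𝔵 w * Fil g ω w' ≤ FilG g ω 𝔵 (w + w') := by
  rw [FilG, FilG, Ideal.sup_mul, Ideal.sup_mul, mul_assoc, mul_assoc]
  refine sup_le_sup (sup_le_sup (Ideal.mul_mono_right ?_) (Ideal.mul_mono_right (Fil_mul _ _))) ?_
  · exact (Fil_mul _ _).trans (Fil_anti (by omega))
  · exact (Fil_mul _ _).trans (Fil_anti (by omega))

/-- Nakayama for weighted filtrations.  Take `K = ∑ c i * ω i`.  A monomial of weight exactly `j > K` has an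
exponent `≥ c i` at an index of positive weight, so `Fil j ≤ FilG j`.  Iterating,
`Fil j ≤ 𝔵 Fil (j-1) + 𝔪 Fil j + Fil (j + i)` for all `i`, and `Fil (j + max ω) ≤ 𝔪 Fil j`; by Nakayama
`Fil j ≤ 𝔵 Fil (j - 1)`. -/
theorem fil_nakayama (ω : ι → ℕ) (hω : (Function.support ω).Finite) (c : ι → ℕ) (hc : ∀ i, 0 < c i) :
    ∃ K : ℕ, ∀ (B : Type) [CommRing B] [IsNoetherianRing B] [IsLocalRing B] (g : ι → B) (𝔵 : Ideal B),
      (∀ i, 0 < ω i → g i ∈ maximalIdeal B) → (∀ i, 0 < ω i → g i ^ c i ∈ FilG g ω 𝔵 (c i * ω i)) →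
      ∀ r, Fil g ω r ≤ 𝔵 ^ (r - K) := by
  classical
  set T := hω.toFinset with hT
  have hmemT : ∀ i, i ∈ T ↔ ω i ≠ 0 := fun i => by simp [hT]
  set K := ∑ i ∈ T, c i * ω i with hK
  set M := ∑ i ∈ T, ω i with hM
  have hωM : ∀ i, ω i ≤ M := fun i => by
    by_cases hi : ω i = 0
    · omega
    · exact Finset.single_le_sum (f := ω) (fun _ _ => Nat.zero_le _) ((hmemT i).2 hi)
  refine ⟨K, fun B _ _ _ g 𝔵 hm hc' => ?_⟩
  -- a monomial of weight `> K` has a big exponent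
  have hbig : ∀ β : ι →₀ ℕ, K < (β.sum fun i n => n * ω i) → ∃ i, 0 < ω i ∧ c i ≤ β i := by
    intro β hβ
    by_contra hne
    push Not at hne
    refine absurd hβ (not_lt.2 ?_)
    calc (β.sum fun i n => n * ω i) = ∑ i ∈ β.support.filter (fun i => ω i ≠ 0), β i * ω i := by
          rw [Finsupp.sum, Finset.sum_filter_of_ne]
          intro i _ h hi
          exact h (by rw [hi, mul_zero])
      _ ≤ ∑ i ∈ β.support.filter (fun i => ω i ≠ 0), c i * ω i := by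
          refine Finset.sum_le_sum fun i hi => Nat.mul_le_mul_right _ ?_
          exact (hne i (Nat.pos_of_ne_zero (Finset.mem_filter.1 hi).2)).le
      _ ≤ K := Finset.sum_le_sum_of_subset fun i hi => (hmemT i).2 (Finset.mem_filter.1 hi).2
  have hA : ∀ j, K < j → Fil g ω j ≤ FilG g ω 𝔵 j := by
    intro j hj
    rw [Fil, Ideal.span_le]
    rintro _ ⟨β, hβ, rfl⟩
    rcases hβ.eq_or_lt with h | h
    · obtain ⟨i, hi, hci⟩ := hbig β (h ▸ hj)
      obtain ⟨γ, rfl⟩ := mxd_split β i hci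
      rw [mxd_wt_add, mxd_wt_single] at h
      rw [mxd_mon_add, mxd_mon_single, h]
      exact FilG_mul 𝔵 (Nat.mul_pos (hc i) hi) _
        (Ideal.mul_mem_mul (hc' i hi) (mxd_mono_mem γ le_rfl))
    · exact (le_sup_right : Fil g ω (j + 1) ≤ FilG g ω 𝔵 j) (mxd_mono_mem β h)
  have hB : ∀ j, K < j → Fil g ω (j + M) ≤ maximalIdeal B * Fil g ω j := by
    intro j hj
    rw [Fil, Ideal.span_le]
    rintro _ ⟨β, hβ, rfl⟩
    obtain ⟨i, hi, hci⟩ := hbig β (by omega)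
    obtain ⟨γ, rfl⟩ := mxd_split β i ((hc i).trans_le hci)
    rw [mxd_wt_add, mxd_wt_single] at hβ
    rw [mxd_mon_add, mxd_mon_single]
    have := hωM i
    exact Ideal.mul_mem_mul (Ideal.pow_mem_of_mem _ (hm i hi) _ Nat.zero_lt_one)
      (mxd_mono_mem γ (by omega))
  have hC : ∀ j, K < j → ∀ i, Fil g ω j ≤
      𝔵 * Fil g ω (j - 1) ⊔ maximalIdeal B * Fil g ω j ⊔ Fil g ω (j + i) := by
    intro j hj i
    induction i with
    | zero => exact le_sup_right
    | succ i ih =>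
      refine ih.trans (sup_le le_sup_left ((hA (j + i) (by omega)).trans ?_))
      exact sup_le_sup (sup_le_sup (Ideal.mul_mono_right (Fil_anti (by omega)))
        (Ideal.mul_mono_right (Fil_anti (by omega)))) le_rfl
  have hD : ∀ j, K < j → Fil g ω j ≤ 𝔵 * Fil g ω (j - 1) := by
    intro j hj
    refine Submodule.le_of_le_smul_of_le_jacobson_bot (I := maximalIdeal B) (IsNoetherian.noetherian _)
      (maximalIdeal_le_jacobson _) ?_
    refine (hC j hj M).trans (sup_le le_rfl ((hB j hj).trans le_sup_right))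
  intro r
  induction r with
  | zero => simp
  | succ r ih =>
    by_cases h : K < r + 1
    · refine (hD _ h).trans ?_
      rw [Nat.add_sub_cancel, show r + 1 - K = (r - K) + 1 by omega, pow_succ']
      exact Ideal.mul_mono_right ih
    · rw [show r + 1 - K = 0 by omega]
      simp

end fil

end Crest.Agent.R183
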