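import Crest.Agent.R183.MxB

/-!
# rid 183, file `MxI`: the interface of the mixed characteristic tower

Prefix helper lemmas with `mxi_`.
-/

set_option autoImplicit false

open IsLocalRing MvPolynomial

namespace Crest.Agent.R183

/-- One level `D` of the tower over `N`. -/
structure TLevel {N : Type} [CommRing N] [IsLocalRing N] (p : ℕ) {d : ℕ} (x : Fin (d + 1) → N) (𝔭 : Ideal N)
    (a a' : N) (K s Nn q ρ : ℕ) (D : Type) [CommRing D] [IsLocalRing D] [Algebra N D] (X : Fin (d + 1) → D)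
    (α α' : D) : Prop where
  noeth : IsNoetherianRing D
  fin : Module.Finite N D
  loc : IsLocalHom (algebraMap N D)
  res : SameRes (algebraMap N D)
  root : ∀ i, X i ^ q = algebraMap N D (x i)
  rootα : α ^ s = algebraMap N D a
  rootα' : α' ^ s = algebraMap N D a'
  reg : Reg X D
  contr : (maximalIdeal N).map (algebraMap N D) ≤ idl X ^ (q - K)
  kill : ∀ b ∈ 𝔭, α * algebraMap N D b ∈ Ideal.span {(p : D) ^ Nn}
  kill' : α * α' ∈ Ideal.span {(p : D) ^ Nn}
  low : (ρ : ℕ∞) * colen N (idl (Fin.cons (p : N) (Fin.tail x) : Fin (d + 1) → N)) ≤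
    colen D ((idl (Fin.cons (p : N) (Fin.tail x) : Fin (d + 1) → N)).map (algebraMap N D))
  gen : ∃ (c : ℕ) (ι : (Fin ρ → N) →ₗ[N] D), ∀ b : D, (p : N) ^ c • b ∈ LinearMap.range ι
  pos : 0 < ρ

/-- Levels with arbitrarily deep roots exist. -/
def Tower {N : Type} [CommRing N] [IsLocalRing N] (p : ℕ) {d : ℕ} (x : Fin (d + 1) → N) (𝔭 : Ideal N)
    (a a' : N) : Prop :=
  ∃ K : ℕ, ∀ s0 Nn q0 : ℕ, ∃ (s q ρ : ℕ) (D : Type) (_ : CommRing D) (_ : IsLocalRing D) (_ : Algebra N D)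
    (X : Fin (d + 1) → D) (α α' : D), s0 ≤ s ∧ q0 ≤ q ∧ TLevel p x 𝔭 a a' K s Nn q ρ D X α α'

namespace MixData

variable {p : ℕ} [Fact p.Prime] {A : Type} [CommRing A] [IsLocalRing A] {d : ℕ} {X' : Fin d → A}
  (m : MixData p A X') {Δ : DeltaS A p}

/-- Take `e0` with `p^e0 ≥ s0`, `s = p^e0`, `j` from `nil_div` for `k = e0`, and `e ≥ e0 + j` large.  At level `e0`,
`(T_a * tr b)^(p^e0) = tr (a b^(p^e0)) = 0` for `b ∈ 𝔭`, and `(T_a T_a')^(p^e0) = tr (a a') = 0`.  Put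
`α = T_a^(p^(e - e0))` in `D e`.  In `D 0`, `p = u`. -/
theorem tower (h : MBase p A X' Δ) [IsLocalRing (m.D Δ 0)] (𝔭 : Ideal (m.D Δ 0)) (la la' : m.L)
    (ha : ∀ b ∈ 𝔭, m.π Δ 0 (X (.inl (some la))) * b = 0) (ha' : m.π Δ 0 (X (.inl (some la'))) ∈ 𝔭) :
    Tower p (m.zX Δ 0) 𝔭 (m.π Δ 0 (X (.inl (some la)))) (m.π Δ 0 (X (.inl (some la')))) := by
  obtain ⟨K, hK⟩ := m.contr h
  refine ⟨K, fun s0 Nn q0 => ?_⟩
  have hp1 : 1 < p := (Fact.out : p.Prime).one_lt
  obtain ⟨j, hj⟩ := m.nil_div h s0 Nn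
  obtain ⟨e, he⟩ : ∃ e, e = s0 + j + (m.n + 1) + q0 := ⟨_, rfl⟩
  have h0e : s0 ≤ e := by omega
  letI : IsLocalRing (m.D Δ e) := m.isLocalRing h e
  letI : Algebra (m.D Δ 0) (m.D Δ e) := (m.tr h (Nat.zero_le e)).toAlgebra
  have halg : algebraMap (m.D Δ 0) (m.D Δ e) = m.tr h (Nat.zero_le e) := rfl
  have hroot : ∀ l : m.L, m.π Δ s0 (X (.inl (some l))) ^ p ^ s0 =
      m.tr h (Nat.zero_le s0) (m.π Δ 0 (X (.inl (some l)))) := fun l => by
    rw [m.tr_inl h, Nat.sub_zero]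
  have htr : ∀ b, m.tr h (Nat.zero_le e) b = m.tr h h0e (m.tr h (Nat.zero_le s0) b) := fun b => by
    rw [m.tr_trans h (Nat.zero_le s0) h0e]
    rfl
  have hU : (Fin.cons (p : m.D Δ 0) (Fin.tail (m.zX Δ 0)) : Fin (d + 1) → m.D Δ 0) = m.zU Δ 0 := by
    rw [m.p_eq Δ 0, pow_zero, pow_one, zX, Fin.tail_cons, zU]
  refine ⟨p ^ s0, p ^ e, (p ^ e) ^ (d + 1 + Fintype.card m.L), m.D Δ e, inferInstance, inferInstance,
    inferInstance, m.zX Δ e, m.tr h h0e (m.π Δ s0 (X (.inl (some la)))),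
    m.tr h h0e (m.π Δ s0 (X (.inl (some la')))), (Nat.lt_pow_self hp1).le,
    le_trans (by omega) (Nat.lt_pow_self hp1 (n := e)).le, ?_⟩
  refine ⟨m.isNoetherianRing h e, m.tr_finite h (Nat.zero_le e), m.tr_local h (Nat.zero_le e),
    m.tr_sameRes h (Nat.zero_le e), fun i => ?_, ?_, ?_, m.reg_zX h e, hK e (by omega),
    fun b hb => ?_, ?_, ?_, ?_, by positivity⟩
  · rw [halg, m.tr_zX h, Nat.sub_zero]
  · rw [halg, htr, ← map_pow, hroot]
  · rw [halg, htr, ← map_pow, hroot]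
  · rw [halg, htr, ← map_mul]
    refine hj s0 _ ?_ e h0e (by omega)
    rw [mul_pow, hroot, ← map_pow, ← map_mul,
      ha _ (Ideal.pow_mem_of_mem 𝔭 hb _ (by positivity)), map_zero]
  · rw [← map_mul]
    refine hj s0 _ ?_ e h0e (by omega)
    rw [mul_pow, hroot, hroot, ← map_mul, ha _ ha', map_zero]
  · rw [hU, halg]
    exact m.colen_low h e
  · obtain ⟨c, v, hv⟩ := m.gen h e
    refine ⟨c, Fintype.linearCombination _ v, fun b => ?_⟩
    obtain ⟨a, ha⟩ := hv b
    refine ⟨a, ?_⟩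
    rw [Fintype.linearCombination_apply, Algebra.smul_def, map_pow, map_natCast, ha]
    rfl

omit [IsLocalRing A] in
theorem mxi_map_mxX {L L' : Type} (σ : L → L') :
    (mxX X' : Ideal (MvPolynomial (Option L) A)).map (rename (Option.map σ)) ≤ mxX X' := by
  rw [mxX, idl, Ideal.map_span, Ideal.span_le]
  rintro _ ⟨_, ⟨i, rfl⟩, rfl⟩
  refine Ideal.subset_span ⟨i, ?_⟩
  refine Fin.cases ?_ (fun i => ?_) i <;> simp

/-- Two more variables with linear relations `T_b = X_1 * g b`. -/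
noncomputable def ext (g : Bool → MvPolynomial (Option m.L) A) : MixData p A X' where
  L := m.L ⊕ Bool
  L0 := m.L0.map ⟨Sum.inl, Sum.inl_injective⟩
  l0 := .inl m.l0
  l0_mem := by simpa using m.l0_mem
  n := m.n
  n_pos := m.n_pos
  f := Sum.elim (fun l => rename (Option.map Sum.inl) (m.f l))
    fun b => X (some (.inr b)) - X none * rename (Option.map Sum.inl) (g b)
  f0 := by
    intro l hl
    obtain ⟨l', hl', rfl⟩ := Finset.mem_map.1 hl
    have h1 := Ideal.mem_map_of_mem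
      (rename (Option.map Sum.inl) : MvPolynomial (Option m.L) A →ₐ[A]
        MvPolynomial (Option (m.L ⊕ Bool)) A) (m.f0 l' hl')
    rw [map_sub, map_pow, rename_X, Ideal.map_mul, Ideal.map_pow, Ideal.map_sup] at h1
    refine Ideal.mul_mono (mxi_map_mxX _) (Ideal.pow_right_mono (sup_le_sup (mxi_map_mxX _) ?_) _) h1
    rw [Ideal.map_span]
    refine Ideal.span_mono ?_
    rintro _ ⟨_, ⟨k, hk, rfl⟩, rfl⟩
    exact ⟨.inl k, by simpa using hk, by simp⟩
  f1 := by
    rintro (l | b) hl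
    · have h1 := Ideal.mem_map_of_mem
        (rename (Option.map Sum.inl) : MvPolynomial (Option m.L) A →ₐ[A]
          MvPolynomial (Option (m.L ⊕ Bool)) A) (m.f1 l (by simpa using hl))
      rw [map_sub, rename_X, Ideal.map_span, Set.image_singleton, rename_X] at h1
      exact h1
    · rw [Sum.elim_inr, sub_sub_cancel_left]
      exact neg_mem (Ideal.mul_mem_right _ _ (Ideal.mem_span_singleton_self _))
  fu := by
    obtain ⟨c, s, hs, h1⟩ := m.fu
    refine ⟨c, rename (Option.map Sum.inl) s, ?_, ?_⟩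
    · simpa only [mxM, Ideal.mem_comap, constantCoeff_rename] using hs
    · have h2 := Ideal.mem_map_of_mem
        (rename (Option.map Sum.inl) : MvPolynomial (Option m.L) A →ₐ[A]
          MvPolynomial (Option (m.L ⊕ Bool)) A) h1
      rw [map_mul, map_pow, rename_X, Ideal.map_span] at h2
      refine Ideal.span_mono ?_ h2
      rintro _ ⟨a, ((rfl | rfl) | ⟨i, rfl⟩) | ⟨l, rfl⟩, rfl⟩
      · exact Or.inl (Or.inl (Or.inl (map_natCast _ _)))
      · exact Or.inl (Or.inl (Or.inr (rename_X _ _)))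
      · exact Or.inl (Or.inr ⟨i, (rename_C _ _).symm⟩)
      · exact Or.inr ⟨.inl l, rfl⟩

/-- Maps out of `D 0`. -/
theorem exists_lift0 (h : MBase p A X' Δ) {R : Type} [CommRing R] [IsLocalRing R]
    (ψ : MvPolynomial (Option m.L) A →+* R) (hloc : ∀ a ∈ mxM A (Option m.L), ψ a ∈ maximalIdeal R)
    (hu : ψ (X (some m.l0)) = p) (hf : ∀ l, ψ (m.f l) = 0) :
    ∃ θ : m.D Δ 0 →+* R, ∀ a, θ (m.π Δ 0 (rename Sum.inl a)) = ψ a := by
  let ε : m.𝒜 →ₐ[A] MvPolynomial (Option m.L) A := aeval (Sum.elim X fun _ => 0)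
  have hε : ∀ a, ε (rename Sum.inl a) = a := fun a => by
    simp only [ε, aeval_rename, Sum.elim_comp_inl, aeval_X_left, AlgHom.id_apply]
  have hcc : ∀ a, constantCoeff (ε a) = constantCoeff a := fun a => by
    induction a using MvPolynomial.induction_on with
    | C a => simp [ε]
    | add a b ha hb => simp only [map_add, ha, hb]
    | mul_X a s ha => rcases s with v | v <;> simp [ε]
  have hξ : ψ (ε (m.ξ 0)) = 0 := by
    simp [ε, ξ, u, hu]
  obtain ⟨θ, hθ⟩ := m.exists_lift Δ 0 (ψ.comp (ε : m.𝒜 →+* MvPolynomial (Option m.L) A))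
    (fun s hs => by
      have h1 : IsUnit (constantCoeff (ε s)) := by
        rw [hcc]
        exact notMem_maximalIdeal.1 hs
      have h2 : ψ (ε s - C (constantCoeff (ε s))) ∈ maximalIdeal R :=
        hloc _ (by simp [mxM])
      refine notMem_maximalIdeal.1 fun h3 => notMem_maximalIdeal.2 ((h1.map C).map ψ) ?_
      have h3' : ψ (ε s) ∈ maximalIdeal R := h3
      have h4 := sub_mem h3' h2
      rw [map_sub, sub_sub_cancel] at h4
      exact h4)
    (by
      rintro ((_ | l) | ⟨l, i⟩) hs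
      · exact hξ
      · change ψ (ε (m.ξ 0 * m.y l 0 - rename Sum.inl (m.f l))) = 0
        rw [map_sub, map_mul, map_sub, map_mul, hξ, hε, hf, zero_mul, sub_zero]
      · exact absurd hs (Nat.not_succ_le_zero i))
    (by
      rintro (v | ⟨l, i⟩) hs
      · exact absurd hs (lt_irrefl 0)
      · simp [ε])
  exact ⟨θ, fun a => (hθ _).trans (congrArg ψ (hε a))⟩

theorem π0_f (l : m.L) : m.π Δ 0 (rename Sum.inl (m.f l)) = 0 := by
  have h1 : m.π Δ 0 (m.ξ 0 * m.y l 0 - rename Sum.inl (m.f l)) = 0 := m.π_r Δ le_rfl l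
  rwa [map_sub, map_mul, m.π_ξ, zero_mul, zero_sub, neg_eq_zero] at h1

theorem π0_surj (h : MBase p A X' Δ) (b : m.D Δ 0) : ∃ a, m.π Δ 0 (rename Sum.inl a) = b := by
  obtain ⟨a, ha, rfl⟩ := m.π_surj h 0 b
  have h1 : mxSub A m.L 0 ≤
      (rename Sum.inl : MvPolynomial (Option m.L) A →ₐ[A] m.𝒜).range := by
    rw [mxSub, supported_eq_adjoin_X]
    refine Algebra.adjoin_le ?_
    rintro _ ⟨v | ⟨l, i⟩, hs, rfl⟩
    · exact ⟨X v, rename_X _ _⟩
    · exact absurd hs (Nat.not_succ_le_zero i)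
  obtain ⟨a', rfl⟩ := h1 ha
  exact ⟨a', rfl⟩

/-- `exists_lift`; onto because `D 0` is generated by level `0` (`π_surj`) and `T_b = X_1 * g b` there. -/
theorem exists_ext_hom (h : MBase p A X' Δ) (g : Bool → MvPolynomial (Option m.L) A) :
    ∃ κ : m.D Δ 0 →+* (m.ext g).D Δ 0, Function.Surjective κ ∧
      (∀ a, κ (m.π Δ 0 (C a)) = (m.ext g).π Δ 0 (C a)) ∧
      (∀ v : Option m.L, κ (m.π Δ 0 (X (.inl v))) = (m.ext g).π Δ 0 (X (.inl (v.map Sum.inl)))) ∧
      ∀ b : Bool, (m.ext g).π Δ 0 (X (.inl (some (.inr b)))) =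
        κ (m.π Δ 0 (X (.inl none) * rename Sum.inl (g b))) := by
  letI : IsLocalRing ((m.ext g).D Δ 0) := (m.ext g).isLocalRing h 0
  let ρ : MvPolynomial (Option m.L) A →ₐ[A] MvPolynomial (Option (m.ext g).L) A :=
    rename (Option.map Sum.inl)
  let ι : MvPolynomial (Option (m.ext g).L) A →ₐ[A] (m.ext g).𝒜 := rename Sum.inl
  obtain ⟨κ, hκ⟩ := m.exists_lift0 h
    (((m.ext g).π Δ 0).comp ((ι.comp ρ : _ →ₐ[A] _) : MvPolynomial (Option m.L) A →+* (m.ext g).𝒜))
    (fun a ha => by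
      refine ((m.ext g).π_mem_iff h 0 (ι (ρ a))).2 ?_
      simpa only [ι, ρ, mxM, Ideal.mem_comap, constantCoeff_rename] using ha)
    (by
      rw [(m.ext g).p_eq Δ 0, pow_zero, pow_one]
      change (m.ext g).π Δ 0 (ι (ρ _)) = _
      simp only [ι, ρ, rename_X]
      rfl)
    (fun l => (m.ext g).π0_f (.inl l))
  have hκ' : ∀ a, κ (m.π Δ 0 (rename Sum.inl a)) = (m.ext g).π Δ 0 (ι (ρ a)) := hκ
  have hC : ∀ a, κ (m.π Δ 0 (C a)) = (m.ext g).π Δ 0 (C a) := fun a => by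
    have := hκ' (C a)
    simpa only [ι, ρ, rename_C] using this
  have hX : ∀ v : Option m.L,
      κ (m.π Δ 0 (X (.inl v))) = (m.ext g).π Δ 0 (X (.inl (v.map Sum.inl))) := fun v => by
    have := hκ' (X v)
    simpa only [ι, ρ, rename_X] using this
  have hb : ∀ b : Bool, (m.ext g).π Δ 0 (X (.inl (some (.inr b)))) =
      κ (m.π Δ 0 (X (.inl none) * rename Sum.inl (g b))) := fun b => by
    have h1 : (m.ext g).π Δ 0 (ι (X (some (.inr b)) - X none * ρ (g b))) = 0 :=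
      (m.ext g).π0_f (.inr b)
    have h2 := hκ' (X none * g b)
    rw [map_sub, map_sub, sub_eq_zero] at h1
    simp only [map_mul, ι, ρ, rename_X] at h1 h2 ⊢
    rw [h1, h2]
    rfl
  refine ⟨κ, fun b => ?_, hC, hX, hb⟩
  obtain ⟨a, rfl⟩ := (m.ext g).π0_surj h b
  change _ ∈ κ.range
  induction a using MvPolynomial.induction_on with
  | C a => exact ⟨_, (hC a).trans (by rw [rename_C])⟩
  | add a b ha hb =>
    rw [map_add, map_add]
    exact add_mem ha hb
  | mul_X a v ha =>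
    rw [map_mul, map_mul, rename_X]
    refine mul_mem ha ?_
    rcases v with _ | l | b
    · exact ⟨_, hX none⟩
    · exact ⟨_, hX (some l)⟩
    · exact ⟨_, (hb b).symm⟩

end MixData

/-- The presentation of `R` needed for the cover: `N → R` is onto with kernel killed by `a`. -/
structure MixPres (p : ℕ) {d : ℕ} (A N R : Type) [CommRing A] [IsLocalRing A] [CommRing N] [IsLocalRing N]
    [CommRing R] [Algebra A N] (X' : Fin d → A) (x : Fin (d + 1) → N) (θ : N →+* R) (a a' : N)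
    (w : Fin d → N) : Prop where
  rb : RBase A (Fin.cons (p : A) X' : Fin (d + 1) → A)
  max : idl (Fin.cons (p : A) X' : Fin (d + 1) → A) = maximalIdeal A
  noeth : IsNoetherianRing N
  fin : Module.Finite A N
  loc : IsLocalHom (algebraMap A N)
  res : SameRes (algebraMap A N)
  tail : ∀ i, algebraMap A N (X' i) = Fin.tail x i
  surj : Function.Surjective θ
  inj : Function.Injective (θ.comp (algebraMap A N))
  sop : Sop x
  sopg : Sop (Fin.cons (a + a') w : Fin (d + 1) → N)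
  amem : a ∈ maximalIdeal N
  kill : ∀ b ∈ RingHom.ker θ, a * b = 0
  mem : a' ∈ RingHom.ker θ
  tower : Tower p x (RingHom.ker θ) a a'

end Crest.Agent.R183
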