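import Crest.Agent.R183.MxA

/-!
# rid 183, file `MxR`: the relations of the truncated prismatic envelope

`𝒜 = A[X_1, T_l, y_{l,i}]` with `φ v = v^p` on `X_1`, `T_l` and `δ y_{l,i} = y_{l,i+1}`; `u = T_{l0}`, `ξ = p - u`,
`r_{l,0} = ξ y_{l,0} - f_l`, `r_{l,i+1} = δ r_{l,i}`.  Prefix helper lemmas with `mxr_`.
-/

set_option autoImplicit false
set_option linter.unusedSectionVars false
set_option maxHeartbeats 400000

open IsLocalRing MvPolynomial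

namespace Crest.Agent.R183

/-- The ideal `(X', X_1)` of `P = A[X_1, T]`. -/
noncomputable def mxX {A L : Type} [CommRing A] {d : ℕ} (X' : Fin d → A) : Ideal (MvPolynomial (Option L) A) :=
  idl (Fin.cons (X none) fun i => C (X' i) : Fin (d + 1) → MvPolynomial (Option L) A)

/-- The maximal ideal `(𝔪_A, variables)` of a polynomial ring. -/
noncomputable def mxM (A σ : Type) [CommRing A] [IsLocalRing A] : Ideal (MvPolynomial σ A) :=
  (maximalIdeal A).comap (constantCoeff : MvPolynomial σ A →+* A)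

instance mxM_isMaximal (A σ : Type) [CommRing A] [IsLocalRing A] : (mxM A σ).IsMaximal :=
  Ideal.comap_isMaximal_of_surjective _ fun a => ⟨C a, constantCoeff_C σ a⟩

/-- A presentation `A[X_1, T] / (p - u, f)` by weighted equations. -/
structure MixData (p : ℕ) (A : Type) [CommRing A] [IsLocalRing A] {d : ℕ} (X' : Fin d → A) where
  L : Type
  [fin : Fintype L]
  [dec : DecidableEq L]
  L0 : Finset L
  l0 : L
  l0_mem : l0 ∈ L0
  n : ℕ
  n_pos : 0 < n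
  f : L → MvPolynomial (Option L) A
  f0 : ∀ l ∈ L0, f l - X (some l) ^ n ∈
    mxX X' * (mxX X' ⊔ Ideal.span ((fun l => (X (some l) : MvPolynomial (Option L) A)) '' (L0 : Set L))) ^ (n - 1)
  f1 : ∀ l, l ∉ L0 → f l - X (some l) ∈ Ideal.span {(X none : MvPolynomial (Option L) A)}
  fu : ∃ (c : ℕ) (s : MvPolynomial (Option L) A), s ∉ mxM A (Option L) ∧ s * X none ^ c ∈
    Ideal.span ({(p : MvPolynomial (Option L) A), X (some l0)} ∪ Set.range (fun i => C (X' i)) ∪ Set.range f)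

attribute [instance] MixData.fin MixData.dec

/-- The index set of all variables. -/
abbrev MxV (L : Type) : Type := Option L ⊕ L × ℕ

/-- The level of a variable. -/
def mxLev {L : Type} : MxV L → ℕ
  | .inl _ => 0
  | .inr (_, i) => i + 1

/-- `δ` of the variables. -/
noncomputable def mxδX {A L : Type} [CommRing A] : MxV L → MvPolynomial (MxV L) A
  | .inl _ => 0
  | .inr (l, i) => X (.inr (l, i + 1))

/-- Polynomials in the variables of level `≤ i`, i.e. in `X_1`, `T`, `y_{<i}`. -/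
noncomputable def mxSub (A L : Type) [CommRing A] (i : ℕ) : Subalgebra A (MvPolynomial (MxV L) A) :=
  supported A {s | mxLev s ≤ i}

namespace MixData

variable {p : ℕ} [Fact p.Prime] {A : Type} [CommRing A] [IsLocalRing A] {d : ℕ} {X' : Fin d → A}
  (m : MixData p A X') (Δ : DeltaS A p)

/-- The big polynomial ring. -/
abbrev 𝒜 : Type := MvPolynomial (MxV m.L) A

/-- The Frobenius lift on the big ring. -/
noncomputable def Δ' : DeltaS m.𝒜 p := Classical.choose (Δ.exists_poly (MxV m.L) mxδX)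

theorem φ_C (a : A) : (m.Δ' Δ).φ (C a) = C (Δ.φ a) := (Classical.choose_spec (Δ.exists_poly (MxV m.L) mxδX)).1 a

theorem δ_C (a : A) : (m.Δ' Δ).δ (C a) = C (Δ.δ a) :=
  (Classical.choose_spec (Δ.exists_poly (MxV m.L) mxδX)).2.1 a

theorem δ_X (s : MxV m.L) : (m.Δ' Δ).δ (X s) = mxδX s :=
  (Classical.choose_spec (Δ.exists_poly (MxV m.L) mxδX)).2.2 s

/-- The variable `u`. -/
noncomputable def u : m.𝒜 := X (.inl (some m.l0))

/-- The variable `y_{l,i}`. -/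
noncomputable def y (l : m.L) (i : ℕ) : m.𝒜 := X (.inr (l, i))

/-- `φ^e ξ = p - u^(p^e)`. -/
noncomputable def ξ (e : ℕ) : m.𝒜 := p - m.u ^ p ^ e

/-- The relations. -/
noncomputable def r (l : m.L) : ℕ → m.𝒜
  | 0 => m.ξ 0 * m.y l 0 - rename Sum.inl (m.f l)
  | i + 1 => (m.Δ' Δ).δ (r l i)

theorem φ_inl (v : Option m.L) : (m.Δ' Δ).φ (X (.inl v)) = X (.inl v) ^ p := by
  rw [(m.Δ' Δ).spec, m.δ_X]
  simp [mxδX]

theorem φ_ξ (e : ℕ) : (m.Δ' Δ).φ (m.ξ e) = m.ξ (e + 1) := by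
  have hu : (m.Δ' Δ).φ m.u = m.u ^ p := m.φ_inl Δ _
  rw [ξ, ξ, map_sub, map_natCast, map_pow, hu, ← pow_mul, ← pow_succ']

theorem mxr_X_mem {i : ℕ} {s : MxV m.L} (h : mxLev s ≤ i) : (X s : m.𝒜) ∈ mxSub A m.L i :=
  Algebra.subset_adjoin ⟨s, h, rfl⟩

theorem mxr_C_mem (i : ℕ) (a : A) : (C a : m.𝒜) ∈ mxSub A m.L i := (mxSub A m.L i).algebraMap_mem a

theorem mxr_sub_mono {i j : ℕ} (h : i ≤ j) {a : m.𝒜} (ha : a ∈ mxSub A m.L i) : a ∈ mxSub A m.L j :=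
  supported_mono (fun _ hs => le_trans hs h) ha

theorem mxr_u_mem (i : ℕ) : m.u ∈ mxSub A m.L i := m.mxr_X_mem (Nat.zero_le i)

theorem mxr_y_mem (l : m.L) {j i : ℕ} (h : j < i) : m.y l j ∈ mxSub A m.L i := m.mxr_X_mem h

theorem mxr_ξ_mem (e i : ℕ) : m.ξ e ∈ mxSub A m.L i :=
  sub_mem (natCast_mem _ p) (pow_mem (m.mxr_u_mem i) _)

theorem mxr_rename_mem (i : ℕ) (f : MvPolynomial (Option m.L) A) :
    (rename Sum.inl f : m.𝒜) ∈ mxSub A m.L i := by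
  induction f using MvPolynomial.induction_on with
  | C a => rw [rename_C]; exact m.mxr_C_mem i a
  | add f g hf hg => rw [map_add]; exact add_mem hf hg
  | mul_X f v hf => rw [map_mul, rename_X]; exact mul_mem hf (m.mxr_X_mem (Nat.zero_le i))

theorem mxr_δ_sub {i j : ℕ} (hij : i ≤ j)
    (h : ∀ s : MxV m.L, mxLev s ≤ i → (mxδX s : m.𝒜) ∈ mxSub A m.L j) {a : m.𝒜}
    (ha : a ∈ mxSub A m.L i) : (m.Δ' Δ).δ a ∈ mxSub A m.L j := by
  refine (m.Δ' Δ).δ_mem_closure _ (mxSub A m.L j).toSubring ?_ ?_ (Algebra.mem_adjoin_iff.1 ha)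
  · rintro _ (⟨a, rfl⟩ | ⟨s, hs, rfl⟩)
    · exact m.mxr_C_mem j a
    · exact m.mxr_X_mem (le_trans hs hij)
  · rintro _ (⟨a, rfl⟩ | ⟨s, hs, rfl⟩)
    · rw [algebraMap_eq, m.δ_C]
      exact m.mxr_C_mem j _
    · rw [m.δ_X]
      exact h s hs

theorem mxr_cross_mem {i : ℕ} {a b : m.𝒜} (ha : a ∈ mxSub A m.L i) (hb : b ∈ mxSub A m.L i) :
    cross p a b ∈ mxSub A m.L i :=
  cross_mem_subring (mxSub A m.L i).toSubring ha hb

theorem δ_mem_sub {i : ℕ} {a : m.𝒜} (ha : a ∈ mxSub A m.L i) : (m.Δ' Δ).δ a ∈ mxSub A m.L (i + 1) := by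
  refine m.mxr_δ_sub Δ (Nat.le_succ i) ?_ ha
  rintro (v | ⟨l, j⟩) hs
  · exact zero_mem _
  · exact m.mxr_X_mem (by simpa [mxLev] using hs)

theorem δ_mem_sub_zero {a : m.𝒜} (ha : a ∈ mxSub A m.L 0) : (m.Δ' Δ).δ a ∈ mxSub A m.L 0 := by
  refine m.mxr_δ_sub Δ le_rfl ?_ ha
  rintro (v | ⟨l, j⟩) hs
  · exact zero_mem _
  · simp [mxLev] at hs

theorem φ_mem_sub {i : ℕ} {a : m.𝒜} (ha : a ∈ mxSub A m.L i) : (m.Δ' Δ).φ a ∈ mxSub A m.L (i + 1) := by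
  rw [(m.Δ' Δ).spec]
  exact add_mem (pow_mem (m.mxr_sub_mono (Nat.le_succ i) ha) _)
    (mul_mem (natCast_mem _ p) (m.δ_mem_sub Δ ha))

theorem φ_mem_sub_zero {a : m.𝒜} (ha : a ∈ mxSub A m.L 0) : (m.Δ' Δ).φ a ∈ mxSub A m.L 0 := by
  rw [(m.Δ' Δ).spec]
  exact add_mem (pow_mem ha _) (mul_mem (natCast_mem _ p) (m.δ_mem_sub_zero Δ ha))

theorem mxr_δ_y (l : m.L) (i : ℕ) : (m.Δ' Δ).δ (m.y l i) = m.y l (i + 1) := m.δ_X Δ _

theorem mxr_δ_inl (v : Option m.L) : (m.Δ' Δ).δ (X (.inl v)) = 0 := m.δ_X Δ _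

theorem mxr_G_zero (l : m.L) : m.r Δ l 0 - m.ξ 0 * m.y l 0 = -rename Sum.inl (m.f l) := by
  rw [r]; ring

theorem mxr_G_succ (l : m.L) (i : ℕ) : m.r Δ l (i + 1) - m.ξ (i + 1) * m.y l (i + 1) =
    (m.Δ' Δ).δ (m.ξ i) * m.y l i ^ p + ((m.Δ' Δ).δ (m.r Δ l i - m.ξ i * m.y l i) -
      cross p (m.ξ i * m.y l i) (m.r Δ l i - m.ξ i * m.y l i)) := by
  have h1 := (m.Δ' Δ).δ_add (m.ξ i * m.y l i) (m.r Δ l i - m.ξ i * m.y l i)
  have h2 := (m.Δ' Δ).δ_mul (m.y l i) (m.ξ i)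
  rw [m.φ_ξ, m.mxr_δ_y, mul_comm (m.y l i)] at h2
  rw [add_sub_cancel, h2] at h1
  rw [r, h1]
  ring

/-- `r_{i+1} = δ (ξ_i y_i) + δ G_i - cross`, and `δ (ξ_i y_i) = ξ_{i+1} y_{i+1} + δ(ξ_i) y_i^p`. -/
theorem r_sub (l : m.L) (i : ℕ) : m.r Δ l i - m.ξ i * m.y l i ∈ mxSub A m.L i := by
  induction i with
  | zero =>
    rw [m.mxr_G_zero]
    exact neg_mem (m.mxr_rename_mem 0 _)
  | succ i ih =>
    have hy : m.y l i ∈ mxSub A m.L (i + 1) := m.mxr_y_mem l (Nat.lt_succ_self i)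
    rw [m.mxr_G_succ]
    exact add_mem (mul_mem (m.δ_mem_sub Δ (m.mxr_ξ_mem i i)) (pow_mem hy _))
      (sub_mem (m.δ_mem_sub Δ ih) (m.mxr_cross_mem (mul_mem (m.mxr_ξ_mem i _) hy)
        (m.mxr_sub_mono (Nat.le_succ i) ih)))

theorem mxr_X_mxM (v : MxV m.L) : (X v : m.𝒜) ∈ mxM A (MxV m.L) := by
  simp [mxM]

variable {Δ} in
theorem mxr_C_mxM (h : MBase p A X' Δ) (j : Fin d) : (C (X' j) : m.𝒜) ∈ mxM A (MxV m.L) := by
  have := ln_mem_idl (Fin.cons (p : A) X' : Fin (d + 1) → A) j.succ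
  rw [h.max, Fin.cons_succ] at this
  simpa only [mxM, Ideal.mem_comap, constantCoeff_C] using this

variable {Δ} in
theorem mxr_p_mxM (h : MBase p A X' Δ) : (p : m.𝒜) ∈ mxM A (MxV m.L) := by
  have := ln_mem_idl (Fin.cons (p : A) X' : Fin (d + 1) → A) 0
  rw [h.max, Fin.cons_zero] at this
  simpa only [mxM, Ideal.mem_comap, map_natCast] using this

variable {Δ} in
theorem mxr_δ_CX (h : MBase p A X' Δ) (j : Fin d) : (m.Δ' Δ).δ (C (X' j)) = 0 := by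
  rw [m.δ_C, Δ.δ_eq_zero (h.φX j), map_zero]

/-- The ideal `(X', all variables)` is stable under `δ` (`DeltaS.δ_mem_span`) and contains `r_{l,0}`. -/
theorem r_mem_mxM (h : MBase p A X' Δ) (l : m.L) (i : ℕ) : m.r Δ l i ∈ mxM A (MxV m.L) := by
  let s : Set m.𝒜 := Set.range (fun i => C (X' i)) ∪ Set.range X
  have hX : ∀ v, (X v : m.𝒜) ∈ Ideal.span s := fun v => Ideal.subset_span (Or.inr ⟨v, rfl⟩)
  have hle : Ideal.span s ≤ mxM A (MxV m.L) := by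
    rw [Ideal.span_le]
    rintro _ (⟨j, rfl⟩ | ⟨v, rfl⟩)
    · exact m.mxr_C_mxM h j
    · exact m.mxr_X_mxM v
  refine hle ?_
  induction i with
  | zero =>
    rw [r]
    refine sub_mem (Ideal.mul_mem_left _ _ (hX _)) ?_
    have h1 : mxX (L := m.L) X' ≤ (Ideal.span s).comap (rename Sum.inl : _ →ₐ[A] m.𝒜) := by
      refine ln_idl_le fun j => ?_
      refine Fin.cases ?_ (fun j => ?_) j
      · simpa using hX _
      · simp only [Fin.cons_succ, Ideal.mem_comap, rename_C]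
        exact Ideal.subset_span (Or.inl ⟨j, rfl⟩)
    by_cases hl : l ∈ m.L0
    · have h2 := h1 (Ideal.mul_le_inf (m.f0 l hl)).1
      rw [Ideal.mem_comap, map_sub, map_pow, rename_X] at h2
      have := add_mem h2 (Ideal.pow_mem_of_mem _ (hX (.inl (some l))) _ m.n_pos)
      rwa [sub_add_cancel] at this
    · obtain ⟨c, hc⟩ := Ideal.mem_span_singleton'.1 (m.f1 l hl)
      rw [show m.f l = c * X none + X (some l) by rw [hc]; ring, map_add, map_mul, rename_X, rename_X]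
      exact add_mem (Ideal.mul_mem_left _ _ (hX _)) (hX _)
  | succ i ih =>
    rw [r]
    refine (m.Δ' Δ).δ_mem_span s _ Ideal.subset_span ?_ ih
    rintro _ (⟨j, rfl⟩ | ⟨v, rfl⟩)
    · rw [m.mxr_δ_CX h]
      exact zero_mem _
    · rw [m.δ_X]
      rcases v with v | ⟨l, j⟩
      · exact zero_mem _
      · exact hX _

theorem φ_mem_mxM (h : MBase p A X' Δ) (a : m.𝒜) : (m.Δ' Δ).φ a ∈ mxM A (MxV m.L) ↔ a ∈ mxM A (MxV m.L) := by
  rw [(m.Δ' Δ).spec, Ideal.add_mem_iff_left _ (Ideal.mul_mem_right _ _ (m.mxr_p_mxM h))]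
  exact (mxM_isMaximal A (MxV m.L)).isPrime.pow_mem_iff_mem p (Fact.out : p.Prime).pos

/-- level `i` modulo `(p, u)` times level `i + 1` -/
def mxrQ (i : ℕ) (x : m.𝒜) : Prop :=
  ∃ a ∈ mxSub A m.L i, ∃ b ∈ mxSub A m.L (i + 1), ∃ c ∈ mxSub A m.L (i + 1), x = a + p * b + m.u * c

variable {m} in
theorem mxrQ.add {i : ℕ} {x y : m.𝒜} (hx : m.mxrQ i x) (hy : m.mxrQ i y) : m.mxrQ i (x + y) := by
  obtain ⟨a, ha, b, hb, c, hc, rfl⟩ := hx
  obtain ⟨a', ha', b', hb', c', hc', rfl⟩ := hy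
  exact ⟨a + a', add_mem ha ha', b + b', add_mem hb hb', c + c', add_mem hc hc', by ring⟩

theorem mxr_Q_of_mem {i : ℕ} {x : m.𝒜} (hx : x ∈ mxSub A m.L i) : m.mxrQ i x :=
  ⟨x, hx, 0, zero_mem _, 0, zero_mem _, by ring⟩

theorem mxr_Q_p {i : ℕ} {x : m.𝒜} (hx : x ∈ mxSub A m.L (i + 1)) : m.mxrQ i (p * x) :=
  ⟨0, zero_mem _, x, hx, 0, zero_mem _, by ring⟩

theorem mxr_Q_u {i : ℕ} {x : m.𝒜} (hx : x ∈ mxSub A m.L (i + 1)) : m.mxrQ i (m.u * x) :=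
  ⟨0, zero_mem _, 0, zero_mem _, x, hx, by ring⟩

theorem mxr_Q_ξ {i : ℕ} (e : ℕ) {x : m.𝒜} (hx : x ∈ mxSub A m.L (i + 1)) : m.mxrQ i (m.ξ e * x) := by
  obtain ⟨k, hk⟩ : ∃ k, p ^ e = k + 1 := ⟨p ^ e - 1, by
    have := pow_pos (Fact.out : p.Prime).pos e
    omega⟩
  refine ⟨0, zero_mem _, x, hx, -(m.u ^ k * x), neg_mem (mul_mem (pow_mem (m.mxr_u_mem _) _) hx), ?_⟩
  rw [ξ, hk]
  ring

theorem mxr_Q_δ_add {i : ℕ} {x y : m.𝒜} (hx : x ∈ mxSub A m.L i) (hy : y ∈ mxSub A m.L i)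
    (h1 : m.mxrQ i ((m.Δ' Δ).δ x)) (h2 : m.mxrQ i ((m.Δ' Δ).δ y)) : m.mxrQ i ((m.Δ' Δ).δ (x + y)) := by
  rw [(m.Δ' Δ).δ_add, sub_eq_add_neg]
  exact (h1.add h2).add (m.mxr_Q_of_mem (neg_mem (m.mxr_cross_mem hx hy)))

theorem mxr_cross_dvd {i : ℕ} {a b : m.𝒜} (ha : a ∈ mxSub A m.L i) (hb : b ∈ mxSub A m.L i) :
    ∃ c ∈ mxSub A m.L i, cross p a b = a * c := by
  obtain ⟨c, hc⟩ := Ideal.mem_span_singleton'.1
    (cross_mem_left (p := p) (⟨a, ha⟩ : mxSub A m.L i) ⟨b, hb⟩)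
  refine ⟨c, c.2, ?_⟩
  have := congrArg (mxSub A m.L i).val hc
  simp only [cross, map_sum, map_mul, map_pow, map_natCast, Subalgebra.coe_val] at this
  rw [cross, ← this, mul_comm]

theorem mxr_δξ (e i : ℕ) : ∃ a ∈ mxSub A m.L i, ∃ b ∈ mxSub A m.L i,
    (m.Δ' Δ).δ (m.ξ e) = 1 + p * a + m.u * b := by
  obtain ⟨a, ha, b, hb, h⟩ := (m.Δ' Δ).δ_xi (u := m.u) (m.φ_inl Δ _)
    (pow_pos (Fact.out : p.Prime).pos e)
  have hle : Subring.closure {m.u} ≤ (mxSub A m.L i).toSubring :=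
    Subring.closure_le.2 (Set.singleton_subset_iff.2 (m.mxr_u_mem i))
  exact ⟨a, hle ha, b, hle hb, h⟩

theorem mxr_shape (l : m.L) (i : ℕ) (h : m.mxrQ i ((m.Δ' Δ).δ (m.r Δ l i - m.ξ i * m.y l i))) :
    m.mxrQ i (m.r Δ l (i + 1) - m.ξ (i + 1) * m.y l (i + 1) - m.y l i ^ p) := by
  have hy : m.y l i ∈ mxSub A m.L (i + 1) := m.mxr_y_mem l (Nat.lt_succ_self i)
  obtain ⟨a, ha, b, hb, e⟩ := m.mxr_δξ Δ i (i + 1)
  obtain ⟨c, hc, e'⟩ := m.mxr_cross_dvd (mul_mem (m.mxr_ξ_mem i _) hy)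
    (m.mxr_sub_mono (Nat.le_succ i) (m.r_sub Δ l i))
  have := ((h.add (m.mxr_Q_p (mul_mem ha (pow_mem hy p)))).add
    (m.mxr_Q_u (mul_mem hb (pow_mem hy p)))).add (m.mxr_Q_ξ i (neg_mem (mul_mem hy hc)))
  convert this using 1
  rw [m.mxr_G_succ, e, e']
  ring

theorem mxr_Q_δG (l : m.L) (i : ℕ) : m.mxrQ i ((m.Δ' Δ).δ (m.r Δ l i - m.ξ i * m.y l i)) := by
  induction i with
  | zero => exact m.mxr_Q_of_mem (m.δ_mem_sub_zero Δ (m.r_sub Δ l 0))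
  | succ i ih =>
    obtain ⟨a, ha, b, hb, c, hc, e⟩ := m.mxr_shape Δ l i ih
    have hy : m.y l i ∈ mxSub A m.L (i + 1) := m.mxr_y_mem l (Nat.lt_succ_self i)
    have ha' := m.mxr_sub_mono (Nat.le_succ i) ha
    have hp : (p : m.𝒜) ∈ mxSub A m.L (i + 1) := natCast_mem _ p
    have hu := m.mxr_u_mem (i + 1)
    have e' : m.r Δ l (i + 1) - m.ξ (i + 1) * m.y l (i + 1) =
        m.y l i ^ p + a + b * p + c * m.u := by linear_combination e
    rw [e']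
    refine m.mxr_Q_δ_add Δ (add_mem (add_mem (pow_mem hy _) ha') (mul_mem hb hp)) (mul_mem hc hu)
      (m.mxr_Q_δ_add Δ (add_mem (pow_mem hy _) ha') (mul_mem hb hp)
        (m.mxr_Q_δ_add Δ (pow_mem hy _) ha' ?_ (m.mxr_Q_of_mem (m.δ_mem_sub Δ ha))) ?_) ?_
    · obtain ⟨c', hc', e2⟩ := (m.Δ' Δ).δ_pow_p (mxSub A m.L (i + 1 + 1)).toSubring
        (m.mxr_sub_mono (Nat.le_succ _) hy) (m.δ_mem_sub Δ hy)
      rw [e2]
      exact m.mxr_Q_p hc'
    · rw [(m.Δ' Δ).δ_mul, map_natCast, (m.Δ' Δ).δ_p]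
      exact (m.mxr_Q_of_mem (mul_mem (pow_mem hb _) (sub_mem (one_mem _) (pow_mem hp _)))).add
        (m.mxr_Q_p (m.δ_mem_sub Δ hb))
    · have h1 : (m.Δ' Δ).δ m.u = 0 := m.mxr_δ_inl Δ _
      have h2 : (m.Δ' Δ).φ m.u = m.u * m.u ^ (p - 1) := by
        rw [← pow_succ', Nat.sub_add_cancel (Fact.out : p.Prime).pos]
        exact m.φ_inl Δ _
      rw [(m.Δ' Δ).δ_mul, h1, h2, mul_zero, zero_add, mul_assoc]
      exact m.mxr_Q_u (mul_mem (pow_mem (m.mxr_u_mem _) _) (m.δ_mem_sub Δ hc))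

/-- The shape of the relations modulo `(p, u)`.  Induct, carrying
`G_{i+1} = r_{i+1} - ξ_{i+1} y_{i+1} = y_i^p + a + p b + u c` with `a` of level `i` and `b`, `c` of level `i + 1`:
`δ (y_i^p) ∈ p · level (i+2)` (`δ_pow_p`), `δ a` has level `i + 1`, `δ (p b) = p (…) + b^p δ p`,
`δ (u c) = u^p δ c`, the cross terms among these have level `i + 1`, the cross term with `ξ y` lies in `(ξ)`, and
`δ ξ = 1 + p (…) + u (…)` (`δ_xi`).  `a ∈ 𝔪` because all other terms are. -/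
theorem r_mod (h : MBase p A X' Δ) (l : m.L) (i : ℕ) :
    ∃ a ∈ mxSub A m.L i, a ∈ mxM A (MxV m.L) ∧ ∃ b ∈ mxSub A m.L (i + 1), ∃ c ∈ mxSub A m.L (i + 1),
      m.r Δ l (i + 1) = m.ξ (i + 1) * m.y l (i + 1) + m.y l i ^ p + a + p * b + m.u * c := by
  obtain ⟨a, ha, b, hb, c, hc, e⟩ := m.mxr_shape Δ l i (m.mxr_Q_δG Δ l i)
  refine ⟨a, ha, ?_, b, hb, c, hc, by linear_combination e⟩
  have e' : a = m.r Δ l (i + 1) - m.ξ (i + 1) * m.y l (i + 1) - m.y l i ^ p - p * b - m.u * c := by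
    linear_combination -e
  rw [e']
  refine sub_mem (sub_mem (sub_mem (sub_mem (m.r_mem_mxM Δ h l _)
    (Ideal.mul_mem_left _ _ (m.mxr_X_mxM _)))
    (Ideal.pow_mem_of_mem _ (m.mxr_X_mxM _) _ (Fact.out : p.Prime).pos))
    (Ideal.mul_mem_right _ _ (m.mxr_p_mxM h))) (Ideal.mul_mem_right _ _ (m.mxr_X_mxM _))

/-- The generators of the weighted filtration: `p`, the `X'`, the variables. -/
noncomputable def gW : Option (Fin d ⊕ MxV m.L) → m.𝒜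
  | none => p
  | some (.inl i) => C (X' i)
  | some (.inr s) => X s

/-- The weights at level `i`. -/
def ωW (i : ℕ) : Option (Fin d ⊕ MxV m.L) → ℕ
  | none => p ^ i
  | some (.inl _) => 1
  | some (.inr (.inl none)) => 1
  | some (.inr (.inl (some l))) => if l ∈ m.L0 then 1 else 0
  | some (.inr (.inr (l, j))) => if l ∈ m.L0 ∧ j ≤ i then p ^ j * (m.n - 1 - j) else 0

/-- The weights without `p` and `y`. -/
def mxrω : Option (Fin d ⊕ MxV m.L) → ℕ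
  | none => 0
  | some (.inl _) => 1
  | some (.inr (.inl none)) => 1
  | some (.inr (.inl (some l))) => if l ∈ m.L0 then 1 else 0
  | some (.inr (.inr _)) => 0

theorem mxr_ω0_le (i : ℕ) (k : Option (Fin d ⊕ MxV m.L)) : m.mxrω k ≤ m.ωW i k := by
  rcases k with _ | j | (_ | l) | ⟨l, j⟩ <;> simp [mxrω, ωW]

theorem mxr_ω_mono {i j : ℕ} (h : i ≤ j) (k : Option (Fin d ⊕ MxV m.L)) : m.ωW i k ≤ m.ωW j k := by
  rcases k with _ | j' | (_ | l) | ⟨l, j'⟩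
  · exact Nat.pow_le_pow_right (Fact.out : p.Prime).pos h
  · rfl
  · rfl
  · rfl
  · simp only [ωW]
    split_ifs with h1 h2
    · rfl
    · exact absurd ⟨h1.1, h1.2.trans h⟩ h2
    · exact Nat.zero_le _
    · rfl

theorem mxr_y_Fil {l : m.L} (hl : l ∈ m.L0) {j i : ℕ} (h : j ≤ i) :
    m.y l j ∈ Fil m.gW (m.ωW i) (p ^ j * (m.n - 1 - j)) := by
  have := mem_Fil (g := m.gW) (ω := m.ωW i) (some (.inr (.inr (l, j))))
  rwa [ωW, if_pos ⟨hl, h⟩] at this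

theorem mxr_ξ_Fil (i : ℕ) : m.ξ i ∈ Fil m.gW (m.ωW i) (p ^ i) := by
  refine sub_mem (mem_Fil (g := m.gW) (ω := m.ωW i) none) ?_
  have := mem_Fil (g := m.gW) (ω := m.ωW i) (some (.inr (.inl (some m.l0))))
  rw [ωW, if_pos m.l0_mem] at this
  have h2 := pow_mem_Fil this (p ^ i)
  rwa [mul_one] at h2

theorem mxr_ξy_Fil {l : m.L} (hl : l ∈ m.L0) {i : ℕ} (hi : i < m.n) :
    m.ξ i * m.y l i ∈ Fil m.gW (m.ωW i) (p ^ i * (m.n - i)) := by
  have := Fil_mul _ _ (Ideal.mul_mem_mul (m.mxr_ξ_Fil i) (m.mxr_y_Fil hl (le_refl i)))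
  rwa [← Nat.mul_one (p ^ i), mul_assoc, ← mul_add, one_mul,
    show 1 + (m.n - 1 - i) = m.n - i by omega] at this

theorem mxr_pow_le {B ι : Type} [CommRing B] {g : ι → B} {ω : ι → ℕ} {I : Ideal B}
    (h : I ≤ Fil g ω 1) (k : ℕ) : I ^ k ≤ Fil g ω k := by
  induction k with
  | zero => rw [Fil_zero]; exact le_top
  | succ k ih => rw [pow_succ]; exact (Ideal.mul_mono ih h).trans (Fil_mul _ _)

theorem mxr_f_Fil {l : m.L} (hl : l ∈ m.L0) :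
    (rename Sum.inl (m.f l) : m.𝒜) ∈ Fil m.gW m.mxrω m.n := by
  have hT : ∀ l ∈ m.L0, (X (.inl (some l)) : m.𝒜) ∈ Fil m.gW m.mxrω 1 := by
    intro l hl
    have := mem_Fil (g := m.gW) (ω := m.mxrω) (some (.inr (.inl (some l))))
    rwa [mxrω, if_pos hl] at this
  have h1 : (mxX (L := m.L) X').map (rename Sum.inl : _ →ₐ[A] m.𝒜) ≤ Fil m.gW m.mxrω 1 := by
    rw [Ideal.map_le_iff_le_comap]
    refine ln_idl_le fun j => ?_
    refine Fin.cases ?_ (fun j => ?_) j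
    · simp only [Fin.cons_zero, Ideal.mem_comap, rename_X]
      exact mem_Fil (g := m.gW) (ω := m.mxrω) (some (.inr (.inl none)))
    · simp only [Fin.cons_succ, Ideal.mem_comap, rename_C]
      exact mem_Fil (g := m.gW) (ω := m.mxrω) (some (.inl j))
  have h2 : (mxX X' ⊔ Ideal.span ((fun l => (X (some l) : MvPolynomial (Option m.L) A)) ''
      (m.L0 : Set m.L))).map (rename Sum.inl : _ →ₐ[A] m.𝒜) ≤ Fil m.gW m.mxrω 1 := by
    rw [Ideal.map_sup]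
    refine sup_le h1 ?_
    rw [Ideal.map_le_iff_le_comap, Ideal.span_le]
    rintro _ ⟨l', hl', rfl⟩
    simp only [SetLike.mem_coe, Ideal.mem_comap, rename_X]
    exact hT l' hl'
  have h3 := Ideal.mem_map_of_mem (rename Sum.inl : _ →ₐ[A] m.𝒜) (m.f0 l hl)
  rw [Ideal.map_mul, Ideal.map_pow, map_sub, map_pow, rename_X] at h3
  have h4 := Fil_mul _ _ (Ideal.mul_mono h1 (mxr_pow_le h2 _) h3)
  rw [show 1 + (m.n - 1) = m.n by have := m.n_pos; omega] at h4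
  have h5 := pow_mem_Fil (hT l hl) m.n
  rw [mul_one] at h5
  have := add_mem h4 h5
  rwa [sub_add_cancel] at this

variable {Δ} in
theorem mxr_δ_Fil (h : MBase p A X' Δ) {i w : ℕ} {a : m.𝒜} (ha : a ∈ Fil m.gW (m.ωW i) w) :
    (m.Δ' Δ).δ a ∈ Fil m.gW (m.ωW (i + 1)) (p * w - p ^ (i + 1)) := by
  have hp : (p : m.𝒜) ∈ Fil m.gW (m.ωW (i + 1)) (p ^ (i + 1)) :=
    mem_Fil (g := m.gW) (ω := m.ωW (i + 1)) none
  refine (m.Δ' Δ).δ_mem_Fil (fun k => Fil_anti (m.mxr_ω_mono (Nat.le_add_right i 1) k) (mem_Fil k))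
    ?_ hp ha
  rintro (_ | j | v | ⟨l, j⟩)
  · rw [ωW, ← pow_succ', Nat.sub_self, Fil_zero]
    trivial
  · rw [gW, m.mxr_δ_CX h]
    exact zero_mem _
  · rw [gW, m.mxr_δ_inl]
    exact zero_mem _
  · simp only [ωW]
    split_ifs with h1
    · have h2 := m.mxr_y_Fil h1.1 (Nat.succ_le_succ h1.2)
      rw [← m.mxr_δ_y Δ] at h2
      refine Fil_anti ?_ h2
      have h3 : p ^ (j + 1) ≤ p ^ (i + 1) :=
        Nat.pow_le_pow_right (Fact.out : p.Prime).pos (Nat.succ_le_succ h1.2)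
      rw [← mul_assoc, ← pow_succ', Nat.succ_eq_add_one, ← Nat.sub_sub, Nat.mul_sub_one]
      omega
    · rw [mul_zero, Nat.zero_sub, Fil_zero]
      trivial

/-- The shape of the relations up to higher weight.  Put `w i = p^i (n - i)`.  Induct on `i < n - 1`.  `δ` maps weight
`w` at level `i` to weight `p w - p^(i+1)` at level `i + 1` (`δ_mem_Fil`), which handles `δ H`; `δ f` has weight `p n`
(loss `0`, family without `p` and `y`); `δ (ε y_i^p) = ε^p δ (y_i^p) + φ(y_i^p) δ ε` has weight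
`≥ p w (i+1) - p^(i+1)` (`δ_mem_Fil` for the one-element family `y_i`, loss `p^(i+1)`); cross terms have weight
`p w`. -/
theorem r_wt (h : MBase p A X' Δ) {l : m.L} (hl : l ∈ m.L0) {i : ℕ} (hi : i + 1 < m.n) :
    m.r Δ l (i + 1) - m.ξ (i + 1) * m.y l (i + 1) - (m.Δ' Δ).δ (m.ξ i) * m.y l i ^ p ∈
      Fil m.gW (m.ωW (i + 1)) (p ^ (i + 1) * (m.n - (i + 1)) + 1) := by
  have hp : 1 < p := (Fact.out : p.Prime).one_lt
  have key : ∀ i, i + 1 < m.n → m.r Δ l i - m.ξ i * m.y l i ∈ Fil m.gW (m.ωW i) (p ^ i * (m.n - i)) →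
      (m.Δ' Δ).δ (m.r Δ l i - m.ξ i * m.y l i) ∈
        Fil m.gW (m.ωW (i + 1)) (p ^ (i + 1) * (m.n - (i + 1)) + 1) →
      m.r Δ l (i + 1) - m.ξ (i + 1) * m.y l (i + 1) - (m.Δ' Δ).δ (m.ξ i) * m.y l i ^ p ∈
        Fil m.gW (m.ωW (i + 1)) (p ^ (i + 1) * (m.n - (i + 1)) + 1) := by
    intro i hi h1 h2
    rw [m.mxr_G_succ, add_sub_cancel_left]
    refine sub_mem h2 (Fil_anti ?_ (Fil_mono (m.mxr_ω_mono (Nat.le_succ i)) _
      (cross_mem_Fil (m.mxr_ξy_Fil hl (by omega)) h1)))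
    obtain ⟨k, hk⟩ : ∃ k, m.n - i = k + 1 := ⟨m.n - i - 1, by omega⟩
    have h3 := pow_pos (zero_lt_one.trans hp) (i + 1)
    rw [hk, show m.n - (i + 1) = k by omega, ← mul_assoc, ← pow_succ', mul_add]
    omega
  induction i with
  | zero =>
    have h0 : m.r Δ l 0 - m.ξ 0 * m.y l 0 ∈ Fil m.gW m.mxrω m.n := by
      rw [m.mxr_G_zero]
      exact neg_mem (m.mxr_f_Fil hl)
    refine key 0 hi ?_ ?_
    · simpa using Fil_mono (m.mxr_ω0_le (p := p) 0) _ h0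
    · refine Fil_anti ?_ ((m.Δ' Δ).δ_mem_Fil (loss := 0) (g' := m.gW) (ω' := m.ωW (0 + 1))
        (fun k => Fil_anti (m.mxr_ω0_le (p := p) _ k) (mem_Fil k)) ?_ (by simp [Fil_zero]) h0)
      · obtain ⟨k, hk⟩ : ∃ k, m.n = k + 1 := ⟨m.n - 1, by omega⟩
        rw [hk, zero_add, pow_one, Nat.add_sub_cancel, Nat.sub_zero, mul_add]
        omega
      · rintro (_ | j | v | ⟨l', j⟩)
        · simp [mxrω, Fil_zero]
        · rw [gW, m.mxr_δ_CX h]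
          exact zero_mem _
        · rw [gW, m.mxr_δ_inl]
          exact zero_mem _
        · simp [mxrω, Fil_zero]
  | succ i ih =>
    have ih := ih (by omega)
    obtain ⟨k, hk⟩ : ∃ k, m.n - (i + 1) = k + 1 := ⟨m.n - (i + 1) - 1, by omega⟩
    have hk' : m.n - (i + 1 + 1) = k := by omega
    have h3 := pow_pos (zero_lt_one.trans hp) (i + 1)
    have hy : (m.Δ' Δ).δ (m.ξ i) * m.y l i ^ p ∈ Fil m.gW (m.ωW i) (p ^ (i + 1) * (k + 1)) := by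
      refine Ideal.mul_mem_left _ _ ?_
      have := pow_mem_Fil (m.mxr_y_Fil hl (le_refl i)) p
      rwa [← mul_assoc, ← pow_succ', show m.n - 1 - i = k + 1 by omega] at this
    have hy' := Fil_mono (m.mxr_ω_mono (Nat.le_succ i)) _ hy
    rw [hk] at ih
    have ih' := Fil_anti (Nat.le_succ _) ih
    have e : m.r Δ l (i + 1) - m.ξ (i + 1) * m.y l (i + 1) = (m.Δ' Δ).δ (m.ξ i) * m.y l i ^ p +
        (m.r Δ l (i + 1) - m.ξ (i + 1) * m.y l (i + 1) - (m.Δ' Δ).δ (m.ξ i) * m.y l i ^ p) := by ring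
    have e1 : p ^ (i + 1 + 1) = p * p ^ (i + 1) := pow_succ' _ _
    have h4 : 2 * p ^ (i + 1) ≤ p * p ^ (i + 1) := Nat.mul_le_mul_right _ hp
    refine key (i + 1) hi ?_ ?_
    · rw [e, hk]
      exact add_mem hy' ih'
    · rw [e, (m.Δ' Δ).δ_add, hk']
      refine sub_mem (add_mem (Fil_anti ?_ (Fil_mono (m.mxr_ω_mono (Nat.le_succ _)) _
        (m.mxr_δ_Fil h hy))) (Fil_anti ?_ (m.mxr_δ_Fil h ih))) (Fil_anti ?_
          (Fil_mono (m.mxr_ω_mono (Nat.le_succ _)) _ (cross_mem_Fil hy' ih')))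
      · rw [e1, ← mul_assoc, mul_add]
        omega
      · rw [e1, mul_add p, ← mul_assoc, mul_add]
        omega
      · rw [e1, ← mul_assoc, mul_add]
        omega

theorem δξ_not_mem (i : ℕ) (h : MBase p A X' Δ) : (m.Δ' Δ).δ (m.ξ i) ∉ mxM A (MxV m.L) := by
  obtain ⟨a, -, b, -, e⟩ := m.mxr_δξ Δ i 0
  intro hm
  have hu : m.u ∈ mxM A (MxV m.L) := m.mxr_X_mxM _
  rw [e, add_assoc, Ideal.add_mem_iff_left _ (add_mem (Ideal.mul_mem_right _ _ (m.mxr_p_mxM h))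
    (Ideal.mul_mem_right _ _ hu))] at hm
  exact (mxM_isMaximal A (MxV m.L)).ne_top ((Ideal.eq_top_iff_one _).2 hm)

end MixData

end Crest.Agent.R183
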