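import Crest.Agent.R183.MxT
import Crest.Agent.R183.Kos

/-!
# rid 183, file `MxS`: the rings `D e` are Cohen–Macaulay and finite over the base; the length tower

Prefix helper lemmas with `mxs_`.
-/

set_option autoImplicit false

open IsLocalRing MvPolynomial

namespace Crest.Agent.R183

theorem mxs_root_one (p : ℕ) (hp : 0 < p) (E : Type) [CommRing E] [IsLocalRing E] (c : E)
    (hc : c ∈ maximalIdeal E) :
    ∃ (E' : Type) (_ : CommRing E') (_ : IsLocalRing E') (g : E →+* E') (Y : E'), IsLocalHom g ∧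
      Y ^ p = g c ∧ Subring.closure (Set.range g ∪ {Y}) = ⊤ ∧
      Module.length E' E' = (p : ℕ) * Module.length E E := by
  let f : Polynomial E := Polynomial.X ^ p - Polynomial.C c
  have hf : f.Monic := Polynomial.monic_X_pow_sub_C c hp.ne'
  have hdeg : f.natDegree = p := Polynomial.natDegree_X_pow_sub_C
  let E' := AdjoinRoot f
  let g : E →+* E' := algebraMap E E'
  let Y : E' := AdjoinRoot.root f
  have hY : Y ^ p = g c := by
    have h := AdjoinRoot.eval₂_root f
    rw [Polynomial.eval₂_sub, Polynomial.eval₂_pow, Polynomial.eval₂_X, Polynomial.eval₂_C] at h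
    exact sub_eq_zero.1 h
  have hdec : ∀ b : E', ∃ (a : E) (b' : E'), b = g a + Y * b' := by
    intro b
    induction b using AdjoinRoot.induction_on with
    | ih q =>
      refine ⟨q.coeff 0, AdjoinRoot.mk f q.divX, ?_⟩
      conv_lhs => rw [← Polynomial.X_mul_divX_add q]
      rw [map_add, map_mul, AdjoinRoot.mk_X, AdjoinRoot.mk_C, add_comm]
      rfl
  have h0 : f.eval₂ (residue E) 0 = 0 := by
    rw [Polynomial.eval₂_sub, Polynomial.eval₂_pow, Polynomial.eval₂_X, Polynomial.eval₂_C, zero_pow hp.ne',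
      (residue_eq_zero_iff c).2 hc, sub_zero]
  let ρ : E' →+* ResidueField E := AdjoinRoot.lift (residue E) 0 h0
  have hρg : ∀ a, ρ (g a) = residue E a := fun a => AdjoinRoot.lift_of h0
  have hρY : ρ Y = 0 := AdjoinRoot.lift_root h0
  have hρs : Function.Surjective ρ := fun z => by
    obtain ⟨a, rfl⟩ := residue_surjective z
    exact ⟨g a, hρg a⟩
  have hmax : (RingHom.ker ρ).IsMaximal := RingHom.ker_isMaximal_of_surjective ρ hρs
  have hfin : Module.Finite E E' := hf.finite_adjoinRoot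
  have hcomap : ∀ M : Ideal E', M.IsMaximal → ∀ a ∈ maximalIdeal E, g a ∈ M := by
    intro M hM a ha
    have h1 := Ideal.isMaximal_comap_of_isIntegral_of_isMaximal (R := E) M
    rw [← eq_maximalIdeal h1] at ha
    exact ha
  have hloc : IsLocalRing E' := by
    refine of_unique_max_ideal ⟨RingHom.ker ρ, hmax, fun M hM => (hmax.eq_of_le hM.ne_top fun b hb => ?_).symm⟩
    obtain ⟨a, b', rfl⟩ := hdec b
    rw [RingHom.mem_ker, map_add, map_mul, hρY, zero_mul, add_zero, hρg, residue_eq_zero_iff] at hb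
    refine M.add_mem (hcomap M hM a hb) (M.mul_mem_right _ (hM.isPrime.mem_of_pow_mem p ?_))
    rw [hY]
    exact hcomap M hM c hc
  have hg : IsLocalHom g := ⟨fun a ha => by
    by_contra hn
    exact (mem_maximalIdeal _).1 (hcomap _ (maximalIdeal.isMaximal E') a ((mem_maximalIdeal a).2 hn)) ha⟩
  have hYm : Y ∈ maximalIdeal E' := by
    refine (maximalIdeal.isMaximal E').isPrime.mem_of_pow_mem p ?_
    rw [hY]
    exact hcomap _ (maximalIdeal.isMaximal E') c hc
  refine ⟨E', inferInstance, hloc, g, Y, hg, hY, ?_, ?_⟩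
  · refine eq_top_iff.2 fun b _ => ?_
    induction b using AdjoinRoot.induction_on with
    | ih q =>
      induction q using Polynomial.induction_on with
      | C a => exact Subring.subset_closure (Or.inl ⟨a, rfl⟩)
      | add q r hq hr =>
        rw [map_add]
        exact Subring.add_mem _ (hq trivial) (hr trivial)
      | monomial n a _ =>
        rw [map_mul, map_pow, AdjoinRoot.mk_X]
        refine Subring.mul_mem _ ?_ (Subring.pow_mem _ ?_ _)
        · exact Subring.subset_closure (Or.inl ⟨a, rfl⟩)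
        · exact Subring.subset_closure (Or.inr rfl)
  · have h1 := colen_eq_restrict_of_local (Λ := E) (Λ' := E') (W := E') (fun b => by
      obtain ⟨a, b', rfl⟩ := hdec b
      exact ⟨a, by rw [add_sub_cancel_left]; exact Ideal.mul_mem_right _ _ hYm⟩) ⊥
    rw [Submodule.restrictScalars_bot, ln_colen_bot, ln_colen_bot] at h1
    rw [h1, (AdjoinRoot.powerBasis' hf).basis.equivFun.length_eq, Module.length_pi, ENat.card_eq_coe_fintype_card,
      Fintype.card_fin, AdjoinRoot.powerBasis'_dim, hdeg]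

theorem mxs_root_fin (p : ℕ) (hp : 0 < p) (n : ℕ) : ∀ (E : Type) [CommRing E] [IsLocalRing E]
    (c : Fin n → E), (∀ l, c l ∈ maximalIdeal E) →
    ∃ (E' : Type) (_ : CommRing E') (_ : IsLocalRing E') (g : E →+* E') (Y : Fin n → E'), IsLocalHom g ∧
      (∀ l, Y l ^ p = g (c l)) ∧ Subring.closure (Set.range g ∪ Set.range Y) = ⊤ ∧
      Module.length E' E' = (p ^ n : ℕ) * Module.length E E := by
  induction n with
  | zero =>
    intro E _ _ c _
    refine ⟨E, inferInstance, inferInstance, RingHom.id E, Fin.elim0, inferInstance, fun l => l.elim0, ?_, by simp⟩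
    exact eq_top_iff.2 fun b _ => Subring.subset_closure (Or.inl ⟨b, rfl⟩)
  | succ n ih =>
    intro E _ _ c hc
    obtain ⟨E1, _, _, g1, Y1, hg1, hY1, hc1, hl1⟩ := mxs_root_one p hp E (c 0) (hc 0)
    obtain ⟨E2, _, _, g2, Y2, hg2, hY2, hc2, hl2⟩ := ih E1 (fun l => g1 (c l.succ))
      (fun l => map_nonunit g1 _ (hc _))
    refine ⟨E2, inferInstance, inferInstance, g2.comp g1, Fin.cons (g2 Y1) Y2, inferInstance, fun l => ?_, ?_, ?_⟩
    · refine Fin.cases ?_ (fun l => ?_) l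
      · rw [Fin.cons_zero, ← map_pow, hY1, RingHom.comp_apply]
      · rw [Fin.cons_succ, hY2, RingHom.comp_apply]
    · rw [eq_top_iff, ← hc2, Subring.closure_le]
      rintro b (⟨a, rfl⟩ | ⟨l, rfl⟩)
      · have ha : a ∈ Subring.closure (Set.range g1 ∪ {Y1}) := hc1 ▸ Subring.mem_top a
        have hle : Subring.closure (Set.range g1 ∪ {Y1}) ≤ (Subring.closure (Set.range (g2.comp g1) ∪
            Set.range (Fin.cons (g2 Y1) Y2 : Fin (n + 1) → E2))).comap g2 := by
          rw [Subring.closure_le]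
          rintro b (⟨a, rfl⟩ | rfl)
          · exact Subring.subset_closure (Or.inl ⟨a, rfl⟩)
          · exact Subring.subset_closure (Or.inr ⟨0, rfl⟩)
        exact hle ha
      · exact Subring.subset_closure (Or.inr ⟨l.succ, rfl⟩)
    · rw [hl2, hl1, ← mul_assoc, pow_succ, Nat.cast_mul]

/-- Adjoin `p`-th roots of elements of the maximal ideal: induct on the number of roots with
`AdjoinRoot (X^p - C c)` (free of rank `p`, local because it is integral and `Y` is nilpotent modulo `𝔪`). -/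
theorem exists_root_ext (p : ℕ) (hp : 0 < p) (L : Type) [Fintype L] (E : Type) [CommRing E] [IsLocalRing E]
    (c : L → E) (hc : ∀ l, c l ∈ maximalIdeal E) :
    ∃ (E' : Type) (_ : CommRing E') (_ : IsLocalRing E') (g : E →+* E') (Y : L → E'), IsLocalHom g ∧
      (∀ l, Y l ^ p = g (c l)) ∧ Subring.closure (Set.range g ∪ Set.range Y) = ⊤ ∧
      Module.length E' E' = (p ^ Fintype.card L : ℕ) * Module.length E E := by
  let e := Fintype.equivFin L
  obtain ⟨E', _, _, g, Y, hg, hY, hcl, hl⟩ := mxs_root_fin p hp (Fintype.card L) E (fun i => c (e.symm i))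
    (fun i => hc _)
  refine ⟨E', inferInstance, inferInstance, g, fun l => Y (e l), hg, fun l => ?_, ?_, hl⟩
  · rw [hY, Equiv.symm_apply_apply]
  · rw [← hcl]
    congr 2
    exact e.surjective.range_comp Y

theorem Reg.cast {Λ W : Type} [CommRing Λ] [AddCommGroup W] [Module Λ W] {a a' : ℕ} (h : a = a') {x : Fin a' → Λ}
    (hx : Reg x W) : Reg (fun i : Fin a => x (Fin.cast h i)) W := by
  subst h
  exact hx

theorem mxs_sub_C {A σ : Type} [CommRing A] {t : Set σ} (K : Ideal (MvPolynomial σ A))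
    (hK : ∀ s ∈ t, (X s : MvPolynomial σ A) ∈ K) {a : MvPolynomial σ A} (ha : a ∈ supported A t) :
    a - C (constantCoeff a) ∈ K := by
  rw [supported_eq_adjoin_X] at ha
  induction ha using Algebra.adjoin_induction with
  | mem x hx =>
    obtain ⟨s, hs, rfl⟩ := hx
    rw [constantCoeff_X, map_zero, sub_zero]
    exact hK s hs
  | algebraMap r =>
    rw [algebraMap_eq, constantCoeff_C, sub_self]
    exact K.zero_mem
  | add x y _ _ hx hy =>
    have : x + y - C (constantCoeff (x + y)) = (x - C (constantCoeff x)) + (y - C (constantCoeff y)) := by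
      rw [map_add, map_add]
      ring
    rw [this]
    exact K.add_mem hx hy
  | mul x y _ _ hx hy =>
    have : x * y - C (constantCoeff (x * y)) =
        x * (y - C (constantCoeff y)) + (x - C (constantCoeff x)) * C (constantCoeff y) := by
      rw [map_mul, map_mul]
      ring
    rw [this]
    exact K.add_mem (K.mul_mem_left _ hy) (K.mul_mem_right _ hx)

theorem mxs_hom_eq {A σ B : Type} [CommRing A] [CommRing B] {t : Set σ} (f g : MvPolynomial σ A →+* B)
    (hC : ∀ a, f (C a) = g (C a)) (hX : ∀ s ∈ t, f (X s) = g (X s)) {a : MvPolynomial σ A}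
    (ha : a ∈ supported A t) : f a = g a := by
  rw [supported_eq_adjoin_X] at ha
  induction ha using Algebra.adjoin_induction with
  | mem x hx =>
    obtain ⟨s, hs, rfl⟩ := hx
    exact hX s hs
  | algebraMap r => exact hC r
  | add x y _ _ hx hy => rw [map_add, map_add, hx, hy]
  | mul x y _ _ hx hy => rw [map_mul, map_mul, hx, hy]

theorem mxs_X_mem {A L : Type} [CommRing A] {i : ℕ} {s : MxV L} (hs : mxLev s ≤ i) :
    (X s : MvPolynomial (MxV L) A) ∈ mxSub A L i :=
  Algebra.subset_adjoin ⟨s, hs, rfl⟩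

theorem mxs_C_mem {A L : Type} [CommRing A] (i : ℕ) (a : A) : (C a : MvPolynomial (MxV L) A) ∈ mxSub A L i :=
  (mxSub A L i).algebraMap_mem a

theorem mxs_sub_mono {A L : Type} [CommRing A] {i j : ℕ} (h : i ≤ j) : mxSub A L i ≤ mxSub A L j :=
  supported_mono fun _ hs => le_trans hs h

theorem mxs_len_quot {B : Type} [CommRing B] (I : Ideal B) : Module.length (B ⧸ I) (B ⧸ I) = colen B I :=
  (Module.length_eq_of_surjective (S := B) (R := B ⧸ I) Ideal.Quotient.mk_surjective).symm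

theorem mxs_len_le {B E : Type} [CommRing B] [CommRing E] (G : B →+* E) (hG : Function.Surjective G)
    (I : Ideal B) (hI : ∀ a ∈ I, G a = 0) : Module.length E E ≤ colen B I := by
  let _ : Algebra B E := G.toAlgebra
  rw [← Module.length_eq_of_surjective (S := B) (R := E) hG]
  refine Module.length_le_of_surjective (I.liftQ (Algebra.linearMap B E) fun a ha => hI a ha) fun z => ?_
  obtain ⟨b, rfl⟩ := hG z
  exact ⟨Submodule.Quotient.mk b, rfl⟩

theorem mxs_reg_quot {Λ : Type} [CommRing Λ] {a b : ℕ} {r : Fin a → Λ} {x : Fin b → Λ} {J : Ideal Λ}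
    (hJ : idl r = J) (h : Reg (Fin.append r x) Λ) : Reg (fun i => Ideal.Quotient.mk J (x i)) (Λ ⧸ J) := by
  subst hJ
  exact h.quot_append

/-- A complete intersection quotient of a Cohen–Macaulay local ring is Cohen–Macaulay. -/
theorem mxs_reg_ci {Λ : Type} [CommRing Λ] [IsNoetherianRing Λ] [IsLocalRing Λ] {a b : ℕ} {x : Fin (b + a) → Λ}
    (hx : Reg x Λ) (hxm : ∀ i, x i ∈ maximalIdeal Λ) {r : Fin a → Λ} {J : Ideal Λ} (hJ : idl r = J)
    [IsLocalRing (Λ ⧸ J)] {z : Fin b → Λ ⧸ J} (hz : Sop z) : Reg z (Λ ⧸ J) := by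
  choose w hw using fun i => Ideal.Quotient.mk_surjective (I := J) (z i)
  have hz' : z = fun i => Ideal.Quotient.mk J (w i) := funext fun i => (hw i).symm
  have hloc : IsLocalHom (Ideal.Quotient.mk J) := IsLocalHom.of_surjective _ Ideal.Quotient.mk_surjective
  have hmem : ∀ v : Λ, Ideal.Quotient.mk J v ∈ maximalIdeal (Λ ⧸ J) → v ∈ maximalIdeal Λ := fun v hv =>
    (mem_maximalIdeal v).2 fun hu => (mem_maximalIdeal _).1 hv (hu.map _)
  rw [hz']
  refine mxs_reg_quot hJ (Reg.of_sop (Reg.cast (Nat.add_comm a b) hx) (fun i => ?_) fun i => ?_)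
  · refine Fin.addCases (fun i => ?_) (fun i => ?_) i
    · rw [Fin.append_left]
      refine hmem _ ?_
      rw [Ideal.Quotient.eq_zero_iff_mem.2 (hJ ▸ ln_mem_idl r i)]
      exact Ideal.zero_mem _
    · rw [Fin.append_right]
      refine hmem _ ?_
      rw [hw]
      exact hz.1 i
  · obtain ⟨c, hc⟩ := hz.2
    refine ⟨c, ?_⟩
    have h1 := hc (Ideal.pow_mem_pow (map_nonunit (Ideal.Quotient.mk J) _ (hxm (Fin.cast (Nat.add_comm a b) i))) c)
    rw [hz', ← idl_map, ← map_pow, ← Ideal.mem_comap, Ideal.comap_map_of_surjective _ Ideal.Quotient.mk_surjective,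
      ← RingHom.ker_eq_comap_bot, Ideal.mk_ker] at h1
    refine (sup_le (ln_idl_le fun j => ?_) (hJ ▸ ln_idl_le fun j => ?_) : idl w ⊔ J ≤ idl (Fin.append r w)) h1
    · simpa only [Fin.append_right] using ln_mem_idl (Fin.append r w) (Fin.natAdd a j)
    · simpa only [Fin.append_left] using ln_mem_idl (Fin.append r w) (Fin.castAdd b j)

namespace MixData

variable {p : ℕ} [Fact p.Prime] {A : Type} [CommRing A] [IsLocalRing A] {d : ℕ} {X' : Fin d → A}
  (m : MixData p A X') {Δ : DeltaS A p}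

/-- The parameters `u, X'`. -/
noncomputable def zU (Δ : DeltaS A p) (e : ℕ) : Fin (d + 1) → m.D Δ e :=
  Fin.cons (m.π Δ e m.u) fun i => m.π Δ e (C (X' i))

/-- The parameters `X_1, X'`. -/
noncomputable def zX (Δ : DeltaS A p) (e : ℕ) : Fin (d + 1) → m.D Δ e :=
  Fin.cons (m.π Δ e (X (.inl none))) fun i => m.π Δ e (C (X' i))

theorem mxs_ξ_mem (K : Ideal m.𝒜) (hp : (p : m.𝒜) ∈ K) (hu : m.u ∈ K) (i : ℕ) : m.ξ i ∈ K :=
  K.sub_mem hp (K.pow_mem_of_mem hu _ (pow_pos (Fact.out : p.Prime).pos i))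

omit [Fact p.Prime] in
theorem mxs_C_mem_of (h : MBase p A X' Δ) {B : Type} [CommRing B] (f : A →+* B) (K : Ideal B) (hp : (p : B) ∈ K)
    (hX : ∀ i, f (X' i) ∈ K) {a : A} (ha : a ∈ maximalIdeal A) : f a ∈ K := by
  rw [← h.max] at ha
  refine (ln_idl_le fun i => ?_ : _ ≤ K.comap f) ha
  refine Fin.cases ?_ (fun i => ?_) i
  · rw [Fin.cons_zero, Ideal.mem_comap, map_natCast]
    exact hp
  · exact hX i

omit [Fact p.Prime] in
/-- The `T_l` modulo `X_1`, `X'` and the `f_l`. -/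
theorem mxs_T_mem (K : Ideal (MvPolynomial (Option m.L) A)) (hK : K.IsRadical) (h1 : X none ∈ K)
    (hX : ∀ i, C (X' i) ∈ K) (hf : ∀ l, m.f l ∈ K) (l : m.L) : X (some l) ∈ K := by
  have hle : (mxX X' : Ideal (MvPolynomial (Option m.L) A)) ≤ K :=
    ln_idl_le fun i => Fin.cases h1 (fun i => hX i) i
  by_cases hl : l ∈ m.L0
  · refine hK ⟨m.n, ?_⟩
    have h2 := K.sub_mem (hf l) (hle (Ideal.mul_le_left (m.f0 l hl)))
    rwa [sub_sub_cancel] at h2
  · have h2 := K.sub_mem (hf l) ((Ideal.span_singleton_le_iff_mem K).2 h1 (m.f1 l hl))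
    rwa [sub_sub_cancel] at h2

/-- A radical ideal containing `u` and `X'` contains the maximal ideal. -/
theorem mxs_max_le (h : MBase p A X' Δ) (e : ℕ) [IsLocalRing (m.D Δ e)] (K : Ideal (m.D Δ e)) (hK : K.IsRadical)
    (hu : m.π Δ e m.u ∈ K) (hX : ∀ i, m.π Δ e (C (X' i)) ∈ K) : maximalIdeal (m.D Δ e) ≤ K := by
  have hp : (p : m.D Δ e) ∈ K := by
    rw [m.p_eq Δ e]
    exact K.pow_mem_of_mem hu _ (pow_pos (Fact.out : p.Prime).pos e)
  let K1 : Ideal m.𝒜 := K.comap (m.π Δ e)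
  have hK1 : K1.IsRadical := hK.comap _
  have hp1 : (p : m.𝒜) ∈ K1 := by
    rw [Ideal.mem_comap, map_natCast]
    exact hp
  have hξ := m.mxs_ξ_mem K1 hp1 hu
  have hr : ∀ l i, i ≤ e → m.r Δ l i ∈ K1 := fun l i hi => by
    rw [Ideal.mem_comap, m.π_r Δ hi]
    exact K.zero_mem
  have hC : ∀ a ∈ maximalIdeal A, (C a : m.𝒜) ∈ K1 := fun a ha => mxs_C_mem_of h C K1 hp1 hX ha
  let K2 : Ideal (MvPolynomial (Option m.L) A) := K1.comap (rename Sum.inl : _ →ₐ[A] m.𝒜)
  have hK2 : K2.IsRadical := hK1.comap (rename Sum.inl : _ →ₐ[A] m.𝒜).toRingHom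
  have hf : ∀ l, m.f l ∈ K2 := fun l => by
    have h2 := K1.sub_mem (K1.mul_mem_right (m.y l 0) (hξ 0)) (hr l 0 (Nat.zero_le e))
    rwa [r, sub_sub_cancel] at h2
  have hX2 : ∀ i, C (X' i) ∈ K2 := fun i => by
    rw [Ideal.mem_comap, rename_C]
    exact hX i
  have h1 : X none ∈ K2 := by
    obtain ⟨c, s, hs, hsc⟩ := m.fu
    have h2 : s * X none ^ c ∈ K2 := by
      refine (Ideal.span_le.2 ?_ : _ ≤ K2) hsc
      rintro v ((((rfl | rfl) | ⟨i, rfl⟩)) | ⟨l, rfl⟩)
      · rw [SetLike.mem_coe, Ideal.mem_comap, map_natCast]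
        exact hp1
      · rw [SetLike.mem_coe, Ideal.mem_comap, rename_X]
        exact hu
      · exact hX2 i
      · exact hf l
    refine hK2 ⟨c, ?_⟩
    have hs' : rename Sum.inl s ∉ mxM A (MxV m.L) := by
      rw [mxM, Ideal.mem_comap, constantCoeff_rename]
      exact hs
    rw [Ideal.mem_comap, Ideal.mem_comap, map_mul, map_mul, Ideal.unit_mul_mem_iff_mem _ (m.π_isUnit Δ e hs')] at h2
    exact h2
  have hvar : ∀ i, ∀ s, mxLev s ≤ i → (X s : m.𝒜) ∈ K1 := by
    intro i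
    induction i with
    | zero =>
      rintro ((_ | l) | ⟨l, j⟩) hs
      · rw [← rename_X (R := A) Sum.inl]
        exact h1
      · rw [← rename_X (R := A) Sum.inl]
        exact m.mxs_T_mem K2 hK2 h1 hX2 hf l
      · exact absurd hs (Nat.not_succ_le_zero j)
    | succ i ih =>
      intro s hs
      rcases Nat.lt_or_eq_of_le hs with hs | hs
      · exact ih s (Nat.le_of_lt_succ hs)
      · obtain (v | ⟨l, j⟩) := s
        · exact ih _ (Nat.zero_le i)
        · obtain rfl : j = i := Nat.succ_injective hs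
          by_cases hj : e ≤ j
          · rw [Ideal.mem_comap]
            exact (m.π_y Δ hj l).symm ▸ K.zero_mem
          · obtain ⟨a, ha, ham, b, -, c, -, habc⟩ := m.r_mod Δ h l j
            have ha1 : a ∈ K1 := by
              have h2 := K1.add_mem (mxs_sub_C K1 ih ha) (hC _ ham)
              rwa [sub_add_cancel] at h2
            refine hK1 ⟨p, ?_⟩
            have h3 : m.y l j ^ p = m.r Δ l (j + 1) - m.ξ (j + 1) * m.y l (j + 1) - a - p * b - m.u * c := by
              rw [habc]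
              ring
            change m.y l j ^ p ∈ K1
            rw [h3]
            exact K1.sub_mem (K1.sub_mem (K1.sub_mem (K1.sub_mem (hr l _ (not_le.1 hj))
              (K1.mul_mem_right _ (hξ _))) ha1) (K1.mul_mem_right _ hp1)) (K1.mul_mem_right _ hu)
  rw [m.maximalIdeal_eq h e, Ideal.span_le]
  rintro v ((rfl | ⟨i, rfl⟩) | ⟨s, hs, rfl⟩)
  · exact hp
  · exact hX i
  · exact hvar e s hs

theorem mxs_pow_le (h : MBase p A X' Δ) (e : ℕ) [IsLocalRing (m.D Δ e)] (I : Ideal (m.D Δ e))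
    (hu : m.π Δ e m.u ∈ I.radical) (hX : ∀ i, m.π Δ e (C (X' i)) ∈ I.radical) :
    ∃ c : ℕ, maximalIdeal (m.D Δ e) ^ c ≤ I := by
  have := m.isNoetherianRing h e
  exact Ideal.exists_pow_le_of_le_radical_of_fg (m.mxs_max_le h e _ I.radical_isRadical hu hX)
    (maximalIdeal _).fg_of_isNoetherianRing

omit [Fact p.Prime] in
theorem mxs_X'_mem (h : MBase p A X' Δ) (i : Fin d) : X' i ∈ maximalIdeal A :=
  h.max ▸ ln_mem_idl (Fin.cons (p : A) X' : Fin (d + 1) → A) i.succ

theorem mxs_πX_mem (h : MBase p A X' Δ) (e : ℕ) [IsLocalRing (m.D Δ e)] (s : MxV m.L) :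
    m.π Δ e (X s) ∈ maximalIdeal (m.D Δ e) := by
  rw [m.π_mem_iff h e, mxM, Ideal.mem_comap, constantCoeff_X]
  exact Ideal.zero_mem _

theorem mxs_πC_mem (h : MBase p A X' Δ) (e : ℕ) [IsLocalRing (m.D Δ e)] (a : A) :
    m.π Δ e (C a) ∈ maximalIdeal (m.D Δ e) ↔ a ∈ maximalIdeal A := by
  rw [m.π_mem_iff h e, mxM, Ideal.mem_comap, constantCoeff_C]

theorem mxs_tr_zX (h : MBase p A X' Δ) {e e' : ℕ} (he : e ≤ e') (i : Fin (d + 1)) :
    m.tr h he (m.zX Δ e i) = m.zX Δ e' i ^ p ^ (e' - e) := by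
  refine Fin.cases ?_ (fun i => ?_) i
  · exact m.tr_inl h he none
  · simp only [zX, Fin.cons_succ]
    rw [m.tr_C h he, h.φ_pow_X, map_pow, map_pow]

theorem mxs_tr_zU (h : MBase p A X' Δ) {e e' : ℕ} (he : e ≤ e') (i : Fin (d + 1)) :
    m.tr h he (m.zU Δ e i) = m.zU Δ e' i ^ p ^ (e' - e) := by
  refine Fin.cases ?_ (fun i => ?_) i
  · exact m.tr_inl h he (some m.l0)
  · simp only [zU, Fin.cons_succ]
    rw [m.tr_C h he, h.φ_pow_X, map_pow, map_pow]

theorem mxs_reg (h : MBase p A X' Δ) (e : ℕ) [IsLocalRing (m.D Δ e)] {z : Fin (d + 1) → m.D Δ e} (hz : Sop z) :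
    Reg z (m.D Δ e) := by
  have := h.rb.noeth
  obtain ⟨b, ⟨ε⟩⟩ := Finite.exists_equiv_fin (MxVe m.L e)
  have hP : IsNoetherianRing (m.S e) :=
    IsLocalization.isNoetherianRing (mxM A (MxVe m.L e)).primeCompl _ inferInstance
  have hflat : Module.Flat (MvPolynomial (MxVe m.L e) A) (m.S e) :=
    IsLocalization.flat _ (mxM A (MxVe m.L e)).primeCompl
  have h1 := (h.rb.reg.append_X ε.symm).of_flat (Λ' := m.S e)
  have hJ : idl (fun j : Fin b => m.πS e (m.rel Δ e (ε.symm j))) = m.J Δ e := by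
    rw [idl, J, ← ε.symm.surjective.range_comp]
    rfl
  have hl : IsLocalRing (m.S e ⧸ m.J Δ e) := ‹IsLocalRing (m.D Δ e)›
  refine mxs_reg_ci h1 (fun i => ?_) hJ (z := z) hz
  rw [IsLocalization.AtPrime.to_map_mem_maximal_iff (m.S e) (mxM A (MxVe m.L e)), mxM, Ideal.mem_comap]
  refine Fin.addCases (fun i => ?_) (fun i => ?_) i
  · rw [Fin.append_left, constantCoeff_C, ← h.max]
    exact ln_mem_idl _ i
  · rw [Fin.append_right, constantCoeff_X]
    exact Ideal.zero_mem _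

theorem mxs_C_local (h : MBase p A X' Δ) (e : ℕ) : IsLocalHom ((m.π Δ e).comp (C : A →+* m.𝒜)) := by
  have := m.isLocalRing h e
  refine ⟨fun a ha => ?_⟩
  by_contra hn
  exact (mem_maximalIdeal _).1 ((m.mxs_πC_mem h e a).2 ((mem_maximalIdeal a).2 hn)) ha

/-- Show that every generator of the maximal ideal is in the radical of `(u, X')`: `p = u^q`; `f l ≡ 0` (from
`r_{l,0}`), so `X_1` by `fu`, the `T_l` by `f0`, `f1`; the `y_{l,i}` by induction on `i` with `r_mod` (an element of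
`𝔪` of level `≤ i` lies in the ideal generated by `𝔪_A` and the variables of level `≤ i`). -/
theorem sop_zU (h : MBase p A X' Δ) (e : ℕ) [IsLocalRing (m.D Δ e)] : Sop (m.zU Δ e) := by
  refine ⟨fun i => Fin.cases (m.mxs_πX_mem h e _) (fun i => (m.mxs_πC_mem h e _).2 (mxs_X'_mem h i)) i, ?_⟩
  exact m.mxs_pow_le h e _ (Ideal.le_radical (ln_mem_idl (m.zU Δ e) 0))
    fun i => Ideal.le_radical (ln_mem_idl (m.zU Δ e) i.succ)

/-- `T_l^n ∈ (X) + (f_l)`.  At level `0`, `f l = 0`, so all `T_l` and `p = u` are in the radical of `(X)`.  At level `e`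
use `Sop.map` along `tr` (`𝔪_0 D_e` contains `p`, `X'^q`, `u^q`, so it is primary by `sop_zU`) and
`tr (zX 0 i) = zX e i ^ q`. -/
theorem sop_zX (h : MBase p A X' Δ) (e : ℕ) [IsLocalRing (m.D Δ e)] : Sop (m.zX Δ e) := by
  refine ⟨fun i => Fin.cases (m.mxs_πX_mem h e _) (fun i => (m.mxs_πC_mem h e _).2 (mxs_X'_mem h i)) i, ?_⟩
  refine m.mxs_pow_le h e _ ?_ fun i => Ideal.le_radical (ln_mem_idl (m.zX Δ e) i.succ)
  let K : Ideal (MvPolynomial (Option m.L) A) :=
    ((idl (m.zX Δ 0)).radical.comap (m.π Δ 0)).comap (rename Sum.inl : _ →ₐ[A] m.𝒜)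
  have hK : K.IsRadical :=
    ((idl (m.zX Δ 0)).radical_isRadical.comap (m.π Δ 0)).comap (rename Sum.inl : _ →ₐ[A] m.𝒜).toRingHom
  have h1 : X (some m.l0) ∈ K := by
    refine m.mxs_T_mem K hK ?_ (fun i => ?_) (fun l => ?_) m.l0
    · rw [Ideal.mem_comap, rename_X]
      exact Ideal.le_radical (ln_mem_idl (m.zX Δ 0) 0)
    · rw [Ideal.mem_comap, rename_C]
      exact Ideal.le_radical (ln_mem_idl (m.zX Δ 0) i.succ)
    · have h2 := m.π_r Δ (le_refl 0) l
      rw [r, map_sub, map_mul, m.π_y Δ (le_refl 0), mul_zero, zero_sub, neg_eq_zero] at h2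
      rw [Ideal.mem_comap, Ideal.mem_comap, h2]
      exact Ideal.zero_mem _
  rw [Ideal.mem_comap, Ideal.mem_comap, rename_X] at h1
  obtain ⟨n, hn⟩ := h1
  have h3 := Ideal.mem_map_of_mem (m.tr h (Nat.zero_le e)) hn
  rw [idl_map, map_pow, m.tr_inl h, ← pow_mul] at h3
  refine ⟨_, (ln_idl_le fun i => ?_ : _ ≤ idl (m.zX Δ e)) h3⟩
  rw [m.mxs_tr_zX h]
  exact Ideal.pow_mem_of_mem _ (ln_mem_idl _ i) _ (pow_pos (Fact.out : p.Prime).pos _)

theorem tr_zX (h : MBase p A X' Δ) {e e' : ℕ} (he : e ≤ e') (i : Fin (d + 1)) :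
    m.tr h he (m.zX Δ e i) = m.zX Δ e' i ^ p ^ (e' - e) := by
  exact m.mxs_tr_zX h he i

theorem tr_primary (h : MBase p A X' Δ) {e e' : ℕ} (he : e ≤ e') [IsLocalRing (m.D Δ e)]
    [IsLocalRing (m.D Δ e')] : ∃ c : ℕ, maximalIdeal (m.D Δ e') ^ c ≤ (maximalIdeal (m.D Δ e)).map (m.tr h he) := by
  have hz := m.sop_zU h e
  have h1 : ∀ i, m.zU Δ e' i ∈ ((maximalIdeal (m.D Δ e)).map (m.tr h he)).radical := fun i =>
    ⟨_, m.mxs_tr_zU h he i ▸ Ideal.mem_map_of_mem _ (hz.1 i)⟩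
  exact m.mxs_pow_le h e' _ (h1 0) fun i => h1 i.succ

/-- In `S e` the sequence `p, X', variables` is regular (`Reg.append_X`, `Reg.of_flat`).  The relations followed by
lifts of `u, X'` have the same number of terms and generate a primary ideal, so they are regular (`Reg.cast`,
`Reg.of_sop`); conclude with `Reg.quot_append`. -/
theorem reg_zU (h : MBase p A X' Δ) (e : ℕ) : Reg (m.zU Δ e) (m.D Δ e) := by
  have := m.isLocalRing h e
  exact m.mxs_reg h e (m.sop_zU h e)

theorem reg_zX (h : MBase p A X' Δ) (e : ℕ) : Reg (m.zX Δ e) (m.D Δ e) := by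
  have := m.isLocalRing h e
  exact m.mxs_reg h e (m.sop_zX h e)

theorem u_regular (h : MBase p A X' Δ) (e : ℕ) {b : m.D Δ e} (hb : m.π Δ e m.u * b = 0) : b = 0 := by
  have h0 : idlLt (m.zU Δ e) 0 = ⊥ := by simp [idlLt]
  have h1 := rg2_reg_self.1 (m.reg_zU h e) 0 b
  rw [h0, Ideal.mem_bot, Ideal.mem_bot] at h1
  exact h1 hb

/-- `finite_of_complete`. -/
theorem finite_C (h : MBase p A X' Δ) (e : ℕ) : ((m.π Δ e).comp (C : A →+* m.𝒜)).Finite := by
  have := m.isLocalRing h e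
  have := m.isNoetherianRing h e
  have := h.cpl
  have := m.mxs_C_local h e
  obtain ⟨c, hc⟩ := m.mxs_pow_le h e ((maximalIdeal A).map ((m.π Δ e).comp (C : A →+* m.𝒜)))
    ⟨p ^ e, by
      rw [← m.p_eq Δ e, ← map_natCast ((m.π Δ e).comp (C : A →+* m.𝒜))]
      exact Ideal.mem_map_of_mem _ (h.max ▸ ln_mem_idl (Fin.cons (p : A) X' : Fin (d + 1) → A) 0)⟩
    fun i => Ideal.le_radical (Ideal.mem_map_of_mem ((m.π Δ e).comp (C : A →+* m.𝒜)) (mxs_X'_mem h i))
  exact finite_of_complete _ (m.sameRes_C h e) hc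

/-- `finite_of_complete` for `A → D e → D e'`. -/
theorem tr_finite (h : MBase p A X' Δ) {e e' : ℕ} (he : e ≤ e') : (m.tr h he).Finite := by
  have := m.isLocalRing h e
  have := m.isLocalRing h e'
  have := m.isNoetherianRing h e'
  have := h.cpl
  have := m.mxs_C_local h e
  have := m.tr_local h he
  let f : A →+* m.D Δ e' := (m.tr h he).comp ((m.π Δ e).comp (C : A →+* m.𝒜))
  obtain ⟨c, hc⟩ := m.mxs_pow_le h e' ((maximalIdeal A).map f)
    ⟨p ^ e', by
      rw [← m.p_eq Δ e', ← map_natCast f]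
      exact Ideal.mem_map_of_mem _ (h.max ▸ ln_mem_idl (Fin.cons (p : A) X' : Fin (d + 1) → A) 0)⟩
    fun i => ⟨p ^ (e' - e), by
      have h1 := m.mxs_tr_zU h he i.succ
      simp only [zU, Fin.cons_succ] at h1
      rw [← h1]
      exact Ideal.mem_map_of_mem f (mxs_X'_mem h i)⟩
  have hres : SameRes f := fun b => by
    obtain ⟨b0, hb0⟩ := m.tr_sameRes h he b
    obtain ⟨a, ha⟩ := m.sameRes_C h e b0
    refine ⟨a, ?_⟩
    have h1 := Ideal.add_mem _ hb0 (map_nonunit (m.tr h he) _ ha)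
    rwa [map_sub, sub_add_sub_cancel] at h1
  exact RingHom.Finite.of_comp_finite (finite_of_complete f hres hc)

/-- `D e` is integral over the image of the polynomial ring, so units of `D e` in the image have their inverses in
the image. -/
theorem π_surj (h : MBase p A X' Δ) (e : ℕ) (b : m.D Δ e) : ∃ a ∈ mxSub A m.L e, m.π Δ e a = b := by
  let B : Subring (m.D Δ e) := (mxSub A m.L e).toSubring.map (m.π Δ e)
  let f : A →+* B := ((m.π Δ e).comp (C : A →+* m.𝒜)).codRestrict B fun a => ⟨C a, mxs_C_mem e a, rfl⟩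
  have hint : B.subtype.IsIntegral := RingHom.IsIntegral.tower_top f B.subtype (m.finite_C h e).to_isIntegral
  have hloc := hint.isLocalHom B.subtype_injective
  obtain ⟨a, ha, s, hs, hsm, hb⟩ := m.π_frac Δ e b
  obtain ⟨v, hv⟩ := (hloc.1 ⟨m.π Δ e s, s, hs, rfl⟩ (m.π_isUnit Δ e hsm)).exists_right_inv
  obtain ⟨v, t, ht, rfl⟩ := v
  refine ⟨a * t, (mxSub A m.L e).mul_mem ha ht, ?_⟩
  have h1 : m.π Δ e s * m.π Δ e t = 1 := congrArg Subtype.val hv
  rw [map_mul, ← hb, mul_assoc, h1, mul_one]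

/-- Let `E = D e / (u, X')`, `c l = -a` with `a` from `r_mod` for `(l, e)`, and `E'` from `exists_root_ext`.  The map
`𝒜 → E'` sending `y_{l,e} ↦ Y l`, higher variables to `0` and lower ones through `E` kills the relations of level
`e + 1` (`p`, `u`, `ξ_i ↦ 0`; for `i ≤ e`, `r_i` and `r_i - ξ_i y_i` have the same image, see `r_sub`), so it gives a
surjection `D (e+1) / (u, X') → E'`. -/
theorem colen_zU_succ (h : MBase p A X' Δ) (e : ℕ) :
    (p ^ Fintype.card m.L : ℕ) * colen (m.D Δ e) (idl (m.zU Δ e)) ≤ colen (m.D Δ (e + 1)) (idl (m.zU Δ (e + 1))) := by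
  classical
  have := m.isLocalRing h e
  have hsop := m.sop_zU h e
  have hne : idl (m.zU Δ e) ≠ ⊤ := fun ht =>
    (maximalIdeal.isMaximal (m.D Δ e)).ne_top (top_le_iff.1 (ht ▸ ln_idl_le hsop.1))
  have hnt : Nontrivial (m.D Δ e ⧸ idl (m.zU Δ e)) := Ideal.Quotient.nontrivial_iff.2 hne
  have hE : IsLocalRing (m.D Δ e ⧸ idl (m.zU Δ e)) :=
    IsLocalRing.of_surjective' (Ideal.Quotient.mk _) Ideal.Quotient.mk_surjective
  have hmk : IsLocalHom (Ideal.Quotient.mk (idl (m.zU Δ e))) :=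
    IsLocalHom.of_surjective _ Ideal.Quotient.mk_surjective
  let ρ : m.𝒜 →+* m.D Δ e ⧸ idl (m.zU Δ e) := (Ideal.Quotient.mk _).comp (m.π Δ e)
  have hρm : ∀ a ∈ mxM A (MxV m.L), ρ a ∈ maximalIdeal _ := fun a ha =>
    map_nonunit (Ideal.Quotient.mk (idl (m.zU Δ e))) _ ((m.π_mem_iff h e a).2 ha)
  have hρu : ρ m.u = 0 := Ideal.Quotient.eq_zero_iff_mem.2 (ln_mem_idl (m.zU Δ e) 0)
  have hρX : ∀ i, ρ (C (X' i)) = 0 := fun i => Ideal.Quotient.eq_zero_iff_mem.2 (ln_mem_idl (m.zU Δ e) i.succ)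
  have hρp : ρ p = 0 := by
    rw [RingHom.comp_apply, map_natCast, m.p_eq Δ e, map_pow]
    exact pow_eq_zero_of_le (pow_pos (Fact.out : p.Prime).pos e) (by rw [pow_one]; exact hρu)
  have hρξ : ∀ i, ρ (m.ξ i) = 0 := m.mxs_ξ_mem (RingHom.ker ρ) hρp hρu
  choose a ha ham b _ c _ habc using fun l => m.r_mod Δ h l e
  obtain ⟨E', _, _, g, Y, hg, hY, hcl, hlen⟩ := exists_root_ext p (Fact.out : p.Prime).pos m.L _
    (fun l => -ρ (a l)) fun l => neg_mem (hρm _ (ham l))
  let val : MxV m.L → E' := Sum.elim (fun v => g (ρ (X (.inl v))))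
    fun li => if li.2 = e then Y li.1 else g (ρ (X (.inr li)))
  let ψ : m.𝒜 →+* E' := eval₂Hom (g.comp (ρ.comp C)) val
  have hψC : ∀ a, ψ (C a) = g (ρ (C a)) := fun a => eval₂Hom_C _ _ a
  have hψX : ∀ s, ψ (X s) = val s := fun s => eval₂Hom_X' _ _ s
  have hψX' : ∀ s, mxLev s ≠ e + 1 → ψ (X s) = g (ρ (X s)) := by
    rintro (v | ⟨l, i⟩) hs
    · exact hψX _
    · rw [hψX]
      exact if_neg fun hi => hs (congrArg (· + 1) hi)
  have hψy : ∀ l, ψ (m.y l e) = Y l := fun l => (hψX _).trans (if_pos rfl)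
  have hψ : ∀ a ∈ mxSub A m.L e, ψ a = g (ρ a) := fun a ha =>
    mxs_hom_eq ψ (g.comp ρ) hψC (fun s hs => hψX' s (Nat.lt_succ_of_le hs).ne) ha
  have hψu : ψ m.u = 0 := by rw [hψ m.u (mxs_X_mem (s := .inl (some m.l0)) (Nat.zero_le e)), hρu, map_zero]
  have hψp : ψ p = 0 := by rw [hψ _ (natCast_mem _ p), hρp, map_zero]
  have hψξ : ∀ i, ψ (m.ξ i) = 0 := m.mxs_ξ_mem (RingHom.ker ψ) hψp hψu
  have hψr : ∀ l i, i ≤ e + 1 → ψ (m.r Δ l i) = 0 := by
    intro l i hi
    rcases Nat.lt_or_eq_of_le hi with hi | rfl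
    · have h1 := hψ _ (mxs_sub_mono (Nat.le_of_lt_succ hi) (m.r_sub Δ l i))
      have h2 : ρ (m.r Δ l i) = 0 := by rw [RingHom.comp_apply, m.π_r Δ (Nat.le_of_lt_succ hi), map_zero]
      rwa [map_sub, map_mul, hψξ, zero_mul, sub_zero, map_sub ρ, map_mul ρ, hρξ, zero_mul, sub_zero, h2,
        map_zero] at h1
    · rw [habc l, map_add, map_add, map_add, map_add, map_mul, map_mul, map_mul, hψξ, hψp, hψu, map_pow, hψy, hY,
        hψ _ (ha l), map_neg]
      ring
  have hψm : ∀ s, ψ (X s) ∈ maximalIdeal E' := by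
    intro s
    by_cases hs : mxLev s = e + 1
    · obtain (v | ⟨l, i⟩) := s
      · exact absurd hs (Nat.succ_ne_zero e).symm
      · obtain rfl : i = e := Nat.succ_injective hs
        refine (maximalIdeal.isMaximal E').isPrime.mem_of_pow_mem p ?_
        rw [show ψ (X (.inr (l, i))) = Y l from hψy l, hY]
        exact map_nonunit g _ (neg_mem (hρm _ (ham l)))
    · rw [hψX' s hs]
      refine map_nonunit g _ (hρm _ ?_)
      rw [mxM, Ideal.mem_comap, constantCoeff_X]
      exact Ideal.zero_mem _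
  have hunit : ∀ s, s ∉ mxM A (MxV m.L) → IsUnit (ψ s) := by
    intro s hs
    have h1 : ψ (s - C (constantCoeff s)) ∈ maximalIdeal E' :=
      mxs_sub_C (t := Set.univ) ((maximalIdeal E').comap ψ) (fun s _ => hψm s) (by rw [supported_univ]; trivial)
    have h2 : IsUnit (ψ (C (constantCoeff s))) := ((notMem_maximalIdeal.1 hs).map C).map ψ
    by_contra hn
    have h3 := Ideal.sub_mem _ ((mem_maximalIdeal _).2 hn) h1
    rw [map_sub, sub_sub_cancel] at h3
    exact (mem_maximalIdeal _).1 h3 h2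
  have hrel : ∀ s, mxLev s ≤ e + 1 → ψ (m.rel Δ (e + 1) s) = 0 := by
    rintro ((_ | l) | ⟨l, i⟩) hs
    · exact hψξ _
    · exact hψr l 0 (Nat.zero_le _)
    · exact hψr l (i + 1) hs
  have hhigh : ∀ s, e + 1 < mxLev s → ψ (X s) = 0 := by
    intro s hs
    rw [hψX' s hs.ne']
    obtain (v | ⟨l, i⟩) := s
    · exact absurd hs (Nat.not_lt_zero _)
    · have h1 : ρ (X (.inr (l, i))) = 0 := by
        rw [RingHom.comp_apply]
        exact (congrArg _ (m.π_y Δ (Nat.lt_of_succ_lt_succ hs).le l)).trans (map_zero _)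
      rw [h1, map_zero]
  obtain ⟨G, hG⟩ := m.exists_lift Δ (e + 1) ψ hunit hrel hhigh
  rw [← mxs_len_quot, ← hlen]
  refine mxs_len_le G (fun z => ?_) _ (ln_idl_le (I := RingHom.ker G) fun i => ?_)
  · have hle : Subring.closure (Set.range g ∪ Set.range Y) ≤ G.range := by
      rw [Subring.closure_le]
      rintro _ (⟨z, rfl⟩ | ⟨l, rfl⟩)
      · obtain ⟨z, rfl⟩ := Ideal.Quotient.mk_surjective z
        obtain ⟨a, ha, rfl⟩ := m.π_surj h e z
        exact ⟨m.π Δ (e + 1) a, (hG a).trans (hψ a ha)⟩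
      · exact ⟨m.π Δ (e + 1) (m.y l e), (hG _).trans (hψy l)⟩
    exact hle (hcl ▸ Subring.mem_top z)
  · refine Fin.cases ?_ (fun i => ?_) i
    · exact (hG _).trans hψu
    · exact (hG _).trans ((hψC _).trans (by rw [hρX, map_zero]))

/-- `Reg.colen_br` for `zU e`, and `tr (zU 0 i) = zU e i ^ q`. -/
theorem colen_low (h : MBase p A X' Δ) (e : ℕ) :
    ((p ^ e) ^ (d + 1 + Fintype.card m.L) : ℕ) * colen (m.D Δ 0) (idl (m.zU Δ 0)) ≤
      colen (m.D Δ e) ((idl (m.zU Δ 0)).map (m.tr h (Nat.zero_le e))) := by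
  have h1 : ∀ e : ℕ, ((p ^ e) ^ Fintype.card m.L : ℕ) * colen (m.D Δ 0) (idl (m.zU Δ 0)) ≤
      colen (m.D Δ e) (idl (m.zU Δ e)) := by
    intro e
    induction e with
    | zero => simp
    | succ e ih =>
      refine le_trans ?_ (m.colen_zU_succ h e)
      rw [pow_succ', mul_pow, Nat.cast_mul, mul_assoc]
      exact mul_le_mul_right ih _
  have h2 : (idl (m.zU Δ 0)).map (m.tr h (Nat.zero_le e)) = br (m.zU Δ e) (p ^ e) := by
    rw [idl_map, br]
    exact congrArg idl (funext fun i => m.mxs_tr_zU h (Nat.zero_le e) i)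
  have h3 := (m.reg_zU h e).colen_br (p ^ e)
  rw [gw_ism_self, gw_ism_self] at h3
  rw [h2, h3, pow_add, Nat.cast_mul, mul_assoc]
  exact mul_le_mul_right (h1 e) _

end MixData

end Crest.Agent.R183
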