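import Crest.Agent.R183.MxR

/-!
# rid 183, file `MxT`: the tower `D e`

`D e` is the localisation at the origin of `A[X_1, T, y_{<e}] / (ξ_e, r_{l,0}, …, r_{l,e})` with `y_e` set to zero.
Prefix helper lemmas with `mxt_`.
-/

set_option autoImplicit false

open IsLocalRing MvPolynomial

namespace Crest.Agent.R183

/-- The variables of level `≤ e`. -/
abbrev MxVe (L : Type) (e : ℕ) : Type := {s : MxV L // mxLev s ≤ e}

instance mxVe_finite (L : Type) [Finite L] (e : ℕ) : Finite (MxVe L e) := by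
  have : ({s : MxV L | mxLev s ≤ e}).Finite := by
    refine ((Set.finite_range (Sum.inl : Option L → MxV L)).union
      (((Set.finite_univ (α := L)).prod (Set.finite_Iio e)).image Sum.inr)).subset ?_
    rintro (s | ⟨l, i⟩) hs
    · exact Or.inl ⟨s, rfl⟩
    · exact Or.inr ⟨(l, i), ⟨trivial, hs⟩, rfl⟩
  exact this.to_subtype

namespace MixData

variable {p : ℕ} [Fact p.Prime] {A : Type} [CommRing A] [IsLocalRing A] {d : ℕ} {X' : Fin d → A}
  (m : MixData p A X') (Δ : DeltaS A p)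

/-- The relations at level `e`, indexed by the variables of level `≤ e`. -/
noncomputable def rel (e : ℕ) : MxV m.L → m.𝒜
  | .inl none => m.ξ e
  | .inl (some l) => m.r Δ l 0
  | .inr (l, i) => m.r Δ l (i + 1)

/-- Set the variables of level `> e` to zero. -/
noncomputable def kil (e : ℕ) : m.𝒜 →ₐ[A] MvPolynomial (MxVe m.L e) A := killCompl Subtype.val_injective

/-- The local ring of the origin at level `e`. -/
abbrev S (e : ℕ) : Type := Localization.AtPrime (mxM A (MxVe m.L e))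

/-- The map to the local ring. -/
noncomputable def πS (e : ℕ) : m.𝒜 →+* m.S e :=
  (algebraMap (MvPolynomial (MxVe m.L e) A) (m.S e)).comp (m.kil e).toRingHom

/-- The ideal of relations. -/
noncomputable def J (e : ℕ) : Ideal (m.S e) := Ideal.span (Set.range fun s : MxVe m.L e => m.πS e (m.rel Δ e s))

/-- The ring at level `e`. -/
def D (e : ℕ) : Type := m.S e ⧸ m.J Δ e

noncomputable instance (e : ℕ) : CommRing (m.D Δ e) := inferInstanceAs (CommRing (m.S e ⧸ m.J Δ e))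

/-- The projection. -/
noncomputable def π (e : ℕ) : m.𝒜 →+* m.D Δ e := (Ideal.Quotient.mk (m.J Δ e)).comp (m.πS e)

/-- The defining ideal upstairs. -/
noncomputable def I (e : ℕ) : Ideal m.𝒜 :=
  Ideal.span (m.rel Δ e '' {s | mxLev s ≤ e} ∪ X '' {s | e < mxLev s})

theorem mxt_kil_le {e : ℕ} {s : MxV m.L} (hs : mxLev s ≤ e) : m.kil e (X s) = X ⟨s, hs⟩ := by
  have := killCompl_rename_app (R := A) (Subtype.val_injective (p := fun s : MxV m.L => mxLev s ≤ e))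
    (X ⟨s, hs⟩)
  rwa [rename_X] at this

theorem mxt_kil_gt {e : ℕ} {s : MxV m.L} (hs : e < mxLev s) : m.kil e (X s) = 0 := by
  rw [kil, killCompl, aeval_X, dif_neg]
  rintro ⟨⟨s', h'⟩, rfl⟩
  exact absurd h' (not_le.2 hs)

theorem mxt_kil_rename (e : ℕ) (b : MvPolynomial (MxVe m.L e) A) :
    m.kil e (rename Subtype.val b) = b := killCompl_rename_app _ b

theorem mxt_rename_mem (e : ℕ) (b : MvPolynomial (MxVe m.L e) A) :
    (rename Subtype.val b : m.𝒜) ∈ mxSub A m.L e := by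
  rw [mxSub, supported_eq_range_rename]
  exact ⟨b, rfl⟩

/-- the retraction onto the polynomials of level `≤ e` -/
noncomputable def mxtρ (e : ℕ) : m.𝒜 →+* m.𝒜 :=
  ((rename Subtype.val : MvPolynomial (MxVe m.L e) A →ₐ[A] m.𝒜).comp (m.kil e)).toRingHom

theorem mxt_ρ_apply (e : ℕ) (a : m.𝒜) : m.mxtρ e a = rename Subtype.val (m.kil e a) := rfl

theorem mxt_ρ_of_mem {e : ℕ} {a : m.𝒜} (ha : a ∈ mxSub A m.L e) : m.mxtρ e a = a := by
  rw [mxSub, supported_eq_range_rename] at ha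
  obtain ⟨b, rfl⟩ := ha
  exact congrArg (rename Subtype.val) (m.mxt_kil_rename e b)

theorem mxt_ρ_gt {e : ℕ} {s : MxV m.L} (hs : e < mxLev s) : m.mxtρ e (X s) = 0 := by
  rw [mxt_ρ_apply, m.mxt_kil_gt hs, map_zero]

theorem mxt_X_mem {e : ℕ} {s : MxV m.L} (hs : mxLev s ≤ e) : (X s : m.𝒜) ∈ mxSub A m.L e :=
  X_mem_supported.2 hs

theorem mxt_sub_mono {e e' : ℕ} (h : e ≤ e') : mxSub A m.L e ≤ mxSub A m.L e' :=
  supported_mono fun _ hs => le_trans hs h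

theorem mxt_u_mem (e : ℕ) : m.u ∈ mxSub A m.L e := m.mxt_X_mem (Nat.zero_le e)

theorem mxt_ξ_mem (e i : ℕ) : m.ξ i ∈ mxSub A m.L e :=
  sub_mem (natCast_mem _ p) (pow_mem (m.mxt_u_mem e) _)

theorem mxt_ρ_r {e i : ℕ} (hi : i ≤ e) (l : m.L) : ∃ c, m.mxtρ e (m.r Δ l i) = m.r Δ l i - m.ξ e * c := by
  have h1 := m.mxt_ρ_of_mem (m.mxt_sub_mono hi (m.r_sub Δ l i))
  rw [map_sub, map_mul, m.mxt_ρ_of_mem (m.mxt_ξ_mem e i)] at h1
  rcases hi.lt_or_eq with hi | rfl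
  · rw [m.mxt_ρ_of_mem (a := m.y l i) (m.mxt_X_mem hi)] at h1
    exact ⟨0, by rw [mul_zero, sub_zero]; exact sub_left_inj.1 h1⟩
  · rw [y, m.mxt_ρ_gt (Nat.lt_succ_self _), mul_zero, sub_zero] at h1
    exact ⟨_, h1⟩

theorem mxt_rel_cases {e : ℕ} {s : MxV m.L} (hs : mxLev s ≤ e) :
    m.rel Δ e s = m.ξ e ∨ ∃ l, ∃ i ≤ e, m.rel Δ e s = m.r Δ l i := by
  rcases s with (_ | l) | ⟨l, i⟩
  · exact Or.inl rfl
  · exact Or.inr ⟨l, 0, Nat.zero_le _, rfl⟩
  · exact Or.inr ⟨l, i + 1, hs, rfl⟩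

theorem kil_mem_mxM (e : ℕ) (a : m.𝒜) : m.kil e a ∈ mxM A (MxVe m.L e) ↔ a ∈ mxM A (MxV m.L) := by
  have : (constantCoeff : MvPolynomial (MxVe m.L e) A →+* A).comp (m.kil e).toRingHom =
      constantCoeff := by
    refine MvPolynomial.ringHom_ext (fun r => ?_) fun s => ?_
    · simp
    · by_cases hs : mxLev s ≤ e
      · simp [m.mxt_kil_le hs]
      · simp [m.mxt_kil_gt (not_le.1 hs)]
  have h2 : constantCoeff (m.kil e a) = constantCoeff a := RingHom.congr_fun this a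
  simp only [mxM, Ideal.mem_comap, h2]

theorem sub_rename_kil_mem (e : ℕ) (a : m.𝒜) :
    a - rename Subtype.val (m.kil e a) ∈ Ideal.span (X '' {s : MxV m.L | e < mxLev s} : Set m.𝒜) := by
  rw [← Ideal.Quotient.eq]
  have : (Ideal.Quotient.mk (Ideal.span (X '' {s : MxV m.L | e < mxLev s} : Set m.𝒜))).comp
      (m.mxtρ e) = Ideal.Quotient.mk _ := by
    refine MvPolynomial.ringHom_ext (fun r => ?_) fun s => ?_
    · simp [mxt_ρ_apply]
    · by_cases hs : mxLev s ≤ e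
      · rw [RingHom.comp_apply, m.mxt_ρ_of_mem (m.mxt_X_mem hs)]
      · rw [RingHom.comp_apply, m.mxt_ρ_gt (not_le.1 hs), map_zero, eq_comm,
          Ideal.Quotient.eq_zero_iff_mem]
        exact Ideal.subset_span ⟨s, not_le.1 hs, rfl⟩
  exact (RingHom.congr_fun this a).symm

theorem π_eq_zero_iff (e : ℕ) (a : m.𝒜) : m.π Δ e a = 0 ↔ ∃ s, s ∉ mxM A (MxV m.L) ∧ s * a ∈ m.I Δ e := by
  have hJ : m.J Δ e = (Ideal.span (Set.range fun s : MxVe m.L e => m.kil e (m.rel Δ e s))).map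
      (algebraMap (MvPolynomial (MxVe m.L e) A) (m.S e)) := by
    rw [Ideal.map_span, ← Set.range_comp]
    rfl
  have h1 : m.π Δ e a = 0 ↔ algebraMap _ (m.S e) (m.kil e a) ∈ m.J Δ e :=
    Ideal.Quotient.eq_zero_iff_mem
  have h2 : ∀ b, b - m.mxtρ e b ∈ m.I Δ e := fun b =>
    Ideal.span_mono Set.subset_union_right (m.sub_rename_kil_mem e b)
  rw [h1, hJ, IsLocalization.algebraMap_mem_map_algebraMap_iff (mxM A (MxVe m.L e)).primeCompl]
  constructor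
  · rintro ⟨s, hs, h⟩
    refine ⟨rename Subtype.val s, by rwa [← m.kil_mem_mxM e, mxt_kil_rename], ?_⟩
    have h3 : (Ideal.span (Set.range fun s : MxVe m.L e => m.kil e (m.rel Δ e s))).map
        (rename Subtype.val : MvPolynomial (MxVe m.L e) A →ₐ[A] m.𝒜) ≤ m.I Δ e := by
      rw [Ideal.map_span, Ideal.span_le]
      rintro _ ⟨_, ⟨s, rfl⟩, rfl⟩
      have h4 : m.rel Δ e s ∈ m.I Δ e := Ideal.subset_span (Or.inl ⟨s, s.2, rfl⟩)
      have := sub_mem h4 (h2 (m.rel Δ e s))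
      rwa [sub_sub_cancel] at this
    have h4 := h3 (Ideal.mem_map_of_mem _ h)
    rw [map_mul] at h4
    have := add_mem h4 (Ideal.mul_mem_left _ (rename Subtype.val s) (h2 a))
    rwa [mxt_ρ_apply, ← mul_add, add_sub_cancel] at this
  · rintro ⟨s, hs, h⟩
    refine ⟨m.kil e s, by rwa [← m.kil_mem_mxM e] at hs, ?_⟩
    have h3 : (m.I Δ e).map (m.kil e) ≤
        Ideal.span (Set.range fun s : MxVe m.L e => m.kil e (m.rel Δ e s)) := by
      rw [I, Ideal.map_span, Ideal.span_le]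
      rintro _ ⟨_, ⟨s, hs, rfl⟩ | ⟨s, hs, rfl⟩, rfl⟩
      · exact Ideal.subset_span ⟨⟨s, hs⟩, rfl⟩
      · rw [m.mxt_kil_gt hs]
        exact zero_mem _
    rw [← map_mul]
    exact h3 (Ideal.mem_map_of_mem _ h)

theorem π_of_mem_I (e : ℕ) {a : m.𝒜} (ha : a ∈ m.I Δ e) : m.π Δ e a = 0 := by
  exact (m.π_eq_zero_iff Δ e a).2 ⟨1, (Ideal.ne_top_iff_one _).1 (mxM_isMaximal _ _).ne_top,
    by rwa [one_mul]⟩

theorem π_isUnit (e : ℕ) {s : m.𝒜} (hs : s ∉ mxM A (MxV m.L)) : IsUnit (m.π Δ e s) := by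
  have h : m.kil e s ∈ (mxM A (MxVe m.L e)).primeCompl := by rwa [← m.kil_mem_mxM e] at hs
  exact (IsLocalization.map_units (m.S e) ⟨_, h⟩).map (Ideal.Quotient.mk (m.J Δ e))

theorem π_frac (e : ℕ) (b : m.D Δ e) : ∃ a ∈ mxSub A m.L e, ∃ s ∈ mxSub A m.L e,
    s ∉ mxM A (MxV m.L) ∧ b * m.π Δ e s = m.π Δ e a := by
  obtain ⟨b, rfl⟩ := Ideal.Quotient.mk_surjective (I := m.J Δ e) b
  obtain ⟨⟨a, s, hs⟩, h⟩ := IsLocalization.surj (mxM A (MxVe m.L e)).primeCompl b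
  refine ⟨_, m.mxt_rename_mem e a, _, m.mxt_rename_mem e s,
    by rwa [← m.kil_mem_mxM e, mxt_kil_rename], ?_⟩
  have key : ∀ c, m.π Δ e (rename Subtype.val c) =
      Ideal.Quotient.mk (m.J Δ e) (algebraMap _ (m.S e) c) := fun c =>
    congrArg (fun x => Ideal.Quotient.mk (m.J Δ e) (algebraMap _ (m.S e) x)) (m.mxt_kil_rename e c)
  rw [key, key]
  exact congrArg (Ideal.Quotient.mk (m.J Δ e)) h

theorem π_ξ (e : ℕ) : m.π Δ e (m.ξ e) = 0 := by
  exact m.π_of_mem_I Δ e (Ideal.subset_span (Or.inl ⟨.inl none, Nat.zero_le e, rfl⟩))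

theorem π_r {e i : ℕ} (hi : i ≤ e) (l : m.L) : m.π Δ e (m.r Δ l i) = 0 := by
  cases i with
  | zero => exact m.π_of_mem_I Δ e (Ideal.subset_span (Or.inl ⟨.inl (some l), Nat.zero_le e, rfl⟩))
  | succ i => exact m.π_of_mem_I Δ e (Ideal.subset_span (Or.inl ⟨.inr (l, i), hi, rfl⟩))

theorem π_y {e i : ℕ} (hi : e ≤ i) (l : m.L) : m.π Δ e (m.y l i) = 0 := by
  exact m.π_of_mem_I Δ e (Ideal.subset_span (Or.inr ⟨.inr (l, i), Nat.lt_succ_of_le hi, rfl⟩))

theorem p_eq (e : ℕ) : (p : m.D Δ e) = m.π Δ e m.u ^ p ^ e := by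
  have := m.π_ξ Δ e
  rwa [ξ, map_sub, map_natCast, map_pow, sub_eq_zero] at this

/-- The universal property. -/
theorem exists_lift (e : ℕ) {B : Type} [CommRing B] (ψ : m.𝒜 →+* B)
    (hu : ∀ s, s ∉ mxM A (MxV m.L) → IsUnit (ψ s)) (h1 : ∀ s, mxLev s ≤ e → ψ (m.rel Δ e s) = 0)
    (h2 : ∀ s, e < mxLev s → ψ (X s) = 0) : ∃ g : m.D Δ e →+* B, ∀ a, g (m.π Δ e a) = ψ a := by
  let ψ' : MvPolynomial (MxVe m.L e) A →+* B :=
    ψ.comp (rename Subtype.val : MvPolynomial (MxVe m.L e) A →ₐ[A] m.𝒜).toRingHom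
  have h3 : ∀ a, ψ' (m.kil e a) = ψ a := fun a => by
    have h4 : Ideal.span (X '' {s : MxV m.L | e < mxLev s} : Set m.𝒜) ≤ RingHom.ker ψ := by
      rw [Ideal.span_le]
      rintro _ ⟨s, hs, rfl⟩
      exact h2 s hs
    have := h4 (m.sub_rename_kil_mem e a)
    rw [RingHom.mem_ker, map_sub, sub_eq_zero] at this
    exact this.symm
  have h4 : ∀ s : (mxM A (MxVe m.L e)).primeCompl, IsUnit (ψ' s) := fun s =>
    hu _ (by rw [← m.kil_mem_mxM e]; erw [mxt_kil_rename]; exact s.2)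
  let g : m.S e →+* B := IsLocalization.lift h4
  have h5 : ∀ a, g (m.πS e a) = ψ a := fun a => (IsLocalization.lift_eq h4 _).trans (h3 a)
  have h6 : m.J Δ e ≤ RingHom.ker g := by
    rw [J, Ideal.span_le]
    rintro _ ⟨s, rfl⟩
    exact (h5 _).trans (h1 s s.2)
  exact ⟨Ideal.Quotient.lift (m.J Δ e) g h6, h5⟩

theorem hom_ext (e : ℕ) {B : Type} [CommRing B] {g g' : m.D Δ e →+* B}
    (h : ∀ a ∈ mxSub A m.L e, g (m.π Δ e a) = g' (m.π Δ e a)) : g = g' := by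
  refine RingHom.ext fun b => ?_
  obtain ⟨a, ha, s, hs, hs', hb⟩ := m.π_frac Δ e b
  have h1 := congrArg g hb
  have h2 := congrArg g' hb
  rw [map_mul] at h1 h2
  rw [h a ha, ← h2, ← h s hs] at h1
  exact ((m.π_isUnit Δ e hs').map g).mul_right_cancel h1

variable {Δ}

theorem mxt_X_mxM (s : MxV m.L) : (X s : m.𝒜) ∈ mxM A (MxV m.L) := by
  simp [mxM]

theorem mxt_C_mxM (a : A) : (C a : m.𝒜) ∈ mxM A (MxV m.L) ↔ a ∈ maximalIdeal A := by
  rw [mxM, Ideal.mem_comap, constantCoeff_C]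

theorem mxt_p_mem (h : MBase p A X' Δ) : (p : m.𝒜) ∈ mxM A (MxV m.L) := by
  rw [mxM, Ideal.mem_comap, map_natCast, ← h.max]
  exact Ideal.subset_span ⟨0, rfl⟩

theorem mxt_unit (h : ∀ e, m.I Δ e ≤ mxM A (MxV m.L)) (e : ℕ) {a : m.𝒜} (ha : IsUnit (m.π Δ e a)) :
    a ∉ mxM A (MxV m.L) := by
  intro ha'
  obtain ⟨b, hb⟩ := ha.exists_right_inv
  obtain ⟨a', -, s, -, hs, h1⟩ := m.π_frac Δ e b
  have h2 : m.π Δ e (a * a' - s) = 0 := by
    rw [map_sub, map_mul, ← h1, ← mul_assoc, hb, one_mul, sub_self]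
  obtain ⟨s', hs', h3⟩ := (m.π_eq_zero_iff Δ e _).1 h2
  have h4 := ((mxM_isMaximal A (MxV m.L)).isPrime.mem_or_mem (h e h3)).resolve_left hs'
  have := sub_mem (Ideal.mul_mem_right a' _ ha') h4
  rw [sub_sub_cancel] at this
  exact hs this

theorem I_le (h : MBase p A X' Δ) (e : ℕ) : m.I Δ e ≤ mxM A (MxV m.L) := by
  rw [I, Ideal.span_le]
  rintro _ (⟨s, hs, rfl⟩ | ⟨s, -, rfl⟩)
  · rcases m.mxt_rel_cases Δ hs with h1 | ⟨l, i, -, h1⟩
    · rw [h1]
      exact sub_mem (m.mxt_p_mem h) (Ideal.pow_mem_of_mem _ (m.mxt_X_mxM _) _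
        (pow_pos (Fact.out : p.Prime).pos _))
    · rw [h1]
      exact m.r_mem_mxM Δ h l i
  · exact m.mxt_X_mxM s

theorem isLocalRing (h : MBase p A X' Δ) (e : ℕ) : IsLocalRing (m.D Δ e) := by
  have : Nontrivial (m.D Δ e) := by
    by_contra hn
    rw [not_nontrivial_iff_subsingleton] at hn
    exact m.mxt_unit (m.I_le h) e (a := 0) (isUnit_of_subsingleton _) (zero_mem _)
  exact IsLocalRing.of_surjective' (S := m.D Δ e) (Ideal.Quotient.mk (m.J Δ e))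
    Ideal.Quotient.mk_surjective

theorem isNoetherianRing (h : MBase p A X' Δ) (e : ℕ) : IsNoetherianRing (m.D Δ e) := by
  have := h.rb.noeth
  have : IsNoetherianRing (m.S e) :=
    IsLocalization.isNoetherianRing (mxM A (MxVe m.L e)).primeCompl _ inferInstance
  exact inferInstanceAs (IsNoetherianRing (m.S e ⧸ m.J Δ e))

theorem π_mem_iff (h : MBase p A X' Δ) (e : ℕ) [IsLocalRing (m.D Δ e)] (a : m.𝒜) :
    m.π Δ e a ∈ maximalIdeal (m.D Δ e) ↔ a ∈ mxM A (MxV m.L) := by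
  rw [mem_maximalIdeal, mem_nonunits_iff]
  exact ⟨fun h1 => by_contra fun h2 => h1 (m.π_isUnit Δ e h2),
    fun h1 h2 => m.mxt_unit (m.I_le h) e h2 h1⟩

theorem maximalIdeal_eq (h : MBase p A X' Δ) (e : ℕ) [IsLocalRing (m.D Δ e)] :
    maximalIdeal (m.D Δ e) = Ideal.span ({(p : m.D Δ e)} ∪ Set.range (fun i => m.π Δ e (C (X' i))) ∪
      (fun s => m.π Δ e (X s)) '' {s | mxLev s ≤ e}) := by
  refine le_antisymm (fun b hb => ?_) ?_
  · obtain ⟨a, -, s, -, hs, h1⟩ := m.π_frac Δ e b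
    rw [← Ideal.mul_unit_mem_iff_mem _ (m.π_isUnit Δ e hs), h1]
    have ha : a ∈ mxM A (MxV m.L) := (m.π_mem_iff h e a).1 (h1 ▸ Ideal.mul_mem_right _ _ hb)
    set K : Ideal (m.D Δ e) := Ideal.span ({(p : m.D Δ e)} ∪
      Set.range (fun i => m.π Δ e (C (X' i))) ∪ (fun s => m.π Δ e (X s)) '' {s | mxLev s ≤ e})
    have h2 : (Ideal.Quotient.mk K).comp (m.π Δ e) =
        ((Ideal.Quotient.mk K).comp ((m.π Δ e).comp C)).comp constantCoeff := by
      refine MvPolynomial.ringHom_ext (fun r => by simp) fun s => ?_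
      simp only [RingHom.comp_apply, constantCoeff_X, map_zero, Ideal.Quotient.eq_zero_iff_mem]
      by_cases hs : mxLev s ≤ e
      · exact Ideal.subset_span (Or.inr ⟨s, hs, rfl⟩)
      · rw [m.π_of_mem_I Δ e (Ideal.subset_span (Or.inr ⟨s, not_le.1 hs, rfl⟩))]
        exact zero_mem _
    have h3 : maximalIdeal A ≤ K.comap ((m.π Δ e).comp C) := by
      rw [← h.max, idl, Ideal.span_le]
      rintro _ ⟨i, rfl⟩
      refine Fin.cases ?_ (fun i => ?_) i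
      · simp only [Fin.cons_zero, SetLike.mem_coe, Ideal.mem_comap, map_natCast]
        exact Ideal.subset_span (Or.inl (Or.inl rfl))
      · exact Ideal.subset_span (Or.inl (Or.inr ⟨i, rfl⟩))
    rw [← Ideal.Quotient.eq_zero_iff_mem]
    exact (RingHom.congr_fun h2 a).trans (Ideal.Quotient.eq_zero_iff_mem.2 (h3 ha))
  · rw [Ideal.span_le]
    rintro _ ((rfl | ⟨i, rfl⟩) | ⟨s, -, rfl⟩)
    · rw [← map_natCast (m.π Δ e)]
      exact (m.π_mem_iff h e _).2 (m.mxt_p_mem h)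
    · refine (m.π_mem_iff h e _).2 ((m.mxt_C_mxM _).2 ?_)
      rw [← h.max]
      exact Ideal.subset_span ⟨i.succ, rfl⟩
    · exact (m.π_mem_iff h e _).2 (m.mxt_X_mxM s)

theorem sameRes_C (h : MBase p A X' Δ) (e : ℕ) [IsLocalRing (m.D Δ e)] :
    SameRes ((m.π Δ e).comp (C : A →+* m.𝒜)) := by
  intro b
  obtain ⟨a, -, s, -, hs, h1⟩ := m.π_frac Δ e b
  have hs0 : IsUnit (constantCoeff s) := by
    by_contra h2
    exact hs h2
  obtain ⟨v, hv⟩ := hs0.exists_left_inv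
  refine ⟨constantCoeff a * v, ?_⟩
  rw [← Ideal.mul_unit_mem_iff_mem _ (m.π_isUnit Δ e hs), sub_mul, h1, RingHom.comp_apply, ← map_mul,
    ← map_sub, m.π_mem_iff h, mxM, Ideal.mem_comap, map_sub, map_mul, constantCoeff_C, mul_assoc, hv,
    mul_one, sub_self]
  exact zero_mem _

/-- The transition map, induced by `φ ∘ rename ∘ kil e`.  On relations: `φ ξ_e = ξ_{e+1}`,
`φ r_i = r_i^p + p r_{i+1}`; for `i < e`, `r_i` has level `≤ e`; for `i = e` the killed relation is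
`G = r_e - ξ_e y_e`, and `φ G = φ r_e - ξ_{e+1} φ y_e`. -/
theorem exists_Φ (h : MBase p A X' Δ) (e : ℕ) : ∃ Φ : m.D Δ e →+* m.D Δ (e + 1),
    ∀ a ∈ mxSub A m.L e, Φ (m.π Δ e a) = m.π Δ (e + 1) ((m.Δ' Δ).φ a) := by
  obtain ⟨g, hg⟩ := m.exists_lift Δ e (((m.π Δ (e + 1)).comp (m.Δ' Δ).φ).comp (m.mxtρ e))
    (fun s hs => by
      rw [RingHom.comp_apply, RingHom.comp_apply]
      refine m.π_isUnit Δ _ ?_
      rwa [m.φ_mem_mxM Δ h, mxt_ρ_apply, ← m.kil_mem_mxM e, mxt_kil_rename, m.kil_mem_mxM e])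
    (fun s hs => by
      simp only [RingHom.comp_apply]
      rcases m.mxt_rel_cases Δ hs with h1 | ⟨l, i, hi, h1⟩
      · rw [h1, m.mxt_ρ_of_mem (m.mxt_ξ_mem e e), φ_ξ, π_ξ]
      · obtain ⟨c, hc⟩ := m.mxt_ρ_r Δ hi l
        have h2 : m.π Δ (e + 1) ((m.Δ' Δ).δ (m.r Δ l i)) = 0 := m.π_r Δ (Nat.succ_le_succ hi) l
        have h3 : m.π Δ (e + 1) ((m.Δ' Δ).φ (m.r Δ l i)) = 0 := by
          rw [(m.Δ' Δ).spec, map_add, map_mul, map_pow, h2, m.π_r Δ (Nat.le_succ_of_le hi),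
            zero_pow (Fact.out : p.Prime).ne_zero, mul_zero, add_zero]
        rw [h1, hc, map_sub, map_mul, φ_ξ, map_sub, map_mul, π_ξ, h3, zero_mul, sub_zero])
    (fun s hs => by rw [RingHom.comp_apply, m.mxt_ρ_gt hs, map_zero])
  exact ⟨g, fun a ha => by rw [hg, RingHom.comp_apply, m.mxt_ρ_of_mem ha, RingHom.comp_apply]⟩

/-- The transition map. -/
noncomputable def Φ (h : MBase p A X' Δ) (e : ℕ) : m.D Δ e →+* m.D Δ (e + 1) := Classical.choose (m.exists_Φ h e)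

theorem Φ_π (h : MBase p A X' Δ) (e : ℕ) {a : m.𝒜} (ha : a ∈ mxSub A m.L e) :
    m.Φ h e (m.π Δ e a) = m.π Δ (e + 1) ((m.Δ' Δ).φ a) := Classical.choose_spec (m.exists_Φ h e) a ha

/-- The composite transition maps. -/
noncomputable def tr (h : MBase p A X' Δ) {e e' : ℕ} (he : e ≤ e') : m.D Δ e →+* m.D Δ e' :=
  Nat.leRec (motive := fun e' _ => m.D Δ e →+* m.D Δ e') (RingHom.id _) (fun k _ g => (m.Φ h k).comp g) he

theorem tr_self (h : MBase p A X' Δ) (e : ℕ) : m.tr h (le_refl e) = RingHom.id _ := by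
  exact Nat.leRec_self ..

theorem tr_succ (h : MBase p A X' Δ) {e e' : ℕ} (he : e ≤ e') :
    m.tr h (Nat.le_succ_of_le he) = (m.Φ h e').comp (m.tr h he) := by
  exact Nat.leRec_succ ..

theorem tr_trans (h : MBase p A X' Δ) {e e' e'' : ℕ} (he : e ≤ e') (he' : e' ≤ e'') :
    m.tr h (he.trans he') = (m.tr h he').comp (m.tr h he) := by
  induction e'', he' using Nat.le_induction with
  | base => rw [tr_self, RingHom.id_comp]
  | succ k hk ih => rw [m.tr_succ h hk, RingHom.comp_assoc, ← ih, m.tr_succ h (he.trans hk)]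

theorem mxt_φ_pow_mem {e : ℕ} {a : m.𝒜} (ha : a ∈ mxSub A m.L e) (k : ℕ) :
    ((m.Δ' Δ).φ ^ k) a ∈ mxSub A m.L (e + k) := by
  induction k with
  | zero => exact ha
  | succ k ih =>
    rw [pow_succ']
    exact m.φ_mem_sub Δ ih

theorem tr_π (h : MBase p A X' Δ) {e e' : ℕ} (he : e ≤ e') {a : m.𝒜} (ha : a ∈ mxSub A m.L e) :
    m.tr h he (m.π Δ e a) = m.π Δ e' (((m.Δ' Δ).φ ^ (e' - e)) a) := by
  induction e', he using Nat.le_induction with
  | base => rw [tr_self, Nat.sub_self, pow_zero]; rfl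
  | succ k hk ih =>
    have h1 := m.mxt_φ_pow_mem (Δ := Δ) ha (k - e)
    rw [Nat.add_sub_cancel' hk] at h1
    rw [m.tr_succ h hk, RingHom.comp_apply, ih, m.Φ_π h k h1, Nat.succ_sub hk, pow_succ']
    rfl

theorem tr_inl (h : MBase p A X' Δ) {e e' : ℕ} (he : e ≤ e') (v : Option m.L) :
    m.tr h he (m.π Δ e (X (.inl v))) = m.π Δ e' (X (.inl v)) ^ p ^ (e' - e) := by
  have key : ∀ k, ((m.Δ' Δ).φ ^ k) (X (.inl v)) = X (.inl v) ^ p ^ k := fun k => by
    induction k with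
    | zero => rw [pow_zero, pow_zero, pow_one]; rfl
    | succ k ih =>
      rw [pow_succ', RingHom.mul_def, RingHom.comp_apply, ih, map_pow, φ_inl, ← pow_mul, ← pow_succ']
  rw [m.tr_π h he (m.mxt_X_mem (s := .inl v) (Nat.zero_le e)), key, map_pow]

theorem tr_C (h : MBase p A X' Δ) {e e' : ℕ} (he : e ≤ e') (a : A) :
    m.tr h he (m.π Δ e (C a)) = m.π Δ e' (C ((Δ.φ ^ (e' - e)) a)) := by
  have key : ∀ k, ((m.Δ' Δ).φ ^ k) (C a) = C ((Δ.φ ^ k) a) := fun k => by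
    induction k with
    | zero => rfl
    | succ k ih =>
      rw [pow_succ', RingHom.mul_def, RingHom.comp_apply, ih, φ_C, pow_succ', RingHom.mul_def,
        RingHom.comp_apply]
  rw [m.tr_π h he (a := C a) (Subalgebra.algebraMap_mem _ a), key]

theorem tr_local (h : MBase p A X' Δ) {e e' : ℕ} (he : e ≤ e') : IsLocalHom (m.tr h he) := by
  induction e', he using Nat.le_induction with
  | base => rw [tr_self]; infer_instance
  | succ k hk ih =>
    rw [m.tr_succ h hk]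
    have : IsLocalHom (m.Φ h k) := ⟨fun b hb => by
      obtain ⟨a, ha, s, hs, hs', h1⟩ := m.π_frac Δ k b
      have h2 := hb.mul ((m.π_isUnit Δ k hs').map (m.Φ h k))
      rw [← map_mul, h1, m.Φ_π h k ha] at h2
      have h3 := m.mxt_unit (m.I_le h) _ h2
      rw [m.φ_mem_mxM Δ h] at h3
      have h4 := m.π_isUnit Δ k h3
      rw [← h1] at h4
      exact isUnit_of_mul_isUnit_left h4⟩
    exact RingHom.isLocalHom_comp _ _

theorem tr_sameRes (h : MBase p A X' Δ) {e e' : ℕ} (he : e ≤ e') [IsLocalRing (m.D Δ e')] :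
    SameRes (m.tr h he) := by
  intro b
  obtain ⟨c, hc⟩ := m.sameRes_C h e' b
  obtain ⟨c', hc'⟩ := h.φ_pow_res (e' - e) c
  refine ⟨m.π Δ e (C c'), ?_⟩
  have := add_mem hc ((m.π_mem_iff h e' _).2 ((m.mxt_C_mxM _).2 hc'))
  rwa [RingHom.comp_apply, map_sub, map_sub, sub_add_sub_cancel, ← m.tr_C h he] at this

/-- Root closedness.  Write `b π s = π a`.  Then `s' (a^p - u^j c) ∈ I e` with everything of level `≤ e`, and `π (e+1)`
maps `I e ⊓ level ≤ e` into `(u^(p^e))`: apply `rename ∘ kil e` to see that this intersection is generated by `ξ_e`, the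
`r_i` (`i < e`) and `r_e - ξ_e y_e`; `π (e+1) ξ_e = u^(p^(e+1)) - u^(p^e)`.  Finally `φ a = a^p + p δ a`. -/
theorem root_closed (h : MBase p A X' Δ) {e j : ℕ} (hj : j ≤ p ^ e) {b : m.D Δ e}
    (hb : b ^ p ∈ Ideal.span {m.π Δ e m.u ^ j}) : m.Φ h e b ∈ Ideal.span {m.π Δ (e + 1) m.u ^ j} := by
  obtain ⟨a, ha, s, hs, hs', h1⟩ := m.π_frac Δ e b
  obtain ⟨c', hc'⟩ := Ideal.mem_span_singleton'.1 hb
  obtain ⟨c, hc, t, ht, ht', h2⟩ := m.π_frac Δ e c'
  have hpos : 0 < p := (Fact.out : p.Prime).pos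
  set K : Ideal (m.D Δ (e + 1)) := Ideal.span {m.π Δ (e + 1) m.u ^ j} with hK
  have hu : ∀ k, j ≤ k → m.π Δ (e + 1) m.u ^ k ∈ K := fun k hk =>
    Ideal.mem_span_singleton.2 (pow_dvd_pow _ hk)
  have hp : (p : m.D Δ (e + 1)) ∈ K := by
    rw [p_eq]
    exact hu _ (hj.trans (Nat.pow_le_pow_right hpos (Nat.le_succ e)))
  have hξ : m.π Δ (e + 1) (m.ξ e) ∈ K := by
    rw [ξ, map_sub, map_natCast, map_pow]
    exact sub_mem hp (hu _ hj)
  have h3 : m.π Δ e (a ^ p * t - c * m.u ^ j * s ^ p) = 0 := by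
    simp only [map_sub, map_mul, map_pow]
    rw [← h1, ← h2, mul_pow, ← hc']
    ring
  obtain ⟨s', hs'', h4⟩ := (m.π_eq_zero_iff Δ e _).1 h3
  have h5 : m.I Δ e ≤ K.comap ((m.π Δ (e + 1)).comp (m.mxtρ e)) := by
    rw [I, Ideal.span_le]
    rintro _ (⟨v, hv, rfl⟩ | ⟨v, hv, rfl⟩)
    · simp only [SetLike.mem_coe, Ideal.mem_comap, RingHom.comp_apply]
      rcases m.mxt_rel_cases Δ hv with h6 | ⟨l, i, hi, h6⟩
      · rwa [h6, m.mxt_ρ_of_mem (m.mxt_ξ_mem e e)]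
      · obtain ⟨c, hc⟩ := m.mxt_ρ_r Δ hi l
        rw [h6, hc, map_sub, map_mul, m.π_r Δ (Nat.le_succ_of_le hi)]
        exact sub_mem (zero_mem _) (Ideal.mul_mem_right _ _ hξ)
    · simp only [SetLike.mem_coe, Ideal.mem_comap, RingHom.comp_apply]
      rw [m.mxt_ρ_gt hv, map_zero]
      exact zero_mem _
  have h6 := h5 h4
  have h7 : m.mxtρ e s' ∉ mxM A (MxV m.L) := by
    rwa [mxt_ρ_apply, ← m.kil_mem_mxM e, mxt_kil_rename, m.kil_mem_mxM e]
  rw [Ideal.mem_comap, RingHom.comp_apply, map_mul, m.mxt_ρ_of_mem (sub_mem (mul_mem (pow_mem ha p) ht)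
    (mul_mem (mul_mem hc (pow_mem (m.mxt_u_mem e) j)) (pow_mem hs p))), map_mul,
    Ideal.unit_mul_mem_iff_mem _ (m.π_isUnit Δ _ h7)] at h6
  simp only [map_sub, map_mul, map_pow] at h6
  have h8 := add_mem h6 (Ideal.mul_mem_right (m.π Δ (e + 1) s ^ p) _
    (Ideal.mul_mem_left _ (m.π Δ (e + 1) c) (hu j le_rfl)))
  rw [sub_add_cancel, Ideal.mul_unit_mem_iff_mem _ (m.π_isUnit Δ _ ht')] at h8
  rw [← Ideal.mul_unit_mem_iff_mem _ ((m.π_isUnit Δ e hs').map (m.Φ h e)), ← map_mul, h1,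
    m.Φ_π h e ha, (m.Δ' Δ).spec, map_add, map_mul, map_pow, map_natCast]
  exact add_mem h8 (Ideal.mul_mem_right _ _ hp)

end MixData

end Crest.Agent.R183
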