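import Crest.Agent.R183.Dat
import Crest.Agent.R183.Sand

/-!
# rid 183, file `Plus`: construction of the ring `B⁺`

Prefix helper lemmas with `pl_`.
-/

set_option autoImplicit false

namespace Crest.Agent.R183

section fil

variable {Λ N L : Type} [CommRing Λ] [CommRing N] [Algebra Λ N] [CommRing L] [Algebra N L] {n : ℕ}

/-- The filtration of `L = N[1 / δ]` by the order along `(X)`, where `δ` has order `o`. -/
def filL (N L : Type) [CommRing N] [Algebra Λ N] [CommRing L] [Algebra N L] (X : Fin n → Λ) (δ : Λ)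
    (o j : ℕ) : Set L :=
  {w | ∃ i : ℕ, ∃ v ∈ (idl X ^ (j + i * o)).map (algebraMap Λ N),
    algebraMap N L (algebraMap Λ N δ) ^ i * w = algebraMap N L v}

variable {X : Fin n → Λ} {δ : Λ} {o : ℕ}

theorem pl_mem_map {J : Ideal Λ} {v : N} : v ∈ J.map (algebraMap Λ N) ↔ v ∈ ism J N := by
  rw [ism, Ideal.smul_top_eq_map, Submodule.restrictScalars_mem]

theorem pl_map_mul {I : Ideal Λ} {a b : ℕ} {v w : N} (hv : v ∈ (I ^ a).map (algebraMap Λ N))
    (hw : w ∈ (I ^ b).map (algebraMap Λ N)) : v * w ∈ (I ^ (a + b)).map (algebraMap Λ N) := by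
  rw [pow_add, Ideal.map_mul]
  exact Ideal.mul_mem_mul hv hw

theorem pl_map_anti {I : Ideal Λ} {a b : ℕ} (h : a ≤ b) {v : N} (hv : v ∈ (I ^ b).map (algebraMap Λ N)) :
    v ∈ (I ^ a).map (algebraMap Λ N) :=
  Ideal.map_mono (Ideal.pow_le_pow_right h) hv

theorem pl_map_zero (I : Ideal Λ) (v : N) : v ∈ (I ^ 0).map (algebraMap Λ N) := by
  rw [pow_zero, Ideal.one_eq_top, Ideal.map_top]
  exact Submodule.mem_top

theorem pl_pow_mem {I : Ideal Λ} (hδ : δ ∈ I ^ o) (i : ℕ) :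
    algebraMap Λ N δ ^ i ∈ (I ^ (i * o)).map (algebraMap Λ N) := by
  rw [← map_pow, mul_comm, pow_mul]
  exact Ideal.mem_map_of_mem _ (Ideal.pow_mem_pow hδ i)

theorem filL_add (hδ : δ ∈ idl X ^ o) {j : ℕ} {w w' : L} (h : w ∈ filL N L X δ o j) (h' : w' ∈ filL N L X δ o j) :
    w + w' ∈ filL N L X δ o j := by
  obtain ⟨i, v, hv, e⟩ := h
  obtain ⟨i', v', hv', e'⟩ := h'
  refine ⟨i + i', algebraMap Λ N δ ^ i' * v + algebraMap Λ N δ ^ i * v', Ideal.add_mem _ ?_ ?_, ?_⟩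
  · have := pl_map_mul (pl_pow_mem (N := N) hδ i') hv
    rwa [show i' * o + (j + i * o) = j + (i + i') * o by ring] at this
  · have := pl_map_mul (pl_pow_mem (N := N) hδ i) hv'
    rwa [show i * o + (j + i' * o) = j + (i + i') * o by ring] at this
  · simp only [map_add, map_mul, map_pow, ← e, ← e']
    ring

theorem filL_mul {j j' : ℕ} {w w' : L} (h : w ∈ filL N L X δ o j) (h' : w' ∈ filL N L X δ o j') :
    w * w' ∈ filL N L X δ o (j + j') := by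
  obtain ⟨i, v, hv, e⟩ := h
  obtain ⟨i', v', hv', e'⟩ := h'
  refine ⟨i + i', v * v', ?_, ?_⟩
  · have := pl_map_mul hv hv'
    rwa [show j + i * o + (j' + i' * o) = j + j' + (i + i') * o by ring] at this
  · simp only [map_mul, ← e, ← e']
    ring

theorem filL_anti {j j' : ℕ} (hj : j ≤ j') {w : L} (h : w ∈ filL N L X δ o j') : w ∈ filL N L X δ o j := by
  obtain ⟨i, v, hv, e⟩ := h
  exact ⟨i, v, pl_map_anti (by omega) hv, e⟩

theorem filL_algebraMap {j : ℕ} {v : N} (h : v ∈ (idl X ^ j).map (algebraMap Λ N)) :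
    algebraMap N L v ∈ filL N L X δ o j :=
  ⟨0, v, by rwa [zero_mul, add_zero], by rw [pow_zero, one_mul]⟩

theorem filL_div {j i : ℕ} {w : L}
    (h : algebraMap N L (algebraMap Λ N δ) ^ i * w ∈ filL N L X δ o (j + i * o)) : w ∈ filL N L X δ o j := by
  obtain ⟨i', v, hv, e⟩ := h
  refine ⟨i + i', v, by rwa [show j + (i + i') * o = j + i * o + i' * o by ring], ?_⟩
  rw [← e]
  ring

/-- In coordinates for a basis of `N`: `ord_pow`, `mem_pow_of_mul_mem`. -/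
theorem mem_of_filL [Module.Free Λ N] (hX : Reg X Λ) (hp : (idl X).IsPrime) (hδ : δ ∉ idl X ^ (o + 1))
    (hinj : Function.Injective (algebraMap N L)) {j : ℕ} {v : N} (h : algebraMap N L v ∈ filL N L X δ o j) :
    v ∈ (idl X ^ j).map (algebraMap Λ N) := by
  obtain ⟨i, v', hv', e⟩ := h
  rw [← map_pow, ← map_mul] at e
  have e1 := hinj e
  rw [← e1, ← map_pow, ← Algebra.smul_def, pl_mem_map] at hv'
  rw [pl_mem_map]
  let b := Module.Free.chooseBasis Λ N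
  rw [← b.linearCombination_repr v, Finsupp.linearCombination_apply]
  refine Submodule.finsuppSum_mem _ _ _ _ fun l _ => rg_smul_mem ?_ _
  have h1 := rg2_mem_self.mp (ln_mem_ism (b.coord l) hv')
  rw [map_smul, smul_eq_mul, Module.Basis.coord_apply] at h1
  have := mem_pow_of_mul_mem hX hp (ord_pow hX hp hδ i) h1
  rwa [Nat.add_sub_cancel] at this

theorem pl_lift {U V W : Type} [AddCommGroup U] [Module Λ U] [AddCommGroup V] [Module Λ V] [AddCommGroup W]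
    [Module Λ W] (φ : U →ₗ[Λ] W) (hφ : Function.Injective φ) (ψ : V →ₗ[Λ] W)
    (h : ∀ v, ψ v ∈ LinearMap.range φ) : ∃ τ : V →ₗ[Λ] U, ∀ v, φ (τ v) = ψ v :=
  ⟨(LinearEquiv.ofInjective φ hφ).symm.toLinearMap ∘ₗ LinearMap.codRestrict _ _ h, fun v =>
    congrArg Subtype.val ((LinearEquiv.ofInjective φ hφ).apply_symm_apply ⟨_, h v⟩)⟩

theorem pl_fil0 (v : N) : algebraMap N L v ∈ filL N L X δ o 0 := filL_algebraMap (pl_map_zero _ v)

theorem pl_fil_d (hδ : δ ∈ idl X ^ o) (i : ℕ) :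
    algebraMap N L (algebraMap Λ N δ) ^ i ∈ filL N L X δ o (i * o) := by
  rw [← map_pow]
  exact filL_algebraMap (pl_pow_mem hδ i)

variable [Algebra Λ L] [IsScalarTower Λ N L]

/-- `filL` as a submodule. -/
def plF (N L : Type) [CommRing N] [Algebra Λ N] [CommRing L] [Algebra N L] [Algebra Λ L] [IsScalarTower Λ N L]
    (hδ : δ ∈ idl X ^ o) (j : ℕ) : Submodule Λ L where
  carrier := filL N L X δ o j
  add_mem' := filL_add hδ
  zero_mem' := by
    have := filL_algebraMap (L := L) (δ := δ) (o := o) (Ideal.zero_mem ((idl X ^ j).map (algebraMap Λ N)))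
    rwa [map_zero] at this
  smul_mem' c w hw := by
    have := filL_mul (pl_fil0 (algebraMap Λ N c)) hw
    rwa [zero_add, ← IsScalarTower.algebraMap_apply, ← Algebra.smul_def] at this

theorem pl_mem_F {hδ : δ ∈ idl X ^ o} {j : ℕ} {w : L} : w ∈ plF N L hδ j ↔ w ∈ filL N L X δ o j := Iff.rfl

theorem pl_smul_d (i : ℕ) (w : L) : δ ^ i • w = algebraMap N L (algebraMap Λ N δ) ^ i * w := by
  rw [Algebra.smul_def, map_pow, ← IsScalarTower.algebraMap_apply]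

theorem pl_tau (hδ : δ ∈ idl X ^ o)
    (hN : ∀ (j : ℕ) (v : N), algebraMap N L v ∈ filL N L X δ o j → v ∈ (idl X ^ j).map (algebraMap Λ N))
    (B : Subalgebra Λ L) {m j : ℕ}
    (hB : ∀ b ∈ B, ∃ v : N, δ ^ m • b - algebraMap N L v ∈ filL N L X δ o j) :
    ∃ τ : B →ₗ[Λ] N ⧸ ism (idl X ^ j) N, ∀ (b : B) (v : N),
      τ b = Submodule.Quotient.mk v ↔ δ ^ m • (b : L) - algebraMap N L v ∈ filL N L X δ o j := by
  let φ : (N ⧸ ism (idl X ^ j) N) →ₗ[Λ] L ⧸ plF N L hδ j :=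
    (ism (idl X ^ j) N).mapQ (plF N L hδ j) (IsScalarTower.toAlgHom Λ N L).toLinearMap
      fun v hv => filL_algebraMap (pl_mem_map.mpr hv)
  have hφ' : ∀ v : N, φ (Submodule.Quotient.mk v) = Submodule.Quotient.mk (algebraMap N L v) := fun v => rfl
  have hφ : Function.Injective φ := by
    rw [injective_iff_map_eq_zero]
    intro x hx
    obtain ⟨v, rfl⟩ := Submodule.Quotient.mk_surjective _ x
    rw [hφ', Submodule.Quotient.mk_eq_zero] at hx
    rw [Submodule.Quotient.mk_eq_zero]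
    exact pl_mem_map.mp (hN j v hx)
  let ψ : B →ₗ[Λ] L ⧸ plF N L hδ j := (plF N L hδ j).mkQ ∘ₗ (δ ^ m • B.val.toLinearMap)
  have hψ : ∀ b : B, ψ b = Submodule.Quotient.mk (δ ^ m • (b : L)) := fun b => rfl
  obtain ⟨τ, hτ⟩ := pl_lift φ hφ ψ fun b => by
    obtain ⟨v, hv⟩ := hB b b.2
    refine ⟨Submodule.Quotient.mk v, ?_⟩
    rw [hφ', hψ, eq_comm, Submodule.Quotient.eq]
    exact hv
  refine ⟨τ, fun b v => ?_⟩
  rw [← hφ.eq_iff, hτ, hφ', hψ, Submodule.Quotient.eq]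
  rfl

theorem pl_core (hδ : δ ∈ idl X ^ o)
    (hN : ∀ (j : ℕ) (v : N), algebraMap N L v ∈ filL N L X δ o j → v ∈ (idl X ^ j).map (algebraMap Λ N))
    (B : Subalgebra Λ L) (ιN : N →ₐ[Λ] B) (hι : ∀ v, (ιN v : L) = algebraMap N L v) {K m n' : ℕ}
    (hA : ∀ b ∈ B, δ ^ K • b ∈ filL N L X δ o 0)
    (hB : ∀ b ∈ B, ∃ v : N, δ ^ m • b - algebraMap N L v ∈ filL N L X δ o (n' + (m + K) * o)) :
    ∃ 𝔍 : Ideal B, (idl X ^ (n' + K * o)).map (algebraMap Λ B) ≤ 𝔍 ∧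
      (∃ (β : (B ⧸ 𝔍) →ₗ[Λ] N ⧸ ism (idl X ^ n') N) (ι : (N ⧸ ism (idl X ^ n') N) →ₗ[Λ] B ⧸ 𝔍),
        (∀ b, ι (β b) = δ ^ (m + K) • b) ∧ ∀ v, β (ι v) = δ ^ (m + K) • v) ∧
      colen Λ (LinearMap.range ((Ideal.Quotient.mkₐ Λ 𝔍).comp ιN).toLinearMap) ≤
        colen Λ (ism (idl X ^ (n' + (m + K) * o) ⊔ Ideal.span {δ ^ m}) N) := by
  let 𝔍 : Ideal B :=
    { carrier := {b | ∀ b' : B, (b : L) * b' ∈ filL N L X δ o n'}
      add_mem' := fun {a b} ha hb b' => by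
        rw [Subalgebra.coe_add, add_mul]
        exact filL_add hδ (ha b') (hb b')
      zero_mem' := fun b' => by
        rw [Subalgebra.coe_zero, zero_mul]
        exact (plF N L hδ n').zero_mem
      smul_mem' := fun c b hb b' => by
        have := hb (c * b')
        rwa [smul_eq_mul, Subalgebra.coe_mul, mul_comm (c : L), mul_assoc, ← Subalgebra.coe_mul] }
  have m𝔍 : ∀ b : B, b ∈ 𝔍 ↔ ∀ b' : B, (b : L) * b' ∈ filL N L X δ o n' := fun b => Iff.rfl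
  have hK : ∀ b : B, (b : L) ∈ filL N L X δ o (n' + K * o) → b ∈ 𝔍 := fun b hb b' => by
    refine filL_div (i := K) ?_
    have := filL_mul hb (hA b' b'.2)
    rwa [add_zero, pl_smul_d (N := N), mul_left_comm] at this
  have hK' : ∀ b : B, (b : L) ∈ filL N L X δ o n' → ∀ b' : B, b' = δ ^ K • b → b' ∈ 𝔍 := by
    rintro b hb _ rfl b'
    have := filL_mul hb (hA b' b'.2)
    rwa [add_zero, mul_smul_comm, ← smul_mul_assoc] at this
  refine ⟨𝔍, ?_, ?_, ?_⟩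
  · rw [Ideal.map_le_iff_le_comap]
    intro x hx
    refine hK _ ?_
    have := filL_algebraMap (L := L) (δ := δ) (o := o) (Ideal.mem_map_of_mem (algebraMap Λ N) hx)
    rwa [← IsScalarTower.algebraMap_apply] at this
  · obtain ⟨τ, hτ⟩ := pl_tau hδ hN B (m := m) (j := n') fun b hb => by
      obtain ⟨v, hv⟩ := hB b hb
      exact ⟨v, filL_anti (Nat.le_add_right _ _) hv⟩
    let β : (B ⧸ 𝔍) →ₗ[Λ] N ⧸ ism (idl X ^ n') N :=
      ((𝔍.restrictScalars Λ).liftQ τ fun b hb => by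
        rw [LinearMap.mem_ker, ← Submodule.Quotient.mk_zero, hτ, map_zero, sub_zero]
        have := (m𝔍 b).mp hb 1
        rw [Subalgebra.coe_one, mul_one] at this
        exact (plF N L hδ n').smul_mem _ this) ∘ₗ (Submodule.Quotient.restrictScalarsEquiv Λ 𝔍).symm.toLinearMap
    have hβ : ∀ b : B, β (Ideal.Quotient.mk 𝔍 b) = τ b := fun b => rfl
    let ι : (N ⧸ ism (idl X ^ n') N) →ₗ[Λ] B ⧸ 𝔍 :=
      (ism (idl X ^ n') N).liftQ (δ ^ K • ((Ideal.Quotient.mkₐ Λ 𝔍).comp ιN).toLinearMap) fun v hv => by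
        rw [LinearMap.mem_ker, LinearMap.smul_apply, AlgHom.toLinearMap_apply, AlgHom.comp_apply, ← map_smul,
          Ideal.Quotient.mkₐ_eq_mk, Ideal.Quotient.eq_zero_iff_mem]
        refine hK' (ιN v) ?_ _ rfl
        rw [hι]
        exact filL_algebraMap (pl_mem_map.mpr hv)
    have hι' : ∀ v : N, ι (Submodule.Quotient.mk v) = Ideal.Quotient.mk 𝔍 (δ ^ K • ιN v) := fun v => rfl
    refine ⟨β, ι, fun b => ?_, fun v => ?_⟩
    · obtain ⟨b, rfl⟩ := Ideal.Quotient.mk_surjective b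
      obtain ⟨v, hv⟩ := Submodule.Quotient.mk_surjective _ (τ b)
      rw [hβ, ← hv, hι', eq_comm]
      change Ideal.Quotient.mk 𝔍 (δ ^ (m + K) • b) = _
      rw [Ideal.Quotient.eq]
      refine hK' (δ ^ m • b - ιN v) ?_ _ ?_
      · rw [Subalgebra.coe_sub, hι, Subalgebra.coe_smul]
        exact (hτ b v).mp hv.symm
      · rw [smul_sub, ← mul_smul, ← pow_add, add_comm]
    · obtain ⟨v, rfl⟩ := Submodule.Quotient.mk_surjective _ v
      rw [hι', hβ, ← Submodule.Quotient.mk_smul, hτ, Subalgebra.coe_smul, hι, ← mul_smul, ← pow_add,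
        Algebra.smul_def (δ ^ (m + K)) v, map_mul, ← IsScalarTower.algebraMap_apply, ← Algebra.smul_def, sub_self]
      exact (plF N L hδ n').zero_mem
  · obtain ⟨τ, hτ⟩ := pl_tau hδ hN B hB
    set U := ism (idl X ^ (n' + (m + K) * o) ⊔ Ideal.span {δ ^ m}) N with hU
    have hle : ism (idl X ^ (n' + (m + K) * o)) N ≤ U := ln_ism_mono le_sup_left
    have h1 := ln_len_add (Submodule.factor hle ∘ₗ τ) ⊥
    rw [ln_colen_bot] at h1
    refine le_trans (colen_le_of_surj (Ideal.Quotient.mkₐ Λ 𝔍).toLinearMap (Ideal.Quotient.mkₐ_surjective Λ 𝔍)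
      (U' := Submodule.comap (Submodule.factor hle ∘ₗ τ) ⊥) ?_) (le_self_add.trans h1.ge)
    rintro _ ⟨b, hb, rfl⟩
    obtain ⟨v, hv⟩ := Submodule.Quotient.mk_surjective _ (τ b)
    have hv' := (hτ b v).mp hv.symm
    have hb' : v ∈ U := by
      have : Submodule.factor hle (τ b) = 0 := hb
      rw [← hv] at this
      exact (Submodule.Quotient.mk_eq_zero U).mp this
    rw [hU, ln_ism_sup, Submodule.mem_sup] at hb'
    obtain ⟨u, hu, v1, hv1, rfl⟩ := hb'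
    obtain ⟨v2, rfl⟩ := (ln_mem_ism_span _ _).mp hv1
    refine ⟨v2, ?_⟩
    rw [AlgHom.toLinearMap_apply, AlgHom.toLinearMap_apply, AlgHom.comp_apply, Ideal.Quotient.mkₐ_eq_mk, eq_comm,
      Ideal.Quotient.eq]
    refine hK _ (filL_div (i := m) ?_)
    have := filL_add hδ hv' (filL_algebraMap (pl_mem_map.mpr hu))
    rw [show n' + (m + K) * o = n' + K * o + m * o by ring] at this
    convert this using 1
    rw [Subalgebra.coe_sub, hι, map_add, Algebra.smul_def (δ ^ m) v2, map_mul, pl_smul_d (N := N), map_pow, map_pow]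
    ring

/-- The elements `v / δ^j` with `v ∈ (X)^(o' j) N`. -/
def plS (N L : Type) [CommRing N] [Algebra Λ N] [CommRing L] [Algebra N L] (X : Fin n → Λ) (δ : Λ) (o' : ℕ) :
    Submonoid L where
  carrier := {w | ∃ j : ℕ, ∃ v ∈ (idl X ^ (o' * j)).map (algebraMap Λ N),
    algebraMap N L (algebraMap Λ N δ) ^ j * w = algebraMap N L v}
  one_mem' := ⟨0, 1, pl_map_zero _ _, by simp⟩
  mul_mem' := by
    rintro w w' ⟨j, v, hv, e⟩ ⟨j', v', hv', e'⟩
    refine ⟨j + j', v * v', by rw [mul_add]; exact pl_map_mul hv hv', ?_⟩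
    rw [map_mul, ← e, ← e']
    ring

theorem pl_span (S : Submonoid L) {w : L} (hw : w ∈ Algebra.adjoin Λ (S : Set L)) :
    w ∈ Submodule.span Λ (S : Set L) := by
  have := Algebra.adjoin_eq_span Λ (S : Set L)
  rw [Submonoid.closure_eq] at this
  rw [← this]
  exact hw

theorem pl_B0 (hδ : δ ∈ idl X ^ o) {o' : ℕ} (ho : o ≤ o') {w : L}
    (hw : w ∈ Algebra.adjoin Λ (plS N L X δ o' : Set L)) :
    w ∈ filL N L X δ o 0 ∧ ∀ m0 : ℕ, ∃ v : N, δ ^ m0 • w - algebraMap N L v ∈ filL N L X δ o (o' * m0) := by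
  obtain ⟨r, rfl⟩ := Nat.exists_eq_add_of_le ho
  have hw' := pl_span _ hw
  clear hw
  induction hw' using Submodule.span_induction with
  | mem w hw =>
    obtain ⟨j, v, hv, e⟩ := hw
    have h1 : w ∈ filL N L X δ o (r * j) := ⟨j, v, by rwa [show r * j + j * o = (o + r) * j by ring], e⟩
    refine ⟨filL_anti (Nat.zero_le _) h1, fun m0 => ?_⟩
    rcases le_total j m0 with h | h
    · obtain ⟨k, rfl⟩ := Nat.exists_eq_add_of_le h
      refine ⟨algebraMap Λ N δ ^ k * v, ?_⟩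
      rw [pl_smul_d (N := N), map_mul, map_pow, ← e, pow_add, mul_comm _ (_ ^ k), mul_assoc, sub_self]
      exact (plF N L hδ _).zero_mem
    · refine ⟨0, ?_⟩
      rw [map_zero, sub_zero, pl_smul_d (N := N)]
      exact filL_anti (by nlinarith) (filL_mul (pl_fil_d hδ m0) h1)
  | zero =>
    exact ⟨(plF N L hδ _).zero_mem, fun m0 => ⟨0, by
      rw [smul_zero, map_zero, sub_zero]; exact (plF N L hδ _).zero_mem⟩⟩
  | add w w' _ _ h h' =>
    refine ⟨filL_add hδ h.1 h'.1, fun m0 => ?_⟩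
    obtain ⟨v, hv⟩ := h.2 m0
    obtain ⟨v', hv'⟩ := h'.2 m0
    refine ⟨v + v', ?_⟩
    rw [smul_add, map_add, add_sub_add_comm]
    exact filL_add hδ hv hv'
  | smul c w _ h =>
    refine ⟨(plF N L hδ _).smul_mem c h.1, fun m0 => ?_⟩
    obtain ⟨v, hv⟩ := h.2 m0
    refine ⟨c • v, ?_⟩
    rw [smul_comm, Algebra.smul_def c v, map_mul, ← IsScalarTower.algebraMap_apply, ← Algebra.smul_def, ← smul_sub]
    exact (plF N L hδ _).smul_mem c hv

theorem pl_int (A : Subalgebra Λ L) {d g : L} (hd : d ∈ A) (hg : d * g ∈ A) {a : ℕ} (c : ℕ → Λ)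
    (h : g ^ a + ∑ j ∈ Finset.Icc 1 a, c j • g ^ (a - j) ∈ A) (ha : 0 < a) (k : ℕ) : d ^ a * g ^ k ∈ A := by
  induction k using Nat.strong_induction_on with
  | _ k ih =>
    rcases lt_or_ge k a with hk | hk
    · obtain ⟨l, rfl⟩ := Nat.exists_eq_add_of_le hk.le
      rw [pow_add, mul_right_comm, ← mul_pow]
      exact A.mul_mem (A.pow_mem hg _) (A.pow_mem hd _)
    obtain ⟨l, rfl⟩ := Nat.exists_eq_add_of_le hk
    have e : d ^ a * g ^ (a + l) = (g ^ a + ∑ j ∈ Finset.Icc 1 a, c j • g ^ (a - j)) * (d ^ a * g ^ l) -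
        ∑ j ∈ Finset.Icc 1 a, c j • (d ^ a * g ^ (a - j + l)) := by
      rw [add_mul, Finset.sum_mul, add_sub_assoc, ← Finset.sum_sub_distrib, Finset.sum_eq_zero, add_zero]
      · ring
      · intro j _
        rw [smul_mul_assoc, pow_add, mul_left_comm, sub_self]
    rw [e]
    refine A.sub_mem (A.mul_mem h (ih l (by omega))) (A.sum_mem fun j hj => A.smul_mem (ih _ ?_) _)
    obtain ⟨hj1, hj2⟩ := Finset.mem_Icc.mp hj
    omega

theorem pl_ring (hδ : δ ∈ idl X ^ o) {o' : ℕ} (ho : o ≤ o') {u : L}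
    (hu : algebraMap N L (algebraMap Λ N δ) * u = 1) {s a : ℕ} (ha : 0 < a) (ν : Fin s → N) (c : Fin s → ℕ → Λ)
    (hν : ∀ i, ν i ^ a + ∑ j ∈ Finset.Icc 1 a, algebraMap Λ N (c i j * δ ^ j) * ν i ^ (a - j) ∈
      (idl X ^ (o' * a)).map (algebraMap Λ N)) :
    ∃ B : Subalgebra Λ L, (∀ v, algebraMap N L v ∈ B) ∧ (∀ x ∈ idl X ^ o', u * algebraMap Λ L x ∈ B) ∧
      (∀ i, u * algebraMap N L (ν i) ∈ B) ∧ (∀ b ∈ B, δ ^ (s * a) • b ∈ filL N L X δ o 0) ∧
      ∀ b ∈ B, ∀ m0 : ℕ, ∃ v : N, δ ^ (m0 + s * a) • b - algebraMap N L v ∈ filL N L X δ o (o' * m0) := by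
  set d := algebraMap N L (algebraMap Λ N δ) with hd
  let A := Algebra.adjoin Λ (plS N L X δ o' : Set L)
  have hA : ∀ v, algebraMap N L v ∈ A := fun v =>
    Algebra.subset_adjoin ⟨0, v, pl_map_zero _ _, by rw [pow_zero, one_mul]⟩
  let g : Fin s → L := fun i => u * algebraMap N L (ν i)
  have hg : ∀ i, d * g i = algebraMap N L (ν i) := fun i => by rw [← mul_assoc, hu, one_mul]
  have hk : ∀ i k, d ^ a * g i ^ k ∈ A := fun i k => by
    refine pl_int A (d := d) (g := g i) (hA _) (by rw [hg]; exact hA _) (c i)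
      (Algebra.subset_adjoin ⟨a, _, hν i, ?_⟩) ha k
    rw [← hd, map_add, map_pow, ← hg, mul_add, mul_pow d, map_sum, Finset.mul_sum]
    refine congrArg _ (Finset.sum_congr rfl fun j hj => ?_)
    obtain ⟨l, rfl⟩ := Nat.exists_eq_add_of_le (Finset.mem_Icc.mp hj).2
    rw [Nat.add_sub_cancel_left, map_mul, map_mul, map_mul, map_pow, map_pow, map_pow, ← hd, ← hg,
      ← IsScalarTower.algebraMap_apply, Algebra.smul_def]
    ring
  let T : Submonoid L :=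
    { carrier := {w | ∃ e ∈ A, ∃ β : Fin s → ℕ, w = e * ∏ i, g i ^ β i}
      one_mem' := ⟨1, A.one_mem, 0, by simp⟩
      mul_mem' := by
        rintro w w' ⟨e, he, β, rfl⟩ ⟨e', he', β', rfl⟩
        refine ⟨e * e', A.mul_mem he he', β + β', ?_⟩
        simp only [Pi.add_apply, pow_add, Finset.prod_mul_distrib]
        ring }
  have hT : ∀ e ∈ A, e ∈ Algebra.adjoin Λ (T : Set L) := fun e he => Algebra.subset_adjoin ⟨e, he, 0, by simp⟩
  have hB : ∀ b ∈ Algebra.adjoin Λ (T : Set L), δ ^ (s * a) • b ∈ A := fun b hb => by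
    have hb' := pl_span _ hb
    clear hb
    induction hb' using Submodule.span_induction with
    | mem w hw =>
      obtain ⟨e, he, β, rfl⟩ := hw
      have : δ ^ (s * a) • (e * ∏ i, g i ^ β i) = e * ∏ i, d ^ a * g i ^ β i := by
        rw [pl_smul_d (N := N), ← hd, Finset.prod_mul_distrib, Finset.prod_const, Finset.card_univ,
          Fintype.card_fin, ← pow_mul, mul_comm a s]
        ring
      rw [this]
      exact A.mul_mem he (A.prod_mem fun i _ => hk i _)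
    | zero => rw [smul_zero]; exact A.zero_mem
    | add w w' _ _ h h' => rw [smul_add]; exact A.add_mem h h'
    | smul c w _ h => rw [smul_comm]; exact A.smul_mem h c
  refine ⟨Algebra.adjoin Λ (T : Set L), fun v => hT _ (hA v), fun x hx => hT _ (Algebra.subset_adjoin
    ⟨1, algebraMap Λ N x, by rw [mul_one]; exact Ideal.mem_map_of_mem _ hx, ?_⟩), fun i => Algebra.subset_adjoin
    ⟨1, A.one_mem, Pi.single i 1, ?_⟩, fun b hb => (pl_B0 hδ ho (hB b hb)).1, fun b hb m0 => ?_⟩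
  · rw [pow_one, ← hd, ← mul_assoc, hu, one_mul, ← IsScalarTower.algebraMap_apply]
  · rw [one_mul, rg_prod_single, pow_one]
  · rw [pow_add, mul_smul]
    exact (pl_B0 hδ ho (hB b hb)).2 m0

end fil

variable {P : Par} {Λ : Type} [CommRing Λ] {M' : ℕ} {X : Fin P.n → Λ}

/-- Let `N = AdjoinRoot f` (free over the domain `Λ`, so `δ` is regular), `L = Localization.Away δ`, `g i = ν i / δ`.
Let `E j = {w | δ^j w ∈ (X)^(o' j) N}`, `B° = ⨆ E j` (a subalgebra: `E j E j' ≤ E (j+j')`), and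
`B⁺ = B°[g] = ∑_{β < a} B° g^β`, because by `E1` each `g i` satisfies a monic equation of degree `a` over `B°`.  With
`K = (s+1) a`, `m0 = m - K`: `δ^K B⁺ ≤ B° ⊆ Fil 0`, `E j ⊆ Fil ((o' - o) j)`, so `δ^m B⁺ ⊆ N + Fil (o' m0)`, and
`n'' = n' + (m + K) o ≤ o' m0`.  Put `𝔍 = {b | ∀ b' ∈ B⁺, b b' ∈ Fil n'}`; it contains `B⁺ ∩ Fil (n' + K o)`
(`filL_div`).  Let `τ : B⁺ → N / (X)^n'' N` send `b` to the class of `v` with `δ^m b - v ∈ Fil n''` (well defined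
and linear by `mem_of_filL`).  `β` is induced by `τ`, `ι v = δ^K v`.  For `coker`: if `τ b ∈ δ^m N` then
`b ∈ N + 𝔍`.  `fin` follows from `coker` and `deep`. -/
theorem exists_plus (hX : RBase Λ X) (dt : Dat P Λ X M') {o' n' m : ℕ} (ho : P.o ≤ o') (hM : P.a * o' ≤ M')
    (hK : P.K ≤ m) (hm : n' + (m + P.K) * P.o ≤ o' * (m - P.K)) :
    ∃ (Bp : Type) (_ : CommRing Bp) (_ : Algebra Λ Bp) (ιN : AdjoinRoot dt.f →ₐ[Λ] Bp)
      (g : Fin (P.s + 1) → Bp) (𝔍 : Ideal Bp), Plus dt o' n' m Bp ιN g 𝔍 := by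
  have := hX.dom
  have := dt.monic.free_adjoinRoot
  have := dt.monic.finite_adjoinRoot
  have hδ0 : dt.δ ≠ 0 := fun h => dt.δ_not (h ▸ Ideal.zero_mem _)
  obtain ⟨m0, rfl⟩ := Nat.exists_eq_add_of_le' hK
  rw [Nat.add_sub_cancel] at hm
  let N := AdjoinRoot dt.f
  let L := Localization.Away (algebraMap Λ N dt.δ)
  have hinj : Function.Injective (algebraMap N L) := by
    refine IsLocalization.injective L (M := Submonoid.powers (algebraMap Λ N dt.δ))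
      (Submonoid.powers_le.mpr (mem_nonZeroDivisors_iff_left.mpr fun v hv => ?_))
    rw [← Algebra.smul_def] at hv
    exact (smul_eq_zero.mp hv).resolve_left hδ0
  obtain ⟨u, hu⟩ : ∃ u : L, algebraMap N L (algebraMap Λ N dt.δ) * u = 1 :=
    (IsLocalization.Away.algebraMap_isUnit (S := L) (algebraMap Λ N dt.δ)).exists_right_inv
  obtain ⟨B, b1, b2, b3, b4, b5⟩ := pl_ring (N := N) (L := L) dt.δ_mem ho hu P.a_pos
    (fun i => AdjoinRoot.mk dt.f (dt.ν i)) dt.c fun i => by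
      have h1 := Ideal.mem_map_of_mem (AdjoinRoot.mk dt.f) (dt.E1 i)
      rw [Ideal.map_sup, Ideal.map_span, Set.image_singleton, AdjoinRoot.mk_self, Ideal.span_singleton_zero,
        bot_sup_eq, Ideal.map_map] at h1
      simp only [map_add, map_pow, map_sum, map_mul, AdjoinRoot.mk_C] at h1
      simp only [map_pow, map_mul]
      exact pl_map_anti (by rw [mul_comm]; exact hM) h1
  let ιN : N →ₐ[Λ] B := (IsScalarTower.toAlgHom Λ N L).codRestrict B b1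
  obtain ⟨𝔍, j1, j2, j3⟩ := pl_core dt.δ_mem (fun j v => mem_of_filL hX.reg hX.max.isPrime dt.δ_not hinj) B ιN
    (fun v => rfl) (K := P.K) (m := m0 + P.K) (n' := n') b4 fun b hb => by
      obtain ⟨v, hv⟩ := b5 b hb m0
      exact ⟨v, filL_anti hm hv⟩
  have hd : ((algebraMap Λ B dt.δ : B) : L) * u = 1 := by
    rw [← hu, ← IsScalarTower.algebraMap_apply]
    rfl
  refine ⟨B, inferInstance, inferInstance, ιN, fun i => ⟨_, b3 i⟩, 𝔍, fun b hb => ?_, ?_, fun i => ?_, j1, ?_,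
    j2, j3⟩
  · have h1 := congrArg (fun x : B => u * (x : L)) hb
    simp only [Subalgebra.coe_mul, Subalgebra.coe_zero, mul_zero] at h1
    rw [← mul_assoc, mul_comm u, hd, one_mul] at h1
    exact Subtype.ext h1
  · rw [Ideal.map_le_iff_le_comap]
    intro x hx
    refine Ideal.mem_span_singleton'.mpr ⟨⟨_, b2 x hx⟩, Subtype.ext ?_⟩
    rw [Subalgebra.coe_mul, mul_right_comm, mul_comm u, hd, one_mul]
    rfl
  · refine Subtype.ext ?_
    rw [Subalgebra.coe_mul, ← mul_assoc, hd, one_mul]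
    rfl
  · have h1 := ln_len_add ((Ideal.Quotient.mkₐ Λ 𝔍).comp ιN).toLinearMap ⊥
    rw [ln_colen_bot, bot_sup_eq] at h1
    rw [← Module.length_ne_top_iff, h1]
    refine WithTop.add_ne_top.mpr ⟨Module.length_ne_top_iff.mpr (hX.isFiniteLength (k := n' + P.K * P.o) ?_),
      ne_top_of_le_ne_top (Module.length_ne_top_iff.mpr (hX.isFiniteLength (ln_ism_mono le_sup_left))) j3⟩
    intro v hv
    have h2 := pl_mem_map.mpr (ln_mem_ism ιN.toLinearMap hv)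
    exact Ideal.Quotient.eq_zero_iff_mem.mpr (j1 h2)

/-- The cover attached to `B⁺`. -/
noncomputable def plusCov (dt : Dat P Λ X M') (Bp : Type) [CommRing Bp] [Algebra Λ Bp] (𝔍 : Ideal Bp)
    (m q : ℕ) : Cov P.n where
  Λ := Λ
  B := Bp ⧸ 𝔍
  N := AdjoinRoot dt.f
  X := X
  q := q
  α := dt.δ ^ (m + P.K)
  α' := 0
  ρ := (q : ℝ) ^ P.n

variable {dt : Dat P Λ X M'} {o' m : ℕ} {Bp : Type} [CommRing Bp] [Algebra Λ Bp]
  {ιN : AdjoinRoot dt.f →ₐ[Λ] Bp} {g : Fin (P.s + 1) → Bp} {𝔍 : Ideal Bp}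

theorem plusCov_basic (hX : RBase Λ X) {n0 q : ℕ} (hq : 0 < q) (h : Plus dt o' (n0 * q) m Bp ιN g 𝔍) :
    (plusCov dt Bp 𝔍 m q).Basic n0 := by
  have := dt.monic.free_adjoinRoot
  have := dt.monic.finite_adjoinRoot
  refine ⟨hX.reg.of_free (W := AdjoinRoot dt.f),
    hX.isFiniteLength (W := AdjoinRoot dt.f) (k := 1) (by rw [pow_one]; exact le_rfl), h.fin, h.sand,
    fun v : AdjoinRoot dt.f => ?_, ?_⟩
  · change (dt.δ ^ (m + P.K) * 0) • v ∈ ism (idl X ^ (n0 * q)) (AdjoinRoot dt.f)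
    rw [mul_zero, zero_smul]
    exact Submodule.zero_mem _
  · change 0 < (q : ℝ) ^ P.n
    positivity

theorem Dat.pl_colen (dt : Dat P Λ X M') (J : Ideal Λ) :
    colen Λ (ism J (AdjoinRoot dt.f)) = P.ρ * colen Λ J := by
  let e := (AdjoinRoot.powerBasis' dt.monic).basis.equivFun
  have h1 := colen_le_of_surj e.toLinearMap e.surjective (ln_map_ism _ J)
  have h2 := colen_le_of_surj e.symm.toLinearMap e.symm.surjective (ln_map_ism _ J)
  rw [le_antisymm h2 h1, sd_colen_fin, AdjoinRoot.powerBasis'_dim, dt.deg]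

/-- `N` is free of rank `ρ`; `colen_pow_sup_le` and `ord_pow`. -/
theorem Dat.colen_pow_le (hX : RBase Λ X) (dt : Dat P Λ X M') {γ : Λ} {i : ℕ} (hγ : γ ∉ idl X ^ (i + 1))
    (j k : ℕ) : colen Λ (ism (idl X ^ k ⊔ Ideal.span {γ ^ j}) (AdjoinRoot dt.f)) ≤
      (P.ρ * (j * i) * (k + 1) ^ (P.n - 1) : ℕ) := by
  rw [dt.pl_colen, mul_assoc, Nat.cast_mul]
  exact mul_le_mul_right
    (colen_pow_sup_le hX.reg hX.max hX.pos (ord_pow hX.reg hX.max.isPrime hγ j) k) _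

theorem Dat.colen_br_le (hX : RBase Λ X) (dt : Dat P Λ X M') {γ : Λ} {i : ℕ} (hγ : γ ∉ idl X ^ (i + 1))
    (j t : ℕ) : colen Λ (ism (br X t ⊔ Ideal.span {γ ^ j}) (AdjoinRoot dt.f)) ≤
      (P.ρ * (j * i) * (P.n * t + 1) ^ (P.n - 1) : ℕ) :=
  (colen_anti (ln_ism_mono (sup_le_sup_right (idl_pow_le_br hX.pos X t) _))).trans (dt.colen_pow_le hX hγ j _)

/-- If `m + K ≤ η q` with `η` small in terms of `ε`, `n0` and the parameters, all error terms are `≤ ε q^n`.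
For `smallB` use `colen_le_comap_add` along `N → B` and `coker`. -/
theorem plusCov_est (P : Par) (n0 : ℕ) {ε : ℝ} (hε : 0 < ε) : ∃ η : ℝ, 0 < η ∧
    ∀ {Λ : Type} [CommRing Λ] {M' : ℕ} {X : Fin P.n → Λ} {dt : Dat P Λ X M'} {o' m q : ℕ} {Bp : Type}
      [CommRing Bp] [Algebra Λ Bp] {ιN : AdjoinRoot dt.f →ₐ[Λ] Bp} {g : Fin (P.s + 1) → Bp} {𝔍 : Ideal Bp},
      RBase Λ X → 0 < q → Plus dt o' (n0 * q) m Bp ιN g 𝔍 → ((m + P.K : ℕ) : ℝ) ≤ η * q →
      len Λ ((Bp ⧸ 𝔍) ⧸ LinearMap.range ((Ideal.Quotient.mkₐ Λ 𝔍).comp ιN).toLinearMap) ≤ ε * (q : ℝ) ^ P.n ∧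
      ∀ (E Cc : ℝ) (t : ℕ), E ≤ P.ρ → (P.ρ : ℝ) ≤ Cc → 0 < t → (plusCov dt Bp 𝔍 m q).Est E Cc ε t := by
  set C1 : ℝ := P.ρ * P.o * ((n0 : ℝ) + P.o + 1) ^ (P.n - 1) with hC1
  set C2 : ℝ := P.ρ * P.o * ((P.n : ℝ) + 1) ^ (P.n - 1) with hC2
  have h1 : 0 ≤ C1 := by positivity
  have h2 : 0 ≤ C2 := by positivity
  obtain ⟨η, hη, hη1, hηε⟩ : ∃ η : ℝ, 0 < η ∧ η ≤ 1 ∧ η * (C1 + C2) ≤ ε := by
    refine ⟨min 1 (ε / (C1 + C2 + 1)), by positivity, min_le_left _ _, ?_⟩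
    have : min 1 (ε / (C1 + C2 + 1)) * (C1 + C2 + 1) ≤ ε := by
      rw [← le_div_iff₀ (by positivity)]
      exact min_le_right _ _
    have h3 : 0 < min 1 (ε / (C1 + C2 + 1)) := by positivity
    nlinarith
  refine ⟨η, hη, ?_⟩
  intro Λ _ M' X dt o' m q Bp _ _ ιN g 𝔍 hX hq h hm
  have := dt.monic.finite_adjoinRoot
  have hq1 : (1 : ℝ) ≤ q := by exact_mod_cast hq
  have hqn : (q : ℝ) ^ P.n = q * (q : ℝ) ^ (P.n - 1) := by
    rw [← pow_succ', Nat.sub_add_cancel hX.pos]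
  have hqp : 0 < (q : ℝ) ^ P.n := by positivity
  have hmq : ((m + P.K : ℕ) : ℝ) ≤ q := hm.trans (by nlinarith)
  have hm' : (m : ℝ) ≤ η * q := le_trans (by exact_mod_cast Nat.le_add_right _ _) hm
  have e1 : len Λ ((Bp ⧸ 𝔍) ⧸ LinearMap.range ((Ideal.Quotient.mkₐ Λ 𝔍).comp ιN).toLinearMap) ≤
      η * C1 * (q : ℝ) ^ P.n := by
    refine (len_le_of_le (h.coker.trans (dt.colen_pow_le hX dt.δ_not _ _))).trans ?_
    have : ((n0 * q + (m + P.K) * P.o + 1 : ℕ) : ℝ) ≤ ((n0 : ℝ) + P.o + 1) * q := by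
      rw [Nat.cast_add, Nat.cast_add, Nat.cast_mul, Nat.cast_mul, Nat.cast_one]
      have := mul_le_mul_of_nonneg_right hmq (Nat.cast_nonneg (α := ℝ) P.o)
      linarith
    rw [Nat.cast_mul, Nat.cast_pow, Nat.cast_mul, Nat.cast_mul]
    calc (P.ρ : ℝ) * (m * P.o) * ((n0 * q + (m + P.K) * P.o + 1 : ℕ) : ℝ) ^ (P.n - 1)
        ≤ P.ρ * (η * q * P.o) * (((n0 : ℝ) + P.o + 1) * q) ^ (P.n - 1) := by gcongr
      _ = η * C1 * (q : ℝ) ^ P.n := by rw [hqn, hC1, mul_pow]; ring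
  have e2 : ∀ t : ℕ, 0 < t →
      len Λ (AdjoinRoot dt.f ⧸ ism (br X (q * t) ⊔ Ideal.span {dt.δ ^ (m + P.K)}) (AdjoinRoot dt.f)) ≤
      η * C2 * (q : ℝ) ^ P.n * (t : ℝ) ^ P.n := fun t ht => by
    refine (len_le_of_le (dt.colen_br_le hX dt.δ_not _ _)).trans ?_
    have ht1 : (1 : ℝ) ≤ t := by exact_mod_cast ht
    have : ((P.n * (q * t) + 1 : ℕ) : ℝ) ≤ ((P.n : ℝ) + 1) * (q * t) := by
      push_cast
      nlinarith
    have h3 : (t : ℝ) ^ (P.n - 1) ≤ (t : ℝ) ^ P.n := pow_le_pow_right₀ ht1 (Nat.sub_le _ _)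
    rw [Nat.cast_mul, Nat.cast_pow, Nat.cast_mul, Nat.cast_mul]
    calc (P.ρ : ℝ) * ((m + P.K : ℕ) * P.o) * ((P.n * (q * t) + 1 : ℕ) : ℝ) ^ (P.n - 1)
        ≤ P.ρ * (η * q * P.o) * (((P.n : ℝ) + 1) * (q * t)) ^ (P.n - 1) := by gcongr
      _ = η * C2 * (q : ℝ) ^ P.n * (t : ℝ) ^ (P.n - 1) := by rw [hqn, hC2, mul_pow, mul_pow]; ring
      _ ≤ _ := by gcongr
  have e2' := e2 1 one_pos
  rw [mul_one, Nat.cast_one, one_pow, mul_one] at e2'
  have e3 : ∀ t : ℕ, len Λ (AdjoinRoot dt.f ⧸ ism (br X t) (AdjoinRoot dt.f)) = P.ρ * (t : ℝ) ^ P.n := fun t => by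
    have := dt.pl_colen (br X t)
    rw [hX.sd_colen_br, ← Nat.cast_mul, colen] at this
    rw [len, this, ENat.toNat_natCast, Nat.cast_mul, Nat.cast_pow]
  have i1 : η * C1 * (q : ℝ) ^ P.n ≤ ε * (q : ℝ) ^ P.n := by
    gcongr
    nlinarith
  have i2 : η * C2 * (q : ℝ) ^ P.n ≤ ε * (q : ℝ) ^ P.n := by
    gcongr
    nlinarith
  refine ⟨e1.trans i1, fun E Cc t hE hCc ht => ⟨?_, ?_, ?_, ?_⟩⟩
  · change len Λ (AdjoinRoot dt.f ⧸ ism (br X q) (AdjoinRoot dt.f)) ≤ Cc * (q : ℝ) ^ P.n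
    rw [e3]
    gcongr
  · change len Λ (AdjoinRoot dt.f ⧸ ism (br X q ⊔ Ideal.span {dt.δ ^ (m + P.K) + 0}) (AdjoinRoot dt.f)) ≤
      ε * (q : ℝ) ^ P.n
    rw [add_zero]
    exact e2'.trans i2
  · change len Λ ((Bp ⧸ 𝔍) ⧸ ism (br X q ⊔ Ideal.span {dt.δ ^ (m + P.K)}) (Bp ⧸ 𝔍)) ≤ ε * (q : ℝ) ^ P.n
    rw [ln_cl_add ((Ideal.Quotient.mkₐ Λ 𝔍).comp ιN).toLinearMap (ln_quot_ne_top h.fin _)]
    have a1 := ln_cl_anti (sd_fin_of_fin (W := AdjoinRoot dt.f) (ln_fin_anti (hX.sd_fin_br q)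
      (le_sup_left (b := Ideal.span {dt.δ ^ (m + P.K)}))))
      (V := Submodule.comap ((Ideal.Quotient.mkₐ Λ 𝔍).comp ιN).toLinearMap
        (ism (br X q ⊔ Ideal.span {dt.δ ^ (m + P.K)}) (Bp ⧸ 𝔍))) fun v hv => ln_mem_ism _ hv
    have a2 := ln_cl_anti (ln_quot_ne_top h.fin (LinearMap.range ((Ideal.Quotient.mkₐ Λ 𝔍).comp ιN).toLinearMap))
      (le_sup_right (a := ism (br X q ⊔ Ideal.span {dt.δ ^ (m + P.K)}) (Bp ⧸ 𝔍)))
    have a3 := mul_le_mul_of_nonneg_right hηε hqp.le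
    linarith
  · change (q : ℝ) ^ P.n * E * (t : ℝ) ^ P.n ≤ alen (dt.δ ^ (m + P.K))
      (AdjoinRoot dt.f ⧸ ism (br X (q * t)) (AdjoinRoot dt.f)) + (Cc / t + ε) * (q : ℝ) ^ P.n * (t : ℝ) ^ P.n
    rw [ln_alen_quot _ (sd_fin_of_fin (hX.sd_fin_br _)), ln_al, ← ln_ism_sup, e3, Nat.cast_mul, mul_pow]
    have a1 := e2 t ht
    have htp : 0 < (t : ℝ) ^ P.n := by positivity
    have a2 := mul_le_mul_of_nonneg_right i2 htp.le
    have a3 := mul_le_mul_of_nonneg_right hE (mul_pos hqp htp).le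
    have a4 : 0 ≤ Cc / t * (q : ℝ) ^ P.n * (t : ℝ) ^ P.n := by
      have : 0 ≤ Cc := (Nat.cast_nonneg _).trans hCc
      positivity
    linarith

/-- Choice of `o'` and `m`: take `o' = o + ⌈2 n0 / η⌉ + 1`, `m = K + ⌈(n0 q + 2 K o) / (o' - o)⌉`. -/
theorem exists_o'_m (P : Par) (n0 : ℕ) {η : ℝ} (hη : 0 < η) : ∃ o' q1 : ℕ, P.o ≤ o' ∧ ∀ q ≥ q1, ∃ m : ℕ,
    P.K ≤ m ∧ n0 * q + (m + P.K) * P.o ≤ o' * (m - P.K) ∧ ((m + P.K : ℕ) : ℝ) ≤ η * q := by
  obtain ⟨R, hR⟩ := exists_nat_gt (2 / η)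
  have hR0 : 0 < R := by
    have : (0 : ℝ) < R := lt_trans (by positivity) hR
    exact_mod_cast this
  have hR1 : 2 < η * R := by
    rw [div_lt_iff₀ hη] at hR
    linarith
  refine ⟨P.o + R * (n0 + 1), 2 * P.K * P.o + R * (2 * P.K + 1), Nat.le_add_right _ _, fun q hq =>
    ⟨q / R + 1 + P.K, Nat.le_add_left _ _, ?_, ?_⟩⟩
  · rw [Nat.add_sub_cancel]
    have h1 : q < R * (q / R + 1) := Nat.lt_mul_div_succ q hR0
    have h2 : 2 * P.K * P.o ≤ q := le_trans (Nat.le_add_right _ _) hq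
    generalize q / R + 1 = m0 at h1 ⊢
    nlinarith
  · have h1 : ((q / R : ℕ) : ℝ) * R ≤ q := by exact_mod_cast Nat.div_mul_le_self q R
    have h2 : (R : ℝ) * (2 * P.K + 1) ≤ q := by exact_mod_cast le_trans (Nat.le_add_left _ _) hq
    have h3 : (0 : ℝ) < R := by exact_mod_cast hR0
    have h4 : (0 : ℝ) ≤ q := Nat.cast_nonneg q
    push_cast
    refine le_of_mul_le_mul_right ?_ h3
    nlinarith

end Crest.Agent.R183
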