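import Crest.Agent.R183.RegAux

/-!
# rid 183, file `Reg`: regular sequences (Koszul relations, quasi-regularity, lengths)

Prefix helper lemmas with `rg_`.
-/

set_option autoImplicit false

namespace Crest.Agent.R183

variable {Λ : Type} [CommRing Λ] {d : ℕ} {W : Type} [AddCommGroup W] [Module Λ W]

/-- Induct on `d`, treating the last variable: if `∑ x i • w i = 0` then `w last = ∑_{i < last} x i • a i`,
and `∑_{i < last} x i • (w i + x last • a i) = 0`. -/
theorem Reg.kos {x : Fin d → Λ} (h : Reg x W) (w : Fin d → W) (hw : ∑ i, x i • w i = 0) :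
    ∃ a : Fin d → Fin d → W, (∀ i j, a i j = -a j i) ∧ (∀ i, a i i = 0) ∧
      ∀ i, w i = ∑ j, x j • a i j := by
  exact rg_kos h d w (fun i hi => absurd i.2 (by omega)) hw

/-- If `∑ y i • w i ∈ (y)^n W`, write it as `∑ y i • w' i` with `w' i ∈ (y)^(n-1) W` and use `Reg.kos`. -/
theorem Reg.kz {y : Fin d → Λ} (h : Reg y W) (n : ℕ) : KZ n y (W ⧸ ism (idl y ^ n) W) := by
  intro w hw
  rcases n with _ | k
  · refine ⟨0, by simp, by simp, fun i => ?_⟩
    simp [ism]
  · choose v hv using fun i => Submodule.Quotient.mk_surjective _ (w i)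
    have h1 : ∑ i, y i • v i ∈ ism (idl y ^ (k + 1)) W := by
      rw [← Submodule.Quotient.mk_eq_zero, ← hw, ← Submodule.mkQ_apply, map_sum]
      exact Finset.sum_congr rfl fun i _ => by rw [map_smul, Submodule.mkQ_apply, hv]
    rw [pow_succ', ism, Submodule.mul_smul, idl, ← Set.image_univ] at h1
    obtain ⟨b, hb, -, e⟩ := rg_exists_sum y _ _ h1
    obtain ⟨a, ha1, ha2, ha3⟩ := h.kos (fun i => v i - b i) (by
      simp only [smul_sub, Finset.sum_sub_distrib, e, sub_self])
    refine ⟨fun i j => Submodule.Quotient.mk (a i j), fun i j => ?_, fun i => ?_, fun i => ?_⟩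
    · beta_reduce; rw [ha1 i j, Submodule.Quotient.mk_neg]
    · beta_reduce; rw [ha2 i, Submodule.Quotient.mk_zero]
    · have h2 : w i - ∑ j, y j • (Submodule.Quotient.mk (a i j) : W ⧸ ism (idl y ^ (k + 1)) W) =
          (ism (idl y ^ (k + 1)) W).mkQ (b i) := by
        have : b i = v i - ∑ j, y j • a i j := by rw [← ha3 i]; abel
        rw [this, map_sub, map_sum, ← hv i]
        simp only [map_smul, Submodule.mkQ_apply]
      rw [h2]
      refine rg_map_mem _ ?_
      have := hb i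
      rwa [Set.image_univ] at this

theorem KZ.pi {y : Fin d → Λ} {n : ℕ} (h : KZ n y W) (ι : Type) [Finite ι] : KZ n y (ι → W) := by
  classical
  have := Fintype.ofFinite ι
  intro w hw
  choose a ha1 ha2 ha3 using fun t : ι => h (fun i => w i t) (by
    have := congrFun hw t
    simpa [Finset.sum_apply] using this)
  refine ⟨fun i j t => a t i j, fun i j => funext fun t => ha1 t i j,
    fun i => funext fun t => ha2 t i, fun i => ?_⟩
  rw [← Finset.univ_sum_single (w i - ∑ j, y j • fun t => a t i j)]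
  refine Submodule.sum_mem _ fun t _ => ?_
  have h1 := rg_map_mem (LinearMap.single Λ (fun _ : ι => W) t) (ha3 t i)
  convert h1 using 1
  simp [Finset.sum_apply]

/-- Quasi-regularity (Matsumura 16.2).  Induct on `d` and on `k`.  For the first `d` variables `x'` and the last
one `a`: by induction on `d`, `x'` is quasi-regular, and `a` is regular on `W / x' W`, hence on every
`W / (x')^j W`.  Given a form `F = G(x') + a H(x)` of degree `k` with `F(x) ∈ (x)^(k+1) W`, first reduce to
`F(x) = 0`; then `a H(x) ∈ (x')^k W` gives `H(x) ∈ (x')^k W ≤ (x)^k W`, so the coefficients of `H` lie in `(x) W`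
by induction on `k`, and `H(x) = h(x')` with `h` of degree `k`, so `G + a h` has coefficients in `(x') W`. -/
theorem Reg.quasi {x : Fin d → Λ} (h : Reg x W) (k : ℕ) (f : (Fin d → ℕ) → W)
    (hf : ∑ β ∈ Finset.Nat.antidiagonalTuple d k, (∏ i, x i ^ β i) • f β ∈ ism (idl x ^ (k + 1)) W) :
    ∀ β ∈ Finset.Nat.antidiagonalTuple d k, f β ∈ ism (idl x) W := by
  classical
  intro β hβ
  refine rg_box h _ β _ rfl ?_
  have hk : ∑ i, β i = k := Finset.Nat.mem_antidiagonalTuple.1 hβ
  rw [← Finset.add_sum_erase _ _ hβ] at hf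
  obtain ⟨g, hg⟩ := (mem_ism_idl_pow x (k + 1) _).1 hf
  rw [eq_sub_of_add_eq hg]
  refine Submodule.sub_mem _ (Submodule.sum_mem _ fun γ hγ => ?_) (Submodule.sum_mem _ fun γ hγ => ?_)
  · refine rg_smul_mem (rg_mon_mem_of_not_le x fun hle => ?_) _
    have h1 : ∑ i, γ i = k + 1 := Finset.Nat.mem_antidiagonalTuple.1 hγ
    have h2 : ∑ i, γ i ≤ ∑ i, β i := Finset.sum_le_sum fun i _ => hle i
    omega
  · refine rg_smul_mem (rg_mon_mem_of_not_le x fun hle => ?_) _
    have h1 : ∑ i, γ i = k := Finset.Nat.mem_antidiagonalTuple.1 (Finset.mem_of_mem_erase hγ)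
    refine Finset.ne_of_mem_erase hγ (funext fun i => ?_)
    exact (Finset.sum_eq_sum_iff_of_le fun i _ => hle i).1 (h1.trans hk.symm) i (Finset.mem_univ i)

/-- The ideal spanned by a set of monomials in `x`. -/
def mid (x : Fin d → Λ) (U : Set (Fin d → ℕ)) : Ideal Λ :=
  Ideal.span ((fun β => ∏ i, x i ^ β i) '' U)

theorem rg_mon_mem_mid (x : Fin d → Λ) {U : Set (Fin d → ℕ)} {v : Fin d → ℕ} (hv : v ∈ U) :
    ∏ i, x i ^ v i ∈ mid x U :=
  Ideal.subset_span ⟨v, hv, rfl⟩

theorem rg_mid_le (x : Fin d → Λ) {U : Set (Fin d → ℕ)} {J : Ideal Λ}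
    (h : ∀ v ∈ U, ∏ i, x i ^ v i ∈ J) : mid x U ≤ J :=
  Ideal.span_le.2 (by rintro _ ⟨v, hv, rfl⟩; exact h v hv)

theorem rg_mid_univ (x : Fin d → Λ) : ism (mid x Set.univ) W = ⊤ := by
  refine eq_top_iff.2 fun w _ => ?_
  have := rg_smul_mem (rg_mon_mem_mid x (Set.mem_univ 0)) w
  simpa using this

theorem rg_mem_mid_insert (x : Fin d → Λ) {U : Set (Fin d → ℕ)} {b : Fin d → ℕ} {w : W}
    (hw : w ∈ ism (mid x (insert b U)) W) :
    ∃ u ∈ ism (mid x U) W, ∃ v : W, w = u + (∏ i, x i ^ b i) • v := by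
  rw [mid, Set.image_insert_eq] at hw
  exact rg_mem_insert hw

theorem rg_mul_mid (x : Fin d → Λ) (a : Fin d → ℕ) {U : Set (Fin d → ℕ)} {J : Ideal Λ}
    (h : ∀ v ∈ U, ∏ i, x i ^ (a + v) i ∈ J) {w : W} (hw : w ∈ ism (mid x U) W) :
    (∏ i, x i ^ a i) • w ∈ ism J W := by
  refine rg_smul_mem_of (fun r hr => ?_) hw
  have : mid x U ≤ Submodule.comap (LinearMap.mulLeft Λ (∏ i, x i ^ a i)) J := by
    refine Submodule.span_le.2 ?_
    rintro _ ⟨v, hv, rfl⟩
    have := h v hv
    rw [rg_prod_add] at this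
    exact this
  exact this hr

theorem rg_mul_idl (x : Fin d → Λ) (a : Fin d → ℕ) {J : Ideal Λ}
    (h : ∀ j, ∏ i, x i ^ (a + Pi.single j 1 : Fin d → ℕ) i ∈ J) {w : W} (hw : w ∈ ism (idl x) W) :
    (∏ i, x i ^ a i) • w ∈ ism J W := by
  refine rg_smul_mem_of (fun r hr => ?_) hw
  have : idl x ≤ Submodule.comap (LinearMap.mulLeft Λ (∏ i, x i ^ a i)) J := by
    refine Submodule.span_le.2 ?_
    rintro _ ⟨j, rfl⟩
    have := h j
    rw [rg_prod_add, rg_prod_single, pow_one] at this
    exact this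
  exact this hr

theorem rg_finite_lt (K : ℕ) : {v : Fin d → ℕ | ∑ i, v i < K}.Finite := by
  refine (Set.finite_Iic (fun _ => K : Fin d → ℕ)).subset fun v hv i => ?_
  have h1 : v i ≤ ∑ i, v i := Finset.single_le_sum (fun _ _ => Nat.zero_le _) (Finset.mem_univ i)
  have h2 : ∑ i, v i < K := hv
  exact h1.trans h2.le

theorem rg_colon_aux {x : Fin d → Λ} (h : Reg x W) {U : Set (Fin d → ℕ)} (hU : IsUpperSet U)
    (a : Fin d → ℕ) {w : W} (hw : (∏ i, x i ^ a i) • w ∈ ism (mid x U) W) (n : ℕ) :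
    ∀ V : Set (Fin d → ℕ), IsUpperSet V → {v | v + a ∈ U} ⊆ V → (V \ {v | v + a ∈ U}).Finite →
      (V \ {v | v + a ∈ U}).ncard = n → w ∈ ism (mid x V) W → w ∈ ism (mid x {v | v + a ∈ U}) W := by
  induction n with
  | zero =>
    intro V _ h1 h2 h3 h4
    rw [Set.ncard_eq_zero h2, Set.sdiff_eq_empty] at h3
    rwa [Set.Subset.antisymm h3 h1] at h4
  | succ n ih =>
    intro V hV h1 h2 h3 h4
    obtain ⟨b, hb⟩ := h2.exists_minimal (Set.nonempty_of_ncard_ne_zero (by omega))
    have hbV : b ∈ V := hb.prop.1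
    have hbU : b + a ∉ U := hb.prop.2
    have key : ∀ v ∈ V \ {b}, ¬v ≤ b := by
      rintro v ⟨hv, hvb⟩ hle
      by_cases hva : v + a ∈ U
      · exact hbU (hU (add_le_add_left hle a) hva)
      · exact hvb (le_antisymm hle (hb.le_of_le ⟨hv, hva⟩ hle))
    have hV' : IsUpperSet (V \ {b}) := by
      intro v v' hle hv
      refine ⟨hV hle hv.1, fun e => key v hv ?_⟩
      rw [← Set.mem_singleton_iff.1 e]; exact hle
    have e : (V \ {b}) \ {v | v + a ∈ U} = (V \ {v | v + a ∈ U}) \ {b} := Set.sdiff_sdiff_comm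
    refine ih (V \ {b}) hV' (fun v hv => ⟨h1 hv, fun e => hbU ?_⟩) (e ▸ h2.subset Set.sdiff_subset) ?_ ?_
    · rw [← Set.mem_singleton_iff.1 e]; exact hv
    · rw [e, Set.ncard_sdiff_singleton_of_mem hb.prop, h3]; rfl
    · rw [← Set.insert_sdiff_self_of_mem hbV] at h4
      obtain ⟨u, hu, v, rfl⟩ := rg_mem_mid_insert x h4
      refine Submodule.add_mem _ hu (rg_mul_idl x b 
        (fun j => rg_mon_mem_mid x (Set.mem_sdiff_of_mem (hV ?_ hbV) ?_)) ?_)
      · exact le_add_of_nonneg_right zero_le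
      · intro e
        have := congrFun (Set.mem_singleton_iff.1 e) j
        simp at this
      · refine rg_box h _ (a + b) v rfl ?_
        have e2 : (∏ i, x i ^ (a + b) i) • v =
            (∏ i, x i ^ a i) • (u + (∏ i, x i ^ b i) • v) - (∏ i, x i ^ a i) • u := by
          rw [rg_prod_add, mul_smul, smul_add]; abel
        rw [e2]
        refine Submodule.sub_mem _ (rg_ism_mono (rg_mid_le x fun t ht => ?_) hw)
          (rg_mul_mid x a (fun t ht => ?_) hu)
        · exact rg_mon_mem_of_not_le x fun hle => hbU (hU (by rwa [add_comm] at hle) ht)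
        · exact rg_mon_mem_of_not_le x fun hle => key t ht (le_of_add_le_add_left hle)

/-- Colon of monomial ideals.  Show `w ∈ mid {v | v + a ∈ U} W + (x)^j W` for all `j` by induction: write the
second part as `∑_{|v| = j} x^v • w v`; it suffices to see `w v ∈ (x) W` when `v + a ∉ U`.  In a relation
`∑_{|v| = j, v + a ∉ U} x^(v+a) • w v = ∑_{u ∈ U} x^u • w' u`, push the terms of lowest degree `< j + |a|` on the
right one degree up with `Reg.quasi` (`U` is an upper set), then apply `Reg.quasi` in degree `j + |a|`. -/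
theorem Reg.colon_mid {x : Fin d → Λ} (h : Reg x W) {U : Set (Fin d → ℕ)} (hU : IsUpperSet U)
    (a : Fin d → ℕ) {K : ℕ} (hK : ∀ v : Fin d → ℕ, K ≤ ∑ i, v i → v + a ∈ U) {w : W}
    (hw : (∏ i, x i ^ a i) • w ∈ ism (mid x U) W) : w ∈ ism (mid x {v | v + a ∈ U}) W := by
  refine rg_colon_aux h hU a hw _ Set.univ isUpperSet_univ (Set.subset_univ _)
    ((rg_finite_lt K).subset fun v hv => ?_) rfl (by rw [rg_mid_univ]; trivial)
  by_contra hcon
  exact hv.2 (hK v (not_lt.1 hcon))

theorem rg_ism_pow_le (x : Fin d → Λ) (k : ℕ) {U : Set (Fin d → ℕ)}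
    (hU : ∀ v : Fin d → ℕ, ∑ i, v i = k → v ∈ U) : ism (idl x ^ k) W ≤ ism (mid x U) W := by
  intro w hw
  obtain ⟨f, rfl⟩ := (mem_ism_idl_pow x k w).1 hw
  exact Submodule.sum_mem _ fun β hβ =>
    rg_smul_mem (rg_mon_mem_mid x (hU β (Finset.Nat.mem_antidiagonalTuple.1 hβ))) _

theorem rg_mon_mem_idlLt (x : Fin d → Λ) {N : ℕ} {v : Fin d → ℕ} {i j : Fin d} (hij : i < j)
    (h : N ≤ v i) : ∏ i, x i ^ v i ∈ idlLt (fun i => x i ^ N) j := by
  classical
  rw [← Finset.mul_prod_erase Finset.univ _ (Finset.mem_univ i), ← Nat.add_sub_cancel' h, pow_add,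
    mul_assoc]
  exact Ideal.mul_mem_right _ _ (Ideal.subset_span ⟨i, hij, rfl⟩)

/-- `Reg.colon_mid` for `U = {v | (∃ i < j, N ≤ v i) ∨ K ≤ |v|}` and `a = N e_j`. -/
theorem Reg.areg {x : Fin d → Λ} (h : Reg x W) (L : ℕ) : AReg 1 x L W := by
  classical
  intro j N K w _ hw
  set U : Set (Fin d → ℕ) := {v | (∃ i, i < j ∧ N ≤ v i) ∨ K ≤ ∑ i, v i} with hUdef
  have hU : IsUpperSet U := by
    rintro v v' hle (⟨i, hi, hN⟩ | hK)
    · exact Or.inl ⟨i, hi, hN.trans (hle i)⟩
    · exact Or.inr (hK.trans (Finset.sum_le_sum fun i _ => hle i))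
  have hsum : ∀ v : Fin d → ℕ, ∑ i, (v + Pi.single j N : Fin d → ℕ) i = ∑ i, v i + N := by
    intro v
    simp [Finset.sum_add_distrib]
  have h1 : (∏ i, x i ^ (Pi.single j N : Fin d → ℕ) i) • w ∈ ism (mid x U) W := by
    rw [rg_prod_single]
    rw [ism, Submodule.sup_smul] at hw
    refine (sup_le (rg_ism_mono ?_) (rg_ism_pow_le x K fun v hv => Or.inr hv.ge) :
      _ ≤ ism (mid x U) W) hw
    refine Ideal.span_le.2 ?_
    rintro _ ⟨i, hi, rfl⟩
    have := rg_mon_mem_mid x (U := U) (v := Pi.single i N) (Or.inl ⟨i, hi, by simp⟩)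
    rwa [rg_prod_single] at this
  have h2 := h.colon_mid hU _ (K := K) (fun v hv => Or.inr (by rw [hsum]; omega)) h1
  rw [one_smul]
  refine rg_ism_mono (rg_mid_le x ?_) h2
  rintro v (⟨i, hi, hN⟩ | hK)
  · refine Ideal.mem_sup_left (rg_mon_mem_idlLt x hi ?_)
    simpa [hi.ne] using hN
  · refine Ideal.mem_sup_right (rg_mon_mem_pow x v ?_)
    rw [hsum] at hK; omega

/-- Powers of a regular sequence.  Induct on `d` from the front (or use Mathlib's
`RingTheory.Sequence.IsWeaklyRegular`): if `x 0 ^ a` replaces `x 0`, filter `W / x 0 ^ a W` by the powers of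
`x 0`; regularity of a sequence passes to extensions (prove this together with exactness of the reductions). -/
theorem Reg.pow {x : Fin d → Λ} (h : Reg x W) {a : Fin d → ℕ} (ha : ∀ i, 0 < a i) :
    Reg (fun i => x i ^ a i) W := by
  exact rg_pow h _ a rfl ha

theorem rg_colen_step {x : Fin d → Λ} (h : Reg x W) {U : Set (Fin d → ℕ)} (hU : IsUpperSet U)
    {b : Fin d → ℕ} (hb : Maximal (· ∈ Uᶜ) b) :
    colen Λ (ism (mid x U) W) = colen Λ (ism (idl x) W) + colen Λ (ism (mid x (insert b U)) W) := by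
  classical
  have hbU : b ∉ U := hb.prop
  have hup : ∀ v : Fin d → ℕ, v ≠ 0 → v + b ∈ U := by
    intro v hv
    by_contra hcon
    have := hb.le_of_ge hcon (le_add_of_nonneg_left zero_le)
    exact hv (le_antisymm (by simpa using this) zero_le)
  let f : (W ⧸ ism (idl x) W) →ₗ[Λ] W ⧸ ism (mid x U) W :=
    Submodule.mapQ _ _ (LinearMap.lsmul Λ W (∏ i, x i ^ b i)) (fun w hw => by
      refine rg_mul_idl x b (fun j => rg_mon_mem_mid x ?_) hw
      rw [add_comm]
      exact hup _ (by simp))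
  let g : (W ⧸ ism (mid x U) W) →ₗ[Λ] W ⧸ ism (mid x (insert b U)) W :=
    Submodule.factor (rg_ism_mono (Ideal.span_mono (Set.image_mono (Set.subset_insert _ _))))
  refine Module.length_eq_add_of_exact f g ?_ (Submodule.factor_surjective _) ?_
  · rw [← LinearMap.ker_eq_bot, eq_bot_iff]
    intro w hw
    obtain ⟨w, rfl⟩ := Submodule.Quotient.mk_surjective _ w
    have h1 : (∏ i, x i ^ b i) • w ∈ ism (mid x U) W := (Submodule.Quotient.mk_eq_zero _).1 hw
    have h2 := h.colon_mid hU b (K := 1) (fun v hv => hup v (by rintro rfl; simp at hv)) h1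
    refine (Submodule.Quotient.mk_eq_zero _).2 (rg_ism_mono (rg_mid_le x fun v hv => ?_) h2)
    have := rg_mon_mem_of_not_le x (c := 0) (v := v) (fun hle => hbU (by
      have : v = 0 := le_antisymm hle zero_le
      simpa [this] using hv))
    simpa using this
  · intro w
    obtain ⟨w, rfl⟩ := Submodule.Quotient.mk_surjective _ w
    constructor
    · intro hw
      obtain ⟨u, hu, v, rfl⟩ := rg_mem_mid_insert x ((Submodule.Quotient.mk_eq_zero _).1 hw)
      refine ⟨Submodule.Quotient.mk v, ?_⟩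
      rw [Submodule.Quotient.mk_add, (Submodule.Quotient.mk_eq_zero _).2 hu, zero_add]
      rfl
    · rintro ⟨v, hv⟩
      obtain ⟨v, rfl⟩ := Submodule.Quotient.mk_surjective _ v
      rw [← hv]
      exact (Submodule.Quotient.mk_eq_zero _).2 (rg_smul_mem (rg_mon_mem_mid x (Set.mem_insert _ _)) v)

/-- Add the monomials of the complement one at a time (largest degree first); each step is `W / x W` by
`Reg.colon_mid`. -/
theorem Reg.colen_mid {x : Fin d → Λ} (h : Reg x W) {U : Set (Fin d → ℕ)} (hU : IsUpperSet U)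
    (hfin : Uᶜ.Finite) : colen Λ (ism (mid x U) W) = (Uᶜ.ncard : ℕ) * colen Λ (ism (idl x) W) := by
  induction hn : Uᶜ.ncard generalizing U with
  | zero =>
    rw [Set.ncard_eq_zero hfin, Set.compl_empty_iff] at hn
    subst hn
    rw [rg_mid_univ]
    simp [colen]
  | succ n ih =>
    obtain ⟨b, hb⟩ := hfin.exists_maximal (Set.nonempty_of_ncard_ne_zero (by omega))
    have e : (insert b U)ᶜ = Uᶜ \ {b} := by
      ext v; simp only [Set.mem_compl_iff, Set.mem_insert_iff, Set.mem_sdiff, Set.mem_singleton_iff]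
      tauto
    have hU' : IsUpperSet (insert b U) := by
      rintro v v' hle (rfl | hv)
      · by_cases hv' : v' ∈ U
        · exact Or.inr hv'
        · exact Or.inl (le_antisymm (hb.le_of_ge hv' hle) hle)
      · exact Or.inr (hU hle hv)
    rw [rg_colen_step h hU hb, ih hU' (e ▸ hfin.subset Set.sdiff_subset)
      (by rw [e, Set.ncard_sdiff_singleton_of_mem hb.prop, hn]; rfl)]
    push_cast
    ring

theorem Reg.colen_exp {x : Fin d → Λ} (h : Reg x W) (a : Fin d → ℕ) :
    colen Λ (ism (idl fun i => x i ^ a i) W) = (∏ i, a i : ℕ) * colen Λ (ism (idl x) W) := by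
  classical
  set U : Set (Fin d → ℕ) := {v | ∃ i, a i ≤ v i} with hUdef
  have hU : IsUpperSet U := by
    rintro v v' hle ⟨i, hi⟩
    exact ⟨i, hi.trans (hle i)⟩
  have e : Uᶜ = ↑(Fintype.piFinset fun i => Finset.range (a i)) := by
    ext v; simp [hUdef]
  have e2 : (idl fun i => x i ^ a i) = mid x U := by
    refine le_antisymm (Ideal.span_le.2 ?_) (rg_mid_le x fun v ⟨i, hi⟩ => rg_mon_mem_of_le x hi)
    rintro _ ⟨i, rfl⟩
    have := rg_mon_mem_mid x (U := U) (v := Pi.single i (a i)) ⟨i, by simp⟩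
    rwa [rg_prod_single] at this
  rw [e2, h.colen_mid hU (e ▸ Finset.finite_toSet _), e, Set.ncard_coe_finset, Fintype.card_piFinset]
  simp

theorem Reg.colen_br {x : Fin d → Λ} (h : Reg x W) (t : ℕ) :
    colen Λ (ism (br x t) W) = (t ^ d : ℕ) * colen Λ (ism (idl x) W) := by
  have := h.colen_exp fun _ => t
  rw [Finset.prod_const, Finset.card_univ, Fintype.card_fin] at this
  exact this

theorem rg_card_tuple (d k : ℕ) : (Finset.Nat.antidiagonalTuple d k).card = d.multichoose k := by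
  classical
  have h := Finset.card_finsuppAntidiag_nat_eq_multichoose (s := (Finset.univ : Finset (Fin d))) k
  rw [Finset.card_univ, Fintype.card_fin] at h
  rw [← h]
  refine Finset.card_bij (fun v _ => Finsupp.equivFunOnFinite.symm v) (fun v hv => ?_)
    (fun v _ v' _ e => Finsupp.equivFunOnFinite.symm.injective e) (fun f hf => ?_)
  · rw [Finset.mem_finsuppAntidiag]
    exact ⟨by simpa using Finset.Nat.mem_antidiagonalTuple.1 hv, Finset.subset_univ _⟩
  · rw [Finset.mem_finsuppAntidiag] at hf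
    exact ⟨f, Finset.Nat.mem_antidiagonalTuple.2 hf.1, by simp⟩

theorem rg_ncard_lt (hd : 0 < d) (k : ℕ) :
    {v : Fin d → ℕ | ∑ i, v i < k}.ncard = (k + d - 1).choose d := by
  classical
  have e : {v : Fin d → ℕ | ∑ i, v i < k} =
      ↑((Finset.range k).biUnion fun j => Finset.Nat.antidiagonalTuple d j) := by
    ext v; simp [Finset.Nat.mem_antidiagonalTuple]
  rw [e, Set.ncard_coe_finset, Finset.card_biUnion]
  · simp only [rg_card_tuple]
    rcases k with _ | k
    · simp only [Finset.range_zero, Finset.sum_empty, zero_add]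
      exact (Nat.choose_eq_zero_of_lt (by omega)).symm
    · rw [Nat.sum_range_multichoose]
      congr 1; omega
  · intro i _ j _ hij
    refine Finset.disjoint_left.2 fun v hi hj => hij ?_
    rw [Finset.Nat.mem_antidiagonalTuple] at hi hj
    omega

theorem Reg.colen_idl_pow {x : Fin d → Λ} (h : Reg x W) (hd : 0 < d) (k : ℕ) :
    colen Λ (ism (idl x ^ k) W) = ((k + d - 1).choose d : ℕ) * colen Λ (ism (idl x) W) := by
  set U : Set (Fin d → ℕ) := {v | k ≤ ∑ i, v i} with hUdef
  have hU : IsUpperSet U := fun v v' hle hv =>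
    le_trans hv (Finset.sum_le_sum fun i _ => hle i)
  have e : Uᶜ = {v : Fin d → ℕ | ∑ i, v i < k} := by
    ext v; simp [hUdef]
  have e2 : ism (idl x ^ k) W = ism (mid x U) W :=
    le_antisymm (rg_ism_pow_le x k fun v hv => hv.ge)
      (rg_ism_mono (rg_mid_le x fun v hv => rg_mon_mem_pow x v hv))
  rw [e2, h.colen_mid hU (e ▸ rg_finite_lt k), e, rg_ncard_lt hd]

end Crest.Agent.R183
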