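import Crest.Agent.R183.Reg

/-!
# rid 183, file `Reg2`: stability properties and examples of regular sequences

Prefix helper lemmas with `rg2_`.
-/

set_option autoImplicit false

namespace Crest.Agent.R183

variable {Λ : Type} [CommRing Λ] {d : ℕ} {W : Type} [AddCommGroup W] [Module Λ W]

theorem rg2_map_mem {W' : Type} [AddCommGroup W'] [Module Λ W'] (f : W →ₗ[Λ] W') {J : Ideal Λ}
    {w : W} (h : w ∈ ism J W) : f w ∈ ism J W' :=
  Submodule.smul_top_le_comap_smul_top J f h

theorem rg2_mem_pi {ι : Type} [Finite ι] {J : Ideal Λ} {w : ι → W} :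
    w ∈ ism J (ι → W) ↔ ∀ i, w i ∈ ism J W := by
  classical
  have := Fintype.ofFinite ι
  refine ⟨fun h i => rg2_map_mem (LinearMap.proj i : (ι → W) →ₗ[Λ] W) h, fun h => ?_⟩
  rw [← Finset.univ_sum_single w]
  exact Submodule.sum_mem _ fun i _ => rg2_map_mem (LinearMap.single Λ (fun _ => W) i) (h i)

theorem rg2_mem_self {J : Ideal Λ} {a : Λ} : a ∈ ism J Λ ↔ a ∈ J := by
  rw [ism, smul_eq_mul, Ideal.mul_top]

theorem rg2_mono {J J' : Ideal Λ} (h : J ≤ J') : ism J W ≤ ism J' W :=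
  Submodule.smul_mono_left h

theorem rg2_mem_quot {J : Ideal Λ} {U : Submodule Λ W} (hU : U ≤ ism J W) {w : W} :
    (Submodule.Quotient.mk w : W ⧸ U) ∈ ism J (W ⧸ U) ↔ w ∈ ism J W := by
  refine ⟨fun h => ?_, fun h => rg2_map_mem U.mkQ h⟩
  have e : ism J (W ⧸ U) = (ism J W).map U.mkQ := by
    rw [Submodule.map_smul'', Submodule.map_top, Submodule.range_mkQ]
  rw [e] at h
  have h2 : w ∈ ((ism J W).map U.mkQ).comap U.mkQ := h
  rwa [Submodule.comap_map_mkQ, sup_eq_right.mpr hU] at h2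

theorem rg2_reg_self {x : Fin d → Λ} :
    Reg x Λ ↔ ∀ j w, x j * w ∈ idlLt x j → w ∈ idlLt x j := by
  simp only [Reg, ism, smul_eq_mul, Ideal.mul_top]

theorem rg2_flat [Module.Flat Λ W] {x : Fin d → Λ} (h : Reg x Λ) : Reg x W := by
  intro j
  have h1 : IsSMulRegular (Λ ⧸ idlLt x j) (x j) :=
    (isSMulRegular_quotient_iff_mem_of_smul_mem (idlLt x j) (x j)).mpr (rg2_reg_self.mp h j)
  exact (isSMulRegular_quotient_iff_mem_of_smul_mem _ _).mp
    (((TensorProduct.tensorQuotEquivQuotSMul W (idlLt x j)).isSMulRegular_congr (x j)).mp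
      (h1.lTensor W))

theorem rg2_idlLt_map {Λ' : Type} [CommRing Λ'] (f : Λ →+* Λ') (x : Fin d → Λ) (j : Fin d) :
    idlLt (fun i => f (x i)) j = (idlLt x j).map f := by
  rw [idlLt, idlLt, Ideal.map_span, Set.image_image]

theorem rg2_idl_map {Λ' : Type} [CommRing Λ'] (f : Λ →+* Λ') (x : Fin d → Λ) :
    idl (fun i => f (x i)) = (idl x).map f := by
  rw [idl, idl, Ideal.map_span, ← Set.range_comp]
  rfl

theorem rg2_idlLt_castAdd {a b : ℕ} (r : Fin a → Λ) (x : Fin b → Λ) (j : Fin a) :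
    idlLt (Fin.append r x) (Fin.castAdd b j) = idlLt r j := by
  unfold idlLt
  congr 1
  ext y
  constructor
  · rintro ⟨i, hi, rfl⟩
    induction i using Fin.addCases with
    | left i => exact ⟨i, hi, (Fin.append_left r x i).symm⟩
    | right i =>
      exfalso
      have h1 : a + (i : ℕ) < j := hi
      omega
  · rintro ⟨i, hi, rfl⟩
    exact ⟨Fin.castAdd b i, hi, Fin.append_left r x i⟩

theorem rg2_idlLt_natAdd {a b : ℕ} (r : Fin a → Λ) (x : Fin b → Λ) (j : Fin b) :
    idlLt (Fin.append r x) (Fin.natAdd a j) = idl r ⊔ idlLt x j := by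
  unfold idlLt idl
  rw [← Ideal.span_union]
  congr 1
  ext y
  constructor
  · rintro ⟨i, hi, rfl⟩
    induction i using Fin.addCases with
    | left i => exact Or.inl ⟨i, (Fin.append_left r x i).symm⟩
    | right i =>
      have h1 : a + (i : ℕ) < a + j := hi
      exact Or.inr ⟨i, (by change (i : ℕ) < j; omega), (Fin.append_right r x i).symm⟩
  · rintro (⟨i, rfl⟩ | ⟨i, hi, rfl⟩)
    · refine ⟨Fin.castAdd b i, ?_, Fin.append_left r x i⟩
      change (i : ℕ) < a + j
      omega
    · refine ⟨Fin.natAdd a i, ?_, Fin.append_right r x i⟩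
      have h1 : (i : ℕ) < j := hi
      change a + (i : ℕ) < a + j
      omega

theorem Reg.pi {x : Fin d → Λ} (h : Reg x W) (ι : Type) [Finite ι] : Reg x (ι → W) := by
  intro j w hw
  rw [rg2_mem_pi] at hw ⊢
  exact fun i => h j (w i) (hw i)

theorem Reg.of_equiv {W' : Type} [AddCommGroup W'] [Module Λ W'] {x : Fin d → Λ} (h : Reg x W)
    (e : W ≃ₗ[Λ] W') : Reg x W' := by
  intro j w hw
  have h1 := rg2_map_mem (e.symm : W' →ₗ[Λ] W) hw
  rw [map_smul] at h1
  simpa using rg2_map_mem (e : W →ₗ[Λ] W') (h j _ h1)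

theorem Reg.of_free {x : Fin d → Λ} (h : Reg x Λ) [Module.Free Λ W] [Module.Finite Λ W] : Reg x W := by
  exact rg2_flat h

theorem AReg.pi {γ : Λ} {x : Fin d → Λ} {L : ℕ} (h : AReg γ x L W) (ι : Type) [Finite ι] :
    AReg γ x L (ι → W) := by
  intro j N K w hK hw
  rw [rg2_mem_pi] at hw ⊢
  exact fun i => h j N K (w i) hK (hw i)

theorem AReg.mono {γ : Λ} {x : Fin d → Λ} {L L' : ℕ} (h : AReg γ x L W) (hL : L' ≤ L) :
    AReg γ x L' W := by
  exact fun j N K w hK hw => h j N K w (hK.trans hL) hw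

/-- Almost regularity passes to a quotient by a submodule of `(x)^L W`. -/
theorem AReg.quot {γ : Λ} {x : Fin d → Λ} {L : ℕ} (h : AReg γ x L W) {U : Submodule Λ W}
    (hU : U ≤ ism (idl x ^ L) W) : AReg γ x L (W ⧸ U) := by
  intro j N K w hK hw
  obtain ⟨w, rfl⟩ := Submodule.Quotient.mk_surjective U w
  rw [← Submodule.Quotient.mk_smul, rg2_mem_quot
    (hU.trans (rg2_mono ((Ideal.pow_le_pow_right hK).trans le_sup_right)))] at hw
  exact rg2_map_mem U.mkQ (h j N K w hK hw)

/-- Sandwich: apply `β`, use regularity on `V`, apply `ι`. -/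
theorem AReg.of_sandwich {V : Type} [AddCommGroup V] [Module Λ V] {γ : Λ} {x : Fin d → Λ} {L : ℕ}
    (h : AReg 1 x L V) (β : W →ₗ[Λ] V) (ι : V →ₗ[Λ] W ⧸ ism (idl x ^ L) W)
    (hι : ∀ w, ι (β w) = Submodule.Quotient.mk (γ • w)) : AReg γ x L W := by
  intro j N K w hK hw
  have h1 := rg2_map_mem β hw
  rw [map_smul] at h1
  have h2 := rg2_map_mem ι (h j N K _ hK h1)
  rwa [one_smul, hι, rg2_mem_quot
    (rg2_mono ((Ideal.pow_le_pow_right (by omega)).trans le_sup_right))] at h2

section scalars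

variable {Λ' : Type} [CommRing Λ'] [Algebra Λ Λ'] [Module Λ' W] [IsScalarTower Λ Λ' W]

theorem rg2_mem_map {J : Ideal Λ} {w : W} : w ∈ ism (J.map (algebraMap Λ Λ')) W ↔ w ∈ ism J W := by
  have := Ideal.smul_restrictScalars J (⊤ : Submodule Λ' W)
  rw [Submodule.restrictScalars_top] at this
  rw [ism, ism, ← this, Submodule.restrictScalars_mem]

theorem reg_algebraMap_iff (x : Fin d → Λ) : Reg (fun i => algebraMap Λ Λ' (x i)) W ↔ Reg x W := by
  simp only [Reg, rg2_idlLt_map, rg2_mem_map, algebraMap_smul]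

theorem areg_algebraMap_iff (γ : Λ) (x : Fin d → Λ) (L : ℕ) :
    AReg (algebraMap Λ Λ' γ) (fun i => algebraMap Λ Λ' (x i)) L W ↔ AReg γ x L W := by
  simp only [AReg, ← map_pow, rg2_idlLt_map, rg2_idl_map, ← Ideal.map_pow, ← Ideal.map_sup,
    rg2_mem_map, algebraMap_smul]

end scalars

/-- Flat base change (e.g. localisation): `Λ' / J Λ' = Λ' ⊗ Λ / J`, and tensoring preserves injectivity. -/
theorem Reg.of_flat {Λ' : Type} [CommRing Λ'] [Algebra Λ Λ'] [Module.Flat Λ Λ'] {x : Fin d → Λ}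
    (h : Reg x Λ) : Reg (fun i => algebraMap Λ Λ' (x i)) Λ' := by
  exact (reg_algebraMap_iff x).mpr (rg2_flat h)

/-- The tail of a regular sequence is regular on the quotient ring by the head. -/
theorem Reg.quot_append {a b : ℕ} {r : Fin a → Λ} {x : Fin b → Λ} (h : Reg (Fin.append r x) Λ) :
    Reg (fun i => Ideal.Quotient.mk (idl r) (x i)) (Λ ⧸ idl r) := by
  rw [rg2_reg_self] at h ⊢
  intro j w hw
  obtain ⟨w, rfl⟩ := Ideal.Quotient.mk_surjective w
  have := h (Fin.natAdd a j) w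
  rw [rg2_idlLt_natAdd, Fin.append_right, sup_comm] at this
  rw [rg2_idlLt_map] at hw ⊢
  rw [← map_mul] at hw
  rw [Ideal.mem_quotient_iff_mem_sup] at hw ⊢
  exact this hw

theorem rg2_mem_poly_ideal {σ : Type} (J : Ideal Λ) (s : Set σ) (f : MvPolynomial σ Λ) :
    f ∈ J.map (MvPolynomial.C : Λ →+* MvPolynomial σ Λ) ⊔
        Ideal.span ((MvPolynomial.X : σ → MvPolynomial σ Λ) '' s) ↔
      ∀ β : σ →₀ ℕ, (∀ i ∈ s, β i = 0) → MvPolynomial.coeff β f ∈ J := by
  classical
  constructor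
  · intro h β hβ
    obtain ⟨f₁, h₁, f₂, h₂, rfl⟩ := Submodule.mem_sup.mp h
    rw [MvPolynomial.mem_map_C_iff] at h₁
    rw [MvPolynomial.mem_ideal_span_X_image] at h₂
    have : MvPolynomial.coeff β f₂ = 0 := by
      by_contra h0
      obtain ⟨i, hi, hne⟩ := h₂ β (MvPolynomial.mem_support_iff.mpr h0)
      exact hne (hβ i hi)
    rw [MvPolynomial.coeff_add, this, add_zero]
    exact h₁ β
  · intro h
    rw [f.as_sum]
    refine Ideal.sum_mem _ fun β _ => ?_
    by_cases hβ : ∀ i ∈ s, β i = 0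
    · refine Ideal.mem_sup_left ?_
      rw [← mul_one (MvPolynomial.coeff β f), ← MvPolynomial.C_mul_monomial]
      exact Ideal.mul_mem_right _ _ (Ideal.mem_map_of_mem _ (h β hβ))
    · refine Ideal.mem_sup_right (MvPolynomial.mem_ideal_span_X_image.mpr fun m hm => ?_)
      obtain rfl : m = β := Finset.mem_singleton.mp (MvPolynomial.support_monomial_subset hm)
      push Not at hβ
      exact hβ

theorem rg2_poly_step {σ : Type} (J : Ideal Λ) {s : Set σ} {t : σ} (ht : t ∉ s)
    {f : MvPolynomial σ Λ}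
    (h : MvPolynomial.X t * f ∈ J.map (MvPolynomial.C : Λ →+* MvPolynomial σ Λ) ⊔
        Ideal.span ((MvPolynomial.X : σ → MvPolynomial σ Λ) '' s)) :
    f ∈ J.map (MvPolynomial.C : Λ →+* MvPolynomial σ Λ) ⊔
        Ideal.span ((MvPolynomial.X : σ → MvPolynomial σ Λ) '' s) := by
  rw [rg2_mem_poly_ideal] at h ⊢
  intro β hβ
  rw [← MvPolynomial.coeff_X_mul β t f]
  refine h _ fun i hi => ?_
  have : i ≠ t := fun e => ht (e ▸ hi)
  rw [Finsupp.add_apply, hβ i hi, Finsupp.single_eq_of_ne this]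

/-- Membership in `(C x_{<j})` and in `(C x, X_{<j})` is read off coefficientwise. -/
theorem Reg.append_X {a b : ℕ} {σ : Type} (e : Fin b ≃ σ) {x : Fin a → Λ} (h : Reg x Λ) :
    Reg (Fin.append (fun i => (MvPolynomial.C (x i) : MvPolynomial σ Λ))
      (fun j => MvPolynomial.X (e j))) (MvPolynomial σ Λ) := by
  rw [rg2_reg_self] at h ⊢
  intro j w
  induction j using Fin.addCases with
  | left j =>
    rw [rg2_idlLt_castAdd, Fin.append_left,
      rg2_idlLt_map (MvPolynomial.C : Λ →+* MvPolynomial σ Λ), MvPolynomial.mem_map_C_iff,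
      MvPolynomial.mem_map_C_iff]
    intro hw m
    refine h j _ ?_
    simpa using hw m
  | right j =>
    rw [rg2_idlLt_natAdd, Fin.append_right, rg2_idl_map (MvPolynomial.C : Λ →+* MvPolynomial σ Λ),
      idlLt, ← Set.image_image MvPolynomial.X e]
    refine rg2_poly_step _ ?_
    rintro ⟨i, hi, hij⟩
    exact absurd (e.injective hij) (ne_of_lt hi)

theorem reg_X_poly (d : ℕ) (Λ : Type) [CommRing Λ] :
    Reg (MvPolynomial.X : Fin d → MvPolynomial (Fin d) Λ) (MvPolynomial (Fin d) Λ) := by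
  rw [rg2_reg_self]
  intro j w
  have := rg2_poly_step (f := w) (⊥ : Ideal Λ) (s := {i | i < j}) (t := j) (lt_irrefl j)
  rwa [Ideal.map_bot, bot_sup_eq] at this

/-- A power series lies in `J ⟦X⟧ + (X_i : i ∈ s)` (`J` finitely generated) iff its coefficients at the monomials
not involving the `X_i`, `i ∈ s`, lie in `J`. -/
theorem mem_ps_ideal {d : ℕ} (J : Ideal Λ) (hJ : J.FG) (s : Set (Fin d)) (f : MvPowerSeries (Fin d) Λ) :
    f ∈ J.map (MvPowerSeries.C : Λ →+* MvPowerSeries (Fin d) Λ) ⊔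
        Ideal.span ((MvPowerSeries.X : Fin d → MvPowerSeries (Fin d) Λ) '' s) ↔
      ∀ β : Fin d →₀ ℕ, (∀ i ∈ s, β i = 0) → MvPowerSeries.coeff β f ∈ J := by
  classical
  constructor
  · intro h
    let K : Ideal (MvPowerSeries (Fin d) Λ) :=
      { carrier := {f | ∀ β : Fin d →₀ ℕ, (∀ i ∈ s, β i = 0) → MvPowerSeries.coeff β f ∈ J}
        add_mem' := fun {f g} hf hg β hβ => by
          rw [map_add]
          exact J.add_mem (hf β hβ) (hg β hβ)
        zero_mem' := fun β _ => by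
          rw [map_zero]
          exact J.zero_mem
        smul_mem' := fun g f hf β hβ => by
          rw [smul_eq_mul, MvPowerSeries.coeff_mul]
          refine J.sum_mem fun q hq => J.mul_mem_left _ (hf _ fun i hi => ?_)
          have h1 := congrArg (fun m : Fin d →₀ ℕ => m i) (Finset.HasAntidiagonal.mem_antidiagonal.mp hq)
          have h2 := hβ i hi
          simp only [Finsupp.add_apply] at h1
          omega }
    have hle : J.map (MvPowerSeries.C : Λ →+* MvPowerSeries (Fin d) Λ) ⊔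
        Ideal.span ((MvPowerSeries.X : Fin d → MvPowerSeries (Fin d) Λ) '' s) ≤ K := by
      refine sup_le (Ideal.map_le_iff_le_comap.mpr fun a ha β _ => ?_) (Ideal.span_le.mpr ?_)
      · rw [MvPowerSeries.coeff_C]
        split_ifs
        · exact ha
        · exact J.zero_mem
      · rintro _ ⟨i, hi, rfl⟩ β hβ
        rw [MvPowerSeries.coeff_X, if_neg]
        · exact J.zero_mem
        · rintro rfl
          simpa using hβ i hi
    exact hle h
  · intro h
    obtain ⟨n, g, rfl⟩ := Submodule.fg_iff_exists_fin_generating_family.mp hJ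
    have h1 : ∀ β : Fin d →₀ ℕ, ∃ c : Fin n → Λ, ∃ e : Fin d → Λ,
        (∀ i, e i ≠ 0 → i ∈ s ∧ β i ≠ 0) ∧
          MvPowerSeries.coeff β f = ∑ k, c k * g k + ∑ i, e i := by
      intro β
      by_cases hβ : ∀ i ∈ s, β i = 0
      · obtain ⟨c, hc⟩ := (Submodule.mem_span_range_iff_exists_fun Λ).mp (h β hβ)
        exact ⟨c, 0, fun i hi => absurd rfl hi, by simpa using hc.symm⟩
      · push Not at hβ
        obtain ⟨i, hi, hne⟩ := hβ
        refine ⟨0, Pi.single i (MvPowerSeries.coeff β f), fun k hk => ?_, by simp⟩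
        obtain rfl : k = i := by
          by_contra hki
          exact hk (Pi.single_eq_of_ne hki _)
        exact ⟨hi, hne⟩
    choose c e he hf using h1
    let c' : Fin n → MvPowerSeries (Fin d) Λ := fun k β => c β k
    let e' : Fin d → MvPowerSeries (Fin d) Λ := fun i β => e β i
    have hsum : f = ∑ k, c' k * MvPowerSeries.C (g k) + ∑ i, e' i := by
      ext β
      simp only [map_add, map_sum, MvPowerSeries.coeff_mul_C]
      exact hf β
    rw [hsum]
    refine Ideal.add_mem _ (Ideal.mem_sup_left (Ideal.sum_mem _ fun k _ => ?_))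
      (Ideal.mem_sup_right (Ideal.sum_mem _ fun i _ => ?_))
    · exact Ideal.mul_mem_left _ _ (Ideal.mem_map_of_mem _ (Submodule.subset_span ⟨k, rfl⟩))
    · by_cases hi : i ∈ s
      · refine Ideal.mem_of_dvd _ (MvPowerSeries.X_dvd_iff.mpr fun m hm => ?_)
          (Ideal.subset_span ⟨i, hi, rfl⟩)
        by_contra h0
        exact (he m i h0).2 hm
      · have : e' i = 0 := by
          ext m
          by_contra h0
          exact hi (he m i h0).1
        rw [this]
        exact Ideal.zero_mem _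

theorem rg2_ps_step {d : ℕ} (J : Ideal Λ) (hJ : J.FG) {s : Set (Fin d)} {t : Fin d} (ht : t ∉ s)
    {f : MvPowerSeries (Fin d) Λ}
    (h : MvPowerSeries.X t * f ∈ J.map (MvPowerSeries.C : Λ →+* MvPowerSeries (Fin d) Λ) ⊔
        Ideal.span ((MvPowerSeries.X : Fin d → MvPowerSeries (Fin d) Λ) '' s)) :
    f ∈ J.map (MvPowerSeries.C : Λ →+* MvPowerSeries (Fin d) Λ) ⊔
        Ideal.span ((MvPowerSeries.X : Fin d → MvPowerSeries (Fin d) Λ) '' s) := by
  rw [mem_ps_ideal J hJ] at h ⊢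
  intro β hβ
  have e : MvPowerSeries.coeff (Finsupp.single t 1 + β) (MvPowerSeries.X t * f) =
      MvPowerSeries.coeff β f := by
    rw [MvPowerSeries.X_def, MvPowerSeries.coeff_add_monomial_mul, one_mul]
  rw [← e]
  refine h _ fun i hi => ?_
  have : i ≠ t := fun e => ht (e ▸ hi)
  rw [Finsupp.add_apply, hβ i hi, Finsupp.single_eq_of_ne this]

theorem reg_X_ps (d : ℕ) (Λ : Type) [CommRing Λ] :
    Reg (MvPowerSeries.X : Fin d → MvPowerSeries (Fin d) Λ) (MvPowerSeries (Fin d) Λ) := by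
  rw [rg2_reg_self]
  intro j w
  have := rg2_ps_step (f := w) (⊥ : Ideal Λ) Submodule.fg_bot (s := {i | i < j}) (t := j)
    (lt_irrefl j)
  rwa [Ideal.map_bot, bot_sup_eq] at this

theorem reg_cons_X_ps (d : ℕ) [IsDomain Λ] {a : Λ} (ha : a ≠ 0) [(Ideal.span {a}).IsPrime] :
    Reg (Fin.cons (MvPowerSeries.C a) MvPowerSeries.X : Fin (d + 1) → MvPowerSeries (Fin d) Λ)
      (MvPowerSeries (Fin d) Λ) := by
  rw [rg2_reg_self]
  intro j w
  induction j using Fin.cases with
  | zero =>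
    have e : idlLt (Fin.cons (MvPowerSeries.C a) MvPowerSeries.X :
        Fin (d + 1) → MvPowerSeries (Fin d) Λ) 0 = ⊥ := by
      simp [idlLt]
    rw [e, Fin.cons_zero, Ideal.mem_bot, Ideal.mem_bot]
    intro hw
    ext β
    have := congrArg (MvPowerSeries.coeff β) hw
    rw [MvPowerSeries.coeff_C_mul, map_zero] at this
    exact (mul_eq_zero.mp this).resolve_left ha
  | succ j =>
    have e : idlLt (Fin.cons (MvPowerSeries.C a) MvPowerSeries.X :
        Fin (d + 1) → MvPowerSeries (Fin d) Λ) j.succ =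
        (Ideal.span {a}).map (MvPowerSeries.C : Λ →+* MvPowerSeries (Fin d) Λ) ⊔
          Ideal.span ((MvPowerSeries.X : Fin d → MvPowerSeries (Fin d) Λ) '' {i | i < j}) := by
      rw [Ideal.map_span, ← Ideal.span_union, idlLt]
      congr 1
      ext y
      constructor
      · rintro ⟨i, hi, rfl⟩
        induction i using Fin.cases with
        | zero => exact Or.inl ⟨a, rfl, rfl⟩
        | succ i => exact Or.inr ⟨i, Fin.succ_lt_succ_iff.mp hi, rfl⟩
      · rintro (⟨_, rfl, rfl⟩ | ⟨i, hi, rfl⟩)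
        · exact ⟨0, Fin.succ_pos j, rfl⟩
        · exact ⟨i.succ, Fin.succ_lt_succ_iff.mpr hi, rfl⟩
    rw [e, Fin.cons_succ]
    exact rg2_ps_step _ (Submodule.fg_span_singleton a) (lt_irrefl j)

end Crest.Agent.R183
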