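import Crest.Agent.R183.Len

/-!
# rid 183, file `RegAux`: auxiliary lemmas on regular sequences (prefix `rg_`)
-/

set_option autoImplicit false

namespace Crest.Agent.R183

variable {Λ : Type} [CommRing Λ] {d : ℕ} {W : Type} [AddCommGroup W] [Module Λ W]

theorem rg_smul_mem {J : Ideal Λ} {a : Λ} (ha : a ∈ J) (v : W) : a • v ∈ ism J W :=
  Submodule.smul_mem_smul ha Submodule.mem_top

theorem rg_ism_mono {J J' : Ideal Λ} (h : J ≤ J') : ism J W ≤ ism J' W :=
  Submodule.smul_mono_left h

theorem rg_map_mem {W' : Type} [AddCommGroup W'] [Module Λ W'] (f : W →ₗ[Λ] W') {J : Ideal Λ} {w : W}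
    (hw : w ∈ ism J W) : f w ∈ ism J W' := by
  refine Submodule.smul_induction_on hw (fun r hr n _ => ?_) (fun a b ha hb => ?_)
  · rw [map_smul]; exact rg_smul_mem hr _
  · rw [map_add]; exact Submodule.add_mem _ ha hb

theorem rg_smul_mem_of {J J' : Ideal Λ} {a : Λ} (h : ∀ r ∈ J, a * r ∈ J') {w : W}
    (hw : w ∈ ism J W) : a • w ∈ ism J' W := by
  refine Submodule.smul_induction_on hw (fun r hr n _ => ?_) (fun u v hu hv => ?_)
  · rw [smul_smul]; exact rg_smul_mem (h r hr) _
  · rw [smul_add]; exact Submodule.add_mem _ hu hv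

theorem rg_mem_insert {s : Set Λ} {a : Λ} {w : W} (hw : w ∈ ism (Ideal.span (insert a s)) W) :
    ∃ u ∈ ism (Ideal.span s) W, ∃ v : W, w = u + a • v := by
  refine Submodule.smul_induction_on hw (fun r hr n _ => ?_) (fun u v hu hv => ?_)
  · obtain ⟨c, z, hz, rfl⟩ := Ideal.mem_span_insert.1 hr
    exact ⟨z • n, rg_smul_mem hz _, c • n, by rw [add_smul, smul_smul, mul_comm a c, add_comm]⟩
  · obtain ⟨u1, hu1, v1, rfl⟩ := hu
    obtain ⟨u2, hu2, v2, rfl⟩ := hv
    exact ⟨u1 + u2, Submodule.add_mem _ hu1 hu2, v1 + v2, by rw [smul_add]; abel⟩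

theorem rg_exists_sum (x : Fin d → Λ) (S : Set (Fin d)) (N : Submodule Λ W) {w : W}
    (hw : w ∈ Ideal.span (x '' S) • N) :
    ∃ b : Fin d → W, (∀ i, b i ∈ N) ∧ (∀ i, i ∉ S → b i = 0) ∧ w = ∑ i, x i • b i := by
  classical
  refine Submodule.smul_induction_on hw (fun r hr n hn => ?_) (fun u v hu hv => ?_)
  · induction hr using Submodule.span_induction generalizing n with
    | mem r hr =>
      obtain ⟨i, hi, rfl⟩ := hr
      refine ⟨Pi.single i n, fun j => ?_, fun j hj => ?_, ?_⟩
      · by_cases h : j = i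
        · subst h; simpa using hn
        · simp [h]
      · have : j ≠ i := fun h => hj (h ▸ hi)
        simp [this]
      · rw [Finset.sum_eq_single i] <;> simp +contextual
    | zero => exact ⟨0, fun _ => N.zero_mem, fun _ _ => rfl, by simp⟩
    | add r s _ _ hr hs =>
      obtain ⟨b, hb, hb0, e⟩ := hr n hn
      obtain ⟨c, hc, hc0, e'⟩ := hs n hn
      refine ⟨b + c, fun i => N.add_mem (hb i) (hc i), fun i hi => by simp [hb0 i hi, hc0 i hi], ?_⟩
      rw [add_smul, e, e', ← Finset.sum_add_distrib]
      simp [smul_add]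
    | smul c r _ hr =>
      obtain ⟨b, hb, hb0, e⟩ := hr (c • n) (N.smul_mem c hn)
      refine ⟨b, hb, hb0, ?_⟩
      rw [← e, smul_eq_mul, smul_smul, mul_comm]
  · obtain ⟨b, hb, hb0, rfl⟩ := hu
    obtain ⟨c, hc, hc0, rfl⟩ := hv
    refine ⟨b + c, fun i => N.add_mem (hb i) (hc i), fun i hi => by simp [hb0 i hi, hc0 i hi], ?_⟩
    rw [← Finset.sum_add_distrib]
    simp [smul_add]

/-- In a regular sequence every element is regular modulo the other ones (truncated version). -/
theorem rg_K {z : Fin d → Λ} (h : Reg z W) (j : Fin d) (m : ℕ) (hm : j.1 < m) (w : W)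
    (hw : z j • w ∈ ism (Ideal.span (z '' {i | i.1 < m ∧ i ≠ j})) W) :
    w ∈ ism (Ideal.span (z '' {i | i.1 < m ∧ i ≠ j})) W := by
  induction m, hm using Nat.le_induction generalizing w with
  | base =>
    have e : {i : Fin d | i.1 < j.1 + 1 ∧ i ≠ j} = {i | i < j} := by
      ext i; simp only [Set.mem_ofPred_eq, Fin.lt_def, Ne, Fin.ext_iff]; omega
    rw [e] at hw ⊢
    exact h j w hw
  | succ m hm ih =>
    by_cases hd : m < d
    · set μ : Fin d := ⟨m, hd⟩ with hμ
      have e1 : {i : Fin d | i.1 < m + 1 ∧ i ≠ j} = insert μ {i | i.1 < m ∧ i ≠ j} := by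
        ext i; simp only [Set.mem_ofPred_eq, Set.mem_insert_iff, Ne, Fin.ext_iff, hμ]; omega
      have e2 : {i : Fin d | i < μ} = insert j {i | i.1 < m ∧ i ≠ j} := by
        ext i; simp only [Set.mem_ofPred_eq, Set.mem_insert_iff, Ne, Fin.ext_iff, hμ, Fin.lt_def]; omega
      rw [e1, Set.image_insert_eq] at hw ⊢
      obtain ⟨u, hu, v, e⟩ := rg_mem_insert hw
      have h1 : z μ • v ∈ ism (idlLt z μ) W := by
        have : z μ • v = z j • w - u := by rw [e]; abel
        rw [this, idlLt, e2, Set.image_insert_eq]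
        exact Submodule.sub_mem _ (rg_smul_mem (Ideal.subset_span (Set.mem_insert _ _)) _)
          (rg_ism_mono (Ideal.span_mono (Set.subset_insert _ _)) hu)
      have h2 := h μ v h1
      rw [idlLt, e2, Set.image_insert_eq] at h2
      obtain ⟨u', hu', v', rfl⟩ := rg_mem_insert h2
      have h3 : z j • (w - z μ • v') ∈ ism (Ideal.span (z '' {i | i.1 < m ∧ i ≠ j})) W := by
        have : z j • (w - z μ • v') = u + z μ • u' := by
          rw [smul_sub, e, smul_add, smul_comm (z j) (z μ)]; abel
        rw [this]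
        exact Submodule.add_mem _ hu (Submodule.smul_mem _ _ hu')
      have h4 := ih _ h3
      have : w = (w - z μ • v') + z μ • v' := by abel
      rw [this]
      exact Submodule.add_mem _ (rg_ism_mono (Ideal.span_mono (Set.subset_insert _ _)) h4)
        (rg_smul_mem (Ideal.subset_span (Set.mem_insert _ _)) _)
    · have e : {i : Fin d | i.1 < m + 1 ∧ i ≠ j} = {i | i.1 < m ∧ i ≠ j} := by
        ext i; have := i.2; simp only [Set.mem_ofPred_eq]; omega
      rw [e] at hw ⊢
      exact ih w hw

/-- Product of two regular sequences differing in one place. -/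
theorem rg_mul {x y z : Fin d → Λ} (hx : Reg x W) (hy : Reg y W) (j : Fin d)
    (hxz : ∀ i, i ≠ j → x i = z i) (hyz : ∀ i, i ≠ j → y i = z i) (hj : z j = x j * y j) :
    Reg z W := by
  intro m w hw
  have himg : ∀ (t : Fin d → Λ), (∀ i, i ≠ j → t i = z i) → ∀ S : Set (Fin d), j ∉ S →
      t '' S = z '' S := fun t ht S hS =>
    Set.image_congr fun i hi => ht i fun h => hS (h ▸ hi)
  rcases lt_trichotomy m j with hm | hm | hm
  · have hS : j ∉ {i | i < m} := by simpa using hm.le
    have := hx m w (by rw [hxz m hm.ne, idlLt, himg x hxz _ hS]; exact hw)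
    rwa [idlLt, himg x hxz _ hS] at this
  · subst hm
    have hS : m ∉ {i | i < m} := by simp
    rw [hj, mul_smul] at hw
    have h1 := hx m _ (by rw [idlLt, himg x hxz _ hS]; exact hw)
    rw [idlLt, himg x hxz _ hS] at h1
    have h2 := hy m _ (by rw [idlLt, himg y hyz _ hS]; exact h1)
    rwa [idlLt, himg y hyz _ hS] at h2
  · set S : Set (Fin d) := {i | i.1 < m.1 ∧ i ≠ j} with hSdef
    have hS : j ∉ S := by simp [hSdef]
    have e : {i : Fin d | i < m} = insert j S := by
      ext i; simp only [Set.mem_ofPred_eq, Set.mem_insert_iff, Ne, Fin.ext_iff, hSdef, Fin.lt_def]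
      have : j.1 < m.1 := hm
      omega
    have ex : idlLt x m = Ideal.span (insert (x j) (z '' S)) := by
      rw [idlLt, e, Set.image_insert_eq, himg x hxz S hS]
    have ey : idlLt y m = Ideal.span (insert (y j) (z '' S)) := by
      rw [idlLt, e, Set.image_insert_eq, himg y hyz S hS]
    have ez : idlLt z m = Ideal.span (insert (z j) (z '' S)) := by
      rw [idlLt, e, Set.image_insert_eq]
    rw [ez] at hw ⊢
    obtain ⟨u, hu, v, euv⟩ := rg_mem_insert hw
    have h1 : x m • w ∈ ism (idlLt x m) W := by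
      rw [hxz m hm.ne', euv, ex, hj, mul_smul]
      exact Submodule.add_mem _ (rg_ism_mono (Ideal.span_mono (Set.subset_insert _ _)) hu)
        (rg_smul_mem (Ideal.subset_span (Set.mem_insert _ _)) _)
    have h2 := hx m w h1
    rw [ex] at h2
    obtain ⟨u1, hu1, v1, rfl⟩ := rg_mem_insert h2
    have h3 : x j • (z m • v1 - y j • v) ∈ ism (Ideal.span (x '' S)) W := by
      have : x j • (z m • v1 - y j • v) = u - z m • u1 := by
        rw [smul_add, hj, mul_smul, smul_comm (z m) (x j)] at euv
        rw [smul_sub, eq_sub_iff_add_eq, sub_add_eq_add_sub, sub_eq_iff_eq_add, add_comm, euv]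
      rw [this, himg x hxz S hS]
      exact Submodule.sub_mem _ hu (Submodule.smul_mem _ _ hu1)
    have h4 := rg_K hx j m.1 hm _ h3
    rw [← hSdef, himg x hxz S hS] at h4
    have h5 : y m • v1 ∈ ism (idlLt y m) W := by
      have : y m • v1 = (z m • v1 - y j • v) + y j • v := by rw [hyz m hm.ne']; abel
      rw [this, ey]
      exact Submodule.add_mem _ (rg_ism_mono (Ideal.span_mono (Set.subset_insert _ _)) h4)
        (rg_smul_mem (Ideal.subset_span (Set.mem_insert _ _)) _)
    have h6 := hy m v1 h5
    rw [ey] at h6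
    obtain ⟨u2, hu2, v2, rfl⟩ := rg_mem_insert h6
    rw [smul_add, smul_smul, ← hj, ← add_assoc]
    exact Submodule.add_mem _ (rg_ism_mono (Ideal.span_mono (Set.subset_insert _ _))
      (Submodule.add_mem _ hu1 (Submodule.smul_mem _ _ hu2)))
      (rg_smul_mem (Ideal.subset_span (Set.mem_insert _ _)) _)

theorem rg_pow {x : Fin d → Λ} (h : Reg x W) (n : ℕ) :
    ∀ a : Fin d → ℕ, ∑ i, a i = n → (∀ i, 0 < a i) → Reg (fun i => x i ^ a i) W := by
  classical
  induction n using Nat.strong_induction_on with
  | _ n ih =>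
    intro a hn ha
    by_cases h1 : ∀ i, a i = 1
    · have : (fun i => x i ^ a i) = x := by funext i; rw [h1 i, pow_one]
      rw [this]; exact h
    · push Not at h1
      obtain ⟨j, hj⟩ := h1
      have hj2 : 2 ≤ a j := by have := ha j; omega
      have hlt : ∀ t, t < a j → ∑ i, Function.update a j t i < n := by
        intro t ht
        rw [← hn]
        refine Finset.sum_lt_sum (fun i _ => ?_) ⟨j, Finset.mem_univ _, by simpa using ht⟩
        by_cases hi : i = j
        · subst hi; simpa using ht.le
        · simp [hi]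
      have hpos : ∀ t, 0 < t → ∀ i, 0 < Function.update a j t i := by
        intro t ht i
        by_cases hi : i = j
        · subst hi; simpa using ht
        · simpa [hi] using ha i
      refine rg_mul (ih _ (hlt (a j - 1) (by omega)) _ rfl (hpos _ (by omega)))
        (ih _ (hlt 1 (by omega)) _ rfl (hpos _ one_pos)) j (fun i hi => by simp [hi])
        (fun i hi => by simp [hi]) ?_
      simp only [Function.update_self]
      rw [← pow_add]; congr 1; omega

theorem rg_step {x : Fin d → Λ} (h : Reg x W) (a : Fin d → ℕ) (ha : ∀ i, 0 < a i) (j : Fin d) (w : W)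
    (hw : x j • w ∈ ism (idl fun i => x i ^ (a + Pi.single j 1 : Fin d → ℕ) i) W) :
    w ∈ ism (idl fun i => x i ^ a i) W := by
  classical
  set S : Set (Fin d) := {i | i.1 < d ∧ i ≠ j} with hSdef
  have e : (Set.univ : Set (Fin d)) = insert j S := by
    ext i; simp only [Set.mem_univ, Set.mem_insert_iff, hSdef, Set.mem_ofPred_eq, i.2]; tauto
  have hz := rg_pow h _ (Function.update a j 1) rfl (fun i => by
    by_cases hi : i = j
    · subst hi; simp
    · simpa [hi] using ha i)
  have himg : (fun i => x i ^ Function.update a j 1 i) '' S = (fun i => x i ^ a i) '' S :=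
    Set.image_congr fun i hi => by simp [hi.2]
  have himg' : (fun i => x i ^ (a + Pi.single j 1 : Fin d → ℕ) i) '' S = (fun i => x i ^ a i) '' S :=
    Set.image_congr fun i hi => by simp [hi.2]
  rw [idl, ← Set.image_univ, e, Set.image_insert_eq, himg'] at hw
  obtain ⟨u, hu, v, euv⟩ := rg_mem_insert hw
  have h1 := rg_K hz j d j.2 (w - x j ^ a j • v) (by
    rw [← hSdef, himg]
    have : (x j ^ Function.update a j 1 j) • (w - x j ^ a j • v) = u := by
      rw [Pi.add_apply, Pi.single_eq_same, pow_succ', mul_smul] at euv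
      rw [Function.update_self, pow_one, smul_sub, euv]
      abel
    exact this ▸ hu)
  rw [← hSdef, himg] at h1
  rw [idl, ← Set.image_univ, e, Set.image_insert_eq]
  have : w = (w - x j ^ a j • v) + x j ^ a j • v := by abel
  rw [this]
  exact Submodule.add_mem _ (rg_ism_mono (Ideal.span_mono (Set.subset_insert _ _)) h1)
    (rg_smul_mem (Ideal.subset_span (Set.mem_insert _ _)) _)

theorem rg_prod_single (x : Fin d → Λ) (j : Fin d) (t : ℕ) :
    ∏ i, x i ^ (Pi.single j t : Fin d → ℕ) i = x j ^ t := by
  classical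
  rw [Finset.prod_eq_single j] <;> simp +contextual

theorem rg_prod_add (x : Fin d → Λ) (a b : Fin d → ℕ) :
    ∏ i, x i ^ (a + b) i = (∏ i, x i ^ a i) * ∏ i, x i ^ b i := by
  simp [pow_add, Finset.prod_mul_distrib]

/-- The socle of the box. -/
theorem rg_box {x : Fin d → Λ} (h : Reg x W) (n : ℕ) :
    ∀ (c : Fin d → ℕ) (w : W), ∑ i, c i = n →
      (∏ i, x i ^ c i) • w ∈ ism (idl fun i => x i ^ (c i + 1)) W → w ∈ ism (idl x) W := by
  classical
  induction n with
  | zero =>
    intro c w hc hw
    have : c = 0 := by funext i; exact (Finset.sum_eq_zero_iff.1 hc) i (Finset.mem_univ _)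
    subst this
    simpa using hw
  | succ n ih =>
    intro c w hc hw
    obtain ⟨j, hj⟩ : ∃ j, c j ≠ 0 := by
      by_contra hcon
      push Not at hcon
      simp [hcon] at hc
    obtain ⟨c', rfl⟩ : ∃ c' : Fin d → ℕ, c = c' + (Pi.single j 1 : Fin d → ℕ) := by
      refine ⟨Function.update c j (c j - 1), funext fun i => ?_⟩
      rw [Pi.add_apply]
      by_cases hi : i = j
      · subst hi; rw [Function.update_self, Pi.single_eq_same]; omega
      · rw [Function.update_of_ne hi, Pi.single_eq_of_ne hi, add_zero]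
    refine ih c' w ?_ (rg_step h (fun i => c' i + 1) (fun i => Nat.succ_pos _) j _ ?_)
    · simp only [Pi.add_apply, Finset.sum_add_distrib, Finset.sum_pi_single', Finset.mem_univ,
        if_true] at hc
      omega
    · rw [rg_prod_add, rg_prod_single, pow_one, mul_comm, mul_smul] at hw
      convert hw using 4 with i
      simp only [Pi.add_apply]; congr 1; omega

theorem rg_mon_mem_of_le (x : Fin d → Λ) {c v : Fin d → ℕ} {i : Fin d} (h : c i ≤ v i) :
    ∏ i, x i ^ v i ∈ idl fun i => x i ^ c i := by
  classical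
  rw [← Finset.mul_prod_erase Finset.univ _ (Finset.mem_univ i), ← Nat.add_sub_cancel' h, pow_add,
    mul_assoc]
  exact Ideal.mul_mem_right _ _ (Ideal.subset_span ⟨i, rfl⟩)

theorem rg_mon_mem_of_not_le (x : Fin d → Λ) {c v : Fin d → ℕ} (h : ¬v ≤ c) :
    ∏ i, x i ^ v i ∈ idl fun i => x i ^ (c i + 1) := by
  rw [Pi.le_def] at h
  push Not at h
  obtain ⟨i, hi⟩ := h
  exact rg_mon_mem_of_le x (c := fun i => c i + 1) (i := i) hi

theorem rg_mon_mem_pow (x : Fin d → Λ) (v : Fin d → ℕ) {k : ℕ} (hk : k ≤ ∑ i, v i) :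
    ∏ i, x i ^ v i ∈ idl x ^ k := by
  refine Ideal.pow_le_pow_right hk ?_
  rw [← Finset.prod_pow_eq_pow_sum]
  exact Ideal.prod_mem_prod fun i _ => Ideal.pow_mem_pow (Ideal.subset_span (Set.mem_range_self i)) _

theorem rg_kos {x : Fin d → Λ} (h : Reg x W) (m : ℕ) :
    ∀ w : Fin d → W, (∀ i : Fin d, m ≤ i.1 → w i = 0) → ∑ i, x i • w i = 0 →
      ∃ a : Fin d → Fin d → W, (∀ i j, a i j = -a j i) ∧ (∀ i, a i i = 0) ∧
        ∀ i, w i = ∑ j, x j • a i j := by
  classical
  induction m with
  | zero =>
    intro w hw _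
    exact ⟨0, by simp, by simp, fun i => by simp [hw i (Nat.zero_le _)]⟩
  | succ m ih =>
    intro w hw hs
    by_cases hd : m < d
    · set μ : Fin d := ⟨m, hd⟩ with hμ
      have h1 : x μ • w μ ∈ ism (idlLt x μ) W := by
        rw [← Finset.add_sum_erase Finset.univ _ (Finset.mem_univ μ)] at hs
        rw [eq_neg_of_add_eq_zero_left hs]
        refine Submodule.neg_mem _ (Submodule.sum_mem _ fun i hi => ?_)
        by_cases him : i < μ
        · exact rg_smul_mem (Ideal.subset_span (Set.mem_image_of_mem x (show i ∈ {i | i < μ} from him))) _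
        · have : i ≠ μ := Finset.ne_of_mem_erase hi
          rw [hw i (by
            simp only [hμ, Fin.lt_def, Ne, Fin.ext_iff] at him this; omega), smul_zero]
          exact Submodule.zero_mem _
      obtain ⟨b, -, hb0, hb⟩ := rg_exists_sum x _ ⊤ (h μ _ h1)
      obtain ⟨a, ha1, ha2, ha3⟩ := ih (fun i => w i + x μ • b i - if i = μ then w μ else 0)
        (fun i hi => by
          have hbi : b i = 0 := hb0 i (by simp only [Set.mem_ofPred_eq, Fin.lt_def, hμ]; omega)
          by_cases him : i = μ
          · simp [him, him ▸ hbi]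
          · rw [hw i (by simp only [hμ, Fin.ext_iff] at him; omega)]
            simp [him, hbi])
        (by
          simp only [smul_sub, smul_add, Finset.sum_sub_distrib, Finset.sum_add_distrib, hs,
            smul_ite, smul_zero, Finset.sum_ite_eq', Finset.mem_univ, if_true, zero_add]
          rw [hb, Finset.smul_sum, sub_eq_zero]
          exact Finset.sum_congr rfl fun i _ => smul_comm _ _ _)
      refine ⟨fun i j => a i j + ((if i = μ then b j else 0) - if j = μ then b i else 0),
        fun i j => ?_, fun i => ?_, fun i => ?_⟩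
      · beta_reduce; rw [ha1 i j]; abel
      · beta_reduce; rw [ha2 i]; simp
      · simp only [smul_add, smul_sub, Finset.sum_add_distrib, Finset.sum_sub_distrib, ← ha3 i,
          smul_ite, smul_zero, Finset.sum_ite_eq', Finset.mem_univ, if_true]
        by_cases him : i = μ
        · simp only [him, if_true, ← hb]; abel
        · simp only [him, if_false, Finset.sum_const_zero]; abel
    · exact ih w (fun i hi => absurd i.2 (by omega)) hs

end Crest.Agent.R183
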