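import Crest.Agent.R183.SysL

/-!
# rid 183, file `SUP`: superadditivity of `zl` in the coefficient module

Prefix helper lemmas with `su_`.
-/

set_option autoImplicit false

open IsLocalRing

namespace Crest.Agent.R183

section aux

variable {R : Type} [CommRing R] {d r : ℕ} {Q Q' : Type} [AddCommGroup Q] [Module R Q] [AddCommGroup Q']
  [Module R Q']

theorem su_act (f : Q →ₗ[R] Q') (A : Matrix (Fin r) (Fin r) R) (v : Fin r → Q) :
    f.compLeft (Fin r) (act A Q v) = act A Q' (f.compLeft (Fin r) v) := by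
  funext i
  change f (∑ j, A i j • v j) = ∑ j, A i j • f (v j)
  simp

theorem su_mem_pi {J : Ideal R} {v : Fin r → Q} : v ∈ ism J (Fin r → Q) ↔ ∀ i, v i ∈ ism J Q := by
  rw [ln_ism_pi, Submodule.mem_pi]
  simp

theorem su_surj (f : Q →ₗ[R] Q') (hf : Function.Surjective f) :
    Function.Surjective (f.compLeft (Fin r)) := fun v => by
  choose u hu using fun i => hf (v i)
  exact ⟨u, funext hu⟩

theorem su_alt (z : Fin d → Module.End R Q) (hz : ∀ i j, Commute (z i) (z j)) (a : Fin d → Fin d → Q)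
    (h1 : ∀ i j, a i j = -a j i) (h2 : ∀ i, a i i = 0) : ∑ i, z i (∑ j, z j (a i j)) = 0 := by
  simp only [map_sum]
  rw [← Finset.sum_product']
  refine Finset.sum_involution (fun p _ => p.swap) (fun p _ => ?_) (fun p _ h hp => h ?_)
    (fun _ _ => by simp) fun _ _ => rfl
  · rw [Prod.fst_swap, Prod.snd_swap, h1 p.2, ← Module.End.mul_apply (z p.2), ← (hz p.1 p.2).eq,
      Module.End.mul_apply, map_neg, map_neg, add_neg_cancel]
  · have : p.2 = p.1 := congrArg Prod.fst hp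
    rw [this, h2, map_zero, map_zero]

theorem su_mem_sub {𝔪 : Ideal R} {M N0 : ℕ} (S : Sys R 𝔪 M d N0 r) {T : ℕ} {v : Fin r → Q}
    (hv : v ∈ S.sub Q T) :
    ∃ w : Fin d → Fin r → Q, v - ∑ j, act (S.Z j ^ T) Q (w j) ∈ ism (𝔪 ^ M) (Fin r → Q) := by
  obtain ⟨v1, h1, v2, h2, rfl⟩ := Submodule.mem_sup.1 hv
  have : ∃ w : Fin d → Fin r → Q, ∑ j, act (S.Z j ^ T) Q (w j) = v1 := by
    clear hv
    induction h1 using Submodule.iSup_induction' with
    | mem j _ h =>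
      obtain ⟨u, rfl⟩ := h
      refine ⟨Pi.single j u, ?_⟩
      rw [Finset.sum_eq_single j (fun l _ hl => by rw [Pi.single_eq_of_ne hl, map_zero]) (by simp),
        Pi.single_eq_same]
    | zero => exact ⟨0, by simp⟩
    | add _ _ _ _ h h' =>
      obtain ⟨w, rfl⟩ := h
      obtain ⟨w', rfl⟩ := h'
      exact ⟨w + w', by simp [Finset.sum_add_distrib]⟩
  obtain ⟨w, rfl⟩ := this
  exact ⟨w, by rwa [add_sub_cancel_left]⟩

theorem su_quot (J : Ideal R) : ism J (Q ⧸ ism J Q) = ⊥ := by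
  rw [← ln_map_ism_surj _ (ism J Q).mkQ_surjective, Submodule.mkQ_map_self]

theorem su_lift {Q'' : Type} [AddCommGroup Q''] [Module R Q''] {f : Q' →ₗ[R] Q} {g : Q →ₗ[R] Q''}
    (hg : Function.Surjective g) (hfg : Function.Exact f g) {I J : Ideal R} (hIJ : I ≤ J) {v : Q}
    (hv : ((ism I Q'').mkQ ∘ₗ g) v ∈ ism J (Q'' ⧸ ism I Q'')) : ∃ u, v - f u ∈ ism J Q := by
  rw [← ln_map_ism_surj ((ism I Q'').mkQ ∘ₗ g) ((ism I Q'').mkQ_surjective.comp hg)] at hv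
  obtain ⟨v1, h1, h2⟩ := hv
  have h3 : g v - g v1 ∈ ism I Q'' := (Submodule.Quotient.eq _).1 h2.symm
  have h4 := (ln_map_ism_surj g hg I).ge h3
  obtain ⟨v2, h5, h6⟩ := h4
  obtain ⟨u, hu⟩ := (hfg (v - v1 - v2)).1 (by rw [map_sub, map_sub, h6, sub_self])
  refine ⟨u, ?_⟩
  rw [hu, sub_sub, sub_sub_cancel]
  exact add_mem h1 (ln_ism_mono hIJ h5)

theorem su_ar [IsNoetherianRing R] [Module.Finite R Q] (I : Ideal R) {f : Q' →ₗ[R] Q}
    (hf : Function.Injective f) :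
    ∃ a : ℕ, ∀ n y, f y ∈ ism (I ^ (n + a)) Q → y ∈ ism (I ^ n) Q' := by
  obtain ⟨a, ha⟩ := I.exists_pow_inf_eq_pow_smul (LinearMap.range f)
  refine ⟨a, fun n y hy => ?_⟩
  have h1 : f y ∈ I ^ (n + a) • ⊤ ⊓ LinearMap.range f := ⟨hy, y, rfl⟩
  rw [ha _ (Nat.le_add_left a n), Nat.add_sub_cancel] at h1
  have h2 : f y ∈ I ^ n • LinearMap.range f := Submodule.smul_mono le_rfl inf_le_right h1
  rw [← Submodule.map_top, ← Submodule.map_smul''] at h2
  obtain ⟨y', h3, h4⟩ := h2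
  exact hf h4 ▸ h3

end aux

variable {R : Type} [CommRing R] [IsNoetherianRing R] [IsLocalRing R] {d : ℕ}

/-- The key step.  Let `n = N0 (d T + 1)`, `a` an Artin–Rees number for `f Q' ≤ Q`
(`Ideal.exists_pow_inf_eq_pow_smul`), `L = d n + n + a`, and `M ≥ L` as in `hγ`.  Let `f w ∈ S.sub Q T`, say
`f w = ∑ Z j ^ T w j + μ`.  On `W = (Q'' / 𝔪^M Q'')^r` the images of the `w j` form a relation, so `kos_h1` (for
`z j = act (Z j ^ T)`, `N = N0 (d T)` through `Sys.inIdl` and `InIdl.prod`, `K = L`) and lifting give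
`γ^d w i = ∑ j, Z j ^ T a i j + f (u i) + ν i` with `a` alternating (lift it alternatingly) and
`ν i ∈ 𝔪^(n + a) Q^r`.  Then `f (γ^d w - ∑ Z i ^ T u i) ∈ 𝔪^(n+a) Q^r` (the double sum lies in `𝔪^M Q^r`), so
`γ^d w - ∑ Z i ^ T u i ∈ 𝔪^n Q'^r ≤ S.sub Q' T` (`Sys.pow_le_sub`). -/
theorem sup_key {Q' Q Q'' : Type} [AddCommGroup Q'] [Module R Q'] [Module.Finite R Q'] [AddCommGroup Q]
    [Module R Q] [Module.Finite R Q] [AddCommGroup Q''] [Module R Q''] (f : Q' →ₗ[R] Q) (g : Q →ₗ[R] Q'')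
    (hf : Function.Injective f) (hg : Function.Surjective g) (hfg : Function.Exact f g) (hd : 0 < d) {γ : R}
    {x : Fin d → R} (hx : ∀ i, x i ∈ maximalIdeal R)
    (hγ : ∀ L : ℕ, ∃ M1 : ℕ, ∀ M ≥ M1, AReg γ x L (Q'' ⧸ ism (maximalIdeal R ^ M) Q'')) (N0 T : ℕ) :
    ∃ M0 : ℕ, ∀ M ≥ M0, ∀ (r : ℕ) (S : Sys R (maximalIdeal R) M d N0 r) (w : Fin r → Q'),
      f.compLeft (Fin r) w ∈ S.sub Q T → γ ^ d • w ∈ S.sub Q' T := by
  obtain ⟨a, ha⟩ := su_ar (maximalIdeal R) hf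
  set n := N0 * (d * T + 1) with hn
  obtain ⟨M1, hM1⟩ := hγ (d * (N0 * (d * T)) + (n + a))
  refine ⟨max M1 (n + a), fun M hM r S w hw => ?_⟩
  have hMJ : maximalIdeal R ^ M ≤ maximalIdeal R ^ (n + a) :=
    Ideal.pow_le_pow_right ((le_max_right _ _).trans hM)
  obtain ⟨v, hv⟩ := su_mem_sub S hw
  set π := (ism (maximalIdeal R ^ M) Q'').mkQ ∘ₗ g with hπ
  have hq := su_quot (Q := Q'') (maximalIdeal R ^ M)
  have hcm : ∀ (W : Type) [AddCommGroup W] [Module R W], ism (maximalIdeal R ^ M) W = ⊥ →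
      ∀ i j, Commute (act (S.Z i ^ T) W) (act (S.Z j ^ T) W) := fun W _ _ hW i j => by
    rw [act_pow, act_pow]
    exact (S.commute hW (S.Z_mem i) (S.Z_mem j)).pow_pow T T
  obtain ⟨b, hb1, hb2, hb⟩ := kos_h1 (fun j => act (S.Z j ^ T) (Q'' ⧸ ism (maximalIdeal R ^ M) Q''))
    (hcm _ hq) ((hM1 M ((le_max_left _ _).trans hM)).pi (Fin r)) (N := N0 * (d * T)) (fun i => by
      obtain ⟨h, hh, hs⟩ := InIdl.prod (𝒞 := (fun A => act A (Q'' ⧸ ism (maximalIdeal R ^ M) Q'')) '' S.C)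
        (by rintro _ ⟨A, hA, rfl⟩ _ ⟨B, hB, rfl⟩; exact S.commute hq hA hB)
        (fun j => ⟨_, S.Z_mem j, rfl⟩) hd (T := T) (fun _ => x i ^ N0)
        (fun _ => S.inIdl hq (Ideal.pow_mem_pow (hx i) N0)) (a := fun _ => T) fun _ => le_rfl
      refine ⟨h, fun j l => Algebra.commute_of_mem_adjoin_of_forall_mem_commute (hh l) ?_, ?_⟩
      · rintro _ ⟨A, hA, rfl⟩
        rw [act_pow]
        exact (S.commute hq (S.Z_mem j) hA).pow_left T
      · simpa only [Finset.prod_const, Finset.card_univ, Fintype.card_fin, ← pow_mul, act_pow] using hs)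
    le_rfl (fun j => π.compLeft (Fin r) (v j)) (by
      have h1 := ln_mem_ism (π.compLeft (Fin r)) hv
      have h2 : π.compLeft (Fin r) (f.compLeft (Fin r) w) = 0 := funext fun k => by
        change (ism (maximalIdeal R ^ M) Q'').mkQ (g (f (w k))) = 0
        rw [hfg.apply_apply_eq_zero, map_zero]
      rw [map_sub, h2, zero_sub, neg_mem_iff, map_sum, su_mem_pi, hq] at h1
      simp only [su_act] at h1
      exact su_mem_pi.2 fun k => ((Submodule.mem_bot R).1 (h1 k)).symm ▸ zero_mem _)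
  rw [Nat.add_sub_cancel_left] at hb
  choose σ hσ using su_surj (r := r) π ((Submodule.mkQ_surjective _).comp hg)
  set c : Fin d → Fin d → Fin r → Q := fun i j =>
    if i < j then σ (b i j) else if j < i then -σ (b j i) else 0 with hc
  have hc1 : ∀ i j, c i j = -c j i := fun i j => by
    rcases lt_trichotomy i j with h | rfl | h
    · simp [hc, h, h.not_gt]
    · simp [hc]
    · simp [hc, h, h.not_gt]
  have hc2 : ∀ i, c i i = 0 := fun i => by simp [hc]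
  have hc3 : ∀ i j, π.compLeft (Fin r) (c i j) = b i j := fun i j => by
    rcases lt_trichotomy i j with h | rfl | h
    · simp only [hc, if_pos h, hσ]
    · rw [hc2, hb2, map_zero]
    · simp only [hc, if_pos h, if_neg h.not_gt, map_neg, hσ, ← hb1]
  have h3 : ∀ i k, ∃ u, (γ ^ d • v i - ∑ j, act (S.Z j ^ T) Q (c i j)) k - f u ∈
      ism (maximalIdeal R ^ (n + a)) Q := fun i k => by
    refine su_lift hg hfg hMJ ?_
    have h4 := su_mem_pi.1 (ln_ism_mono (Ideal.pow_right_mono (ln_idl_le hx) (n + a)) (hb i)) k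
    simp only [← hc3, ← su_act, ← map_sum, ← map_smul, ← map_sub] at h4
    exact h4
  choose u hu using h3
  have h4 : ∀ i, γ ^ d • v i - ∑ j, act (S.Z j ^ T) Q (c i j) - f.compLeft (Fin r) (u i) ∈
      ism (maximalIdeal R ^ (n + a)) (Fin r → Q) := fun i => su_mem_pi.2 (hu i)
  have h5 : ∑ i, act (S.Z i ^ T) Q (∑ j, act (S.Z j ^ T) Q (c i j)) ∈
      ism (maximalIdeal R ^ M) (Fin r → Q) := by
    have h6 := su_alt _ (hcm _ (su_quot (Q := Q) (maximalIdeal R ^ M)))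
      (fun i j => (ism (maximalIdeal R ^ M) Q).mkQ.compLeft (Fin r) (c i j))
      (fun i j => by rw [hc1, map_neg]) fun i => by rw [hc2, map_zero]
    simp only [← su_act, ← map_sum] at h6
    exact su_mem_pi.2 fun k => (Submodule.Quotient.mk_eq_zero _).1 (congrFun h6 k)
  have h6 : f.compLeft (Fin r) (γ ^ d • w - ∑ i, act (S.Z i ^ T) Q' (u i)) ∈
      ism (maximalIdeal R ^ (n + a)) (Fin r → Q) := by
    have h7 := add_mem (add_mem (ln_ism_mono hMJ (Submodule.smul_mem _ (γ ^ d) hv)) (ln_ism_mono hMJ h5))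
      (Submodule.sum_mem _ fun i (_ : i ∈ Finset.univ) => ln_mem_ism (act (S.Z i ^ T) Q) (h4 i))
    convert h7 using 1
    simp only [map_sub, map_smul, map_sum (f.compLeft (Fin r)), su_act, Finset.sum_sub_distrib, smul_sub,
      Finset.smul_sum]
    abel
  rw [← sub_add_cancel (γ ^ d • w) (∑ i, act (S.Z i ^ T) Q' (u i))]
  refine add_mem (S.pow_le_sub T (su_mem_pi.2 fun k => ha _ _ (su_mem_pi.1 h6 k)))
    (Submodule.mem_sup_left (Submodule.sum_mem _ fun i _ => Submodule.mem_iSup_of_mem i ⟨_, rfl⟩))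

/-- `zl Q = zl Q'' + len (Q'^r / f⁻¹ (sub Q))`, and `f⁻¹ (sub Q) / sub Q'` lies in the kernel of `γ^d` on
`Q'^r / sub Q'`, of length `len (Q'^r / (sub Q' + γ^d))` (`length_ker_eq`); use `Sys.colen_sup_le` and
`small_colen`. -/
theorem sup_zl {Q' Q Q'' : Type} [AddCommGroup Q'] [Module R Q'] [Module.Finite R Q'] [AddCommGroup Q]
    [Module R Q] [Module.Finite R Q] [AddCommGroup Q''] [Module R Q''] (f : Q' →ₗ[R] Q) (g : Q →ₗ[R] Q'')
    (hf : Function.Injective f) (hg : Function.Surjective g) (hfg : Function.Exact f g) {γ : R}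
    (hdim : ringKrullDim (R ⧸ Ideal.span {γ}) ≤ d) {x : Fin (d + 1) → R} (hx : ∀ i, x i ∈ maximalIdeal R)
    (hγ : ∀ L : ℕ, ∃ M1 : ℕ, ∀ M ≥ M1, AReg γ x L (Q'' ⧸ ism (maximalIdeal R ^ M) Q'')) (N0 : ℕ) :
    ∃ C : ℝ, 0 ≤ C ∧ ∀ T : ℕ, ∃ M0 : ℕ, ∀ M ≥ M0, ∀ (r : ℕ) (S : Sys R (maximalIdeal R) M (d + 1) N0 r),
      S.zl Q' T + S.zl Q'' T ≤ S.zl Q T + C * r * ((T : ℝ) + 1) ^ d := by
  have := Module.Finite.of_surjective g hg
  obtain ⟨C, hC, h⟩ := small_colen hdim (d + 1) Q'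
  refine ⟨C * ((N0 : ℝ) * (d + 1) + 1) ^ d, by positivity, fun T => ?_⟩
  obtain ⟨M0, hM0⟩ := sup_key f g hf hg hfg d.succ_pos hx hγ N0 T
  refine ⟨M0, fun M hM r S => ?_⟩
  have f1 : colen R (S.sub Q T) ≠ ⊤ := Module.length_ne_top_iff.2 (S.isFiniteLength T)
  have f2 : colen R (S.sub Q' T) ≠ ⊤ := Module.length_ne_top_iff.2 (S.isFiniteLength T)
  have h1 := ln_cl_add (f.compLeft (Fin r)) f1
  have h2 : S.zl Q'' T ≤ len R ((Fin r → Q) ⧸ (S.sub Q T ⊔ LinearMap.range (f.compLeft (Fin r)))) := by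
    refine ln_len_le (ln_fin_anti f1 le_sup_left) (colen_le_of_surj _ (su_surj g hg) ?_)
    rw [Submodule.map_sup]
    refine sup_le (S.sub_map_le g T) ?_
    rintro _ ⟨_, ⟨v, rfl⟩, rfl⟩
    rw [show g.compLeft (Fin r) (f.compLeft (Fin r) v) = 0 from
      funext fun k => hfg.apply_apply_eq_zero (v k)]
    exact zero_mem _
  have h3 := ln_cl_mul (γ ^ (d + 1)) f2
  have h4 := ln_cl_anti (ln_fin_anti f2 (Submodule.map_le_iff_le_comap.1 (S.sub_map_le f T)))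
    (V := (S.sub Q' T).comap (ln_mul _ (γ ^ (d + 1)))) fun w hw => hM0 M hM r S w hw
  have h5 := (S.colen_sup_le (Q := Q') (Ideal.span {γ ^ (d + 1)}) T).trans
    (mul_le_mul_of_nonneg_left (h _) (Nat.cast_nonneg r))
  have h6 : (((N0 * ((d + 1) * T + 1) : ℕ) : ℝ) + 1) ^ d ≤ (((N0 : ℝ) * (d + 1) + 1) * (T + 1)) ^ d := by
    refine pow_le_pow_left₀ (by positivity) ?_ d
    push_cast
    nlinarith [mul_nonneg (Nat.cast_nonneg (α := ℝ) N0) (Nat.cast_nonneg (α := ℝ) d),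
      Nat.cast_nonneg (α := ℝ) T]
  have h7 := mul_le_mul_of_nonneg_left h6 (mul_nonneg (Nat.cast_nonneg r) hC)
  rw [mul_pow] at h7
  unfold Sys.zl at h2 ⊢
  nlinarith

theorem LowM.add {Q' Q Q'' : Type} [AddCommGroup Q'] [Module R Q'] [Module.Finite R Q'] [AddCommGroup Q]
    [Module R Q] [Module.Finite R Q] [AddCommGroup Q''] [Module R Q''] (f : Q' →ₗ[R] Q) (g : Q →ₗ[R] Q'')
    (hf : Function.Injective f) (hg : Function.Surjective g) (hfg : Function.Exact f g) {γ : R}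
    (hdim : ringKrullDim (R ⧸ Ideal.span {γ}) ≤ d) {x : Fin (d + 1) → R} (hx : ∀ i, x i ∈ maximalIdeal R)
    (hγ : ∀ L : ℕ, ∃ M1 : ℕ, ∀ M ≥ M1, AReg γ x L (Q'' ⧸ ism (maximalIdeal R ^ M) Q'')) {E' E'' : ℝ}
    (h' : LowM R (d + 1) Q' E') (h'' : LowM R (d + 1) Q'' E'') : LowM R (d + 1) Q (E' + E'') := by
  intro N0 C0 ε hε
  obtain ⟨C, hC, hs⟩ := sup_zl f g hf hg hfg hdim hx hγ N0
  obtain ⟨T1, h1⟩ := h' N0 C0 (ε / 3) (by positivity)
  obtain ⟨T2, h2⟩ := h'' N0 C0 (ε / 3) (by positivity)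
  obtain ⟨T3, h3⟩ := exists_nat_ge (C * |C0| * 2 ^ d / (ε / 3))
  refine ⟨max (max T1 T2) (max T3 1), fun T hT => ?_⟩
  simp only [ge_iff_le, max_le_iff] at hT
  obtain ⟨M1, h1⟩ := h1 T hT.1.1
  obtain ⟨M2, h2⟩ := h2 T hT.1.2
  obtain ⟨M3, hs⟩ := hs T
  refine ⟨max (max M1 M2) M3, fun M hM r S hr => ?_⟩
  simp only [ge_iff_le, max_le_iff] at hM
  have k1 := h1 M hM.1.1 r S hr
  have k2 := h2 M hM.1.2 r S hr
  have k3 := hs M hM.2 r S
  have hb := S.b0_nonneg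
  have hT1 : (1 : ℝ) ≤ T := by exact_mod_cast hT.2.2
  have k4 : C * |C0| * 2 ^ d ≤ T * (ε / 3) :=
    (div_le_iff₀ (by positivity)).1 (h3.trans (by exact_mod_cast hT.2.1))
  have k5 : C * r * ((T : ℝ) + 1) ^ d ≤ C * (|C0| * S.b0) * (2 * T) ^ d := by
    gcongr
    · exact hr.trans (mul_le_mul_of_nonneg_right (le_abs_self _) hb)
    · linarith
  have k6 := mul_le_mul_of_nonneg_right k4 (mul_nonneg hb (pow_nonneg (Nat.cast_nonneg (α := ℝ) T) d))
  rw [mul_pow] at k5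
  rw [pow_succ] at k1 k2 ⊢
  nlinarith

theorem LowM.mono {Q : Type} [AddCommGroup Q] [Module R Q] {E E' : ℝ} (h : LowM R d Q E) (hE : E' ≤ E) :
    LowM R d Q E' := by
  intro N0 C0 ε hε
  obtain ⟨T0, h⟩ := h N0 C0 ε hε
  refine ⟨T0, fun T hT => (h T hT).imp fun M0 h M hM r S hr => le_trans ?_ (h M hM r S hr)⟩
  have := S.b0_nonneg
  gcongr

theorem lowM_of_nonpos (Q : Type) [AddCommGroup Q] [Module R Q] {E : ℝ} (hE : E ≤ 0) : LowM R d Q E := by
  refine fun N0 C0 ε hε => ⟨0, fun T _ => ⟨0, fun M _ r S _ => le_trans ?_ (S.zl_nonneg T)⟩⟩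
  exact mul_nonpos_of_nonpos_of_nonneg (mul_nonpos_of_nonneg_of_nonpos S.b0_nonneg (by linarith))
    (by positivity)

theorem LowM.of_equiv {Q Q' : Type} [AddCommGroup Q] [Module R Q] [AddCommGroup Q'] [Module R Q'] {E : ℝ}
    (h : LowM R d Q E) (e : Q ≃ₗ[R] Q') : LowM R d Q' E := by
  intro N0 C0 ε hε
  obtain ⟨T0, h⟩ := h N0 C0 ε hε
  exact ⟨T0, fun T hT => (h T hT).imp fun M0 h M hM r S hr => S.zl_equiv e T ▸ h M hM r S hr⟩

/-- `Sys.map`, `Sys.zl_map`, `Sys.b0_map`. -/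
theorem lowM_of_quot (P : Ideal R) [IsLocalRing (R ⧸ P)] {E : ℝ} (h : LowB (R ⧸ P) d E) :
    LowM R d (R ⧸ P) E := by
  intro N0 C0 ε hε
  obtain ⟨T0, h⟩ := h N0 C0 ε hε
  refine ⟨T0, fun T hT => (h T hT).imp fun M0 h M hM r S hr => ?_⟩
  have hs : Function.Surjective (algebraMap R (R ⧸ P)) := Ideal.Quotient.mk_surjective
  have hm := map_maximalIdeal_of_surjective _ hs
  have hb := S.b0_map hs hm (le_maximalIdeal (RingHom.ker_ne_top _))
  have := h M hM r (S.map _ hs hm) (hb ▸ hr)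
  rwa [hb, S.zl_map hs hm] at this

end Crest.Agent.R183
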