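import Crest.Agent.R183.L2

/-!
# rid 183, file `XCalc`: the stable Euler characteristic (independence, differences, vanishing)

Prefix helper lemmas with `xc_`.  Notation: `T = F bot`, `Θ = F t`, `∂ = del`,
`P_U = (U ⊓ comap ∂ (F (t+n0))) ⊔ Θ`, `Q_U = map ∂ U ⊔ Θ`.  All submodules that occur are graded and lie
between `F top` and `F bot`, so the `chi` calculus of `L2` applies with `hG := Φ.good`.
-/

set_option autoImplicit false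

open Submodule

namespace Crest.Agent.R183

variable {Λ : Type} [CommRing Λ] {α : Λ} {E : Type} [AddCommGroup E] [Module Λ E]
  {L : GLen Λ α} {G : DG Λ E} {bot top : ℤ} {n0 : ℕ} (Φ : Filt L G bot top n0)

namespace Filt

theorem xc_dd (v : E) : G.del (G.del v) = 0 := LinearMap.congr_fun G.del_sq v

theorem xc_bd (A B : Submodule Λ E) : A.map G.del ≤ B.comap G.del := by
  rintro _ ⟨v, -, rfl⟩
  rw [mem_comap, xc_dd]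
  exact zero_mem _

theorem xc_bot {U : Submodule Λ E} (hU1 : U ≤ Φ.F (bot + n0)) : U ≤ Φ.F bot :=
  hU1.trans (Φ.anti (by omega))

/-- If `z ∈ U ≤ F (bot + n0)` and `∂ z ∈ F (t + n0)`, then `hZ bot t` gives `α^c z = ∂ w + θ`, and
`∂ w = α^c z - θ ∈ U`.  (The reverse inclusion `map ∂ T ⊓ U ≤ U ⊓ comap ∂ Θ'` is exact, as `∂ ∂ = 0`.) -/
theorem ale_bd {U : Submodule Λ E} {t : ℤ} (hU1 : U ≤ Φ.F (bot + n0)) (hU2 : Φ.F t ≤ U)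
    (h1 : bot ≤ t) (h2 : t + n0 ≤ top) :
    ALE α ((U ⊓ (Φ.F (t + n0)).comap G.del) ⊔ Φ.F t) (((Φ.F bot).map G.del ⊓ U) ⊔ Φ.F t) := by
  refine ALE.sup ?_ (ALE.of_le le_sup_right)
  obtain ⟨c, hc⟩ := Φ.hZ bot t le_rfl h1 h2
  refine ⟨c, fun z hz => ?_⟩
  obtain ⟨a, ha, θ, hθ, e⟩ := mem_sup.1 (hc z ⟨hU1 hz.1, hz.2⟩)
  rw [← e]
  refine add_mem_sup ⟨ha, ?_⟩ hθ
  rw [eq_sub_of_add_eq e]
  exact U.sub_mem (U.smul_mem _ hz.1) (hU2 hθ)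

/-- `cx U t = chi ((map ∂ T ⊓ U) ⊔ Θ) Q_U`. -/
theorem cx_eq_bd {U : Submodule Λ E} {t : ℤ} (hU : G.Sub U) (hU1 : U ≤ Φ.F (bot + n0))
    (hU2 : Φ.F t ≤ U) (h1 : bot ≤ t) (h2 : t + n0 ≤ top) :
    Φ.cx U t = G.chi L (((Φ.F bot).map G.del ⊓ U) ⊔ Φ.F t) (U.map G.del ⊔ Φ.F t) := by
  have hΘ := (Φ.sub t).1
  have hT := Φ.xc_bot hU1
  exact DG.chi_congr_left L Φ.good ((hU.1.inf (Φ.sub _).1.comap_del).sup hΘ)
    (((Φ.sub _).1.map_del.inf hU.1).sup hΘ) (le_sup_of_le_right (Φ.anti (by omega)))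
    (sup_le_sup_right (le_inf hU.2 (xc_bd _ _)) _) (sup_le_sup_right (le_inf (map_mono hT) hU.2) _)
    ((sup_le inf_le_left hU2).trans hT) ((sup_le inf_le_right hU2).trans hT)
    (Φ.ale_bd hU1 hU2 h1 h2) (ALE.of_le (sup_le_sup_right
      (le_inf inf_le_right (inf_le_left.trans (xc_bd _ _))) _))

/-- Independence of the level.  Use `cx_eq_bd` at `t` and `t + 1`.  Put `A = map ∂ T ⊓ U`, `B = map ∂ U`,
`Θ1 = F (t+1) ≤ Θ`.  Then `chi (A ⊔ Θ) (B ⊔ Θ) = chi (A ⊔ Θ1) ((A ⊔ Θ1) ⊓ (B ⊔ Θ))` (`chi_sup`, `chi_inf`, as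
`A ⊔ Θ = (A ⊔ Θ1) ⊔ Θ`), and `(A ⊔ Θ1) ⊓ (B ⊔ Θ)` is almost equal to `B ⊔ Θ1`: an element is
`a + θ1 = b + θ`, so `θ' = a - b ∈ Θ` is a cycle and `hZ (t - n0) (t + 1)` gives
`α^c θ' ∈ map ∂ (F (t - n0)) ⊔ Θ1 ≤ B ⊔ Θ1`. -/
theorem cx_succ {U : Submodule Λ E} {t : ℤ} (hU : G.Sub U) (hU1 : U ≤ Φ.F (bot + n0))
    (hU2 : Φ.F (t - n0) ≤ U) (h1 : bot ≤ t - n0) (h2 : t + 1 + n0 ≤ top) :
    Φ.cx U (t + 1) = Φ.cx U t := by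
  have l1 : Φ.F (t + 1) ≤ Φ.F t := Φ.anti (by omega)
  have l2 : Φ.F t ≤ U := (Φ.anti (by omega)).trans hU2
  have l3 : Φ.F top ≤ Φ.F (t + 1) := Φ.anti (by omega)
  have hT := Φ.xc_bot hU1
  have gA := ((Φ.sub bot).1.map_del.inf hU.1).sup (Φ.sub (t + 1)).1
  have gB := hU.1.map_del.sup (Φ.sub t).1
  have hBA : U.map G.del ≤ (Φ.F bot).map G.del ⊓ U := le_inf (map_mono hT) hU.2
  rw [Φ.cx_eq_bd hU hU1 (l1.trans l2) (by omega) h2, Φ.cx_eq_bd hU hU1 l2 (by omega) (by omega),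
    ← sup_eq_right.2 l1, ← sup_assoc ((Φ.F bot).map G.del ⊓ U), sup_eq_right.2 l1,
    DG.chi_sup L gB le_sup_right, ← DG.chi_inf L (Q := U.map G.del ⊔ Φ.F t) gA]
  refine DG.chi_congr_right L Φ.good gA (hU.1.map_del.sup (Φ.sub _).1) (gA.inf gB)
    (le_sup_of_le_right l3) (le_inf (le_sup_of_le_right l3) (le_sup_of_le_right (l3.trans l1)))
    (sup_le_sup_right hBA _) inf_le_left ((sup_le inf_le_right (l1.trans l2)).trans hT)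
    (ALE.of_le (le_inf (sup_le_sup_right hBA _) (sup_le_sup_left l1 _))) ?_
  obtain ⟨c, hc⟩ := Φ.hZ (t - n0) (t + 1) h1 (by omega) h2
  rw [sub_add_cancel] at hc
  refine ⟨c, fun v hv => ?_⟩
  obtain ⟨a, ha, θ1, hθ1, e1⟩ := mem_sup.1 hv.1
  obtain ⟨b, hb, θ, hθ, e2⟩ := mem_sup.1 hv.2
  have a1 : a - b ∈ Φ.F t := by
    rw [show a - b = θ - θ1 by rw [sub_eq_sub_iff_add_eq_add, e1, ← e2, add_comm]]
    exact sub_mem hθ (l1 hθ1)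
  have a3 : (Φ.F (t - n0)).map G.del ⊔ Φ.F (t + 1) ≤ U.map G.del ⊔ Φ.F (t + 1) :=
    sup_le_sup_right (map_mono hU2) _
  have a2 := a3 (hc (a - b) ⟨a1, sub_mem (xc_bd _ _ ha.1) (xc_bd _ _ hb)⟩)
  rw [show v = a - b + (b + θ1) by rw [← e1]; abel, smul_add]
  exact add_mem a2 (smul_mem _ _ (add_mem_sup hb hθ1))

theorem xc_PZ {U : Submodule Λ E} {t : ℤ} (hU2 : Φ.F t ≤ U) :
    ((Φ.F bot).map G.del ⊓ U) ⊔ Φ.F t ≤ U ⊓ (Φ.F t).comap G.del :=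
  sup_le (le_inf inf_le_right (inf_le_left.trans (xc_bd _ _)))
    (le_inf hU2 (map_le_iff_le_comap.1 (Φ.sub t).2))

theorem xc_key {U : Submodule Λ E} {t : ℤ} (hU : G.Sub U) (hU1 : U ≤ Φ.F (bot + n0))
    (hU2 : Φ.F t ≤ U) (h1 : bot ≤ t) (h2 : t + n0 ≤ top) :
    G.chi L U (Φ.F t) = G.chi L (U ⊓ (Φ.F t).comap G.del) (((Φ.F bot).map G.del ⊓ U) ⊔ Φ.F t) +
      Φ.cx U t := by
  have hΘ := (Φ.sub t).1
  have hT := Φ.xc_bot hU1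
  have l3 : Φ.F top ≤ Φ.F t := Φ.anti (by omega)
  have gZ := hU.1.inf hΘ.comap_del
  have gP := ((Φ.sub bot).1.map_del.inf hU.1).sup hΘ
  have hPZ := Φ.xc_PZ hU2
  rw [Φ.cx_eq_bd hU hU1 hU2 h1 h2,
    DG.chi_chain L Φ.good hU.1 gZ l3 (le_sup_right.trans hPZ) inf_le_left hT,
    DG.chi_chain L Φ.good gZ gP l3 le_sup_right hPZ (inf_le_left.trans hT),
    DG.chi_chain L Φ.good gP (hU.1.map_del.sup hΘ) l3 le_sup_right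
      (sup_le_sup_right (le_inf (map_mono hT) hU.2) _) ((hPZ.trans inf_le_left).trans hT),
    DG.chi_sup L hΘ le_rfl, DG.chi_map L Φ.good, DG.chi_inf L hU.1]
  ring

/-- Difference formula.  With `Z_U = U ⊓ comap ∂ Θ` and `P'_U = (map ∂ T ⊓ U) ⊔ Θ`:
`chi U Θ = chi U Z_U + chi Z_U P'_U + chi P'_U Q_U + chi Q_U Θ` and `chi Q_U Θ = - chi U Z_U`
(`chi_sup`, `chi_map`, `chi_inf`), so `chi U Θ = chi Z_U P'_U + cx U t`.  Moreover `Z_U` is almost equal to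
`Z_U' ⊔ P'_U` (`hZ bot (t - n0)`: `α^c z = ∂ w + θ` with `θ ∈ F (t - n0) ≤ U'`, `∂ θ ∈ Θ`), and
`Z_U' ⊓ P'_U = P'_U'`; so `chi Z_U P'_U = chi Z_U' P'_U'`.  Finally `chi U Θ = chi U U' + chi U' Θ`. -/
theorem cx_diff {U U' : Submodule Λ E} {t : ℤ} (hU : G.Sub U) (hU' : G.Sub U') (hle : U' ≤ U)
    (hU1 : U ≤ Φ.F (bot + n0)) (hU2 : Φ.F (t - n0) ≤ U') (h1 : bot ≤ t - n0) (h2 : t + n0 ≤ top) :
    Φ.cx U t - Φ.cx U' t = G.chi L U U' := by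
  have l2 : Φ.F t ≤ U' := (Φ.anti (by omega)).trans hU2
  have l3 : Φ.F top ≤ Φ.F t := Φ.anti (by omega)
  have hΘ := (Φ.sub t).1
  have hT := Φ.xc_bot hU1
  have k1 := Φ.xc_key hU hU1 (l2.trans hle) (by omega) h2
  have k2 := Φ.xc_key hU' (hle.trans hU1) l2 (by omega) h2
  have k3 := DG.chi_chain L Φ.good hU.1 hU'.1 l3 l2 hle hT
  have gZ := hU.1.inf hΘ.comap_del
  have gZ' := hU'.1.inf hΘ.comap_del
  have gP := ((Φ.sub bot).1.map_del.inf hU.1).sup hΘ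
  have hPZ := Φ.xc_PZ (l2.trans hle)
  have hZZ := sup_le (inf_le_inf_right ((Φ.F t).comap G.del) hle) hPZ
  have e : U' ⊓ (Φ.F t).comap G.del ⊓ (((Φ.F bot).map G.del ⊓ U) ⊔ Φ.F t) =
      ((Φ.F bot).map G.del ⊓ U') ⊔ Φ.F t := by
    refine le_antisymm ?_ (le_inf (Φ.xc_PZ l2) (sup_le_sup_right (inf_le_inf_left _ hle) _))
    rintro v ⟨hv, hv'⟩
    obtain ⟨a, ha, θ, hθ, rfl⟩ := mem_sup.1 hv'
    exact add_mem_sup ⟨ha.1, by simpa using U'.sub_mem hv.1 (l2 hθ)⟩ hθ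
  have k4 := DG.chi_congr_left L Φ.good gZ (gZ'.sup gP) (le_sup_of_le_right l3) hPZ le_sup_right
    (inf_le_left.trans hT) ((hZZ.trans inf_le_left).trans hT) ?_ (ALE.of_le hZZ)
  · rw [DG.chi_sup L gP le_rfl, ← DG.chi_inf L gZ', e] at k4
    linarith
  · obtain ⟨c, hc⟩ := Φ.hZ bot (t - n0) le_rfl h1 (by omega)
    rw [sub_add_cancel] at hc
    refine ⟨c, fun z hz => ?_⟩
    obtain ⟨a, ha, θ, hθ, e⟩ := mem_sup.1 (hc z ⟨hU1 hz.1, hz.2⟩)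
    rw [← e, add_comm]
    refine add_mem_sup ⟨hU2 hθ, ?_⟩ (mem_sup_left ⟨ha, ?_⟩)
    · rw [eq_sub_of_add_eq' e]
      exact sub_mem (smul_mem _ _ hz.2) (xc_bd _ _ ha)
    · rw [eq_sub_of_add_eq e]
      exact U.sub_mem (U.smul_mem _ hz.1) (hle (hU2 hθ))

theorem xc_deg {U : Submodule Λ E} {t : ℤ} (hU : G.Sub U) {j : ℤ}
    (ha : ∀ z ∈ U, G.π j z = z → G.del z ∈ Φ.F t → z ∈ U.map G.del ⊔ Φ.F t) :
    ((U ⊓ (Φ.F (t + n0)).comap G.del) ⊔ Φ.F t).map (G.π j) ≤ U.map G.del ⊔ Φ.F t := by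
  rw [Submodule.map_sup]
  refine sup_le ?_ (le_sup_of_le_right ((Φ.sub t).1 j))
  rintro _ ⟨z, hz, rfl⟩
  have h := (hU.1.inf (Φ.sub _).1.comap_del) j ⟨z, hz, rfl⟩
  exact ha _ h.1 (DG.l2_idem j z) (Φ.anti (by omega : t ≤ t + n0) h.2)

/-- Vanishing outside degree `0`.  For `j < 0` apply `ha` to `π j z`, `z ∈ U ⊓ comap ∂ (F (t+n0))`.  For
`j > 0` use `ale_bd`: if `∂ w ∈ U` then `π j (∂ w) = ∂ (π (j+1) w) ∈ U`, and `hb` gives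
`π (j+1) w ∈ map ∂ T ⊔ U`, so `π j (∂ w) ∈ map ∂ U`.  Then `chi_single`. -/
theorem cx_eq_deg0 {U : Submodule Λ E} {t : ℤ} (hU : G.Sub U) (hU1 : U ≤ Φ.F (bot + n0))
    (hU2 : Φ.F t ≤ U) (h1 : bot ≤ t) (h2 : t + n0 ≤ top)
    (ha : ∀ j : ℤ, j < 0 → ∀ z ∈ U, G.π j z = z → G.del z ∈ Φ.F t → z ∈ U.map G.del ⊔ Φ.F t)
    (hb : ∀ j : ℤ, 1 < j → ∀ w ∈ Φ.F bot, G.π j w = w → G.del w ∈ U →
      w ∈ (Φ.F bot).map G.del ⊔ U) :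
    Φ.cx U t = L.l2 (((U ⊓ (Φ.F (t + n0)).comap G.del) ⊔ Φ.F t).map (G.π 0))
      (U.map G.del ⊔ Φ.F t) := by
  have hT := Φ.xc_bot hU1
  refine DG.chi_single L Φ.good ((hU.1.inf (Φ.sub _).1.comap_del).sup (Φ.sub _).1)
    (le_sup_of_le_right (Φ.anti (by omega))) ((sup_le inf_le_left hU2).trans hT) fun j hj => ?_
  rcases hj.lt_or_gt with hj | hj
  · exact ALE.of_le (Φ.xc_deg hU (ha j hj))
  · obtain ⟨c, hc⟩ := Φ.ale_bd hU1 hU2 h1 h2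
    refine ⟨c, ?_⟩
    rintro _ ⟨v, hv, rfl⟩
    obtain ⟨_, ⟨⟨w, hw, rfl⟩, hw'⟩, θ, hθ, e⟩ := mem_sup.1 (hc v hv)
    rw [← LinearMap.map_smul, ← e, map_add]
    refine add_mem_sup ?_ ((Φ.sub t).1 j ⟨θ, hθ, rfl⟩)
    have h3 := hb (j + 1) (by omega) _ ((Φ.sub bot).1 _ ⟨w, hw, rfl⟩) (DG.l2_idem _ w)
      (by rw [← DG.l2_del]; exact hU.1 j ⟨_, hw', rfl⟩)
    obtain ⟨_, ⟨x, -, rfl⟩, u, hu, e'⟩ := mem_sup.1 h3
    rw [DG.l2_del, ← e', map_add, xc_dd, zero_add]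
    exact ⟨u, hu, rfl⟩

/-- If `U / F t` is acyclic then `cx U t = 0`. -/
theorem cx_eq_zero {U : Submodule Λ E} {t : ℤ} (hU : G.Sub U) (hU1 : U ≤ Φ.F bot)
    (hU2 : Φ.F t ≤ U) (h2 : t + n0 ≤ top)
    (ha : ∀ j : ℤ, ∀ z ∈ U, G.π j z = z → G.del z ∈ Φ.F t → z ∈ U.map G.del ⊔ Φ.F t) :
    Φ.cx U t = 0 := by
  unfold Filt.cx DG.cx DG.chi
  refine Finset.sum_eq_zero fun j _ => ?_
  rw [DG.l2_le0 (E := E) L Φ.good (Φ.xc_deg hU (ha j)), mul_zero]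

end Filt

end Crest.Agent.R183
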